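import Crest.Agent.R121.BDefs
import Crest.Prelude.Def_Hochschild

/-!
# Row 121, PART B, piece B0: the complete bound in the last variable, index types

`LastCB M C f` is the NORMAL FORM of the hypothesis of PART B (output of module P): square matrices, contractive.
`LastCB.lastB`: the linear map `y ↦ f (x, y)` satisfies `LastB` (rectangular) with constant `C ∏ ‖x_l‖`
(pad with zeros: `Fin p ⊕ Fin q ≃ Fin (p + q)`).
`LastB.fin`: `LastB` for arbitrary finite index types.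
`LastB.row`: `‖∑_{i ∈ F} φ(c_i⋆) c_i z‖² ≤ C² ‖z‖²` if `∑_{i ∈ F} ‖c_i z‖² ≤ ‖z‖²` for all `z` (the row
`(c_i⋆)_i` is the adjoint of the column `(c_i)_i`: `‖∑ c_i⋆ ζ_i‖² = ⟪∑ c_i⋆ ζ_i, w⟫ = ∑ ⟪ζ_i, c_i w⟫`
`≤ (∑‖ζ_i‖²)^{1/2} ‖w‖`, `w = ∑ c_i⋆ ζ_i`).
`LastB.pi`: finitely many maps together, values in `PiLp 2`.
-/

set_option autoImplicit false

namespace Crest.Agent.R121

open Crest.Agent.R124.J
open scoped InnerProductSpace ComplexConjugate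

universe u v w w'
variable {H : Type u} [NormedAddCommGroup H] [InnerProductSpace ℂ H] [CompleteSpace H]
variable {M : VonNeumannAlgebra H}

/-- **complete bound in the last variable**: normal form of the hypothesis of PART B -/
def LastCB (M : VonNeumannAlgebra H) {n : ℕ} (C : ℝ)
    (f : (Fin (n + 1) → M.toStarSubalgebra) → M.toStarSubalgebra) : Prop :=
  ∀ (x : Fin n → M.toStarSubalgebra) (m : ℕ) (y : Fin m → Fin m → M.toStarSubalgebra),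
    (∀ ζ : Fin m → H, ∑ k, ‖∑ j, ((y k j : M.toStarSubalgebra) : H →L[ℂ] H) (ζ j)‖ ^ 2 ≤
      ∑ j, ‖ζ j‖ ^ 2) →
    ∀ ξ : Fin m → H,
      ∑ k, ‖∑ j, ((f (Fin.snoc x (y k j)) : M.toStarSubalgebra) : H →L[ℂ] H) (ξ j)‖ ^ 2 ≤
        (C * ∏ l, ‖x l‖) ^ 2 * ∑ j, ‖ξ j‖ ^ 2

/-- `f (x, ·)` as a linear map -/
noncomputable def lastMap (M : VonNeumannAlgebra H) {n : ℕ}
    (f : ContinuousMultilinearMap ℂ (fun _ : Fin (n + 1) => M.toStarSubalgebra) M.toStarSubalgebra)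
    (x : Fin n → M.toStarSubalgebra) : NA M →ₗ[ℂ] NA M where
  toFun y := f (Fin.snoc (α := fun _ => M.toStarSubalgebra) x y)
  map_add' y y' := MultilinearMap.snoc_add f.toMultilinearMap x y y'
  map_smul' c y := MultilinearMap.snoc_smul f.toMultilinearMap x c y

theorem lastMap_apply {n : ℕ}
    (f : ContinuousMultilinearMap ℂ (fun _ : Fin (n + 1) => M.toStarSubalgebra) M.toStarSubalgebra)
    (x : Fin n → M.toStarSubalgebra) (y : NA M) :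
    lastMap M f x y = f (Fin.snoc (α := fun _ => M.toStarSubalgebra) x y) := rfl

/-- composition with the inclusion `NA M → B(H)` -/
noncomputable def valL (φ : NA M →ₗ[ℂ] NA M) : NA M →ₗ[ℂ] (H →L[ℂ] H) where
  toFun y := NA.val (φ y)
  map_add' y y' := by rw [map_add, map_add]
  map_smul' c y := by rw [map_smul, map_smul, RingHom.id_apply]

theorem valL_apply (φ : NA M →ₗ[ℂ] NA M) (y : NA M) : valL φ y = NA.val (φ y) := rfl

section
variable {H' : Type v} [NormedAddCommGroup H'] [InnerProductSpace ℂ H']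

theorem LastB.fin {φ : NA M →ₗ[ℂ] (H →L[ℂ] H')} {C : ℝ} (h : LastB φ C) {ι : Type w} {κ : Type w'}
    [Fintype ι] [Fintype κ] (y : ι → κ → NA M)
    (hy : ∀ ζ : κ → H, ∑ k, ‖∑ j, NA.val (y k j) (ζ j)‖ ^ 2 ≤ ∑ j, ‖ζ j‖ ^ 2) (ξ : κ → H) :
    ∑ k, ‖∑ j, φ (y k j) (ξ j)‖ ^ 2 ≤ C ^ 2 * ∑ j, ‖ξ j‖ ^ 2 := by
  have eι : ι ≃ Fin (Fintype.card ι) := Fintype.equivFin ι
  have eκ : κ ≃ Fin (Fintype.card κ) := Fintype.equivFin κ
  have h1 := h (Fintype.card ι) (Fintype.card κ) (fun p q => y (eι.symm p) (eκ.symm q)) (by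
    intro ζ
    have h2 := hy (fun j => ζ (eκ j))
    have e1 : ∀ k : ι, ∑ j, NA.val (y k j) (ζ (eκ j)) =
        ∑ j, NA.val (y k (eκ.symm j)) (ζ j) := by
      intro k
      rw [← Equiv.sum_comp eκ.symm (fun j => NA.val (y k j) (ζ (eκ j)))]
      simp
    simp only [e1] at h2
    rw [← Equiv.sum_comp eι.symm (fun k => ‖∑ j, NA.val (y k (eκ.symm j)) (ζ j)‖ ^ 2),
      Equiv.sum_comp eκ (fun j => ‖ζ j‖ ^ 2)] at h2
    exact h2) (fun q => ξ (eκ.symm q))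
  have e1 : ∀ k : ι, ∑ j, φ (y k (eκ.symm j)) (ξ (eκ.symm j)) = ∑ j, φ (y k j) (ξ j) :=
    fun k => Equiv.sum_comp eκ.symm (fun j => φ (y k j) (ξ j))
  simp only [e1] at h1
  rw [Equiv.sum_comp eι.symm (fun k => ‖∑ j, φ (y k j) (ξ j)‖ ^ 2),
    Equiv.sum_comp eκ.symm (fun j => ‖ξ j‖ ^ 2)] at h1
  exact h1

private theorem b0_adj {ι : Type w} [Fintype ι] (c : ι → NA M)
    (hc : ∀ z : H, ∑ i, ‖NA.val (c i) z‖ ^ 2 ≤ ‖z‖ ^ 2) (ζ : ι → H) :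
    ‖∑ i, NA.val (star (c i)) (ζ i)‖ ^ 2 ≤ ∑ i, ‖ζ i‖ ^ 2 := by
  set z : H := ∑ i, NA.val (star (c i)) (ζ i) with hz
  have h1 : ‖z‖ ^ 2 = ∑ i, RCLike.re ⟪ζ i, NA.val (c i) z⟫_ℂ := by
    rw [← inner_self_eq_norm_sq (𝕜 := ℂ)]
    conv_lhs => rw [show ⟪z, z⟫_ℂ = ⟪∑ i, NA.val (star (c i)) (ζ i), z⟫_ℂ from rfl]
    rw [sum_inner, map_sum]
    refine Finset.sum_congr rfl fun i _ => ?_
    rw [map_star, ContinuousLinearMap.star_eq_adjoint, ContinuousLinearMap.adjoint_inner_left]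
  have h2 : ‖z‖ ^ 2 ≤ ∑ i, ‖ζ i‖ * ‖NA.val (c i) z‖ := by
    rw [h1]
    exact Finset.sum_le_sum fun i _ => (re_inner_le_norm _ _)
  have h3 : (∑ i, ‖ζ i‖ * ‖NA.val (c i) z‖) ^ 2 ≤
      (∑ i, ‖ζ i‖ ^ 2) * ∑ i, ‖NA.val (c i) z‖ ^ 2 := Finset.sum_mul_sq_le_sq_mul_sq _ _ _
  have h4 : (‖z‖ ^ 2) ^ 2 ≤ (∑ i, ‖ζ i‖ ^ 2) * ‖z‖ ^ 2 := by
    have h5 : 0 ≤ ‖z‖ ^ 2 := sq_nonneg _
    calc (‖z‖ ^ 2) ^ 2 ≤ (∑ i, ‖ζ i‖ * ‖NA.val (c i) z‖) ^ 2 := by gcongr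
      _ ≤ _ := h3
      _ ≤ _ := mul_le_mul_of_nonneg_left (hc z) (Finset.sum_nonneg fun _ _ => sq_nonneg _)
  rcases eq_or_lt_of_le (sq_nonneg ‖z‖) with h0 | h0
  · rw [← h0]
    exact Finset.sum_nonneg fun _ _ => sq_nonneg _
  · rw [sq (‖z‖ ^ 2)] at h4
    exact le_of_mul_le_mul_right h4 h0

theorem LastB.row {φ : NA M →ₗ[ℂ] (H →L[ℂ] H')} {C : ℝ} (h : LastB φ C) {ι : Type w}
    (F : Finset ι) (c : ι → NA M) (hc : ∀ z : H, ∑ i ∈ F, ‖NA.val (c i) z‖ ^ 2 ≤ ‖z‖ ^ 2) (z : H) :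
    ‖∑ i ∈ F, φ (star (c i)) (NA.val (c i) z)‖ ^ 2 ≤ C ^ 2 * ‖z‖ ^ 2 := by
  have hc' : ∀ z : H, ∑ i : F, ‖NA.val (c i) z‖ ^ 2 ≤ ‖z‖ ^ 2 := by
    intro z
    rw [Finset.sum_coe_sort F (fun i => ‖NA.val (c i) z‖ ^ 2)]
    exact hc z
  have h1 := h.fin (ι := Unit) (κ := F) (fun _ i => star (c i)) (by
    intro ζ
    rw [Fintype.sum_unique]
    exact b0_adj (fun i : F => c i) hc' ζ) (fun i => NA.val (c i) z)
  rw [Fintype.sum_unique, Finset.sum_coe_sort F (fun i => φ (star (c i)) (NA.val (c i) z))] at h1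
  exact h1.trans (mul_le_mul_of_nonneg_left (hc' z) (sq_nonneg C))

/-- the product of finitely many maps -/
noncomputable def piL {m : ℕ} (φ : Fin m → NA M →ₗ[ℂ] (H →L[ℂ] H')) :
    NA M →ₗ[ℂ] (H →L[ℂ] PiLp 2 (fun _ : Fin m => H')) where
  toFun y := ((PiLp.continuousLinearEquiv 2 ℂ (fun _ : Fin m => H')).symm :
    (Fin m → H') →L[ℂ] PiLp 2 (fun _ : Fin m => H')) ∘L ContinuousLinearMap.pi (fun s => φ s y)
  map_add' y y' := by
    refine ContinuousLinearMap.ext fun ξ => PiLp.ext fun s => ?_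
    show (φ s (y + y')) ξ = (φ s y) ξ + (φ s y') ξ
    rw [map_add]
    rfl
  map_smul' c y := by
    refine ContinuousLinearMap.ext fun ξ => PiLp.ext fun s => ?_
    show (φ s (c • y)) ξ = c • (φ s y) ξ
    rw [map_smul]
    rfl

theorem piL_apply {m : ℕ} (φ : Fin m → NA M →ₗ[ℂ] (H →L[ℂ] H')) (y : NA M) (ξ : H) (s : Fin m) :
    piL φ y ξ s = φ s y ξ := rfl

theorem LastB.pi {m : ℕ} {φ : Fin m → NA M →ₗ[ℂ] (H →L[ℂ] H')} {C : Fin m → ℝ}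
    (h : ∀ s, LastB (φ s) (C s)) : LastB (piL φ) (Real.sqrt (∑ s, C s ^ 2)) := by
  intro p q y hy ξ
  rw [Real.sq_sqrt (Finset.sum_nonneg fun s _ => sq_nonneg (C s)), Finset.sum_mul]
  have h1 : ∀ k : Fin p, ‖∑ j, piL φ (y k j) (ξ j)‖ ^ 2 = ∑ s, ‖∑ j, φ s (y k j) (ξ j)‖ ^ 2 := by
    intro k
    rw [PiLp.norm_sq_eq_of_L2]
    refine Finset.sum_congr rfl fun s _ => ?_
    congr 2
    have h2 : ∀ (F : Finset (Fin q)), (∑ j ∈ F, piL φ (y k j) (ξ j)) s =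
        ∑ j ∈ F, φ s (y k j) (ξ j) := by
      intro F
      induction F using Finset.cons_induction with
      | empty => simp
      | cons a F ha ih => rw [Finset.sum_cons, Finset.sum_cons, PiLp.add_apply, ih, piL_apply]
    exact h2 _
  simp only [h1]
  rw [Finset.sum_comm]
  exact Finset.sum_le_sum fun s _ => h s p q y hy ξ

end

theorem LastCB.lastB {n : ℕ} {C : ℝ}
    {f : ContinuousMultilinearMap ℂ (fun _ : Fin (n + 1) => M.toStarSubalgebra) M.toStarSubalgebra}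
    (h : LastCB M C f) (x : Fin n → M.toStarSubalgebra) :
    LastB (valL (lastMap M f x)) (C * ∏ l, ‖x l‖) := by
  intro p q y hy ξ
  set Y : Fin (p + q) → Fin (p + q) → NA M := fun k j =>
    Fin.addCases (motive := fun _ => NA M)
      (fun i => Fin.addCases (motive := fun _ => NA M) (fun _ => 0) (fun j' => y i j') j)
      (fun _ => 0) k with hY
  have Y1 : ∀ (i : Fin p) (j : Fin q), Y (Fin.castAdd q i) (Fin.natAdd p j) = y i j := by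
    intro i j; simp [hY]
  have Y2 : ∀ (i : Fin p) (j : Fin p), Y (Fin.castAdd q i) (Fin.castAdd q j) = 0 := by
    intro i j; simp [hY]
  have Y3 : ∀ (i : Fin q) (j : Fin (p + q)), Y (Fin.natAdd p i) j = 0 := by
    intro i j; simp [hY]
  set ξ' : Fin (p + q) → H := Fin.addCases (motive := fun _ => H) (fun _ => 0) ξ with hξ'
  have X1 : ∀ j : Fin q, ξ' (Fin.natAdd p j) = ξ j := by intro j; simp [hξ']
  have X2 : ∀ j : Fin p, ξ' (Fin.castAdd q j) = 0 := by intro j; simp [hξ']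
  have hf0 : valL (lastMap M f x) 0 = 0 := map_zero _
  have hY0 : ∀ ζ : Fin (p + q) → H,
      ∑ k, ‖∑ j, NA.val (Y k j) (ζ j)‖ ^ 2 ≤ ∑ j, ‖ζ j‖ ^ 2 := by
    intro ζ
    rw [Fin.sum_univ_add, Fin.sum_univ_add (fun j => ‖ζ j‖ ^ 2)]
    have h1 : ∀ i : Fin p, ∑ j, NA.val (Y (Fin.castAdd q i) j) (ζ j) =
        ∑ j, NA.val (y i j) (ζ (Fin.natAdd p j)) := by
      intro i
      rw [Fin.sum_univ_add]
      simp only [Y1, Y2, map_zero, zero_apply, Finset.sum_const_zero, zero_add]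
    have h2 : ∀ i : Fin q, ∑ j, NA.val (Y (Fin.natAdd p i) j) (ζ j) = 0 := by
      intro i
      simp only [Y3, map_zero, zero_apply, Finset.sum_const_zero]
    simp only [h1, h2, norm_zero]
    have h3 := hy (fun j => ζ (Fin.natAdd p j))
    have h4 : 0 ≤ ∑ i : Fin p, ‖ζ (Fin.castAdd q i)‖ ^ 2 :=
      Finset.sum_nonneg fun _ _ => sq_nonneg _
    have h5 : ∑ _x : Fin q, (0 : ℝ) ^ 2 = 0 := by simp
    rw [h5]
    linarith
  have key : ∑ k, ‖∑ j, valL (lastMap M f x) (Y k j) (ξ' j)‖ ^ 2 ≤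
      (C * ∏ l, ‖x l‖) ^ 2 * ∑ j, ‖ξ' j‖ ^ 2 := h x (p + q) Y hY0 ξ'
  rw [Fin.sum_univ_add, Fin.sum_univ_add (fun j => ‖ξ' j‖ ^ 2)] at key
  have h1 : ∀ i : Fin p, ∑ j, valL (lastMap M f x) (Y (Fin.castAdd q i) j) (ξ' j) =
      ∑ j, valL (lastMap M f x) (y i j) (ξ j) := by
    intro i
    rw [Fin.sum_univ_add]
    simp only [Y1, Y2, X1, hf0, zero_apply, Finset.sum_const_zero, zero_add]
  have h2 : ∀ i : Fin q, ∑ j, valL (lastMap M f x) (Y (Fin.natAdd p i) j) (ξ' j) = 0 := by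
    intro i
    simp only [Y3, hf0, zero_apply, Finset.sum_const_zero]
  simp only [h1, h2, X1, X2, norm_zero] at key
  have h5 : ∑ _x : Fin q, (0 : ℝ) ^ 2 = 0 := by simp
  have h6 : ∑ _x : Fin p, (0 : ℝ) ^ 2 = 0 := by simp
  rw [h5, h6, add_zero, zero_add] at key
  exact key

end Crest.Agent.R121
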