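import Crest.Agent.R121.BDefs

/-!
# Row 121, PART B, piece B1: existence of `Vc` and the pointwise inequality

`sum_sigma_le`: `∑_{i ∈ s} c_i⋆ c_i ≤ 1` in `NA M` (compare quadratic forms on `H`; e.g.
`CStarAlgebra`-order via `NA.val`, or: `1 - ∑ c_i⋆ c_i = d⋆ d`), apply `σ`.
`exists_Vc`: let `C : H → ℓ²(ι, K)`, `η ↦ (V c_i η)_i` (norm ≤ ‖V‖) and `S : K → ℓ²(ι, K)`, `k ↦ (σ(c_i) k)_i`
(contraction), `V' = S⋆ C` (`lp (fun _ => K) 2`); or by the sesquilinear form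
`(k, η) ↦ ∑ ⟪σ(c_i)k, V c_i η⟫` (Cauchy-Schwarz) and `InnerProductSpace` duality.
`point`: `∑ ‖V c_i v - σ(c_i) V' v‖² = ∑ ‖V c_i v‖² - 2 ‖V' v‖² + ∑ ‖σ(c_i) V' v‖²`.
-/

set_option autoImplicit false

namespace Crest.Agent.R121

open Crest.Agent.R124.J
open scoped InnerProductSpace ComplexConjugate

universe u v w
variable {H : Type u} [NormedAddCommGroup H] [InnerProductSpace ℂ H] [CompleteSpace H]
variable {K : Type v} [NormedAddCommGroup K] [InnerProductSpace ℂ K] [CompleteSpace K]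
variable {M : VonNeumannAlgebra H}

theorem b1_col_sum_le {ι : Type w} {c : ι → NA M} (hc : IsCol c) (s : Finset ι) (z : H) :
    ∑ i ∈ s, ‖NA.val (c i) z‖ ^ 2 ≤ ‖z‖ ^ 2 :=
  sum_le_hasSum s (fun i _ => sq_nonneg _) (hc z)

theorem b1_inner_star_mul (a : H →L[ℂ] H) (z w : H) : ⟪(star a * a) z, w⟫_ℂ = ⟪a z, a w⟫_ℂ := by
  rw [ContinuousLinearMap.star_eq_adjoint, ContinuousLinearMap.mul_apply,
    ContinuousLinearMap.adjoint_inner_left]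

theorem b1_sum_norm_le {ι : Type w} {c : ι → NA M} (hc : IsCol c) (s : Finset ι) :
    ‖∑ i ∈ s, star (c i) * c i‖ ≤ 1 := by
  rw [← NA.norm_val]
  refine ContinuousLinearMap.opNorm_le_bound _ zero_le_one fun z => ?_
  rw [one_mul]
  have hval : NA.val (∑ i ∈ s, star (c i) * c i) =
      ∑ i ∈ s, star (NA.val (c i)) * NA.val (c i) := by
    rw [map_sum]
    refine Finset.sum_congr rfl fun i _ => ?_
    rw [map_mul, map_star]
  have hin : ∀ w : H, ⟪(NA.val (∑ i ∈ s, star (c i) * c i)) z, w⟫_ℂ =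
      ∑ i ∈ s, ⟪NA.val (c i) z, NA.val (c i) w⟫_ℂ := by
    intro w
    rw [hval, ContinuousLinearMap.sum_apply, sum_inner]
    exact Finset.sum_congr rfl fun i _ => b1_inner_star_mul _ _ _
  have hcs : ∀ w : H, ‖⟪(NA.val (∑ i ∈ s, star (c i) * c i)) z, w⟫_ℂ‖ ≤ ‖z‖ * ‖w‖ := by
    intro w
    rw [hin w]
    calc ‖∑ i ∈ s, ⟪NA.val (c i) z, NA.val (c i) w⟫_ℂ‖
        ≤ ∑ i ∈ s, ‖NA.val (c i) z‖ * ‖NA.val (c i) w‖ :=
          (norm_sum_le _ _).trans (Finset.sum_le_sum fun i _ => norm_inner_le_norm _ _)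
      _ ≤ Real.sqrt (∑ i ∈ s, ‖NA.val (c i) z‖ ^ 2) * Real.sqrt (∑ i ∈ s, ‖NA.val (c i) w‖ ^ 2) :=
          Real.sum_mul_le_sqrt_mul_sqrt _ _ _
      _ ≤ ‖z‖ * ‖w‖ := by
          refine mul_le_mul ?_ ?_ (Real.sqrt_nonneg _) (norm_nonneg _)
          · exact Real.sqrt_le_iff.2 ⟨norm_nonneg _, b1_col_sum_le hc s z⟩
          · exact Real.sqrt_le_iff.2 ⟨norm_nonneg _, b1_col_sum_le hc s w⟩
  set x := (NA.val (∑ i ∈ s, star (c i) * c i)) z with hx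
  have h1 := hcs x
  rw [inner_self_eq_norm_sq_to_K] at h1
  have h2 : ‖x‖ ^ 2 ≤ ‖z‖ * ‖x‖ := by
    refine le_trans (le_of_eq ?_) h1
    rw [norm_pow, RCLike.norm_ofReal, abs_of_nonneg (norm_nonneg _)]
  by_cases hx0 : ‖x‖ = 0
  · rw [hx0]; exact norm_nonneg _
  · have hxp : 0 < ‖x‖ := lt_of_le_of_ne (norm_nonneg _) (Ne.symm hx0)
    nlinarith

theorem b1_exists_defect {ι : Type w} {c : ι → NA M} (hc : IsCol c) (s : Finset ι) :
    ∃ d : NA M, 1 - ∑ i ∈ s, star (c i) * c i = star d * d := by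
  have h0 : 0 ≤ ∑ i ∈ s, star (c i) * c i :=
    Finset.sum_nonneg fun i _ => star_mul_self_nonneg (c i)
  have h1 := (CStarAlgebra.norm_le_one_iff_of_nonneg _ h0).1 (b1_sum_norm_le hc s)
  exact CStarAlgebra.nonneg_iff_eq_star_mul_self.1 (sub_nonneg.2 h1)

theorem sum_sigma_le {ι : Type w} (σ : NA M →⋆ₐ[ℂ] (K →L[ℂ] K)) {c : ι → NA M} (hc : IsCol c)
    (s : Finset ι) (k : K) : ∑ i ∈ s, ‖σ (c i) k‖ ^ 2 ≤ ‖k‖ ^ 2 := by
  obtain ⟨d, hd⟩ := b1_exists_defect hc s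
  have h1 : (1 : K →L[ℂ] K) = ∑ i ∈ s, star (σ (c i)) * σ (c i) + star (σ d) * σ d := by
    have h2 : (1 : NA M) = ∑ i ∈ s, star (c i) * c i + star d * d := by rw [← hd]; abel
    have h3 := congrArg σ h2
    rw [map_one, map_add, map_sum, map_mul, map_star] at h3
    rw [h3]
    congr 1
    refine Finset.sum_congr rfl fun i _ => ?_
    rw [map_mul, map_star]
  have hself : ∀ a : K →L[ℂ] K, ⟪(star a * a) k, k⟫_ℂ = ((‖a k‖ ^ 2 : ℝ) : ℂ) := by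
    intro a
    rw [b1_inner_star_mul, inner_self_eq_norm_sq_to_K]
    push_cast; rfl
  have h4 : ((‖k‖ ^ 2 : ℝ) : ℂ) = ((∑ i ∈ s, ‖σ (c i) k‖ ^ 2 + ‖σ d k‖ ^ 2 : ℝ) : ℂ) := by
    have h5 : ⟪(1 : K →L[ℂ] K) k, k⟫_ℂ = ((‖k‖ ^ 2 : ℝ) : ℂ) := by
      rw [ContinuousLinearMap.one_apply, inner_self_eq_norm_sq_to_K]
      push_cast; rfl
    rw [← h5, h1, ContinuousLinearMap.add_apply, ContinuousLinearMap.sum_apply, inner_add_left,
      sum_inner, hself, Complex.ofReal_add, Complex.ofReal_sum]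
    congr 1
    exact Finset.sum_congr rfl fun i _ => hself _
  have h6 : ‖k‖ ^ 2 = ∑ i ∈ s, ‖σ (c i) k‖ ^ 2 + ‖σ d k‖ ^ 2 := by exact_mod_cast h4
  rw [h6]
  exact le_add_of_nonneg_right (sq_nonneg _)

theorem b1_memS {ι : Type w} (σ : NA M →⋆ₐ[ℂ] (K →L[ℂ] K)) {c : ι → NA M} (hc : IsCol c) (k : K) :
    Memℓp (fun i => σ (c i) k) 2 := by
  refine memℓp_gen ?_
  simp only [ENNReal.toReal_ofNat, Real.rpow_two]
  exact summable_of_sum_le (fun i => sq_nonneg _) (fun s => sum_sigma_le σ hc s k)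

theorem b1_sum_V_le {ι : Type w} (V : H →L[ℂ] K) {c : ι → NA M} (hc : IsCol c) (η : H)
    (s : Finset ι) : ∑ i ∈ s, ‖V (NA.val (c i) η)‖ ^ 2 ≤ ‖V‖ ^ 2 * ‖η‖ ^ 2 := by
  calc ∑ i ∈ s, ‖V (NA.val (c i) η)‖ ^ 2 ≤ ∑ i ∈ s, ‖V‖ ^ 2 * ‖NA.val (c i) η‖ ^ 2 := by
        refine Finset.sum_le_sum fun i _ => ?_
        rw [← mul_pow]
        exact pow_le_pow_left₀ (norm_nonneg _) (V.le_opNorm _) 2
    _ = ‖V‖ ^ 2 * ∑ i ∈ s, ‖NA.val (c i) η‖ ^ 2 := by rw [Finset.mul_sum]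
    _ ≤ _ := mul_le_mul_of_nonneg_left (b1_col_sum_le hc s η) (sq_nonneg _)

theorem b1_memC {ι : Type w} (V : H →L[ℂ] K) {c : ι → NA M} (hc : IsCol c) (η : H) :
    Memℓp (fun i => V (NA.val (c i) η)) 2 := by
  refine memℓp_gen ?_
  simp only [ENNReal.toReal_ofNat, Real.rpow_two]
  exact summable_of_sum_le (fun i => sq_nonneg _) (fun s => b1_sum_V_le V hc η s)

/-- `k ↦ (σ(c_i) k)_i` -/
noncomputable def b1S {ι : Type w} (σ : NA M →⋆ₐ[ℂ] (K →L[ℂ] K)) {c : ι → NA M} (hc : IsCol c) :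
    K →L[ℂ] lp (fun _ : ι => K) 2 :=
  LinearMap.mkContinuous
    { toFun := fun k => ⟨fun i => σ (c i) k, b1_memS σ hc k⟩
      map_add' := fun k k' => by ext i; first | (simp; done) | (simp; rfl)
      map_smul' := fun a k => by ext i; simp } 1 (fun k => by
      rw [one_mul]
      refine lp.norm_le_of_forall_sum_le (by norm_num) (norm_nonneg _) fun s => ?_
      simp only [ENNReal.toReal_ofNat, Real.rpow_two]
      exact sum_sigma_le σ hc s k)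

/-- `η ↦ (V c_i η)_i` -/
noncomputable def b1C {ι : Type w} (V : H →L[ℂ] K) {c : ι → NA M} (hc : IsCol c) :
    H →L[ℂ] lp (fun _ : ι => K) 2 :=
  LinearMap.mkContinuous
    { toFun := fun η => ⟨fun i => V (NA.val (c i) η), b1_memC V hc η⟩
      map_add' := fun k k' => by ext i; first | (simp; done) | (simp; rfl)
      map_smul' := fun a k => by ext i; simp } ‖V‖ (fun η => by
      refine lp.norm_le_of_forall_sum_le (by norm_num) (by positivity) fun s => ?_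
      simp only [ENNReal.toReal_ofNat, Real.rpow_two]
      rw [mul_pow]
      exact b1_sum_V_le V hc η s)

theorem b1_isVc {ι : Type w} (σ : NA M →⋆ₐ[ℂ] (K →L[ℂ] K)) (V : H →L[ℂ] K) {c : ι → NA M}
    (hc : IsCol c) :
    IsVc σ V c ((ContinuousLinearMap.adjoint (b1S σ hc)) ∘L (b1C V hc)) := by
  intro η k
  rw [ContinuousLinearMap.comp_apply, ContinuousLinearMap.adjoint_inner_right]
  exact lp.hasSum_inner (b1S σ hc k) (b1C V hc η)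

theorem exists_Vc {ι : Type w} (σ : NA M →⋆ₐ[ℂ] (K →L[ℂ] K)) (V : H →L[ℂ] K) {c : ι → NA M}
    (hc : IsCol c) : ∃ V', IsVc σ V c V' := ⟨_, b1_isVc σ V hc⟩

theorem Vc_spec {ι : Type w} (σ : NA M →⋆ₐ[ℂ] (K →L[ℂ] K)) (V : H →L[ℂ] K) {c : ι → NA M}
    (hc : IsCol c) : IsVc σ V c (Vc σ V c) := by
  have h := exists_Vc σ V hc
  rw [Vc, dif_pos h]
  exact h.choose_spec

theorem IsVc.unique {ι : Type w} {σ : NA M →⋆ₐ[ℂ] (K →L[ℂ] K)} {V : H →L[ℂ] K} {c : ι → NA M}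
    {V' V'' : H →L[ℂ] K} (h' : IsVc σ V c V') (h'' : IsVc σ V c V'') : V' = V'' := by
  ext η
  refine ext_inner_left ℂ fun k => ?_
  exact (h' η k).unique (h'' η k)

theorem norm_Vc_le {ι : Type w} (σ : NA M →⋆ₐ[ℂ] (K →L[ℂ] K)) (V : H →L[ℂ] K) {c : ι → NA M}
    (hc : IsCol c) : ‖Vc σ V c‖ ≤ ‖V‖ := by
  rw [(Vc_spec σ V hc).unique (b1_isVc σ V hc)]
  refine (ContinuousLinearMap.opNorm_comp_le _ _).trans ?_
  have h1 : ‖ContinuousLinearMap.adjoint (b1S σ hc)‖ ≤ 1 := by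
    rw [LinearIsometryEquiv.norm_map]
    exact LinearMap.mkContinuous_norm_le _ zero_le_one _
  have h2 : ‖b1C V hc‖ ≤ ‖V‖ := LinearMap.mkContinuous_norm_le _ (norm_nonneg _) _
  calc _ ≤ 1 * ‖V‖ := mul_le_mul h1 h2 (norm_nonneg (b1C V hc)) zero_le_one
    _ = ‖V‖ := one_mul _

theorem summable_one {ι : Type w} (V : H →L[ℂ] K) {c : ι → NA M} (hc : IsCol c) (v : H) :
    Summable (fun i => ‖V (NA.val (c i) v)‖ ^ 2) := by
  refine Summable.of_nonneg_of_le (fun i => sq_nonneg _) (fun i => ?_)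
    ((hc v).summable.mul_left (‖V‖ ^ 2))
  rw [← mul_pow]
  exact pow_le_pow_left₀ (norm_nonneg _) (V.le_opNorm _) 2

/-- the pointwise inequality -/
theorem point {ι : Type w} (σ : NA M →⋆ₐ[ℂ] (K →L[ℂ] K)) (V : H →L[ℂ] K) {c : ι → NA M}
    (hc : IsCol c) (v : H) (s : Finset ι) :
    ∑ i ∈ s, ‖V (NA.val (c i) v) - σ (c i) (Vc σ V c v)‖ ^ 2 ≤
      ∑' i, ‖V (NA.val (c i) v)‖ ^ 2 - ‖Vc σ V c v‖ ^ 2 := by
  set k : K := Vc σ V c v with hk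
  have hA : Summable (fun i => ‖V (NA.val (c i) v)‖ ^ 2) := summable_one V hc v
  have hB : Summable (fun i => ‖σ (c i) k‖ ^ 2) :=
    summable_of_sum_le (fun i => sq_nonneg _) (fun t => sum_sigma_le σ hc t k)
  have hB' : ∑' i, ‖σ (c i) k‖ ^ 2 ≤ ‖k‖ ^ 2 :=
    Real.tsum_le_of_sum_le (fun i => sq_nonneg _) (fun t => sum_sigma_le σ hc t k)
  have hC : HasSum (fun i => RCLike.re ⟪σ (c i) k, V (NA.val (c i) v)⟫_ℂ) (‖k‖ ^ 2) := by
    have h1 := Vc_spec σ V hc v k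
    have h2 := RCLike.hasSum_re ℂ h1
    rw [← hk, inner_self_eq_norm_sq (𝕜 := ℂ)] at h2
    exact h2
  have hexp : ∀ i, ‖V (NA.val (c i) v) - σ (c i) k‖ ^ 2 =
      ‖V (NA.val (c i) v)‖ ^ 2 - 2 * RCLike.re ⟪σ (c i) k, V (NA.val (c i) v)⟫_ℂ +
        ‖σ (c i) k‖ ^ 2 := by
    intro i
    rw [@norm_sub_sq ℂ, ← inner_re_symm]
  have hS : HasSum (fun i => ‖V (NA.val (c i) v) - σ (c i) k‖ ^ 2)
      (∑' i, ‖V (NA.val (c i) v)‖ ^ 2 - 2 * ‖k‖ ^ 2 + ∑' i, ‖σ (c i) k‖ ^ 2) := by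
    simp only [hexp]
    exact (hA.hasSum.sub (hC.mul_left 2)).add hB.hasSum
  have h1 : ∑ i ∈ s, ‖V (NA.val (c i) v) - σ (c i) k‖ ^ 2 ≤ _ :=
    sum_le_hasSum s (fun i _ => sq_nonneg _) hS
  linarith

/-- the sums `Nq` converge -/
theorem summable_Nq {ι : Type w} {p : ℕ} (V : H →L[ℂ] K) (ξ : Fin p → H) {b : ι → NA M}
    (hb : IsCol b) : Summable (fun l => ∑ i, ‖V (NA.val (b l) (ξ i))‖ ^ 2) :=
  summable_sum fun i _ => summable_one V hb (ξ i)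

theorem Nq_le {ι : Type w} {p : ℕ} (V : H →L[ℂ] K) (ξ : Fin p → H) {b : ι → NA M}
    (hb : IsCol b) : Nq V ξ b ≤ ‖V‖ ^ 2 * ∑ i, ‖ξ i‖ ^ 2 := by
  have h1 : HasSum (fun l => ∑ i, ‖V‖ ^ 2 * ‖NA.val (b l) (ξ i)‖ ^ 2)
      (∑ i, ‖V‖ ^ 2 * ‖ξ i‖ ^ 2) := hasSum_sum fun i _ => (hb (ξ i)).mul_left _
  rw [Finset.mul_sum, ← h1.tsum_eq]
  refine (summable_Nq V ξ hb).tsum_le_tsum (fun l => Finset.sum_le_sum fun i _ => ?_) h1.summable
  rw [← mul_pow]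
  exact pow_le_pow_left₀ (norm_nonneg _) (V.le_opNorm _) 2

end Crest.Agent.R121
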