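import Crest.Agent.R121.B1

/-!
# Row 121, PART B, piece B2: operations on columns

`IsCol.mul`: the family `(c_i c'_j)_{(i,j)}`; `∑_{i,j} ‖c_i c'_j z‖² = ∑_j ‖c'_j z‖²` (nonnegative terms,
`summable_prod_of_nonneg`, `HasSum.prod_fiberwise` / `Summable.tsum_prod`).
`Vc_mul`: `∑_j ⟪σ(c'_j)k, V^c c'_j η⟫ = ∑_j ∑_i ⟪σ(c_i)σ(c'_j)k, V c_i c'_j η⟫`; absolute convergence by
Cauchy-Schwarz (`‖σ(..)k‖²` and `‖V ..η‖²` are summable over pairs).
`avg`: the column `(m^{-1/2} c^s_j)_{(s,j)}`, `s : Fin m`, `m ≥ 1`.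
-/

set_option autoImplicit false

namespace Crest.Agent.R121

open Crest.Agent.R124.J
open scoped InnerProductSpace ComplexConjugate

universe u v w w'
variable {H : Type u} [NormedAddCommGroup H] [InnerProductSpace ℂ H] [CompleteSpace H]
variable {K : Type v} [NormedAddCommGroup K] [InnerProductSpace ℂ K] [CompleteSpace K]
variable {M : VonNeumannAlgebra H}

theorem isCol_one : IsCol (fun _ : PUnit.{w + 1} => (1 : NA M)) := by
  intro z
  have h := hasSum_unique (fun _ : PUnit.{w + 1} => ‖NA.val (1 : NA M) z‖ ^ 2)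
  simpa [map_one] using h

theorem Vc_one (σ : NA M →⋆ₐ[ℂ] (K →L[ℂ] K)) (V : H →L[ℂ] K) :
    Vc σ V (fun _ : PUnit.{w + 1} => (1 : NA M)) = V := by
  refine (Vc_spec σ V isCol_one).unique (fun η k => ?_)
  have h := hasSum_unique
    (fun _ : PUnit.{w + 1} => ⟪σ (1 : NA M) k, V (NA.val (1 : NA M) η)⟫_ℂ)
  simpa [map_one] using h

theorem IsCol.mul {ι : Type w} {κ : Type w'} {c : ι → NA M} {c' : κ → NA M} (hc : IsCol c)
    (hc' : IsCol c') : IsCol (fun p : ι × κ => c p.1 * c' p.2) := by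
  intro z
  have hin : ∀ j, HasSum (fun i => ‖NA.val (c i * c' j) z‖ ^ 2) (‖NA.val (c' j) z‖ ^ 2) := by
    intro j
    have h := hc (NA.val (c' j) z)
    have he : (fun i => ‖NA.val (c i * c' j) z‖ ^ 2) =
        fun i => ‖NA.val (c i) (NA.val (c' j) z)‖ ^ 2 := by
      funext i
      rw [map_mul, ContinuousLinearMap.mul_apply]
    rw [he]
    exact h
  have hout := hc' z
  have hs : Summable (fun p : κ × ι => ‖NA.val (c p.2 * c' p.1) z‖ ^ 2) := by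
    rw [summable_prod_of_nonneg (fun p => sq_nonneg _)]
    refine ⟨fun j => (hin j).summable, ?_⟩
    have he : (fun j => ∑' i, ‖NA.val (c (j, i).2 * c' (j, i).1) z‖ ^ 2) =
        fun j => ‖NA.val (c' j) z‖ ^ 2 := by
      funext j
      exact (hin j).tsum_eq
    rw [he]
    exact hout.summable
  have hv : HasSum (fun p : κ × ι => ‖NA.val (c p.2 * c' p.1) z‖ ^ 2) (‖z‖ ^ 2) := by
    have h1 := hs.hasSum
    have h2 := h1.prod_fiberwise (fun j => hin j)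
    rw [h2.unique hout] at h1
    exact h1
  exact (Equiv.prodComm ι κ).hasSum_iff (f := fun p : κ × ι => ‖NA.val (c p.2 * c' p.1) z‖ ^ 2) |>.2 hv

/-- left multiplication of a column by a unitary -/
theorem IsCol.unitary_mul {ι : Type w} {c : ι → NA M} (hc : IsCol c) {a : NA M}
    (ha : star a * a = 1) : IsCol (fun i => a * c i) := by
  intro z
  have hiso : ∀ x : H, ‖NA.val a x‖ ^ 2 = ‖x‖ ^ 2 := by
    intro x
    have h1 : NA.val (star a * a) = (1 : H →L[ℂ] H) := by rw [ha, map_one]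
    rw [map_mul, map_star] at h1
    have h2 : (⟪NA.val a x, NA.val a x⟫_ℂ) = ⟪x, x⟫_ℂ := by
      have h3 : (star (NA.val a) * NA.val a) x = x := by rw [h1]; rfl
      rw [ContinuousLinearMap.mul_apply, ContinuousLinearMap.star_eq_adjoint] at h3
      rw [← ContinuousLinearMap.adjoint_inner_right, h3]
    rw [inner_self_eq_norm_sq_to_K, inner_self_eq_norm_sq_to_K] at h2
    exact_mod_cast h2
  have h := hc z
  have he : (fun i => ‖NA.val (a * c i) z‖ ^ 2) = fun i => ‖NA.val (c i) z‖ ^ 2 := by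
    funext i
    rw [map_mul, ContinuousLinearMap.mul_apply, hiso]
  change HasSum (fun i => ‖NA.val (a * c i) z‖ ^ 2) (‖z‖ ^ 2)
  rw [he]
  exact h

theorem Vc_mul {ι : Type w} {κ : Type w'} (σ : NA M →⋆ₐ[ℂ] (K →L[ℂ] K)) (V : H →L[ℂ] K)
    {c : ι → NA M} {c' : κ → NA M} (hc : IsCol c) (hc' : IsCol c') :
    Vc σ (Vc σ V c) c' = Vc σ V (fun p : ι × κ => c p.1 * c' p.2) := by
  have hL := Vc_spec σ (Vc σ V c) hc'
  have hR := Vc_spec σ V (hc.mul hc')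
  have hI := Vc_spec σ V hc
  ext η
  refine ext_inner_left ℂ fun k => ?_
  have h1 := hR η k
  have h2 := ((Equiv.prodComm κ ι).hasSum_iff.2 h1).prod_fiberwise
    (g := fun j => ⟪σ (c' j) k, Vc σ V c (NA.val (c' j) η)⟫_ℂ) (fun j => by
      have h3 := hI (NA.val (c' j) η) (σ (c' j) k)
      have e : (fun i => ⟪σ (c i) (σ (c' j) k), V (NA.val (c i) (NA.val (c' j) η))⟫_ℂ) =
          fun i => ((fun p : ι × κ => ⟪σ (c p.1 * c' p.2) k, V (NA.val (c p.1 * c' p.2) η)⟫_ℂ) ∘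
            (Equiv.prodComm κ ι)) (j, i) := by
        funext i
        simp only [Function.comp_apply, Equiv.prodComm_apply, Prod.swap_prod_mk, map_mul]
        rfl
      rw [e] at h3
      exact h3)
  exact (hL η k).unique h2

theorem hasSum_sigma_fin {m : ℕ} {ι : Fin m → Type w} {α : Type*} [AddCommMonoid α]
    [TopologicalSpace α] [ContinuousAdd α] {f : (Σ s, ι s) → α} {g : Fin m → α}
    (h : ∀ s, HasSum (fun i => f ⟨s, i⟩) (g s)) : HasSum f (∑ s, g s) := by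
  classical
  have h1 : ∀ s, HasSum (fun p : Σ s, ι s => if p.1 = s then f p else 0) (g s) := by
    intro s
    have hinj : Function.Injective (Sigma.mk s : ι s → Σ s, ι s) := sigma_mk_injective
    refine (hinj.hasSum_iff ?_).1 ?_
    · rintro ⟨t, i⟩ hp
      rw [if_neg]
      intro h'
      have h'' : t = s := h'
      subst h''
      exact hp ⟨i, rfl⟩
    · simpa [Function.comp_def] using h s
  have h2 := hasSum_sum (s := Finset.univ) fun s _ => h1 s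
  convert h2 with p
  simp

theorem isCol_avg {m : ℕ} (hm : 0 < m) {ι : Fin m → Type w} {c : ∀ s, ι s → NA M}
    (hc : ∀ s, IsCol (c s)) :
    IsCol (fun p : Σ s, ι s => (((Real.sqrt m)⁻¹ : ℝ) : ℂ) • c p.1 p.2) := by
  intro z
  have hm' : (0 : ℝ) < m := by exact_mod_cast hm
  have e : ∀ p : Σ s, ι s, ‖NA.val ((((Real.sqrt m)⁻¹ : ℝ) : ℂ) • c p.1 p.2) z‖ ^ 2 =
      (m : ℝ)⁻¹ * ‖NA.val (c p.1 p.2) z‖ ^ 2 := by
    intro p
    rw [map_smul, smul_apply, norm_smul, mul_pow, Complex.norm_real,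
      Real.norm_of_nonneg (by positivity), inv_pow, Real.sq_sqrt hm'.le]
  have h := hasSum_sigma_fin (f := fun p : Σ s, ι s =>
    ‖NA.val ((((Real.sqrt m)⁻¹ : ℝ) : ℂ) • c p.1 p.2) z‖ ^ 2) (g := fun _ => (m : ℝ)⁻¹ * ‖z‖ ^ 2)
    (fun s => ((hc s z).mul_left ((m : ℝ)⁻¹)) |> fun h' => by
      have e' : (fun i => ‖NA.val ((((Real.sqrt m)⁻¹ : ℝ) : ℂ) • c s i) z‖ ^ 2) =
          fun i => (m : ℝ)⁻¹ * ‖NA.val (c s i) z‖ ^ 2 := funext fun i => e ⟨s, i⟩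
      show HasSum (fun i => ‖NA.val ((((Real.sqrt m)⁻¹ : ℝ) : ℂ) • c s i) z‖ ^ 2) _
      rw [e']
      exact h')
  have e2 : ∑ _s : Fin m, (m : ℝ)⁻¹ * ‖z‖ ^ 2 = ‖z‖ ^ 2 := by
    rw [Finset.sum_const, Finset.card_univ, Fintype.card_fin, nsmul_eq_mul]
    field_simp
  rw [e2] at h
  exact h

theorem Vc_avg {m : ℕ} (hm : 0 < m) (σ : NA M →⋆ₐ[ℂ] (K →L[ℂ] K)) (V : H →L[ℂ] K)
    {ι : Fin m → Type w} {c : ∀ s, ι s → NA M} (hc : ∀ s, IsCol (c s)) :
    Vc σ V (fun p : Σ s, ι s => (((Real.sqrt m)⁻¹ : ℝ) : ℂ) • c p.1 p.2) =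
      ((m : ℂ)⁻¹) • ∑ s, Vc σ V (c s) := by
  refine (Vc_spec σ V (isCol_avg hm hc)).unique fun η k => ?_
  have hm' : (0 : ℝ) < m := by exact_mod_cast hm
  have hr : ((((Real.sqrt m)⁻¹ : ℝ) : ℂ)) * (((Real.sqrt m)⁻¹ : ℝ) : ℂ) = (m : ℂ)⁻¹ := by
    rw [← Complex.ofReal_mul, ← mul_inv, Real.mul_self_sqrt hm'.le]
    push_cast
    rfl
  have h := hasSum_sigma_fin (f := fun p : Σ s, ι s =>
    ⟪σ ((((Real.sqrt m)⁻¹ : ℝ) : ℂ) • c p.1 p.2) k,
      V (NA.val ((((Real.sqrt m)⁻¹ : ℝ) : ℂ) • c p.1 p.2) η)⟫_ℂ)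
    (g := fun s => (m : ℂ)⁻¹ * ⟪k, Vc σ V (c s) η⟫_ℂ)
    (fun s => by
      have h' := (Vc_spec σ V (hc s) η k).mul_left ((m : ℂ)⁻¹)
      have e' : (fun i => ⟪σ ((((Real.sqrt m)⁻¹ : ℝ) : ℂ) • c s i) k,
          V (NA.val ((((Real.sqrt m)⁻¹ : ℝ) : ℂ) • c s i) η)⟫_ℂ) =
          fun i => (m : ℂ)⁻¹ * ⟪σ (c s i) k, V (NA.val (c s i) η)⟫_ℂ := by
        funext i
        rw [map_smul, map_smul, smul_apply, smul_apply, map_smul, inner_smul_left,
          inner_smul_right, Complex.conj_ofReal, ← mul_assoc, hr]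
      show HasSum (fun i => ⟪σ ((((Real.sqrt m)⁻¹ : ℝ) : ℂ) • c s i) k,
          V (NA.val ((((Real.sqrt m)⁻¹ : ℝ) : ℂ) • c s i) η)⟫_ℂ) _
      rw [e']
      exact h')
  have e2 : ⟪k, (((m : ℂ)⁻¹) • ∑ s, Vc σ V (c s)) η⟫_ℂ = ∑ s, (m : ℂ)⁻¹ * ⟪k, Vc σ V (c s) η⟫_ℂ := by
    rw [smul_apply, inner_smul_right, sum_apply, inner_sum,
      Finset.mul_sum]
  rw [e2]
  exact h

end Crest.Agent.R121
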