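import Crest.Agent.R121.B2

/-!
# Row 121, PART B, piece B3: near-minimiser and parallelogram

`star_est`.  `N0 = sInf (NSup M · ξ '' Orb σ W)` (bounded below by `0`, `W = Vc_one` is in the orbit), choose
`V` in the orbit with `NSup M V ξ ≤ N0 + ε`.  Given columns `c^s`, `s : Fin m`, add the trivial column
(`PUnit`): `m + 1` columns; `V'' = (m+1)⁻¹ ∑_s V^{c^s}` is in the orbit (`Vc_avg`, `Vc_mul`), so there is a column
`b` with `Nq V'' ξ b ≥ N0 - ε`.  For `v = b_l ξ_i`: `a_s(v) = ‖V^{c^s} v‖²`, `A_s(v) = ∑_j ‖V c^s_j v‖²`; summed over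
`(l,i)`: `A_s ≤ N0 + ε` (column `c^s b`), `a_s ≤ A_s`.  Pointwise
`‖V^{c^s}v - V^{c^t}v‖² ≤ (m+1) ∑_r a_r(v) - (m+1)² ‖V''v‖²` (`parallelogram`), `(m+1)‖V''v‖² ≤ ∑_r a_r(v)`.  So
`∑ ‖V^{c^s}v - Vv‖² ≤ 2(m+1)²ε`, `A_s - a_s ≤ 2(m+1)ε`, and with `point` and `sum_sigma_le`
`∑ ‖V c^s_j v - σ(c^s_j) V v‖² ≤ 2(A_s - a_s) + 2 · 2(m+1)²ε ≤ 8 (m+1)² ε`.
-/

set_option autoImplicit false

namespace Crest.Agent.R121

open Crest.Agent.R124.J
open scoped InnerProductSpace ComplexConjugate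

universe u v w w'
variable {H : Type u} [NormedAddCommGroup H] [InnerProductSpace ℂ H] [CompleteSpace H]
variable {K : Type v} [NormedAddCommGroup K] [InnerProductSpace ℂ K] [CompleteSpace K]
variable {M : VonNeumannAlgebra H}

/-- parallelogram inequality for `m` vectors -/
theorem parallelogram {E : Type w} [NormedAddCommGroup E] [InnerProductSpace ℂ E] {m : ℕ}
    (x : Fin m → E) (s t : Fin m) :
    ‖x s - x t‖ ^ 2 ≤ m * ∑ r, ‖x r‖ ^ 2 - ‖∑ r, x r‖ ^ 2 := by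
  have key : ∑ r, ∑ r', ‖x r - x r'‖ ^ 2 = 2 * (m * ∑ r, ‖x r‖ ^ 2 - ‖∑ r, x r‖ ^ 2) := by
    have h1 : ∀ r r', ‖x r - x r'‖ ^ 2 =
        ‖x r‖ ^ 2 - 2 * RCLike.re (inner ℂ (x r) (x r')) + ‖x r'‖ ^ 2 := fun r r' =>
      norm_sub_sq (𝕜 := ℂ) (x r) (x r')
    have h2 : ‖∑ r, x r‖ ^ 2 = ∑ r, ∑ r', RCLike.re (inner ℂ (x r) (x r')) := by
      rw [← inner_self_eq_norm_sq (𝕜 := ℂ), sum_inner]
      rw [map_sum]
      refine Finset.sum_congr rfl fun r _ => ?_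
      rw [inner_sum, map_sum]
    rw [h2]
    simp_rw [h1, Finset.sum_add_distrib, Finset.sum_sub_distrib, ← Finset.mul_sum]
    simp only [Finset.sum_const, Finset.card_univ, Fintype.card_fin, nsmul_eq_mul]
    rw [← Finset.mul_sum]
    ring
  have hnn : ∀ r r', 0 ≤ ‖x r - x r'‖ ^ 2 := fun r r' => sq_nonneg _
  rcases eq_or_ne s t with hst | hst
  · subst hst
    have : 0 ≤ ∑ r, ∑ r', ‖x r - x r'‖ ^ 2 :=
      Finset.sum_nonneg fun r _ => Finset.sum_nonneg fun r' _ => hnn r r'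
    rw [sub_self, norm_zero]
    linarith
  · have h3 : (∑ r', ‖x s - x r'‖ ^ 2) + ∑ r', ‖x t - x r'‖ ^ 2 ≤
        ∑ r, ∑ r', ‖x r - x r'‖ ^ 2 := by
      rw [← Finset.sum_pair (f := fun r => ∑ r', ‖x r - x r'‖ ^ 2) hst]
      exact Finset.sum_le_sum_of_subset_of_nonneg (Finset.subset_univ _)
        fun r _ _ => Finset.sum_nonneg fun r' _ => hnn r r'
    have h4 : ‖x s - x t‖ ^ 2 ≤ ∑ r', ‖x s - x r'‖ ^ 2 :=
      Finset.single_le_sum (f := fun r' => ‖x s - x r'‖ ^ 2) (fun r' _ => hnn s r')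
        (Finset.mem_univ t)
    have h5 : ‖x t - x s‖ ^ 2 ≤ ∑ r', ‖x t - x r'‖ ^ 2 :=
      Finset.single_le_sum (f := fun r' => ‖x t - x r'‖ ^ 2) (fun r' _ => hnn t r')
        (Finset.mem_univ s)
    have h6 : ‖x t - x s‖ = ‖x s - x t‖ := norm_sub_rev _ _
    rw [h6] at h5
    linarith

theorem le_NSup {p : ℕ} (V : H →L[ℂ] K) (ξ : Fin p → H) {κ : Type u} {b : κ → NA M}
    (hb : IsCol b) : Nq V ξ b ≤ NSup M V ξ := by
  refine le_csSup ⟨‖V‖ ^ 2 * ∑ i, ‖ξ i‖ ^ 2, ?_⟩ ⟨κ, b, hb, rfl⟩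
  rintro t ⟨κ', b', hb', rfl⟩
  exact Nq_le V ξ hb'

theorem exists_col_gt {p : ℕ} (V : H →L[ℂ] K) (ξ : Fin p → H) {r : ℝ} (hr : r < NSup M V ξ) :
    ∃ (κ : Type u) (b : κ → NA M), IsCol b ∧ r < Nq V ξ b := by
  have hne : {t : ℝ | ∃ (κ : Type u) (b : κ → NA M), IsCol b ∧ t = Nq V ξ b}.Nonempty :=
    ⟨_, PUnit.{u + 1}, fun _ => 1, isCol_one, rfl⟩
  obtain ⟨t, ⟨κ, b, hb, rfl⟩, ht⟩ := exists_lt_of_lt_csSup hne hr
  exact ⟨κ, b, hb, ht⟩

theorem NSup_nonneg {p : ℕ} (V : H →L[ℂ] K) (ξ : Fin p → H) : 0 ≤ NSup M V ξ := by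
  refine Real.sSup_nonneg ?_
  rintro t ⟨κ, b, hb, rfl⟩
  exact tsum_nonneg fun l => Finset.sum_nonneg fun i _ => by positivity

/-- `Nq` of a product column as an iterated sum -/
theorem Nq_mul {p : ℕ} (V : H →L[ℂ] K) (ξ : Fin p → H) {ι κ : Type u} {c : ι → NA M} {b : κ → NA M}
    (hc : IsCol c) (hb : IsCol b) :
    Summable (fun l => ∑ i, ∑' j, ‖V (NA.val (c j) (NA.val (b l) (ξ i)))‖ ^ 2) ∧
    Nq V ξ (fun x : ι × κ => c x.1 * b x.2) =
      ∑' l, ∑ i, ∑' j, ‖V (NA.val (c j) (NA.val (b l) (ξ i)))‖ ^ 2 := by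
  set g : ι × κ → ℝ := fun x => ∑ i, ‖V (NA.val (c x.1 * b x.2) (ξ i))‖ ^ 2 with hg
  have h1 : Summable g := summable_Nq V ξ (hc.mul hb)
  have h2 : Summable (fun y : κ × ι => g y.swap) := h1.prod_symm
  have h3 : ∀ l, ∑' j, g (j, l) = ∑ i, ∑' j, ‖V (NA.val (c j) (NA.val (b l) (ξ i)))‖ ^ 2 := by
    intro l
    rw [hg]
    simp only
    rw [Summable.tsum_finsetSum]
    · refine Finset.sum_congr rfl fun i _ => ?_
      refine tsum_congr fun j => ?_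
      rw [map_mul]; rfl
    · intro i _
      have := summable_one V hc (NA.val (b l) (ξ i))
      refine this.congr fun j => ?_
      rw [map_mul]; rfl
  constructor
  · have h4 := h2.prod
    refine h4.congr fun l => ?_
    exact h3 l
  · have h5 : Nq V ξ (fun x : ι × κ => c x.1 * b x.2) = ∑' x, g x := rfl
    rw [h5, ← (Equiv.prodComm κ ι).tsum_eq g]
    have h6 : ∑' y : κ × ι, g ((Equiv.prodComm κ ι) y) = ∑' l, ∑' j, g (j, l) :=
      Summable.tsum_prod h2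
    rw [h6]
    exact tsum_congr h3

theorem star_est (σ : NA M →⋆ₐ[ℂ] (K →L[ℂ] K)) (W : H →L[ℂ] K) {p : ℕ} (ξ : Fin p → H)
    {ε : ℝ} (hε : 0 < ε) :
    ∃ V ∈ Orb σ W, ∀ (m : ℕ) (ι : Fin m → Type u) (c : ∀ s, ι s → NA M), (∀ s, IsCol (c s)) →
      ∃ (κ : Type u) (b : κ → NA M), IsCol b ∧ ∀ (s : Fin m) (F : Finset (ι s × κ)),
        ∑ q ∈ F, ∑ i, ‖V (NA.val (c s q.1 * b q.2) (ξ i)) -
          σ (c s q.1) (V (NA.val (b q.2) (ξ i)))‖ ^ 2 ≤ 8 * (m + 1) ^ 2 * ε := by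
  classical
  set Sset : Set ℝ := (fun V => NSup M V ξ) '' Orb σ W with hSset
  have hWO : W ∈ Orb σ W := ⟨PUnit.{u+1}, fun _ => 1, isCol_one, (Vc_one σ W).symm⟩
  have hne : Sset.Nonempty := ⟨_, W, hWO, rfl⟩
  have hbd : BddBelow Sset := ⟨0, by rintro _ ⟨V, _, rfl⟩; exact NSup_nonneg V ξ⟩
  set N0 := sInf Sset with hN0
  obtain ⟨_, ⟨V, hVO, rfl⟩, hVlt⟩ := exists_lt_of_csInf_lt hne (show sInf Sset < N0 + ε by linarith)
  simp only at hVlt
  refine ⟨V, hVO, ?_⟩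
  intro m ι c hc
  -- the columns with the trivial column added
  let ι' : Fin (m + 1) → Type u := fun s => Fin.cases (motive := fun _ => Type u) PUnit.{u+1} ι s
  let c' : ∀ s, ι' s → NA M := fun s =>
    Fin.cases (motive := fun s => ι' s → NA M) (fun _ => 1) c s
  have hc' : ∀ s, IsCol (c' s) := by
    intro s
    refine Fin.cases ?_ (fun t => ?_) s
    · exact isCol_one
    · exact hc t
  set Vs : Fin (m + 1) → (H →L[ℂ] K) := fun s => Vc σ V (c' s) with hVs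
  have hVs0 : Vs 0 = V := Vc_one σ V
  have hVss : ∀ t : Fin m, Vs t.succ = Vc σ V (c t) := fun t => rfl
  have hm1 : 0 < m + 1 := Nat.succ_pos m
  set V2 : H →L[ℂ] K := (((m + 1 : ℕ) : ℂ)⁻¹) • ∑ s, Vs s with hV2
  have hV2O : V2 ∈ Orb σ W := by
    obtain ⟨ι₀, c₀, hc₀, hV⟩ := hVO
    have h1 : V2 = Vc σ V (fun p : Σ s, ι' s => (((Real.sqrt (m + 1 : ℕ))⁻¹ : ℝ) : ℂ) • c' p.1 p.2) :=
      (Vc_avg hm1 σ V hc').symm
    rw [h1]
    have h2 := Vc_mul σ W hc₀ (isCol_avg hm1 hc')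
    rw [← hV] at h2
    exact ⟨_, _, hc₀.mul (isCol_avg hm1 hc'), h2⟩
  have hN02 : N0 ≤ NSup M V2 ξ := csInf_le hbd ⟨V2, hV2O, rfl⟩
  obtain ⟨κ, b, hb, hbgt⟩ := exists_col_gt V2 ξ (show N0 - ε < NSup M V2 ξ by linarith)
  refine ⟨κ, b, hb, ?_⟩
  -- the four functions on `κ`
  set α : Fin (m + 1) → κ → ℝ := fun s l => ∑ i, ‖Vs s (NA.val (b l) (ξ i))‖ ^ 2 with hα
  set β : Fin (m + 1) → κ → ℝ := fun s l =>
    ∑ i, ∑' j, ‖V (NA.val (c' s j) (NA.val (b l) (ξ i)))‖ ^ 2 with hβ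
  set γ : κ → ℝ := fun l => ∑ i, ‖V2 (NA.val (b l) (ξ i))‖ ^ 2 with hγ
  have hαs : ∀ s, Summable (α s) := fun s => summable_Nq (Vs s) ξ hb
  have hγs : Summable γ := summable_Nq V2 ξ hb
  have hβs : ∀ s, Summable (β s) := fun s => (Nq_mul V ξ (hc' s) hb).1
  have hβN : ∀ s, ∑' l, β s l ≤ N0 + ε := by
    intro s
    have h1 := (Nq_mul V ξ (hc' s) hb).2
    have h2 := le_NSup V ξ ((hc' s).mul hb)
    rw [h1] at h2
    exact h2.trans hVlt.le
  have hγN : N0 - ε < ∑' l, γ l := hbgt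
  have hαβ : ∀ s l, α s l ≤ β s l := by
    intro s l
    refine Finset.sum_le_sum fun i _ => ?_
    have h1 := point σ V (hc' s) (NA.val (b l) (ξ i)) ∅
    rw [Finset.sum_empty] at h1
    show ‖Vs s (NA.val (b l) (ξ i))‖ ^ 2 ≤ _
    rw [hVs]
    linarith
  have hαN : ∀ s, ∑' l, α s l ≤ N0 + ε := fun s =>
    ((hαs s).tsum_le_tsum (hαβ s) (hβs s)).trans (hβN s)
  -- relation between `V2` and the `Vs`
  have hV2v : ∀ x : H, ((m : ℝ) + 1) ^ 2 * ‖V2 x‖ ^ 2 = ‖∑ s, Vs s x‖ ^ 2 := by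
    intro x
    have h1 : ∑ s, Vs s x = ((m + 1 : ℕ) : ℂ) • V2 x := by
      rw [hV2, ContinuousLinearMap.smul_apply, smul_smul, mul_inv_cancel₀ (by exact_mod_cast hm1.ne'),
        one_smul, ContinuousLinearMap.sum_apply]
    rw [h1, norm_smul, mul_pow]
    congr 1
    rw [Complex.norm_natCast]
    push_cast
    ring
  have hpar : ∀ (s : Fin (m + 1)) (x : H), ‖Vs s x - V x‖ ^ 2 ≤
      (m + 1) * ∑ r, ‖Vs r x‖ ^ 2 - ((m : ℝ) + 1) ^ 2 * ‖V2 x‖ ^ 2 := by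
    intro s x
    have h1 := parallelogram (fun r => Vs r x) s 0
    rw [hVs0] at h1
    rw [hV2v]
    push_cast at h1
    exact h1
  have hCS : ∀ x : H, ((m : ℝ) + 1) * ‖V2 x‖ ^ 2 ≤ ∑ r, ‖Vs r x‖ ^ 2 := by
    intro x
    have h1 := hpar 0 x
    rw [hVs0, sub_self, norm_zero] at h1
    have h2 : (0 : ℝ) < m + 1 := by positivity
    nlinarith
  -- sums
  set P : κ → ℝ := fun l => (m + 1) * ∑ r, α r l - ((m : ℝ) + 1) ^ 2 * γ l with hP
  have hPs : HasSum P ((m + 1) * ∑ r, ∑' l, α r l - ((m : ℝ) + 1) ^ 2 * ∑' l, γ l) :=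
    ((hasSum_sum fun r _ => (hαs r).hasSum).mul_left _).sub (hγs.hasSum.mul_left _)
  have hδ : ∀ s l, ∑ i, ‖Vs s (NA.val (b l) (ξ i)) - V (NA.val (b l) (ξ i))‖ ^ 2 ≤ P l := by
    intro s l
    have h1 : P l = ∑ i, ((m + 1) * ∑ r, ‖Vs r (NA.val (b l) (ξ i))‖ ^ 2 -
        ((m : ℝ) + 1) ^ 2 * ‖V2 (NA.val (b l) (ξ i))‖ ^ 2) := by
      rw [Finset.sum_sub_distrib, ← Finset.mul_sum, ← Finset.mul_sum, Finset.sum_comm]
    rw [h1]
    exact Finset.sum_le_sum fun i _ => hpar s _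
  have hP0 : ∀ l, 0 ≤ P l := fun l =>
    le_trans (Finset.sum_nonneg fun i _ => by positivity) (hδ 0 l)
  have hPtot : ∀ L : Finset κ, ∑ l ∈ L, P l ≤ 2 * (m + 1) ^ 2 * ε := by
    intro L
    have h1 := sum_le_hasSum L (fun l _ => hP0 l) hPs
    have h2 : ∑ r : Fin (m + 1), ∑' l, α r l ≤ (m + 1) * (N0 + ε) := by
      calc ∑ r : Fin (m + 1), ∑' l, α r l ≤ ∑ r : Fin (m + 1), (N0 + ε) :=
            Finset.sum_le_sum fun r _ => hαN r
        _ = (m + 1) * (N0 + ε) := by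
            rw [Finset.sum_const, Finset.card_univ, Fintype.card_fin, nsmul_eq_mul]; push_cast; ring
    have h3 : (0 : ℝ) < m + 1 := by positivity
    have h4 := mul_le_mul_of_nonneg_left h2 h3.le
    have h5 := mul_le_mul_of_nonneg_left hγN.le (sq_nonneg ((m : ℝ) + 1))
    nlinarith
  -- lower bound for the sums of `α`
  have hαlow : ∀ s, N0 - (2 * m + 1) * ε ≤ ∑' l, α s l := by
    intro s
    have h1 : ∑' l, (m + 1) * γ l ≤ ∑' l, ∑ r, α r l := by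
      refine Summable.tsum_le_tsum (fun l => ?_) (hγs.mul_left _)
        (summable_sum fun r _ => hαs r)
      rw [hγ, hα]
      simp only
      rw [Finset.mul_sum, Finset.sum_comm]
      exact Finset.sum_le_sum fun i _ => hCS _
    rw [tsum_mul_left, Summable.tsum_finsetSum (fun r _ => hαs r)] at h1
    have h2 : ∑ r : Fin (m + 1), ∑' l, α r l ≤ ∑' l, α s l + m * (N0 + ε) := by
      rw [← Finset.add_sum_erase _ _ (Finset.mem_univ s)]
      gcongr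
      calc ∑ r ∈ Finset.univ.erase s, ∑' l, α r l ≤ ∑ r ∈ Finset.univ.erase s, (N0 + ε) :=
            Finset.sum_le_sum fun r _ => hαN r
        _ = m * (N0 + ε) := by
            rw [Finset.sum_const, Finset.card_erase_of_mem (Finset.mem_univ s), Finset.card_univ,
              Fintype.card_fin, nsmul_eq_mul]; simp
    have h3 : (0 : ℝ) < m + 1 := by positivity
    nlinarith
  intro s F
  set L : Finset κ := F.image Prod.snd with hL
  set G : Finset (ι s) := F.image Prod.fst with hG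
  have hFsub : F ⊆ G ×ˢ L := by
    intro x hx
    rw [Finset.mem_product]
    exact ⟨Finset.mem_image_of_mem _ hx, Finset.mem_image_of_mem _ hx⟩
  refine (Finset.sum_le_sum_of_subset_of_nonneg hFsub fun x _ _ =>
    Finset.sum_nonneg fun i _ => by positivity).trans ?_
  rw [Finset.sum_product_right]
  have hl : ∀ l ∈ L, ∑ j ∈ G, ∑ i, ‖V (NA.val (c s j * b l) (ξ i)) -
      σ (c s j) (V (NA.val (b l) (ξ i)))‖ ^ 2 ≤ 2 * (β s.succ l - α s.succ l) + 2 * P l := by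
    intro l _
    rw [Finset.sum_comm]
    have h1 : ∀ i, ∑ j ∈ G, ‖V (NA.val (c s j * b l) (ξ i)) -
        σ (c s j) (V (NA.val (b l) (ξ i)))‖ ^ 2 ≤
        2 * (∑' j, ‖V (NA.val (c s j) (NA.val (b l) (ξ i)))‖ ^ 2 -
          ‖Vs s.succ (NA.val (b l) (ξ i))‖ ^ 2) +
        2 * ‖Vs s.succ (NA.val (b l) (ξ i)) - V (NA.val (b l) (ξ i))‖ ^ 2 := by
      intro i
      set v := NA.val (b l) (ξ i) with hv
      have g1 := point σ V (hc s) v G
      have g2 := sum_sigma_le σ (hc s) G (Vs s.succ v - V v)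
      have g3 : ∀ j ∈ G, ‖V (NA.val (c s j * b l) (ξ i)) - σ (c s j) (V v)‖ ^ 2 ≤
          2 * ‖V (NA.val (c s j) v) - σ (c s j) (Vc σ V (c s) v)‖ ^ 2 +
          2 * ‖σ (c s j) (Vs s.succ v - V v)‖ ^ 2 := by
        intro j _
        have k1 : NA.val (c s j * b l) (ξ i) = NA.val (c s j) v := by
          rw [map_mul]; rfl
        rw [k1]
        have k2 : V (NA.val (c s j) v) - σ (c s j) (V v) =
            (V (NA.val (c s j) v) - σ (c s j) (Vc σ V (c s) v)) + σ (c s j) (Vs s.succ v - V v) := by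
          rw [hVss, map_sub]; abel
        rw [k2]
        have k3 := norm_add_le (V (NA.val (c s j) v) - σ (c s j) (Vc σ V (c s) v))
          (σ (c s j) (Vs s.succ v - V v))
        nlinarith [norm_nonneg (V (NA.val (c s j) v) - σ (c s j) (Vc σ V (c s) v) +
          σ (c s j) (Vs s.succ v - V v)), sq_nonneg (‖V (NA.val (c s j) v) - σ (c s j)
          (Vc σ V (c s) v)‖ - ‖σ (c s j) (Vs s.succ v - V v)‖),
          norm_nonneg (V (NA.val (c s j) v) - σ (c s j) (Vc σ V (c s) v)),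
          norm_nonneg (σ (c s j) (Vs s.succ v - V v))]
      refine (Finset.sum_le_sum g3).trans ?_
      rw [Finset.sum_add_distrib, ← Finset.mul_sum, ← Finset.mul_sum]
      rw [hVss] at g2 ⊢
      linarith
    refine (Finset.sum_le_sum fun i _ => h1 i).trans ?_
    rw [Finset.sum_add_distrib, ← Finset.mul_sum, ← Finset.mul_sum, Finset.sum_sub_distrib]
    have h2 := hδ s.succ l
    have h3 : β s.succ l = ∑ i, ∑' j, ‖V (NA.val (c s j) (NA.val (b l) (ξ i)))‖ ^ 2 := rfl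
    have h4 : α s.succ l = ∑ i, ‖Vs s.succ (NA.val (b l) (ξ i))‖ ^ 2 := rfl
    rw [h3, h4]
    linarith
  refine (Finset.sum_le_sum hl).trans ?_
  rw [Finset.sum_add_distrib, ← Finset.mul_sum, ← Finset.mul_sum]
  have h1 : ∑ l ∈ L, (β s.succ l - α s.succ l) ≤ 2 * (m + 1) * ε := by
    have k1 : HasSum (fun l => β s.succ l - α s.succ l) (∑' l, β s.succ l - ∑' l, α s.succ l) :=
      (hβs _).hasSum.sub (hαs _).hasSum
    have k2 := sum_le_hasSum L (fun l _ => sub_nonneg.2 (hαβ s.succ l)) k1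
    have k3 := hβN s.succ
    have k4 := hαlow s.succ
    linarith
  have h2 := hPtot L
  have h3 : (0 : ℝ) ≤ (m : ℝ) * (m + 1) * ε := by positivity
  nlinarith [h1, h2, h3]

end Crest.Agent.R121
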