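import Mathlib
import Crest.Prelude.Def_Hochschild
import Crest.Agent.R124.ESplit

/-!
# Row 121, module W (helper93): weak operator ultralimits of bounded cochains, localisation
-/

set_option autoImplicit false

namespace Crest.Agent.R121

open scoped InnerProductSpace ComplexConjugate
open Filter Topology

variable {H : Type*} [NormedAddCommGroup H] [InnerProductSpace ℂ H] [CompleteSpace H]

/-- bounded families of operators have weak operator limits along ultrafilters -/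
theorem exists_wot_lim {ι : Type*} (U : Ultrafilter ι) (T : ι → H →L[ℂ] H) {R : ℝ}
    (hT : ∀ i, ‖T i‖ ≤ R) :
    ∃ S : H →L[ℂ] H, ‖S‖ ≤ R ∧
      ∀ x y, Tendsto (fun i => ⟪T i x, y⟫_ℂ) U (𝓝 ⟪S x, y⟫_ℂ) := by
  have hR : 0 ≤ R := by
    obtain ⟨i, -⟩ := U.neBot.nonempty_of_mem Filter.univ_mem
    exact (norm_nonneg _).trans (hT i)
  have key : ∀ x : H, ∃ s : H, ‖s‖ ≤ R * ‖x‖ ∧
      ∀ y : H, Tendsto (fun i => ⟪T i x, y⟫_ℂ) U (𝓝 ⟪s, y⟫_ℂ) := fun x =>
    R124.exists_weak_lim U (fun i => T i x) fun i =>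
      (T i).le_of_opNorm_le (hT i) x
  choose s hs1 hs2 using key
  let S : H →L[ℂ] H := LinearMap.mkContinuous
    { toFun := s
      map_add' := fun x y => by
        refine ext_inner_right ℂ fun z => tendsto_nhds_unique (hs2 (x + y) z) ?_
        rw [inner_add_left]
        refine ((hs2 x z).add (hs2 y z)).congr fun i => ?_
        rw [map_add, inner_add_left]
      map_smul' := fun c x => by
        refine ext_inner_right ℂ fun z => tendsto_nhds_unique (hs2 (c • x) z) ?_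
        rw [RingHom.id_apply, inner_smul_left]
        refine ((hs2 x z).const_mul _).congr fun i => ?_
        rw [map_smul, inner_smul_left] } R hs1
  exact ⟨S, LinearMap.mkContinuous_norm_le _ hR _, fun x y => hs2 x y⟩

/-- an operator which is a pointwise weak limit of elements of `M` is in `M` -/
theorem mem_of_wot_lim (M : VonNeumannAlgebra H) {ι : Type*} {l : Filter ι} [l.NeBot]
    {T : ι → H →L[ℂ] H} (hTM : ∀ i, T i ∈ M) {S : H →L[ℂ] H}
    (hS : ∀ x y, Tendsto (fun i => ⟪T i x, y⟫_ℂ) l (𝓝 ⟪S x, y⟫_ℂ)) : S ∈ M := by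
  have h1 : S ∈ Set.centralizer (Set.centralizer (M : Set (H →L[ℂ] H))) := by
    rw [Set.mem_centralizer_iff]
    intro c hc
    rw [Set.mem_centralizer_iff] at hc
    ext x
    refine ext_inner_right ℂ fun y => ?_
    have e1 : Tendsto (fun i => ⟪T i (c x), y⟫_ℂ) l (𝓝 ⟪S (c x), y⟫_ℂ) := hS _ _
    have e2 : Tendsto (fun i => ⟪T i x, (ContinuousLinearMap.adjoint c) y⟫_ℂ) l
        (𝓝 ⟪S x, (ContinuousLinearMap.adjoint c) y⟫_ℂ) := hS _ _
    have e3 : ∀ i, ⟪T i x, (ContinuousLinearMap.adjoint c) y⟫_ℂ = ⟪T i (c x), y⟫_ℂ := by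
      intro i
      rw [ContinuousLinearMap.adjoint_inner_right]
      have := hc (T i) (hTM i)
      have h2 : c (T i x) = T i (c x) := by
        have h3 := congrArg (fun f : H →L[ℂ] H => f x) this
        simpa using h3.symm
      rw [h2]
    simp_rw [e3] at e2
    have e4 := tendsto_nhds_unique e2 e1
    rw [ContinuousLinearMap.adjoint_inner_right] at e4
    exact e4
  rw [M.centralizer_centralizer] at h1
  exact h1

variable (M : VonNeumannAlgebra H)

/-- extensionality in `M` through matrix coefficients -/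
theorem alg_ext {M : VonNeumannAlgebra H} {a b : M.toStarSubalgebra}
    (h : ∀ ξ η : H, ⟪(a : H →L[ℂ] H) ξ, η⟫_ℂ = ⟪(b : H →L[ℂ] H) ξ, η⟫_ℂ) : a = b := by
  apply Subtype.ext
  ext x
  exact ext_inner_right ℂ fun y => h x y

/-- weak operator ultralimit of a bounded family of elements of `M` -/
theorem exists_alg_lim {ι : Type*} (U : Ultrafilter ι) (T : ι → M.toStarSubalgebra) {R : ℝ}
    (hT : ∀ i, ‖T i‖ ≤ R) :
    ∃ S : M.toStarSubalgebra, ‖S‖ ≤ R ∧ ∀ ξ η, Tendsto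
      (fun i => ⟪((T i : M.toStarSubalgebra) : H →L[ℂ] H) ξ, η⟫_ℂ) U
      (𝓝 ⟪(S : H →L[ℂ] H) ξ, η⟫_ℂ) := by
  obtain ⟨S, hS1, hS2⟩ := exists_wot_lim U (fun i => ((T i : M.toStarSubalgebra) : H →L[ℂ] H)) hT
  exact ⟨⟨S, mem_of_wot_lim M (fun i => (T i).2) hS2⟩, hS1, hS2⟩

/-- **weak operator ultralimit of a bounded family of cochains** -/
theorem exists_wlim {ι : Type*} (U : Ultrafilter ι) {J : Type*} [Fintype J]
    (g : ι → MultilinearMap ℂ (fun _ : J => M.toStarSubalgebra) M.toStarSubalgebra) {C : ℝ}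
    (hC0 : 0 ≤ C) (hC : ∀ i x, ‖g i x‖ ≤ C * ∏ j, ‖x j‖) :
    ∃ G : ContinuousMultilinearMap ℂ (fun _ : J => M.toStarSubalgebra) M.toStarSubalgebra,
      ‖G‖ ≤ C ∧ (∀ x, ‖G x‖ ≤ C * ∏ j, ‖x j‖) ∧ ∀ x ξ η, Tendsto
        (fun i => ⟪((g i x : M.toStarSubalgebra) : H →L[ℂ] H) ξ, η⟫_ℂ) U
        (𝓝 ⟪((G x : M.toStarSubalgebra) : H →L[ℂ] H) ξ, η⟫_ℂ) := by
  classical
  have key := fun x : J → M.toStarSubalgebra => exists_alg_lim M U (fun i => g i x)
    (R := C * ∏ j, ‖x j‖) (fun i => hC i x)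
  choose S hS1 hS2 using key
  let G0 : MultilinearMap ℂ (fun _ : J => M.toStarSubalgebra) M.toStarSubalgebra :=
    { toFun := S
      map_update_add' := fun {dec} m i x y => by
        have hdec : dec = fun a b => Classical.propDecidable (a = b) := Subsingleton.elim _ _
        subst hdec
        refine alg_ext fun ξ η => tendsto_nhds_unique (hS2 _ ξ η) ?_
        have h1 := (hS2 (Function.update m i x) ξ η).add (hS2 (Function.update m i y) ξ η)
        have e : ⟪((S (Function.update m i x) + S (Function.update m i y) :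
            M.toStarSubalgebra) : H →L[ℂ] H) ξ, η⟫_ℂ =
            ⟪(S (Function.update m i x) : H →L[ℂ] H) ξ, η⟫_ℂ +
            ⟪(S (Function.update m i y) : H →L[ℂ] H) ξ, η⟫_ℂ := by
          rw [← inner_add_left]; rfl
        rw [e]
        refine h1.congr fun j => ?_
        rw [(g j).map_update_add, ← inner_add_left]
        rfl
      map_update_smul' := fun {dec} m i c x => by
        have hdec : dec = fun a b => Classical.propDecidable (a = b) := Subsingleton.elim _ _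
        subst hdec
        refine alg_ext fun ξ η => tendsto_nhds_unique (hS2 _ ξ η) ?_
        have h1 := (hS2 (Function.update m i x) ξ η).const_mul ((starRingEnd ℂ) c)
        have e : ⟪((c • S (Function.update m i x) :
            M.toStarSubalgebra) : H →L[ℂ] H) ξ, η⟫_ℂ =
            (starRingEnd ℂ) c * ⟪(S (Function.update m i x) : H →L[ℂ] H) ξ, η⟫_ℂ := by
          rw [← inner_smul_left]; rfl
        rw [e]
        refine h1.congr fun j => ?_
        rw [(g j).map_update_smul, ← inner_smul_left]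
        rfl }
  refine ⟨G0.mkContinuous C hS1, G0.mkContinuous_norm_le hC0 _, hS1, fun x ξ η => hS2 x ξ η⟩

/-- weak operator convergence of the differentials -/
theorem tendsto_diff {ι : Type*} {l : Filter ι} {n : ℕ}
    {g : ι → (Fin n → M.toStarSubalgebra) → M.toStarSubalgebra}
    {G : (Fin n → M.toStarSubalgebra) → M.toStarSubalgebra}
    (h : ∀ x ξ η, Tendsto (fun i => ⟪((g i x : M.toStarSubalgebra) : H →L[ℂ] H) ξ, η⟫_ℂ) l
        (𝓝 ⟪((G x : M.toStarSubalgebra) : H →L[ℂ] H) ξ, η⟫_ℂ))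
    (a : Fin (n + 1) → M.toStarSubalgebra) (ξ η : H) :
    Tendsto (fun i => ⟪((Crest.OpAlg.hochschildDiff (g i) a : M.toStarSubalgebra) :
      H →L[ℂ] H) ξ, η⟫_ℂ) l
      (𝓝 ⟪((Crest.OpAlg.hochschildDiff G a : M.toStarSubalgebra) : H →L[ℂ] H) ξ, η⟫_ℂ) := by
  have key : ∀ F : (Fin n → M.toStarSubalgebra) → M.toStarSubalgebra,
      ⟪((Crest.OpAlg.hochschildDiff F a : M.toStarSubalgebra) : H →L[ℂ] H) ξ, η⟫_ℂ =
        ⟪((F (fun i => a i.succ) : M.toStarSubalgebra) : H →L[ℂ] H) ξ,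
          (ContinuousLinearMap.adjoint ((a 0 : M.toStarSubalgebra) : H →L[ℂ] H)) η⟫_ℂ +
        (∑ j : Fin n, ((-1 : ℂ) ^ (j.val + 1)) *
          ⟪((F (Crest.OpAlg.mergeArgs j a) : M.toStarSubalgebra) : H →L[ℂ] H) ξ, η⟫_ℂ) +
        ((-1 : ℂ) ^ (n + 1)) *
          ⟪((F (fun i => a i.castSucc) : M.toStarSubalgebra) : H →L[ℂ] H)
            (((a (Fin.last n) : M.toStarSubalgebra) : H →L[ℂ] H) ξ), η⟫_ℂ := by
    intro F
    have hz : ∀ (k : ℕ) (ζ : H),
        ⟪((-1 : ℤ) ^ k) • ζ, η⟫_ℂ = ((-1 : ℂ) ^ k) * ⟪ζ, η⟫_ℂ := by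
      intro k ζ
      rcases Nat.even_or_odd k with hk | hk
      · simp [hk.neg_one_pow]
      · simp [hk.neg_one_pow]
    rw [Crest.OpAlg.hochschildDiff]
    push_cast
    simp only [Pi.add_apply, Finset.sum_apply, Pi.smul_apply, Function.comp_apply,
      inner_add_left, ContinuousLinearMap.adjoint_inner_right, hz, sum_inner]
  simp_rw [key]
  refine ((h _ _ _).add (tendsto_finsetSum _ fun j _ => (h _ _ _).const_mul _)).add
    ((h _ _ _).const_mul _)

/-- **localisation**: approximate local solutions of `d g = f` with a common norm bound give an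
exact solution. -/
theorem exists_of_local {n : ℕ}
    (f : (Fin (n + 1) → M.toStarSubalgebra) → M.toStarSubalgebra) {C : ℝ} (hC0 : 0 ≤ C)
    (hloc : ∀ (S : Finset ((Fin (n + 1) → M.toStarSubalgebra) × H × H)) (ε : ℝ), 0 < ε →
      ∃ g : MultilinearMap ℂ (fun _ : Fin n => M.toStarSubalgebra) M.toStarSubalgebra,
        (∀ x, ‖g x‖ ≤ C * ∏ j, ‖x j‖) ∧
        ∀ s ∈ S, ‖⟪((Crest.OpAlg.hochschildDiff g s.1 : M.toStarSubalgebra) : H →L[ℂ] H) s.2.1,
            s.2.2⟫_ℂ - ⟪((f s.1 : M.toStarSubalgebra) : H →L[ℂ] H) s.2.1, s.2.2⟫_ℂ‖ ≤ ε) :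
    ∃ g : ContinuousMultilinearMap ℂ (fun _ : Fin n => M.toStarSubalgebra) M.toStarSubalgebra,
      ‖g‖ ≤ C ∧ ∀ a, Crest.OpAlg.hochschildDiff g a = f a := by
  classical
  let ι := Finset ((Fin (n + 1) → M.toStarSubalgebra) × H × H) × ℕ
  have hpos : ∀ k : ℕ, (0 : ℝ) < 1 / ((k : ℝ) + 1) := fun k => Nat.one_div_pos_of_nat
  choose g hg1 hg2 using fun i : ι => hloc i.1 (1 / ((i.2 : ℝ) + 1)) (hpos i.2)
  let U : Ultrafilter ι := Ultrafilter.of atTop
  have hU : (U : Filter ι) ≤ atTop := Ultrafilter.of_le _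
  obtain ⟨G, hG1, -, hG2⟩ := exists_wlim M U g hC0 hg1
  refine ⟨G, hG1, fun a => alg_ext fun ξ η => ?_⟩
  have h1 := tendsto_diff (M := M) (l := (U : Filter ι)) (g := fun i => ⇑(g i)) (G := ⇑G)
    hG2 a ξ η
  have h2 : Tendsto (fun i : ι =>
      ⟪((Crest.OpAlg.hochschildDiff (g i) a : M.toStarSubalgebra) : H →L[ℂ] H) ξ, η⟫_ℂ) U
      (𝓝 ⟪((f a : M.toStarSubalgebra) : H →L[ℂ] H) ξ, η⟫_ℂ) := by
    refine Tendsto.mono_left ?_ hU
    rw [Metric.tendsto_nhds]
    intro ε hε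
    obtain ⟨N, hN⟩ := exists_nat_one_div_lt hε
    filter_upwards [eventually_ge_atTop (({(a, ξ, η)}, N) : ι)] with i hi
    have hmem : (a, ξ, η) ∈ i.1 := hi.1 (Finset.mem_singleton_self _)
    have h3 := hg2 i (a, ξ, η) hmem
    rw [dist_eq_norm]
    refine h3.trans_lt (lt_of_le_of_lt ?_ hN)
    have h4 : (N : ℝ) ≤ i.2 := by exact_mod_cast hi.2
    exact one_div_le_one_div_of_le (by positivity) (by linarith)
  exact tendsto_nhds_unique h1 h2

/-- sequential (ultralimit) version: if `d (g i) → f` weakly along an ultrafilter, with bounded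
`g i`, then `f = d g`. -/
theorem exists_of_ultra {ι : Type*} (U : Ultrafilter ι) {n : ℕ}
    (f : (Fin (n + 1) → M.toStarSubalgebra) → M.toStarSubalgebra) {C : ℝ} (hC0 : 0 ≤ C)
    (g : ι → MultilinearMap ℂ (fun _ : Fin n => M.toStarSubalgebra) M.toStarSubalgebra)
    (hg : ∀ i x, ‖g i x‖ ≤ C * ∏ j, ‖x j‖)
    (hlim : ∀ a ξ η, Tendsto (fun i =>
      ⟪((Crest.OpAlg.hochschildDiff (g i) a : M.toStarSubalgebra) : H →L[ℂ] H) ξ, η⟫_ℂ) U
      (𝓝 ⟪((f a : M.toStarSubalgebra) : H →L[ℂ] H) ξ, η⟫_ℂ)) :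
    ∃ G : ContinuousMultilinearMap ℂ (fun _ : Fin n => M.toStarSubalgebra) M.toStarSubalgebra,
      ‖G‖ ≤ C ∧ (∀ a, Crest.OpAlg.hochschildDiff G a = f a) ∧ ∀ x ξ η, Tendsto
        (fun i => ⟪((g i x : M.toStarSubalgebra) : H →L[ℂ] H) ξ, η⟫_ℂ) U
        (𝓝 ⟪((G x : M.toStarSubalgebra) : H →L[ℂ] H) ξ, η⟫_ℂ) := by
  obtain ⟨G, hG1, -, hG2⟩ := exists_wlim M U g hC0 hg
  refine ⟨G, hG1, fun a => alg_ext fun ξ η => ?_, hG2⟩
  exact tendsto_nhds_unique (tendsto_diff (M := M) (l := (U : Filter ι)) (g := fun i => ⇑(g i))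
    (G := ⇑G) hG2 a ξ η) (hlim a ξ η)

end Crest.Agent.R121
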