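import Crest.Agent.R121.BDefs
import Crest.Agent.R121.W

/-!
# Row 121, PART B, piece B4: the Zorn column

`h ∈ M`.  ZORN (`zorn_subset`): maximal set `S ⊆ {h m : m ∈ M}` with `∑_{w ∈ F} ‖w η‖² ≤ ‖η‖²` for all finite `F ⊆ S`
and all `η`.  Column operator `C : H → ℓ²(S, H)`, `C η = (w η)_w`, contraction, commutes with `M'` (acting
diagonally), `Q = C⋆ C` commutes with `M'`, so `Q ∈ M`, `0 ≤ Q ≤ 1`, `D = (1 - Q)^{1/2} ∈ M`.  For `m ∈ M`, small
`t > 0`, `w' = t h m D` satisfies `w'⋆ w' ≤ t² ‖h m‖² (1 - Q) ≤ 1 - Q`, so maximality gives `w' = 0` (choose `t`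
with `t h m D ∉ S`: if `t h m D ∈ S` for all small `t > 0` and `h m D ≠ 0`, infinitely many elements of norm
bounded below contradict the bound at a fixed `η`).  So `h m D = 0` for all `m ∈ M`.  `z` = projection onto the
orthogonal complement of `{v | ∀ m ∈ M, h m v = 0}` (closed subspace, invariant under `M` and `M'`), so `z ∈ M`,
`z` central, `h (1 - z) = 0`; `D H ⊆ (1 - z)H`, so `z (1 - Q) = z D² = 0`, and `w (1 - z) = 0` for `w ∈ S`, so
`Q = Q z = z`.
-/

set_option autoImplicit false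

namespace Crest.Agent.R121

open Crest.Agent.R124.J
open scoped InnerProductSpace ComplexConjugate

universe u
variable {H : Type u} [NormedAddCommGroup H] [InnerProductSpace ℂ H] [CompleteSpace H]

/-- the central support of `h` -/
theorem exists_csupp (M : VonNeumannAlgebra H) (h : NA M) : ∃ z : NA M, star z = z ∧ z * z = z ∧
    (∀ m : NA M, z * m = m * z) ∧ h * z = h ∧
    ∀ v : H, (∀ m : NA M, NA.val (h * m) v = 0) → NA.val z v = 0 := by
  set V0 : Submodule ℂ H := ⨅ m : NA M, (NA.val (h * m)).ker with hV0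
  have hmem : ∀ v, v ∈ V0 ↔ ∀ m : NA M, NA.val (h * m) v = 0 := by
    intro v; rw [hV0, Submodule.mem_iInf]; rfl
  have hcl : IsClosed (V0 : Set H) := by
    have : (V0 : Set H) = ⋂ m : NA M, {v | NA.val (h * m) v = 0} := by
      ext v; simp [hmem]
    rw [this]
    exact isClosed_iInter fun m => isClosed_eq (NA.val (h * m)).continuous continuous_const
  have : CompleteSpace V0 := hcl.completeSpace_coe
  set P : H →L[ℂ] H := V0.starProjection with hP
  have hPK : ∀ v, P v ∈ V0 := fun v => Submodule.starProjection_apply_mem V0 v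
  have hPid : ∀ v ∈ V0, P v = v := fun v hv => Submodule.starProjection_eq_self_iff.2 hv
  have hP1 : P ∈ M := by
    apply Crest.Agent.R95.vn_proj_mem
    intro y hy v hv
    rw [hmem] at hv ⊢
    intro m
    have h1 := (VonNeumannAlgebra.mem_commutant_iff.1 hy) _ (NA.val_mem (h * m))
    have h2 : NA.val (h * m) (y v) = y (NA.val (h * m) v) := by
      have := congrArg (fun T : H →L[ℂ] H => T v) h1
      simpa using this
    rw [h2, hv m, map_zero]
  have hP2 : P ∈ M.commutant := by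
    apply Crest.Agent.R95.vn_proj_mem
    intro y hy v hv
    rw [VonNeumannAlgebra.commutant_commutant] at hy
    rw [hmem] at hv ⊢
    intro m
    have := hv (m * NA.mk y hy)
    rw [← mul_assoc, map_mul] at this
    simpa [NA.val_mk] using this
  have hPstar : star P = P := (isStarProjection_starProjection (U := V0)).isSelfAdjoint
  have hPidem : P * P = P := (isStarProjection_starProjection (U := V0)).isIdempotentElem
  set p : NA M := NA.mk P hP1 with hp
  have hpv : NA.val p = P := NA.val_mk P hP1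
  have hps : star p = p := NA.val_inj (by rw [map_star, hpv, hPstar])
  have hpp : p * p = p := NA.val_inj (by rw [map_mul, hpv, hPidem])
  have hpc : ∀ m : NA M, p * m = m * p := by
    intro m
    apply NA.val_inj
    rw [map_mul, map_mul, hpv]
    exact ((VonNeumannAlgebra.mem_commutant_iff.1 hP2) _ (NA.val_mem m)).symm
  refine ⟨1 - p, ?_, ?_, ?_, ?_, ?_⟩
  · rw [star_sub, star_one, hps]
  · rw [mul_sub, mul_one, sub_mul, one_mul, hpp, sub_self, sub_zero]
  · intro m
    rw [sub_mul, mul_sub, one_mul, mul_one, hpc m]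
  · rw [mul_sub, mul_one]
    have : h * p = 0 := by
      apply NA.val_inj
      ext v
      have h1 := (hmem _).1 (hPK v) 1
      rw [mul_one] at h1
      rw [map_mul, hpv, map_zero]
      simpa using h1
    rw [this, sub_zero]
  · intro v hv
    have h1 : P v = v := hPid v ((hmem v).2 hv)
    rw [map_sub, map_one, hpv]
    simp [h1]

/-- the finite Gram operators -/
noncomputable def gramF {M : VonNeumannAlgebra H} {J : Type u} (w : J → NA M) (F : Finset J) :
    NA M := ∑ j ∈ F, star (w j) * w j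

theorem gramF_inner {M : VonNeumannAlgebra H} {J : Type u} (w : J → NA M) (F : Finset J)
    (x y : H) : ⟪NA.val (gramF w F) x, y⟫_ℂ = ∑ j ∈ F, ⟪NA.val (w j) x, NA.val (w j) y⟫_ℂ := by
  rw [gramF, map_sum]
  rw [ContinuousLinearMap.sum_apply, sum_inner]
  refine Finset.sum_congr rfl fun j _ => ?_
  rw [map_mul, map_star, ContinuousLinearMap.mul_apply, ContinuousLinearMap.star_eq_adjoint,
    ContinuousLinearMap.adjoint_inner_left]

theorem gramF_norm {M : VonNeumannAlgebra H} {J : Type u} (w : J → NA M) (F : Finset J)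
    (hw : ∀ η : H, ∑ j ∈ F, ‖NA.val (w j) η‖ ^ 2 ≤ ‖η‖ ^ 2) :
    ‖NA.val (gramF w F)‖ ≤ 1 := by
  refine ContinuousLinearMap.opNorm_le_bound _ zero_le_one fun x => ?_
  rw [one_mul]
  set y := NA.val (gramF w F) x with hy
  have h1 : ‖y‖ ^ 2 ≤ ‖x‖ * ‖y‖ := by
    have h2 : ‖y‖ ^ 2 = ‖⟪NA.val (gramF w F) x, y⟫_ℂ‖ := by
      rw [← hy, inner_self_eq_norm_sq_to_K]
      simp
    rw [h2, gramF_inner]
    calc ‖∑ j ∈ F, ⟪NA.val (w j) x, NA.val (w j) y⟫_ℂ‖
        ≤ ∑ j ∈ F, ‖NA.val (w j) x‖ * ‖NA.val (w j) y‖ :=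
          (norm_sum_le _ _).trans (Finset.sum_le_sum fun j _ => norm_inner_le_norm _ _)
      _ ≤ Real.sqrt (∑ j ∈ F, ‖NA.val (w j) x‖ ^ 2) * Real.sqrt (∑ j ∈ F, ‖NA.val (w j) y‖ ^ 2) :=
          Real.sum_mul_le_sqrt_mul_sqrt _ _ _
      _ ≤ ‖x‖ * ‖y‖ := by
          refine mul_le_mul ?_ ?_ (Real.sqrt_nonneg _) (norm_nonneg _)
          · exact Real.sqrt_le_iff.2 ⟨norm_nonneg _, hw x⟩
          · exact Real.sqrt_le_iff.2 ⟨norm_nonneg _, hw y⟩
  rcases eq_or_lt_of_le (norm_nonneg y) with h0 | h0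
  · rw [← h0]; exact norm_nonneg _
  · have : ‖y‖ * ‖y‖ ≤ ‖x‖ * ‖y‖ := by rw [← sq]; exact h1
    exact le_of_mul_le_mul_right this h0

open Filter Topology in
/-- the Gram operator of a bounded family lies in `M` -/
theorem exists_gram (M : VonNeumannAlgebra H) {J : Type u} (w : J → NA M)
    (hw : ∀ (F : Finset J) (η : H), ∑ j ∈ F, ‖NA.val (w j) η‖ ^ 2 ≤ ‖η‖ ^ 2) :
    ∃ Q D : NA M, star D = D ∧ D * D = 1 - Q ∧ star Q = Q ∧
      ∀ η : H, HasSum (fun j => ‖NA.val (w j) η‖ ^ 2) (RCLike.re ⟪η, NA.val Q η⟫_ℂ) := by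
  classical
  set U : Ultrafilter (Finset J) := Ultrafilter.of atTop with hU
  have hUle : (U : Filter (Finset J)) ≤ atTop := Ultrafilter.of_le _
  obtain ⟨S, hS1, hS2⟩ := exists_wot_lim U (fun F => NA.val (gramF w F)) (R := 1)
    (fun F => gramF_norm w F (hw F))
  have hSM : S ∈ M := mem_of_wot_lim M (fun F => NA.val_mem (gramF w F)) hS2
  set Q : NA M := NA.mk S hSM with hQ
  have hQv : NA.val Q = S := NA.val_mk S hSM
  -- self adjoint
  have hsymm : ∀ x y : H, ⟪S x, y⟫_ℂ = ⟪x, S y⟫_ℂ := by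
    intro x y
    have h1 := hS2 x y
    have h2 := (hS2 y x)
    have h3 : Tendsto (fun F => (starRingEnd ℂ) ⟪NA.val (gramF w F) y, x⟫_ℂ) U
        (𝓝 ((starRingEnd ℂ) ⟪S y, x⟫_ℂ)) :=
      (Complex.continuous_conj.tendsto _).comp h2
    have h4 : ∀ F, (starRingEnd ℂ) ⟪NA.val (gramF w F) y, x⟫_ℂ = ⟪NA.val (gramF w F) x, y⟫_ℂ := by
      intro F
      rw [gramF_inner, gramF_inner, map_sum]
      refine Finset.sum_congr rfl fun j _ => ?_
      rw [inner_conj_symm]
    simp_rw [h4] at h3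
    have h5 := tendsto_nhds_unique h1 h3
    rw [h5, inner_conj_symm]
  have hQs : star Q = Q := by
    apply NA.val_inj
    rw [map_star, hQv]
    rw [ContinuousLinearMap.star_eq_adjoint]
    symm
    rw [ContinuousLinearMap.eq_adjoint_iff]
    exact hsymm
  have hQsa : IsSelfAdjoint Q := hQs
  have hQn : ‖Q‖ ≤ 1 := by
    rw [← NA.norm_val, hQv]; exact hS1
  have hpos : 0 ≤ 1 - Q := by
    rw [sub_nonneg]
    have h1 := hQsa.le_algebraMap_norm_self
    refine h1.trans ?_
    have h2 : (algebraMap ℝ (NA M)) ‖Q‖ ≤ (algebraMap ℝ (NA M)) 1 :=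
      algebraMap_mono _ hQn
    rwa [map_one] at h2
  refine ⟨Q, CFC.sqrt (1 - Q), (IsSelfAdjoint.of_nonneg (CFC.sqrt_nonneg _)).star_eq,
    CFC.sqrt_mul_sqrt_self _ hpos, hQs, fun η => ?_⟩
  have hsum : Summable (fun j => ‖NA.val (w j) η‖ ^ 2) :=
    summable_of_sum_le (fun j => sq_nonneg _) (fun F => hw F η)
  have h1 : Tendsto (fun F : Finset J => ∑ j ∈ F, ‖NA.val (w j) η‖ ^ 2) U
      (𝓝 (∑' j, ‖NA.val (w j) η‖ ^ 2)) := hsum.hasSum.mono_left hUle
  have h2 : Tendsto (fun F : Finset J => RCLike.re ⟪NA.val (gramF w F) η, η⟫_ℂ) U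
      (𝓝 (RCLike.re ⟪S η, η⟫_ℂ)) :=
    (RCLike.continuous_re.tendsto _).comp (hS2 η η)
  have h3 : ∀ F : Finset J, RCLike.re ⟪NA.val (gramF w F) η, η⟫_ℂ
      = ∑ j ∈ F, ‖NA.val (w j) η‖ ^ 2 := by
    intro F
    rw [gramF_inner, map_sum]
    refine Finset.sum_congr rfl fun j _ => ?_
    rw [inner_self_eq_norm_sq]
  simp_rw [h3] at h2
  have h4 := tendsto_nhds_unique h1 h2
  have h5 : RCLike.re ⟪η, NA.val Q η⟫_ℂ = ∑' j, ‖NA.val (w j) η‖ ^ 2 := by
    rw [h4, hQv, hsymm]
  rw [h5]
  exact hsum.hasSum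

private theorem zc_val_mul {M : VonNeumannAlgebra H} (a b : NA M) (v : H) :
    NA.val (a * b) v = NA.val a (NA.val b v) := by
  rw [map_mul]; rfl

private theorem zc_inner_star {M : VonNeumannAlgebra H} (a : NA M) (x y : H) :
    ⟪x, NA.val a y⟫_ℂ = ⟪NA.val (star a) x, y⟫_ℂ := by
  rw [map_star, ContinuousLinearMap.star_eq_adjoint, ContinuousLinearMap.adjoint_inner_left]

private theorem zc_D {M : VonNeumannAlgebra H} {Q D : NA M} (hD : star D = D)
    (hDD : D * D = 1 - Q) (η : H) :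
    ‖NA.val D η‖ ^ 2 = ‖η‖ ^ 2 - RCLike.re ⟪η, NA.val Q η⟫_ℂ := by
  have h1 : (‖NA.val D η‖ ^ 2 : ℝ) = RCLike.re ⟪NA.val D η, NA.val D η⟫_ℂ :=
    (norm_sq_eq_re_inner (𝕜 := ℂ) (NA.val D η))
  have h2 : ⟪NA.val D η, NA.val D η⟫_ℂ = ⟪η, NA.val (D * D) η⟫_ℂ := by
    rw [zc_val_mul, zc_inner_star D η (NA.val D η), hD]
  rw [h1, h2, hDD, map_sub, map_one, sub_apply, inner_sub_right, map_sub,
    one_apply_eq_self, ← norm_sq_eq_re_inner (𝕜 := ℂ) η]

theorem zorn_col (M : VonNeumannAlgebra H) (h : NA M) : ∃ (z : NA M) (J : Type u) (w : J → NA M),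
    star z = z ∧ z * z = z ∧ (∀ m : NA M, z * m = m * z) ∧ h * z = h ∧
    (∀ j, ∃ m, w j = h * m) ∧
    ∀ η : H, HasSum (fun j => ‖NA.val (w j) η‖ ^ 2) (‖NA.val z η‖ ^ 2) := by
  classical
  obtain ⟨z, hz1, hz2, hz3, hz4, hz5⟩ := exists_csupp M h
  let P : Set (Set (NA M)) := {S | (∀ w ∈ S, ∃ m, w = h * m) ∧
    ∀ F : Finset (NA M), (F : Set (NA M)) ⊆ S → ∀ η : H, ∑ w ∈ F, ‖NA.val w η‖ ^ 2 ≤ ‖η‖ ^ 2}
  obtain ⟨S, hS⟩ : ∃ S, Maximal (fun S => S ∈ P) S := by
    apply zorn_subset
    intro c hc hchain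
    rcases c.eq_empty_or_nonempty with rfl | hne
    · refine ⟨∅, ⟨by simp, ?_⟩, by simp⟩
      intro F hF η
      have : F = ∅ := by
        rw [← Finset.coe_eq_empty]; exact Set.subset_empty_iff.1 hF
      subst this
      simp
    · refine ⟨⋃₀ c, ⟨?_, ?_⟩, fun s hs => Set.subset_sUnion_of_mem hs⟩
      · rintro w ⟨s, hs, hw⟩
        exact (hc hs).1 w hw
      · intro F hF η
        obtain ⟨s, hs, hFs⟩ := DirectedOn.exists_mem_subset_of_finset_subset_biUnion (α := NA M)
          (f := id) hne hchain.directedOn (s := F) (by simpa [Set.sUnion_eq_biUnion] using hF)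
        exact (hc hs).2 F hFs η
  have hSP : S ∈ P := hS.prop
  have hw : ∀ (F : Finset S) (η : H), ∑ j ∈ F, ‖NA.val (j : NA M) η‖ ^ 2 ≤ ‖η‖ ^ 2 := by
    intro F η
    have := hSP.2 (F.map (Function.Embedding.subtype _)) (by
      intro x hx
      simp only [Finset.coe_map, Set.mem_image, Finset.mem_coe] at hx
      obtain ⟨y, -, rfl⟩ := hx
      exact y.2) η
    simpa [Finset.sum_map] using this
  obtain ⟨Q, D, hD, hDD, hQ, hsum⟩ := exists_gram M (fun j : S => (j : NA M)) hw
  have hbig : ∀ m : NA M, h * m * D = 0 := by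
    intro m
    by_contra hne
    -- a vector on which it does not vanish
    obtain ⟨η, hη⟩ : ∃ η : H, NA.val (h * m * D) η ≠ 0 := by
      by_contra hcon
      push Not at hcon
      apply hne
      apply NA.val_inj
      ext v
      rw [hcon v, map_zero]; rfl
    set N : ℝ := ‖h * m‖ + 1 with hN
    have hN0 : 0 < N := by positivity
    have key : ∀ t : ℝ, 0 < t → t ≤ N⁻¹ → ((t : ℂ) • (h * m * D)) ∈ S := by
      intro t ht htN
      by_contra hnot
      have hins : insert ((t : ℂ) • (h * m * D)) S ∈ P := by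
        refine ⟨?_, ?_⟩
        · rintro w (rfl | hw')
          · exact ⟨(t : ℂ) • (m * D), by rw [mul_smul_comm, mul_assoc]⟩
          · exact hSP.1 w hw'
        · intro F hF η'
          have hbd : ‖NA.val ((t : ℂ) • (h * m * D)) η'‖ ^ 2 ≤
              ‖η'‖ ^ 2 - RCLike.re ⟪η', NA.val Q η'⟫_ℂ := by
            rw [← zc_D hD hDD η']
            gcongr
            rw [map_smul, smul_apply, zc_val_mul, norm_smul]
            have h1 : ‖NA.val (h * m) (NA.val D η')‖ ≤ ‖h * m‖ * ‖NA.val D η'‖ := by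
              have := (NA.val (h * m)).le_opNorm (NA.val D η')
              rwa [NA.norm_val] at this
            have h2 : ‖(t : ℂ)‖ = t := by
              rw [Complex.norm_real, Real.norm_eq_abs, abs_of_pos ht]
            rw [h2]
            calc t * ‖NA.val (h * m) (NA.val D η')‖ ≤ t * (‖h * m‖ * ‖NA.val D η'‖) := by gcongr
              _ = (t * ‖h * m‖) * ‖NA.val D η'‖ := by ring
              _ ≤ 1 * ‖NA.val D η'‖ := by
                  gcongr
                  calc t * ‖h * m‖ ≤ N⁻¹ * N := by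
                        gcongr
                        rw [hN]; linarith
                    _ = 1 := inv_mul_cancel₀ hN0.ne'
              _ = ‖NA.val D η'‖ := one_mul _
          have hrest : ∑ w ∈ F.erase ((t : ℂ) • (h * m * D)), ‖NA.val w η'‖ ^ 2 ≤
              RCLike.re ⟪η', NA.val Q η'⟫_ℂ := by
            have hsub : ∀ w ∈ F.erase ((t : ℂ) • (h * m * D)), w ∈ S := by
              intro w hw'
              rw [Finset.mem_erase] at hw'
              rcases hF hw'.2 with h' | h'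
              · exact absurd h' hw'.1
              · exact h'
            have := sum_le_hasSum ((F.erase ((t : ℂ) • (h * m * D))).attach.map
              ⟨fun w => (⟨w.1, hsub w.1 w.2⟩ : S), fun a b hab => by
                apply Subtype.ext
                have := congrArg Subtype.val hab
                exact this⟩) (fun i _ => sq_nonneg _) (hsum η')
            rw [Finset.sum_map] at this
            exact (Finset.sum_attach (F.erase ((t : ℂ) • (h * m * D)))
              (fun w => ‖NA.val w η'‖ ^ 2)).symm.le.trans this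
          by_cases hmem : ((t : ℂ) • (h * m * D)) ∈ F
          · rw [← Finset.add_sum_erase F _ hmem]
            linarith
          · rw [Finset.erase_eq_of_notMem hmem] at hrest
            have := sq_nonneg ‖NA.val ((t : ℂ) • (h * m * D)) η'‖
            linarith
      have := hS.le_of_ge hins (Set.subset_insert _ _)
      exact hnot (this (Set.mem_insert _ _))
    -- infinitely many multiples
    let T : ℕ → ℝ := fun i => N⁻¹ / 2 + N⁻¹ / (2 * ((i : ℝ) + 1))
    have hNi : 0 < N⁻¹ := inv_pos.2 hN0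
    have hT1 : ∀ i, N⁻¹ / 2 < T i := fun i => by
      have : 0 < N⁻¹ / (2 * ((i : ℝ) + 1)) := by positivity
      simp only [T]; linarith
    have hT2 : ∀ i, T i ≤ N⁻¹ := fun i => by
      have : N⁻¹ / (2 * ((i : ℝ) + 1)) ≤ N⁻¹ / 2 := by
        gcongr
        have : (0 : ℝ) ≤ i := Nat.cast_nonneg i
        linarith
      simp only [T]; linarith
    have hTinj : Function.Injective T := by
      intro i j hij
      simp only [T] at hij
      have h1 : N⁻¹ / (2 * ((i : ℝ) + 1)) = N⁻¹ / (2 * ((j : ℝ) + 1)) := by linarith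
      rw [div_eq_div_iff (by positivity) (by positivity)] at h1
      have h2 : (2 * ((j : ℝ) + 1)) = (2 * ((i : ℝ) + 1)) := mul_left_cancel₀ hNi.ne' h1
      have h3 : (i : ℝ) = j := by linarith
      exact_mod_cast h3
    let g : ℕ → S := fun i => ⟨((T i : ℝ) : ℂ) • (h * m * D),
      key (T i) (lt_trans (by positivity) (hT1 i)) (hT2 i)⟩
    have hginj : Function.Injective g := by
      intro i j hij
      have h1 : ((T i : ℝ) : ℂ) • (h * m * D) = ((T j : ℝ) : ℂ) • (h * m * D) :=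
        congrArg Subtype.val hij
      rw [← sub_eq_zero, ← sub_smul] at h1
      rcases smul_eq_zero.1 h1 with h2 | h2
      · apply hTinj
        have h3 := sub_eq_zero.1 h2
        exact_mod_cast h3
      · exact absurd h2 hne
    have hs := (hsum η).summable.comp_injective hginj
    have hlim := hs.tendsto_atTop_zero
    have hlow : ∀ i, (N⁻¹ / 2) ^ 2 * ‖NA.val (h * m * D) η‖ ^ 2 ≤
        ((fun j : S => ‖NA.val (j : NA M) η‖ ^ 2) ∘ g) i := by
      intro i
      simp only [Function.comp, g]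
      rw [map_smul, smul_apply, norm_smul, mul_pow, Complex.norm_real,
        Real.norm_eq_abs, abs_of_pos (lt_trans (by positivity) (hT1 i))]
      gcongr
      exact (hT1 i).le
    have hpos : 0 < (N⁻¹ / 2) ^ 2 * ‖NA.val (h * m * D) η‖ ^ 2 := by
      have : 0 < ‖NA.val (h * m * D) η‖ := norm_pos_iff.2 hη
      positivity
    have := ge_of_tendsto' hlim hlow
    linarith
  have hzD : z * D = 0 := by
    apply NA.val_inj
    ext v
    rw [zc_val_mul, map_zero, zero_apply]
    apply hz5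
    intro m
    rw [← zc_val_mul, hbig m, map_zero]; rfl
  have hzQ : z * Q = z := by
    have : z * (1 - Q) = 0 := by rw [← hDD, ← mul_assoc, hzD, zero_mul]
    rw [mul_sub, mul_one, sub_eq_zero] at this
    exact this.symm
  refine ⟨z, S, fun j => (j : NA M), hz1, hz2, hz3, hz4, fun j => hSP.1 j.1 j.2, fun η => ?_⟩
  have h1 := hsum (NA.val z η)
  have h2 : (fun j : S => ‖NA.val (j : NA M) (NA.val z η)‖ ^ 2) =
      fun j : S => ‖NA.val (j : NA M) η‖ ^ 2 := by
    funext j
    obtain ⟨m, hm⟩ := hSP.1 j.1 j.2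
    rw [← zc_val_mul, hm, mul_assoc, ← hz3 m, ← mul_assoc, hz4]
  have h3 : RCLike.re ⟪NA.val z η, NA.val Q (NA.val z η)⟫_ℂ = ‖NA.val z η‖ ^ 2 := by
    have : ⟪NA.val z η, NA.val Q (NA.val z η)⟫_ℂ = ⟪NA.val z η, NA.val z η⟫_ℂ := by
      have e1 : ⟪NA.val z η, NA.val Q (NA.val z η)⟫_ℂ = ⟪η, NA.val (z * Q * z) η⟫_ℂ := by
        rw [zc_val_mul, zc_val_mul, zc_inner_star z η (NA.val Q (NA.val z η)), hz1]
      have e2 : ⟪NA.val z η, NA.val z η⟫_ℂ = ⟪η, NA.val (z * z) η⟫_ℂ := by
        rw [zc_val_mul, zc_inner_star z η (NA.val z η), hz1]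
      rw [e1, e2, hzQ]
    rw [this]; exact (norm_sq_eq_re_inner (𝕜 := ℂ) _).symm
  rw [h2, h3] at h1
  exact h1

end Crest.Agent.R121
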