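import Crest.Agent.R121.BDefs

/-! Row 121, PART B: helper lemmas for `locA` (helper53) -/

set_option autoImplicit false

namespace Crest.Agent.R121

open Crest.Agent.R124.J
open scoped InnerProductSpace ComplexConjugate

universe u v w w'
variable {H : Type u} [NormedAddCommGroup H] [InnerProductSpace ℂ H] [CompleteSpace H]
variable {K : Type v} [NormedAddCommGroup K] [InnerProductSpace ℂ K] [CompleteSpace K]
variable {M : VonNeumannAlgebra H}

theorem norm_le_one_of_isometry (a : NA M) (ha : star a * a = 1) : ‖a‖ ≤ 1 := by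
  have h1 : ‖a‖ * ‖a‖ = ‖(1 : NA M)‖ := by
    rw [← CStarRing.norm_star_mul_self, ha]
  have h2 : ‖(1 : NA M)‖ ≤ 1 := by
    rw [← NA.norm_val, map_one]
    exact ContinuousLinearMap.norm_id_le
  nlinarith [norm_nonneg a]

theorem sigma_norm_le (σ : NA M →⋆ₐ[ℂ] (K →L[ℂ] K)) (a : NA M) (ha : star a * a = 1) (x : K) :
    ‖σ a x‖ ≤ ‖x‖ := by
  have h1 : ‖σ a‖ ≤ 1 := (NonUnitalStarAlgHom.norm_apply_le σ a).trans (norm_le_one_of_isometry a ha)
  calc ‖σ a x‖ ≤ ‖σ a‖ * ‖x‖ := (σ a).le_opNorm x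
    _ ≤ 1 * ‖x‖ := by gcongr
    _ = ‖x‖ := one_mul _

theorem sum4_comm {α β γ δ : Type*} [Fintype β] [Fintype γ] [Fintype δ] (F : Finset α)
    (f : α → β → γ → δ → ℝ) :
    ∑ a ∈ F, ∑ b, ∑ c, ∑ d, f a b c d = ∑ c, ∑ d, ∑ a ∈ F, ∑ b, f a b c d := by
  have h1 : ∀ a, ∑ b, ∑ c, ∑ d, f a b c d = ∑ c, ∑ d, ∑ b, f a b c d := by
    intro a
    rw [Finset.sum_comm]
    refine Finset.sum_congr rfl fun c _ => ?_
    rw [Finset.sum_comm]
  simp only [h1]
  rw [Finset.sum_comm]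
  refine Finset.sum_congr rfl fun c _ => ?_
  rw [Finset.sum_comm]

/-- the limit argument -/
theorem loc_limit {p : ℕ} {J : Type u} {κ : Type u} (w : J → NA M) (b : κ → NA M) (hb : IsCol b)
    (z : NA M) (hz : ∀ m : NA M, z * m = m * z)
    (hw : ∀ η : H, HasSum (fun j => ‖NA.val (w j) η‖ ^ 2) (‖NA.val z η‖ ^ 2))
    (ξ : Fin p → H) (X : ℝ)
    (hX : ∀ F : Finset (J × κ), ∑ q ∈ F, ∑ i, ‖NA.val (w q.1) (NA.val (b q.2) (ξ i))‖ ^ 2 ≤ X) :
    ∑ i, ‖NA.val z (ξ i)‖ ^ 2 ≤ X := by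
  classical
  have h1 : ∀ L : Finset κ, ∑ l ∈ L, ∑ i, ‖NA.val (b l) (NA.val z (ξ i))‖ ^ 2 ≤ X := by
    intro L
    have h2 : HasSum (fun j => ∑ l ∈ L, ∑ i, ‖NA.val (w j) (NA.val (b l) (ξ i))‖ ^ 2)
        (∑ l ∈ L, ∑ i, ‖NA.val z (NA.val (b l) (ξ i))‖ ^ 2) := by
      apply hasSum_sum
      intro l _
      apply hasSum_sum
      intro i _
      exact hw _
    have h3 : ∑ l ∈ L, ∑ i, ‖NA.val z (NA.val (b l) (ξ i))‖ ^ 2 ≤ X := by
      refine le_of_tendsto h2 (Filter.Eventually.of_forall fun G => ?_)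
      have h4 := hX (G ×ˢ L)
      rw [Finset.sum_product] at h4
      exact h4
    have h5 : ∀ l i, NA.val (b l) (NA.val z (ξ i)) = NA.val z (NA.val (b l) (ξ i)) := by
      intro l i
      have h6 := congrArg NA.val (hz (b l))
      rw [map_mul, map_mul] at h6
      have h7 := congrArg (fun A : H →L[ℂ] H => A (ξ i)) h6
      exact h7.symm
    simp only [h5]
    exact h3
  have h8 : HasSum (fun l => ∑ i, ‖NA.val (b l) (NA.val z (ξ i))‖ ^ 2) (∑ i, ‖NA.val z (ξ i)‖ ^ 2) :=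
    hasSum_sum fun i _ => hb _
  exact le_of_tendsto h8 (Filter.Eventually.of_forall fun L => h1 L)

end Crest.Agent.R121
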