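import Crest.Agent.R121.B3
import Crest.Agent.R121.B4
import Crest.Agent.R121.B5h
import Crest.Agent.R121.W

/-!
# Row 121, PART B, piece B5: one operator `V` in the orbit is almost invariant

`hasSum_comp_Vc`: definition of `Vc`, with `k = σ(y)⋆ T⋆ η`.
`comp_Vc_mem`: double commutant (`M.centralizer_centralizer`; compare with `mem_of_wot_lim` in `R121/W.lean`, which can
be used with the filter `atTop` on `Finset ι`): `T σ(y) V^c` is the weak limit of `∑_{i ∈ F} (T σ(y c_i⋆) W) c_i ∈ M`.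
`exists_cut`: `h = (Y - d)_+`, `k = (Y - d)_-` (`CFC.posPart_sub_negPart`, `h k = k h = 0`, `h, k ≥ 0`):
`⟪hv,(Y-d)hv⟫ = ⟪hv, h h v⟫ ≥ 0`; `(1-z) h = 0` gives `⟪(1-z)v,(Y-d)(1-z)v⟫ = -⟪(1-z)v, k(1-z)v⟫ ≤ 0`;
`⟪v,Yv⟫ = ⟪(1-z)v,Y(1-z)v⟫ + ⟪zv,Yzv⟫`.
`locA`.  Let `B` bound all `‖T s‖`, `Z_{s,t} = T_s (σ(a_t) V - V a_t) ∈ M` (`comp_Vc_mem`), `Y = ∑ Z⋆Z ∈ M`,
`‖Y‖ ≤ R := m q (2B‖W‖)²`.  Choose first `d > 0` with `d ∑‖ξ_i‖² ≤ ε/2`, then `ε₀` with `R C' ε₀/d ≤ ε/2`,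
`C' = 32 m q B² (q+2)²`, then `V` from `star_est` with `ε₀`.  `h` from `exists_cut`, `z, w` from `zorn_col`;
the column `w' : Option J → NA M`, `w' none = 1 - z`, `w' (some j) = w j`; the `q+1` columns `w'`, `a_t w'`.
`star_est` gives `b` with (`v = b_l ξ_i`) `∑ ‖V w_j v - σ(w_j) V v‖² ≤ 8(q+2)²ε₀`, `∑ ‖V a_t w_j v - σ(a_t w_j)V v‖² ≤ 8(q+2)²ε₀`,
so `∑ ‖(V a_t - σ(a_t) V) w_j v‖² ≤ 32 (q+2)² ε₀`, `∑_{s,t}∑ ‖Z_{s,t} w_j v‖² ≤ C' ε₀`, i.e. `∑_{j,l,i} ⟪w_j v, Y w_j v⟫ ≤ C'ε₀`.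
`w_j = h m`: `d ∑ ‖w_j b_l ξ_i‖² ≤ C' ε₀`, `∑_j ‖w_j b_l ξ_i‖² = ‖z b_l ξ_i‖² = ‖b_l z ξ_i‖²`, `∑_l = ‖z ξ_i‖²`: `d ∑_i ‖z ξ_i‖² ≤ C'ε₀`.
Finally `∑_{s,t} ‖Z_{s,t} ξ_i‖² = ⟪ξ_i, Y ξ_i⟫ ≤ d ‖ξ_i‖² + R ‖z ξ_i‖² ≤ ε`.
-/

set_option autoImplicit false

namespace Crest.Agent.R121

open Crest.Agent.R124.J
open scoped InnerProductSpace ComplexConjugate

universe u v w w'
variable {H : Type u} [NormedAddCommGroup H] [InnerProductSpace ℂ H] [CompleteSpace H]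
variable {K : Type v} [NormedAddCommGroup K] [InnerProductSpace ℂ K] [CompleteSpace K]
variable {M : VonNeumannAlgebra H}

theorem hasSum_comp_Vc {ι : Type w} (σ : NA M →⋆ₐ[ℂ] (K →L[ℂ] K)) (W : H →L[ℂ] K)
    {E : Type w'} [NormedAddCommGroup E] [InnerProductSpace ℂ E] [CompleteSpace E]
    (T : K →L[ℂ] E) {c : ι → NA M} (hc : IsCol c) (y : NA M) (ξ : H) (η : E) :
    HasSum (fun i => ⟪η, T (σ (y * star (c i)) (W (NA.val (c i) ξ)))⟫_ℂ)
      ⟪η, T (σ y (Vc σ W c ξ))⟫_ℂ := by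
  have h := Vc_spec σ W hc ξ (σ (star y) (ContinuousLinearMap.adjoint T η))
  have hs : ∀ (a : NA M) (k k' : K), ⟪σ (star a) k, k'⟫_ℂ = ⟪k, σ a k'⟫_ℂ := by
    intro a k k'
    rw [map_star, ContinuousLinearMap.star_eq_adjoint, ContinuousLinearMap.adjoint_inner_left]
  rw [hs, ContinuousLinearMap.adjoint_inner_left] at h
  convert h using 1
  funext i
  rw [← ContinuousLinearMap.adjoint_inner_left T, ← hs, star_mul, star_star, map_mul]
  rfl

theorem comp_Vc_mem {ι : Type w} (σ : NA M →⋆ₐ[ℂ] (K →L[ℂ] K)) (W : H →L[ℂ] K)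
    (T : K →L[ℂ] H) (hT : ∀ y, T ∘L (σ y) ∘L W ∈ M) {c : ι → NA M} (hc : IsCol c) (y : NA M) :
    T ∘L (σ y) ∘L (Vc σ W c) ∈ M := by
  classical
  have hS : ∀ x z, Filter.Tendsto (fun F : Finset ι =>
      ⟪(∑ i ∈ F, (T ∘L (σ (y * star (c i))) ∘L W) * NA.val (c i)) x, z⟫_ℂ) Filter.atTop
      (nhds ⟪(T ∘L (σ y) ∘L (Vc σ W c)) x, z⟫_ℂ) := by
    intro x z
    have h := (hasSum_comp_Vc σ W T hc y x z)
    have h2 := (Complex.continuous_conj.tendsto _).comp h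
    have e1 : (starRingEnd ℂ) ⟪z, T (σ y (Vc σ W c x))⟫_ℂ =
        ⟪(T ∘L (σ y) ∘L (Vc σ W c)) x, z⟫_ℂ := by
      rw [inner_conj_symm]; rfl
    rw [e1] at h2
    refine h2.congr fun F => ?_
    simp only [Function.comp]
    rw [sum_apply, sum_inner, map_sum]
    refine Finset.sum_congr rfl fun i _ => ?_
    rw [inner_conj_symm]
    rfl
  refine mem_of_wot_lim M (fun F => ?_) hS
  exact M.toStarSubalgebra.toSubalgebra.sum_mem fun i _ =>
    M.toStarSubalgebra.toSubalgebra.mul_mem (hT _) (c i).2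

theorem b5_adj (a : NA M) (x y : H) :
    ⟪x, NA.val a y⟫_ℂ = ⟪NA.val (star a) x, y⟫_ℂ := by
  rw [map_star, ContinuousLinearMap.star_eq_adjoint, ContinuousLinearMap.adjoint_inner_left]

theorem b5_pos {k : NA M} (hk : 0 ≤ k) (v : H) : 0 ≤ RCLike.re ⟪v, NA.val k v⟫_ℂ := by
  obtain ⟨b, rfl⟩ := CStarAlgebra.nonneg_iff_eq_star_mul_self.1 hk
  have : ⟪v, NA.val (star b * b) v⟫_ℂ = ⟪NA.val b v, NA.val b v⟫_ℂ := by
    rw [map_mul]
    change ⟪v, NA.val (star b) (NA.val b v)⟫_ℂ = _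
    rw [b5_adj, star_star]
  rw [this, inner_self_eq_norm_sq_to_K]
  norm_cast
  positivity

theorem exists_cut (Y : NA M) (hY : star Y = Y) {d : ℝ} (hd : 0 < d) : ∃ h : NA M,
    (∀ v : H, d * ‖NA.val h v‖ ^ 2 ≤ RCLike.re ⟪NA.val h v, NA.val Y (NA.val h v)⟫_ℂ) ∧
    ∀ z : NA M, star z = z → z * z = z → (∀ m, z * m = m * z) → h * z = h →
      ∀ v : H, RCLike.re ⟪v, NA.val Y v⟫_ℂ ≤ d * ‖v‖ ^ 2 + ‖Y‖ * ‖NA.val z v‖ ^ 2 := by
  have hsa : IsSelfAdjoint (Y - (d : ℂ) • (1 : NA M)) := by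
    rw [isSelfAdjoint_iff, star_sub, hY, star_smul, star_one]
    simp
  set D : NA M := Y - (d : ℂ) • (1 : NA M) with hD
  have hYD : Y = D + (d : ℂ) • (1 : NA M) := by rw [hD]; abel
  have hdec : D⁺ - D⁻ = D := CFC.posPart_sub_negPart D hsa
  have hpn : D⁻ * D⁺ = 0 := CFC.negPart_mul_posPart D
  have hp0 : (0 : NA M) ≤ D⁺ := CFC.posPart_nonneg D
  have hn0 : (0 : NA M) ≤ D⁻ := CFC.negPart_nonneg D
  have hval : ∀ (x y : H), ⟪x, NA.val Y y⟫_ℂ = ⟪x, NA.val D y⟫_ℂ + (d : ℂ) * ⟪x, y⟫_ℂ := by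
    intro x y
    have e : NA.val Y = NA.val D + (d : ℂ) • (1 : H →L[ℂ] H) := by
      rw [hYD, map_add, map_smul, map_one]
    rw [e, ContinuousLinearMap.add_apply, inner_add_right, ContinuousLinearMap.smul_apply,
      inner_smul_right]
    rfl
  have hre : ∀ (x : H), RCLike.re ⟪x, NA.val Y x⟫_ℂ = RCLike.re ⟪x, NA.val D x⟫_ℂ + d * ‖x‖ ^ 2 := by
    intro x
    rw [hval, map_add, inner_self_eq_norm_sq_to_K]
    congr 1
    have h5 : ((d : ℂ) * ((‖x‖ : ℝ) : ℂ) ^ 2) = ((d * ‖x‖ ^ 2 : ℝ) : ℂ) := by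
      push_cast
      ring
    exact (congrArg Complex.re h5).trans (Complex.ofReal_re _)
  refine ⟨D⁺, fun v => ?_, fun z hz hzz hc hhz v => ?_⟩
  · rw [hre]
    have e : NA.val D (NA.val D⁺ v) = NA.val D⁺ (NA.val D⁺ v) := by
      have : D * D⁺ = D⁺ * D⁺ := by
        conv_lhs => rw [← hdec]
        rw [sub_mul, hdec, hpn, sub_zero]
      have h2 := congrArg (fun t => NA.val t v) this
      simpa [map_mul] using h2
    rw [e]
    have := b5_pos (M := M) hp0 (NA.val D⁺ v)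
    linarith
  · set u : H := v - NA.val z v with hu
    have e1 : NA.val z u = 0 := by
      rw [hu, map_sub]
      have h2 := congrArg (fun t => NA.val t v) hzz
      simp only [map_mul] at h2
      change NA.val z (NA.val z v) = _ at h2
      rw [h2, sub_self]
    have e2 : NA.val D⁺ u = 0 := by
      rw [hu, map_sub]
      have h2 := congrArg (fun t => NA.val t v) hhz
      simp only [map_mul] at h2
      change NA.val D⁺ (NA.val z v) = _ at h2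
      rw [h2, sub_self]
    have hv : v = u + NA.val z v := by rw [hu]; abel
    have o1 : ∀ x y : H, NA.val z x = 0 → ⟪x, NA.val z y⟫_ℂ = 0 := by
      intro x y hx
      rw [b5_adj, hz, hx, inner_zero_left]
    have o2 : ∀ x y : H, NA.val z x = 0 → ⟪NA.val z y, x⟫_ℂ = 0 := by
      intro x y hx
      rw [← inner_conj_symm, o1 x y hx, map_zero]
    have hcom : ∀ x, NA.val Y (NA.val z x) = NA.val z (NA.val Y x) := by
      intro x
      have h2 := congrArg (fun t => NA.val t x) (hc Y)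
      simp only [map_mul] at h2
      exact h2.symm
    have hzYu : NA.val z (NA.val Y u) = 0 := by rw [← hcom, e1, map_zero]
    have hexp : ⟪v, NA.val Y v⟫_ℂ = ⟪u, NA.val Y u⟫_ℂ + ⟪NA.val z v, NA.val Y (NA.val z v)⟫_ℂ := by
      conv_lhs => rw [hv]
      rw [map_add, inner_add_left, inner_add_right, inner_add_right, hcom, o1 u _ e1,
        o2 _ _ hzYu]
      ring
    have hnorm : ‖v‖ ^ 2 = ‖u‖ ^ 2 + ‖NA.val z v‖ ^ 2 := by
      have h3 := norm_add_sq_eq_norm_sq_add_norm_sq_of_inner_eq_zero (𝕜 := ℂ) u (NA.val z v) (o1 u v e1)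
      rw [← hv] at h3
      nlinarith [h3]
    have hu2 : RCLike.re ⟪u, NA.val Y u⟫_ℂ ≤ d * ‖u‖ ^ 2 := by
      rw [hre]
      have e : NA.val D u = - NA.val D⁻ u := by
        have h2 := congrArg (fun t => NA.val t u) hdec
        simp only [map_sub] at h2
        rw [← h2]
        change NA.val D⁺ u - NA.val D⁻ u = _
        rw [e2, zero_sub]
      rw [e, inner_neg_right, map_neg]
      have := b5_pos (M := M) hn0 u
      linarith
    have hz2 : RCLike.re ⟪NA.val z v, NA.val Y (NA.val z v)⟫_ℂ ≤ ‖Y‖ * ‖NA.val z v‖ ^ 2 := by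
      refine (RCLike.re_le_norm _).trans ((norm_inner_le_norm _ _).trans ?_)
      have := (NA.val Y).le_opNorm (NA.val z v)
      rw [NA.norm_val] at this
      nlinarith [norm_nonneg (NA.val z v)]
    rw [hexp, map_add, hnorm]
    nlinarith [norm_nonneg (NA.val z v), sq_nonneg ‖NA.val z v‖]

/-- the element `Y` of the main estimate -/
theorem exists_Y {m q : ℕ} (Z : Fin m → Fin q → NA M) {R : ℝ} (hR : ∀ s t, ‖Z s t‖ ≤ R) :
    ∃ Y : NA M, star Y = Y ∧ ‖Y‖ ≤ m * q * R ^ 2 ∧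
      ∀ v : H, RCLike.re ⟪v, NA.val Y v⟫_ℂ = ∑ s, ∑ t, ‖NA.val (Z s t) v‖ ^ 2 := by
  refine ⟨∑ s, ∑ t, star (Z s t) * Z s t, ?_, ?_, ?_⟩
  · rw [star_sum]
    refine Finset.sum_congr rfl fun s _ => ?_
    rw [star_sum]
    refine Finset.sum_congr rfl fun t _ => ?_
    rw [star_mul, star_star]
  · calc ‖∑ s, ∑ t, star (Z s t) * Z s t‖ ≤ ∑ _s : Fin m, ∑ _t : Fin q, R ^ 2 := by
          refine norm_sum_le_of_le _ fun s _ => norm_sum_le_of_le _ fun t _ => ?_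
          rw [CStarRing.norm_star_mul_self, sq]
          exact mul_le_mul (hR s t) (hR s t) (norm_nonneg _) ((norm_nonneg _).trans (hR s t))
      _ = m * q * R ^ 2 := by
          simp only [Finset.sum_const, Finset.card_univ, Fintype.card_fin, nsmul_eq_mul]
          ring
  · intro v
    simp only [map_sum, ContinuousLinearMap.sum_apply, inner_sum, map_mul, map_star]
    refine Finset.sum_congr rfl fun s _ => Finset.sum_congr rfl fun t _ => ?_
    rw [ContinuousLinearMap.mul_apply, ContinuousLinearMap.star_eq_adjoint,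
      ContinuousLinearMap.adjoint_inner_right, inner_self_eq_norm_sq_to_K]
    norm_cast

/-- the Zorn column, completed to a column -/
theorem exists_wcol (M : VonNeumannAlgebra H) (h : NA M) :
    ∃ (z : NA M) (J : Type u) (w : Option J → NA M),
    star z = z ∧ z * z = z ∧ (∀ m : NA M, z * m = m * z) ∧ h * z = h ∧ IsCol w ∧
    (∀ j, ∃ m, w (some j) = h * m) ∧
    ∀ η : H, HasSum (fun j => ‖NA.val (w (some j)) η‖ ^ 2) (‖NA.val z η‖ ^ 2) := by
  obtain ⟨z, J, w, hz1, hz2, hz3, hz4, hw1, hw2⟩ := zorn_col M h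
  refine ⟨z, J, fun o => o.elim (1 - z) w, hz1, hz2, hz3, hz4, ?_, hw1, hw2⟩
  intro v
  have hsum : HasSum ((fun o : Option J => ‖NA.val (o.elim (1 - z) w) v‖ ^ 2) ∘
      (Equiv.optionEquivSumPUnit.{0, u} J).symm) (‖NA.val z v‖ ^ 2 + ‖NA.val (1 - z) v‖ ^ 2) := by
    refine HasSum.sum ?_ ?_
    · exact hw2 v
    · exact hasSum_unique (fun _ : PUnit.{1} => ‖NA.val (1 - z) v‖ ^ 2)
  rw [Equiv.hasSum_iff] at hsum
  have hzv : ‖v‖ ^ 2 = ‖NA.val z v‖ ^ 2 + ‖NA.val (1 - z) v‖ ^ 2 := by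
    have h1 : v = NA.val z v + NA.val (1 - z) v := by
      rw [map_sub, map_one]
      simp
    have h2 : ⟪NA.val z v, NA.val (1 - z) v⟫_ℂ = 0 := by
      have h3 : ContinuousLinearMap.adjoint (NA.val z) = NA.val z := by
        rw [← ContinuousLinearMap.star_eq_adjoint, ← map_star, hz1]
      calc ⟪NA.val z v, NA.val (1 - z) v⟫_ℂ
          = ⟪v, ContinuousLinearMap.adjoint (NA.val z) (NA.val (1 - z) v)⟫_ℂ := by
            rw [ContinuousLinearMap.adjoint_inner_right]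
        _ = ⟪v, NA.val (z * (1 - z)) v⟫_ℂ := by
            rw [h3, map_mul]; rfl
        _ = 0 := by rw [mul_sub, mul_one, hz2, sub_self, map_zero]; simp
    have h4 := norm_add_sq_eq_norm_sq_add_norm_sq_of_inner_eq_zero _ _ h2
    rw [← h1] at h4
    rw [sq, sq, sq]
    exact h4
  rw [hzv]
  exact hsum

theorem locA (σ : NA M →⋆ₐ[ℂ] (K →L[ℂ] K)) (W : H →L[ℂ] K) {m q p : ℕ} (T : Fin m → K →L[ℂ] H)
    (hT : ∀ s y, T s ∘L (σ y) ∘L W ∈ M) (a : Fin q → NA M) (ha : ∀ t, star (a t) * a t = 1)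
    (ξ : Fin p → H) {ε : ℝ} (hε : 0 < ε) :
    ∃ (ι : Type u) (c : ι → NA M), IsCol c ∧ ∀ s t i,
      ‖T s (σ (a t) (Vc σ W c (ξ i))) - T s (Vc σ W c (NA.val (a t) (ξ i)))‖ ^ 2 ≤ ε := by
  classical
  set B : ℝ := 1 + ∑ s, ‖T s‖ with hB
  have hBT : ∀ s, ‖T s‖ ≤ B := by
    intro s
    have := Finset.single_le_sum (f := fun s => ‖T s‖) (fun i _ => norm_nonneg _) (Finset.mem_univ s)
    linarith
  have hB0 : 0 ≤ B := by
    have : 0 ≤ ∑ s, ‖T s‖ := Finset.sum_nonneg fun i _ => norm_nonneg _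
    linarith
  set R : ℝ := (m : ℝ) * q * (2 * B * ‖W‖) ^ 2 with hR
  have hR0 : 0 ≤ R := by positivity
  set S : ℝ := ∑ i, ‖ξ i‖ ^ 2 with hS
  have hS0 : 0 ≤ S := Finset.sum_nonneg fun i _ => by positivity
  set d : ℝ := ε / (2 * (1 + S)) with hd
  have hd0 : 0 < d := by positivity
  have hdξ : ∀ i, d * ‖ξ i‖ ^ 2 ≤ ε / 2 := by
    intro i
    have h1 : ‖ξ i‖ ^ 2 ≤ S :=
      Finset.single_le_sum (f := fun i => ‖ξ i‖ ^ 2) (fun i _ => by positivity) (Finset.mem_univ i)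
    have h2 : d * (1 + S) = ε / 2 := by
      rw [hd]; field_simp
    nlinarith
  set C' : ℝ := 32 * m * q * B ^ 2 * (q + 2) ^ 2 with hC'
  have hC0 : 0 ≤ C' := by positivity
  set ε₀ : ℝ := ε * d / (2 * (1 + R * C')) with hε₀
  have hε₀0 : 0 < ε₀ := by positivity
  have hkey : R * (C' * ε₀ / d) ≤ ε / 2 := by
    have h1 : R * (C' * ε₀ / d) = ε / 2 * (R * C' / (1 + R * C')) := by
      rw [hε₀]; field_simp
    rw [h1]
    have h2 : R * C' / (1 + R * C') ≤ 1 := by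
      rw [div_le_one (by positivity)]
      linarith
    have h3 : 0 ≤ ε / 2 := by positivity
    nlinarith
  obtain ⟨V, ⟨ι, c, hc, rfl⟩, hV⟩ := star_est σ W ξ hε₀0
  refine ⟨ι, c, hc, ?_⟩
  set V := Vc σ W c with hVdef
  have hVn : ‖V‖ ≤ ‖W‖ := norm_Vc_le σ W hc
  -- the elements Z
  have hmem : ∀ s t, (T s ∘L (σ (a t)) ∘L V) - (T s ∘L V) ∘L NA.val (a t) ∈ M := by
    intro s t
    have h1 := comp_Vc_mem σ W (T s) (hT s) hc (a t)
    have h2 := comp_Vc_mem σ W (T s) (hT s) hc 1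
    rw [map_one] at h2
    have h3 : (T s ∘L V) ∘L NA.val (a t) ∈ M := by
      have h4 : (T s ∘L (1 : K →L[ℂ] K) ∘L V) = T s ∘L V := by ext; simp
      rw [← hVdef, h4] at h2
      exact mul_mem (S := VonNeumannAlgebra H) h2 (NA.val_mem (a t))
    exact sub_mem h1 h3
  set Z : Fin m → Fin q → NA M := fun s t => NA.mk _ (hmem s t) with hZ
  have hZv : ∀ s t v, NA.val (Z s t) v = T s (σ (a t) (V v) - V (NA.val (a t) v)) := by
    intro s t v
    rw [hZ]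
    simp only
    rw [NA.val_mk]
    simp
  have hZn : ∀ s t, ‖Z s t‖ ≤ 2 * B * ‖W‖ := by
    intro s t
    rw [← NA.norm_val]
    refine ContinuousLinearMap.opNorm_le_bound _ (by positivity) fun v => ?_
    rw [hZv]
    have h1 : ‖V v‖ ≤ ‖W‖ * ‖v‖ := (V.le_opNorm v).trans (by gcongr)
    have h2 : ‖NA.val (a t) v‖ ≤ ‖v‖ := by
      have := (NA.val (a t)).le_opNorm v
      rw [NA.norm_val] at this
      have h3 := norm_le_one_of_isometry (a t) (ha t)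
      nlinarith [norm_nonneg v]
    have h3 : ‖V (NA.val (a t) v)‖ ≤ ‖W‖ * ‖v‖ :=
      (V.le_opNorm _).trans (by gcongr)
    have h4 : ‖σ (a t) (V v) - V (NA.val (a t) v)‖ ≤ 2 * (‖W‖ * ‖v‖) := by
      have h5 := norm_sub_le (σ (a t) (V v)) (V (NA.val (a t) v))
      have h6 := sigma_norm_le σ (a t) (ha t) (V v)
      linarith
    calc ‖T s (σ (a t) (V v) - V (NA.val (a t) v))‖ ≤ ‖T s‖ * ‖σ (a t) (V v) - V (NA.val (a t) v)‖ :=
          (T s).le_opNorm _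
      _ ≤ B * (2 * (‖W‖ * ‖v‖)) := by gcongr; exact hBT s
      _ = 2 * B * ‖W‖ * ‖v‖ := by ring
  obtain ⟨Y, hYs, hYn, hYv⟩ := exists_Y Z hZn
  obtain ⟨h, hh1, hh2⟩ := exists_cut Y hYs hd0
  obtain ⟨z, J, w, hzs, hzz, hzc, hhz, hwcol, hwh, hwsum⟩ := exists_wcol M h
  obtain ⟨κ, b, hb, hest⟩ := hV (q + 1) (fun _ => Option J)
    (fun s => Fin.cases w (fun t j => a t * w j) s) (by
      intro s
      refine Fin.cases ?_ (fun t => ?_) s
      · exact hwcol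
      · exact IsCol.unitary_mul hwcol (ha t))
  -- estimate of sums of `Y`
  have hYsum : ∀ F : Finset (J × κ), ∑ q' ∈ F, ∑ i,
      RCLike.re ⟪NA.val (w (some q'.1)) (NA.val (b q'.2) (ξ i)),
        NA.val Y (NA.val (w (some q'.1)) (NA.val (b q'.2) (ξ i)))⟫_ℂ ≤ C' * ε₀ := by
    intro F
    set F' : Finset (Option J × κ) := F.map ⟨fun x => (some x.1, x.2), by
      rintro ⟨x, y⟩ ⟨x', y'⟩ hxy
      simpa using hxy⟩ with hF'
    have e0 := hest 0 F'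
    rw [hF', Finset.sum_map] at e0
    simp only [Function.Embedding.coeFn_mk, Fin.cases_zero] at e0
    have e1 : ∀ t : Fin q, ∑ q' ∈ F, ∑ i, ‖V (NA.val (a t * w (some q'.1) * b q'.2) (ξ i)) -
        σ (a t * w (some q'.1)) (V (NA.val (b q'.2) (ξ i)))‖ ^ 2 ≤ 8 * ((q + 1 : ℕ) + 1) ^ 2 * ε₀ := by
      intro t
      have e2 := hest t.succ F'
      rw [hF', Finset.sum_map] at e2
      simpa only [Function.Embedding.coeFn_mk, Fin.cases_succ] using e2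
    have e3 : ∀ (s : Fin m) (t : Fin q), ∑ q' ∈ F, ∑ i,
        ‖NA.val (Z s t) (NA.val (w (some q'.1)) (NA.val (b q'.2) (ξ i)))‖ ^ 2 ≤
          32 * B ^ 2 * (q + 2) ^ 2 * ε₀ := by
      intro s t
      have e4 : ∀ q' ∈ F, ∑ i, ‖NA.val (Z s t) (NA.val (w (some q'.1)) (NA.val (b q'.2) (ξ i)))‖ ^ 2 ≤
          2 * B ^ 2 * (∑ i, ‖V (NA.val (w (some q'.1) * b q'.2) (ξ i)) -
            σ (w (some q'.1)) (V (NA.val (b q'.2) (ξ i)))‖ ^ 2) +
          2 * B ^ 2 * (∑ i, ‖V (NA.val (a t * w (some q'.1) * b q'.2) (ξ i)) -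
            σ (a t * w (some q'.1)) (V (NA.val (b q'.2) (ξ i)))‖ ^ 2) := by
        intro q' _
        rw [Finset.mul_sum, Finset.mul_sum, ← Finset.sum_add_distrib]
        refine Finset.sum_le_sum fun i _ => ?_
        rw [hZv]
        set v := NA.val (b q'.2) (ξ i) with hv
        have f1 : NA.val (w (some q'.1) * b q'.2) (ξ i) = NA.val (w (some q'.1)) v := by
          rw [map_mul]; rfl
        have f2 : NA.val (a t * w (some q'.1) * b q'.2) (ξ i) =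
            NA.val (a t) (NA.val (w (some q'.1)) v) := by
          rw [map_mul, map_mul]; rfl
        have f3 : σ (a t * w (some q'.1)) (V v) = σ (a t) (σ (w (some q'.1)) (V v)) := by
          rw [map_mul]; rfl
        rw [f1, f2, f3]
        set x := V (NA.val (w (some q'.1)) v) - σ (w (some q'.1)) (V v) with hx
        set y := V (NA.val (a t) (NA.val (w (some q'.1)) v)) - σ (a t) (σ (w (some q'.1)) (V v)) with hy
        have f4 : σ (a t) (V (NA.val (w (some q'.1)) v)) - V (NA.val (a t) (NA.val (w (some q'.1)) v)) =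
            σ (a t) x - y := by
          rw [hx, hy, map_sub]; abel
        rw [f4]
        have f5 : ‖T s (σ (a t) x - y)‖ ≤ B * ‖σ (a t) x - y‖ :=
          ((T s).le_opNorm _).trans (by gcongr; exact hBT s)
        have f6 : ‖σ (a t) x - y‖ ≤ ‖x‖ + ‖y‖ := by
          have := norm_sub_le (σ (a t) x) y
          have := sigma_norm_le σ (a t) (ha t) x
          linarith
        have f7 : ‖T s (σ (a t) x - y)‖ ≤ B * (‖x‖ + ‖y‖) := f5.trans (by gcongr)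
        calc ‖T s (σ (a t) x - y)‖ ^ 2 ≤ (B * (‖x‖ + ‖y‖)) ^ 2 := by gcongr
          _ = B ^ 2 * (‖x‖ + ‖y‖) ^ 2 := by ring
          _ ≤ B ^ 2 * (2 * ‖x‖ ^ 2 + 2 * ‖y‖ ^ 2) := by
            gcongr
            nlinarith [sq_nonneg (‖x‖ - ‖y‖)]
          _ = 2 * B ^ 2 * ‖x‖ ^ 2 + 2 * B ^ 2 * ‖y‖ ^ 2 := by ring
      refine (Finset.sum_le_sum e4).trans ?_
      rw [Finset.sum_add_distrib, ← Finset.mul_sum, ← Finset.mul_sum]
      have g1 := e1 t
      have g0 := e0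
      push_cast at g0 g1
      have g2 : 0 ≤ 2 * B ^ 2 := by positivity
      have g3 := mul_le_mul_of_nonneg_left g0 g2
      have g4 := mul_le_mul_of_nonneg_left g1 g2
      refine (add_le_add g3 g4).trans (le_of_eq ?_)
      ring
    have e5 : ∑ q' ∈ F, ∑ i, RCLike.re ⟪NA.val (w (some q'.1)) (NA.val (b q'.2) (ξ i)),
        NA.val Y (NA.val (w (some q'.1)) (NA.val (b q'.2) (ξ i)))⟫_ℂ =
        ∑ s, ∑ t, ∑ q' ∈ F, ∑ i,
          ‖NA.val (Z s t) (NA.val (w (some q'.1)) (NA.val (b q'.2) (ξ i)))‖ ^ 2 := by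
      simp only [hYv]
      exact sum4_comm F _
    rw [e5]
    calc ∑ s, ∑ t, ∑ q' ∈ F, ∑ i,
          ‖NA.val (Z s t) (NA.val (w (some q'.1)) (NA.val (b q'.2) (ξ i)))‖ ^ 2
        ≤ ∑ s : Fin m, ∑ t : Fin q, 32 * B ^ 2 * (q + 2) ^ 2 * ε₀ :=
          Finset.sum_le_sum fun s _ => Finset.sum_le_sum fun t _ => e3 s t
      _ = C' * ε₀ := by
          simp only [Finset.sum_const, Finset.card_univ, Fintype.card_fin, nsmul_eq_mul]
          rw [hC']; ring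
  -- lower bound
  have hlow : ∀ F : Finset (J × κ), ∑ q' ∈ F, ∑ i,
      ‖NA.val (w (some q'.1)) (NA.val (b q'.2) (ξ i))‖ ^ 2 ≤ C' * ε₀ / d := by
    intro F
    rw [le_div_iff₀ hd0, mul_comm, Finset.mul_sum]
    refine le_trans (Finset.sum_le_sum fun q' _ => ?_) (hYsum F)
    rw [Finset.mul_sum]
    refine Finset.sum_le_sum fun i _ => ?_
    obtain ⟨mj, hmj⟩ := hwh q'.1
    have g1 := hh1 (NA.val mj (NA.val (b q'.2) (ξ i)))
    have g2 : NA.val h (NA.val mj (NA.val (b q'.2) (ξ i))) =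
        NA.val (w (some q'.1)) (NA.val (b q'.2) (ξ i)) := by
      rw [hmj, map_mul]; rfl
    rw [g2] at g1
    exact g1
  have hz2 := loc_limit (fun j => w (some j)) b hb z hzc hwsum ξ _ hlow
  intro s t i
  have g1 := hh2 z hzs hzz hzc hhz (ξ i)
  rw [hYv] at g1
  have g2 : ‖NA.val (Z s t) (ξ i)‖ ^ 2 ≤ ∑ s, ∑ t, ‖NA.val (Z s t) (ξ i)‖ ^ 2 := by
    refine le_trans ?_ (Finset.single_le_sum (f := fun s => ∑ t, ‖NA.val (Z s t) (ξ i)‖ ^ 2)
      (fun s _ => Finset.sum_nonneg fun t _ => by positivity) (Finset.mem_univ s))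
    exact Finset.single_le_sum (f := fun t => ‖NA.val (Z s t) (ξ i)‖ ^ 2)
      (fun t _ => by positivity) (Finset.mem_univ t)
  have g3 : ‖NA.val z (ξ i)‖ ^ 2 ≤ C' * ε₀ / d :=
    le_trans (Finset.single_le_sum (f := fun i => ‖NA.val z (ξ i)‖ ^ 2)
      (fun i _ => by positivity) (Finset.mem_univ i)) hz2
  have g4 : ‖Y‖ * ‖NA.val z (ξ i)‖ ^ 2 ≤ R * (C' * ε₀ / d) := by
    gcongr
  have g5 := hdξ i
  rw [hZv] at g2
  rw [← map_sub]
  linarith

end Crest.Agent.R121
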