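import Crest.Agent.R124.SimB

/-!
# Row 121, PART B, piece B6a: linear version of `R124/SimA.lean`, `R124/SimB.lean` (module SIM of row 124)

Copied and adapted from row 124 (helper73): `π` is only a linear map `A → B(H, H')`.
-/

set_option autoImplicit false

namespace Crest.Agent.R121

open Crest.Agent.R124
open scoped InnerProductSpace ComplexConjugate

universe u v w
variable {A : Type u} [CStarAlgebra A]
variable {H : Type v} [NormedAddCommGroup H] [InnerProductSpace ℂ H]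
variable {H' : Type w} [NormedAddCommGroup H'] [InnerProductSpace ℂ H']

/-- `π` is bounded by `C` on column isometries -/
def ColBL (π : A →ₗ[ℂ] (H →L[ℂ] H')) (C : ℝ) : Prop :=
  ∀ (m n : ℕ) (a : Fin m → Fin n → A),
    (∀ i j, ∑ k, star (a k i) * a k j = if i = j then 1 else 0) →
    ∀ y : Fin n → H, ∑ k, ‖∑ j, π (a k j) (y j)‖ ^ 2 ≤ C ^ 2 * ∑ j, ‖y j‖ ^ 2

theorem ColBL.fintype {π : A →ₗ[ℂ] (H →L[ℂ] H')} {C : ℝ} (h : ColBL π C) {ι κ : Type}
    [Fintype ι] [Fintype κ] [DecidableEq κ] (a : ι → κ → A)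
    (ha : ∀ i j, ∑ k, star (a k i) * a k j = if i = j then 1 else 0) (y : κ → H) :
    ∑ k, ‖∑ j, π (a k j) (y j)‖ ^ 2 ≤ C ^ 2 * ∑ j, ‖y j‖ ^ 2 := by
  have e1 := Fintype.equivFin ι
  have e2 := Fintype.equivFin κ
  have h1 := h (Fintype.card ι) (Fintype.card κ) (fun k j => a (e1.symm k) (e2.symm j)) ?_
    (fun j => y (e2.symm j))
  · rw [← Equiv.sum_comp e1.symm (fun k => ‖∑ j, π (a k j) (y j)‖ ^ 2),
      ← Equiv.sum_comp e2.symm (fun j => ‖y j‖ ^ 2)]
    refine le_trans (le_of_eq ?_) h1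
    refine Finset.sum_congr rfl fun k _ => ?_
    rw [← Equiv.sum_comp e2.symm (fun j => π (a (e1.symm k) j) (y j))]
  · intro i j
    rw [Equiv.sum_comp e1.symm (fun k => star (a k (e2.symm i)) * a k (e2.symm j)), ha]
    simp

/-- the evaluation `∑ a ⊗ y ↦ ∑ π(a) y` -/
noncomputable def TmM (π : A →ₗ[ℂ] (H →L[ℂ] H')) (ξ : H →₀ A) : H' := ξ.sum fun y a => π a y

theorem TmM_add (π : A →ₗ[ℂ] (H →L[ℂ] H')) (ξ η : H →₀ A) : TmM π (ξ + η) = TmM π ξ + TmM π η := by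
  classical
  unfold TmM
  rw [Finsupp.sum_add_index']
  · intro; simp
  · intro _ _ _; simp

theorem TmM_smul (π : A →ₗ[ℂ] (H →L[ℂ] H')) (c : ℂ) (ξ : H →₀ A) : TmM π (c • ξ) = c • TmM π ξ := by
  classical
  unfold TmM
  rw [Finsupp.sum_smul_index' (by intro; simp), Finsupp.smul_sum]
  refine Finsupp.sum_congr fun y _ => ?_
  simp

theorem TmM_single (π : A →ₗ[ℂ] (H →L[ℂ] H')) (y : H) (a : A) :
    TmM π (Finsupp.single y a) = π a y := by
  unfold TmM
  rw [Finsupp.sum_single_index (by simp)]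

theorem keyL {π : A →ₗ[ℂ] (H →L[ℂ] H')} {C : ℝ} (hC : ColBL π C) {ι κ : Type}
    [Fintype ι] [Fintype κ] (ξ : ι → H →₀ A) (y : κ → H)
    (h : ∀ x x' : H, ∑ i, Zk (ξ i) x x' = ∑ k, Zk (Finsupp.single (y k) (1 : A)) x x') :
    ∑ i, ‖TmM π (ξ i)‖ ^ 2 ≤ C ^ 2 * ∑ k, ‖y k‖ ^ 2 := by
  classical
  let _ := CStarAlgebra.spectralOrder A
  have _ := CStarAlgebra.spectralOrderedRing A
  -- the finite dimensional space
  set s : Set H := (⋃ i, ((ξ i).support : Set H)) ∪ Set.range y with hs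
  have hsf : s.Finite := by
    rw [hs]
    exact (Set.finite_iUnion fun i => Finset.finite_toSet _).union (Set.finite_range y)
  set F : Submodule ℂ H := Submodule.span ℂ s with hF
  have : FiniteDimensional ℂ F := FiniteDimensional.span_of_finite ℂ hsf
  have hy : ∀ k, y k ∈ F := fun k => Submodule.subset_span (Or.inr ⟨k, rfl⟩)
  have hξ : ∀ i, ∀ z ∈ (ξ i).support, z ∈ F := fun i z hz =>
    Submodule.subset_span (Or.inl (Set.mem_iUnion.2 ⟨i, hz⟩))
  set yF : κ → F := fun k => ⟨y k, hy k⟩ with hyF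
  let R : F →ₗ[ℂ] F := ∑ k, ((innerSL ℂ (yF k)).toLinearMap).smulRight (yF k)
  have hRa : ∀ x : F, R x = ∑ k, ⟪yF k, x⟫_ℂ • yF k := by
    intro x
    simp [R]
  have hR : R.IsSymmetric := by
    intro x x'
    rw [hRa, hRa, sum_inner, inner_sum]
    refine Finset.sum_congr rfl fun k _ => ?_
    rw [inner_smul_left, inner_smul_right]
    simp only [inner_conj_symm]
    ring
  set n := Module.finrank ℂ F with hn
  set e := hR.eigenvectorBasis hn.symm with he
  set lam : Fin n → ℝ := hR.eigenvalues hn.symm with hlam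
  have hRe : ∀ j, R (e j) = ((lam j : ℝ) : ℂ) • e j := fun j => hR.apply_eigenvectorBasis hn.symm j
  -- `∑_k ⟪y_k, e_j⟫ ⟪e_j', y_k⟫ = λ_j δ`
  have hdiag : ∀ j j', ∑ k, (⟪y k, (e j : H)⟫_ℂ * ⟪(e j' : H), y k⟫_ℂ) =
      if j = j' then ((lam j : ℝ) : ℂ) else 0 := by
    intro j j'
    have h1 : ⟪e j', R (e j)⟫_ℂ = if j = j' then ((lam j : ℝ) : ℂ) else 0 := by
      rw [hRe, inner_smul_right, orthonormal_iff_ite.1 e.orthonormal j' j]
      by_cases hjj : j = j'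
      · simp [hjj]
      · simp [hjj, Ne.symm hjj]
    rw [← h1, hRa, inner_sum]
    refine Finset.sum_congr rfl fun k _ => ?_
    rw [inner_smul_right]
    rfl
  set a : ι → Fin n → A := fun i j => hat (ξ i) (e j : H) with ha
  have hstar : ∀ j j', ∑ i, star (a i j) * a i j' = if j = j' then ((lam j : ℝ) : ℂ) • (1 : A) else 0 := by
    intro j j'
    have h1 := h (e j : H) (e j' : H)
    simp only [Zk_single_one, ← Finset.sum_smul, hdiag] at h1
    rw [ha]
    simp only [Zk] at h1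
    rw [h1]
    split_ifs <;> simp
  have hlamj : ∀ j, lam j = ∑ k, ‖⟪y k, (e j : H)⟫_ℂ‖ ^ 2 := by
    intro j
    have h1 := hdiag j j
    rw [if_pos rfl] at h1
    have h2 : ∀ k, ⟪y k, (e j : H)⟫_ℂ * ⟪(e j : H), y k⟫_ℂ = ((‖⟪y k, (e j : H)⟫_ℂ‖ ^ 2 : ℝ) : ℂ) := by
      intro k
      rw [← inner_conj_symm (e j : H) (y k), Complex.mul_conj, Complex.normSq_eq_norm_sq]
    simp only [h2] at h1
    exact_mod_cast h1.symm
  have hlam0 : ∀ j, 0 ≤ lam j := by
    intro j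
    rw [hlamj]
    exact Finset.sum_nonneg fun _ _ => sq_nonneg _
  have htr : ∑ j, lam j = ∑ k, ‖y k‖ ^ 2 := by
    simp only [hlamj]
    rw [Finset.sum_comm]
    refine Finset.sum_congr rfl fun k _ => ?_
    have := e.sum_sq_norm_inner_left (yF k)
    exact this
  have hzero : ∀ j, lam j = 0 → ∀ i, a i j = 0 := by
    intro j hj i
    have h1 := hstar j j
    rw [if_pos rfl, hj, Complex.ofReal_zero, zero_smul] at h1
    have h2 := (Finset.sum_eq_zero_iff_of_nonneg fun i _ => star_mul_self_nonneg (a i j)).1 h1 i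
      (Finset.mem_univ i)
    exact (CStarRing.star_mul_self_eq_zero_iff _).1 h2
  have hT : ∀ i, TmM π (ξ i) = ∑ j, π (a i j) (e j : H) := by
    intro i
    have h1 : ∀ z ∈ (ξ i).support, π ((ξ i) z) z = ∑ j, π (⟪(e j : H), z⟫_ℂ • (ξ i) z) (e j : H) := by
      intro z hz
      have h2 : z = ∑ j, ⟪(e j : H), z⟫_ℂ • (e j : H) := by
        have h3 := e.sum_repr' ⟨z, hξ i z hz⟩
        have h4 := congrArg (Subtype.val) h3
        simp only [AddSubmonoidClass.coe_finsetSum, SetLike.val_smul] at h4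
        exact h4.symm
      conv_lhs => rw [h2]
      rw [map_sum]
      refine Finset.sum_congr rfl fun j _ => ?_
      rw [map_smul, map_smul]
      conv_lhs => rw [← h2]
      rfl
    unfold TmM Finsupp.sum
    rw [Finset.sum_congr rfl h1, Finset.sum_comm]
    refine Finset.sum_congr rfl fun j _ => ?_
    simp only [ha, hat, Finsupp.sum]
    rw [map_sum]
    simp
  -- the column isometry
  set a' : ι ⊕ Fin n → Fin n → A := fun p j => match p with
    | Sum.inl i => (((√(lam j))⁻¹ : ℝ) : ℂ) • a i j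
    | Sum.inr k => if k = j ∧ lam j = 0 then 1 else 0 with ha'
  have hiso : ∀ j j', ∑ p, star (a' p j) * a' p j' = if j = j' then 1 else 0 := by
    intro j j'
    rw [Fintype.sum_sum_type]
    have e1 : ∑ i, star (a' (Sum.inl i) j) * a' (Sum.inl i) j' =
        ((((√(lam j))⁻¹ * (√(lam j'))⁻¹ : ℝ)) : ℂ) • (if j = j' then ((lam j : ℝ) : ℂ) • (1 : A) else 0) := by
      rw [← hstar, Finset.smul_sum]
      refine Finset.sum_congr rfl fun i _ => ?_
      simp only [ha', star_smul, smul_mul_smul_comm]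
      congr 1
      simp
    have e2 : ∑ k, star (a' (Sum.inr k) j) * a' (Sum.inr k) j' =
        if j = j' ∧ lam j = 0 then 1 else 0 := by
      rw [Finset.sum_eq_single j]
      · simp only [ha']
        by_cases hj : lam j = 0
        · by_cases hjj : j = j'
          · subst hjj; simp [hj]
          · simp [hjj]
        · simp [hj]
      · intro k _ hk
        simp [ha', hk]
      · intro hj; exact absurd (Finset.mem_univ j) hj
    rw [e1, e2]
    by_cases hjj : j = j'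
    · subst hjj
      by_cases hj : lam j = 0
      · simp [hj]
      · have hpos : 0 < lam j := lt_of_le_of_ne (hlam0 j) (Ne.symm hj)
        rw [if_pos rfl, smul_smul, if_pos rfl, if_neg (by simp [hj]), add_zero, ← Complex.ofReal_mul]
        have : (√(lam j))⁻¹ * (√(lam j))⁻¹ * lam j = 1 := by
          rw [← mul_inv, Real.mul_self_sqrt hpos.le, inv_mul_cancel₀ hj]
        rw [this, Complex.ofReal_one, one_smul]
    · simp [hjj]
  have h5 := hC.fintype a' hiso (fun j => ((√(lam j) : ℝ) : ℂ) • (e j : H))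
  rw [Fintype.sum_sum_type] at h5
  have h6 : ∀ i, ∑ j, π (a' (Sum.inl i) j) (((√(lam j) : ℝ) : ℂ) • (e j : H)) = TmM π (ξ i) := by
    intro i
    rw [hT]
    refine Finset.sum_congr rfl fun j _ => ?_
    simp only [ha', map_smul, ContinuousLinearMap.smul_apply, smul_smul]
    by_cases hj : lam j = 0
    · rw [hzero j hj i]; simp
    · have hpos : 0 < √(lam j) := Real.sqrt_pos.2 (lt_of_le_of_ne (hlam0 j) (Ne.symm hj))
      rw [← Complex.ofReal_mul, mul_inv_cancel₀ hpos.ne', Complex.ofReal_one, one_smul]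
  have h7 : ∀ j, ‖((√(lam j) : ℝ) : ℂ) • (e j : H)‖ ^ 2 = lam j := by
    intro j
    rw [norm_smul, mul_pow, Complex.norm_real, Real.norm_of_nonneg (Real.sqrt_nonneg _),
      Real.sq_sqrt (hlam0 j)]
    have : ‖(e j : H)‖ = 1 := e.orthonormal.norm_eq_one j
    rw [this]; simp
  simp only [h6, h7, htr] at h5
  refine le_trans ?_ h5
  exact le_add_of_nonneg_right (Finset.sum_nonneg fun _ _ => sq_nonneg _)

/-- representable kernels -/
def RepL (π : A →ₗ[ℂ] (H →L[ℂ] H')) (C : ℝ) (v : H → H → A) (t : ℝ) : Prop :=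
  ∃ (ι κ : Type) (_ : Fintype ι) (_ : Fintype κ) (ξ : ι → H →₀ A) (y : κ → H),
    v = ∑ i, Zk (ξ i) - ∑ k, Zk (Finsupp.single (y k) (1 : A)) ∧
    t ≤ ∑ i, ‖TmM π (ξ i)‖ ^ 2 - C ^ 2 * ∑ k, ‖y k‖ ^ 2

variable {π : A →ₗ[ℂ] (H →L[ℂ] H')} {C : ℝ}

theorem RepL.add {v w : H → H → A} {s t : ℝ} (hv : RepL π C v s) (hw : RepL π C w t) :
    RepL π C (v + w) (s + t) := by
  obtain ⟨ι, κ, _, _, ξ, y, h1, h2⟩ := hv
  obtain ⟨ι', κ', _, _, ξ', y', h1', h2'⟩ := hw
  refine ⟨ι ⊕ ι', κ ⊕ κ', inferInstance, inferInstance, Sum.elim ξ ξ', Sum.elim y y', ?_, ?_⟩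
  · simp only [Fintype.sum_sum_type, Sum.elim_inl, Sum.elim_inr, h1, h1']
    abel
  · simp only [Fintype.sum_sum_type, Sum.elim_inl, Sum.elim_inr]
    linarith

theorem RepL.smul {v : H → H → A} {s : ℝ} (hv : RepL π C v s) {c : ℝ} (hc : 0 ≤ c) :
    RepL π C (c • v) (c * s) := by
  obtain ⟨ι, κ, _, _, ξ, y, h1, h2⟩ := hv
  have hs : (√c) ^ 2 = c := Real.sq_sqrt hc
  refine ⟨ι, κ, inferInstance, inferInstance, fun i => ((√c : ℝ) : ℂ) • ξ i,
    fun k => ((√c : ℝ) : ℂ) • y k, ?_, ?_⟩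
  · simp only [Zk_smul, Zk_one_smul, h1, smul_sub, Finset.smul_sum, Complex.norm_real,
      Real.norm_of_nonneg (Real.sqrt_nonneg c), hs]
  · simp only [TmM_smul, norm_smul, mul_pow, Complex.norm_real,
      Real.norm_of_nonneg (Real.sqrt_nonneg c), hs, ← Finset.mul_sum]
    nlinarith

theorem RepL.zero : RepL π C (0 : H → H → A) 0 := by
  refine ⟨Empty, Empty, inferInstance, inferInstance, fun i => i.elim, fun i => i.elim, ?_, ?_⟩ <;>
    simp

theorem RepL.mono {v : H → H → A} {s t : ℝ} (hv : RepL π C v s) (h : t ≤ s) : RepL π C v t := by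
  obtain ⟨ι, κ, _, _, ξ, y, h1, h2⟩ := hv
  exact ⟨ι, κ, _, _, ξ, y, h1, h.trans h2⟩

theorem RepL.single (ξ : H →₀ A) : RepL π C (Zk ξ) (‖TmM π ξ‖ ^ 2) := by
  refine ⟨Unit, Empty, inferInstance, inferInstance, fun _ => ξ, fun i => i.elim, ?_, ?_⟩ <;> simp

theorem RepL.neg_one (y : H) : RepL π C (-Zk (Finsupp.single y (1 : A))) (-(C ^ 2 * ‖y‖ ^ 2)) := by
  refine ⟨Empty, Unit, inferInstance, inferInstance, fun i => i.elim, fun _ => y, ?_, ?_⟩ <;> simp

theorem RepL.neg (ξ : H →₀ A) : ∃ t, RepL π C (-Zk ξ) t := by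
  induction ξ using Finsupp.induction_linear with
  | zero =>
    refine ⟨0, ?_⟩
    have : Zk (0 : H →₀ A) = 0 := by
      funext x x'
      simp [Zk, hat]
    rw [this, neg_zero]
    exact RepL.zero
  | add ξ η h1 h2 =>
    obtain ⟨s, h1⟩ := h1
    obtain ⟨t, h2⟩ := h2
    have h3 : -Zk (ξ + η) = Zk (ξ - η) + ((2 : ℝ) • (-Zk ξ) + (2 : ℝ) • (-Zk η)) := by
      have := Zk_parallelogram ξ η
      rw [smul_neg, smul_neg, ← neg_add, ← this]
      abel
    rw [h3]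
    exact ⟨_, (RepL.single _).add ((h1.smul (by norm_num)).add (h2.smul (by norm_num)))⟩
  | single y a =>
    let _ := CStarAlgebra.spectralOrder A
    have _ := CStarAlgebra.spectralOrderedRing A
    have h1 : 0 ≤ (algebraMap ℝ A ‖star a * a‖) - star a * a :=
      sub_nonneg.2 (IsSelfAdjoint.star_mul_self a).le_algebraMap_norm_self
    obtain ⟨b, hb⟩ := CStarAlgebra.nonneg_iff_eq_star_mul_self.1 h1
    have h2 : -Zk (Finsupp.single y a) =
        Zk (Finsupp.single y b) + ‖star a * a‖ • (-Zk (Finsupp.single y (1 : A))) := by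
      funext x x'
      simp only [Pi.neg_apply, Pi.add_apply, Pi.smul_apply, Zk, hat_single, star_smul,
        smul_mul_smul_comm, ← hb, Algebra.algebraMap_eq_smul_one, star_one, mul_one, smul_sub,
        smul_neg]
      rw [smul_comm]
      abel
    rw [h2]
    exact ⟨_, (RepL.single _).add ((RepL.neg_one y).smul (norm_nonneg _))⟩

theorem RepL.of_mem {v : H → H → A} (hv : v ∈ V0 A H) :
    (∃ t, RepL π C v t) ∧ (∃ t, RepL π C (-v) t) := by
  induction hv using Submodule.span_induction with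
  | mem x h =>
    obtain ⟨ξ, rfl⟩ := h
    exact ⟨⟨_, RepL.single ξ⟩, RepL.neg ξ⟩
  | zero => rw [neg_zero]; exact ⟨⟨0, RepL.zero⟩, ⟨0, RepL.zero⟩⟩
  | add x y _ _ hx hy =>
    obtain ⟨⟨s, hs⟩, ⟨s', hs'⟩⟩ := hx
    obtain ⟨⟨t, ht⟩, ⟨t', ht'⟩⟩ := hy
    refine ⟨⟨_, hs.add ht⟩, ⟨s' + t', ?_⟩⟩
    rw [neg_add]
    exact hs'.add ht'
  | smul c x _ hx =>
    obtain ⟨⟨s, hs⟩, ⟨s', hs'⟩⟩ := hx
    rcases le_total 0 c with hc | hc
    · refine ⟨⟨_, hs.smul hc⟩, ⟨c * s', ?_⟩⟩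
      rw [← smul_neg]; exact hs'.smul hc
    · refine ⟨⟨(-c) * s', ?_⟩, ⟨(-c) * s, ?_⟩⟩
      · have : c • x = (-c) • (-x) := by simp
        rw [this]; exact hs'.smul (by linarith)
      · have : -(c • x) = (-c) • x := by simp
        rw [this]; exact hs.smul (by linarith)

theorem exists_formM (hC : ColBL π C) : ∃ g : V0 A H →ₗ[ℝ] ℝ,
    (∀ ξ : H →₀ A, ‖TmM π ξ‖ ^ 2 ≤ g ⟨Zk ξ, Zk_mem ξ⟩) ∧
    (∀ y : H, g ⟨Zk (Finsupp.single y (1 : A)), Zk_mem _⟩ ≤ C ^ 2 * ‖y‖ ^ 2) := by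
  classical
  let s : PointedCone ℝ (V0 A H × ℝ) :=
    { carrier := {p | RepL π C (p.1 : H → H → A) p.2}
      add_mem' := fun {a b} ha hb => by
        simp only [Set.mem_ofPred_eq] at ha hb ⊢
        exact ha.add hb
      zero_mem' := RepL.zero
      smul_mem' := fun c x hx => by
        simp only [Set.mem_ofPred_eq] at hx ⊢
        exact hx.smul c.2 }
  have hs : ∀ p, p ∈ s ↔ RepL π C (p.1 : H → H → A) p.2 := fun p => Iff.rfl
  let f : (V0 A H × ℝ) →ₗ.[ℝ] ℝ :=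
    { domain := Submodule.prod ⊥ ⊤
      toFun := (-(LinearMap.snd ℝ (V0 A H) ℝ)).comp (Submodule.subtype _) }
  have hf : ∀ x : f.domain, f x = -(x : V0 A H × ℝ).2 := fun x => rfl
  have hnon : ∀ x : f.domain, (x : V0 A H × ℝ) ∈ s → 0 ≤ f x := by
    rintro ⟨⟨z, t⟩, hz⟩ hx
    rw [hf]
    have hz0 : z = 0 := by simpa [f] using hz
    subst hz0
    rw [hs] at hx
    obtain ⟨ι, κ, _, _, ξ, y, h1, h2⟩ := hx
    have h3 : ∀ x x' : H, ∑ i, Zk (ξ i) x x' = ∑ k, Zk (Finsupp.single (y k) (1 : A)) x x' := by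
      intro x x'
      have := congrFun (congrFun h1 x) x'
      simp only [ZeroMemClass.coe_zero, Pi.zero_apply, Pi.sub_apply, Finset.sum_apply] at this
      exact (sub_eq_zero.1 this.symm)
    have h4 := keyL hC ξ y h3
    simp only at h2 ⊢
    linarith
  have hden : ∀ y, ∃ x : f.domain, (x : V0 A H × ℝ) + y ∈ s := by
    rintro ⟨z, t⟩
    obtain ⟨⟨t', h1⟩, _⟩ := RepL.of_mem (π := π) (C := C) z.2
    refine ⟨⟨(0, t' - t), by simp [f]⟩, ?_⟩
    rw [hs]
    simpa using h1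
  obtain ⟨g, hg1, hg2⟩ := riesz_extension s f hnon hden
  have h0 : ∀ t : ℝ, g (0, t) = -t := by
    intro t
    have := hg1 ⟨(0, t), by simp [f]⟩
    rw [this, hf]
  refine ⟨g.comp (LinearMap.inl ℝ (V0 A H) ℝ), fun ξ => ?_, fun y => ?_⟩
  · have h1 := hg2 (⟨Zk ξ, Zk_mem ξ⟩, ‖TmM π ξ‖ ^ 2) ((hs _).2 (RepL.single ξ))
    have h2 : ((⟨Zk ξ, Zk_mem ξ⟩, ‖TmM π ξ‖ ^ 2) : V0 A H × ℝ) =
        (⟨Zk ξ, Zk_mem ξ⟩, 0) + (0, ‖TmM π ξ‖ ^ 2) := by simp
    rw [h2, map_add, h0] at h1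
    simp only [LinearMap.comp_apply, LinearMap.inl_apply]
    linarith
  · have h1 := hg2 (-⟨Zk (Finsupp.single y (1 : A)), Zk_mem _⟩, -(C ^ 2 * ‖y‖ ^ 2))
      ((hs _).2 (RepL.neg_one y))
    have h2 : ((-⟨Zk (Finsupp.single y (1 : A)), Zk_mem _⟩, -(C ^ 2 * ‖y‖ ^ 2)) : V0 A H × ℝ) =
        -(⟨Zk (Finsupp.single y (1 : A)), Zk_mem _⟩, 0) + (0, -(C ^ 2 * ‖y‖ ^ 2)) := by simp
    rw [h2, map_add, h0, map_neg] at h1
    simp only [LinearMap.comp_apply, LinearMap.inl_apply]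
    linarith

end Crest.Agent.R121
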