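import Crest.Agent.R124.SimD

/-! Row 121, PART B, piece B6b, auxiliary file: GNS/Stinespring construction from a pre-inner product. -/

set_option autoImplicit false

namespace Crest.Agent.R121

open Crest.Agent.R124
open scoped InnerProductSpace ComplexConjugate
open UniformSpace ContinuousLinearMap

universe u v w w'

section gen
variable {A : Type u} [CStarAlgebra A]
variable {H : Type v} [NormedAddCommGroup H] [InnerProductSpace ℂ H]
variable {H' : Type w'} [NormedAddCommGroup H'] [InnerProductSpace ℂ H'] [CompleteSpace H']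

set_option maxHeartbeats 1000000 in
theorem factor_gen_aux {E : Type w} [SeminormedAddCommGroup E] [InnerProductSpace ℂ E]
    (U : A → E →L[ℂ] E) (hU1 : ∀ ξ, U 1 ξ = ξ) (hUmul : ∀ a b ξ, U (a * b) ξ = U a (U b ξ))
    (hUadd : ∀ a b ξ, U (a + b) ξ = U a ξ + U b ξ) (hUsmul : ∀ (z : ℂ) a ξ, U (z • a) ξ = z • U a ξ)
    (hadj : ∀ a ξ η, ⟪U a ξ, η⟫_ℂ = ⟪ξ, U (star a) η⟫_ℂ)
    (T : E →L[ℂ] H') {C : ℝ} (W : H → E) (hW : ∀ y, ‖W y‖ ≤ C * ‖y‖)
    (hWadd : ∀ y y', ‖W (y + y') - W y - W y'‖ = 0)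
    (hWsmul : ∀ (z : ℂ) y, ‖W (z • y) - z • W y‖ = 0) :
    ∃ (K : Type w) (_ : NormedAddCommGroup K) (_ : InnerProductSpace ℂ K)
      (_ : CompleteSpace K) (σ : A →⋆ₐ[ℂ] (K →L[ℂ] K)) (W' : H →L[ℂ] K) (T' : K →L[ℂ] H'),
      ∀ a y, T' (σ a (W' y)) = T (U a (W y)) := by
  have hUz : ∀ ξ, U 0 ξ = 0 := by
    intro ξ
    have := hUsmul 0 0 ξ
    simpa using this
  have hadd : ∀ a b, (U (a + b)).completion = (U a).completion + (U b).completion := by
    intro a b
    ext x
    induction x using Completion.induction_on with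
    | hp => exact isClosed_eq (ContinuousLinearMap.continuous _) (ContinuousLinearMap.continuous _)
    | ih x => simp [hUadd, Completion.coe_add]
  have hsm : ∀ (z : ℂ) a, (U (z • a)).completion = z • (U a).completion := by
    intro z a
    ext x
    induction x using Completion.induction_on with
    | hp => exact isClosed_eq (ContinuousLinearMap.continuous _) (ContinuousLinearMap.continuous _)
    | ih x => simp [hUsmul, Completion.coe_smul]
  have hmul : ∀ a b, (U (a * b)).completion = (U a).completion * (U b).completion := by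
    intro a b
    ext x
    induction x using Completion.induction_on with
    | hp => exact isClosed_eq (ContinuousLinearMap.continuous _) (ContinuousLinearMap.continuous _)
    | ih x => simp [hUmul]
  have h1 : (U 1).completion = 1 := by
    ext x
    induction x using Completion.induction_on with
    | hp => exact isClosed_eq (ContinuousLinearMap.continuous _) (ContinuousLinearMap.continuous _)
    | ih x => simp [hU1]
  have h0 : (U 0).completion = 0 := by
    have := hsm 0 0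
    simpa using this
  have hst : ∀ a, (U (star a)).completion = star ((U a).completion) := by
    intro a
    rw [star_eq_adjoint, eq_adjoint_iff]
    intro x y
    rw [← inner_conj_symm]
    have hadj' : ∀ a : A, ∀ x y : Completion E, ⟪(U a).completion x, y⟫_ℂ =
        ⟪x, (U (star a)).completion y⟫_ℂ := by
      intro a x y
      induction x, y using Completion.induction_on₂ with
      | hp => apply isClosed_eq <;> fun_prop
      | ih x y => simp [hadj]
    rw [← hadj', inner_conj_symm]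
  let σ : A →⋆ₐ[ℂ] (Completion E →L[ℂ] Completion E) :=
    { toFun := fun a => (U a).completion
      map_one' := h1
      map_mul' := hmul
      map_zero' := h0
      map_add' := hadd
      commutes' := fun r => by
        rw [Algebra.algebraMap_eq_smul_one, Algebra.algebraMap_eq_smul_one, hsm, h1]
      map_star' := hst }
  let W' : H →ₗ[ℂ] Completion E :=
    { toFun := fun y => (W y : Completion E)
      map_add' := fun y y' => by
        have h : ‖((W (y + y') - W y - W y' : E) : Completion E)‖ = 0 := by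
          rw [Completion.norm_coe]; exact hWadd y y'
        rw [Completion.coe_sub, Completion.coe_sub] at h
        have := norm_eq_zero.1 h
        rw [sub_sub, sub_eq_zero] at this
        exact this
      map_smul' := fun z y => by
        have h : ‖((W (z • y) - z • W y : E) : Completion E)‖ = 0 := by
          rw [Completion.norm_coe]; exact hWsmul z y
        rw [Completion.coe_sub, Completion.coe_smul] at h
        exact sub_eq_zero.1 (norm_eq_zero.1 h) }
  refine ⟨Completion E, inferInstance, inferInstance, inferInstance, σ,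
    W'.mkContinuous C (fun y => by
      show ‖((W y : E) : Completion E)‖ ≤ C * ‖y‖
      rw [Completion.norm_coe]; exact hW y), T.fromCompletion, fun a y => ?_⟩
  show T.fromCompletion ((U a).completion ((W y : E) : Completion E)) = _
  rw [ContinuousLinearMap.completion_apply_coe, fromCompletion_apply_coe]

theorem factor_gen {E : Type w} [AddCommGroup E] [Module ℂ E]
    (c : PreInnerProductSpace.Core ℂ E)
    (U : A → E →ₗ[ℂ] E) (hU1 : ∀ ξ, U 1 ξ = ξ) (hUmul : ∀ a b ξ, U (a * b) ξ = U a (U b ξ))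
    (hUadd : ∀ a b ξ, U (a + b) ξ = U a ξ + U b ξ) (hUsmul : ∀ (z : ℂ) a ξ, U (z • a) ξ = z • U a ξ)
    (hadj : ∀ a ξ η, c.inner (U a ξ) η = c.inner ξ (U (star a) η))
    (hbd : ∀ a ξ, RCLike.re (c.inner (U a ξ) (U a ξ)) ≤ ‖a‖ ^ 2 * RCLike.re (c.inner ξ ξ))
    (T : E →ₗ[ℂ] H') (hT : ∀ ξ, ‖T ξ‖ ^ 2 ≤ RCLike.re (c.inner ξ ξ)) {C : ℝ}
    (W : H → E) (hW : ∀ y, RCLike.re (c.inner (W y) (W y)) ≤ C ^ 2 * ‖y‖ ^ 2)
    (hWadd : ∀ y y', RCLike.re (c.inner (W (y + y') - W y - W y') (W (y + y') - W y - W y')) = 0)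
    (hWsmul : ∀ (z : ℂ) y, RCLike.re (c.inner (W (z • y) - z • W y) (W (z • y) - z • W y)) = 0) :
    ∃ (K : Type w) (_ : NormedAddCommGroup K) (_ : InnerProductSpace ℂ K)
      (_ : CompleteSpace K) (σ : A →⋆ₐ[ℂ] (K →L[ℂ] K)) (W' : H →L[ℂ] K) (T' : K →L[ℂ] H'),
      ∀ a y, T' (σ a (W' y)) = T (U a (W y)) := by
  let i1 : SeminormedAddCommGroup E := InnerProductSpace.Core.toSeminormedAddCommGroup (c := c)
  let i2 : InnerProductSpace ℂ E := InnerProductSpace.ofCore c
  have hinner : ∀ ξ η : E, ⟪ξ, η⟫_ℂ = c.inner ξ η := fun ξ η => rfl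
  have hnorm : ∀ ξ : E, ‖ξ‖ ^ 2 = RCLike.re (c.inner ξ ξ) := by
    intro ξ
    rw [← inner_self_eq_norm_sq (𝕜 := ℂ), hinner]
  have hTle : ∀ ξ : E, ‖T ξ‖ ≤ 1 * ‖ξ‖ := by
    intro ξ
    rw [one_mul]
    have h1 := hT ξ
    rw [← hnorm] at h1
    exact (sq_le_sq₀ (norm_nonneg _) (norm_nonneg _)).1 h1
  have hUle : ∀ a, ∀ ξ : E, ‖U a ξ‖ ≤ ‖a‖ * ‖ξ‖ := by
    intro a ξ
    have h1 := hbd a ξ
    rw [← hnorm, ← hnorm, ← mul_pow] at h1
    exact (sq_le_sq₀ (norm_nonneg _) (by positivity)).1 h1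
  have hz : ∀ ξ : E, RCLike.re (c.inner ξ ξ) = 0 → ‖ξ‖ = 0 := by
    intro ξ h
    rw [← hnorm] at h
    exact pow_eq_zero_iff two_ne_zero |>.1 h
  exact factor_gen_aux (fun a => (U a).mkContinuous ‖a‖ (hUle a)) hU1 hUmul hUadd hUsmul hadj
    (T.mkContinuous 1 hTle) (C := |C|) W (fun y => by
      have h1 := hW y
      rw [← hnorm, ← sq_abs C, ← mul_pow] at h1
      exact (sq_le_sq₀ (norm_nonneg _) (by positivity)).1 h1)
    (fun y y' => hz _ (hWadd y y')) (fun z y => hz _ (hWsmul z y))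

end gen

section
variable {A : Type u} [CStarAlgebra A]
variable {H : Type v} [NormedAddCommGroup H] [InnerProductSpace ℂ H]

theorem g_Zk_lm (g : V0 A H →ₗ[ℝ] ℝ) (hg : ∀ ξ : H →₀ A, 0 ≤ g ⟨Zk ξ, Zk_mem ξ⟩) (a : A)
    (ξ : H →₀ A) : g ⟨Zk (lm a ξ), Zk_mem _⟩ ≤ ‖a‖ ^ 2 * g ⟨Zk ξ, Zk_mem ξ⟩ := by
  let _ := CStarAlgebra.spectralOrder A
  have _ := CStarAlgebra.spectralOrderedRing A
  have h1 : 0 ≤ (algebraMap ℝ A ‖star a * a‖) - star a * a :=
    sub_nonneg.2 (IsSelfAdjoint.star_mul_self a).le_algebraMap_norm_self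
  obtain ⟨b, hb⟩ := CStarAlgebra.nonneg_iff_eq_star_mul_self.1 h1
  have h2 : Zk (lm a ξ) + Zk (lm b ξ) = (‖a‖ ^ 2) • Zk ξ := by
    funext x x'
    have e1 : star (lm a ξ |> fun ζ => hat ζ x) * hat (lm a ξ) x' =
        star (hat ξ x) * ((star a * a) * hat ξ x') := by
      simp only [hat_lm, star_mul, mul_assoc]
    have e2 : star (hat (lm b ξ) x) * hat (lm b ξ) x' =
        star (hat ξ x) * ((star b * b) * hat ξ x') := by
      simp only [hat_lm, star_mul, mul_assoc]
    simp only [Pi.add_apply, Pi.smul_apply, Zk]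
    rw [e2, ← hb]
    rw [show star (hat (lm a ξ) x) * hat (lm a ξ) x' = star (hat ξ x) * ((star a * a) * hat ξ x') from e1]
    rw [← mul_add, ← add_mul, CStarRing.norm_star_mul_self, ← pow_two, add_sub_cancel,
      Algebra.algebraMap_eq_smul_one, smul_mul_assoc, one_mul, mul_smul_comm]
  have h3 : g ⟨Zk (lm a ξ), Zk_mem _⟩ + g ⟨Zk (lm b ξ), Zk_mem _⟩ = ‖a‖ ^ 2 * g ⟨Zk ξ, Zk_mem ξ⟩ := by
    rw [← map_add, ← smul_eq_mul, ← map_smul]
    congr 1
    exact Subtype.ext h2
  have h4 := hg (lm b ξ)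
  linarith

theorem hat_neg' (ξ : H →₀ A) (x : H) : hat (-ξ) x = -hat ξ x := by
  have := hat_smul (-1 : ℂ) ξ x
  simpa using this

theorem g_Zk_zero (g : V0 A H →ₗ[ℝ] ℝ) (ξ : H →₀ A) (h : ∀ x, hat ξ x = 0) :
    g ⟨Zk ξ, Zk_mem ξ⟩ = 0 := by
  have : (⟨Zk ξ, Zk_mem ξ⟩ : V0 A H) = 0 := by
    apply Subtype.ext
    funext x x'
    simp [Zk, h]
  rw [this, map_zero]

end

end Crest.Agent.R121
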