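import Crest.Agent.R121.B0
import Crest.Agent.R124.SimD
import Crest.Agent.R121.B6bAux
import Crest.Agent.R121.B6a

/-!
# Row 121, PART B, piece B6: Stinespring-type factorisation `φ(a) = T σ(a) W` (module SIM of row 124, linear version)

B6a: copy `R124/SimA.lean` (`ColBd`, `ColBd.fintype`, `Tm`, `Tm_add`, `Tm_smul`, `Tm_single`, `key`) and
`R124/SimB.lean` (`Rep`, …, `exists_form`) with `π : A →ₐ[ℂ] (H →L[ℂ] H)` replaced by a LINEAR map
`φ : A →ₗ[ℂ] (H →L[ℂ] H')` (multiplicativity is never used there); `hat`, `Zk`, `V0`, `Zk_mem`, `Zk_smul`, … do not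
mention `π` and can be used as they are.
B6b: `E = (H →₀ A)` with the pre-inner product `core g hg` of `R124/SimD.lean`, `K = Completion E`,
`σ(a)` = extension of `lm a` (bounded by `‖a‖`: `‖a‖² - a⋆a = b⋆b`, `Zk (lm a ξ) + Zk (lm b ξ) = ‖a‖² • Zk ξ`),
`W y = ↑(single y 1)` (additive and homogeneous because `Zk (single (y+y') 1 - single y 1 - single y' 1) = 0`,
bounded by `C`), `T` = extension of `Tm φ` (contraction), `⋆`-property from `core_lm`.
-/

set_option autoImplicit false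

namespace Crest.Agent.R121

open Crest.Agent.R124 Crest.Agent.R124.J
open scoped InnerProductSpace ComplexConjugate

universe u v w
section
variable {A : Type u} [CStarAlgebra A]
variable {H : Type v} [NormedAddCommGroup H] [InnerProductSpace ℂ H]
variable {H' : Type w} [NormedAddCommGroup H'] [InnerProductSpace ℂ H']

/-- `φ` is bounded by `C` on column isometries -/
def ColB (φ : A →ₗ[ℂ] (H →L[ℂ] H')) (C : ℝ) : Prop :=
  ∀ (m n : ℕ) (a : Fin m → Fin n → A),
    (∀ i j, ∑ k, star (a k i) * a k j = if i = j then 1 else 0) →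
    ∀ y : Fin n → H, ∑ k, ‖∑ j, φ (a k j) (y j)‖ ^ 2 ≤ C ^ 2 * ∑ j, ‖y j‖ ^ 2

/-- the evaluation `∑ a ⊗ y ↦ ∑ φ(a) y` -/
noncomputable def TmL (φ : A →ₗ[ℂ] (H →L[ℂ] H')) : (H →₀ A) →ₗ[ℂ] H' where
  toFun ξ := ξ.sum fun y a => φ a y
  map_add' ξ η := by
    classical
    rw [Finsupp.sum_add_index']
    · intro; simp
    · intro _ _ _; simp
  map_smul' c ξ := by
    classical
    rw [Finsupp.sum_smul_index' (by intro; simp), RingHom.id_apply, Finsupp.smul_sum]
    refine Finsupp.sum_congr fun y _ => ?_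
    simp

theorem TmL_single (φ : A →ₗ[ℂ] (H →L[ℂ] H')) (y : H) (a : A) :
    TmL φ (Finsupp.single y a) = φ a y := by
  show (Finsupp.single y a).sum (fun y a => φ a y) = φ a y
  rw [Finsupp.sum_single_index (by simp)]

/-- B6a -/
theorem exists_formL {φ : A →ₗ[ℂ] (H →L[ℂ] H')} {C : ℝ} (hC : ColB φ C) :
    ∃ g : V0 A H →ₗ[ℝ] ℝ,
    (∀ ξ : H →₀ A, ‖TmL φ ξ‖ ^ 2 ≤ g ⟨Zk ξ, Zk_mem ξ⟩) ∧
    (∀ y : H, g ⟨Zk (Finsupp.single y (1 : A)), Zk_mem _⟩ ≤ C ^ 2 * ‖y‖ ^ 2) := by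
  exact exists_formM (π := φ) (C := C) hC

/-- B6b -/
theorem exists_factor [CompleteSpace H'] {φ : A →ₗ[ℂ] (H →L[ℂ] H')} {C : ℝ} (hC : ColB φ C) :
    ∃ (K : Type (max u v)) (_ : NormedAddCommGroup K) (_ : InnerProductSpace ℂ K)
      (_ : CompleteSpace K) (σ : A →⋆ₐ[ℂ] (K →L[ℂ] K)) (W : H →L[ℂ] K) (T : K →L[ℂ] H'),
      ∀ a ξ, φ a ξ = T (σ a (W ξ)) := by
  obtain ⟨g, hg1, hg2⟩ := exists_formL hC
  have hg : ∀ ξ : H →₀ A, 0 ≤ g ⟨Zk ξ, Zk_mem ξ⟩ := fun ξ => (sq_nonneg _).trans (hg1 ξ)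
  obtain ⟨K, i1, i2, i3, σ, W', T', h⟩ := factor_gen (H := H) (core g hg) (lmL (H := H))
    (fun ξ => lm_one ξ) (fun a b ξ => (lm_lm a b ξ).symm)
    (fun a b ξ => by
      show lm (a + b) ξ = lm a ξ + lm b ξ
      ext y
      simp [lm, add_mul])
    (fun z a ξ => by
      show lm (z • a) ξ = z • lm a ξ
      ext y
      simp [lm])
    (fun a ξ η => core_lm g hg a ξ η)
    (fun a ξ => by
      rw [core_self, core_self]
      exact g_Zk_lm g hg a ξ)
    (TmL φ) (fun ξ => by rw [core_self]; exact hg1 ξ)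
    (fun y => Finsupp.single y (1 : A)) (C := C) (fun y => by rw [core_self]; exact hg2 y)
    (fun y y' => by
      rw [core_self]
      apply g_Zk_zero
      intro x
      rw [sub_eq_add_neg, sub_eq_add_neg, hat_add, hat_add, hat_neg', hat_neg', hat_single,
        hat_single, hat_single, inner_add_right, add_smul]
      abel)
    (fun z y => by
      rw [core_self]
      apply g_Zk_zero
      intro x
      rw [sub_eq_add_neg, hat_add, hat_neg', hat_smul, hat_single, hat_single, inner_smul_right,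
        mul_smul]
      abel)
  refine ⟨K, i1, i2, i3, σ, W', T', fun a ξ => ?_⟩
  rw [h a ξ]
  show φ a ξ = TmL φ (lm a (Finsupp.single ξ 1))
  have : lm a (Finsupp.single ξ (1 : A)) = Finsupp.single ξ a := by
    unfold lm
    rw [Finsupp.mapRange_single, mul_one]
  rw [this, TmL_single]

end

section
variable {H : Type u} [NormedAddCommGroup H] [InnerProductSpace ℂ H] [CompleteSpace H]
variable {M : VonNeumannAlgebra H}
variable {H' : Type v} [NormedAddCommGroup H'] [InnerProductSpace ℂ H']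

/-- B6c: `∑_k ‖∑_j a_kj ζ_j‖² = ∑_{i,j} ⟪ζ_i, (∑_k a_ki⋆ a_kj) ζ_j⟫ = ∑ ‖ζ_j‖²` -/
theorem LastB.colB {φ : NA M →ₗ[ℂ] (H →L[ℂ] H')} {C : ℝ} (h : LastB φ C) : ColB φ C := by
  intro m n a ha y
  refine h m n a (fun ζ => le_of_eq ?_) y
  have h1 : ∀ k, ((‖∑ j, NA.val (a k j) (ζ j)‖ ^ 2 : ℝ) : ℂ) =
      ∑ i, ∑ j, ⟪ζ i, NA.val (star (a k i) * a k j) (ζ j)⟫_ℂ := by
    intro k
    rw [Complex.ofReal_pow]
    refine (inner_self_eq_norm_sq_to_K (𝕜 := ℂ) (∑ j, NA.val (a k j) (ζ j))).symm.trans ?_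
    rw [sum_inner]
    refine Finset.sum_congr rfl fun i _ => ?_
    rw [inner_sum]
    refine Finset.sum_congr rfl fun j _ => ?_
    rw [map_mul, map_star, ContinuousLinearMap.mul_apply, ContinuousLinearMap.star_eq_adjoint,
      ContinuousLinearMap.adjoint_inner_right]
  have h2 : ((∑ k, ‖∑ j, NA.val (a k j) (ζ j)‖ ^ 2 : ℝ) : ℂ) = ((∑ j, ‖ζ j‖ ^ 2 : ℝ) : ℂ) := by
    rw [Complex.ofReal_sum, Complex.ofReal_sum]
    simp only [h1]
    rw [Finset.sum_comm]
    refine Finset.sum_congr rfl fun i _ => ?_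
    rw [Finset.sum_comm]
    have h3 : ∀ j, ∑ k, ⟪ζ i, NA.val (star (a k i) * a k j) (ζ j)⟫_ℂ =
        if i = j then ((‖ζ i‖ ^ 2 : ℝ) : ℂ) else 0 := by
      intro j
      rw [← inner_sum, ← ContinuousLinearMap.sum_apply, ← map_sum, ha i j]
      split_ifs with hij
      · subst hij
        rw [map_one, Complex.ofReal_pow]
        exact inner_self_eq_norm_sq_to_K (𝕜 := ℂ) _
      · rw [map_zero, ContinuousLinearMap.zero_apply, inner_zero_right]
    simp only [h3]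
    simp
  exact_mod_cast h2

end

end Crest.Agent.R121
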