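import Crest.Agent.R121.B5
import Crest.Agent.R121.B6

/-!
# Row 121, PART B, piece B7: finite version

`locF`.  `ψ = piL (fun s => valL (φ s))` satisfies `LastB` (`LastB.pi`), hence `ColB` (`LastB.colB`), so
`ψ(y) ξ = T (σ(y) W ξ)` with `T : K → PiLp 2 (Fin m → H)` (`exists_factor`; universe: everything in `Type u`), `T_s = proj_s ∘ T`,
`T_s σ(y) W = φ_s(y) ∈ M`.  `y_s` is a finite combination of unitaries (`CStarAlgebra.span_unitary`,
`Submodule.mem_span_set'` or `mem_span_iff_exists_finset_subset`); put all unitaries which occur in one finite family `a_t`,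
`locA` with `ε₁²`, `ε₁ (1 + ∑|λ|)(1 + ‖η_s‖) ≤ ε/4`: the column `c : ι → NA M` satisfies
`|⟪η_s, T_s σ(y_s) V ξ_s - T_s V y_s ξ_s⟫| ≤ ε/4`, `V = Vc σ W c`.  By `hasSum_comp_Vc` (`y = y_s, ξ = ξ_s`, and `y = 1, ξ = y_s ξ_s`) and
`IsCol.hasSum_inner` all sums over finite `F` converge along `atTop`; choose `F`.
-/

set_option autoImplicit false

namespace Crest.Agent.R121

open Crest.Agent.R124.J
open scoped InnerProductSpace ComplexConjugate

universe u v w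
variable {H : Type u} [NormedAddCommGroup H] [InnerProductSpace ℂ H] [CompleteSpace H]
variable {M : VonNeumannAlgebra H}

/-- polarisation of the definition of a column -/
theorem IsCol.hasSum_inner {ι : Type w} {c : ι → NA M} (hc : IsCol c) (z z' : H) :
    HasSum (fun i => ⟪NA.val (c i) z, NA.val (c i) z'⟫_ℂ) ⟪z, z'⟫_ℂ := by
  have hof : ∀ x : H, HasSum (fun i => ((‖NA.val (c i) x‖ : ℂ)) ^ 2) ((‖x‖ : ℂ) ^ 2) := by
    intro x
    have h := Complex.ofRealCLM.hasSum (hc x)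
    simpa [Function.comp_def] using h
  have h1 := hof (z + z')
  have h2 := hof (z - z')
  have h3 := hof (z - Complex.I • z')
  have h4 := hof (z + Complex.I • z')
  have h5 := ((h1.sub h2).add ((h3.sub h4).mul_right Complex.I)).div_const 4
  have e : ∀ x y : H, ⟪x, y⟫_ℂ = ((‖x + y‖ : ℂ) ^ 2 - (‖x - y‖ : ℂ) ^ 2 +
      ((‖x - Complex.I • y‖ : ℂ) ^ 2 - (‖x + Complex.I • y‖ : ℂ) ^ 2) * Complex.I) / 4 :=
    fun x y => inner_eq_sum_norm_sq_div_four x y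
  rw [e z z']
  have hfun : (fun i => ⟪NA.val (c i) z, NA.val (c i) z'⟫_ℂ) = fun i =>
      (((‖NA.val (c i) (z + z')‖ : ℂ)) ^ 2 - ((‖NA.val (c i) (z - z')‖ : ℂ)) ^ 2 +
        (((‖NA.val (c i) (z - Complex.I • z')‖ : ℂ)) ^ 2 -
          ((‖NA.val (c i) (z + Complex.I • z')‖ : ℂ)) ^ 2) * Complex.I) / 4 := by
    funext i
    rw [e]
    simp only [map_add, map_sub, map_smul]
  rw [hfun]
  exact h5

/-- infinite column, general `y` -/
theorem locI {m : ℕ} (φ : Fin m → NA M →ₗ[ℂ] NA M) (C : Fin m → ℝ)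
    (hφ : ∀ s, LastB (valL (φ s)) (C s)) (y : Fin m → NA M) (ξ η : Fin m → H)
    {ε : ℝ} (hε : 0 < ε) :
    ∃ (ι : Type u) (c : ι → NA M) (L L' : Fin m → ℂ), IsCol c ∧
      (∀ s, HasSum (fun i => ⟪η s, NA.val (φ s (y s * star (c i))) (NA.val (c i) (ξ s))⟫_ℂ) (L s)) ∧
      (∀ s, HasSum (fun i => ⟪η s, NA.val (φ s (star (c i)))
        (NA.val (c i) (NA.val (y s) (ξ s)))⟫_ℂ) (L' s)) ∧
      ∀ s, ‖L s - L' s‖ ≤ ε := by
  classical
  obtain ⟨K, _, _, _, σ, W, T, hfac⟩ := exists_factor (LastB.colB (LastB.pi hφ))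
  set Ts : Fin m → K →L[ℂ] H := fun s => (PiLp.proj (𝕜 := ℂ) 2 (fun _ : Fin m => H) s) ∘L T with hTs
  have hφT : ∀ s a z, NA.val (φ s a) z = Ts s (σ a (W z)) := by
    intro s a z
    have h := hfac a z
    have h2 := congrArg (fun x => x s) h
    simpa [hTs, piL_apply, valL_apply] using h2
  have hmem : ∀ s a, Ts s ∘L (σ a) ∘L W ∈ M := by
    intro s a
    have : Ts s ∘L (σ a) ∘L W = NA.val (φ s a) := by
      ext z; exact (hφT s a z).symm
    rw [this]; exact NA.val_mem _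
  have hsp : ∀ s, ∃ l : NA M →₀ ℂ, ((l.support : Set (NA M)) ⊆ unitary (NA M)) ∧
      l.sum (fun u r => r • u) = y s := by
    intro s
    have : y s ∈ Submodule.span ℂ (unitary (NA M) : Set (NA M)) := by
      rw [CStarAlgebra.span_unitary]; trivial
    exact (Submodule.mem_span_set).1 this
  choose l hlu hls using hsp
  let S : Finset (NA M) := Finset.univ.biUnion fun s => (l s).support
  have hSu : ∀ u ∈ S, u ∈ unitary (NA M) := by
    intro u hu
    obtain ⟨s, -, hs⟩ := Finset.mem_biUnion.1 hu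
    exact hlu s hs
  let a : Fin S.card → NA M := fun t => (S.equivFin.symm t : NA M)
  have ha : ∀ t, star (a t) * a t = 1 := fun t =>
    (Unitary.mem_iff.1 (hSu _ (S.equivFin.symm t).2)).1
  set B : ℝ := ∑ s, ‖η s‖ * ∑ u ∈ (l s).support, ‖l s u‖ with hB
  have hB0 : 0 ≤ B := Finset.sum_nonneg fun s _ => mul_nonneg (norm_nonneg _)
    (Finset.sum_nonneg fun u _ => norm_nonneg _)
  set δ : ℝ := ε / (B + 1) with hδ
  have hδ0 : 0 < δ := div_pos hε (by linarith)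
  obtain ⟨ι, c, hc, hloc⟩ := locA σ W Ts hmem a ha ξ (ε := δ ^ 2) (by positivity)
  refine ⟨ι, c, fun s => ⟪η s, Ts s (σ (y s) (Vc σ W c (ξ s)))⟫_ℂ,
    fun s => ⟪η s, Ts s (Vc σ W c (NA.val (y s) (ξ s)))⟫_ℂ, hc, ?_, ?_, ?_⟩
  · intro s
    have h := hasSum_comp_Vc σ W (Ts s) hc (y s) (ξ s) (η s)
    simpa only [hφT] using h
  · intro s
    have h := hasSum_comp_Vc σ W (Ts s) hc 1 (NA.val (y s) (ξ s)) (η s)
    rw [map_one] at h
    simp only [one_mul] at h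
    have h1 : ((1 : K →L[ℂ] K) (Vc σ W c (NA.val (y s) (ξ s)))) = Vc σ W c (NA.val (y s) (ξ s)) := rfl
    rw [h1] at h
    simpa only [hφT] using h
  · intro s
    have hD : Ts s (σ (y s) (Vc σ W c (ξ s))) - Ts s (Vc σ W c (NA.val (y s) (ξ s))) =
        ∑ u ∈ (l s).support, l s u • (Ts s (σ u (Vc σ W c (ξ s))) -
          Ts s (Vc σ W c (NA.val u (ξ s)))) := by
      conv_lhs => rw [← hls s, Finsupp.sum]
      simp only [map_sum, map_smul, _root_.sum_apply, _root_.smul_apply,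
        ← Finset.sum_sub_distrib, ← smul_sub]
    have hn : ∀ u ∈ (l s).support, ‖Ts s (σ u (Vc σ W c (ξ s))) -
          Ts s (Vc σ W c (NA.val u (ξ s)))‖ ≤ δ := by
      intro u hu
      have hu' : u ∈ S := Finset.mem_biUnion.2 ⟨s, Finset.mem_univ _, hu⟩
      have h := hloc s (S.equivFin ⟨u, hu'⟩) s
      have hau : a (S.equivFin ⟨u, hu'⟩) = u := by simp [a]
      rw [hau] at h
      exact le_of_sq_le_sq h hδ0.le
    rw [← inner_sub_right, hD]
    calc ‖⟪η s, ∑ u ∈ (l s).support, l s u • (Ts s (σ u (Vc σ W c (ξ s))) -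
          Ts s (Vc σ W c (NA.val u (ξ s))))⟫_ℂ‖
        ≤ ‖η s‖ * ‖∑ u ∈ (l s).support, l s u • (Ts s (σ u (Vc σ W c (ξ s))) -
          Ts s (Vc σ W c (NA.val u (ξ s))))‖ := norm_inner_le_norm _ _
      _ ≤ ‖η s‖ * ∑ u ∈ (l s).support, ‖l s u‖ * δ := by
          gcongr
          refine (norm_sum_le _ _).trans (Finset.sum_le_sum fun u hu => ?_)
          rw [norm_smul]
          exact mul_le_mul_of_nonneg_left (hn u hu) (norm_nonneg _)
      _ = (‖η s‖ * ∑ u ∈ (l s).support, ‖l s u‖) * δ := by rw [← Finset.sum_mul]; ring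
      _ ≤ B * δ := by
          gcongr
          exact Finset.single_le_sum (f := fun s => ‖η s‖ * ∑ u ∈ (l s).support, ‖l s u‖)
            (fun s _ => mul_nonneg (norm_nonneg _) (Finset.sum_nonneg fun u _ => norm_nonneg _))
            (Finset.mem_univ s)
      _ ≤ (B + 1) * δ := by gcongr; linarith
      _ = ε := by rw [hδ]; field_simp

theorem locF {m : ℕ} (φ : Fin m → NA M →ₗ[ℂ] NA M) (C : Fin m → ℝ)
    (hφ : ∀ s, LastB (valL (φ s)) (C s)) (y : Fin m → NA M) (ξ η η' : Fin m → H)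
    {ε : ℝ} (hε : 0 < ε) :
    ∃ (ι : Type u) (c : ι → NA M) (F : Finset ι),
      (∀ z : H, ∑ i ∈ F, ‖NA.val (c i) z‖ ^ 2 ≤ ‖z‖ ^ 2) ∧
      (∀ s, ‖∑ i ∈ F, ⟪NA.val (c i) (η' s), NA.val (c i) (ξ s)⟫_ℂ - ⟪η' s, ξ s⟫_ℂ‖ ≤ ε) ∧
      ∀ s, ‖∑ i ∈ F, ⟪η s, NA.val (φ s (y s * star (c i))) (NA.val (c i) (ξ s))⟫_ℂ -
        ∑ i ∈ F, ⟪η s, NA.val (φ s (star (c i))) (NA.val (c i) (NA.val (y s) (ξ s)))⟫_ℂ‖ ≤ ε := by
  obtain ⟨ι, c, L, L', hc, hL, hL', hLL⟩ := locI φ C hφ y ξ η (ε := ε / 4) (by linarith)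
  have key : ∀ {f : ι → ℂ} {a : ℂ}, HasSum f a →
      ∀ᶠ F : Finset ι in Filter.atTop, ‖∑ i ∈ F, f i - a‖ < ε / 4 := by
    intro f a h
    have h1 := (Metric.tendsto_nhds.mp (h : Filter.Tendsto _ _ _)) (ε / 4) (by linarith)
    filter_upwards [h1] with F hF
    rwa [dist_eq_norm] at hF
  have e1 : ∀ᶠ F : Finset ι in Filter.atTop, ∀ s,
      ‖∑ i ∈ F, ⟪NA.val (c i) (η' s), NA.val (c i) (ξ s)⟫_ℂ - ⟪η' s, ξ s⟫_ℂ‖ < ε / 4 :=
    Filter.eventually_all.mpr fun s => key (hc.hasSum_inner (η' s) (ξ s))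
  have e2 := Filter.eventually_all.mpr fun s => key (hL s)
  have e3 := Filter.eventually_all.mpr fun s => key (hL' s)
  obtain ⟨F, h1, h2, h3⟩ := (e1.and (e2.and e3)).exists
  refine ⟨ι, c, F, fun z => sum_le_hasSum F (fun i _ => by positivity) (hc z),
    fun s => by linarith [h1 s], fun s => ?_⟩
  set A := ∑ i ∈ F, ⟪η s, NA.val (φ s (y s * star (c i))) (NA.val (c i) (ξ s))⟫_ℂ
  set B := ∑ i ∈ F, ⟪η s, NA.val (φ s (star (c i))) (NA.val (c i) (NA.val (y s) (ξ s)))⟫_ℂ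
  have g1 : ‖A - L s‖ < ε / 4 := h2 s
  have g2 : ‖B - L' s‖ < ε / 4 := h3 s
  have g3 := hLL s
  have : A - B = (A - L s) + (L s - L' s) - (B - L' s) := by ring
  calc ‖A - B‖ = ‖(A - L s) + (L s - L' s) - (B - L' s)‖ := by rw [← this]
    _ ≤ ‖(A - L s) + (L s - L' s)‖ + ‖B - L' s‖ := norm_sub_le _ _
    _ ≤ (‖A - L s‖ + ‖L s - L' s‖) + ‖B - L' s‖ := by gcongr; exact norm_add_le _ _
    _ ≤ ε := by linarith

end Crest.Agent.R121
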