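import Crest.Prelude.Def_Hochschild

/-! Row 121, module C (helper40), file C1: cochains and the one-sided averaging identities. -/

set_option autoImplicit false

open Crest.OpAlg

namespace Crest.Agent.R121

section Alg

variable {A : Type*} [Ring A]

theorem mergeArgs_zero_cons {n : ℕ} (u : A) (x : Fin (n + 1) → A) :
    mergeArgs (0 : Fin (n + 1)) (Fin.cons u x : Fin (n + 2) → A) =
      Fin.cons (u * x 0) (fun i => x i.succ) := by
  funext i
  refine Fin.cases ?_ (fun i => ?_) i
  · simp [mergeArgs]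
  · simp [mergeArgs]

theorem mergeArgs_succ_cons {n : ℕ} (j : Fin n) (u : A) (x : Fin (n + 1) → A) :
    mergeArgs j.succ (Fin.cons u x : Fin (n + 2) → A) = Fin.cons u (mergeArgs j x) := by
  funext i
  refine Fin.cases ?_ (fun i => ?_) i
  · simp [mergeArgs]
  · simp only [mergeArgs, Fin.val_succ, Fin.cons_succ, add_lt_add_iff_right, add_left_inj]
    simp only [← Fin.succ_castSucc, Fin.cons_succ]

/-- the cocycle identity at `(u, x₀, …, xₙ)` -/
theorem hochschildDiff_cons {n : ℕ} (f : (Fin (n + 1) → A) → A) (u : A) (x : Fin (n + 1) → A) :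
    hochschildDiff f (Fin.cons u x : Fin (n + 2) → A) =
      u * f x - f (Fin.cons (u * x 0) (fun i => x i.succ))
        - (∑ j : Fin n, ((-1 : ℤ) ^ (j.val + 1)) • f (Fin.cons u (mergeArgs j x)))
        - ((-1 : ℤ) ^ (n + 1)) • (f (Fin.cons u (fun i => x i.castSucc)) * x (Fin.last n)) := by
  unfold hochschildDiff
  rw [Fin.sum_univ_succ]
  have h0 : (fun i : Fin (n + 1) => (Fin.cons u x : Fin (n + 2) → A) i.succ) = x := by
    funext i; simp
  have h1 : (fun i : Fin (n + 1) => (Fin.cons u x : Fin (n + 2) → A) i.castSucc) =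
      Fin.cons u (fun i => x i.castSucc) := by
    funext i
    refine Fin.cases ?_ (fun i => ?_) i
    · simp
    · simp only [← Fin.succ_castSucc, Fin.cons_succ]
  have h2 : (Fin.cons u x : Fin (n + 2) → A) (Fin.last (n + 1)) = x (Fin.last n) := by
    rw [← Fin.succ_last, Fin.cons_succ]
  rw [h0, h1, h2, mergeArgs_zero_cons]
  have h3 : ∀ j : Fin n, ((-1 : ℤ) ^ ((j.succ : Fin (n + 1)).val + 1)) •
      f (mergeArgs j.succ (Fin.cons u x : Fin (n + 2) → A)) =
      -(((-1 : ℤ) ^ (j.val + 1)) • f (Fin.cons u (mergeArgs j x))) := by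
    intro j
    rw [mergeArgs_succ_cons, Fin.val_succ, pow_succ (-1 : ℤ) (j.val + 1), mul_neg_one, neg_smul]
  rw [Finset.sum_congr rfl fun j _ => h3 j, Finset.sum_neg_distrib]
  rw [pow_succ (-1 : ℤ) (n + 1), mul_neg_one, neg_smul]
  simp only [Fin.cons_zero, Fin.val_zero, zero_add, pow_one, neg_smul, one_smul]
  abel

/-- first-variable averaging, one term: `g x = b' * f (b, x)` -/
theorem diff_first {n : ℕ} (f : (Fin (n + 1) → A) → A)
    (hf : ∀ a : Fin (n + 2) → A, hochschildDiff f a = 0) (b' b : A) (x : Fin (n + 1) → A) :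
    b' * b * f x - hochschildDiff (fun y : Fin n → A => b' * f (Fin.cons b y)) x =
      b' * f (Fin.cons (b * x 0) (fun i => x i.succ)) -
        x 0 * (b' * f (Fin.cons b (fun i => x i.succ))) := by
  have h := hochschildDiff_cons f b x
  rw [hf] at h
  have h2 : b * f x = f (Fin.cons (b * x 0) (fun i => x i.succ))
        + (∑ j : Fin n, ((-1 : ℤ) ^ (j.val + 1)) • f (Fin.cons b (mergeArgs j x)))
        + ((-1 : ℤ) ^ (n + 1)) • (f (Fin.cons b (fun i => x i.castSucc)) * x (Fin.last n)) := by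
    rw [eq_comm, sub_sub, sub_sub, sub_eq_zero] at h
    rw [h]; abel
  unfold hochschildDiff
  rw [mul_assoc, h2, mul_add, mul_add, Finset.mul_sum]
  simp only [mul_smul_comm, ← mul_assoc]
  abel

/-- first-variable averaging -/
theorem diff_first_sum {n : ℕ} {ι : Type*} (s : Finset ι) (f : (Fin (n + 1) → A) → A)
    (hf : ∀ a : Fin (n + 2) → A, hochschildDiff f a = 0) (b' b : ι → A)
    (hb : ∑ i ∈ s, b' i * b i = 1) (x : Fin (n + 1) → A) :
    f x - hochschildDiff (fun y : Fin n → A => ∑ i ∈ s, b' i * f (Fin.cons (b i) y)) x =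
      (∑ i ∈ s, b' i * f (Fin.cons (b i * x 0) (fun j => x j.succ))) -
        x 0 * ∑ i ∈ s, b' i * f (Fin.cons (b i) (fun j => x j.succ)) := by
  have h1 : hochschildDiff (fun y : Fin n → A => ∑ i ∈ s, b' i * f (Fin.cons (b i) y)) x =
      ∑ i ∈ s, hochschildDiff (fun y : Fin n → A => b' i * f (Fin.cons (b i) y)) x := by
    unfold hochschildDiff
    rw [Finset.sum_add_distrib, Finset.sum_add_distrib, Finset.mul_sum, Finset.sum_comm,
      Finset.sum_mul, Finset.smul_sum]
    simp only [Finset.smul_sum]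
  have h2 : f x = ∑ i ∈ s, b' i * b i * f x := by
    rw [← Finset.sum_mul, hb, one_mul]
  rw [h1]
  conv_lhs => rw [h2]
  rw [← Finset.sum_sub_distrib, Finset.mul_sum, ← Finset.sum_sub_distrib]
  exact Finset.sum_congr rfl fun i _ => diff_first f hf (b' i) (b i) x

theorem mergeArgs_castSucc_snoc {n : ℕ} (j : Fin n) (x : Fin (n + 1) → A) (u : A) :
    mergeArgs j.castSucc (Fin.snoc x u : Fin (n + 2) → A) = Fin.snoc (mergeArgs j x) u := by
  funext i
  refine Fin.lastCases ?_ (fun i => ?_) i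
  · have hj : ¬ (n < j.val) := by have := j.isLt; omega
    have hj' : ¬ (n = j.val) := by have := j.isLt; omega
    simp only [mergeArgs, Fin.val_last, Fin.val_castSucc, hj, hj', if_false, Fin.succ_last,
      Fin.snoc_last]
  · simp only [mergeArgs, Fin.val_castSucc, Fin.snoc_castSucc]
    simp only [← Fin.castSucc_succ, Fin.snoc_castSucc]

theorem mergeArgs_last_snoc {n : ℕ} (x : Fin (n + 1) → A) (u : A) :
    mergeArgs (Fin.last n) (Fin.snoc x u : Fin (n + 2) → A) =
      Fin.snoc (fun i : Fin n => x i.castSucc) (x (Fin.last n) * u) := by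
  funext i
  refine Fin.lastCases ?_ (fun i => ?_) i
  · simp only [mergeArgs, Fin.val_last, lt_irrefl, if_false, if_true, Fin.succ_last,
      Fin.snoc_last, Fin.snoc_castSucc]
  · simp only [mergeArgs, Fin.val_castSucc, Fin.val_last, i.isLt, if_true, Fin.snoc_castSucc]

/-- the cocycle identity at `(x₀, …, xₙ, u)` -/
theorem hochschildDiff_snoc {n : ℕ} (f : (Fin (n + 1) → A) → A) (u : A) (x : Fin (n + 1) → A) :
    hochschildDiff f (Fin.snoc x u : Fin (n + 2) → A) =
      x 0 * f (Fin.snoc (fun i : Fin n => x i.succ) u)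
        + (∑ j : Fin n, ((-1 : ℤ) ^ (j.val + 1)) • f (Fin.snoc (mergeArgs j x) u))
        + ((-1 : ℤ) ^ (n + 1)) • f (Fin.snoc (fun i : Fin n => x i.castSucc) (x (Fin.last n) * u))
        - ((-1 : ℤ) ^ (n + 1)) • (f x * u) := by
  unfold hochschildDiff
  rw [Fin.sum_univ_castSucc]
  have h0 : (fun i : Fin (n + 1) => (Fin.snoc x u : Fin (n + 2) → A) i.castSucc) = x := by
    funext i; simp
  have h1 : (fun i : Fin (n + 1) => (Fin.snoc x u : Fin (n + 2) → A) i.succ) =
      Fin.snoc (fun i : Fin n => x i.succ) u := by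
    funext i
    refine Fin.lastCases ?_ (fun i => ?_) i
    · simp only [Fin.succ_last, Fin.snoc_last]
    · simp only [← Fin.castSucc_succ, Fin.snoc_castSucc]
  have h2 : (Fin.snoc x u : Fin (n + 2) → A) 0 = x 0 := by
    have : (0 : Fin (n + 2)) = Fin.castSucc (0 : Fin (n + 1)) := rfl
    rw [this, Fin.snoc_castSucc]
  rw [h0, h1, h2, mergeArgs_last_snoc, Fin.snoc_last]
  simp only [mergeArgs_castSucc_snoc, Fin.val_castSucc, Fin.val_last]
  rw [pow_succ (-1 : ℤ) (n + 1), mul_neg_one, neg_smul]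
  abel

/-- last-variable averaging, one term: `g x = f (x, b') * b` -/
theorem diff_last {n : ℕ} (f : (Fin (n + 1) → A) → A)
    (hf : ∀ a : Fin (n + 2) → A, hochschildDiff f a = 0) (b' b : A) (x : Fin (n + 1) → A) :
    f x * (b' * b) -
        ((-1 : ℤ) ^ (n + 1)) • hochschildDiff (fun y : Fin n → A => f (Fin.snoc y b') * b) x =
      f (Fin.snoc (fun i : Fin n => x i.castSucc) (x (Fin.last n) * b')) * b -
        (f (Fin.snoc (fun i : Fin n => x i.castSucc) b') * b) * x (Fin.last n) := by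
  have h := hochschildDiff_snoc f b' x
  rw [hf] at h
  have hs : ((-1 : ℤ) ^ (n + 1)) * ((-1 : ℤ) ^ (n + 1)) = 1 := by
    rw [← mul_pow]; norm_num
  have h2 : f x * b' = ((-1 : ℤ) ^ (n + 1)) • (x 0 * f (Fin.snoc (fun i : Fin n => x i.succ) b'))
        + ((-1 : ℤ) ^ (n + 1)) •
          (∑ j : Fin n, ((-1 : ℤ) ^ (j.val + 1)) • f (Fin.snoc (mergeArgs j x) b'))
        + f (Fin.snoc (fun i : Fin n => x i.castSucc) (x (Fin.last n) * b')) := by
    have h3 : ((-1 : ℤ) ^ (n + 1)) • (((-1 : ℤ) ^ (n + 1)) • (f x * b')) = f x * b' := by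
      rw [smul_smul, hs, one_smul]
    rw [← h3]
    have h4 : ((-1 : ℤ) ^ (n + 1)) • (f x * b') =
        x 0 * f (Fin.snoc (fun i : Fin n => x i.succ) b')
        + (∑ j : Fin n, ((-1 : ℤ) ^ (j.val + 1)) • f (Fin.snoc (mergeArgs j x) b'))
        + ((-1 : ℤ) ^ (n + 1)) •
          f (Fin.snoc (fun i : Fin n => x i.castSucc) (x (Fin.last n) * b')) :=
      (sub_eq_zero.1 h.symm).symm
    rw [h4, smul_add, smul_add, smul_smul, hs, one_smul]
  unfold hochschildDiff
  rw [← mul_assoc, h2, smul_add, smul_add, smul_smul, hs, one_smul, add_mul, add_mul,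
    smul_mul_assoc, smul_mul_assoc, Finset.sum_mul]
  simp only [smul_mul_assoc, ← mul_assoc]
  abel

end Alg

end Crest.Agent.R121
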