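import Crest.Agent.R121.B7
import Crest.Agent.R121.C1
import Crest.Agent.R121.W

/-!
# Row 121, PART B, piece B8: the theorem

`partB`: `exists_of_local` (`R121/W.lean`).  Given `S` and `ε`, enumerate `S` (`s = (a_s, ξ_s, η_s)`), `x_s = (a_s castSucc)`,
`y_s = a_s last`, `φ_s = lastMap M f x_s` (`LastCB.lastB`), `η'_s = (f a_s)⋆ η_s`; `locF` with `ε/2`; `g = (-1)^{n+1} gcol f F c`,
`gcol f F c x = ∑_{i ∈ F} f (snoc x c_i⋆) * c_i`.  By `diff_last` (`R121/C1.lean`), summed over `F`,
`f a * ∑ c_i⋆c_i - (-1)^{n+1} hochschildDiff (gcol) a = ∑ f(snoc x (y c_i⋆)) c_i - (∑ f(snoc x c_i⋆) c_i) y`.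
`‖gcol x‖ ≤ C ∏ ‖x_l‖` from `LastB.row`.
-/

set_option autoImplicit false

namespace Crest.Agent.R121

open Crest.Agent.R124.J
open scoped InnerProductSpace ComplexConjugate

universe u v w
variable {H : Type u} [NormedAddCommGroup H] [InnerProductSpace ℂ H] [CompleteSpace H]
variable {M : VonNeumannAlgebra H}

/-- `x ↦ ∑_{i ∈ F} f (x, c_i⋆) c_i` -/
noncomputable def gcol {n : ℕ}
    (f : ContinuousMultilinearMap ℂ (fun _ : Fin (n + 1) => M.toStarSubalgebra) M.toStarSubalgebra)
    {ι : Type w} (F : Finset ι) (c : ι → M.toStarSubalgebra) :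
    MultilinearMap ℂ (fun _ : Fin n => M.toStarSubalgebra) M.toStarSubalgebra where
  toFun x := ∑ i ∈ F, f (Fin.snoc x (star (c i))) * c i
  map_update_add' := by
    intro inst m i x y
    have hi : inst = instDecidableEqFin n := Subsingleton.elim _ _
    subst hi
    rw [← Finset.sum_add_distrib]
    refine Finset.sum_congr rfl fun l _ => ?_
    rw [Fin.snoc_update, Fin.snoc_update, Fin.snoc_update, f.map_update_add, add_mul]
  map_update_smul' := by
    intro inst m i r x
    have hi : inst = instDecidableEqFin n := Subsingleton.elim _ _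
    subst hi
    rw [Finset.smul_sum]
    refine Finset.sum_congr rfl fun l _ => ?_
    rw [Fin.snoc_update, Fin.snoc_update, f.map_update_smul, smul_mul_assoc]

theorem gcol_apply {n : ℕ}
    (f : ContinuousMultilinearMap ℂ (fun _ : Fin (n + 1) => M.toStarSubalgebra) M.toStarSubalgebra)
    {ι : Type w} (F : Finset ι) (c : ι → M.toStarSubalgebra) (x : Fin n → M.toStarSubalgebra) :
    gcol f F c x = ∑ i ∈ F, f (Fin.snoc x (star (c i))) * c i := rfl

theorem gcol_diff {n : ℕ}
    (f : ContinuousMultilinearMap ℂ (fun _ : Fin (n + 1) => M.toStarSubalgebra) M.toStarSubalgebra)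
    (hf : ∀ a : Fin (n + 2) → M.toStarSubalgebra, Crest.OpAlg.hochschildDiff f a = 0)
    {ι : Type w} (F : Finset ι) (c : ι → M.toStarSubalgebra)
    (a : Fin (n + 1) → M.toStarSubalgebra) :
    f a * (∑ i ∈ F, star (c i) * c i) -
        ((-1 : ℤ) ^ (n + 1)) • Crest.OpAlg.hochschildDiff (gcol f F c) a =
      (∑ i ∈ F, f (Fin.snoc (fun l : Fin n => a l.castSucc) (a (Fin.last n) * star (c i))) * c i) -
        (∑ i ∈ F, f (Fin.snoc (fun l : Fin n => a l.castSucc) (star (c i))) * c i) *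
          a (Fin.last n) := by
  have h1 : Crest.OpAlg.hochschildDiff (gcol f F c) a =
      ∑ i ∈ F, Crest.OpAlg.hochschildDiff
        (fun y : Fin n → M.toStarSubalgebra => f (Fin.snoc y (star (c i))) * c i) a := by
    unfold Crest.OpAlg.hochschildDiff
    simp only [gcol_apply]
    rw [Finset.sum_add_distrib, Finset.sum_add_distrib, Finset.mul_sum, Finset.sum_mul,
      Finset.smul_sum]
    simp only [Finset.smul_sum]
    rw [Finset.sum_comm]
  rw [h1, Finset.smul_sum, Finset.mul_sum, Finset.sum_mul, ← Finset.sum_sub_distrib,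
    ← Finset.sum_sub_distrib]
  exact Finset.sum_congr rfl fun i _ => diff_last f hf (star (c i)) (c i) a

theorem gcol_norm {n : ℕ}
    (f : ContinuousMultilinearMap ℂ (fun _ : Fin (n + 1) => M.toStarSubalgebra) M.toStarSubalgebra)
    {C : ℝ} (hC : 0 ≤ C) (hcb : LastCB M C f) {ι : Type w} (F : Finset ι) (c : ι → NA M)
    (hc : ∀ z : H, ∑ i ∈ F, ‖NA.val (c i) z‖ ^ 2 ≤ ‖z‖ ^ 2) (x : Fin n → M.toStarSubalgebra) :
    ‖gcol f F c x‖ ≤ C * ∏ l, ‖x l‖ := by
  have hP : 0 ≤ C * ∏ l, ‖x l‖ := mul_nonneg hC (Finset.prod_nonneg fun l _ => norm_nonneg _)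
  have hn : ‖gcol f F c x‖ = ‖NA.val (N := M) (gcol f F c x)‖ := rfl
  rw [hn]
  refine ContinuousLinearMap.opNorm_le_bound _ hP fun z => ?_
  have h := LastB.row (LastCB.lastB hcb x) F c hc z
  have e : NA.val (gcol f F c x) z =
      ∑ i ∈ F, valL (lastMap M f x) (star (c i)) (NA.val (c i) z) := by
    have e1 : (gcol f F c x : NA M) = ∑ i ∈ F, lastMap M f x (star (c i)) * c i := rfl
    rw [e1, map_sum, _root_.sum_apply]
    refine Finset.sum_congr rfl fun i _ => ?_
    rw [map_mul]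
    rfl
  rw [e]
  refine le_of_sq_le_sq ?_ (mul_nonneg hP (norm_nonneg _))
  rw [mul_pow]
  exact h

theorem b8b_diff_smul {A : Type*} [Ring A] {n : ℕ} (z : ℤ) (g : (Fin n → A) → A)
    (a : Fin (n + 1) → A) :
    Crest.OpAlg.hochschildDiff (fun x => z • g x) a = z • Crest.OpAlg.hochschildDiff g a := by
  unfold Crest.OpAlg.hochschildDiff
  simp only [smul_add, Finset.smul_sum, mul_smul_comm, smul_mul_assoc]
  congr 1
  · congr 1
    refine Finset.sum_congr rfl fun j _ => ?_
    rw [smul_comm]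
  · rw [smul_comm]

theorem b8b_norm_smul {E : Type*} [SeminormedAddCommGroup E] (n : ℕ) (v : E) :
    ‖((-1 : ℤ) ^ n) • v‖ = ‖v‖ := by
  rcases neg_one_pow_eq_or ℤ n with h | h
  · rw [h, one_smul]
  · rw [h, neg_smul, one_smul, norm_neg]

theorem b8b_sum_val {ι : Type w} (F : Finset ι) (g : ι → M.toStarSubalgebra) (ξ : H) :
    ((∑ i ∈ F, g i : M.toStarSubalgebra) : H →L[ℂ] H) ξ = ∑ i ∈ F, ((g i : H →L[ℂ] H) ξ) := by
  rw [AddSubmonoidClass.coe_finsetSum, ContinuousLinearMap.sum_apply]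

/-- **PART B**: a cocycle which is completely bounded in the last variable is a coboundary -/
theorem partB (M : VonNeumannAlgebra H) {n : ℕ}
    (f : ContinuousMultilinearMap ℂ (fun _ : Fin (n + 1) => M.toStarSubalgebra) M.toStarSubalgebra)
    (hf : ∀ a : Fin (n + 2) → M.toStarSubalgebra, Crest.OpAlg.hochschildDiff f a = 0)
    {C : ℝ} (hC : 0 ≤ C) (hcb : LastCB M C f) :
    ∃ g : ContinuousMultilinearMap ℂ (fun _ : Fin n => M.toStarSubalgebra) M.toStarSubalgebra,
      ‖g‖ ≤ C ∧ ∀ a, Crest.OpAlg.hochschildDiff g a = f a := by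
  classical
  refine exists_of_local M f hC ?_
  intro S ε hε
  obtain ⟨ι, c, F, h1, h2, h3⟩ := locF (M := M)
    (fun s : Fin S.card => lastMap M f (fun l : Fin n => (S.equivFin.symm s).1.1 l.castSucc))
    (fun s => C * ∏ l : Fin n, ‖(S.equivFin.symm s).1.1 l.castSucc‖)
    (fun s => hcb.lastB _)
    (fun s => ((S.equivFin.symm s).1.1 (Fin.last n) : M.toStarSubalgebra))
    (fun s => (S.equivFin.symm s).1.2.1) (fun s => (S.equivFin.symm s).1.2.2)
    (fun s => NA.val (star (show NA M from f (S.equivFin.symm s).1.1)) (S.equivFin.symm s).1.2.2)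
    (half_pos hε)
  refine ⟨((-1 : ℤ) ^ (n + 1)) • gcol f F c, ?_, ?_⟩
  · intro x
    have := gcol_norm f hC hcb F c h1 x
    have h4 : (((-1 : ℤ) ^ (n + 1)) • gcol f F c) x = ((-1 : ℤ) ^ (n + 1)) • (gcol f F c x) := by
      rfl
    rw [h4, b8b_norm_smul]
    exact this
  · rintro ⟨a, ξ, η⟩ hs
    have h2' := h2 (S.equivFin ⟨(a, ξ, η), hs⟩)
    have h3' := h3 (S.equivFin ⟨(a, ξ, η), hs⟩)
    simp only [Equiv.symm_apply_apply] at h2' h3'
    have h5 : Crest.OpAlg.hochschildDiff (⇑(((-1 : ℤ) ^ (n + 1)) • gcol f F c)) a =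
        f a * (∑ i ∈ F, star (show M.toStarSubalgebra from c i) * (show M.toStarSubalgebra from c i)) -
        ((∑ i ∈ F, f (Fin.snoc (fun l : Fin n => a l.castSucc) (a (Fin.last n) *
            star (show M.toStarSubalgebra from c i))) * (show M.toStarSubalgebra from c i)) -
        (∑ i ∈ F, f (Fin.snoc (fun l : Fin n => a l.castSucc)
            (star (show M.toStarSubalgebra from c i))) * (show M.toStarSubalgebra from c i)) *
          a (Fin.last n)) := by
      rw [← gcol_diff f hf F c a, sub_sub_cancel]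
      exact b8b_diff_smul _ _ _
    have hadj : ∀ (b : NA M) (z z' : H), ⟪NA.val b z, z'⟫_ℂ = ⟪z, NA.val (star b) z'⟫_ℂ := by
      intro b z z'
      rw [map_star, ContinuousLinearMap.star_eq_adjoint, ContinuousLinearMap.adjoint_inner_right]
    have hadj2 : ∀ (b : NA M) (z z' : H), ⟪NA.val (star b) z, z'⟫_ℂ = ⟪z, NA.val b z'⟫_ℂ := by
      intro b z z'
      rw [map_star, ContinuousLinearMap.star_eq_adjoint, ContinuousLinearMap.adjoint_inner_left]
    show ‖⟪((Crest.OpAlg.hochschildDiff (⇑(((-1 : ℤ) ^ (n + 1)) • gcol f F c)) a :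
      M.toStarSubalgebra) : H →L[ℂ] H) ξ, η⟫_ℂ -
      ⟪((f a : M.toStarSubalgebra) : H →L[ℂ] H) ξ, η⟫_ℂ‖ ≤ ε
    rw [h5]
    have e1 : ⟪((f a * (∑ i ∈ F, star (show M.toStarSubalgebra from c i) *
        (show M.toStarSubalgebra from c i)) : M.toStarSubalgebra) : H →L[ℂ] H) ξ, η⟫_ℂ =
        conj (∑ i ∈ F, ⟪NA.val (c i) (NA.val (star (show NA M from f a)) η),
          NA.val (c i) ξ⟫_ℂ) := by
      have : ((f a * (∑ i ∈ F, star (show M.toStarSubalgebra from c i) *
        (show M.toStarSubalgebra from c i)) : M.toStarSubalgebra) : H →L[ℂ] H) ξ =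
          NA.val (show NA M from f a) (∑ i ∈ F, NA.val (star (c i)) (NA.val (c i) ξ)) := by
        show NA.val (show NA M from f a) (((∑ i ∈ F, star (show M.toStarSubalgebra from c i) *
          (show M.toStarSubalgebra from c i) : M.toStarSubalgebra) : H →L[ℂ] H) ξ) = _
        rw [b8b_sum_val]
        rfl
      rw [this, hadj, sum_inner, map_sum]
      refine Finset.sum_congr rfl fun i _ => ?_
      rw [hadj2, inner_conj_symm]
    have e1' : ⟪((f a : M.toStarSubalgebra) : H →L[ℂ] H) ξ, η⟫_ℂ =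
        conj ⟪NA.val (star (show NA M from f a)) η, ξ⟫_ℂ := by
      rw [inner_conj_symm]
      exact hadj (show NA M from f a) ξ η
    have e2 : ⟪((∑ i ∈ F, f (Fin.snoc (fun l : Fin n => a l.castSucc) (a (Fin.last n) *
            star (show M.toStarSubalgebra from c i))) * (show M.toStarSubalgebra from c i) :
            M.toStarSubalgebra) : H →L[ℂ] H) ξ, η⟫_ℂ =
        conj (∑ i ∈ F, ⟪η, NA.val (lastMap M f (fun l : Fin n => a l.castSucc)
          ((show NA M from a (Fin.last n)) * star (c i))) (NA.val (c i) ξ)⟫_ℂ) := by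
      rw [b8b_sum_val, sum_inner, map_sum]
      refine Finset.sum_congr rfl fun i _ => ?_
      rw [inner_conj_symm]
      rfl
    have e3 : ⟪(((∑ i ∈ F, f (Fin.snoc (fun l : Fin n => a l.castSucc)
            (star (show M.toStarSubalgebra from c i))) * (show M.toStarSubalgebra from c i)) *
          a (Fin.last n) : M.toStarSubalgebra) : H →L[ℂ] H) ξ, η⟫_ℂ =
        conj (∑ i ∈ F, ⟪η, NA.val (lastMap M f (fun l : Fin n => a l.castSucc)
          (star (c i))) (NA.val (c i) (NA.val (show NA M from a (Fin.last n)) ξ))⟫_ℂ) := by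
      show ⟪((∑ i ∈ F, f (Fin.snoc (fun l : Fin n => a l.castSucc)
            (star (show M.toStarSubalgebra from c i))) * (show M.toStarSubalgebra from c i) :
              M.toStarSubalgebra) : H →L[ℂ] H)
          (NA.val (show NA M from a (Fin.last n)) ξ), η⟫_ℂ = _
      rw [b8b_sum_val, sum_inner, map_sum]
      refine Finset.sum_congr rfl fun i _ => ?_
      rw [inner_conj_symm]
      rfl
    have e4 : ∀ (p q r : M.toStarSubalgebra), ⟪((p - (q - r) : M.toStarSubalgebra) :
        H →L[ℂ] H) ξ, η⟫_ℂ = ⟪(p : H →L[ℂ] H) ξ, η⟫_ℂ -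
          (⟪(q : H →L[ℂ] H) ξ, η⟫_ℂ - ⟪(r : H →L[ℂ] H) ξ, η⟫_ℂ) := by
      intro p q r
      rw [← inner_sub_left, ← inner_sub_left]
      rfl
    rw [e4, e1, e2, e3, e1', ← map_sub, sub_right_comm, ← map_sub, ← map_sub, RCLike.norm_conj]
    refine (norm_sub_le _ _).trans ?_
    have := add_le_add h2' h3'
    linarith

end Crest.Agent.R121
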