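import Crest.Agent.R124.JVnDefs

/-!
# Row 121, PART B (idea 545 of helper32): definitions (architect helper38)

`M` von Neumann algebra on `H`, `A = NA M` its elements as a C⋆-algebra, `σ : A → B(K)` a `⋆`-representation.
A column is a family `c : ι → A` (any index type) with `∑ ‖c_i z‖² = ‖z‖²`.
`Vc σ V c = ∑ σ(c_i)⋆ V c_i` (weak sum).
-/

set_option autoImplicit false

namespace Crest.Agent.R121

open Crest.Agent.R124.J
open scoped InnerProductSpace ComplexConjugate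

universe u v w

section
variable {H : Type u} [NormedAddCommGroup H] [InnerProductSpace ℂ H] [CompleteSpace H]
variable {K : Type v} [NormedAddCommGroup K] [InnerProductSpace ℂ K] [CompleteSpace K]
variable {M : VonNeumannAlgebra H}

/-- a column over `M` -/
def IsCol {ι : Type w} (c : ι → NA M) : Prop :=
  ∀ z : H, HasSum (fun i => ‖NA.val (c i) z‖ ^ 2) (‖z‖ ^ 2)

/-- characterisation of `∑ σ(c_i)⋆ V c_i` -/
def IsVc {ι : Type w} (σ : NA M →⋆ₐ[ℂ] (K →L[ℂ] K)) (V : H →L[ℂ] K) (c : ι → NA M)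
    (V' : H →L[ℂ] K) : Prop :=
  ∀ (η : H) (k : K), HasSum (fun i => ⟪σ (c i) k, V (NA.val (c i) η)⟫_ℂ) ⟪k, V' η⟫_ℂ

open Classical in
/-- `∑ σ(c_i)⋆ V c_i` -/
noncomputable def Vc {ι : Type w} (σ : NA M →⋆ₐ[ℂ] (K →L[ℂ] K)) (V : H →L[ℂ] K) (c : ι → NA M) :
    H →L[ℂ] K :=
  if h : ∃ V', IsVc σ V c V' then h.choose else 0

/-- the orbit of `W` under columns -/
def Orb (σ : NA M →⋆ₐ[ℂ] (K →L[ℂ] K)) (W : H →L[ℂ] K) : Set (H →L[ℂ] K) :=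
  {V | ∃ (ι : Type u) (c : ι → NA M), IsCol c ∧ V = Vc σ W c}

/-- `∑_l ∑_i ‖V b_l ξ_i‖²` -/
noncomputable def Nq {ι : Type w} {p : ℕ} (V : H →L[ℂ] K) (ξ : Fin p → H) (b : ι → NA M) : ℝ :=
  ∑' l, ∑ i, ‖V (NA.val (b l) (ξ i))‖ ^ 2

/-- the supremum of `Nq` over all columns (index types in `Type u`) -/
noncomputable def NSup (M : VonNeumannAlgebra H) {p : ℕ} (V : H →L[ℂ] K) (ξ : Fin p → H) : ℝ :=
  sSup {t : ℝ | ∃ (κ : Type u) (b : κ → NA M), IsCol b ∧ t = Nq V ξ b}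

/-- bounded on (contractive) matrices over `M`: the complete bound used in PART B -/
def LastB {H' : Type v} [NormedAddCommGroup H'] [InnerProductSpace ℂ H']
    (φ : NA M →ₗ[ℂ] (H →L[ℂ] H')) (C : ℝ) : Prop :=
  ∀ (p q : ℕ) (y : Fin p → Fin q → NA M),
    (∀ ζ : Fin q → H, ∑ k, ‖∑ j, NA.val (y k j) (ζ j)‖ ^ 2 ≤ ∑ j, ‖ζ j‖ ^ 2) →
    ∀ ξ : Fin q → H, ∑ k, ‖∑ j, φ (y k j) (ξ j)‖ ^ 2 ≤ C ^ 2 * ∑ j, ‖ξ j‖ ^ 2

end

end Crest.Agent.R121
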