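import Crest.Agent.R121.C1

/-! Row 121, module C (helper40), file C2: the homotopy identity for sequences (ℕ-indexed). -/

set_option autoImplicit false

open Crest.OpAlg Finset

namespace Crest.Agent.R121

section Alg

variable {A : Type*} [Ring A]

/-- merge positions `j`, `j+1` of a sequence -/
def mg (j : ℕ) (Y : ℕ → A) : ℕ → A :=
  fun l => if l < j then Y l else if l = j then Y l * Y (l + 1) else Y (l + 1)

theorem mergeArgs_seq {k : ℕ} (j : Fin k) (Y : ℕ → A) :
    mergeArgs j (fun i : Fin (k + 1) => Y i) = fun i : Fin k => mg j Y i := by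
  funext i
  simp [mergeArgs, mg]

theorem diff_seq {k : ℕ} (f : (Fin k → A) → A) (Y : ℕ → A) :
    hochschildDiff f (fun i => Y i) =
      Y 0 * f (fun i => Y (i + 1)) +
        (∑ j ∈ range k, ((-1 : ℤ) ^ (j + 1)) • f (fun i => mg j Y i)) +
        ((-1 : ℤ) ^ (k + 1)) • (f (fun i => Y i) * Y k) := by
  unfold hochschildDiff
  rw [← Fin.sum_univ_eq_sum_range (fun j => ((-1 : ℤ) ^ (j + 1)) • f (fun i => mg j Y i)) k]
  simp only [mergeArgs_seq, Fin.val_zero, Fin.val_succ, Fin.val_castSucc, Fin.val_last]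

/-- the arguments of the `j`-th term of the homotopy -/
def yy (b b' X : ℕ → A) (j : ℕ) : ℕ → A :=
  fun i => if i < j then b i * X i * b' (i + 1) else if i = j then b j else X (i - 1)

/-- the homotopy (`X` has `k - 1` arguments, `f` has `k`) -/
def hh {k : ℕ} (f : (Fin k → A) → A) (b b' X : ℕ → A) : A :=
  ∑ j ∈ range k, ((-1 : ℤ) ^ j) • (b' 0 * f (fun i => yy b b' X j i))

/-- the twisted cochain -/
def pp {k : ℕ} (f : (Fin k → A) → A) (b b' X : ℕ → A) : A :=
  b' 0 * f (fun i => b i * X i * b' (i + 1)) * b k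

/-- skip the index `m` -/
def skip (m : ℕ) : ℕ → ℕ := fun i => if i < m then i else i + 1

theorem hh_congr {k : ℕ} (hk : 0 < k) (f : (Fin k → A) → A) {b b' c c' X X' : ℕ → A}
    (hb : ∀ i < k, b i = c i) (hb' : ∀ i < k, b' i = c' i) (hX : ∀ i, i + 1 < k → X i = X' i) :
    hh f b b' X = hh f c c' X' := by
  unfold hh
  refine Finset.sum_congr rfl fun j hj => ?_
  rw [mem_range] at hj
  rw [hb' 0 hk]
  congr 3
  funext i
  have hi := i.isLt
  unfold yy
  split_ifs with h1 h2
  · rw [hb i hi, hb' (i + 1) (by omega), hX i (by omega)]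
  · exact hb j hj
  · exact hX _ (by omega)

/-- abstract reindexing of the double sum -/
theorem double_sum {B : Type*} [AddCommGroup B] (n : ℕ) (t : ℕ → ℕ → B)
    (ht : ∀ i < n + 1, t i i + t (i + 1) i = 0) :
    ∑ j ∈ range (n + 2), ∑ i ∈ range (n + 1), t j i =
      ∑ i ∈ range n, ∑ j ∈ range (n + 1), (if j ≤ i then t j (i + 1) else t (j + 1) i) := by
  rw [Finset.sum_comm]
  have h1 : ∀ i ∈ range (n + 1), ∑ j ∈ range (n + 2), t j i =
      (∑ j ∈ range i, t j i) + ∑ j ∈ Ico (i + 1) (n + 1), t (j + 1) i := by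
    intro i hi
    rw [mem_range] at hi
    rw [range_eq_Ico, ← sum_Ico_consecutive (fun j => t j i) (Nat.zero_le i)
      (show i ≤ n + 2 by omega), sum_eq_sum_Ico_succ_bot (show i < n + 2 by omega),
      sum_eq_sum_Ico_succ_bot (show i + 1 < n + 2 by omega), ← range_eq_Ico,
      ← add_assoc (t i i), ht i hi, zero_add,
      ← sum_Ico_add' (fun j => t j i) (i + 1) (n + 1) 1]
  rw [Finset.sum_congr rfl h1, Finset.sum_add_distrib, Finset.sum_range_succ' _ n,
    Finset.sum_range_succ (fun i => ∑ j ∈ Ico (i + 1) (n + 1), t (j + 1) i) n]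
  simp only [range_zero, sum_empty, add_zero, Ico_self]
  rw [← Finset.sum_add_distrib]
  refine Finset.sum_congr rfl fun i hi => ?_
  rw [mem_range] at hi
  rw [range_eq_Ico, range_eq_Ico, ← sum_Ico_consecutive _ (Nat.zero_le (i + 1))
    (show i + 1 ≤ n + 1 by omega)]
  congr 1
  · refine Finset.sum_congr rfl fun j hj => ?_
    rw [mem_Ico] at hj
    rw [if_pos (by omega)]
  · refine Finset.sum_congr rfl fun j hj => ?_
    rw [mem_Ico] at hj
    rw [if_neg (by omega)]

/-- the diagonal merges agree -/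
theorem mg_yy_diag (b b' X : ℕ → A) (hb : ∀ i, b' i * b i = 1) (i : ℕ) :
    mg i (yy b b' X i) = mg i (yy b b' X (i + 1)) := by
  funext l
  unfold mg yy
  rcases lt_trichotomy l i with h | h | h
  · simp only [h, if_true, show l < i + 1 by omega]
  · subst h
    simp only [lt_irrefl, if_false, if_true, lt_add_one, Nat.add_sub_cancel,
      show ¬ (l + 1 < l) by omega, show ¬ (l + 1 = l) by omega]
    rw [mul_assoc, hb, mul_one]
  · simp only [show ¬ (l < i) by omega, show ¬ (l = i) by omega, show ¬ (l + 1 < i) by omega,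
      show ¬ (l + 1 = i) by omega, show ¬ (l + 1 < i + 1) by omega,
      show ¬ (l + 1 = i + 1) by omega, if_false]

theorem mg_yy_gt (b b' X : ℕ → A) {i j : ℕ} (hij : j ≤ i) :
    mg (i + 1) (yy b b' X j) =
      yy (b ∘ skip (i + 1)) (b' ∘ skip (i + 1)) (mg i X) j := by
  funext l
  unfold mg yy skip
  simp only [Function.comp]
  rcases lt_trichotomy l j with h | h | h
  · simp only [h, if_true, show l < i + 1 by omega, show l < i by omega,
      show l + 1 < i + 1 by omega]
  · subst h
    simp only [lt_irrefl, if_false, if_true, show l < i + 1 by omega]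
  · rcases lt_trichotomy l (i + 1) with h' | h' | h'
    · simp only [h', if_true, show ¬ (l < j) by omega, show ¬ (l = j) by omega, if_false,
        show l - 1 < i by omega]
    · subst h'
      simp only [lt_irrefl, if_false, if_true, show ¬ (i + 1 < j) by omega,
        show ¬ (i + 1 = j) by omega, show ¬ (i + 1 + 1 < j) by omega,
        show ¬ (i + 1 + 1 = j) by omega, Nat.add_sub_cancel]
    · have e1 : l + 1 - 1 = l - 1 + 1 := by omega
      simp only [show ¬ (l < i + 1) by omega, show ¬ (l = i + 1) by omega, if_false,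
        show ¬ (l + 1 < j) by omega, show ¬ (l + 1 = j) by omega, show ¬ (l < j) by omega,
        show ¬ (l = j) by omega, show ¬ (l - 1 < i) by omega, show ¬ (l - 1 = i) by omega, e1]

theorem mg_yy_lt (b b' X : ℕ → A) (hb : ∀ i, b' i * b i = 1) {i j : ℕ} (hij : i < j) :
    mg i (yy b b' X (j + 1)) =
      yy (b ∘ skip (i + 1)) (b' ∘ skip (i + 1)) (mg i X) j := by
  funext l
  unfold mg yy skip
  simp only [Function.comp]
  rcases lt_trichotomy l i with h | h | h
  · simp only [h, if_true, show l < j + 1 by omega, show l < j by omega, show l < i + 1 by omega,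
      show l + 1 < i + 1 by omega]
  · subst h
    simp only [lt_irrefl, if_false, if_true, show l < j + 1 by omega, show l + 1 < j + 1 by omega,
      hij, show l < l + 1 by omega]
    calc b l * X l * b' (l + 1) * (b (l + 1) * X (l + 1) * b' (l + 1 + 1))
        = b l * X l * (b' (l + 1) * b (l + 1)) * X (l + 1) * b' (l + 1 + 1) := by
          simp only [mul_assoc]
      _ = _ := by rw [hb, mul_one]; simp only [mul_assoc]
  · simp only [show ¬ (l < i) by omega, show ¬ (l = i) by omega, if_false,
      show ¬ (l < i + 1) by omega, show ¬ (l + 1 < i + 1) by omega]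
    rcases lt_trichotomy l j with h' | h' | h'
    · simp only [h', show l + 1 < j + 1 by omega, if_true]
    · subst h'
      simp only [lt_irrefl, if_false, if_true, show ¬ (l < i + 1) by omega]
    · have e1 : l - 1 + 1 = l := by omega
      have e2 : ¬ (l - 1 < i) := by omega
      have e3 : ¬ (l - 1 = i) := by omega
      simp only [show ¬ (l + 1 < j + 1) by omega, show ¬ (l + 1 = j + 1) by omega,
        show ¬ (l < j) by omega, show ¬ (l = j) by omega, if_false, e2, e3, e1,
        Nat.add_sub_cancel]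

/-- **homotopy identity**, one sequence -/
theorem homotopy_seq {n : ℕ} (f : (Fin (n + 1) → A) → A)
    (hf : ∀ a : Fin (n + 2) → A, hochschildDiff f a = 0) (b b' X : ℕ → A)
    (hb : ∀ i, b' i * b i = 1) :
    f (fun i => X i) - pp f b b' X =
      X 0 * hh f (fun i => b (i + 1)) (fun i => b' (i + 1)) (fun i => X (i + 1)) +
      (∑ i ∈ range n, ((-1 : ℤ) ^ (i + 1)) •
        hh f (b ∘ skip (i + 1)) (b' ∘ skip (i + 1)) (mg i X)) +
      ((-1 : ℤ) ^ (n + 1)) • (hh f b b' X * X n) := by
  have key : ∑ j ∈ range (n + 2), ((-1 : ℤ) ^ j) •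
      (b' 0 * hochschildDiff f (fun i => yy b b' X j i)) = 0 := by
    refine Finset.sum_eq_zero fun j _ => ?_
    rw [hf, mul_zero, smul_zero]
  simp only [diff_seq, mul_add, smul_add, Finset.sum_add_distrib, Finset.mul_sum,
    Finset.smul_sum] at key
  -- first terms
  have h1 : ∑ j ∈ range (n + 2), ((-1 : ℤ) ^ j) •
      (b' 0 * (yy b b' X j 0 * f (fun i : Fin (n + 1) => yy b b' X j (i + 1)))) =
      f (fun i => X i) -
        X 0 * hh f (fun i => b (i + 1)) (fun i => b' (i + 1)) (fun i => X (i + 1)) := by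
    rw [Finset.sum_range_succ']
    have e0 : ((-1 : ℤ) ^ 0) • (b' 0 * (yy b b' X 0 0 *
        f (fun i : Fin (n + 1) => yy b b' X 0 (i + 1)))) = f (fun i => X i) := by
      have : (fun i : Fin (n + 1) => yy b b' X 0 (i + 1)) = fun i : Fin (n + 1) => X i := by
        funext i; simp [yy]
      rw [this, ← mul_assoc]
      simp [yy, hb]
    rw [e0]
    unfold hh
    rw [Finset.mul_sum, add_comm, sub_eq_add_neg, ← Finset.sum_neg_distrib]
    congr 1
    refine Finset.sum_congr rfl fun j _ => ?_
    have e1 : (fun i : Fin (n + 1) => yy b b' X (j + 1) (i + 1)) =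
        fun i : Fin (n + 1) => yy (fun i => b (i + 1)) (fun i => b' (i + 1))
          (fun i => X (i + 1)) j i := by
      funext i
      unfold yy
      rcases lt_trichotomy (i : ℕ) j with h | h | h
      · simp only [h, if_true, show (i : ℕ) + 1 < j + 1 by omega]
      · subst h; simp
      · have e : (i : ℕ) - 1 + 1 = i := by omega
        simp only [show ¬ ((i : ℕ) + 1 < j + 1) by omega, show ¬ ((i : ℕ) + 1 = j + 1) by omega,
          show ¬ ((i : ℕ) < j) by omega, show ¬ ((i : ℕ) = j) by omega, if_false, e,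
          Nat.add_sub_cancel]
    have e2 : yy b b' X (j + 1) 0 = b 0 * X 0 * b' 1 := by simp [yy]
    rw [e1, e2, pow_succ, mul_neg_one, neg_smul, mul_smul_comm]
    have e3 : ∀ z : A, b' 0 * (b 0 * X 0 * b' 1 * z) = X 0 * (b' (0 + 1) * z) := by
      intro z
      calc b' 0 * (b 0 * X 0 * b' 1 * z) = (b' 0 * b 0) * (X 0 * (b' 1 * z)) := by
            simp only [mul_assoc]
        _ = _ := by rw [hb, one_mul]
    rw [e3]
  -- last terms
  have h3 : ∑ j ∈ range (n + 2), ((-1 : ℤ) ^ j) •
      (b' 0 * (((-1 : ℤ) ^ (n + 1 + 1)) • (f (fun i : Fin (n + 1) => yy b b' X j i) *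
        yy b b' X j (n + 1)))) =
      - pp f b b' X - ((-1 : ℤ) ^ (n + 1)) • (hh f b b' X * X n) := by
    rw [Finset.sum_range_succ]
    have e0 : ((-1 : ℤ) ^ (n + 1)) • (b' 0 * (((-1 : ℤ) ^ (n + 1 + 1)) •
        (f (fun i : Fin (n + 1) => yy b b' X (n + 1) i) * yy b b' X (n + 1) (n + 1)))) =
        - pp f b b' X := by
      have e1 : (fun i : Fin (n + 1) => yy b b' X (n + 1) i) =
          fun i : Fin (n + 1) => b i * X i * b' (i + 1) := by
        funext i
        simp only [yy, i.isLt, if_true]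
      have e2 : yy b b' X (n + 1) (n + 1) = b (n + 1) := by simp [yy]
      rw [e1, e2]
      unfold pp
      rw [mul_smul_comm, smul_smul, pow_succ (-1 : ℤ) (n + 1), ← mul_assoc, ← mul_pow]
      norm_num
      rw [mul_assoc]
    rw [e0, add_comm, sub_eq_add_neg]
    congr 1
    unfold hh
    rw [Finset.sum_mul, Finset.smul_sum, ← Finset.sum_neg_distrib]
    refine Finset.sum_congr rfl fun j hj => ?_
    rw [mem_range] at hj
    have e2 : yy b b' X j (n + 1) = X n := by
      simp only [yy, show ¬ (n + 1 < j) by omega, show ¬ (n + 1 = j) by omega, if_false,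
        Nat.add_sub_cancel]
    rw [e2, mul_smul_comm, smul_smul, smul_mul_assoc, smul_smul, ← neg_smul, mul_assoc]
    congr 1
    rw [pow_succ (-1 : ℤ) (n + 1)]; ring
  -- merges
  have h2 : ∑ j ∈ range (n + 2), ∑ i ∈ range (n + 1), ((-1 : ℤ) ^ j) •
      (b' 0 * (((-1 : ℤ) ^ (i + 1)) • f (fun l : Fin (n + 1) => mg i (yy b b' X j) l))) =
      - ∑ i ∈ range n, ((-1 : ℤ) ^ (i + 1)) •
        hh f (b ∘ skip (i + 1)) (b' ∘ skip (i + 1)) (mg i X) := by
    rw [double_sum]
    · rw [← Finset.sum_neg_distrib]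
      refine Finset.sum_congr rfl fun i _ => ?_
      unfold hh
      rw [Finset.smul_sum, ← Finset.sum_neg_distrib]
      refine Finset.sum_congr rfl fun j _ => ?_
      have e0 : (b' ∘ skip (i + 1)) 0 = b' 0 := by simp [skip]
      rw [e0]
      by_cases hij : j ≤ i
      · rw [if_pos hij]
        simp only [mg_yy_gt b b' X hij]
        rw [mul_smul_comm, smul_smul, smul_smul, ← neg_smul]
        congr 1
        rw [pow_succ (-1 : ℤ) (i + 1)]; ring
      · rw [if_neg hij]
        simp only [mg_yy_lt b b' X hb (show i < j by omega)]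
        rw [mul_smul_comm, smul_smul, smul_smul, ← neg_smul]
        congr 1
        rw [pow_succ (-1 : ℤ) j]; ring
    · intro i _
      rw [mg_yy_diag b b' X hb i, ← add_smul]
      have e : (-1 : ℤ) ^ i + (-1 : ℤ) ^ (i + 1) = 0 := by ring
      rw [e, zero_smul]
  rw [h1, h3, h2] at key
  have := key
  rw [← sub_eq_zero, ← this]
  abel

end Alg

end Crest.Agent.R121
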