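import Crest.Agent.R121.C2

/-! Row 121, module C (helper40), file C3: the averaged homotopy lemma (all degrees). -/

set_option autoImplicit false
set_option linter.unusedSectionVars false
set_option linter.deprecated false
set_option linter.unusedTactic false

open Crest.OpAlg Finset

namespace Crest.Agent.R121

section Ext

variable {ι : Type*}

/-- extension of a finite sequence -/
def ex {m : ℕ} (σ : Fin (m + 1) → ι) : ℕ → ι := fun i => σ ⟨min i m, by omega⟩

theorem ex_skip {m : ℕ} (p : Fin (m + 2)) (σ : Fin (m + 2) → ι) (i : ℕ) (hi : i < m + 1) :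
    ex σ (skip p i) = ex (p.removeNth σ) i := by
  unfold ex skip
  rw [Fin.removeNth_apply]
  congr 1
  have hm : min i m = i := by omega
  ext
  by_cases h : i < (p : ℕ)
  · simp only [h, if_true]
    rw [Fin.succAbove_of_castSucc_lt]
    · simp only [Fin.castSucc_mk]; omega
    · rw [Fin.lt_def]; simp only [Fin.castSucc_mk]; omega
  · simp only [h, if_false]
    rw [Fin.succAbove_of_le_castSucc]
    · simp only [Fin.succ_mk]; omega
    · rw [Fin.le_def]; simp only [Fin.castSucc_mk]; omega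

theorem sum_removeNth {B : Type*} [AddCommMonoid B] [Fintype ι] {m : ℕ} (p : Fin (m + 1))
    (F : (Fin m → ι) → B) :
    ∑ σ : Fin (m + 1) → ι, F (p.removeNth σ) = Fintype.card ι • ∑ τ : Fin m → ι, F τ := by
  rw [← (Fin.insertNthEquiv (fun _ => ι) p).sum_comp, Fintype.sum_prod_type]
  have : ∀ (i : ι) (τ : Fin m → ι),
      F (p.removeNth ((Fin.insertNthEquiv (fun _ => ι) p) (i, τ))) = F τ := by
    intro i τ
    congr 1
    exact Fin.removeNth_insertNth _ _ _
  simp only [this, sum_const, card_univ]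

end Ext

section Avg

variable {A : Type*} [NormedRing A] [NormedAlgebra ℂ A] {ι : Type*} [Fintype ι] [Nonempty ι]

/-- uniform average over `Fin m → ι` -/
noncomputable def av {B : Type*} [AddCommGroup B] [Module ℂ B] {m : ℕ} (F : (Fin m → ι) → B) : B :=
  ((Fintype.card ι : ℂ) ^ m)⁻¹ • ∑ τ : Fin m → ι, F τ

theorem card_ne : (Fintype.card ι : ℂ) ≠ 0 := by
  exact_mod_cast Fintype.card_ne_zero

theorem av_remove {B : Type*} [AddCommGroup B] [Module ℂ B] {m : ℕ} (p : Fin (m + 1))
    (F : (Fin m → ι) → B) : av (fun σ : Fin (m + 1) → ι => F (p.removeNth σ)) = av F := by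
  unfold av
  rw [sum_removeNth, ← Nat.cast_smul_eq_nsmul ℂ, smul_smul]
  congr 1
  have := card_ne (ι := ι)
  rw [pow_succ, mul_inv, mul_assoc, inv_mul_cancel₀ this, mul_one]

theorem av_const {B : Type*} [AddCommGroup B] [Module ℂ B] {m : ℕ} (c : B) :
    av (fun _ : Fin m → ι => c) = c := by
  unfold av
  rw [sum_const, card_univ, Fintype.card_fun, Fintype.card_fin, ← Nat.cast_smul_eq_nsmul ℂ,
    smul_smul]
  push_cast
  rw [inv_mul_cancel₀ (pow_ne_zero _ card_ne), one_smul]

theorem av_add {B : Type*} [AddCommGroup B] [Module ℂ B] {m : ℕ} (F G : (Fin m → ι) → B) :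
    av (fun τ => F τ + G τ) = av F + av G := by
  unfold av; rw [sum_add_distrib, smul_add]

theorem av_sub {B : Type*} [AddCommGroup B] [Module ℂ B] {m : ℕ} (F G : (Fin m → ι) → B) :
    av (fun τ => F τ - G τ) = av F - av G := by
  unfold av; rw [sum_sub_distrib, smul_sub]

theorem av_sum {B : Type*} [AddCommGroup B] [Module ℂ B] {m : ℕ} {κ : Type*} (s : Finset κ)
    (F : κ → (Fin m → ι) → B) :
    av (fun τ => ∑ k ∈ s, F k τ) = ∑ k ∈ s, av (F k) := by
  unfold av; rw [sum_comm, smul_sum]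

theorem av_zsmul {B : Type*} [AddCommGroup B] [Module ℂ B] {m : ℕ} (c : ℤ)
    (F : (Fin m → ι) → B) : av (fun τ => c • F τ) = c • av F := by
  unfold av; rw [← smul_sum, smul_comm]

theorem av_mul_left {m : ℕ} (c : A) (F : (Fin m → ι) → A) :
    av (fun τ => c * F τ) = c * av F := by
  unfold av; rw [← mul_sum, mul_smul_comm]

theorem av_mul_right {m : ℕ} (c : A) (F : (Fin m → ι) → A) :
    av (fun τ => F τ * c) = av F * c := by
  unfold av; rw [← sum_mul, smul_mul_assoc]

theorem norm_av_le {B : Type*} [NormedAddCommGroup B] [NormedSpace ℂ B] {m : ℕ}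
    (F : (Fin m → ι) → B) {C : ℝ} (hF : ∀ τ, ‖F τ‖ ≤ C) : ‖av F‖ ≤ C := by
  unfold av
  rw [norm_smul]
  have h1 : ‖∑ τ : Fin m → ι, F τ‖ ≤ (Fintype.card ι : ℝ) ^ m * C := by
    refine (norm_sum_le_of_le _ fun τ _ => hF τ).trans (le_of_eq ?_)
    rw [sum_const, card_univ, Fintype.card_fun, Fintype.card_fin, nsmul_eq_mul]
    push_cast; rfl
  have h2 : (0 : ℝ) < (Fintype.card ι : ℝ) ^ m := by
    have : 0 < (Fintype.card ι : ℝ) := by exact_mod_cast Fintype.card_pos
    positivity
  have h3 : ‖((Fintype.card ι : ℂ) ^ m)⁻¹‖ = ((Fintype.card ι : ℝ) ^ m)⁻¹ := by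
    rw [norm_inv, norm_pow, Complex.norm_natCast]
  rw [h3]
  calc ((Fintype.card ι : ℝ) ^ m)⁻¹ * ‖∑ τ : Fin m → ι, F τ‖
      ≤ ((Fintype.card ι : ℝ) ^ m)⁻¹ * ((Fintype.card ι : ℝ) ^ m * C) :=
        mul_le_mul_of_nonneg_left h1 (inv_nonneg.2 h2.le)
    _ = C := by rw [← mul_assoc, inv_mul_cancel₀ h2.ne', one_mul]

/-- one term of the homotopy, as a multilinear map -/
noncomputable def hterm {n : ℕ} (f : MultilinearMap ℂ (fun _ : Fin (n + 1) => A) A)
    (b b' : ι → A) (τ : Fin (n + 1) → ι) (j : Fin (n + 1)) :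
    MultilinearMap ℂ (fun _ : Fin n => A) A :=
  (LinearMap.mulLeft ℂ (b' (τ 0))).compMultilinearMap
    ((f.curryMid j (b (τ j))).compLinearMap fun i : Fin n =>
      if i.castSucc < j then
        (LinearMap.mulRight ℂ (b' (τ i.succ))).comp (LinearMap.mulLeft ℂ (b (τ i.castSucc)))
      else LinearMap.id)

theorem hterm_apply {n : ℕ} (f : MultilinearMap ℂ (fun _ : Fin (n + 1) => A) A)
    (b b' : ι → A) (τ : Fin (n + 1) → ι) (j : Fin (n + 1)) (Y : ℕ → A) :
    hterm f b b' τ j (fun i : Fin n => Y i) =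
      b' (τ 0) * f (fun i => yy (b ∘ ex τ) (b' ∘ ex τ) Y j i) := by
  unfold hterm
  rw [LinearMap.compMultilinearMap_apply, LinearMap.mulLeft_apply,
    MultilinearMap.compLinearMap_apply, MultilinearMap.curryMid_apply_apply]
  congr 2
  funext i
  refine Fin.succAboveCases j ?_ (fun l => ?_) i
  · rw [Fin.insertNth_apply_same]
    unfold yy
    simp only [lt_irrefl, if_false, if_true, Function.comp, ex]
    congr 2
    ext
    have := j.isLt
    simp only []
    omega
  · rw [Fin.insertNth_apply_succAbove]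
    unfold yy
    have hl := l.isLt
    have hj := j.isLt
    by_cases h : l.castSucc < j
    · rw [if_pos h, Fin.succAbove_of_castSucc_lt j l h]
      rw [Fin.lt_def, Fin.val_castSucc] at h
      simp only [Fin.val_castSucc, h, if_true, LinearMap.comp_apply, LinearMap.mulLeft_apply,
        LinearMap.mulRight_apply, Function.comp, ex]
      congr 3
      · congr 2; ext; simp only [Fin.val_castSucc]; omega
      · congr 1; ext; simp only [Fin.val_succ]; omega
    · have h' : j ≤ l.castSucc := not_lt.1 h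
      rw [if_neg h, Fin.succAbove_of_le_castSucc j l h']
      rw [Fin.le_def, Fin.val_castSucc] at h'
      simp only [Fin.val_succ, show ¬ ((l : ℕ) + 1 < j) by omega,
        show ¬ ((l : ℕ) + 1 = j) by omega, if_false, LinearMap.id_apply, Nat.add_sub_cancel]

/-- the averaged homotopy -/
noncomputable def homot {n : ℕ} (f : MultilinearMap ℂ (fun _ : Fin (n + 1) => A) A)
    (b b' : ι → A) : MultilinearMap ℂ (fun _ : Fin n => A) A :=
  av fun τ : Fin (n + 1) → ι => ∑ j : Fin (n + 1), ((-1 : ℤ) ^ (j : ℕ)) • hterm f b b' τ j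

theorem homot_apply {n : ℕ} (f : MultilinearMap ℂ (fun _ : Fin (n + 1) => A) A)
    (b b' : ι → A) (Y : ℕ → A) :
    homot f b b' (fun i : Fin n => Y i) =
      av fun τ : Fin (n + 1) → ι => hh f (b ∘ ex τ) (b' ∘ ex τ) Y := by
  unfold homot av
  rw [MultilinearMap.smul_apply, MultilinearMap.sum_apply]
  congr 1
  refine Finset.sum_congr rfl fun τ _ => ?_
  rw [MultilinearMap.sum_apply]
  unfold hh
  beta_reduce
  rw [← Fin.sum_univ_eq_sum_range (fun j => ((-1 : ℤ) ^ j) • ((b' ∘ ex τ) 0 *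
    f (fun i => yy (b ∘ ex τ) (b' ∘ ex τ) Y j i)))]
  refine Finset.sum_congr rfl fun j _ => ?_
  rw [MultilinearMap.smul_apply, hterm_apply]
  rfl

theorem norm_hterm_le {n : ℕ} (f : MultilinearMap ℂ (fun _ : Fin (n + 1) => A) A) {C : ℝ}
    (hC0 : 0 ≤ C) (hC : ∀ x, ‖f x‖ ≤ C * ∏ i, ‖x i‖)
    (b b' : ι → A) (hb : ∀ i, ‖b i‖ ≤ 1) (hb' : ∀ i, ‖b' i‖ ≤ 1) (τ : Fin (n + 1) → ι)
    (j : Fin (n + 1)) (x : Fin n → A) :
    ‖hterm f b b' τ j x‖ ≤ C * ∏ i, ‖x i‖ := by
  unfold hterm
  rw [LinearMap.compMultilinearMap_apply, LinearMap.mulLeft_apply,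
    MultilinearMap.compLinearMap_apply, MultilinearMap.curryMid_apply_apply]
  have h1 : ‖f (j.insertNth (b (τ j)) fun i : Fin n =>
      ((if i.castSucc < j then
        (LinearMap.mulRight ℂ (b' (τ i.succ))).comp (LinearMap.mulLeft ℂ (b (τ i.castSucc)))
      else LinearMap.id : A →ₗ[ℂ] A)) (x i))‖ ≤ C * ∏ i, ‖x i‖ := by
    refine (hC _).trans (mul_le_mul_of_nonneg_left ?_ hC0)
    rw [Fin.prod_univ_succAbove _ j, Fin.insertNth_apply_same]
    simp only [Fin.insertNth_apply_succAbove]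
    calc ‖b (τ j)‖ * ∏ i : Fin n, ‖((if i.castSucc < j then
          (LinearMap.mulRight ℂ (b' (τ i.succ))).comp (LinearMap.mulLeft ℂ (b (τ i.castSucc)))
          else LinearMap.id : A →ₗ[ℂ] A)) (x i)‖
        ≤ 1 * ∏ i : Fin n, ‖x i‖ := by
          refine mul_le_mul (hb _) ?_ (Finset.prod_nonneg fun i _ => norm_nonneg _) zero_le_one
          refine Finset.prod_le_prod (fun i _ => norm_nonneg _) fun i _ => ?_
          split_ifs with h
          · rw [LinearMap.comp_apply, LinearMap.mulRight_apply, LinearMap.mulLeft_apply]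
            calc ‖b (τ i.castSucc) * x i * b' (τ i.succ)‖
                ≤ ‖b (τ i.castSucc)‖ * ‖x i‖ * ‖b' (τ i.succ)‖ := norm_mul₃_le
              _ ≤ 1 * ‖x i‖ * 1 := by
                  have := norm_nonneg (x i)
                  exact mul_le_mul (mul_le_mul_of_nonneg_right (hb _) this) (hb' _)
                    (norm_nonneg _) (by linarith)
              _ = ‖x i‖ := by ring
          · rw [LinearMap.id_apply]
      _ = ∏ i : Fin n, ‖x i‖ := one_mul _
  calc ‖b' (τ 0) * f (j.insertNth (b (τ j)) fun i : Fin n =>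
      ((if i.castSucc < j then
        (LinearMap.mulRight ℂ (b' (τ i.succ))).comp (LinearMap.mulLeft ℂ (b (τ i.castSucc)))
      else LinearMap.id : A →ₗ[ℂ] A)) (x i))‖
      ≤ ‖b' (τ 0)‖ * ‖f (j.insertNth (b (τ j)) fun i : Fin n =>
      ((if i.castSucc < j then
        (LinearMap.mulRight ℂ (b' (τ i.succ))).comp (LinearMap.mulLeft ℂ (b (τ i.castSucc)))
      else LinearMap.id : A →ₗ[ℂ] A)) (x i))‖ := norm_mul_le _ _
    _ ≤ 1 * (C * ∏ i, ‖x i‖) := mul_le_mul (hb' _) h1 (norm_nonneg _) zero_le_one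
    _ = C * ∏ i, ‖x i‖ := one_mul _

theorem norm_homot_le {n : ℕ} (f : MultilinearMap ℂ (fun _ : Fin (n + 1) => A) A) {C : ℝ}
    (hC0 : 0 ≤ C) (hC : ∀ x, ‖f x‖ ≤ C * ∏ i, ‖x i‖)
    (b b' : ι → A) (hb : ∀ i, ‖b i‖ ≤ 1) (hb' : ∀ i, ‖b' i‖ ≤ 1) (x : Fin n → A) :
    ‖homot f b b' x‖ ≤ (n + 1) * C * ∏ i, ‖x i‖ := by
  have h0 : homot f b b' x = av fun τ : Fin (n + 1) → ι =>
      ∑ j : Fin (n + 1), ((-1 : ℤ) ^ (j : ℕ)) • hterm f b b' τ j x := by
    unfold homot av
    rw [MultilinearMap.smul_apply, MultilinearMap.sum_apply]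
    congr 1
    refine Finset.sum_congr rfl fun τ _ => ?_
    rw [MultilinearMap.sum_apply]
    rfl
  rw [h0]
  refine norm_av_le _ fun τ => ?_
  calc ‖∑ j : Fin (n + 1), ((-1 : ℤ) ^ (j : ℕ)) • hterm f b b' τ j x‖
      ≤ ∑ j : Fin (n + 1), C * ∏ i, ‖x i‖ := by
        refine norm_sum_le_of_le _ fun j _ => ?_
        have : ‖((-1 : ℤ) ^ (j : ℕ)) • hterm f b b' τ j x‖ = ‖hterm f b b' τ j x‖ := by
          rcases neg_one_pow_eq_or ℤ (j : ℕ) with h | h
          · rw [h, one_smul]
          · rw [h, neg_smul, one_smul, norm_neg]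
        rw [this]
        exact norm_hterm_le f hC0 hC b b' hb hb' τ j x
    _ = (n + 1) * C * ∏ i, ‖x i‖ := by
        rw [sum_const, card_univ, Fintype.card_fin, nsmul_eq_mul]
        push_cast; ring

/-- **averaged homotopy lemma** (all degrees): `f - Pf = d (homot f)` -/
theorem homot_diff {n : ℕ} (f : MultilinearMap ℂ (fun _ : Fin (n + 1) => A) A)
    (hf : ∀ a : Fin (n + 2) → A, hochschildDiff f a = 0) (b b' : ι → A)
    (hb : ∀ i, b' i * b i = 1) (x : Fin (n + 1) → A) :
    f x - hochschildDiff (homot f b b') x =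
      av fun σ : Fin (n + 2) → ι =>
        b' (σ 0) * f (fun l : Fin (n + 1) => b (σ l.castSucc) * x l * b' (σ l.succ)) *
          b (σ (Fin.last (n + 1))) := by
  -- extend `x`
  let X : ℕ → A := fun i => if h : i < n + 1 then x ⟨i, h⟩ else 0
  have hX : x = fun i : Fin (n + 1) => X i := by
    funext i
    simp only [X, i.isLt, dif_pos]
  have hpp : ∀ σ : Fin (n + 2) → ι,
      b' (σ 0) * f (fun l : Fin (n + 1) => b (σ l.castSucc) * x l * b' (σ l.succ)) *
          b (σ (Fin.last (n + 1))) = pp f (b ∘ ex σ) (b' ∘ ex σ) X := by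
    intro σ
    unfold pp
    have e1 : (b' ∘ ex σ) 0 = b' (σ 0) := rfl
    have e2 : (b ∘ ex σ) (n + 1) = b (σ (Fin.last (n + 1))) := by
      simp only [Function.comp, ex, min_self]; rfl
    rw [e1, e2]
    congr 3
    funext l
    have hl := l.isLt
    have h3 : X l = x l := by rw [hX]
    rw [h3]
    simp only [Function.comp, ex]
    congr 3
    · congr 2; ext; simp only [Fin.val_castSucc]; omega
    · congr 1; ext; simp only [Fin.val_succ]; omega
  have hD : hochschildDiff (homot f b b') x =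
      X 0 * (av fun τ : Fin (n + 1) → ι => hh f (b ∘ ex τ) (b' ∘ ex τ) (fun i => X (i + 1))) +
      (∑ i ∈ range n, ((-1 : ℤ) ^ (i + 1)) •
        (av fun τ : Fin (n + 1) → ι => hh f (b ∘ ex τ) (b' ∘ ex τ) (mg i X))) +
      ((-1 : ℤ) ^ (n + 1)) •
        ((av fun τ : Fin (n + 1) → ι => hh f (b ∘ ex τ) (b' ∘ ex τ) X) * X n) := by
    rw [hX, diff_seq]
    simp only [homot_apply]
    rw [homot_apply f b b' (fun i => X (i + 1))]
  have hmain : av (fun σ : Fin (n + 2) → ι => f x - pp f (b ∘ ex σ) (b' ∘ ex σ) X) =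
      hochschildDiff (homot f b b') x := by
    rw [hD]
    have h1 : ∀ σ : Fin (n + 2) → ι, f x - pp f (b ∘ ex σ) (b' ∘ ex σ) X =
        X 0 * hh f (b ∘ ex ((0 : Fin (n + 2)).removeNth σ))
          (b' ∘ ex ((0 : Fin (n + 2)).removeNth σ)) (fun i => X (i + 1)) +
        (∑ i : Fin n, ((-1 : ℤ) ^ ((i : ℕ) + 1)) •
          hh f (b ∘ ex (i.succ.castSucc.removeNth σ))
            (b' ∘ ex (i.succ.castSucc.removeNth σ)) (mg i X)) +
        ((-1 : ℤ) ^ (n + 1)) • (hh f (b ∘ ex ((Fin.last (n + 1)).removeNth σ))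
          (b' ∘ ex ((Fin.last (n + 1)).removeNth σ)) X * X n) := by
      intro σ
      have h2 := homotopy_seq f hf (b ∘ ex σ) (b' ∘ ex σ) X (fun i => hb _)
      rw [← hX] at h2
      rw [h2]
      congr 1
      · congr 1
        · congr 1
          refine hh_congr (by omega) f (fun i hi => ?_) (fun i hi => ?_) (fun i _ => rfl)
          · have := ex_skip (0 : Fin (n + 2)) σ i hi
            simp only [Function.comp, ← this]
            simp [skip]
          · have := ex_skip (0 : Fin (n + 2)) σ i hi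
            simp only [Function.comp, ← this]
            simp [skip]
        · rw [← Fin.sum_univ_eq_sum_range (fun i => ((-1 : ℤ) ^ (i + 1)) •
            hh f ((b ∘ ex σ) ∘ skip (i + 1)) ((b' ∘ ex σ) ∘ skip (i + 1)) (mg i X))]
          refine Finset.sum_congr rfl fun i _ => ?_
          congr 1
          refine hh_congr (by omega) f (fun l hl => ?_) (fun l hl => ?_) (fun l _ => rfl)
          · have := ex_skip (i.succ.castSucc : Fin (n + 2)) σ l hl
            simp only [Function.comp, ← this, Fin.val_castSucc, Fin.val_succ]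
          · have := ex_skip (i.succ.castSucc : Fin (n + 2)) σ l hl
            simp only [Function.comp, ← this, Fin.val_castSucc, Fin.val_succ]
      · congr 2
        refine hh_congr (by omega) f (fun i hi => ?_) (fun i hi => ?_) (fun i _ => rfl)
        · have := ex_skip (Fin.last (n + 1)) σ i hi
          simp only [Function.comp, ← this, Fin.val_last, skip, hi, if_true]
        · have := ex_skip (Fin.last (n + 1)) σ i hi
          simp only [Function.comp, ← this, Fin.val_last, skip, hi, if_true]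
    simp only [h1]
    rw [av_add, av_add]
    congr 1
    · congr 1
      · rw [av_mul_left]
        congr 1
        exact av_remove (0 : Fin (n + 2)) (fun τ : Fin (n + 1) → ι =>
          hh f (b ∘ ex τ) (b' ∘ ex τ) (fun i => X (i + 1)))
      · rw [av_sum, ← Fin.sum_univ_eq_sum_range (fun i => ((-1 : ℤ) ^ (i + 1)) •
          (av fun τ : Fin (n + 1) → ι => hh f (b ∘ ex τ) (b' ∘ ex τ) (mg i X)))]
        refine Finset.sum_congr rfl fun i _ => ?_
        rw [av_zsmul]
        congr 1
        exact av_remove (i.succ.castSucc : Fin (n + 2)) (fun τ : Fin (n + 1) → ι =>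
          hh f (b ∘ ex τ) (b' ∘ ex τ) (mg i X))
    · rw [av_zsmul, av_mul_right]
      congr 2
      exact av_remove (Fin.last (n + 1)) (fun τ : Fin (n + 1) → ι =>
        hh f (b ∘ ex τ) (b' ∘ ex τ) X)
  rw [av_sub, av_const] at hmain
  rw [← hmain, sub_sub_cancel]
  unfold av
  congr 1
  exact Finset.sum_congr rfl fun σ _ => (hpp σ).symm

end Avg

end Crest.Agent.R121
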