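import Crest.Agent.R121.C3
import Crest.Agent.R121.W

/-! Row 121, module C (helper40), file C4: the reduction (0): first-variable averaging. -/

set_option autoImplicit false
set_option linter.unusedSectionVars false
set_option linter.deprecated false

open Crest.OpAlg Finset

namespace Crest.Agent.R121

open scoped InnerProductSpace ComplexConjugate

section Alg

variable {A : Type*} [Ring A]

/-- `F` is a first-variable companion of `f`: the cocycle identity at `(u, x)` holds with `F` in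
the places where `u` is in the first argument. For a cocycle `f` one can take `F = f`. -/
def FirstComp {n : ℕ} (f F : (Fin (n + 1) → A) → A) : Prop :=
  ∀ (u : A) (x : Fin (n + 1) → A),
    u * f x = F (Fin.cons (u * x 0) (fun i => x i.succ))
        + (∑ j : Fin n, ((-1 : ℤ) ^ (j.val + 1)) • F (Fin.cons u (mergeArgs j x)))
        + ((-1 : ℤ) ^ (n + 1)) • (F (Fin.cons u (fun i => x i.castSucc)) * x (Fin.last n))

theorem firstComp_self {n : ℕ} (f : (Fin (n + 1) → A) → A)
    (hf : ∀ a : Fin (n + 2) → A, hochschildDiff f a = 0) : FirstComp f f := by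
  intro u x
  have h := hochschildDiff_cons f u x
  rw [hf] at h
  rw [eq_comm, sub_sub, sub_sub, sub_eq_zero] at h
  rw [h]; abel

theorem diff_first_comp {n : ℕ} {ι : Type*} (s : Finset ι) (f F : (Fin (n + 1) → A) → A)
    (hf : FirstComp f F) (b' b : ι → A)
    (hb : ∑ i ∈ s, b' i * b i = 1) (x : Fin (n + 1) → A) :
    f x - hochschildDiff (fun y : Fin n → A => ∑ i ∈ s, b' i * F (Fin.cons (b i) y)) x =
      (∑ i ∈ s, b' i * F (Fin.cons (b i * x 0) (fun j => x j.succ))) -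
        x 0 * ∑ i ∈ s, b' i * F (Fin.cons (b i) (fun j => x j.succ)) := by
  have h1 : hochschildDiff (fun y : Fin n → A => ∑ i ∈ s, b' i * F (Fin.cons (b i) y)) x =
      ∑ i ∈ s, hochschildDiff (fun y : Fin n → A => b' i * F (Fin.cons (b i) y)) x := by
    unfold hochschildDiff
    rw [Finset.sum_add_distrib, Finset.sum_add_distrib, Finset.mul_sum, Finset.sum_comm,
      Finset.sum_mul, Finset.smul_sum]
    simp only [Finset.smul_sum]
  have h2 : f x = ∑ i ∈ s, b' i * b i * f x := by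
    rw [← Finset.sum_mul, hb, one_mul]
  rw [h1]
  conv_lhs => rw [h2]
  rw [← Finset.sum_sub_distrib, Finset.mul_sum, ← Finset.sum_sub_distrib]
  refine Finset.sum_congr rfl fun i _ => ?_
  unfold hochschildDiff
  rw [mul_assoc, hf (b i) x, mul_add, mul_add, Finset.mul_sum]
  simp only [mul_smul_comm, ← mul_assoc]
  abel

end Alg

variable {H : Type*} [NormedAddCommGroup H] [InnerProductSpace ℂ H] [CompleteSpace H]
variable (M : VonNeumannAlgebra H)

/-- the left translate average `T ↦ ∑ pₗ uₗ* T(uₗ ·)` at `y`, for `T = F(·, x)` -/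
noncomputable def lav {n m : ℕ} (F : (Fin (n + 1) → M.toStarSubalgebra) → M.toStarSubalgebra)
    (p : Fin m → ℝ) (u : Fin m → M.toStarSubalgebra) (x : Fin n → M.toStarSubalgebra)
    (y : M.toStarSubalgebra) : M.toStarSubalgebra :=
  ∑ l : Fin m, ((p l : ℂ) • star (u l)) * F (Fin.cons (u l * y) x)

/-- **Reduction (0)**: if for all finite data some convex combination of left translates of
`F(·, x)` is almost left modular then `f` is a coboundary. -/
theorem exists_of_liouville {n : ℕ}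
    (f : (Fin (n + 1) → M.toStarSubalgebra) → M.toStarSubalgebra)
    (F : MultilinearMap ℂ (fun _ : Fin (n + 1) => M.toStarSubalgebra) M.toStarSubalgebra)
    {C : ℝ} (hC0 : 0 ≤ C) (hC : ∀ x, ‖F x‖ ≤ C * ∏ i, ‖x i‖)
    (hF : FirstComp f F)
    (hL : ∀ (S : Finset ((Fin n → M.toStarSubalgebra) × M.toStarSubalgebra × H × H)) (ε : ℝ),
      0 < ε → ∃ (m : ℕ) (p : Fin m → ℝ) (u : Fin m → M.toStarSubalgebra),
        (∀ l, 0 ≤ p l) ∧ ∑ l, p l = 1 ∧ (∀ l, star (u l) * u l = 1) ∧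
        ∀ s ∈ S, ‖⟪((lav M F p u s.1 s.2.1 - s.2.1 * lav M F p u s.1 1 :
          M.toStarSubalgebra) : H →L[ℂ] H) s.2.2.1, s.2.2.2⟫_ℂ‖ ≤ ε) :
    ∃ g : ContinuousMultilinearMap ℂ (fun _ : Fin n => M.toStarSubalgebra) M.toStarSubalgebra,
      ‖g‖ ≤ C ∧ ∀ a, hochschildDiff g a = f a := by
  classical
  refine exists_of_local M f hC0 fun S ε hε => ?_
  obtain ⟨m, p, u, hp0, hp1, hu, hS⟩ := hL (S.image fun s => ((fun i => s.1 i.succ), s.1 0, s.2.1,
    s.2.2)) ε hε
  let g : MultilinearMap ℂ (fun _ : Fin n => M.toStarSubalgebra) M.toStarSubalgebra :=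
    ∑ l : Fin m, (LinearMap.mulLeft ℂ ((p l : ℂ) • star (u l))).compMultilinearMap
      (F.curryMid 0 (u l))
  have hg : ∀ x, g x = lav M F p u x 1 := by
    intro x
    simp only [g, lav, MultilinearMap.sum_apply]
    refine Finset.sum_congr rfl fun l _ => ?_
    rw [LinearMap.compMultilinearMap_apply, LinearMap.mulLeft_apply,
      MultilinearMap.curryMid_apply_apply, mul_one]
    congr 2
    exact Fin.insertNth_zero' _ _
  have hnu : ∀ l, ‖u l‖ ≤ 1 := by
    intro l
    have h1 : ‖star (u l) * u l‖ = ‖u l‖ * ‖u l‖ := CStarRing.norm_star_mul_self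
    rw [hu l] at h1
    have h2 : ‖(1 : M.toStarSubalgebra)‖ ≤ 1 := by
      change ‖(1 : H →L[ℂ] H)‖ ≤ 1
      exact ContinuousLinearMap.norm_id_le
    nlinarith [norm_nonneg (u l)]
  have hgn : ∀ x, ‖g x‖ ≤ C * ∏ j, ‖x j‖ := by
    intro x
    rw [hg]
    unfold lav
    have h1 : ∀ l ∈ (Finset.univ : Finset (Fin m)),
        ‖((p l : ℂ) • star (u l)) * F (Fin.cons (u l * 1) x)‖ ≤ p l * (C * ∏ j, ‖x j‖) := by
      intro l _
      have hF1 : ‖F (Fin.cons (u l * 1) x)‖ ≤ C * ∏ j, ‖x j‖ := by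
        refine (hC _).trans (mul_le_mul_of_nonneg_left ?_ hC0)
        rw [Fin.prod_univ_succ]
        simp only [Fin.cons_zero, Fin.cons_succ, mul_one]
        have h0 : 0 ≤ ∏ i : Fin n, ‖x i‖ := Finset.prod_nonneg fun i _ => norm_nonneg _
        nlinarith [hnu l]
      calc ‖((p l : ℂ) • star (u l)) * F (Fin.cons (u l * 1) x)‖
          ≤ ‖(p l : ℂ) • star (u l)‖ * ‖F (Fin.cons (u l * 1) x)‖ := norm_mul_le _ _
        _ ≤ p l * (C * ∏ j, ‖x j‖) := by
            refine mul_le_mul ?_ hF1 (norm_nonneg _) (hp0 l)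
            rw [norm_smul, norm_star, Complex.norm_real, Real.norm_of_nonneg (hp0 l)]
            nlinarith [hnu l, hp0 l]
    refine (norm_sum_le_of_le _ h1).trans (le_of_eq ?_)
    rw [← Finset.sum_mul, hp1, one_mul]
  refine ⟨g, hgn, fun s hs => ?_⟩
  have hsum : ∑ l ∈ (Finset.univ : Finset (Fin m)), ((p l : ℂ) • star (u l)) * u l = 1 := by
    have : ∀ l ∈ (Finset.univ : Finset (Fin m)), ((p l : ℂ) • star (u l)) * u l =
        (p l : ℂ) • (1 : M.toStarSubalgebra) := by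
      intro l _
      rw [smul_mul_assoc, hu]
    rw [Finset.sum_congr rfl this, ← Finset.sum_smul, ← Complex.ofReal_sum, hp1,
      Complex.ofReal_one, one_smul]
  have hd := diff_first_comp Finset.univ f F hF (fun l => (p l : ℂ) • star (u l)) u hsum s.1
  have hg' : (g : (Fin n → M.toStarSubalgebra) → M.toStarSubalgebra) =
      fun y : Fin n → M.toStarSubalgebra =>
        ∑ i ∈ (Finset.univ : Finset (Fin m)), ((p i : ℂ) • star (u i)) * F (Fin.cons (u i) y) := by
    funext y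
    rw [hg]
    unfold lav
    simp only [mul_one]
  have h1 := hS ((fun i => s.1 i.succ), s.1 0, s.2.1, s.2.2)
    (Finset.mem_image.2 ⟨s, hs, rfl⟩)
  have h2 : f s.1 - hochschildDiff g s.1 =
      lav M F p u (fun i => s.1 i.succ) (s.1 0) -
        s.1 0 * lav M F p u (fun i => s.1 i.succ) 1 := by
    rw [hg', hd]
    unfold lav
    simp only [mul_one]
  rw [norm_sub_rev, ← inner_sub_left]
  have h3 : ((f s.1 : M.toStarSubalgebra) : H →L[ℂ] H) s.2.1 -
      ((hochschildDiff g s.1 : M.toStarSubalgebra) : H →L[ℂ] H) s.2.1 =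
      ((f s.1 - hochschildDiff g s.1 : M.toStarSubalgebra) : H →L[ℂ] H) s.2.1 := rfl
  rw [h3, h2]
  exact h1

theorem isClosed_vNA : IsClosed (M.toStarSubalgebra : Set (H →L[ℂ] H)) := by
  have h : (M.toStarSubalgebra : Set (H →L[ℂ] H)) =
      Set.centralizer (Set.centralizer (M : Set (H →L[ℂ] H))) := by
    rw [VonNeumannAlgebra.centralizer_centralizer]
    rfl
  rw [h]
  exact Set.isClosed_centralizer _

/-- elements of `M` are combinations of four unitaries -/
theorem four_unitary (x : M.toStarSubalgebra) :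
    ∃ u : Fin 4 → unitary M.toStarSubalgebra, ∃ c : Fin 4 → ℂ,
      x = ∑ i, c i • (u i : M.toStarSubalgebra) ∧ ∀ i, ‖c i‖ ≤ ‖x‖ / 2 := by
  let _ : CStarAlgebra M.toStarSubalgebra :=
    StarSubalgebra.cstarAlgebra M.toStarSubalgebra (h_closed := isClosed_vNA M)
  exact CStarAlgebra.exists_sum_four_unitary x

theorem lav_sub_mul_eq {n m : ℕ}
    (F : MultilinearMap ℂ (fun _ : Fin (n + 1) => M.toStarSubalgebra) M.toStarSubalgebra)
    (p : Fin m → ℝ) (u : Fin m → M.toStarSubalgebra) (x : Fin n → M.toStarSubalgebra)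
    {κ : Type*} (s : Finset κ) (c : κ → ℂ) (v : κ → M.toStarSubalgebra) :
    lav M F p u x (∑ i ∈ s, c i • v i) - (∑ i ∈ s, c i • v i) * lav M F p u x 1 =
      ∑ i ∈ s, c i • (lav M F p u x (v i) - v i * lav M F p u x 1) := by
  have h1 : lav M F p u x (∑ i ∈ s, c i • v i) = ∑ i ∈ s, c i • lav M F p u x (v i) := by
    unfold lav
    simp only [Finset.smul_sum]
    rw [Finset.sum_comm]
    refine Finset.sum_congr rfl fun l _ => ?_
    have h2 : F (Fin.cons (u l * ∑ i ∈ s, c i • v i) x) =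
        ∑ i ∈ s, c i • F (Fin.cons (u l * v i) x) := by
      have h3 : ∀ y : M.toStarSubalgebra, F (Fin.cons y x) = F.curryLeft y x := fun y => rfl
      rw [Finset.mul_sum, h3]
      simp only [mul_smul_comm, map_sum, map_smul, MultilinearMap.sum_apply,
        MultilinearMap.smul_apply, h3]
    rw [h2, Finset.mul_sum]
    simp only [mul_smul_comm]
  rw [h1, Finset.sum_mul, ← Finset.sum_sub_distrib]
  refine Finset.sum_congr rfl fun i _ => ?_
  rw [smul_mul_assoc, smul_sub]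

/-- it is enough to test almost modularity on unitaries -/
theorem liouville_unitary {n : ℕ}
    (F : MultilinearMap ℂ (fun _ : Fin (n + 1) => M.toStarSubalgebra) M.toStarSubalgebra)
    (hL : ∀ (S : Finset ((Fin n → M.toStarSubalgebra) × M.toStarSubalgebra × H × H)) (ε : ℝ),
      0 < ε → (∀ s ∈ S, s.2.1 ∈ unitary M.toStarSubalgebra) →
      ∃ (m : ℕ) (p : Fin m → ℝ) (u : Fin m → M.toStarSubalgebra),
        (∀ l, 0 ≤ p l) ∧ ∑ l, p l = 1 ∧ (∀ l, star (u l) * u l = 1) ∧
        ∀ s ∈ S, ‖⟪((lav M F p u s.1 s.2.1 - s.2.1 * lav M F p u s.1 1 :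
          M.toStarSubalgebra) : H →L[ℂ] H) s.2.2.1, s.2.2.2⟫_ℂ‖ ≤ ε) :
    ∀ (S : Finset ((Fin n → M.toStarSubalgebra) × M.toStarSubalgebra × H × H)) (ε : ℝ),
      0 < ε → ∃ (m : ℕ) (p : Fin m → ℝ) (u : Fin m → M.toStarSubalgebra),
        (∀ l, 0 ≤ p l) ∧ ∑ l, p l = 1 ∧ (∀ l, star (u l) * u l = 1) ∧
        ∀ s ∈ S, ‖⟪((lav M F p u s.1 s.2.1 - s.2.1 * lav M F p u s.1 1 :
          M.toStarSubalgebra) : H →L[ℂ] H) s.2.2.1, s.2.2.2⟫_ℂ‖ ≤ ε := by
  classical
  intro S ε hε
  choose v c hvc hc using fun s : (Fin n → M.toStarSubalgebra) × M.toStarSubalgebra × H × H =>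
    four_unitary M s.2.1
  set R : ℝ := ∑ s ∈ S, ‖s.2.1‖ with hR
  have hR0 : 0 ≤ R := Finset.sum_nonneg fun s _ => norm_nonneg _
  obtain ⟨m, p, u, hp0, hp1, hu, hS⟩ := hL
    (S.biUnion fun s => (Finset.univ : Finset (Fin 4)).image fun i =>
      (s.1, (v s i : M.toStarSubalgebra), s.2.2.1, s.2.2.2)) (ε / (2 * R + 1)) (by positivity)
    (by
      intro t ht
      rw [Finset.mem_biUnion] at ht
      obtain ⟨s, _, ht⟩ := ht
      rw [Finset.mem_image] at ht
      obtain ⟨i, _, rfl⟩ := ht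
      exact (v s i).2)
  refine ⟨m, p, u, hp0, hp1, hu, fun s hs => ?_⟩
  have h1 : lav M F p u s.1 s.2.1 - s.2.1 * lav M F p u s.1 1 =
      ∑ i : Fin 4, c s i • (lav M F p u s.1 (v s i) - (v s i : M.toStarSubalgebra) *
        lav M F p u s.1 1) := by
    have := lav_sub_mul_eq M F p u s.1 (Finset.univ : Finset (Fin 4)) (c s)
      (fun i => (v s i : M.toStarSubalgebra))
    rw [← hvc s] at this
    exact this
  have h2 : ⟪((lav M F p u s.1 s.2.1 - s.2.1 * lav M F p u s.1 1 :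
      M.toStarSubalgebra) : H →L[ℂ] H) s.2.2.1, s.2.2.2⟫_ℂ =
      ∑ i : Fin 4, (starRingEnd ℂ) (c s i) *
        ⟪((lav M F p u s.1 (v s i) - (v s i : M.toStarSubalgebra) * lav M F p u s.1 1 :
          M.toStarSubalgebra) : H →L[ℂ] H) s.2.2.1, s.2.2.2⟫_ℂ := by
    rw [h1]
    have h3 : ((∑ i : Fin 4, c s i • (lav M F p u s.1 (v s i) - (v s i : M.toStarSubalgebra) *
        lav M F p u s.1 1) : M.toStarSubalgebra) : H →L[ℂ] H) s.2.2.1 =
        ∑ i : Fin 4, c s i • ((lav M F p u s.1 (v s i) - (v s i : M.toStarSubalgebra) *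
        lav M F p u s.1 1 : M.toStarSubalgebra) : H →L[ℂ] H) s.2.2.1 := by
      simp only [Fin.sum_univ_four]
      rfl
    rw [h3, sum_inner]
    refine Finset.sum_congr rfl fun i _ => ?_
    rw [inner_smul_left]
  rw [h2]
  have h4 : ∀ i ∈ (Finset.univ : Finset (Fin 4)), ‖(starRingEnd ℂ) (c s i) *
        ⟪((lav M F p u s.1 (v s i) - (v s i : M.toStarSubalgebra) * lav M F p u s.1 1 :
          M.toStarSubalgebra) : H →L[ℂ] H) s.2.2.1, s.2.2.2⟫_ℂ‖ ≤
      ‖s.2.1‖ / 2 * (ε / (2 * R + 1)) := by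
    intro i _
    rw [norm_mul]
    have h5 : ‖(starRingEnd ℂ) (c s i)‖ = ‖c s i‖ := RCLike.norm_conj _
    rw [h5]
    refine mul_le_mul (hc s i) ?_ (norm_nonneg _) (by positivity)
    refine hS (s.1, (v s i : M.toStarSubalgebra), s.2.2.1, s.2.2.2) ?_
    rw [Finset.mem_biUnion]
    exact ⟨s, hs, Finset.mem_image.2 ⟨i, Finset.mem_univ _, rfl⟩⟩
  refine (norm_sum_le_of_le _ h4).trans ?_
  rw [Finset.sum_const, Finset.card_univ, Fintype.card_fin, nsmul_eq_mul]
  have h6 : ‖s.2.1‖ ≤ R := Finset.single_le_sum (f := fun s :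
    (Fin n → M.toStarSubalgebra) × M.toStarSubalgebra × H × H => ‖s.2.1‖)
    (fun s _ => norm_nonneg _) hs
  have h7 : (2 * R) * (ε / (2 * R + 1)) ≤ ε := by
    rw [← mul_div_assoc, div_le_iff₀ (by positivity)]
    nlinarith
  have h8 : 0 ≤ ε / (2 * R + 1) := by positivity
  push_cast
  calc 4 * (‖s.2.1‖ / 2 * (ε / (2 * R + 1))) = 2 * ‖s.2.1‖ * (ε / (2 * R + 1)) := by ring
    _ ≤ 2 * R * (ε / (2 * R + 1)) := by
        refine mul_le_mul_of_nonneg_right (by linarith) h8
    _ ≤ ε := h7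

end Crest.Agent.R121
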