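import Crest.Agent.R121.W

/-! Row 121, module F (helper77): common definitions (interfaces between the modules).

`A = M.toStarSubalgebra`.  `CProj M c`: `c` is a central projection of `M`.
`Good M f C c`: the cocycle `c f` is the differential of a cochain bounded by `C`.
`PInf`, `TypeI`, `TypeII`: the three kinds of local pieces. -/

set_option autoImplicit false

namespace Crest.Agent.R121

open scoped InnerProductSpace ComplexOrder
open Crest.OpAlg

variable {H : Type*} [NormedAddCommGroup H] [InnerProductSpace ℂ H] [CompleteSpace H]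

/-- `c` is a central projection of `M` -/
structure CProj (M : VonNeumannAlgebra H) (c : H →L[ℂ] H) : Prop where
  proj : IsStarProjection c
  mem : c ∈ M
  comm : c ∈ M.commutant

/-- `c f = d g` with `‖g‖ ≤ C` -/
def Good (M : VonNeumannAlgebra H) {n : ℕ}
    (f : (Fin (n + 1) → M.toStarSubalgebra) → M.toStarSubalgebra) (C : ℝ) (c : H →L[ℂ] H) : Prop :=
  ∃ g : ContinuousMultilinearMap ℂ (fun _ : Fin n => M.toStarSubalgebra) M.toStarSubalgebra,
    (∀ x, ‖g x‖ ≤ C * ∏ i, ‖x i‖) ∧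
    ∀ a, ((hochschildDiff g a : M.toStarSubalgebra) : H →L[ℂ] H) = c * (f a : H →L[ℂ] H)

/-- matrix units of size `n` in `M` with unit `c` -/
structure MUc (M : VonNeumannAlgebra H) (c : H →L[ℂ] H) (n : ℕ)
    (e : Fin n → Fin n → (H →L[ℂ] H)) : Prop where
  mem : ∀ i j, e i j ∈ M
  mul : ∀ i j k l, e i j * e k l = if j = k then e i l else 0
  star : ∀ i j, star (e i j) = e j i
  sum : ∑ i, e i i = c

/-- properly infinite piece: for every `n`, `n` isometries of `c M` with orthogonal ranges -/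
def PInf (M : VonNeumannAlgebra H) (c : H →L[ℂ] H) : Prop :=
  ∀ n : ℕ, ∃ s : Fin n → (H →L[ℂ] H), (∀ i, s i ∈ M) ∧
    ∀ i j, star (s i) * s j = if i = j then c else 0

/-- piece of type `I_n`, `n` finite: `c M = M_n ⊗ centre` -/
def TypeI (M : VonNeumannAlgebra H) (c : H →L[ℂ] H) : Prop :=
  ∃ n : ℕ, 0 < n ∧ ∃ e : Fin n → Fin n → (H →L[ℂ] H), MUc M c n e ∧
    ∀ x ∈ M, c * x = x → (∀ i j, e i j * x = x * e i j) → x ∈ M.commutant

/-- `τ` is a normalised trace of `M` living on the central projection `c`, `τ` is normal (a norm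
limit of finite sums of vector functionals), and the vector functionals of `c H` are absolutely
continuous with respect to it (faithfulness). -/
structure TrOn (M : VonNeumannAlgebra H) (c : H →L[ℂ] H) (τ : M.toStarSubalgebra →L[ℂ] ℂ) : Prop where
  tr : ∀ a b, τ (a * b) = τ (b * a)
  nonneg : ∀ a, 0 ≤ τ (star a * a)
  one : τ 1 = 1
  cut : ∀ a b : M.toStarSubalgebra, (b : H →L[ℂ] H) = c * (a : H →L[ℂ] H) → τ b = τ a
  ac : ∀ (ξ : H) (ε : ℝ), 0 < ε → ∃ δ : ℝ, 0 < δ ∧ ∀ a : M.toStarSubalgebra, ‖a‖ ≤ 1 →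
    (τ (star a * a)).re ≤ δ → ‖c ((a : H →L[ℂ] H) ξ)‖ ≤ ε
  normal : ∀ ε : ℝ, 0 < ε → ∃ (m : ℕ) (ξ η : Fin m → H), ∀ x : M.toStarSubalgebra,
    ‖τ x - ∑ k, ⟪η k, (x : H →L[ℂ] H) (ξ k)⟫_ℂ‖ ≤ ε * ‖x‖

/-- piece of type `II₁`: a trace and arbitrarily large matrix units with unit `c` -/
def TypeII (M : VonNeumannAlgebra H) (c : H →L[ℂ] H) : Prop :=
  (∃ τ : M.toStarSubalgebra →L[ℂ] ℂ, TrOn M c τ) ∧
    ∀ K₀ : ℕ, ∃ K : ℕ, K₀ ≤ K ∧ 0 < K ∧ ∃ e : Fin K → Fin K → (H →L[ℂ] H), MUc M c K e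

end Crest.Agent.R121
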