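import Crest.Agent.R121.C4
import Crest.Agent.R121.FDefs

/-! Row 121, module C (helper40), file C5: the first-variable criterion relative to a central
projection `c`, weak form and trace form. -/

set_option autoImplicit false
set_option linter.unusedSectionVars false
set_option linter.deprecated false

open Crest.OpAlg Finset

namespace Crest.Agent.R121

open scoped InnerProductSpace ComplexConjugate ComplexOrder

variable {H : Type*} [NormedAddCommGroup H] [InnerProductSpace ℂ H] [CompleteSpace H]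
variable {M : VonNeumannAlgebra H} {c : H →L[ℂ] H}

/-- `c` as an element of `M` -/
def CProj.el (hc : CProj M c) : M.toStarSubalgebra := ⟨c, hc.mem⟩

theorem CProj.el_coe (hc : CProj M c) : ((hc.el : M.toStarSubalgebra) : H →L[ℂ] H) = c := rfl

theorem CProj.el_comm (hc : CProj M c) (x : M.toStarSubalgebra) : hc.el * x = x * hc.el := by
  apply Subtype.ext
  exact (VonNeumannAlgebra.mem_commutant_iff.1 hc.comm (x : H →L[ℂ] H) x.2).symm

theorem CProj.el_mul (hc : CProj M c) : hc.el * hc.el = hc.el :=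
  Subtype.ext hc.proj.isIdempotentElem

theorem CProj.norm_c_le (hc : CProj M c) : ‖c‖ ≤ 1 := by
  have h1 : ‖star c * c‖ = ‖c‖ * ‖c‖ := CStarRing.norm_star_mul_self
  have h2 : star c * c = c := by
    rw [hc.proj.isSelfAdjoint.star_eq]; exact hc.proj.isIdempotentElem
  rw [h2] at h1
  by_contra h
  have h3 : 1 < ‖c‖ := not_le.1 h
  nlinarith [norm_nonneg c]

theorem CProj.norm_el_le (hc : CProj M c) : ‖hc.el‖ ≤ 1 := hc.norm_c_le

theorem norm_le_one_of_star_mul {u : M.toStarSubalgebra} (hu : star u * u = 1) : ‖u‖ ≤ 1 := by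
  have h1 : ‖star u * u‖ = ‖u‖ * ‖u‖ := CStarRing.norm_star_mul_self
  rw [hu] at h1
  have h2 : ‖(1 : M.toStarSubalgebra)‖ ≤ 1 := by
    change ‖(1 : H →L[ℂ] H)‖ ≤ 1
    exact ContinuousLinearMap.norm_id_le
  nlinarith [norm_nonneg u]

theorem norm_lav_le {n m : ℕ}
    (F : MultilinearMap ℂ (fun _ : Fin (n + 1) => M.toStarSubalgebra) M.toStarSubalgebra)
    {C : ℝ} (hC0 : 0 ≤ C) (hC : ∀ x, ‖F x‖ ≤ C * ∏ i, ‖x i‖)
    (p : Fin m → ℝ) (u : Fin m → M.toStarSubalgebra) (hp0 : ∀ l, 0 ≤ p l) (hp1 : ∑ l, p l = 1)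
    (hu : ∀ l, star (u l) * u l = 1) (x : Fin n → M.toStarSubalgebra) (y : M.toStarSubalgebra) :
    ‖lav M F p u x y‖ ≤ C * (∏ i, ‖x i‖) * ‖y‖ := by
  have h0 : 0 ≤ ∏ i : Fin n, ‖x i‖ := Finset.prod_nonneg fun i _ => norm_nonneg _
  unfold lav
  have h1 : ∀ l ∈ (Finset.univ : Finset (Fin m)),
      ‖((p l : ℂ) • star (u l)) * F (Fin.cons (u l * y) x)‖ ≤
        p l * (C * (∏ j, ‖x j‖) * ‖y‖) := by
    intro l _
    have hn := norm_le_one_of_star_mul (hu l)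
    have hF1 : ‖F (Fin.cons (u l * y) x)‖ ≤ C * (∏ j, ‖x j‖) * ‖y‖ := by
      refine (hC _).trans ?_
      rw [Fin.prod_univ_succ]
      simp only [Fin.cons_zero, Fin.cons_succ]
      have h2 : ‖u l * y‖ ≤ ‖y‖ := (norm_mul_le _ _).trans (by nlinarith [norm_nonneg y])
      calc C * (‖u l * y‖ * ∏ i, ‖x i‖) ≤ C * (‖y‖ * ∏ i, ‖x i‖) :=
            mul_le_mul_of_nonneg_left (mul_le_mul_of_nonneg_right h2 h0) hC0
        _ = _ := by ring
    calc ‖((p l : ℂ) • star (u l)) * F (Fin.cons (u l * y) x)‖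
        ≤ ‖(p l : ℂ) • star (u l)‖ * ‖F (Fin.cons (u l * y) x)‖ := norm_mul_le _ _
      _ ≤ p l * (C * (∏ j, ‖x j‖) * ‖y‖) := by
          refine mul_le_mul ?_ hF1 (norm_nonneg _) (hp0 l)
          rw [norm_smul, norm_star, Complex.norm_real, Real.norm_of_nonneg (hp0 l)]
          nlinarith [hp0 l]
  refine (norm_sum_le_of_le _ h1).trans (le_of_eq ?_)
  rw [← Finset.sum_mul, hp1, one_mul]

/-- **first-variable criterion**, weak form, relative to the central projection `c` -/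
theorem good_of_liouville (hc : CProj M c) {n : ℕ}
    (f : (Fin (n + 1) → M.toStarSubalgebra) → M.toStarSubalgebra)
    (F : MultilinearMap ℂ (fun _ : Fin (n + 1) => M.toStarSubalgebra) M.toStarSubalgebra)
    {C : ℝ} (hC0 : 0 ≤ C) (hC : ∀ x, ‖F x‖ ≤ C * ∏ i, ‖x i‖)
    (hF : ∀ (u : M.toStarSubalgebra) (x : Fin (n + 1) → M.toStarSubalgebra),
      hc.el * (u * f x) = F (Fin.cons (u * x 0) (fun i => x i.succ))
        + (∑ j : Fin n, ((-1 : ℤ) ^ (j.val + 1)) • F (Fin.cons u (mergeArgs j x)))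
        + ((-1 : ℤ) ^ (n + 1)) • (F (Fin.cons u (fun i => x i.castSucc)) * x (Fin.last n)))
    (hL : ∀ (S : Finset ((Fin n → M.toStarSubalgebra) × M.toStarSubalgebra × H × H)) (ε : ℝ),
      0 < ε → (∀ s ∈ S, s.2.1 ∈ unitary M.toStarSubalgebra) →
      ∃ (m : ℕ) (p : Fin m → ℝ) (u : Fin m → M.toStarSubalgebra),
        (∀ l, 0 ≤ p l) ∧ ∑ l, p l = 1 ∧ (∀ l, star (u l) * u l = 1) ∧
        ∀ s ∈ S, ‖⟪c (((lav M F p u s.1 s.2.1 - s.2.1 * lav M F p u s.1 1 :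
          M.toStarSubalgebra) : H →L[ℂ] H) s.2.2.1), s.2.2.2⟫_ℂ‖ ≤ ε) :
    Good M f C c := by
  let f' : (Fin (n + 1) → M.toStarSubalgebra) → M.toStarSubalgebra := fun x => hc.el * f x
  let F' : MultilinearMap ℂ (fun _ : Fin (n + 1) => M.toStarSubalgebra) M.toStarSubalgebra :=
    (LinearMap.mulLeft ℂ hc.el).compMultilinearMap F
  have hF'a : ∀ x, F' x = hc.el * F x := fun x => rfl
  have hC' : ∀ x, ‖F' x‖ ≤ C * ∏ i, ‖x i‖ := by
    intro x
    rw [hF'a]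
    calc ‖hc.el * F x‖ ≤ ‖hc.el‖ * ‖F x‖ := norm_mul_le _ _
      _ ≤ 1 * ‖F x‖ := mul_le_mul_of_nonneg_right hc.norm_el_le (norm_nonneg _)
      _ ≤ C * ∏ i, ‖x i‖ := by rw [one_mul]; exact hC x
  have hcomp : FirstComp f' F' := by
    intro u x
    have h1 : u * f' x = hc.el * (hc.el * (u * f x)) := by
      simp only [f']
      rw [← mul_assoc, ← hc.el_comm u, mul_assoc, ← mul_assoc hc.el hc.el, hc.el_mul]
    rw [h1, hF u x]
    simp only [hF'a]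
    rw [mul_add, mul_add, Finset.mul_sum]
    simp only [mul_smul_comm, mul_assoc]
  have hlav : ∀ {m : ℕ} (p : Fin m → ℝ) (u : Fin m → M.toStarSubalgebra)
      (x : Fin n → M.toStarSubalgebra) (y : M.toStarSubalgebra),
      lav M F' p u x y = hc.el * lav M F p u x y := by
    intro m p u x y
    unfold lav
    rw [Finset.mul_sum]
    refine Finset.sum_congr rfl fun l _ => ?_
    rw [hF'a, ← mul_assoc, ← mul_assoc, hc.el_comm]
  obtain ⟨g, hg1, hg2⟩ := exists_of_liouville M f' F' hC0 hC' hcomp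
    (liouville_unitary M F' fun S ε hε hS => by
      obtain ⟨m, p, u, h0, h1, h2, h3⟩ := hL S ε hε hS
      refine ⟨m, p, u, h0, h1, h2, fun s hs => ?_⟩
      have h4 : lav M F' p u s.1 s.2.1 - s.2.1 * lav M F' p u s.1 1 =
          hc.el * (lav M F p u s.1 s.2.1 - s.2.1 * lav M F p u s.1 1) := by
        rw [hlav, hlav, mul_sub, ← mul_assoc s.2.1, ← hc.el_comm s.2.1, mul_assoc]
      rw [h4]
      exact h3 s hs)
  refine ⟨g, fun x => (g.le_opNorm x).trans (mul_le_mul_of_nonneg_right hg1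
    (Finset.prod_nonneg fun i _ => norm_nonneg _)), fun a => ?_⟩
  rw [hg2 a]
  rfl

/-- **first-variable criterion**, trace form -/
theorem good_of_trace (hc : CProj M c) {τ : M.toStarSubalgebra →L[ℂ] ℂ} (hτ : TrOn M c τ) {n : ℕ}
    (f : (Fin (n + 1) → M.toStarSubalgebra) → M.toStarSubalgebra)
    (F : MultilinearMap ℂ (fun _ : Fin (n + 1) => M.toStarSubalgebra) M.toStarSubalgebra)
    {C : ℝ} (hC0 : 0 ≤ C) (hC : ∀ x, ‖F x‖ ≤ C * ∏ i, ‖x i‖)
    (hF : ∀ (u : M.toStarSubalgebra) (x : Fin (n + 1) → M.toStarSubalgebra),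
      hc.el * (u * f x) = F (Fin.cons (u * x 0) (fun i => x i.succ))
        + (∑ j : Fin n, ((-1 : ℤ) ^ (j.val + 1)) • F (Fin.cons u (mergeArgs j x)))
        + ((-1 : ℤ) ^ (n + 1)) • (F (Fin.cons u (fun i => x i.castSucc)) * x (Fin.last n)))
    (hL : ∀ (S : Finset ((Fin n → M.toStarSubalgebra) × M.toStarSubalgebra)) (δ : ℝ),
      0 < δ → (∀ s ∈ S, s.2 ∈ unitary M.toStarSubalgebra) →
      ∃ (m : ℕ) (p : Fin m → ℝ) (u : Fin m → M.toStarSubalgebra),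
        (∀ l, 0 ≤ p l) ∧ ∑ l, p l = 1 ∧ (∀ l, star (u l) * u l = 1) ∧
        ∀ s ∈ S, (τ (star (lav M F p u s.1 s.2 - s.2 * lav M F p u s.1 1) *
          (lav M F p u s.1 s.2 - s.2 * lav M F p u s.1 1))).re ≤ δ) :
    Good M f C c := by
  classical
  refine good_of_liouville hc f F hC0 hC hF fun S ε hε hS => ?_
  -- choose δ
  set R : (Fin n → M.toStarSubalgebra) × M.toStarSubalgebra × H × H → ℝ :=
    fun s => 2 * (C * ∏ i, ‖s.1 i‖) + 1 with hR
  have hR1 : ∀ s, 1 ≤ R s := by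
    intro s
    have : 0 ≤ C * ∏ i, ‖s.1 i‖ :=
      mul_nonneg hC0 (Finset.prod_nonneg fun i _ => norm_nonneg _)
    simp only [hR]; linarith
  have hε' : ∀ s, 0 < ε / (R s * (‖s.2.2.2‖ + 1)) := by
    intro s
    have := hR1 s
    positivity
  choose δ hδ0 hδ using fun s : (Fin n → M.toStarSubalgebra) × M.toStarSubalgebra × H × H =>
    hτ.ac s.2.2.1 _ (hε' s)
  obtain ⟨δ₀, hδ₀, hδ₀'⟩ : ∃ δ₀ : ℝ, 0 < δ₀ ∧ ∀ s ∈ S, δ₀ ≤ δ s := by
    rcases S.eq_empty_or_nonempty with h | h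
    · subst h; exact ⟨1, one_pos, fun s hs => absurd hs (Finset.notMem_empty _)⟩
    · obtain ⟨s₀, hs₀, hmin⟩ := S.exists_min_image δ h
      exact ⟨δ s₀, hδ0 s₀, hmin⟩
  obtain ⟨m, p, u, hp0, hp1, hu, h⟩ := hL (S.image fun s => (s.1, s.2.1)) δ₀ hδ₀ (by
    intro t ht
    obtain ⟨s, hs, rfl⟩ := Finset.mem_image.1 ht
    exact hS s hs)
  refine ⟨m, p, u, hp0, hp1, hu, fun s hs => ?_⟩
  set d : M.toStarSubalgebra := lav M F p u s.1 s.2.1 - s.2.1 * lav M F p u s.1 1 with hd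
  have hz : ‖s.2.1‖ ≤ 1 := norm_le_one_of_star_mul (Unitary.star_mul_self_of_mem (hS s hs))
  have hP0 : 0 ≤ C * ∏ i, ‖s.1 i‖ :=
    mul_nonneg hC0 (Finset.prod_nonneg fun i _ => norm_nonneg _)
  have hone : ‖(1 : M.toStarSubalgebra)‖ ≤ 1 := by
    change ‖(1 : H →L[ℂ] H)‖ ≤ 1
    exact ContinuousLinearMap.norm_id_le
  have hdn : ‖d‖ ≤ R s := by
    have e1 := norm_lav_le F hC0 hC p u hp0 hp1 hu s.1 s.2.1
    have e2 := norm_lav_le F hC0 hC p u hp0 hp1 hu s.1 1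
    have e3 : ‖s.2.1 * lav M F p u s.1 1‖ ≤ C * ∏ i, ‖s.1 i‖ := by
      refine (norm_mul_le _ _).trans ?_
      have : ‖lav M F p u s.1 1‖ ≤ C * ∏ i, ‖s.1 i‖ := e2.trans (by nlinarith)
      nlinarith [norm_nonneg (lav M F p u s.1 1), norm_nonneg s.2.1]
    have e4 : ‖lav M F p u s.1 s.2.1‖ ≤ C * ∏ i, ‖s.1 i‖ := e1.trans (by nlinarith)
    calc ‖d‖ ≤ ‖lav M F p u s.1 s.2.1‖ + ‖s.2.1 * lav M F p u s.1 1‖ := norm_sub_le _ _
      _ ≤ R s := by simp only [hR]; linarith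
  have hRpos : 0 < R s := lt_of_lt_of_le one_pos (hR1 s)
  set a : M.toStarSubalgebra := (((R s)⁻¹ : ℝ) : ℂ) • d with ha
  have han : ‖a‖ ≤ 1 := by
    rw [ha, norm_smul, Complex.norm_real, Real.norm_of_nonneg (inv_nonneg.2 hRpos.le)]
    rw [inv_mul_le_iff₀ hRpos, mul_one]
    exact hdn
  have hat : (τ (star a * a)).re ≤ δ s := by
    have h1 : star a * a = ((((R s)⁻¹ * (R s)⁻¹ : ℝ)) : ℂ) • (star d * d) := by
      rw [ha, star_smul, smul_mul_smul_comm]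
      congr 1
      rw [RCLike.star_def, Complex.conj_ofReal]
      push_cast; rfl
    rw [h1, map_smul, smul_eq_mul, Complex.re_ofReal_mul]
    have h2 : (τ (star d * d)).re ≤ δ₀ := h (s.1, s.2.1) (Finset.mem_image.2 ⟨s, hs, rfl⟩)
    have h3 : 0 ≤ (τ (star d * d)).re := (Complex.le_def.1 (hτ.nonneg d)).1
    have h4 : (R s)⁻¹ ≤ 1 := inv_le_one_of_one_le₀ (hR1 s)
    have h5 : 0 ≤ (R s)⁻¹ := inv_nonneg.2 hRpos.le
    have h6 : (R s)⁻¹ * (R s)⁻¹ ≤ 1 := by nlinarith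
    calc (R s)⁻¹ * (R s)⁻¹ * (τ (star d * d)).re ≤ 1 * (τ (star d * d)).re :=
          mul_le_mul_of_nonneg_right h6 h3
      _ ≤ δ s := by rw [one_mul]; exact h2.trans (hδ₀' s hs)
  have h1 := hδ s a han hat
  have h2 : (a : H →L[ℂ] H) s.2.2.1 = (((R s)⁻¹ : ℝ) : ℂ) • ((d : H →L[ℂ] H) s.2.2.1) := rfl
  rw [h2, map_smul, norm_smul, Complex.norm_real,
    Real.norm_of_nonneg (inv_nonneg.2 hRpos.le)] at h1
  have h3 : ‖c ((d : H →L[ℂ] H) s.2.2.1)‖ ≤ ε / (‖s.2.2.2‖ + 1) := by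
    rw [inv_mul_le_iff₀ hRpos] at h1
    refine h1.trans (le_of_eq ?_)
    field_simp
  calc ‖⟪c ((d : H →L[ℂ] H) s.2.2.1), s.2.2.2⟫_ℂ‖
      ≤ ‖c ((d : H →L[ℂ] H) s.2.2.1)‖ * ‖s.2.2.2‖ := norm_inner_le_norm _ _
    _ ≤ ε / (‖s.2.2.2‖ + 1) * ‖s.2.2.2‖ := mul_le_mul_of_nonneg_right h3 (norm_nonneg _)
    _ ≤ ε := by
        rw [div_mul_eq_mul_div, div_le_iff₀ (by positivity)]
        nlinarith [norm_nonneg s.2.2.2]

/-- for a genuine cocycle `f` itself can be used as companion (with `c` cut off) -/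
theorem comp_self (hc : CProj M c) {n : ℕ}
    (f : MultilinearMap ℂ (fun _ : Fin (n + 1) => M.toStarSubalgebra) M.toStarSubalgebra)
    (hf : ∀ a : Fin (n + 2) → M.toStarSubalgebra, hochschildDiff f a = 0)
    (u : M.toStarSubalgebra) (x : Fin (n + 1) → M.toStarSubalgebra) :
    let F := (LinearMap.mulLeft ℂ hc.el).compMultilinearMap f
    hc.el * (u * f x) = F (Fin.cons (u * x 0) (fun i => x i.succ))
        + (∑ j : Fin n, ((-1 : ℤ) ^ (j.val + 1)) • F (Fin.cons u (mergeArgs j x)))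
        + ((-1 : ℤ) ^ (n + 1)) • (F (Fin.cons u (fun i => x i.castSucc)) * x (Fin.last n)) := by
  intro F
  have hFa : ∀ x, F x = hc.el * f x := fun x => rfl
  have h := firstComp_self (⇑f) hf u x
  rw [h]
  simp only [hFa]
  rw [mul_add, mul_add, Finset.mul_sum]
  simp only [mul_smul_comm, mul_assoc]

/-- weak form for a cocycle -/
theorem good_of_liouville_cocycle (hc : CProj M c) {n : ℕ}
    (f : MultilinearMap ℂ (fun _ : Fin (n + 1) => M.toStarSubalgebra) M.toStarSubalgebra)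
    (hf : ∀ a : Fin (n + 2) → M.toStarSubalgebra, hochschildDiff f a = 0)
    {C : ℝ} (hC0 : 0 ≤ C) (hC : ∀ x, ‖f x‖ ≤ C * ∏ i, ‖x i‖)
    (hL : ∀ (S : Finset ((Fin n → M.toStarSubalgebra) × M.toStarSubalgebra × H × H)) (ε : ℝ),
      0 < ε → (∀ s ∈ S, s.2.1 ∈ unitary M.toStarSubalgebra) →
      ∃ (m : ℕ) (p : Fin m → ℝ) (u : Fin m → M.toStarSubalgebra),
        (∀ l, 0 ≤ p l) ∧ ∑ l, p l = 1 ∧ (∀ l, star (u l) * u l = 1) ∧
        ∀ s ∈ S, ‖⟪c (((lav M f p u s.1 s.2.1 - s.2.1 * lav M f p u s.1 1 :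
          M.toStarSubalgebra) : H →L[ℂ] H) s.2.2.1), s.2.2.2⟫_ℂ‖ ≤ ε) :
    Good M f C c := by
  let F := (LinearMap.mulLeft ℂ hc.el).compMultilinearMap f
  have hFa : ∀ x, F x = hc.el * f x := fun x => rfl
  have hC' : ∀ x, ‖F x‖ ≤ C * ∏ i, ‖x i‖ := by
    intro x
    rw [hFa]
    calc ‖hc.el * f x‖ ≤ ‖hc.el‖ * ‖f x‖ := norm_mul_le _ _
      _ ≤ 1 * ‖f x‖ := mul_le_mul_of_nonneg_right hc.norm_el_le (norm_nonneg _)
      _ ≤ C * ∏ i, ‖x i‖ := by rw [one_mul]; exact hC x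
  refine good_of_liouville hc f F hC0 hC' (comp_self hc f hf) fun S ε hε hS => ?_
  obtain ⟨m, p, u, h0, h1, h2, h3⟩ := hL S ε hε hS
  refine ⟨m, p, u, h0, h1, h2, fun s hs => ?_⟩
  have hlav : ∀ y : M.toStarSubalgebra, lav M F p u s.1 y = hc.el * lav M f p u s.1 y := by
    intro y
    unfold lav
    rw [Finset.mul_sum]
    refine Finset.sum_congr rfl fun l _ => ?_
    rw [hFa, ← mul_assoc, ← mul_assoc, hc.el_comm]
  have h4 : lav M F p u s.1 s.2.1 - s.2.1 * lav M F p u s.1 1 =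
      hc.el * (lav M f p u s.1 s.2.1 - s.2.1 * lav M f p u s.1 1) := by
    rw [hlav, hlav, mul_sub, ← mul_assoc s.2.1, ← hc.el_comm s.2.1, mul_assoc]
  have h5 : c (((lav M F p u s.1 s.2.1 - s.2.1 * lav M F p u s.1 1 :
      M.toStarSubalgebra) : H →L[ℂ] H) s.2.2.1) =
      c (((lav M f p u s.1 s.2.1 - s.2.1 * lav M f p u s.1 1 :
      M.toStarSubalgebra) : H →L[ℂ] H) s.2.2.1) := by
    rw [h4]
    have h6 : ((hc.el * (lav M f p u s.1 s.2.1 - s.2.1 * lav M f p u s.1 1) :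
      M.toStarSubalgebra) : H →L[ℂ] H) s.2.2.1 =
      c (((lav M f p u s.1 s.2.1 - s.2.1 * lav M f p u s.1 1 :
      M.toStarSubalgebra) : H →L[ℂ] H) s.2.2.1) := rfl
    rw [h6]
    have h7 : ∀ v : H, c (c v) = c v := fun v => by
      have := congrArg (fun T : H →L[ℂ] H => T v) hc.proj.isIdempotentElem.eq
      exact this
    exact h7 _
  rw [h5]
  exact h3 s hs

end Crest.Agent.R121
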