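import Crest.Agent.R121.C2

/-! Row 121 (helper66), file DD: `d (d h) = 0` for the Hochschild differential. -/

set_option autoImplicit false

open Crest.OpAlg Finset

namespace Crest.Agent.R121

section Alg

variable {A : Type*} [Ring A]

theorem mg_mg (X : ℕ → A) {i j : ℕ} (h : j ≤ i) : mg j (mg (i + 1) X) = mg i (mg j X) := by
  funext l
  unfold mg
  rcases lt_trichotomy l j with h1 | h1 | h1
  · simp only [h1, if_true, show l < i + 1 by omega, show l < i by omega]
  · subst h1
    rcases h.eq_or_lt with h2 | h2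
    · subst h2
      simp only [lt_irrefl, if_false, if_true, lt_add_one, show ¬ (l + 1 < l) by omega,
        show ¬ (l + 1 = l) by omega, mul_assoc]
    · simp only [lt_irrefl, if_false, if_true, h2, show l < i + 1 by omega,
        show l + 1 < i + 1 by omega]
  · rcases lt_trichotomy l i with h2 | h2 | h2
    · simp only [show ¬ (l < j) by omega, show ¬ (l = j) by omega, if_false, if_true,
        show l + 1 < i + 1 by omega, h2]
    · subst h2
      simp only [show ¬ (l < j) by omega, show ¬ (l = j) by omega, if_false, if_true,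
        lt_irrefl, show ¬ (l + 1 < j) by omega, show ¬ (l + 1 = j) by omega]
    · simp only [show ¬ (l < j) by omega, show ¬ (l = j) by omega, if_false,
        show ¬ (l + 1 < i + 1) by omega, show ¬ (l + 1 = i + 1) by omega,
        show ¬ (l < i) by omega, show ¬ (l = i) by omega, show ¬ (l + 1 < j) by omega,
        show ¬ (l + 1 = j) by omega]

theorem dsum {B : Type*} [AddCommGroup B] (a : ℕ → ℕ → B)
    (ha : ∀ i j, j ≤ i → a (i + 1) j = - a j i) (k : ℕ) :
    ∑ i ∈ range (k + 1), ∑ j ∈ range k, a i j = 0 := by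
  induction k with
  | zero => simp
  | succ k ih =>
    rw [Finset.sum_range_succ]
    simp only [Finset.sum_range_succ (fun j => a _ j) k]
    rw [Finset.sum_add_distrib]
    have h1 : ∑ j ∈ range k, a (k + 1) j = - ∑ j ∈ range k, a j k := by
      rw [← Finset.sum_neg_distrib]
      refine Finset.sum_congr rfl fun j hj => ?_
      exact ha k j (by rw [mem_range] at hj; omega)
    rw [h1, ha k k le_rfl]
    rw [Finset.sum_range_succ] at ih
    have h2 := ih
    simp only [Finset.sum_range_succ (fun x => a x k)]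
    rw [Finset.sum_range_succ, ih]
    abel

/-- `d (d h) = 0` -/
theorem diff_diff {k : ℕ} (h : (Fin k → A) → A) (a : Fin (k + 2) → A) :
    hochschildDiff (fun x => hochschildDiff h x) a = 0 := by
  let X : ℕ → A := fun i => if h : i < k + 2 then a ⟨i, h⟩ else 0
  have hX : a = fun i : Fin (k + 2) => X i := by
    funext i
    simp only [X, i.isLt, dif_pos]
  rw [hX]
  rw [diff_seq (fun x => hochschildDiff h x) X]
  simp only [diff_seq]
  have hD : ∀ Y : ℕ → A, hochschildDiff h (fun i : Fin (k + 1) => Y i) = 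
      Y 0 * h (fun i => Y (i + 1)) +
        (∑ j ∈ range k, ((-1 : ℤ) ^ (j + 1)) • h (fun i => mg j Y i)) +
        ((-1 : ℤ) ^ (k + 1)) • (h (fun i => Y i) * Y k) := fun Y => diff_seq h Y
  have hD1 := hD (fun i => X (i + 1))
  simp only [hD1]
  -- the inner terms
  have e1 : ∑ i ∈ range (k + 1), ((-1 : ℤ) ^ (i + 1)) •
      (mg i X 0 * h (fun l : Fin k => mg i X (l + 1)) +
        (∑ j ∈ range k, ((-1 : ℤ) ^ (j + 1)) • h (fun l : Fin k => mg j (mg i X) l)) +
        ((-1 : ℤ) ^ (k + 1)) • (h (fun l : Fin k => mg i X l) * mg i X k)) =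
      (- (X 0 * (X 1 * h (fun l : Fin k => X (l + 1 + 1)))) +
        ∑ j ∈ range k, ((-1 : ℤ) ^ (j + 1 + 1)) •
          (X 0 * h (fun l : Fin k => mg j (fun i => X (i + 1)) l))) +
      ((∑ i ∈ range k, ((-1 : ℤ) ^ (i + 1)) • ((-1 : ℤ) ^ (k + 1)) •
        (h (fun l : Fin k => mg i X l) * X (k + 1))) +
        h (fun l : Fin k => X l) * (X k * X (k + 1))) := by
    simp only [smul_add, Finset.sum_add_distrib]
    have z : ∑ i ∈ range (k + 1), ((-1 : ℤ) ^ (i + 1)) •
        (∑ j ∈ range k, ((-1 : ℤ) ^ (j + 1)) • h (fun l : Fin k => mg j (mg i X) l)) = 0 := by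
      simp only [Finset.smul_sum]
      refine dsum (fun i j => ((-1 : ℤ) ^ (i + 1)) • ((-1 : ℤ) ^ (j + 1)) •
        h (fun l : Fin k => mg j (mg i X) l)) (fun i j hij => ?_) k
      simp only [mg_mg X hij]
      rw [smul_smul, smul_smul, ← neg_smul]
      congr 1
      ring
    rw [z, add_zero]
    congr 1
    · rw [Finset.sum_range_succ', add_comm]
      congr 1
      · have : (fun l : Fin k => mg 0 X (l + 1)) = fun l : Fin k => X (l + 1 + 1) := by
          funext l; simp [mg]
        rw [this]
        simp [mg, mul_assoc]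
      · refine Finset.sum_congr rfl fun j _ => ?_
        have : (fun l : Fin k => mg (j + 1) X (l + 1)) =
            fun l : Fin k => mg j (fun i => X (i + 1)) l := by
          funext l; simp [mg]
        rw [this]
        simp [mg]
    · rw [Finset.sum_range_succ]
      congr 1
      · refine Finset.sum_congr rfl fun j hj => ?_
        rw [mem_range] at hj
        have : mg j X k = X (k + 1) := by
          simp only [mg, show ¬ (k < j) by omega, show ¬ (k = j) by omega, if_false]
        rw [this]
      · have e2 : (fun l : Fin k => mg k X l) = fun l : Fin k => X l := by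
          funext l; simp [mg]
        have e3 : mg k X k = X k * X (k + 1) := by simp [mg]
        rw [e2, e3, smul_smul, ← mul_pow]
        norm_num
  rw [e1]
  simp only [mul_add, add_mul, smul_add, Finset.mul_sum, Finset.sum_mul, Finset.smul_sum,
    mul_smul_comm, smul_mul_assoc, smul_smul, ← mul_assoc, zero_add]
  have p1 : ∀ j : ℕ, (-1 : ℤ) ^ (j + 1 + 1) = - (-1 : ℤ) ^ (j + 1) := fun j => by ring
  have p2 : ∀ j : ℕ, (-1 : ℤ) ^ (k + 1) * (-1 : ℤ) ^ (j + 1) =
      (-1 : ℤ) ^ (j + 1) * (-1 : ℤ) ^ (k + 1) := fun j => by ring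
  have p3 : (-1 : ℤ) ^ (k + 1) * (-1 : ℤ) ^ (k + 1) = 1 := by
    rw [← mul_pow]; norm_num
  simp only [p1, neg_mul, neg_smul, Finset.sum_neg_distrib]
  simp only [p2, p3, one_smul]
  generalize (∑ x ∈ range k, ((-1 : ℤ) ^ (x + 1) * (-1 : ℤ) ^ (k + 1)) •
    ((h fun l : Fin k => mg x X l) * X (k + 1))) = t1
  generalize (∑ x ∈ range k, ((-1 : ℤ) ^ (x + 1)) •
    (X 0 * h fun l : Fin k => mg x (fun i => X (i + 1)) l)) = t2
  generalize ((h fun l : Fin k => X l) * X k * X (k + 1)) = t3
  generalize (X 0 * X 1 * h fun l : Fin k => X (l + 1 + 1)) = t4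
  abel

end Alg

end Crest.Agent.R121
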