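import Crest.Prelude.Def_Hochschild

/-!
# Row 121 (helper38): the Hochschild differential of a multilinear map is multilinear
-/

set_option autoImplicit false

namespace Crest.Agent.R121

open Crest.OpAlg Finset

section
variable {A : Type*} [Ring A] [Algebra ℂ A]

/-- merging arguments, dependence on one argument -/
theorem merge_update {n : ℕ} (j : Fin n) (x : Fin (n + 1) → A) (l : Fin (n + 1)) :
    ∃ (l' : Fin n) (φ : A →ₗ[ℂ] A), ∀ a, mergeArgs j (Function.update x l a) =
      Function.update (mergeArgs j x) l' (φ a) := by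
  have hj := j.isLt
  have hl := l.isLt
  rcases lt_trichotomy (l : ℕ) j with h | h | h
  · refine ⟨⟨l, by omega⟩, LinearMap.id, fun a => ?_⟩
    funext i
    have hi := i.isLt
    simp only [mergeArgs, Function.update_apply, Fin.ext_iff, Fin.val_castSucc, Fin.val_succ,
      LinearMap.id_apply]
    rcases lt_trichotomy (i : ℕ) j with h1 | h1 | h1
    · simp only [h1, if_true]
    · have e1 : ¬ ((i : ℕ) < j) := by omega
      have e2 : ¬ ((i : ℕ) = l) := by omega
      have e3 : ¬ ((i : ℕ) + 1 = l) := by omega
      simp only [e1, e2, e3, if_false]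
    · have e1 : ¬ ((i : ℕ) < j) := by omega
      have e2 : ¬ ((i : ℕ) = l) := by omega
      have e3 : ¬ ((i : ℕ) + 1 = l) := by omega
      simp only [e1, e2, e3, if_false]
  · refine ⟨j, LinearMap.mulRight ℂ (x j.succ), fun a => ?_⟩
    funext i
    simp only [mergeArgs, Function.update_apply, Fin.ext_iff, Fin.val_castSucc, Fin.val_succ,
      LinearMap.mulRight_apply]
    rcases lt_trichotomy (i : ℕ) j with h1 | h1 | h1
    · have e2 : ¬ ((i : ℕ) = l) := by omega
      have e4 : ¬ ((i : ℕ) = j) := by omega
      simp only [h1, e2, e4, if_true, if_false]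
    · have e1 : ¬ ((i : ℕ) < j) := by omega
      have e2 : ((i : ℕ) = l) := by omega
      have e3 : ¬ ((i : ℕ) + 1 = l) := by omega
      have e5 : i = j := Fin.ext h1
      simp only [e1, e3, if_false]
      rw [if_pos h1, if_pos e2, if_pos h1, e5]
    · have e1 : ¬ ((i : ℕ) < j) := by omega
      have e2 : ¬ ((i : ℕ) = j) := by omega
      have e3 : ¬ ((i : ℕ) + 1 = l) := by omega
      simp only [e1, e2, e3, if_false]
  · rcases Nat.lt_or_ge ((j : ℕ) + 1) l with h2 | h2
    · refine ⟨⟨(l : ℕ) - 1, by omega⟩, LinearMap.id, fun a => ?_⟩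
      funext i
      simp only [mergeArgs, Function.update_apply, Fin.ext_iff, Fin.val_castSucc, Fin.val_succ,
        LinearMap.id_apply]
      rcases lt_trichotomy (i : ℕ) j with h1 | h1 | h1
      · have e2 : ¬ ((i : ℕ) = l) := by omega
        have e4 : ¬ ((i : ℕ) = l - 1) := by omega
        simp only [h1, e2, e4, if_true, if_false]
      · have e1 : ¬ ((i : ℕ) < j) := by omega
        have e2 : ¬ ((i : ℕ) = l) := by omega
        have e3 : ¬ ((i : ℕ) + 1 = l) := by omega
        have e4 : ¬ ((i : ℕ) = l - 1) := by omega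
        simp only [e1, e2, e3, e4, if_false]
      · have e1 : ¬ ((i : ℕ) < j) := by omega
        have e2 : ¬ ((i : ℕ) = j) := by omega
        simp only [e1, e2, if_false]
        by_cases e3 : (i : ℕ) + 1 = l
        · have e4 : (i : ℕ) = l - 1 := by omega
          rw [if_pos e3, if_pos e4]
        · have e4 : ¬ ((i : ℕ) = l - 1) := by omega
          rw [if_neg e3, if_neg e4]
    · have h3 : (l : ℕ) = j + 1 := by omega
      refine ⟨j, LinearMap.mulLeft ℂ (x j.castSucc), fun a => ?_⟩
      funext i
      simp only [mergeArgs, Function.update_apply, Fin.ext_iff, Fin.val_castSucc, Fin.val_succ,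
        LinearMap.mulLeft_apply]
      rcases lt_trichotomy (i : ℕ) j with h1 | h1 | h1
      · have e2 : ¬ ((i : ℕ) = l) := by omega
        have e4 : ¬ ((i : ℕ) = j) := by omega
        simp only [h1, e2, e4, if_true, if_false]
      · have e1 : ¬ ((i : ℕ) < j) := by omega
        have e2 : ¬ ((i : ℕ) = l) := by omega
        have e3 : ((i : ℕ) + 1 = l) := by omega
        have e5 : i = j := Fin.ext h1
        simp only [e1, e2, if_false]
        rw [if_pos h1, if_pos e3, if_pos h1, e5]
      · have e1 : ¬ ((i : ℕ) < j) := by omega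
        have e2 : ¬ ((i : ℕ) = j) := by omega
        have e3 : ¬ ((i : ℕ) + 1 = l) := by omega
        simp only [e1, e2, e3, if_false]

/-- `x ↦ G (mergeArgs j x)` -/
def mergeML {n : ℕ} (G : MultilinearMap ℂ (fun _ : Fin n => A) A) (j : Fin n) :
    MultilinearMap ℂ (fun _ : Fin (n + 1) => A) A where
  toFun x := G (mergeArgs j x)
  map_update_add' := fun {dec} x l a b => by
    have hdec : dec = instDecidableEqFin (n + 1) := Subsingleton.elim _ _
    subst hdec
    obtain ⟨l', φ, h⟩ := merge_update j x l
    rw [h, h, h, map_add, G.map_update_add]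
  map_update_smul' := fun {dec} x l r a => by
    have hdec : dec = instDecidableEqFin (n + 1) := Subsingleton.elim _ _
    subst hdec
    obtain ⟨l', φ, h⟩ := merge_update j x l
    rw [h, h, map_smul, G.map_update_smul]

/-- `x ↦ x₀ G (x₁, …)` -/
def firstML {n : ℕ} (G : MultilinearMap ℂ (fun _ : Fin n => A) A) :
    MultilinearMap ℂ (fun _ : Fin (n + 1) => A) A :=
  LinearMap.uncurryLeft (M := fun _ : Fin (n + 1) => A)
    { toFun := fun a => (LinearMap.mulLeft ℂ a).compMultilinearMap G
      map_add' := fun a b => by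
        ext x
        simp [add_mul]
      map_smul' := fun r a => by
        ext x
        simp }

/-- `x ↦ G (x₀, …) x_n` -/
def lastML {n : ℕ} (G : MultilinearMap ℂ (fun _ : Fin n => A) A) :
    MultilinearMap ℂ (fun _ : Fin (n + 1) => A) A :=
  MultilinearMap.uncurryRight (M := fun _ : Fin (n + 1) => A)
    ((LinearMap.mul ℂ A).compMultilinearMap G)

/-- the differential of a multilinear map, as a multilinear map -/
noncomputable def dML {n : ℕ} (G : MultilinearMap ℂ (fun _ : Fin n => A) A) :
    MultilinearMap ℂ (fun _ : Fin (n + 1) => A) A :=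
  firstML G + (∑ j : Fin n, ((-1 : ℤ) ^ (j.val + 1)) • mergeML G j) +
    ((-1 : ℤ) ^ (n + 1)) • lastML G

theorem dML_apply {n : ℕ} (G : MultilinearMap ℂ (fun _ : Fin n => A) A) (x : Fin (n + 1) → A) :
    dML G x = hochschildDiff G x := by
  unfold dML hochschildDiff
  simp only [MultilinearMap.add_apply, MultilinearMap.sum_apply, MultilinearMap.smul_apply]
  rfl

end

end Crest.Agent.R121
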