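import Crest.Agent.R121.B8
import Crest.Agent.R121.FDefs

/-!
# Row 121, F0 (helper38): from the gauge of module P and PART B to `Good`
-/

set_option autoImplicit false

namespace Crest.Agent.R121

open scoped InnerProductSpace ComplexConjugate
open Crest.OpAlg

variable {H : Type*} [NormedAddCommGroup H] [InnerProductSpace ℂ H] [CompleteSpace H]

theorem hochschildDiff_add {A : Type*} [Ring A] {n : ℕ} (g h : (Fin n → A) → A)
    (a : Fin (n + 1) → A) :
    hochschildDiff (fun x => g x + h x) a = hochschildDiff g a + hochschildDiff h a := by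
  unfold hochschildDiff
  simp only [mul_add, add_mul, smul_add, Finset.sum_add_distrib]
  abel

/-- gauge + PART B -/
theorem good_of_gauge (M : VonNeumannAlgebra H) {n : ℕ}
    (f : (Fin (n + 1) → M.toStarSubalgebra) → M.toStarSubalgebra)
    (f' : ContinuousMultilinearMap ℂ (fun _ : Fin (n + 1) => M.toStarSubalgebra) M.toStarSubalgebra)
    (h : ContinuousMultilinearMap ℂ (fun _ : Fin n => M.toStarSubalgebra) M.toStarSubalgebra)
    {C₁ C₂ : ℝ} (hC₁ : 0 ≤ C₁) (hf' : ∀ a, hochschildDiff f' a = 0) (hcb : LastCB M C₁ f')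
    (hh : ∀ x, ‖h x‖ ≤ C₂ * ∏ i, ‖x i‖) {c : H →L[ℂ] H}
    (hc : ∀ a, c * (f a : H →L[ℂ] H) = ((f' a + hochschildDiff h a : M.toStarSubalgebra) :
      H →L[ℂ] H)) :
    Good M f (C₁ + C₂) c := by
  obtain ⟨g, hg, hgd⟩ := partB M f' hf' hC₁ hcb
  refine ⟨g + h, fun x => ?_, fun a => ?_⟩
  · rw [ContinuousMultilinearMap.add_apply, add_mul]
    refine (norm_add_le _ _).trans (add_le_add ?_ (hh x))
    refine (g.le_opNorm x).trans ?_
    exact mul_le_mul_of_nonneg_right hg (Finset.prod_nonneg fun _ _ => norm_nonneg _)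
  · rw [hc a, ← hgd a]
    congr 1
    exact hochschildDiff_add g h a

end Crest.Agent.R121
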