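import Crest.Agent.R121.FDefs

/-! Row 121, module RED (helper78): the reduced algebra `c M` on `c H`, `c` a central projection. -/

set_option autoImplicit false
set_option linter.deprecated false
set_option linter.unusedSectionVars false

namespace Crest.Agent.R121

open scoped InnerProductSpace ComplexOrder
open Crest.OpAlg

variable {H : Type*} [NormedAddCommGroup H] [InnerProductSpace ℂ H] [CompleteSpace H]

/-- the range of the projection `c` -/
def RK (c : H →L[ℂ] H) : Submodule ℂ H := LinearMap.ker ((1 - c : H →L[ℂ] H) : H →ₗ[ℂ] H)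

instance instCompleteRK (c : H →L[ℂ] H) : CompleteSpace (RK c) :=
  (ContinuousLinearMap.isClosed_ker (1 - c)).completeSpace_coe

theorem mem_RK {c : H →L[ℂ] H} {x : H} : x ∈ RK c ↔ c x = x := by
  unfold RK
  rw [LinearMap.mem_ker]
  simp only [ContinuousLinearMap.coe_coe, ContinuousLinearMap.sub_apply,
    ContinuousLinearMap.one_apply]
  rw [sub_eq_zero, eq_comm]

/-- inclusion of `c H` in `H` -/
noncomputable def inc (c : H →L[ℂ] H) : RK c →L[ℂ] H := (RK c).subtypeL

/-- the projection `c` as a map onto `c H` -/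
noncomputable def pr (c : H →L[ℂ] H) : H →L[ℂ] RK c := ContinuousLinearMap.adjoint (inc c)

theorem inc_apply (c : H →L[ℂ] H) (x : RK c) : inc c x = (x : H) := rfl

theorem adjoint_pr (c : H →L[ℂ] H) : ContinuousLinearMap.adjoint (pr c) = inc c := by
  unfold pr
  rw [ContinuousLinearMap.adjoint_adjoint]

theorem adjoint_inc (c : H →L[ℂ] H) : ContinuousLinearMap.adjoint (inc c) = pr c := rfl

theorem pr_inc_apply (c : H →L[ℂ] H) (x : RK c) : pr c (inc c x) = x := by
  refine ext_inner_right ℂ fun y => ?_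
  rw [pr, ContinuousLinearMap.adjoint_inner_left]
  rfl

theorem pr_inc (c : H →L[ℂ] H) : pr c ∘L inc c = 1 := by
  ext1 x
  exact pr_inc_apply c x

theorem c_inc_apply (c : H →L[ℂ] H) (x : RK c) : c (inc c x) = inc c x := mem_RK.1 x.2

theorem inc_pr_apply {c : H →L[ℂ] H} (hc : IsStarProjection c) (x : H) : inc c (pr c x) = c x := by
  have hcc : c (c x) = c x := by
    have := congrArg (fun f : H →L[ℂ] H => f x) hc.isIdempotentElem.eq
    simpa using this
  let y : RK c := ⟨c x, mem_RK.2 hcc⟩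
  have : pr c x = y := by
    refine ext_inner_right ℂ fun z => ?_
    rw [pr, ContinuousLinearMap.adjoint_inner_left, inc_apply]
    have h1 : ⟪x, (z : H)⟫_ℂ = ⟪x, c (z : H)⟫_ℂ := by rw [mem_RK.1 z.2]
    rw [h1]
    have h2 : ContinuousLinearMap.adjoint c = c := hc.isSelfAdjoint
    rw [← ContinuousLinearMap.adjoint_inner_left, h2]
    rfl
  rw [this]
  rfl

theorem inc_comp_pr {c : H →L[ℂ] H} (hc : IsStarProjection c) : inc c ∘L pr c = c := by
  ext1 x
  exact inc_pr_apply hc x

theorem norm_inc_le (c : H →L[ℂ] H) : ‖inc c‖ ≤ 1 := (RK c).norm_subtypeL_le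

theorem norm_pr_le (c : H →L[ℂ] H) : ‖pr c‖ ≤ 1 := by
  unfold pr
  rw [LinearIsometryEquiv.norm_map]
  exact norm_inc_le c

/-- `T ↦ inc T pr` -/
noncomputable def upL (c : H →L[ℂ] H) (T : RK c →L[ℂ] RK c) : H →L[ℂ] H := inc c ∘L T ∘L pr c

theorem upL_apply (c : H →L[ℂ] H) (T : RK c →L[ℂ] RK c) (x : H) :
    upL c T x = inc c (T (pr c x)) := rfl

theorem upL_mul (c : H →L[ℂ] H) (S T : RK c →L[ℂ] RK c) : upL c (S * T) = upL c S * upL c T := by
  ext1 x
  simp only [upL_apply, ContinuousLinearMap.mul_apply, pr_inc_apply]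

theorem upL_add (c : H →L[ℂ] H) (S T : RK c →L[ℂ] RK c) : upL c (S + T) = upL c S + upL c T := by
  ext1 x
  simp only [upL_apply, ContinuousLinearMap.add_apply, map_add]

theorem upL_smul (c : H →L[ℂ] H) (r : ℂ) (T : RK c →L[ℂ] RK c) : upL c (r • T) = r • upL c T := by
  ext1 x
  simp only [upL_apply, ContinuousLinearMap.smul_apply, map_smul]

theorem upL_one {c : H →L[ℂ] H} (hc : IsStarProjection c) : upL c 1 = c := by
  ext1 x
  simp only [upL_apply, ContinuousLinearMap.one_apply, inc_pr_apply hc]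

theorem upL_star (c : H →L[ℂ] H) (T : RK c →L[ℂ] RK c) : upL c (star T) = star (upL c T) := by
  unfold upL
  rw [ContinuousLinearMap.star_eq_adjoint, ContinuousLinearMap.star_eq_adjoint,
    ContinuousLinearMap.adjoint_comp, ContinuousLinearMap.adjoint_comp, adjoint_pr, adjoint_inc]
  rfl

theorem norm_upL_le (c : H →L[ℂ] H) (T : RK c →L[ℂ] RK c) : ‖upL c T‖ ≤ ‖T‖ := by
  unfold upL
  calc ‖inc c ∘L T ∘L pr c‖ ≤ ‖inc c‖ * ‖T ∘L pr c‖ := ContinuousLinearMap.opNorm_comp_le _ _
    _ ≤ ‖inc c‖ * (‖T‖ * ‖pr c‖) := by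
        gcongr; exact ContinuousLinearMap.opNorm_comp_le _ _
    _ ≤ 1 * (‖T‖ * 1) := by
        gcongr
        · exact norm_inc_le c
        · exact norm_pr_le c
    _ = ‖T‖ := by ring

/-- `x ↦ pr x inc` -/
noncomputable def dnL (c : H →L[ℂ] H) (x : H →L[ℂ] H) : RK c →L[ℂ] RK c := pr c ∘L x ∘L inc c

theorem dnL_apply (c : H →L[ℂ] H) (x : H →L[ℂ] H) (y : RK c) : dnL c x y = pr c (x (inc c y)) := rfl

theorem dnL_upL (c : H →L[ℂ] H) (T : RK c →L[ℂ] RK c) : dnL c (upL c T) = T := by
  ext1 x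
  rw [dnL_apply, upL_apply, pr_inc_apply, pr_inc_apply]

theorem upL_dnL {c : H →L[ℂ] H} (hc : IsStarProjection c) (x : H →L[ℂ] H) :
    upL c (dnL c x) = c * x * c := by
  ext1 y
  rw [upL_apply, dnL_apply, inc_pr_apply hc, inc_pr_apply hc]
  rfl

theorem norm_dnL_le (c : H →L[ℂ] H) (x : H →L[ℂ] H) : ‖dnL c x‖ ≤ ‖x‖ := by
  unfold dnL
  calc ‖pr c ∘L x ∘L inc c‖ ≤ ‖pr c‖ * ‖x ∘L inc c‖ := ContinuousLinearMap.opNorm_comp_le _ _
    _ ≤ ‖pr c‖ * (‖x‖ * ‖inc c‖) := by
        gcongr; exact ContinuousLinearMap.opNorm_comp_le _ _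
    _ ≤ 1 * (‖x‖ * 1) := by
        gcongr
        · exact norm_pr_le c
        · exact norm_inc_le c
    _ = ‖x‖ := by ring

theorem norm_upL (c : H →L[ℂ] H) (T : RK c →L[ℂ] RK c) : ‖upL c T‖ = ‖T‖ := by
  refine le_antisymm (norm_upL_le c T) ?_
  calc ‖T‖ = ‖dnL c (upL c T)‖ := by rw [dnL_upL]
    _ ≤ _ := norm_dnL_le c _

theorem dnL_star (c : H →L[ℂ] H) (x : H →L[ℂ] H) : dnL c (star x) = star (dnL c x) := by
  unfold dnL
  rw [ContinuousLinearMap.star_eq_adjoint, ContinuousLinearMap.star_eq_adjoint,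
    ContinuousLinearMap.adjoint_comp, ContinuousLinearMap.adjoint_comp, adjoint_pr, adjoint_inc]
  rfl

theorem dnL_add (c x y : H →L[ℂ] H) : dnL c (x + y) = dnL c x + dnL c y := by
  ext1 z
  simp only [dnL_apply, ContinuousLinearMap.add_apply, map_add]

theorem dnL_smul (c : H →L[ℂ] H) (r : ℂ) (x : H →L[ℂ] H) : dnL c (r • x) = r • dnL c x := by
  ext1 z
  simp only [dnL_apply, ContinuousLinearMap.smul_apply, map_smul]

theorem dnL_one (c : H →L[ℂ] H) : dnL c 1 = 1 := by
  ext1 x
  rw [dnL_apply]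
  exact pr_inc_apply c x

theorem dnL_mul {M : VonNeumannAlgebra H} {c : H →L[ℂ] H} (hc : CProj M c) {x : H →L[ℂ] H}
    (y : H →L[ℂ] H) (hx : x ∈ M) : dnL c (x * y) = dnL c x * dnL c y := by
  have h1 : x * c = c * x := VonNeumannAlgebra.mem_commutant_iff.1 hc.comm x hx
  have h2 : pr c ∘L c = pr c := by
    have : pr c ∘L (inc c ∘L pr c) = pr c := by
      rw [← ContinuousLinearMap.comp_assoc, pr_inc]
      rfl
    rwa [inc_comp_pr hc.proj] at this
  ext1 z
  rw [ContinuousLinearMap.mul_apply, dnL_apply, dnL_apply, dnL_apply, inc_pr_apply hc.proj]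
  have h3 : x (c (y (inc c z))) = c (x (y (inc c z))) :=
    congrArg (fun f : H →L[ℂ] H => f (y (inc c z))) h1
  rw [h3]
  have h4 := congrArg (fun f : H →L[ℂ] RK c => f (x (y (inc c z)))) h2
  exact h4.symm

/-- the corner `c M c` on `c H`, `c ∈ M` any projection -/
noncomputable def cor (M : VonNeumannAlgebra H) {c : H →L[ℂ] H} (hp : IsStarProjection c)
    (he : c ∈ M) : VonNeumannAlgebra (RK c) where
  carrier := {T | upL c T ∈ M}
  mul_mem' {S T} hS hT := by
    simp only [Set.mem_setOf_eq] at *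
    rw [upL_mul]
    exact mul_mem hS hT
  one_mem' := by
    simp only [Set.mem_setOf_eq]
    rw [upL_one hp]
    exact he
  add_mem' {S T} hS hT := by
    simp only [Set.mem_setOf_eq] at *
    rw [upL_add]
    exact add_mem hS hT
  zero_mem' := by
    simp only [Set.mem_setOf_eq]
    have : upL c 0 = 0 := by
      ext1 x
      simp [upL_apply]
    rw [this]
    exact zero_mem M
  algebraMap_mem' r := by
    simp only [Set.mem_setOf_eq]
    rw [Algebra.algebraMap_eq_smul_one, upL_smul, upL_one hp]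
    exact M.toStarSubalgebra.smul_mem he r
  star_mem' {T} hT := by
    simp only [Set.mem_setOf_eq] at *
    rw [upL_star]
    exact star_mem hT
  centralizer_centralizer' := by
    refine Set.Subset.antisymm ?_ Set.subset_centralizer_centralizer
    intro T hT
    simp only [Set.mem_setOf_eq]
    have key : upL c T ∈ Set.centralizer (Set.centralizer (M : Set (H →L[ℂ] H))) := by
      rw [Set.mem_centralizer_iff]
      intro m hm
      rw [Set.mem_centralizer_iff] at hm
      have hmc : m * c = c * m := (hm c he).symm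
      have hS : dnL c m ∈ Set.centralizer {T : RK c →L[ℂ] RK c | upL c T ∈ M} := by
        rw [Set.mem_centralizer_iff]
        intro R hR
        have h1 : upL c R * m = m * upL c R := hm _ hR
        ext1 x
        rw [ContinuousLinearMap.mul_apply, ContinuousLinearMap.mul_apply, dnL_apply, dnL_apply]
        have h2 := congrArg (fun f : H →L[ℂ] H => f (inc c x)) h1
        simp only [ContinuousLinearMap.mul_apply, upL_apply, pr_inc_apply] at h2
        rw [← h2, pr_inc_apply]
      have h3 : dnL c m * T = T * dnL c m := (Set.mem_centralizer_iff.1 hT) _ hS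
      ext1 x
      rw [ContinuousLinearMap.mul_apply, ContinuousLinearMap.mul_apply, upL_apply, upL_apply]
      have h4 := congrArg (fun f : RK c →L[ℂ] RK c => inc c (f (pr c x))) h3
      simp only [ContinuousLinearMap.mul_apply, dnL_apply, inc_pr_apply hp] at h4
      have h5 : ∀ y : H, m (c y) = c (m y) := fun y => congrArg (fun f : H →L[ℂ] H => f y) hmc
      rw [← h5, c_inc_apply] at h4
      rw [h4, h5]
      congr 2
      have h6 := inc_pr_apply hp (m x)
      rw [← h6, pr_inc_apply]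
    rw [M.centralizer_centralizer] at key
    exact key

theorem mem_cor {M : VonNeumannAlgebra H} {c : H →L[ℂ] H} (hp : IsStarProjection c)
    (he : c ∈ M) {T : RK c →L[ℂ] RK c} : T ∈ cor M hp he ↔ upL c T ∈ M := Iff.rfl

theorem dnL_mem_cor {M : VonNeumannAlgebra H} {c : H →L[ℂ] H} (hp : IsStarProjection c)
    (he : c ∈ M) {x : H →L[ℂ] H} (hx : x ∈ M) : dnL c x ∈ cor M hp he := by
  rw [mem_cor, upL_dnL hp]
  exact mul_mem (mul_mem he hx) he

/-- `upE : cor M → M`, `T ↦ inc T pr`, isometric onto `c M c` -/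
noncomputable def upE {M : VonNeumannAlgebra H} {c : H →L[ℂ] H} (hp : IsStarProjection c)
    (he : c ∈ M) : (cor M hp he).toStarSubalgebra →L[ℂ] M.toStarSubalgebra :=
  LinearMap.mkContinuous
    { toFun := fun T => ⟨upL c (T : RK c →L[ℂ] RK c), T.2⟩
      map_add' := fun S T => Subtype.ext (upL_add c _ _)
      map_smul' := fun r T => Subtype.ext (upL_smul c r _) } 1
    (fun T => by rw [one_mul]; exact norm_upL_le c _)

/-- `dnE : M → cor M`, `x ↦ pr x inc`, the compression `x ↦ c x c` -/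
noncomputable def dnE {M : VonNeumannAlgebra H} {c : H →L[ℂ] H} (hp : IsStarProjection c)
    (he : c ∈ M) : M.toStarSubalgebra →L[ℂ] (cor M hp he).toStarSubalgebra :=
  LinearMap.mkContinuous
    { toFun := fun x => ⟨dnL c (x : H →L[ℂ] H), dnL_mem_cor hp he x.2⟩
      map_add' := fun S T => Subtype.ext (dnL_add c _ _)
      map_smul' := fun r T => Subtype.ext (dnL_smul c r _) } 1
    (fun T => by rw [one_mul]; exact norm_dnL_le c _)

section UpDnE

variable {M : VonNeumannAlgebra H} {c : H →L[ℂ] H} (hp : IsStarProjection c) (he : c ∈ M)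

theorem coe_upE (T : (cor M hp he).toStarSubalgebra) :
    ((upE hp he T : M.toStarSubalgebra) : H →L[ℂ] H) = upL c (T : RK c →L[ℂ] RK c) := rfl

theorem coe_dnE (x : M.toStarSubalgebra) :
    ((dnE hp he x : (cor M hp he).toStarSubalgebra) : RK c →L[ℂ] RK c)
      = dnL c (x : H →L[ℂ] H) := rfl

theorem upE_mul (S T : (cor M hp he).toStarSubalgebra) :
    upE hp he (S * T) = upE hp he S * upE hp he T := Subtype.ext (upL_mul c _ _)

theorem upE_star (T : (cor M hp he).toStarSubalgebra) :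
    upE hp he (star T) = star (upE hp he T) := Subtype.ext (upL_star c _)

theorem upE_one : ((upE hp he 1 : M.toStarSubalgebra) : H →L[ℂ] H) = c := upL_one hp

theorem norm_upE (T : (cor M hp he).toStarSubalgebra) : ‖upE hp he T‖ = ‖T‖ := norm_upL c _

theorem norm_upE_le : ‖upE hp he‖ ≤ 1 := LinearMap.mkContinuous_norm_le _ zero_le_one _

theorem norm_dnE_le (x : M.toStarSubalgebra) : ‖dnE hp he x‖ ≤ ‖x‖ := norm_dnL_le c _

theorem norm_dnE_le' : ‖dnE hp he‖ ≤ 1 := LinearMap.mkContinuous_norm_le _ zero_le_one _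

theorem dnE_star (x : M.toStarSubalgebra) : dnE hp he (star x) = star (dnE hp he x) :=
  Subtype.ext (dnL_star c _)

theorem dnE_one : dnE hp he 1 = 1 := Subtype.ext (dnL_one c)

theorem dnE_upE (T : (cor M hp he).toStarSubalgebra) : dnE hp he (upE hp he T) = T :=
  Subtype.ext (dnL_upL c _)

theorem upE_dnE (x : M.toStarSubalgebra) :
    ((upE hp he (dnE hp he x) : M.toStarSubalgebra) : H →L[ℂ] H) = c * (x : H →L[ℂ] H) * c :=
  upL_dnL hp _

theorem e_mul_upE (T : (cor M hp he).toStarSubalgebra) :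
    c * ((upE hp he T : M.toStarSubalgebra) : H →L[ℂ] H) = upE hp he T := by
  conv_rhs => rw [← dnE_upE hp he T, upE_dnE]
  conv_lhs => rw [← dnE_upE hp he T, upE_dnE]
  rw [← mul_assoc, ← mul_assoc, hp.isIdempotentElem.eq]

theorem upE_mul_e (T : (cor M hp he).toStarSubalgebra) :
    ((upE hp he T : M.toStarSubalgebra) : H →L[ℂ] H) * c = upE hp he T := by
  conv_rhs => rw [← dnE_upE hp he T, upE_dnE]
  conv_lhs => rw [← dnE_upE hp he T, upE_dnE]
  rw [mul_assoc, hp.isIdempotentElem.eq]

end UpDnE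

/-- the reduced von Neumann algebra `c M` on `c H`, `c` a central projection -/
noncomputable abbrev red (M : VonNeumannAlgebra H) {c : H →L[ℂ] H} (hc : CProj M c) :
    VonNeumannAlgebra (RK c) := cor M hc.proj hc.mem

theorem mem_red {M : VonNeumannAlgebra H} {c : H →L[ℂ] H} (hc : CProj M c)
    {T : RK c →L[ℂ] RK c} : T ∈ red M hc ↔ upL c T ∈ M := Iff.rfl

theorem dnL_mem {M : VonNeumannAlgebra H} {c : H →L[ℂ] H} (hc : CProj M c)
    {x : H →L[ℂ] H} (hx : x ∈ M) : dnL c x ∈ red M hc := by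
  rw [mem_red, upL_dnL hc.proj]
  exact mul_mem (mul_mem hc.mem hx) hc.mem

/-- `up : red M → M`, `T ↦ inc T pr`, isometric onto `c M` -/
noncomputable def up {M : VonNeumannAlgebra H} {c : H →L[ℂ] H} (hc : CProj M c) :
    (red M hc).toStarSubalgebra →L[ℂ] M.toStarSubalgebra :=
  LinearMap.mkContinuous
    { toFun := fun T => ⟨upL c (T : RK c →L[ℂ] RK c), T.2⟩
      map_add' := fun S T => Subtype.ext (upL_add c _ _)
      map_smul' := fun r T => Subtype.ext (upL_smul c r _) } 1
    (fun T => by rw [one_mul]; exact norm_upL_le c _)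

/-- `dn : M → red M`, `x ↦ pr x inc`, the normal star homomorphism `x ↦ c x` -/
noncomputable def dn {M : VonNeumannAlgebra H} {c : H →L[ℂ] H} (hc : CProj M c) :
    M.toStarSubalgebra →L[ℂ] (red M hc).toStarSubalgebra :=
  LinearMap.mkContinuous
    { toFun := fun x => ⟨dnL c (x : H →L[ℂ] H), dnL_mem hc x.2⟩
      map_add' := fun S T => Subtype.ext (dnL_add c _ _)
      map_smul' := fun r T => Subtype.ext (dnL_smul c r _) } 1
    (fun T => by rw [one_mul]; exact norm_dnL_le c _)

section UpDn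

variable {M : VonNeumannAlgebra H} {c : H →L[ℂ] H} (hc : CProj M c)

theorem coe_up (T : (red M hc).toStarSubalgebra) :
    ((up hc T : M.toStarSubalgebra) : H →L[ℂ] H) = upL c (T : RK c →L[ℂ] RK c) := rfl

theorem coe_dn (x : M.toStarSubalgebra) :
    ((dn hc x : (red M hc).toStarSubalgebra) : RK c →L[ℂ] RK c) = dnL c (x : H →L[ℂ] H) := rfl

theorem up_mul (S T : (red M hc).toStarSubalgebra) : up hc (S * T) = up hc S * up hc T :=
  Subtype.ext (upL_mul c _ _)

theorem up_star (T : (red M hc).toStarSubalgebra) : up hc (star T) = star (up hc T) :=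
  Subtype.ext (upL_star c _)

theorem up_one : ((up hc 1 : M.toStarSubalgebra) : H →L[ℂ] H) = c := upL_one hc.proj

theorem norm_up (T : (red M hc).toStarSubalgebra) : ‖up hc T‖ = ‖T‖ := norm_upL c _

theorem norm_up_le : ‖up hc‖ ≤ 1 :=
  LinearMap.mkContinuous_norm_le _ zero_le_one _

theorem norm_dn_le (x : M.toStarSubalgebra) : ‖dn hc x‖ ≤ ‖x‖ := norm_dnL_le c _

theorem norm_dn_le' : ‖dn hc‖ ≤ 1 :=
  LinearMap.mkContinuous_norm_le _ zero_le_one _

theorem dn_mul (x y : M.toStarSubalgebra) : dn hc (x * y) = dn hc x * dn hc y :=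
  Subtype.ext (dnL_mul hc _ x.2)

theorem dn_star (x : M.toStarSubalgebra) : dn hc (star x) = star (dn hc x) :=
  Subtype.ext (dnL_star c _)

theorem dn_one : dn hc 1 = 1 := Subtype.ext (dnL_one c)

theorem dn_up (T : (red M hc).toStarSubalgebra) : dn hc (up hc T) = T :=
  Subtype.ext (dnL_upL c _)

include hc in
theorem comm_c (x : M.toStarSubalgebra) : (x : H →L[ℂ] H) * c = c * (x : H →L[ℂ] H) :=
  VonNeumannAlgebra.mem_commutant_iff.1 hc.comm _ x.2

theorem up_dn (x : M.toStarSubalgebra) :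
    ((up hc (dn hc x) : M.toStarSubalgebra) : H →L[ℂ] H) = c * (x : H →L[ℂ] H) := by
  rw [coe_up, coe_dn, upL_dnL hc.proj, mul_assoc, comm_c hc, ← mul_assoc,
    hc.proj.isIdempotentElem.eq]

theorem c_mul_up (T : (red M hc).toStarSubalgebra) :
    c * ((up hc T : M.toStarSubalgebra) : H →L[ℂ] H) = up hc T := by
  rw [← up_dn hc, dn_up]

theorem up_mul_c (T : (red M hc).toStarSubalgebra) :
    ((up hc T : M.toStarSubalgebra) : H →L[ℂ] H) * c = up hc T := by
  rw [comm_c hc, c_mul_up]

/-- `c` as an element of `M.toStarSubalgebra` -/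
def cA : M.toStarSubalgebra := ⟨c, hc.mem⟩

theorem coe_cA : ((cA hc : M.toStarSubalgebra) : H →L[ℂ] H) = c := rfl

theorem up_one' : up hc 1 = cA hc := Subtype.ext (up_one hc)

theorem up_dn' (x : M.toStarSubalgebra) : up hc (dn hc x) = cA hc * x := Subtype.ext (up_dn hc x)

theorem cA_comm (x : M.toStarSubalgebra) : x * cA hc = cA hc * x := Subtype.ext (comm_c hc x)

theorem cA_idem : cA hc * cA hc = cA hc := Subtype.ext hc.proj.isIdempotentElem.eq

theorem cA_star : star (cA hc) = cA hc := Subtype.ext hc.proj.isSelfAdjoint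

theorem cA_mul_up (T : (red M hc).toStarSubalgebra) : cA hc * up hc T = up hc T :=
  Subtype.ext (c_mul_up hc T)

theorem up_mul_cA (T : (red M hc).toStarSubalgebra) : up hc T * cA hc = up hc T :=
  Subtype.ext (up_mul_c hc T)

/-- for `x ∈ M`, `T ∈ red M`: `up (dn x * T) = x * up T` -/
theorem up_dn_mul (x : M.toStarSubalgebra) (T : (red M hc).toStarSubalgebra) :
    up hc (dn hc x * T) = x * up hc T := by
  rw [up_mul, up_dn', ← cA_comm, mul_assoc, cA_mul_up]

theorem up_mul_dn (x : M.toStarSubalgebra) (T : (red M hc).toStarSubalgebra) :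
    up hc (T * dn hc x) = up hc T * x := by
  rw [up_mul, up_dn', ← mul_assoc, up_mul_cA]

omit [CompleteSpace H] in
theorem ring_lift {R : Type*} [Ring R] {s u e : R} (h : s * u = e) (hu : e * u = u)
    (hs : s * e = s) (he : e * e = e) : (s + (1 - e)) * (u + (1 - e)) = 1 := by
  have : (s + (1 - e)) * (u + (1 - e))
      = s * u + (s - s * e) + (u - e * u) + (1 - e - e + e * e) := by noncomm_ring
  rw [this, h, hu, hs, he]
  abel

/-- lift of a unitary of `red M` to `M` -/
theorem lift_unitary {u : (red M hc).toStarSubalgebra}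
    (hu : u ∈ unitary (red M hc).toStarSubalgebra) :
    up hc u + (1 - cA hc) ∈ unitary M.toStarSubalgebra := by
  have h1 := (Unitary.mem_iff.1 hu).1
  have h2 := (Unitary.mem_iff.1 hu).2
  have e1 : star (up hc u) * up hc u = cA hc := by rw [← up_star, ← up_mul, h1, up_one']
  have e2 : up hc u * star (up hc u) = cA hc := by rw [← up_star, ← up_mul, h2, up_one']
  have a1 := cA_mul_up hc u
  have a2 := up_mul_cA hc u
  have a3 : cA hc * star (up hc u) = star (up hc u) := by
    rw [← up_star]; exact cA_mul_up hc _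
  have a4 : star (up hc u) * cA hc = star (up hc u) := by
    rw [← up_star]; exact up_mul_cA hc _
  have hs : star (up hc u + (1 - cA hc)) = star (up hc u) + (1 - cA hc) := by
    rw [star_add, star_sub, star_one, cA_star]
  rw [Unitary.mem_iff, hs]
  exact ⟨ring_lift e1 a1 a4 (cA_idem hc), ring_lift e2 a3 a2 (cA_idem hc)⟩

theorem dn_lift (u : (red M hc).toStarSubalgebra) : dn hc (up hc u + (1 - cA hc)) = u := by
  have h : dn hc (cA hc) = 1 := by rw [← up_one', dn_up]
  rw [map_add, map_sub, dn_up, dn_one, h, sub_self, add_zero]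

theorem dn_unitary {z : M.toStarSubalgebra} (hz : z ∈ unitary M.toStarSubalgebra) :
    dn hc z ∈ unitary (red M hc).toStarSubalgebra := by
  have h1 := (Unitary.mem_iff.1 hz).1
  have h2 := (Unitary.mem_iff.1 hz).2
  rw [Unitary.mem_iff]
  constructor
  · rw [← dn_star, ← dn_mul, h1, dn_one]
  · rw [← dn_star, ← dn_mul, h2, dn_one]

end UpDn

end Crest.Agent.R121
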