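import Crest.Agent.R121.C3
import Crest.Agent.R121.DD
import Crest.Agent.R121.RED1

/-!
# Row 121, F0r (helper38): central gauge and transport of `Good` from the reduced algebra
-/

set_option autoImplicit false
set_option linter.unusedSectionVars false

namespace Crest.Agent.R121

open scoped InnerProductSpace ComplexConjugate
open Crest.OpAlg Finset

section Alg
variable {A : Type*} [NormedRing A] [NormedAlgebra ℂ A]

/-- the letters `1, s` -/
def bs (s : A) : Bool → A := fun i => if i then s else 1

/-- the averaged cochain for the group `{1, s}` -/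
noncomputable def Ps {n : ℕ} (s : A) (f : MultilinearMap ℂ (fun _ : Fin (n + 1) => A) A)
    (x : Fin (n + 1) → A) : A :=
  av fun σ : Fin (n + 2) → Bool =>
    bs s (σ 0) * f (fun l : Fin (n + 1) => bs s (σ l.castSucc) * x l * bs s (σ l.succ)) *
      bs s (σ (Fin.last (n + 1)))

/-- flip the first bits `≤ l` -/
def flip {n : ℕ} (l : Fin (n + 1)) (σ : Fin (n + 2) → Bool) : Fin (n + 2) → Bool :=
  fun i => if i ≤ l.castSucc then !(σ i) else σ i

theorem flip_flip {n : ℕ} (l : Fin (n + 1)) (σ : Fin (n + 2) → Bool) : flip l (flip l σ) = σ := by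
  funext i
  unfold flip
  by_cases h : i ≤ l.castSucc
  · simp [h]
  · simp [h]

theorem bs_not {s : A} (hs : s * s = 1) (i : Bool) : bs s (!i) = s * bs s i := by
  cases i <;> simp [bs, hs]

theorem bs_sq {s : A} (hs : s * s = 1) (i : Bool) : bs s i * bs s i = 1 := by
  cases i <;> simp [bs, hs]

theorem Ps_update {n : ℕ} {s : A} (hs : s * s = 1) (hc : ∀ a : A, s * a = a * s)
    (f : MultilinearMap ℂ (fun _ : Fin (n + 1) => A) A) (x : Fin (n + 1) → A) (l : Fin (n + 1)) :
    Ps s f (Function.update x l (s * x l)) = s * Ps s f x := by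
  unfold Ps
  rw [← av_mul_left]
  unfold av
  congr 1
  refine Finset.sum_bij' (fun σ _ => flip l σ) (fun σ _ => flip l σ) (fun _ _ => Finset.mem_univ _)
    (fun _ _ => Finset.mem_univ _) (fun σ _ => flip_flip l σ) (fun σ _ => flip_flip l σ) ?_
  intro σ _
  have h0 : bs s (flip l σ 0) = s * bs s (σ 0) := by
    unfold flip
    rw [if_pos (Fin.zero_le _), bs_not hs]
  have hlast : bs s (flip l σ (Fin.last (n + 1))) = bs s (σ (Fin.last (n + 1))) := by
    unfold flip
    rw [if_neg]
    rw [not_le]
    exact Fin.castSucc_lt_last l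
  have hargs : (fun j : Fin (n + 1) => bs s (flip l σ j.castSucc) * x j * bs s (flip l σ j.succ)) =
      fun j : Fin (n + 1) => bs s (σ j.castSucc) * (Function.update x l (s * x l)) j *
        bs s (σ j.succ) := by
    funext j
    rcases lt_trichotomy j l with h | h | h
    · have h1 : flip l σ j.castSucc = !(σ j.castSucc) := by
        unfold flip; rw [if_pos]; exact Fin.castSucc_le_castSucc_iff.2 h.le
      have h2 : flip l σ j.succ = !(σ j.succ) := by
        unfold flip; rw [if_pos]
        rw [Fin.le_def, Fin.val_succ, Fin.val_castSucc]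
        exact h
      rw [h1, h2, bs_not hs, bs_not hs, Function.update_of_ne h.ne]
      calc s * bs s (σ j.castSucc) * x j * (s * bs s (σ j.succ))
          = s * (bs s (σ j.castSucc) * x j) * s * bs s (σ j.succ) := by
            simp only [mul_assoc]
        _ = (bs s (σ j.castSucc) * x j) * (s * s) * bs s (σ j.succ) := by
            rw [hc (bs s (σ j.castSucc) * x j)]; simp only [mul_assoc]
        _ = _ := by rw [hs, mul_one]
    · subst h
      have h1 : flip j σ j.castSucc = !(σ j.castSucc) := by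
        unfold flip; rw [if_pos le_rfl]
      have h2 : flip j σ j.succ = σ j.succ := by
        unfold flip; rw [if_neg]
        rw [Fin.le_def, Fin.val_succ, Fin.val_castSucc]
        omega
      rw [h1, h2, bs_not hs, Function.update_self]
      rw [hc (bs s (σ j.castSucc)), mul_assoc (bs s (σ j.castSucc)) s (x j)]
    · have h1 : flip l σ j.castSucc = σ j.castSucc := by
        unfold flip; rw [if_neg]
        rw [Fin.castSucc_le_castSucc_iff, not_le]; exact h
      have h2 : flip l σ j.succ = σ j.succ := by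
        unfold flip; rw [if_neg]
        rw [Fin.le_def, Fin.val_succ, Fin.val_castSucc]
        have : (l : ℕ) < j := h
        omega
      rw [h1, h2, Function.update_of_ne h.ne']
  rw [h0, hlast, hargs]
  calc bs s (σ 0) * f (fun l_1 => bs s (σ l_1.castSucc) *
        Function.update x l (s * x l) l_1 * bs s (σ l_1.succ)) * bs s (σ (Fin.last (n + 1)))
      = (s * s) * (bs s (σ 0) * f (fun l_1 => bs s (σ l_1.castSucc) *
        Function.update x l (s * x l) l_1 * bs s (σ l_1.succ)) *
          bs s (σ (Fin.last (n + 1)))) := by rw [hs, one_mul]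
    _ = _ := by simp only [mul_assoc]

/-- `Ps` is multilinear -/
theorem Ps_eq {n : ℕ} {s : A} (hs : s * s = 1) (f : MultilinearMap ℂ (fun _ : Fin (n + 1) => A) A)
    (hf : ∀ a : Fin (n + 2) → A, hochschildDiff f a = 0) (x : Fin (n + 1) → A) :
    f x - hochschildDiff (homot f (bs s) (bs s)) x = Ps s f x :=
  homot_diff f hf (bs s) (bs s) (bs_sq hs) x

/-- scaling one argument of `Ps` by `c = (1 + s)/2` -/
theorem Ps_add {n : ℕ} (s : A) (f : MultilinearMap ℂ (fun _ : Fin (n + 1) => A) A)
    (x : Fin (n + 1) → A) (l : Fin (n + 1)) (a b : A) :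
    Ps s f (Function.update x l (a + b)) =
      Ps s f (Function.update x l a) + Ps s f (Function.update x l b) := by
  unfold Ps
  rw [← av_add]
  congr 1
  funext σ
  have key : ∀ a : A, (fun j : Fin (n + 1) => bs s (σ j.castSucc) * Function.update x l a j *
      bs s (σ j.succ)) = Function.update (fun j : Fin (n + 1) => bs s (σ j.castSucc) * x j *
      bs s (σ j.succ)) l (bs s (σ l.castSucc) * a * bs s (σ l.succ)) := by
    intro a
    funext j
    by_cases h : j = l
    · subst h; simp
    · rw [Function.update_of_ne h, Function.update_of_ne h]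
  rw [key, key, key, mul_add, add_mul, f.map_update_add, mul_add, add_mul]

theorem Ps_smul {n : ℕ} (s : A) (f : MultilinearMap ℂ (fun _ : Fin (n + 1) => A) A)
    (x : Fin (n + 1) → A) (l : Fin (n + 1)) (r : ℂ) (a : A) :
    Ps s f (Function.update x l (r • a)) = r • Ps s f (Function.update x l a) := by
  unfold Ps av
  rw [smul_comm]
  congr 1
  rw [Finset.smul_sum]
  refine Finset.sum_congr rfl fun σ _ => ?_
  have key : ∀ a : A, (fun j : Fin (n + 1) => bs s (σ j.castSucc) * Function.update x l a j *
      bs s (σ j.succ)) = Function.update (fun j : Fin (n + 1) => bs s (σ j.castSucc) * x j *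
      bs s (σ j.succ)) l (bs s (σ l.castSucc) * a * bs s (σ l.succ)) := by
    intro a
    funext j
    by_cases h : j = l
    · subst h; simp
    · rw [Function.update_of_ne h, Function.update_of_ne h]
  beta_reduce
  rw [key, key, mul_smul_comm, smul_mul_assoc, f.map_update_smul, mul_smul_comm, smul_mul_assoc]

theorem Ps_central {n : ℕ} {c : A} (hcc : c * c = c) (hc : ∀ a : A, c * a = a * c)
    (f : MultilinearMap ℂ (fun _ : Fin (n + 1) => A) A) (x : Fin (n + 1) → A) (l : Fin (n + 1)) :
    Ps (c + c - 1) f (Function.update x l (c * x l)) = c * Ps (c + c - 1) f x := by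
  have hs : (c + c - 1) * (c + c - 1) = (1 : A) := by
    have : (c + c - 1) * (c + c - 1) = 4 • (c * c) - 4 • c + (1 : A) := by noncomm_ring
    rw [this, hcc]; abel
  have hsc : ∀ a : A, (c + c - 1) * a = a * (c + c - 1) := by
    intro a
    rw [sub_mul, mul_sub, add_mul, mul_add, hc, one_mul, mul_one]
  have h0 : ∀ y : A, c * y = (1 / 2 : ℂ) • ((c + c - 1) * y) + (1 / 2 : ℂ) • y := by
    intro y
    rw [← smul_add, sub_mul, one_mul, sub_add_cancel, add_mul, ← two_smul ℂ (c * y), smul_smul]
    norm_num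
  have h1 := h0 (x l)
  have h2 := h0 (Ps (c + c - 1) f x)
  rw [h1, Ps_add, Ps_smul, Ps_smul, Ps_update hs hsc, h2, Function.update_eq_self]

theorem Ps_all {n : ℕ} {c : A} (hcc : c * c = c) (hc : ∀ a : A, c * a = a * c)
    (f : MultilinearMap ℂ (fun _ : Fin (n + 1) => A) A) (x : Fin (n + 1) → A) :
    c * Ps (c + c - 1) f (fun l => c * x l) = c * Ps (c + c - 1) f x := by
  have key : ∀ S : Finset (Fin (n + 1)), c * Ps (c + c - 1) f (fun l => if l ∈ S then c * x l else x l)
      = c * Ps (c + c - 1) f x := by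
    intro S
    induction S using Finset.induction_on with
    | empty => simp
    | insert a S ha ih =>
      have h1 : (fun l => if l ∈ insert a S then c * x l else x l) =
          Function.update (fun l => if l ∈ S then c * x l else x l) a
            (c * (fun l => if l ∈ S then c * x l else x l) a) := by
        funext l
        by_cases h : l = a
        · subst h
          rw [Function.update_self]
          simp [ha]
        · rw [Function.update_of_ne h]
          simp [h]
      rw [h1, Ps_central hcc hc, ← mul_assoc, hcc, ih]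
  have := key Finset.univ
  simpa using this

/-- `Ps s f` as a multilinear map -/
noncomputable def PsM {n : ℕ} (s : A) (f : MultilinearMap ℂ (fun _ : Fin (n + 1) => A) A) :
    MultilinearMap ℂ (fun _ : Fin (n + 1) => A) A where
  toFun := Ps s f
  map_update_add' := fun {dec} x l a b => by
    have hdec : dec = instDecidableEqFin (n + 1) := Subsingleton.elim _ _
    subst hdec
    exact Ps_add s f x l a b
  map_update_smul' := fun {dec} x l r a => by
    have hdec : dec = instDecidableEqFin (n + 1) := Subsingleton.elim _ _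
    subst hdec
    exact Ps_smul s f x l r a

theorem PsM_apply {n : ℕ} (s : A) (f : MultilinearMap ℂ (fun _ : Fin (n + 1) => A) A)
    (x : Fin (n + 1) → A) : PsM s f x = Ps s f x := rfl

theorem norm_Ps_le {n : ℕ} {s : A} (hb : ∀ i, ‖bs s i‖ ≤ 1)
    (f : MultilinearMap ℂ (fun _ : Fin (n + 1) => A) A)
    {C : ℝ} (hC0 : 0 ≤ C) (hC : ∀ x, ‖f x‖ ≤ C * ∏ i, ‖x i‖) (x : Fin (n + 1) → A) :
    ‖Ps s f x‖ ≤ C * ∏ i, ‖x i‖ := by
  unfold Ps
  refine norm_av_le _ fun σ => ?_
  have h1 : ‖f (fun l : Fin (n + 1) => bs s (σ l.castSucc) * x l * bs s (σ l.succ))‖ ≤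
      C * ∏ i, ‖x i‖ := by
    refine (hC _).trans (mul_le_mul_of_nonneg_left ?_ hC0)
    refine Finset.prod_le_prod (fun i _ => norm_nonneg _) fun i _ => ?_
    calc ‖bs s (σ i.castSucc) * x i * bs s (σ i.succ)‖
        ≤ ‖bs s (σ i.castSucc)‖ * ‖x i‖ * ‖bs s (σ i.succ)‖ := norm_mul₃_le
      _ ≤ 1 * ‖x i‖ * 1 := by
          have := norm_nonneg (x i)
          exact mul_le_mul (mul_le_mul_of_nonneg_right (hb _) this) (hb _)
            (norm_nonneg _) (by linarith)
      _ = ‖x i‖ := by ring
  have h0 : 0 ≤ C * ∏ i, ‖x i‖ := mul_nonneg hC0 (Finset.prod_nonneg fun _ _ => norm_nonneg _)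
  calc ‖bs s (σ 0) * f (fun l : Fin (n + 1) => bs s (σ l.castSucc) * x l * bs s (σ l.succ)) *
      bs s (σ (Fin.last (n + 1)))‖
      ≤ ‖bs s (σ 0)‖ * ‖f (fun l : Fin (n + 1) => bs s (σ l.castSucc) * x l * bs s (σ l.succ))‖ *
        ‖bs s (σ (Fin.last (n + 1)))‖ := norm_mul₃_le
    _ ≤ 1 * (C * ∏ i, ‖x i‖) * 1 := by
        refine mul_le_mul (mul_le_mul (hb _) h1 (norm_nonneg _) zero_le_one) (hb _)
          (norm_nonneg _) (by linarith)
    _ = C * ∏ i, ‖x i‖ := by ring

theorem diff_sub {n : ℕ} (g h : (Fin n → A) → A) (a : Fin (n + 1) → A) :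
    hochschildDiff (fun x => g x - h x) a = hochschildDiff g a - hochschildDiff h a := by
  unfold hochschildDiff
  simp only [mul_sub, sub_mul, smul_sub, Finset.sum_sub_distrib]
  abel

theorem diff_add' {n : ℕ} (g h : (Fin n → A) → A) (a : Fin (n + 1) → A) :
    hochschildDiff (fun x => g x + h x) a = hochschildDiff g a + hochschildDiff h a := by
  unfold hochschildDiff
  simp only [mul_add, add_mul, smul_add, Finset.sum_add_distrib]
  abel

theorem diff_central {n : ℕ} {c : A} (hc : ∀ a : A, c * a = a * c) (h : (Fin n → A) → A)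
    (a : Fin (n + 1) → A) :
    hochschildDiff (fun x => c * h x) a = c * hochschildDiff h a := by
  unfold hochschildDiff
  simp only [mul_add, Finset.mul_sum, mul_smul_comm, ← mul_assoc, hc (a 0)]

end Alg

section Red

variable {H : Type*} [NormedAddCommGroup H] [InnerProductSpace ℂ H] [CompleteSpace H]
variable {M : VonNeumannAlgebra H} {c : H →L[ℂ] H} (hc : CProj M c)

theorem diff_dn {n : ℕ} (P : (Fin (n + 1) → M.toStarSubalgebra) → M.toStarSubalgebra)
    (a : Fin (n + 2) → (red M hc).toStarSubalgebra) :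
    hochschildDiff (fun y : Fin (n + 1) → (red M hc).toStarSubalgebra =>
      dn hc (P fun l => up hc (y l))) a = dn hc (hochschildDiff P fun l => up hc (a l)) := by
  have hm : ∀ j : Fin (n + 1), (fun l => up hc (mergeArgs j a l)) =
      mergeArgs j (fun l => up hc (a l)) := by
    intro j
    funext l
    unfold mergeArgs
    split_ifs
    · rfl
    · rw [up_mul]
    · rfl
  unfold hochschildDiff
  simp only [hm]
  rw [map_add, map_add, map_sum, dn_mul, dn_up]
  congr 1
  · congr 1
    refine Finset.sum_congr rfl fun j _ => ?_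
    rw [map_zsmul]
  · rw [map_zsmul, dn_mul, dn_up]

theorem diff_up {n : ℕ}
    (G : (Fin n → (red M hc).toStarSubalgebra) → (red M hc).toStarSubalgebra)
    (x : Fin (n + 1) → M.toStarSubalgebra) :
    hochschildDiff (fun y : Fin n → M.toStarSubalgebra => up hc (G fun l => dn hc (y l))) x =
      up hc (hochschildDiff G fun l => dn hc (x l)) := by
  have hm : ∀ j : Fin n, (fun l => dn hc (mergeArgs j x l)) =
      mergeArgs j (fun l => dn hc (x l)) := by
    intro j
    funext l
    unfold mergeArgs
    split_ifs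
    · rfl
    · rw [dn_mul]
    · rfl
  unfold hochschildDiff
  simp only [hm]
  rw [map_add, map_add, map_sum, up_dn_mul, map_zsmul, up_mul_dn]
  simp only [map_zsmul]

/-- **transport**: it suffices to solve the problem on the reduced algebra -/
theorem good_red {n : ℕ}
    (f : MultilinearMap ℂ (fun _ : Fin (n + 1) => M.toStarSubalgebra) M.toStarSubalgebra)
    {C : ℝ} (hC : 0 ≤ C) (hfC : ∀ x, ‖f x‖ ≤ C * ∏ i, ‖x i‖)
    (hf : ∀ a : Fin (n + 2) → M.toStarSubalgebra, hochschildDiff f a = 0) {D : ℝ} (hD0 : 0 ≤ D)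
    (hD : ∀ F : ContinuousMultilinearMap ℂ (fun _ : Fin (n + 1) => (red M hc).toStarSubalgebra)
      (red M hc).toStarSubalgebra, (∀ y, ‖F y‖ ≤ C * ∏ i, ‖y i‖) →
      (∀ a, hochschildDiff F a = 0) →
      ∃ G : ContinuousMultilinearMap ℂ (fun _ : Fin n => (red M hc).toStarSubalgebra)
        (red M hc).toStarSubalgebra, (∀ y, ‖G y‖ ≤ D * ∏ i, ‖y i‖) ∧
        ∀ a, hochschildDiff G a = F a) :
    Good M f (D + (n + 1) * C) c := by
  set e : M.toStarSubalgebra := cA hc with he
  have hee : e * e = e := cA_idem hc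
  have hec : ∀ a : M.toStarSubalgebra, e * a = a * e := fun a => (cA_comm hc a).symm
  set s : M.toStarSubalgebra := e + e - 1 with hs
  have hss : s * s = 1 := by
    have : (e + e - 1) * (e + e - 1) = 4 • (e * e) - 4 • e + (1 : M.toStarSubalgebra) := by
      noncomm_ring
    rw [hs, this, hee]; abel
  have hsst : star s = s := by
    rw [hs, star_sub, star_add, star_one, he, cA_star]
  have h1n : ‖(1 : M.toStarSubalgebra)‖ ≤ 1 := by
    change ‖(1 : H →L[ℂ] H)‖ ≤ 1
    exact ContinuousLinearMap.norm_id_le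
  have hsn : ‖s‖ ≤ 1 := by
    have h1 : ‖star s * s‖ = ‖s‖ * ‖s‖ := CStarRing.norm_star_mul_self
    rw [hsst, hss] at h1
    nlinarith [norm_nonneg s]
  have hb : ∀ i, ‖bs s i‖ ≤ 1 := by
    intro i
    cases i
    · exact h1n
    · exact hsn
  set h := homot f (bs s) (bs s) with hh
  have hhn : ∀ x, ‖h x‖ ≤ (n + 1) * C * ∏ i, ‖x i‖ := fun x =>
    norm_homot_le f hC hfC (bs s) (bs s) hb hb x
  have hP : ∀ x, f x - hochschildDiff h x = Ps s f x := fun x => Ps_eq hss f hf x
  have hPn := norm_Ps_le hb f hC hfC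
  -- the reduced cocycle
  let F0 : MultilinearMap ℂ (fun _ : Fin (n + 1) => (red M hc).toStarSubalgebra)
      (red M hc).toStarSubalgebra :=
    ((dn hc : M.toStarSubalgebra →L[ℂ] (red M hc).toStarSubalgebra) :
      M.toStarSubalgebra →ₗ[ℂ] (red M hc).toStarSubalgebra).compMultilinearMap
      ((PsM s f).compLinearMap fun _ => ((up hc : (red M hc).toStarSubalgebra →L[ℂ]
        M.toStarSubalgebra) : (red M hc).toStarSubalgebra →ₗ[ℂ] M.toStarSubalgebra))
  have hF0 : ∀ y, F0 y = dn hc (Ps s f fun l => up hc (y l)) := fun y => rfl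
  have hF0n : ∀ y, ‖F0 y‖ ≤ C * ∏ i, ‖y i‖ := by
    intro y
    rw [hF0]
    refine (norm_dn_le hc _).trans ((hPn _).trans (le_of_eq ?_))
    congr 1
    exact Finset.prod_congr rfl fun i _ => norm_up hc (y i)
  let F := F0.mkContinuous C hF0n
  have hFF : ∀ y, F y = F0 y := fun y => rfl
  have hFc : ∀ a, hochschildDiff F a = 0 := by
    intro a
    have e1 : hochschildDiff F a = hochschildDiff
        (fun y : Fin (n + 1) → (red M hc).toStarSubalgebra =>
        dn hc (Ps s f fun l => up hc (y l))) a := rfl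
    rw [e1, diff_dn]
    have e2 : hochschildDiff (Ps s f) (fun l => up hc (a l)) = 0 := by
      have e3 : (Ps s f : (Fin (n + 1) → M.toStarSubalgebra) → M.toStarSubalgebra) =
          fun x => f x - hochschildDiff h x := funext fun x => (hP x).symm
      rw [e3, diff_sub, hf, diff_diff, sub_zero]
    rw [e2, map_zero]
  obtain ⟨G, hG1, hG2⟩ := hD F hF0n hFc
  -- the lift
  let g0 : MultilinearMap ℂ (fun _ : Fin n => M.toStarSubalgebra) M.toStarSubalgebra :=
    ((up hc : (red M hc).toStarSubalgebra →L[ℂ] M.toStarSubalgebra) :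
      (red M hc).toStarSubalgebra →ₗ[ℂ] M.toStarSubalgebra).compMultilinearMap
      (G.toMultilinearMap.compLinearMap fun _ => ((dn hc : M.toStarSubalgebra →L[ℂ]
        (red M hc).toStarSubalgebra) : M.toStarSubalgebra →ₗ[ℂ] (red M hc).toStarSubalgebra)) +
    (LinearMap.mulLeft ℂ e).compMultilinearMap h
  have hg0 : ∀ x, g0 x = up hc (G fun l => dn hc (x l)) + e * h x := fun x => rfl
  have hen : ‖e‖ ≤ 1 := by
    have h1 : ‖star e * e‖ = ‖e‖ * ‖e‖ := CStarRing.norm_star_mul_self
    rw [he, cA_star, cA_idem, ← he] at h1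
    nlinarith [norm_nonneg e, mul_self_nonneg (‖e‖ - 1)]
  have hg0n : ∀ x, ‖g0 x‖ ≤ (D + (n + 1) * C) * ∏ i, ‖x i‖ := by
    intro x
    rw [hg0, add_mul]
    refine (norm_add_le _ _).trans (add_le_add ?_ ?_)
    · rw [norm_up]
      refine (hG1 _).trans (mul_le_mul_of_nonneg_left ?_ hD0)
      exact Finset.prod_le_prod (fun i _ => norm_nonneg _) fun i _ => norm_dn_le hc (x i)
    · refine (norm_mul_le _ _).trans ?_
      calc ‖e‖ * ‖h x‖ ≤ 1 * ‖h x‖ := mul_le_mul_of_nonneg_right hen (norm_nonneg _)
        _ = ‖h x‖ := one_mul _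
        _ ≤ _ := hhn x
  refine ⟨g0.mkContinuous _ hg0n, hg0n, fun x => ?_⟩
  have e1 : hochschildDiff (g0.mkContinuous _ hg0n) x =
      hochschildDiff (fun y : Fin n → M.toStarSubalgebra =>
        up hc (G fun l => dn hc (y l)) + e * h y) x := rfl
  have e4 : hochschildDiff (fun y : Fin n → M.toStarSubalgebra =>
        up hc (G fun l => dn hc (y l)) + e * h y) x = e * f x := by
    rw [diff_add' (fun y : Fin n → M.toStarSubalgebra => up hc (G fun l => dn hc (y l)))
      (fun y => e * h y), diff_up, diff_central hec, hG2, hFF, hF0, up_dn']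
    have e5 : (Ps s f fun l => up hc (dn hc (x l))) = Ps s f fun l => e * x l := by
      congr 1
      funext l
      rw [up_dn']
    rw [← he, e5, Ps_all hee hec, ← hP x, mul_sub, sub_add_cancel]
  rw [e1, e4]
  rfl

end Red

end Crest.Agent.R121
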