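import Crest.Agent.R121.P2
import Crest.Agent.R121.C3
import Crest.Agent.R121.W

/-!
# Row 121, module P, file P3: the averaged cocycle is completely bounded in the last variable
-/

set_option autoImplicit false

namespace Crest.Agent.R121.P

open Finset Filter Topology
open scoped InnerProductSpace

variable {H : Type*} [NormedAddCommGroup H] [InnerProductSpace ℂ H] [CompleteSpace H]
variable {M : VonNeumannAlgebra H}

/-- isometries with orthogonal ranges in `M` -/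
def OrthA {n : ℕ} (s : Fin n → M.toStarSubalgebra) : Prop :=
  ∀ i j, star (s i) * s j = if i = j then 1 else 0

theorem OrthA.orth {n m : ℕ} {s : Fin n → M.toStarSubalgebra} (hs : OrthA s) (g : Fin m → Fin n)
    (hg : Function.Injective g) : Orth (fun p => (s (g p) : H →L[ℂ] H)) := by
  intro p q
  have h := congrArg (fun x : M.toStarSubalgebra => (x : H →L[ℂ] H)) (hs (g p) (g q))
  have h2 : ((star (s (g p)) * s (g q) : M.toStarSubalgebra) : H →L[ℂ] H) =
      star (s (g p) : H →L[ℂ] H) * (s (g q) : H →L[ℂ] H) := rfl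
  rw [← h2, hs]
  by_cases h3 : p = q
  · subst h3; simp
  · have h4 : g p ≠ g q := fun h => h3 (hg h)
    rw [if_neg h4, if_neg h3]
    rfl

/-- the twisted average -/
noncomputable def Pf {k n : ℕ} (s : Fin n → M.toStarSubalgebra)
    (f : MultilinearMap ℂ (fun _ : Fin (k + 1) => M.toStarSubalgebra) M.toStarSubalgebra)
    (x : Fin (k + 1) → M.toStarSubalgebra) : M.toStarSubalgebra :=
  av fun σ : Fin (k + 2) → Fin n =>
    star (s (σ 0)) * f (fun l : Fin (k + 1) => s (σ l.castSucc) * x l * star (s (σ l.succ))) *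
      s (σ (Fin.last (k + 1)))

theorem inner_Pf {k n : ℕ} (s : Fin n → M.toStarSubalgebra)
    (f : MultilinearMap ℂ (fun _ : Fin (k + 1) => M.toStarSubalgebra) M.toStarSubalgebra)
    (x : Fin (k + 1) → M.toStarSubalgebra) (w z : H) :
    ((n : ℂ) ^ (k + 2)) * ⟪w, (Pf s f x : H →L[ℂ] H) z⟫_ℂ =
      (n : ℂ) ^ (k + 2) * (((n : ℂ) ^ (k + 2))⁻¹ * ∑ σ : Fin (k + 2) → Fin n,
        ⟪(s (σ 0) : H →L[ℂ] H) w,
        ((f (fun l : Fin (k + 1) => s (σ l.castSucc) * x l * star (s (σ l.succ))) :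
          M.toStarSubalgebra) : H →L[ℂ] H) ((s (σ (Fin.last (k + 1))) : H →L[ℂ] H) z)⟫_ℂ) := by
  congr 1
  unfold Pf av
  rw [Fintype.card_fin]
  have e1 : ∀ (c : ℂ) (F : (Fin (k + 2) → Fin n) → M.toStarSubalgebra),
      ⟪w, ((c • ∑ σ, F σ : M.toStarSubalgebra) : H →L[ℂ] H) z⟫_ℂ =
        c * ∑ σ, ⟪w, ((F σ : M.toStarSubalgebra) : H →L[ℂ] H) z⟫_ℂ := by
    intro c F
    have h := Lam_apply (M := M) w z (c • ∑ σ, F σ)
    rw [map_smul, map_sum, smul_eq_mul] at h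
    rw [← h]
    rfl
  rw [e1]
  congr 1
  refine Finset.sum_congr rfl fun σ _ => ?_
  have e2 : ((star (s (σ 0)) *
      f (fun l : Fin (k + 1) => s (σ l.castSucc) * x l * star (s (σ l.succ))) *
      s (σ (Fin.last (k + 1))) : M.toStarSubalgebra) : H →L[ℂ] H) z =
      ContinuousLinearMap.adjoint (s (σ 0) : H →L[ℂ] H)
      (((f (fun l : Fin (k + 1) => s (σ l.castSucc) * x l * star (s (σ l.succ))) :
          M.toStarSubalgebra) : H →L[ℂ] H) ((s (σ (Fin.last (k + 1))) : H →L[ℂ] H) z)) := rfl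
  rw [e2, ContinuousLinearMap.adjoint_inner_right]

theorem Pf_form {k m n : ℕ} [NeZero n] (hmn : m ≤ n) (s : Fin n → M.toStarSubalgebra)
    (hs : OrthA s)
    (f : MultilinearMap ℂ (fun _ : Fin (k + 1) => M.toStarSubalgebra) M.toStarSubalgebra)
    {C : ℝ} (hC : 0 ≤ C) (hf : ∀ x, ‖f x‖ ≤ C * ∏ i, ‖x i‖)
    (x' : Fin k → M.toStarSubalgebra) (Y : Fin m → Fin m → M.toStarSubalgebra) {K : ℝ}
    (hK : 0 ≤ K) (hY : MBd (fun p q => (Y p q : H →L[ℂ] H)) K) (z w : Fin m → H) :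
    ‖∑ p, ∑ q, ⟪w p, (Pf s f (Fin.snoc (α := fun _ => M.toStarSubalgebra) x' (Y p q)) :
      H →L[ℂ] H) (z q)⟫_ℂ‖ ≤
      C * ((∏ j, ‖x' j‖) * K) * (Real.sqrt (∑ q, ‖z q‖ ^ 2) * Real.sqrt (∑ p, ‖w p‖ ^ 2)) := by
  have hn0 : (n : ℂ) ≠ 0 := Nat.cast_ne_zero.2 (NeZero.ne n)
  have hN0 : (n : ℂ) ^ (k + 2) ≠ 0 := pow_ne_zero _ hn0
  set ι : Fin m → Fin n := Fin.castLE hmn with hι
  have hιi : Function.Injective ι := Fin.castLE_injective hmn
  set T : (Fin (k + 2) → Fin n) → Fin m → Fin m → ℂ := fun σ p q =>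
    ⟪(s (σ 0) : H →L[ℂ] H) (w p),
        ((f (fun l : Fin (k + 1) => s (σ l.castSucc) *
          (Fin.snoc (α := fun _ => M.toStarSubalgebra) x' (Y p q) l) * star (s (σ l.succ))) :
          M.toStarSubalgebra) : H →L[ℂ] H) ((s (σ (Fin.last (k + 1))) : H →L[ℂ] H) (z q))⟫_ℂ
    with hT
  set τ : Fin m → Fin m → Fin (k + 2) → Fin n := fun p q =>
    Fin.snoc (α := fun _ => Fin n) (fun _ => ι p) (ι q) with hτ
  have h1 : (n : ℂ) ^ (k + 2) * ∑ p, ∑ q, ⟪w p,
      (Pf s f (Fin.snoc (α := fun _ => M.toStarSubalgebra) x' (Y p q)) : H →L[ℂ] H) (z q)⟫_ℂ =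
      ∑ r : Fin (k + 2) → Fin n, ∑ p, ∑ q, T (r + τ p q) p q := by
    rw [Finset.mul_sum, Finset.sum_comm (s := (Finset.univ : Finset (Fin (k + 2) → Fin n)))]
    refine Finset.sum_congr rfl fun p _ => ?_
    rw [Finset.mul_sum, Finset.sum_comm (s := (Finset.univ : Finset (Fin (k + 2) → Fin n)))]
    refine Finset.sum_congr rfl fun q _ => ?_
    rw [inner_Pf, ← mul_assoc, mul_inv_cancel₀ hN0, one_mul]
    exact (Equiv.sum_comp (Equiv.addRight (τ p q)) (fun σ => T σ p q)).symm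
  have h2 : ∀ r : Fin (k + 2) → Fin n, ‖∑ p, ∑ q, T (r + τ p q) p q‖ ≤
      C * ((∏ j, ‖x' j‖) * K) * (Real.sqrt (∑ q, ‖z q‖ ^ 2) * Real.sqrt (∑ p, ‖w p‖ ^ 2)) := by
    intro r
    set a : Fin (k + 2) → Fin m → M.toStarSubalgebra := fun l p => s (r l + ι p) with ha
    have haO : ∀ l, Orth (fun p => (a l p : H →L[ℂ] H)) := by
      intro l
      exact hs.orth (fun p => r l + ι p) fun p q h => hιi (add_left_cancel h)
    refine le_trans (le_of_eq ?_) (core f hC hf a haO x' Y hK hY z w)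
    congr 1
    refine Finset.sum_congr rfl fun p _ => Finset.sum_congr rfl fun q _ => ?_
    have hlast : (r + τ p q) (Fin.last (k + 1)) = r (Fin.last (k + 1)) + ι q := by
      rw [Pi.add_apply, hτ]; simp only [Fin.snoc_last]
    have hcs : ∀ l : Fin (k + 1), (r + τ p q) l.castSucc = r l.castSucc + ι p := by
      intro l
      rw [Pi.add_apply, hτ]; simp only [Fin.snoc_castSucc]
    have h0 : (r + τ p q) 0 = r 0 + ι p := by
      have := hcs 0
      rwa [Fin.castSucc_zero] at this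
    rw [hT]
    simp only
    rw [hlast, h0]
    have hargs : (fun l : Fin (k + 1) => s ((r + τ p q) l.castSucc) *
          (Fin.snoc (α := fun _ => M.toStarSubalgebra) x' (Y p q) l) *
          star (s ((r + τ p q) l.succ))) =
        args a x' p (Y p q * star (a (Fin.last (k + 1)) q)) := by
      funext l
      refine Fin.lastCases ?_ (fun j => ?_) l
      · unfold args
        rw [hcs, Fin.succ_last, hlast, Fin.snoc_last, Fin.snoc_last, mul_assoc]
      · unfold args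
        rw [hcs, Fin.snoc_castSucc, Fin.snoc_castSucc, ← Fin.castSucc_succ, hcs]
    rw [hargs]
  have h3 : ‖(n : ℂ) ^ (k + 2) * ∑ p, ∑ q, ⟪w p,
      (Pf s f (Fin.snoc (α := fun _ => M.toStarSubalgebra) x' (Y p q)) : H →L[ℂ] H) (z q)⟫_ℂ‖ ≤
      (n : ℝ) ^ (k + 2) * (C * ((∏ j, ‖x' j‖) * K) *
        (Real.sqrt (∑ q, ‖z q‖ ^ 2) * Real.sqrt (∑ p, ‖w p‖ ^ 2))) := by
    rw [h1]
    refine (norm_sum_le _ _).trans ?_
    refine (Finset.sum_le_sum fun r _ => h2 r).trans ?_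
    rw [Finset.sum_const, Finset.card_univ, nsmul_eq_mul, Fintype.card_pi]
    simp
  rw [norm_mul, norm_pow, Complex.norm_natCast] at h3
  have hn1 : (0 : ℝ) < (n : ℝ) ^ (k + 2) := by
    have : (0 : ℝ) < (n : ℝ) := Nat.cast_pos.2 (NeZero.pos n)
    positivity
  exact le_of_mul_le_mul_left h3 hn1

/-- from the bilinear form to the vector form -/
theorem vec_of_form {m : ℕ} (T : Fin m → Fin m → H →L[ℂ] H) {D : ℝ} (hD : 0 ≤ D)
    (h : ∀ z w : Fin m → H, ‖∑ p, ∑ q, ⟪T p q (z q), w p⟫_ℂ‖ ≤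
      D * (Real.sqrt (∑ q, ‖z q‖ ^ 2) * Real.sqrt (∑ p, ‖w p‖ ^ 2))) : MBd T D := by
  intro z
  set w : Fin m → H := fun p => ∑ q, T p q (z q) with hw
  have h1 := h z w
  have h2 : ∑ p, ∑ q, ⟪T p q (z q), w p⟫_ℂ = ((∑ p, ‖w p‖ ^ 2 : ℝ) : ℂ) := by
    rw [Complex.ofReal_sum]
    refine Finset.sum_congr rfl fun p _ => ?_
    rw [← sum_inner, inner_self_eq_norm_sq_to_K]
    push_cast
    rfl
  rw [h2, Complex.norm_real, Real.norm_of_nonneg (Finset.sum_nonneg fun p _ => by positivity)] at h1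
  set S := ∑ p, ‖w p‖ ^ 2 with hS
  set Z := ∑ q, ‖z q‖ ^ 2 with hZ
  have hS0 : 0 ≤ S := Finset.sum_nonneg fun p _ => by positivity
  have hZ0 : 0 ≤ Z := Finset.sum_nonneg fun p _ => by positivity
  have h3 : Real.sqrt S ≤ D * Real.sqrt Z := by
    rcases (Real.sqrt_nonneg S).eq_or_lt with h4 | h4
    · rw [← h4]; positivity
    · have h5 : Real.sqrt S * Real.sqrt S ≤ D * Real.sqrt Z * Real.sqrt S := by
        rw [Real.mul_self_sqrt hS0]; linarith
      exact le_of_mul_le_mul_right h5 h4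
  have h6 := pow_le_pow_left₀ (Real.sqrt_nonneg S) h3 2
  rw [Real.sq_sqrt hS0, mul_pow, Real.sq_sqrt hZ0] at h6
  exact h6

/-- **module P**: a bounded cocycle on a von Neumann algebra which contains arbitrarily many
isometries with orthogonal ranges is cohomologous to one which is completely bounded in the
last variable. -/
theorem propInf_cb (hPI : ∀ n : ℕ, ∃ s : Fin n → M.toStarSubalgebra, OrthA s) {k : ℕ}
    (f : MultilinearMap ℂ (fun _ : Fin (k + 1) => M.toStarSubalgebra) M.toStarSubalgebra)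
    {C : ℝ} (hC : 0 ≤ C) (hfC : ∀ x, ‖f x‖ ≤ C * ∏ i, ‖x i‖)
    (hf : ∀ a : Fin (k + 2) → M.toStarSubalgebra, Crest.OpAlg.hochschildDiff f a = 0) :
    ∃ G : ContinuousMultilinearMap ℂ (fun _ : Fin k => M.toStarSubalgebra) M.toStarSubalgebra,
      ‖G‖ ≤ (k + 1) * C ∧ (∀ x, ‖G x‖ ≤ (k + 1) * C * ∏ j, ‖x j‖) ∧
      ∀ (m : ℕ) (x' : Fin k → M.toStarSubalgebra) (Y : Fin m → Fin m → M.toStarSubalgebra)
        (K : ℝ), 0 ≤ K → MBd (fun p q => (Y p q : H →L[ℂ] H)) K →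
        MBd (fun p q =>
          ((f (Fin.snoc (α := fun _ => M.toStarSubalgebra) x' (Y p q)) -
            Crest.OpAlg.hochschildDiff G
              (Fin.snoc (α := fun _ => M.toStarSubalgebra) x' (Y p q)) :
            M.toStarSubalgebra) : H →L[ℂ] H)) (C * ((∏ j, ‖x' j‖) * K)) := by
  choose s hs using fun n : ℕ => hPI (n + 1)
  have hnorm : ∀ (n : ℕ) (i : Fin (n + 1)), ‖s n i‖ ≤ 1 := by
    intro n i
    rw [norm_coeA]
    refine ContinuousLinearMap.opNorm_le_bound _ zero_le_one fun v => ?_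
    have h1 := ((hs n).orth (fun p : Fin (n + 1) => p) Function.injective_id).inner i i v v
    rw [if_pos rfl, inner_self_eq_norm_sq_to_K, inner_self_eq_norm_sq_to_K] at h1
    have h2 : ‖(s n i : H →L[ℂ] H) v‖ ^ 2 = ‖v‖ ^ 2 := by exact_mod_cast h1
    rw [one_mul]
    exact ((sq_eq_sq₀ (norm_nonneg _) (norm_nonneg _)).1 h2).le
  let g : ℕ → MultilinearMap ℂ (fun _ : Fin k => M.toStarSubalgebra) M.toStarSubalgebra :=
    fun n => homot f (s n) (fun i => star (s n i))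
  have hg : ∀ n x, ‖g n x‖ ≤ (k + 1) * C * ∏ j, ‖x j‖ := fun n x =>
    norm_homot_le f hC hfC (s n) (fun i => star (s n i)) (hnorm n)
      (fun i => by rw [norm_star]; exact hnorm n i) x
  obtain ⟨G, hG1, hG2, hG3⟩ := exists_wlim M (hyperfilter ℕ) g
    (C := (k + 1) * C) (by positivity) hg
  refine ⟨G, hG1, hG2, fun m x' Y K hK hY => ?_⟩
  refine vec_of_form _ (by positivity) fun z w => ?_
  have hlim : Tendsto (fun n : ℕ => ∑ p, ∑ q,
      ⟪((f (Fin.snoc (α := fun _ => M.toStarSubalgebra) x' (Y p q)) -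
          Crest.OpAlg.hochschildDiff (g n)
            (Fin.snoc (α := fun _ => M.toStarSubalgebra) x' (Y p q)) :
          M.toStarSubalgebra) : H →L[ℂ] H) (z q), w p⟫_ℂ) (hyperfilter ℕ)
      (𝓝 (∑ p, ∑ q,
      ⟪((f (Fin.snoc (α := fun _ => M.toStarSubalgebra) x' (Y p q)) -
          Crest.OpAlg.hochschildDiff G
            (Fin.snoc (α := fun _ => M.toStarSubalgebra) x' (Y p q)) :
          M.toStarSubalgebra) : H →L[ℂ] H) (z q), w p⟫_ℂ)) := by
    refine tendsto_finsetSum _ fun p _ => tendsto_finsetSum _ fun q _ => ?_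
    have h1 := tendsto_diff (M := M) (l := (hyperfilter ℕ : Filter ℕ)) (g := fun i => ⇑(g i))
      (G := ⇑G) hG3 (Fin.snoc (α := fun _ => M.toStarSubalgebra) x' (Y p q)) (z q) (w p)
    have h2 := (tendsto_const_nhds (x := ⟪((f (Fin.snoc (α := fun _ => M.toStarSubalgebra)
      x' (Y p q)) : M.toStarSubalgebra) : H →L[ℂ] H) (z q), w p⟫_ℂ)
      (f := (hyperfilter ℕ : Filter ℕ))).sub h1
    have e1 : ∀ a b : M.toStarSubalgebra, ⟪((a - b : M.toStarSubalgebra) : H →L[ℂ] H) (z q),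
        w p⟫_ℂ = ⟪(a : H →L[ℂ] H) (z q), w p⟫_ℂ - ⟪(b : H →L[ℂ] H) (z q), w p⟫_ℂ := by
      intro a b
      rw [← inner_sub_left]; rfl
    simp only [e1]
    exact h2
  refine le_of_tendsto hlim.norm ?_
  have hge : ∀ᶠ n : ℕ in (hyperfilter ℕ : Filter ℕ), m ≤ n :=
    Nat.hyperfilter_le_atTop (eventually_ge_atTop m)
  filter_upwards [hge] with n hn
  have hdiff : ∀ x : Fin (k + 1) → M.toStarSubalgebra,
      f x - Crest.OpAlg.hochschildDiff (g n) x = Pf (s n) f x := fun x =>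
    homot_diff f hf (s n) (fun i => star (s n i)) (fun i => by
      have := hs n i i
      rwa [if_pos rfl] at this) x
  have h3 := Pf_form (show m ≤ n + 1 by omega) (s n) (hs n) f hC hfC x' Y hK hY z w
  refine le_trans (le_of_eq ?_) h3
  rw [← RCLike.norm_conj (∑ p, ∑ q, ⟪w p,
    (Pf (s n) f (Fin.snoc (α := fun _ => M.toStarSubalgebra) x' (Y p q)) : H →L[ℂ] H) (z q)⟫_ℂ)]
  congr 1
  rw [map_sum]
  refine Finset.sum_congr rfl fun p _ => ?_
  rw [map_sum]
  refine Finset.sum_congr rfl fun q _ => ?_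
  rw [inner_conj_symm, hdiff]

end Crest.Agent.R121.P
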