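import Crest.Agent.R121.RED1

/-! Row 121, module RED2 (helper78): transport of `TrOn`, `MUc`, `PInf`, `TypeI`, `TypeII` from
the central projection `c` of `M` to the unit of the reduced algebra `red M hc`. -/

set_option autoImplicit false
set_option linter.deprecated false
set_option linter.unusedSectionVars false

namespace Crest.Agent.R121

open scoped InnerProductSpace ComplexOrder
open Crest.OpAlg

variable {H : Type*} [NormedAddCommGroup H] [InnerProductSpace ℂ H] [CompleteSpace H]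

theorem dnL_self (c : H →L[ℂ] H) : dnL c c = 1 := by
  ext1 x
  rw [dnL_apply, c_inc_apply, pr_inc_apply]
  rfl

theorem dnL_zero (c : H →L[ℂ] H) : dnL c 0 = 0 := by
  ext1 x
  simp [dnL_apply]

theorem dnL_sum (c : H →L[ℂ] H) {ι : Type*} (s : Finset ι) (f : ι → (H →L[ℂ] H)) :
    dnL c (∑ i ∈ s, f i) = ∑ i ∈ s, dnL c (f i) := by
  classical
  induction s using Finset.induction_on with
  | empty => simp [dnL_zero]
  | insert a s ha ih => rw [Finset.sum_insert ha, Finset.sum_insert ha, dnL_add, ih]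

theorem norm_inc (c : H →L[ℂ] H) (x : RK c) : ‖inc c x‖ = ‖x‖ := rfl

/-- `TrOn` passes to the reduced algebra -/
theorem trOn_red {M : VonNeumannAlgebra H} {c : H →L[ℂ] H} (hc : CProj M c)
    {τ : M.toStarSubalgebra →L[ℂ] ℂ} (h : TrOn M c τ) :
    TrOn (red M hc) 1 (τ.comp (up hc)) where
  tr a b := by
    rw [ContinuousLinearMap.comp_apply, ContinuousLinearMap.comp_apply, up_mul, up_mul]
    exact h.tr _ _
  nonneg a := by
    rw [ContinuousLinearMap.comp_apply, up_mul, up_star]
    exact h.nonneg _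
  one := by
    rw [ContinuousLinearMap.comp_apply, ← h.one]
    refine h.cut _ _ ?_
    rw [up_one hc]
    exact (mul_one c).symm
  cut a b hab := by
    rw [one_mul] at hab
    rw [Subtype.ext hab]
  normal ε hε := by
    obtain ⟨m, ξ, η, hh⟩ := h.normal ε hε
    refine ⟨m, fun k => pr c (ξ k), fun k => pr c (η k), fun x => ?_⟩
    have h1 := hh (up hc x)
    rw [norm_up] at h1
    have h2 : ∀ k, ⟪pr c (η k), (x : RK c →L[ℂ] RK c) (pr c (ξ k))⟫_ℂ
        = ⟪η k, ((up hc x : M.toStarSubalgebra) : H →L[ℂ] H) (ξ k)⟫_ℂ := by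
      intro k
      rw [coe_up, upL_apply, pr, ContinuousLinearMap.adjoint_inner_left]
    simp only [h2]
    exact h1
  ac ξ ε hε := by
    obtain ⟨δ, hδ, hh⟩ := h.ac (inc c ξ) ε hε
    refine ⟨δ, hδ, fun a ha hτ => ?_⟩
    rw [ContinuousLinearMap.comp_apply, up_mul, up_star] at hτ
    have := hh (up hc a) (by rw [norm_up]; exact ha) hτ
    rw [coe_up, upL_apply, pr_inc_apply, c_inc_apply, norm_inc] at this
    rw [ContinuousLinearMap.one_apply]
    exact this

theorem MUc.c_mul {M : VonNeumannAlgebra H} {c : H →L[ℂ] H} {K : ℕ}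
    {e : Fin K → Fin K → (H →L[ℂ] H)} (h : MUc M c K e) (i j : Fin K) : c * e i j = e i j := by
  rw [← h.sum, Finset.sum_mul, Finset.sum_eq_single i]
  · rw [h.mul, if_pos rfl]
  · intro b _ hb
    rw [h.mul, if_neg hb]
  · intro hi
    exact absurd (Finset.mem_univ i) hi

theorem MUc.mul_c {M : VonNeumannAlgebra H} {c : H →L[ℂ] H} {K : ℕ}
    {e : Fin K → Fin K → (H →L[ℂ] H)} (h : MUc M c K e) (i j : Fin K) : e i j * c = e i j := by
  rw [← h.sum, Finset.mul_sum, Finset.sum_eq_single j]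
  · rw [h.mul, if_pos rfl]
  · intro b _ hb
    rw [h.mul, if_neg (Ne.symm hb)]
  · intro hi
    exact absurd (Finset.mem_univ j) hi

/-- matrix units pass to the reduced algebra -/
theorem muc_red {M : VonNeumannAlgebra H} {c : H →L[ℂ] H} (hc : CProj M c) {K : ℕ}
    {e : Fin K → Fin K → (H →L[ℂ] H)} (h : MUc M c K e) :
    MUc (red M hc) 1 K (fun i j => dnL c (e i j)) where
  mem i j := dnL_mem hc (h.mem i j)
  mul i j k l := by
    rw [← dnL_mul hc _ (h.mem i j), h.mul]
    split_ifs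
    · rfl
    · exact dnL_zero c
  star i j := by
    rw [← dnL_star, h.star]
  sum := by
    rw [← dnL_sum, h.sum, dnL_self]

/-- `PInf` passes to the reduced algebra -/
theorem pinf_red {M : VonNeumannAlgebra H} {c : H →L[ℂ] H} (hc : CProj M c)
    (h : PInf M c) : PInf (red M hc) 1 := by
  intro n
  obtain ⟨s, hs, hss⟩ := h n
  refine ⟨fun i => dnL c (s i), fun i => dnL_mem hc (hs i), fun i j => ?_⟩
  rw [← dnL_star, ← dnL_mul hc _ (star_mem (hs i)), hss]
  split_ifs
  · exact dnL_self c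
  · exact dnL_zero c

/-- `TypeII` passes to the reduced algebra -/
theorem typeII_red {M : VonNeumannAlgebra H} {c : H →L[ℂ] H} (hc : CProj M c)
    (h : TypeII M c) : TypeII (red M hc) 1 := by
  obtain ⟨⟨τ, hτ⟩, hK⟩ := h
  refine ⟨⟨_, trOn_red hc hτ⟩, fun K₀ => ?_⟩
  obtain ⟨K, h1, h2, e, he⟩ := hK K₀
  exact ⟨K, h1, h2, _, muc_red hc he⟩

/-- `TypeI` passes to the reduced algebra -/
theorem typeI_red {M : VonNeumannAlgebra H} {c : H →L[ℂ] H} (hc : CProj M c)
    (h : TypeI M c) : TypeI (red M hc) 1 := by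
  obtain ⟨n, hn, e, he, hx⟩ := h
  refine ⟨n, hn, _, muc_red hc he, fun x hxM _ hcomm => ?_⟩
  have key : upL c x ∈ M.commutant := by
    refine hx _ ((mem_red hc).1 hxM) ?_ ?_
    · have := c_mul_up hc ⟨x, hxM⟩
      exact this
    · intro i j
      have h1 := congrArg (upL c) (hcomm i j)
      rw [upL_mul, upL_mul, upL_dnL hc.proj, he.c_mul, he.mul_c] at h1
      exact h1
  rw [VonNeumannAlgebra.mem_commutant_iff] at key ⊢
  intro y hy
  have h2 := key _ ((mem_red hc).1 hy)
  rw [← upL_mul, ← upL_mul] at h2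
  have h3 := congrArg (dnL c) h2
  rwa [dnL_upL, dnL_upL] at h3

/-- the unit is a central projection -/
theorem cproj_one (M : VonNeumannAlgebra H) : CProj M 1 :=
  ⟨IsStarProjection.one _, one_mem M, one_mem M.commutant⟩

/-- faithfulness: `τ (a* a) = 0` forces `a = 0` when `c = 1` -/
theorem TrOn.faithful {M : VonNeumannAlgebra H} {τ : M.toStarSubalgebra →L[ℂ] ℂ}
    (h : TrOn M 1 τ) {a : M.toStarSubalgebra} (ha : τ (star a * a) = 0) : a = 0 := by
  have key : ∀ b : M.toStarSubalgebra, ‖b‖ ≤ 1 → τ (star b * b) = 0 → b = 0 := by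
    intro b hb hb0
    refine Subtype.ext (ContinuousLinearMap.ext fun ξ => ?_)
    have h00 : (((0 : M.toStarSubalgebra) : H →L[ℂ] H)) ξ = 0 := rfl
    rw [h00, ← norm_le_zero_iff]
    refine le_of_forall_pos_le_add fun ε hε => ?_
    obtain ⟨δ, hδ, hh⟩ := h.ac ξ ε hε
    have := hh b hb (by rw [hb0]; simpa using hδ.le)
    rw [ContinuousLinearMap.one_apply] at this
    simpa using this
  by_cases h0 : ‖a‖ = 0
  · exact norm_eq_zero.1 h0
  have hpos : 0 < ‖a‖ := lt_of_le_of_ne (norm_nonneg _) (Ne.symm h0)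
  have hb := key (((‖a‖⁻¹ : ℝ) : ℂ) • a) ?_ ?_
  · rcases smul_eq_zero.1 hb with h1 | h1
    · exfalso
      rw [Complex.ofReal_eq_zero, inv_eq_zero] at h1
      exact h0 h1
    · exact h1
  · rw [norm_smul, Complex.norm_real, norm_inv, norm_norm, inv_mul_cancel₀ h0]
  · rw [star_smul, smul_mul_smul_comm, map_smul, ha, smul_zero]

end Crest.Agent.R121
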