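import Crest.Agent.R121.B8
import Crest.Agent.R121.P3
import Crest.Agent.R121.F0r
import Crest.Agent.R121.RED2
import Crest.Agent.R121.DML

/-!
# Row 121, F0p (helper38): the properly infinite pieces are good
-/

set_option autoImplicit false
set_option linter.unusedSectionVars false

namespace Crest.Agent.R121

open scoped InnerProductSpace ComplexConjugate
open Crest.OpAlg Finset

variable {H : Type*} [NormedAddCommGroup H] [InnerProductSpace ℂ H] [CompleteSpace H]

theorem norm_of_MBd_one {y : H →L[ℂ] H} {K : ℝ} (hK : 0 ≤ K)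
    (h : P.MBd (fun _ _ : Fin 1 => y) K) : ‖y‖ ≤ K := by
  refine ContinuousLinearMap.opNorm_le_bound _ hK fun z => ?_
  have h1 := h (fun _ => z)
  simp only [Finset.univ_unique, Finset.sum_singleton] at h1
  rw [← mul_pow] at h1
  exact (sq_le_sq₀ (norm_nonneg _) (mul_nonneg hK (norm_nonneg _))).1 h1

theorem MBd_one (y : H →L[ℂ] H) : P.MBd (fun _ _ : Fin 1 => y) ‖y‖ := by
  intro z
  simp only [Finset.univ_unique, Finset.sum_singleton]
  rw [← mul_pow]
  exact pow_le_pow_left₀ (norm_nonneg _) (y.le_opNorm _) 2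

/-- module P + PART B, case `c = 1` -/
theorem exists_of_propInf (M : VonNeumannAlgebra H)
    (hPI : ∀ n : ℕ, ∃ s : Fin n → M.toStarSubalgebra, P.OrthA s) {k : ℕ}
    (f : ContinuousMultilinearMap ℂ (fun _ : Fin (k + 1) => M.toStarSubalgebra)
      M.toStarSubalgebra)
    {C : ℝ} (hC : 0 ≤ C) (hfC : ∀ x, ‖f x‖ ≤ C * ∏ i, ‖x i‖)
    (hf : ∀ a : Fin (k + 2) → M.toStarSubalgebra, hochschildDiff f a = 0) :
    ∃ g : ContinuousMultilinearMap ℂ (fun _ : Fin k => M.toStarSubalgebra) M.toStarSubalgebra,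
      (∀ x, ‖g x‖ ≤ (C + (k + 1) * C) * ∏ i, ‖x i‖) ∧ ∀ a, hochschildDiff g a = f a := by
  obtain ⟨G, hG1, hG2, hG3⟩ := P.propInf_cb hPI f.toMultilinearMap hC hfC hf
  -- `f' = f - d G` as a continuous multilinear map
  let F0 : MultilinearMap ℂ (fun _ : Fin (k + 1) => M.toStarSubalgebra) M.toStarSubalgebra :=
    f.toMultilinearMap - dML G.toMultilinearMap
  have hF0 : ∀ x, F0 x = f x - hochschildDiff G x := by
    intro x
    show f x - dML G.toMultilinearMap x = _
    rw [dML_apply]
    rfl
  have hF0n : ∀ x, ‖F0 x‖ ≤ C * ∏ i, ‖x i‖ := by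
    intro x
    have h1 := hG3 1 (fun i => x i.castSucc) (fun _ _ => x (Fin.last k)) ‖x (Fin.last k)‖
      (norm_nonneg _) (MBd_one _)
    have hx : (Fin.snoc (α := fun _ => M.toStarSubalgebra) (fun i : Fin k => x i.castSucc)
        (x (Fin.last k)) : Fin (k + 1) → M.toStarSubalgebra) = x := by
      funext i
      refine Fin.lastCases ?_ (fun i => ?_) i
      · rw [Fin.snoc_last]
      · rw [Fin.snoc_castSucc]
    rw [hx] at h1
    have h2 := norm_of_MBd_one (by positivity) h1
    rw [hF0, Fin.prod_univ_castSucc]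
    exact h2
  let F := F0.mkContinuous C hF0n
  have hF : ∀ x, F x = f x - hochschildDiff G x := hF0
  have hFd : ∀ a, hochschildDiff F a = 0 := by
    intro a
    have e1 : hochschildDiff F a = hochschildDiff (fun x => f x - hochschildDiff G x) a := by
      congr 1
      funext x
      exact hF x
    rw [e1, diff_sub, hf, diff_diff, sub_zero]
  have hcb : LastCB M C F := by
    intro x m y hy ξ
    have h1 := hG3 m x y 1 zero_le_one (fun z => by
      rw [one_pow, one_mul]; exact hy z) ξ
    rw [mul_one] at h1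
    simp only [hF]
    exact h1
  obtain ⟨g, hg, hgd⟩ := partB M F hFd hC hcb
  refine ⟨g + G, fun x => ?_, fun a => ?_⟩
  · rw [ContinuousMultilinearMap.add_apply, add_mul]
    refine (norm_add_le _ _).trans (add_le_add ?_ (hG2 x))
    refine (g.le_opNorm x).trans ?_
    exact mul_le_mul_of_nonneg_right hg (Finset.prod_nonneg fun _ _ => norm_nonneg _)
  · have e1 : hochschildDiff (g + G : ContinuousMultilinearMap ℂ
        (fun _ : Fin k => M.toStarSubalgebra) M.toStarSubalgebra) a =
        hochschildDiff (fun x => g x + G x) a := rfl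
    rw [e1, diff_add', hgd, hF]
    abel

/-- **properly infinite pieces are good** -/
theorem good_pinf (M : VonNeumannAlgebra H) {k : ℕ}
    (f : ContinuousMultilinearMap ℂ (fun _ : Fin (k + 1) => M.toStarSubalgebra)
      M.toStarSubalgebra)
    (hf : ∀ a : Fin (k + 2) → M.toStarSubalgebra, hochschildDiff f a = 0)
    {c : H →L[ℂ] H} (hc : CProj M c) (hP : PInf M c) :
    Good M f ((‖f‖ + (k + 1) * ‖f‖) + (k + 1) * ‖f‖) c := by
  have h0 := norm_nonneg f
  refine good_red hc f.toMultilinearMap (norm_nonneg f) (fun x => f.le_opNorm x) hf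
    (D := ‖f‖ + (k + 1) * ‖f‖) (by positivity) ?_
  intro F hF hFd
  refine exists_of_propInf (red M hc) ?_ F (norm_nonneg f) hF hFd
  intro n
  obtain ⟨s, hs1, hs2⟩ := pinf_red hc hP n
  refine ⟨fun i => ⟨s i, hs1 i⟩, fun i j => ?_⟩
  apply Subtype.ext
  show star (s i) * s j = _
  rw [hs2]
  split_ifs <;> rfl

end Crest.Agent.R121
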