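import Crest.Agent.R121.F1a
import Crest.Agent.R95.VDefs

/-! Row 121, module F1 (helper77): gluing of local solutions along central projections. -/

set_option autoImplicit false

namespace Crest.Agent.R121

open scoped InnerProductSpace ComplexOrder
open Crest.OpAlg

variable {H : Type*} [NormedAddCommGroup H] [InnerProductSpace ℂ H] [CompleteSpace H]

/-- maximal families of orthogonal good central projections exhaust `1` -/
theorem exists_family (M : VonNeumannAlgebra H) (P : (H →L[ℂ] H) → Prop)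
    (h : ∀ d, CProj M d → d ≠ 0 → ∃ c, CProj M c ∧ c ≠ 0 ∧ c * d = c ∧ P c) :
    ∃ S : Set (H →L[ℂ] H), (∀ c ∈ S, CProj M c ∧ P c) ∧
      (∀ c ∈ S, ∀ d ∈ S, c ≠ d → c * d = 0) ∧
      ∀ η : H, (∀ c ∈ S, c η = 0) → η = 0 := by
  classical
  let Q : Set (Set (H →L[ℂ] H)) :=
    {S | (∀ c ∈ S, CProj M c ∧ c ≠ 0 ∧ P c) ∧ ∀ c ∈ S, ∀ d ∈ S, c ≠ d → c * d = 0}
  obtain ⟨S, hS⟩ := zorn_subset Q (by
    intro C hC hch
    refine ⟨⋃₀ C, ⟨?_, ?_⟩, fun s hs => Set.subset_sUnion_of_mem hs⟩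
    · rintro c ⟨s, hs, hcs⟩
      exact (hC hs).1 c hcs
    · rintro c ⟨s, hs, hcs⟩ d ⟨t, ht, hdt⟩ hcd
      rcases hch.total hs ht with h1 | h1
      · exact (hC ht).2 c (h1 hcs) d hdt hcd
      · exact (hC hs).2 c hcs d (h1 hdt) hcd)
  have hSQ : S ∈ Q := hS.prop
  refine ⟨S, fun c hc => ⟨(hSQ.1 c hc).1, (hSQ.1 c hc).2.2⟩, hSQ.2, ?_⟩
  -- the projection `d` onto the common kernel
  let W : Submodule ℂ H := ⨅ c ∈ S, LinearMap.ker (c : H →L[ℂ] H).toLinearMap
  have hW : ∀ η, η ∈ W ↔ ∀ c ∈ S, c η = 0 := by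
    intro η
    simp [W, Submodule.mem_iInf]
  have hWc : IsClosed (W : Set H) := by
    have : (W : Set H) = ⋂ c ∈ S, {η : H | c η = 0} := by
      ext η
      simp [hW]
    rw [this]
    exact isClosed_biInter fun c _ => isClosed_eq c.continuous continuous_const
  have : CompleteSpace W := hWc.completeSpace_coe
  have hd : CProj M W.starProjection := by
    refine ⟨isStarProjection_starProjection, ?_, ?_⟩
    · refine R95.VN.starProjection_mem W ?_
      intro m hm η hη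
      rw [hW] at hη ⊢
      intro c hc
      have h1 := R95.VN.comm_of_mem (hSQ.1 c hc).1.mem hm
      have h2 : c (m η) = m (c η) := congrArg (fun T : H →L[ℂ] H => T η) h1.symm
      rw [h2, hη c hc, map_zero]
    · refine R95.VN.starProjection_mem W ?_
      intro m hm η hη
      rw [VonNeumannAlgebra.commutant_commutant] at hm
      rw [hW] at hη ⊢
      intro c hc
      have h1 := R95.VN.comm_of_mem hm (hSQ.1 c hc).1.comm
      have h2 : c (m η) = m (c η) := congrArg (fun T : H →L[ℂ] H => T η) h1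
      rw [h2, hη c hc, map_zero]
  have hd0 : W.starProjection = 0 := by
    by_contra hne
    obtain ⟨c, hc, hc0, hcd, hP⟩ := h _ hd hne
    have hsd : ∀ s ∈ S, s * W.starProjection = 0 := by
      intro s hs
      ext η
      exact (hW _).1 (Submodule.starProjection_apply_mem W η) s hs
    have hcs : ∀ s ∈ S, c * s = 0 := by
      intro s hs
      have h1 : W.starProjection * s = 0 := by
        have := congrArg star (hsd s hs)
        rwa [star_mul, (hSQ.1 s hs).1.proj.isSelfAdjoint.star_eq, hd.proj.isSelfAdjoint.star_eq,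
          star_zero] at this
      rw [← hcd, mul_assoc, h1, mul_zero]
    have hsc : ∀ s ∈ S, s * c = 0 := by
      intro s hs
      have := congrArg star (hcs s hs)
      rwa [star_mul, (hSQ.1 s hs).1.proj.isSelfAdjoint.star_eq, hc.proj.isSelfAdjoint.star_eq,
        star_zero] at this
    have hins : insert c S ∈ Q := by
      constructor
      · intro s hs
        rcases Set.mem_insert_iff.1 hs with rfl | hs
        · exact ⟨hc, hc0, hP⟩
        · exact hSQ.1 s hs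
      · intro s hs t ht hst
        rcases Set.mem_insert_iff.1 hs with h1 | h1 <;>
          rcases Set.mem_insert_iff.1 ht with h2 | h2
        · exact absurd (h1.trans h2.symm) hst
        · rw [h1]; exact hcs t h2
        · rw [h2]; exact hsc s h1
        · exact hSQ.2 s h1 t h2 hst
    have hcS : c ∈ S := hS.le_of_ge hins (Set.subset_insert c S) (Set.mem_insert c S)
    exact hc0 (by rw [← hc.proj.isIdempotentElem.eq]; exact hcs c hcS)
  intro η hη
  have h1 : η ∈ W := (hW η).2 hη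
  have h2 := Submodule.starProjection_eq_self_iff.2 h1
  rw [← h2, hd0]
  rfl

/-- finite sums of a maximal family converge strongly to `1` -/
theorem family_strong {M : VonNeumannAlgebra H} {S : Set (H →L[ℂ] H)}
    (hS : ∀ c ∈ S, CProj M c) (ho : ∀ c ∈ S, ∀ d ∈ S, c ≠ d → c * d = 0)
    (h0 : ∀ η : H, (∀ c ∈ S, c η = 0) → η = 0)
    (hsum : ∀ F : Finset (H →L[ℂ] H), (↑F : Set (H →L[ℂ] H)) ⊆ S → CProj M (∑ c ∈ F, c))
    (ξ : H) {ε : ℝ} (hε : 0 < ε) :
    ∃ F : Finset (H →L[ℂ] H), (↑F : Set (H →L[ℂ] H)) ⊆ S ∧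
      ∀ G : Finset (H →L[ℂ] H), (↑G : Set (H →L[ℂ] H)) ⊆ S → F ⊆ G →
        ‖(∑ c ∈ G, c) ξ - ξ‖ ≤ ε := by
  classical
  let L : Submodule ℂ H := ⨆ c : S, LinearMap.range (c : H →L[ℂ] H).toLinearMap
  have hL : L.topologicalClosure = ⊤ := by
    rw [Submodule.topologicalClosure_eq_top_iff, Submodule.eq_bot_iff]
    intro η hη
    refine h0 η fun c hc => ?_
    have h1 : ∀ x, ⟪c x, η⟫_ℂ = 0 := fun x =>
      (Submodule.mem_orthogonal L η).1 hη _
        (Submodule.mem_iSup_of_mem (⟨c, hc⟩ : S) ⟨x, rfl⟩)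
    have h2 := h1 (c η)
    have h3 : ContinuousLinearMap.adjoint c = c := (hS c hc).proj.isSelfAdjoint.star_eq
    have h4 : ⟪c (c η), η⟫_ℂ = ⟪c η, c η⟫_ℂ := by
      conv_lhs => rw [← h3]
      rw [ContinuousLinearMap.adjoint_inner_left]
      rw [h3]
    rw [h4] at h2
    exact inner_self_eq_zero.1 h2
  have key : ∀ η ∈ L, ∃ F : Finset (H →L[ℂ] H), (↑F : Set (H →L[ℂ] H)) ⊆ S ∧
      ∀ G : Finset (H →L[ℂ] H), (↑G : Set (H →L[ℂ] H)) ⊆ S → F ⊆ G → (∑ c ∈ G, c) η = η := by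
    intro η hη
    refine Submodule.iSup_induction _ (motive := fun η =>
      ∃ F : Finset (H →L[ℂ] H), (↑F : Set (H →L[ℂ] H)) ⊆ S ∧
      ∀ G : Finset (H →L[ℂ] H), (↑G : Set (H →L[ℂ] H)) ⊆ S → F ⊆ G → (∑ c ∈ G, c) η = η)
      hη ?_ ?_ ?_
    · rintro ⟨c, hc⟩ x ⟨y, rfl⟩
      refine ⟨{c}, by simpa using hc, fun G hG hFG => ?_⟩
      have hcG : c ∈ G := hFG (Finset.mem_singleton_self c)
      have h1 : (∑ d ∈ G, d) * c = c := by
        rw [Finset.sum_mul, Finset.sum_eq_single_of_mem c hcG]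
        · exact (hS c hc).proj.isIdempotentElem.eq
        · intro d hd hdc
          exact ho d (hG hd) c hc hdc
      exact congrArg (fun T : H →L[ℂ] H => T y) h1
    · exact ⟨∅, by simp, fun G _ _ => map_zero _⟩
    · rintro x y ⟨F1, hF1, h1⟩ ⟨F2, hF2, h2⟩
      refine ⟨F1 ∪ F2, ?_, fun G hG hFG => ?_⟩
      · rw [Finset.coe_union]
        exact Set.union_subset hF1 hF2
      · rw [map_add, h1 G hG (Finset.union_subset_left hFG),
          h2 G hG (Finset.union_subset_right hFG)]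
  have hξ : ξ ∈ closure (L : Set H) := by
    rw [← Submodule.topologicalClosure_coe, hL]
    trivial
  obtain ⟨η, hη, hd⟩ := Metric.mem_closure_iff.1 hξ (ε / 2) (by positivity)
  obtain ⟨F, hF, hG⟩ := key η hη
  refine ⟨F, hF, fun G hGS hFG => ?_⟩
  have hP := (hsum G hGS).proj
  have hn : ‖(∑ c ∈ G, c) (ξ - η)‖ ≤ ‖ξ - η‖ := by
    have h1 : ‖(∑ c ∈ G, c)‖ ≤ 1 := hP.norm_le
    calc _ ≤ ‖∑ c ∈ G, c‖ * ‖ξ - η‖ := ContinuousLinearMap.le_opNorm _ _
      _ ≤ 1 * ‖ξ - η‖ := by gcongr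
      _ = _ := one_mul _
  have h2 : (∑ c ∈ G, c) ξ - ξ = (∑ c ∈ G, c) (ξ - η) - (ξ - η) := by
    rw [map_sub, hG G hGS hFG]
    abel
  rw [h2]
  rw [dist_eq_norm] at hd
  calc _ ≤ ‖(∑ c ∈ G, c) (ξ - η)‖ + ‖ξ - η‖ := norm_sub_le _ _
    _ ≤ ‖ξ - η‖ + ‖ξ - η‖ := by gcongr
    _ ≤ ε := by linarith

/-- **gluing**: local solutions with a common bound give a global solution -/
theorem glue (M : VonNeumannAlgebra H) {n : ℕ}
    (f : (Fin (n + 1) → M.toStarSubalgebra) → M.toStarSubalgebra) {C : ℝ} (hC : 0 ≤ C)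
    (h : ∀ d, CProj M d → d ≠ 0 → ∃ c, CProj M c ∧ c ≠ 0 ∧ c * d = c ∧ Good M f C c) :
    ∃ g : ContinuousMultilinearMap ℂ (fun _ : Fin n => M.toStarSubalgebra) M.toStarSubalgebra,
      ∀ a, hochschildDiff g a = f a := by
  classical
  obtain ⟨S, hS, ho, h0⟩ := exists_family M (Good M f C) h
  have hsum : ∀ F : Finset (H →L[ℂ] H), (↑F : Set (H →L[ℂ] H)) ⊆ S →
      CProj M (∑ c ∈ F, c) ∧ Good M f C (∑ c ∈ F, c) := fun F hF =>
    good_finset hC F (fun c hc => hS c (hF hc)) fun c hc d hd => ho c (hF hc) d (hF hd)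
  obtain ⟨g, -, hg⟩ := exists_of_local M f hC (by
    intro T ε hε
    have hv : ∀ s : (Fin (n + 1) → M.toStarSubalgebra) × H × H,
        ∃ F : Finset (H →L[ℂ] H), (↑F : Set (H →L[ℂ] H)) ⊆ S ∧
        ∀ G : Finset (H →L[ℂ] H), (↑G : Set (H →L[ℂ] H)) ⊆ S → F ⊆ G →
          ‖(∑ c ∈ G, c) ((f s.1 : H →L[ℂ] H) s.2.1) - (f s.1 : H →L[ℂ] H) s.2.1‖ ≤
            ε / (‖s.2.2‖ + 1) := fun s =>
      family_strong (fun c hc => (hS c hc).1) ho h0 (fun F hF => (hsum F hF).1) _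
        (by positivity)
    choose F hF hG using hv
    let G := T.biUnion F
    have hGS : (↑G : Set (H →L[ℂ] H)) ⊆ S := by
      intro c hc
      obtain ⟨s, -, hcs⟩ := Finset.mem_biUnion.1 (Finset.mem_coe.1 hc)
      exact hF s hcs
    obtain ⟨g, hg1, hg2⟩ := (hsum G hGS).2
    refine ⟨g.toMultilinearMap, hg1, fun s hs => ?_⟩
    have h1 : ((hochschildDiff g.toMultilinearMap s.1 : M.toStarSubalgebra) : H →L[ℂ] H) =
        (∑ c ∈ G, c) * (f s.1 : H →L[ℂ] H) := hg2 s.1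
    rw [h1, ← inner_sub_left]
    have h2 := hG s G hGS (Finset.subset_biUnion_of_mem F hs)
    calc _ ≤ ‖((∑ c ∈ G, c) * (f s.1 : H →L[ℂ] H)) s.2.1 - (f s.1 : H →L[ℂ] H) s.2.1‖ *
          ‖s.2.2‖ := norm_inner_le_norm _ _
      _ ≤ ε / (‖s.2.2‖ + 1) * ‖s.2.2‖ := by gcongr; exact h2
      _ ≤ ε := by
        rw [div_mul_eq_mul_div, div_le_iff₀ (by positivity)]
        nlinarith [norm_nonneg s.2.2])
  exact ⟨g, hg⟩

end Crest.Agent.R121
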