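import Crest.Agent.R121.FDefs

/-! Row 121, module F1a: gluing of good pieces over orthogonal central projections. -/

set_option autoImplicit false

namespace Crest.Agent.R121

open scoped InnerProductSpace ComplexOrder
open Crest.OpAlg

section ring

variable {A : Type*} [Ring A]

theorem hd_mul_left {k : ℕ} (z : A) (hz : ∀ x : A, z * x = x * z) (g : (Fin k → A) → A)
    (a : Fin (k + 1) → A) :
    hochschildDiff (fun x => z * g x) a = z * hochschildDiff g a := by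
  unfold hochschildDiff
  simp only [mul_add, Finset.mul_sum, mul_smul_comm]
  congr 1
  · congr 1
    rw [← mul_assoc, ← hz, mul_assoc]
  · rw [mul_assoc]

theorem hd_add {k : ℕ} (g h : (Fin k → A) → A) (a : Fin (k + 1) → A) :
    hochschildDiff (fun x => g x + h x) a = hochschildDiff g a + hochschildDiff h a := by
  unfold hochschildDiff
  simp only [mul_add, add_mul, smul_add, Finset.sum_add_distrib]
  abel

end ring

variable {H : Type*} [NormedAddCommGroup H] [InnerProductSpace ℂ H] [CompleteSpace H]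

theorem CProj.zero (M : VonNeumannAlgebra H) : CProj M (0 : H →L[ℂ] H) :=
  ⟨IsStarProjection.zero _, zero_mem _, zero_mem _⟩

theorem CProj.one (M : VonNeumannAlgebra H) : CProj M (1 : H →L[ℂ] H) :=
  ⟨IsStarProjection.one _, one_mem _, one_mem _⟩

theorem CProj.add {M : VonNeumannAlgebra H} {c d : H →L[ℂ] H} (hc : CProj M c) (hd : CProj M d)
    (hcd : c * d = 0) : CProj M (c + d) :=
  ⟨hc.proj.add hd.proj hcd, add_mem hc.mem hd.mem, add_mem hc.comm hd.comm⟩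

theorem CProj.one_sub {M : VonNeumannAlgebra H} {c : H →L[ℂ] H} (hc : CProj M c) :
    CProj M (1 - c) :=
  ⟨hc.proj.one_sub, sub_mem (one_mem _) hc.mem, sub_mem (one_mem _) hc.comm⟩

theorem CProj.comm' {M : VonNeumannAlgebra H} {c x : H →L[ℂ] H} (hc : CProj M c) (hx : x ∈ M) :
    c * x = x * c :=
  (VonNeumannAlgebra.mem_commutant_iff.1 hc.comm x hx).symm

theorem proj_norm_apply_le {p : H →L[ℂ] H} (hp : IsStarProjection p) (ξ : H) :
    ‖p ξ‖ ≤ ‖ξ‖ := by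
  have h1 : ‖p ξ‖ ^ 2 ≤ ‖ξ‖ * ‖p ξ‖ := by
    have h2 : ⟪p ξ, p ξ⟫_ℂ = ⟪ξ, p ξ⟫_ℂ := by
      have h3 : ⟪p ξ, p ξ⟫_ℂ = ⟪ξ, (star p) (p ξ)⟫_ℂ := by
        rw [ContinuousLinearMap.star_eq_adjoint, ContinuousLinearMap.adjoint_inner_right]
      rw [h3, hp.isSelfAdjoint.star_eq]
      have h4 : p (p ξ) = p ξ := by
        have := congrArg (fun T : H →L[ℂ] H => T ξ) hp.isIdempotentElem.eq
        simpa using this
      rw [h4]
    have h5 : (‖p ξ‖ : ℂ) ^ 2 = ⟪ξ, p ξ⟫_ℂ := by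
      rw [← h2, inner_self_eq_norm_sq_to_K]; rfl
    have h6 : ‖(‖p ξ‖ : ℂ) ^ 2‖ = ‖⟪ξ, p ξ⟫_ℂ‖ := by rw [h5]
    have h7 : ‖(‖p ξ‖ : ℂ) ^ 2‖ = ‖p ξ‖ ^ 2 := by
      rw [norm_pow, Complex.norm_real, norm_norm]
    rw [← h7, h6]
    exact norm_inner_le_norm _ _
  by_contra hlt
  push Not at hlt
  have h8 : 0 < ‖p ξ‖ := lt_of_le_of_lt (norm_nonneg _) hlt
  nlinarith

theorem proj_pyth {c d : H →L[ℂ] H} (hc : IsStarProjection c) (hcd : c * d = 0) (u v : H) :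
    ‖c u + d v‖ ^ 2 = ‖c u‖ ^ 2 + ‖d v‖ ^ 2 := by
  have h1 : ⟪c u, d v⟫_ℂ = 0 := by
    have h3 : ⟪c u, d v⟫_ℂ = ⟪u, (star c) (d v)⟫_ℂ := by
      rw [ContinuousLinearMap.star_eq_adjoint, ContinuousLinearMap.adjoint_inner_right]
    rw [h3, hc.isSelfAdjoint.star_eq]
    have h4 : c (d v) = 0 := by
      have := congrArg (fun T : H →L[ℂ] H => T v) hcd
      simpa using this
    rw [h4, inner_zero_right]
  have := norm_add_sq_eq_norm_sq_add_norm_sq_of_inner_eq_zero (𝕜 := ℂ) (c u) (d v) h1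
  nlinarith

theorem norm_cd_le {c d x y : H →L[ℂ] H} (hc : IsStarProjection c) (hd : IsStarProjection d)
    (hcd : c * d = 0) (hcx : c * x = x * c) (hdy : d * y = y * d) {K : ℝ} (hK : 0 ≤ K)
    (hx : ‖x‖ ≤ K) (hy : ‖y‖ ≤ K) : ‖c * x + d * y‖ ≤ K := by
  refine ContinuousLinearMap.opNorm_le_bound _ hK fun ξ => ?_
  have e1 : (c * x + d * y) ξ = c (x ξ) + d (y ξ) := by simp
  have e2 : c (x ξ) = x (c ξ) := by
    have := congrArg (fun T : H →L[ℂ] H => T ξ) hcx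
    simpa using this
  have e3 : d (y ξ) = y (d ξ) := by
    have := congrArg (fun T : H →L[ℂ] H => T ξ) hdy
    simpa using this
  have h1 : ‖c (x ξ) + d (y ξ)‖ ^ 2 = ‖x (c ξ)‖ ^ 2 + ‖y (d ξ)‖ ^ 2 := by
    rw [proj_pyth hc hcd, e2, e3]
  have h2 : ‖x (c ξ)‖ ≤ K * ‖c ξ‖ :=
    (x.le_opNorm _).trans (mul_le_mul_of_nonneg_right hx (norm_nonneg _))
  have h3 : ‖y (d ξ)‖ ≤ K * ‖d ξ‖ :=
    (y.le_opNorm _).trans (mul_le_mul_of_nonneg_right hy (norm_nonneg _))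
  have h4 : ‖c ξ‖ ^ 2 + ‖d ξ‖ ^ 2 ≤ ‖ξ‖ ^ 2 := by
    rw [← proj_pyth hc hcd]
    have h5 := proj_norm_apply_le (hc.add hd hcd) ξ
    have h6 : (c + d) ξ = c ξ + d ξ := by simp
    rw [h6] at h5
    exact pow_le_pow_left₀ (norm_nonneg _) h5 2
  rw [e1]
  have h7 : ‖c (x ξ) + d (y ξ)‖ ^ 2 ≤ (K * ‖ξ‖) ^ 2 := by
    rw [h1]
    have h8 : ‖x (c ξ)‖ ^ 2 ≤ (K * ‖c ξ‖) ^ 2 := pow_le_pow_left₀ (norm_nonneg _) h2 2
    have h9 : ‖y (d ξ)‖ ^ 2 ≤ (K * ‖d ξ‖) ^ 2 := pow_le_pow_left₀ (norm_nonneg _) h3 2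
    have h10 : K ^ 2 * (‖c ξ‖ ^ 2 + ‖d ξ‖ ^ 2) ≤ K ^ 2 * ‖ξ‖ ^ 2 :=
      mul_le_mul_of_nonneg_left h4 (sq_nonneg _)
    nlinarith
  exact (abs_le_of_sq_le_sq h7 (mul_nonneg hK (norm_nonneg _))).trans' (le_abs_self _)

theorem good_zero {M : VonNeumannAlgebra H} {n : ℕ}
    {f : (Fin (n + 1) → M.toStarSubalgebra) → M.toStarSubalgebra} {C : ℝ} (hC : 0 ≤ C) :
    Good M f C 0 := by
  refine ⟨0, fun x => ?_, fun a => ?_⟩
  · have : 0 ≤ C * ∏ i, ‖x i‖ := mul_nonneg hC (Finset.prod_nonneg fun i _ => norm_nonneg _)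
    simpa using this
  · unfold hochschildDiff
    simp

theorem good_add {M : VonNeumannAlgebra H} {n : ℕ}
    {f : (Fin (n + 1) → M.toStarSubalgebra) → M.toStarSubalgebra} {C : ℝ} (hC : 0 ≤ C)
    {c d : H →L[ℂ] H} (hc : CProj M c) (hd : CProj M d) (hcd : c * d = 0)
    (h1 : Good M f C c) (h2 : Good M f C d) : Good M f C (c + d) := by
  obtain ⟨g₁, b₁, e₁⟩ := h1
  obtain ⟨g₂, b₂, e₂⟩ := h2
  let cA : M.toStarSubalgebra := ⟨c, hc.mem⟩
  let dA : M.toStarSubalgebra := ⟨d, hd.mem⟩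
  have hcA : ∀ x : M.toStarSubalgebra, cA * x = x * cA := fun x =>
    Subtype.ext (hc.comm' x.2)
  have hdA : ∀ x : M.toStarSubalgebra, dA * x = x * dA := fun x =>
    Subtype.ext (hd.comm' x.2)
  let Lc : M.toStarSubalgebra →L[ℂ] M.toStarSubalgebra :=
    ContinuousLinearMap.mul ℂ M.toStarSubalgebra cA
  let Ld : M.toStarSubalgebra →L[ℂ] M.toStarSubalgebra :=
    ContinuousLinearMap.mul ℂ M.toStarSubalgebra dA
  refine ⟨Lc.compContinuousMultilinearMap g₁ + Ld.compContinuousMultilinearMap g₂,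
    fun x => ?_, fun a => ?_⟩
  · have hval : (((Lc.compContinuousMultilinearMap g₁ + Ld.compContinuousMultilinearMap g₂) x :
        M.toStarSubalgebra) : H →L[ℂ] H) = c * (g₁ x : H →L[ℂ] H) + d * (g₂ x : H →L[ℂ] H) := by
      rfl
    have hn : ‖(Lc.compContinuousMultilinearMap g₁ + Ld.compContinuousMultilinearMap g₂) x‖
        = ‖(((Lc.compContinuousMultilinearMap g₁ + Ld.compContinuousMultilinearMap g₂) x :
        M.toStarSubalgebra) : H →L[ℂ] H)‖ := rfl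
    rw [hn, hval]
    exact norm_cd_le hc.proj hd.proj hcd (hc.comm' (g₁ x).2) (hd.comm' (g₂ x).2)
      (mul_nonneg hC (Finset.prod_nonneg fun i _ => norm_nonneg _)) (b₁ x) (b₂ x)
  · have hfun : (⇑(Lc.compContinuousMultilinearMap g₁ + Ld.compContinuousMultilinearMap g₂) :
        (Fin n → M.toStarSubalgebra) → M.toStarSubalgebra)
        = fun x => (fun x => cA * g₁ x) x + (fun x => dA * g₂ x) x := by
      funext x; rfl
    rw [hfun, hd_add, hd_mul_left cA hcA, hd_mul_left dA hdA]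
    have hv : ((cA * hochschildDiff g₁ a + dA * hochschildDiff g₂ a : M.toStarSubalgebra) :
        H →L[ℂ] H) = c * ((hochschildDiff g₁ a : M.toStarSubalgebra) : H →L[ℂ] H)
        + d * ((hochschildDiff g₂ a : M.toStarSubalgebra) : H →L[ℂ] H) := rfl
    rw [hv, e₁ a, e₂ a, ← mul_assoc, ← mul_assoc, hc.proj.isIdempotentElem.eq,
      hd.proj.isIdempotentElem.eq, add_mul]

theorem good_finset {M : VonNeumannAlgebra H} {n : ℕ}
    {f : (Fin (n + 1) → M.toStarSubalgebra) → M.toStarSubalgebra} {C : ℝ} (hC : 0 ≤ C)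
    (S : Finset (H →L[ℂ] H)) (hS : ∀ c ∈ S, CProj M c ∧ Good M f C c)
    (ho : ∀ c ∈ S, ∀ d ∈ S, c ≠ d → c * d = 0) :
    CProj M (∑ c ∈ S, c) ∧ Good M f C (∑ c ∈ S, c) := by
  classical
  induction S using Finset.induction_on with
  | empty => exact ⟨by simpa using CProj.zero M, by simpa using good_zero hC⟩
  | insert a S ha ih =>
    have hS' := ih (fun c hc => hS c (Finset.mem_insert_of_mem hc))
      (fun c hc d hd => ho c (Finset.mem_insert_of_mem hc) d (Finset.mem_insert_of_mem hd))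
    have haS := hS a (Finset.mem_insert_self _ _)
    have horth : a * ∑ c ∈ S, c = 0 := by
      rw [Finset.mul_sum]
      refine Finset.sum_eq_zero fun c hc => ?_
      refine ho a (Finset.mem_insert_self _ _) c (Finset.mem_insert_of_mem hc) ?_
      rintro rfl
      exact ha hc
    rw [Finset.sum_insert ha]
    exact ⟨haS.1.add hS'.1 horth, good_add hC haS.1 hS'.1 horth haS.2 hS'.2⟩

end Crest.Agent.R121
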