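import Crest.Agent.R121.F2a

/-! Row 121, module F2 (helper77), part b: Liouville on the reduced algebra + normal companion ⟹ `Good`. -/

set_option autoImplicit false

namespace Crest.Agent.R121

open scoped InnerProductSpace ComplexOrder
open Crest.OpAlg

attribute [-instance] instCStarVN
attribute [local instance 10] instCStarVN
set_option maxHeartbeats 4000000

variable {H : Type*} [NormedAddCommGroup H] [InnerProductSpace ℂ H] [CompleteSpace H]
variable {M : VonNeumannAlgebra H} {c : H →L[ℂ] H}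

/-- the first slot of a bounded multilinear map -/
noncomputable def slot {n : ℕ}
    (F : MultilinearMap ℂ (fun _ : Fin (n + 1) => M.toStarSubalgebra) M.toStarSubalgebra) {C : ℝ}
    (hC : ∀ x, ‖F x‖ ≤ C * ∏ i, ‖x i‖) (x : Fin n → M.toStarSubalgebra) :
    M.toStarSubalgebra →L[ℂ] M.toStarSubalgebra :=
  LinearMap.mkContinuous
    { toFun := fun a => F (Fin.cons a x)
      map_add' := fun a b => by
        have := F.cons_add x a b
        exact this
      map_smul' := fun r a => by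
        have := F.cons_smul x r a
        exact this } (C * ∏ i, ‖x i‖) (fun a => by
      refine (hC _).trans (le_of_eq ?_)
      rw [Fin.prod_univ_succ]
      simp only [Fin.cons_zero, Fin.cons_succ]
      ring)

theorem slot_apply {n : ℕ}
    (F : MultilinearMap ℂ (fun _ : Fin (n + 1) => M.toStarSubalgebra) M.toStarSubalgebra) {C : ℝ}
    (hC : ∀ x, ‖F x‖ ≤ C * ∏ i, ‖x i‖) (x : Fin n → M.toStarSubalgebra) (a : M.toStarSubalgebra) :
    slot F hC x a = F (Fin.cons a x) := rfl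

/-- the slot on the reduced algebra -/
noncomputable def rslot (hc : CProj M c) {n : ℕ}
    (F : MultilinearMap ℂ (fun _ : Fin (n + 1) => M.toStarSubalgebra) M.toStarSubalgebra) {C : ℝ}
    (hC : ∀ x, ‖F x‖ ≤ C * ∏ i, ‖x i‖) (x : Fin n → M.toStarSubalgebra) :
    (red M hc).toStarSubalgebra →L[ℂ] (red M hc).toStarSubalgebra :=
  (dn hc).comp ((slot F hC x).comp (up hc))

theorem rslot_apply (hc : CProj M c) {n : ℕ}
    (F : MultilinearMap ℂ (fun _ : Fin (n + 1) => M.toStarSubalgebra) M.toStarSubalgebra) {C : ℝ}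
    (hC : ∀ x, ‖F x‖ ≤ C * ∏ i, ‖x i‖) (x : Fin n → M.toStarSubalgebra)
    (a : (red M hc).toStarSubalgebra) :
    rslot hc F hC x a = dn hc (F (Fin.cons (up hc a) x)) := rfl

/-- `F` only depends on `c a` -/
theorem dn_slot (hc : CProj M c) {τ : M.toStarSubalgebra →L[ℂ] ℂ} (hτ : TrOn M c τ) {n : ℕ}
    (F : MultilinearMap ℂ (fun _ : Fin (n + 1) => M.toStarSubalgebra) M.toStarSubalgebra) {C : ℝ}
    (hC : ∀ x, ‖F x‖ ≤ C * ∏ i, ‖x i‖)
    (hTC : ∀ (x : Fin n → M.toStarSubalgebra) (ε : ℝ), 0 < ε → ∃ δ : ℝ, 0 < δ ∧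
      ∀ a : M.toStarSubalgebra, ‖a‖ ≤ 1 → (τ (star a * a)).re ≤ δ →
        (τ (star (F (Fin.cons a x)) * F (Fin.cons a x))).re ≤ ε)
    (x : Fin n → M.toStarSubalgebra) (a : M.toStarSubalgebra) :
    dn hc (F (Fin.cons a x)) = rslot hc F hC x (dn hc a) := by
  have key : ∀ b : M.toStarSubalgebra, ‖b‖ ≤ 1 → dn hc b = 0 → dn hc (F (Fin.cons b x)) = 0 := by
    intro b hb hb0
    refine dn_eq_zero hc hτ _ ?_
    refine le_of_forall_pos_le_add fun ε hε => ?_
    obtain ⟨δ, hδ, h⟩ := hTC x ε hε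
    rw [zero_add]
    refine h b hb ?_
    rw [← q2_dn hc hτ, hb0]
    unfold q2
    simpa using hδ.le
  have key2 : ∀ b : M.toStarSubalgebra, dn hc b = 0 → dn hc (slot F hC x b) = 0 := by
    intro b hb0
    set R : ℝ := ‖b‖ + 1 with hR
    have hR0 : 0 < R := by positivity
    set b' : M.toStarSubalgebra := (((R)⁻¹ : ℝ) : ℂ) • b with hb'
    have h1 : dn hc (F (Fin.cons b' x)) = 0 := key b' (by
      rw [hb', norm_smul, Complex.norm_real, Real.norm_of_nonneg (inv_nonneg.2 hR0.le),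
        inv_mul_le_iff₀ hR0, mul_one, hR]
      linarith) (by rw [hb', map_smul, hb0, smul_zero])
    have h2 : b = ((R : ℝ) : ℂ) • b' := by
      rw [hb', smul_smul, ← Complex.ofReal_mul, mul_inv_cancel₀ hR0.ne', Complex.ofReal_one,
        one_smul]
    have h3 : slot F hC x b = ((R : ℝ) : ℂ) • slot F hC x b' := by
      rw [← map_smul, ← h2]
    have h4 : dn hc (((R : ℝ) : ℂ) • slot F hC x b') = ((R : ℝ) : ℂ) • dn hc (slot F hC x b') :=
      map_smul _ _ _
    have h5 : dn hc (slot F hC x b') = 0 := h1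
    rw [h3, h4, h5]
    exact smul_zero _
  have h3 := key2 (a - up hc (dn hc a)) (by rw [map_sub, dn_up, sub_self])
  rw [map_sub, map_sub, sub_eq_zero] at h3
  exact h3

/-- **module F2**: the trace criterion from the Liouville lemma on the reduced algebra -/
theorem good_of_normal (hc : CProj M c) {τ : M.toStarSubalgebra →L[ℂ] ℂ} (hτ : TrOn M c τ)
    (hLiou : ∀ {m : ℕ} (z : Fin m → (red M hc).toStarSubalgebra),
      (∀ l, z l ∈ unitary (red M hc).toStarSubalgebra) →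
      ∀ {r : ℕ} (T : Fin r → (red M hc).toStarSubalgebra →L[ℂ] (red M hc).toStarSubalgebra),
      (∀ a, TC (τ.comp (up hc)).toLinearMap (T a)) → ∀ {δ : ℝ}, 0 < δ →
      ∃ (n : ℕ) (p : Fin n → ℝ) (u : Fin n → (red M hc).toStarSubalgebra), (∀ l, 0 ≤ p l) ∧
        ∑ l, p l = 1 ∧ (∀ l, u l ∈ unitary (red M hc).toStarSubalgebra) ∧ ∀ l t y,
        n2 (τ.comp (up hc)).toLinearMap (∑ i, (p i : ℂ) • (star (u i) * T t (u i * (z l * y))) -
          z l * ∑ i, (p i : ℂ) • (star (u i) * T t (u i * y))) ≤ δ * ‖y‖)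
    {n : ℕ} (f : (Fin (n + 1) → M.toStarSubalgebra) → M.toStarSubalgebra)
    (F : MultilinearMap ℂ (fun _ : Fin (n + 1) => M.toStarSubalgebra) M.toStarSubalgebra)
    {C : ℝ} (hC0 : 0 ≤ C) (hC : ∀ x, ‖F x‖ ≤ C * ∏ i, ‖x i‖)
    (hF : ∀ (u : M.toStarSubalgebra) (x : Fin (n + 1) → M.toStarSubalgebra),
      hc.el * (u * f x) = F (Fin.cons (u * x 0) (fun i => x i.succ))
        + (∑ j : Fin n, ((-1 : ℤ) ^ (j.val + 1)) • F (Fin.cons u (mergeArgs j x)))
        + ((-1 : ℤ) ^ (n + 1)) • (F (Fin.cons u (fun i => x i.castSucc)) * x (Fin.last n)))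
    (hTC : ∀ (x : Fin n → M.toStarSubalgebra) (ε : ℝ), 0 < ε → ∃ δ : ℝ, 0 < δ ∧
      ∀ a : M.toStarSubalgebra, ‖a‖ ≤ 1 → (τ (star a * a)).re ≤ δ →
        (τ (star (F (Fin.cons a x)) * F (Fin.cons a x))).re ≤ ε) :
    Good M f C c := by
  classical
  refine good_of_trace hc hτ f F hC0 hC hF fun S δ hδ hS => ?_
  let E : Fin S.card ≃ S := S.equivFin.symm
  let zz : Fin S.card → (red M hc).toStarSubalgebra := fun l => dn hc (E l).1.2
  let TT : Fin S.card → (red M hc).toStarSubalgebra →L[ℂ] (red M hc).toStarSubalgebra :=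
    fun l => rslot hc F hC (E l).1.1
  have hzz : ∀ l, zz l ∈ unitary (red M hc).toStarSubalgebra := fun l =>
    dn_unitary hc (hS (E l).1 (E l).2)
  have hTT : ∀ l, TC (τ.comp (up hc)).toLinearMap (TT l) := by
    intro l ε hε
    obtain ⟨δ', hδ', h⟩ := hTC (E l).1.1 (ε ^ 2) (by positivity)
    refine ⟨δ', hδ', fun a ha hqa => ?_⟩
    have h1 := h (up hc a) (by rw [norm_up]; exact ha) (by
      rw [← q2_dn hc hτ, dn_up]; exact hqa)
    change n2 (τ.comp (up hc)).toLinearMap (dn hc (F (Fin.cons (up hc a) (E l).1.1))) ≤ ε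
    unfold n2
    rw [q2_dn hc hτ]
    exact Real.sqrt_le_iff.2 ⟨hε.le, h1⟩
  obtain ⟨m, p, u, hp0, hp1, hu, h⟩ := hLiou zz hzz TT hTT (δ := √δ) (Real.sqrt_pos.2 hδ)
  refine ⟨m, p, fun l => up hc (u l) + (1 - cA hc), hp0, hp1, fun l =>
    Unitary.star_mul_self_of_mem (lift_unitary hc (hu l)), fun s hs => ?_⟩
  -- the image of the averages in the reduced algebra
  have hlav : ∀ y : M.toStarSubalgebra,
      dn hc (lav M F p (fun l => up hc (u l) + (1 - cA hc)) s.1 y) =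
        ∑ i, (p i : ℂ) • (star (u i) * rslot hc F hC s.1 (u i * dn hc y)) := by
    intro y
    have e1 : lav M F p (fun l => up hc (u l) + (1 - cA hc)) s.1 y =
        ∑ i, (p i : ℂ) • (star (up hc (u i) + (1 - cA hc)) *
          F (Fin.cons ((up hc (u i) + (1 - cA hc)) * y) s.1)) := by
      unfold lav
      exact Finset.sum_congr rfl fun i _ => smul_mul_assoc _ _ _
    rw [e1, map_sum]
    refine Finset.sum_congr rfl fun i _ => ?_
    rw [map_smul, dn_mul, dn_star, dn_lift, dn_slot hc hτ F hC hTC, dn_mul, dn_lift]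
  obtain ⟨l, hl⟩ : ∃ l, E l = ⟨s, hs⟩ := ⟨E.symm ⟨s, hs⟩, E.apply_symm_apply _⟩
  have h1 := h l l 1
  have hz : zz l = dn hc s.2 := by simp only [zz, hl]
  have hT : TT l = rslot hc F hC s.1 := by simp only [TT, hl]
  rw [hz, hT] at h1
  simp only [mul_one] at h1
  have h2 : dn hc (lav M F p (fun l => up hc (u l) + (1 - cA hc)) s.1 s.2 -
      s.2 * lav M F p (fun l => up hc (u l) + (1 - cA hc)) s.1 1) =
      ∑ i, (p i : ℂ) • (star (u i) * rslot hc F hC s.1 (u i * dn hc s.2)) -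
        dn hc s.2 * ∑ i, (p i : ℂ) • (star (u i) * rslot hc F hC s.1 (u i)) := by
    rw [map_sub, dn_mul, hlav, hlav, dn_one]
    simp only [mul_one]
  rw [← q2_dn hc hτ, h2]
  have h3 : ‖(1 : (red M hc).toStarSubalgebra)‖ ≤ 1 := by
    change ‖(1 : RK c →L[ℂ] RK c)‖ ≤ 1
    exact ContinuousLinearMap.norm_id_le
  have h4 : √δ * ‖(1 : (red M hc).toStarSubalgebra)‖ ≤ √δ := by
    nlinarith [Real.sqrt_nonneg δ]
  have h5 := h1.trans h4
  unfold n2 at h5
  exact (Real.sqrt_le_sqrt_iff hδ.le).1 h5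

end Crest.Agent.R121
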