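import Crest.Agent.R121.I
import Crest.Agent.R121.C5

/-!
# Row 121, module I (helper93), conclusion: cocycles are coboundaries on type I central summands
-/

set_option autoImplicit false
set_option linter.unusedSectionVars false

open Finset Crest.OpAlg
open scoped InnerProductSpace

namespace Crest.Agent.R121

variable {H : Type*} [NormedAddCommGroup H] [InnerProductSpace ℂ H] [CompleteSpace H]
variable {M : VonNeumannAlgebra H}

/-- on a type `I_n` central summand every cocycle is a coboundary, with the norm bound `‖f‖` -/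
theorem good_I_norm {n : ℕ}
    (f : ContinuousMultilinearMap ℂ (fun _ : Fin (n + 1) => M.toStarSubalgebra) M.toStarSubalgebra)
    (hf : ∀ a : Fin (n + 2) → M.toStarSubalgebra, hochschildDiff f a = 0)
    {c : H →L[ℂ] H} (hc : CProj M c) (hI : TypeI M c) : Good M f ‖f‖ c := by
  classical
  obtain ⟨N, hN, e, he, hcen⟩ := hI
  refine good_of_liouville_cocycle hc f.toMultilinearMap hf (norm_nonneg f)
    (fun x => f.le_opNorm x) fun S ε hε _ => ?_
  -- weights for the vectors
  set K : ℝ := 1 + ∑ s ∈ S, ‖s.2.2.1‖ * ‖s.2.2.2‖ with hK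
  have hK0 : 0 < K := by positivity
  have hKs : ∀ s ∈ S, ‖s.2.2.1‖ * ‖s.2.2.2‖ ≤ K := by
    intro s hs
    have := Finset.single_le_sum
      (f := fun s : ((Fin n → M.toStarSubalgebra) × M.toStarSubalgebra × H × H) =>
        ‖s.2.2.1‖ * ‖s.2.2.2‖) (fun y _ => by positivity) hs
    rw [hK]; linarith
  obtain ⟨ι, i1, i2, u, hu, hF⟩ := typeI_crit M hc.proj hc.mem hc.comm hN e he.mem he.mul he.star
    he.sum hcen f (S.image fun s => (Fin.cons s.2.1 s.1 : Fin (n + 1) → M.toStarSubalgebra))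
    (div_pos hε hK0)
  have hcard : (0 : ℝ) < Fintype.card ι := by exact_mod_cast Fintype.card_pos
  let g : Fin (Fintype.card ι) ≃ ι := (Fintype.equivFin ι).symm
  refine ⟨Fintype.card ι, fun _ => ((Fintype.card ι : ℝ))⁻¹, fun l => u (g l),
    fun _ => (inv_pos.2 hcard).le, ?_, fun l => Unitary.star_mul_self_of_mem (hu _), ?_⟩
  · rw [sum_const, card_univ, Fintype.card_fin, nsmul_eq_mul, mul_inv_cancel₀ hcard.ne']
  intro s hs
  have h1 := hF _ (Finset.mem_image_of_mem _ hs)
  have hl : ∀ y : M.toStarSubalgebra,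
      lav M f.toMultilinearMap (fun _ => ((Fintype.card ι : ℝ))⁻¹) (fun l => u (g l)) s.1 y =
      ((Fintype.card ι : ℂ))⁻¹ • ∑ i, star (u i) * f (Fin.cons (u i * y) s.1) := by
    intro y
    unfold lav
    rw [smul_sum, ← Equiv.sum_comp g]
    refine sum_congr rfl fun l _ => ?_
    rw [smul_mul_assoc]
    push_cast
    rfl
  rw [hl, hl]
  simp only [Fin.cons_zero, Fin.tail_cons] at h1
  simp only [mul_one]
  set D : M.toStarSubalgebra := ((Fintype.card ι : ℂ))⁻¹ •
      ∑ i, star (u i) * f (Fin.cons (u i * s.2.1) s.1) -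
    s.2.1 * ((Fintype.card ι : ℂ))⁻¹ • ∑ i, star (u i) * f (Fin.cons (u i) s.1) with hD
  calc ‖⟪c ((D : H →L[ℂ] H) s.2.2.1), s.2.2.2⟫_ℂ‖
      ≤ ‖(c * (D : H →L[ℂ] H)) s.2.2.1‖ * ‖s.2.2.2‖ := norm_inner_le_norm _ _
    _ ≤ (ε / K * ‖s.2.2.1‖) * ‖s.2.2.2‖ := by
        refine mul_le_mul_of_nonneg_right ?_ (norm_nonneg _)
        exact (ContinuousLinearMap.le_opNorm _ _).trans
          (mul_le_mul_of_nonneg_right h1 (norm_nonneg _))
    _ = (ε / K) * (‖s.2.2.1‖ * ‖s.2.2.2‖) := by ring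
    _ ≤ (ε / K) * K := mul_le_mul_of_nonneg_left (hKs s hs) (div_pos hε hK0).le
    _ = ε := by field_simp

/-- **module I** -/
theorem good_I {n : ℕ}
    (f : ContinuousMultilinearMap ℂ (fun _ : Fin (n + 1) => M.toStarSubalgebra) M.toStarSubalgebra)
    (hf : ∀ a : Fin (n + 2) → M.toStarSubalgebra, hochschildDiff f a = 0) :
    ∃ C : ℝ, ∀ c, CProj M c → TypeI M c → Good M f C c :=
  ⟨‖f‖, fun _ hc hI => good_I_norm f hf hc hI⟩

end Crest.Agent.R121
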