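import Mathlib

/-! ROW 121: a von Neumann algebra is a C*-algebra (instance used by modules L, FL, RED). -/

set_option autoImplicit false

namespace Crest.Agent.R121

variable {H : Type*} [NormedAddCommGroup H] [InnerProductSpace ℂ H] [CompleteSpace H]

theorem isClosed_vn (M : VonNeumannAlgebra H) :
    IsClosed (M.toStarSubalgebra : Set (H →L[ℂ] H)) := by
  have h : (M.toStarSubalgebra : Set (H →L[ℂ] H)) =
      Set.centralizer (Set.centralizer (M : Set (H →L[ℂ] H))) := by
    rw [VonNeumannAlgebra.centralizer_centralizer]
    rfl
  rw [h]
  exact Set.isClosed_centralizer _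

noncomputable instance instCStarVN (M : VonNeumannAlgebra H) : CStarAlgebra M.toStarSubalgebra :=
  StarSubalgebra.cstarAlgebra M.toStarSubalgebra (h_closed := isClosed_vn M)

example (M : VonNeumannAlgebra H) :
    (instCStarVN M).toNormedRing = (inferInstance : NormedRing M.toStarSubalgebra) := by
  with_reducible_and_instances rfl

end Crest.Agent.R121
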