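import Crest.Agent.R121.FL
import Crest.Agent.R121.LInst
import Crest.Agent.R124.Cmp4

/-! ROW 121, FLD (helper83): norm Dixmier approximation in the commutant of the matrix units, from
`R124.dixmier` applied to the von Neumann algebra `N ∩ {e_ij}'` (its centre is the centre of `N`). -/

set_option autoImplicit false
open Finset

namespace Crest.Agent.R121

variable {H : Type*} [NormedAddCommGroup H] [InnerProductSpace ℂ H] [CompleteSpace H]

/-- the von Neumann algebra `N ∩ S'` -/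
noncomputable def relC (N : VonNeumannAlgebra H) (S : Set (H →L[ℂ] H)) : VonNeumannAlgebra H where
  toStarSubalgebra := StarSubalgebra.centralizer ℂ ((N.commutant : Set (H →L[ℂ] H)) ∪ S)
  centralizer_centralizer' := by
    change Set.centralizer (Set.centralizer
      ((StarSubalgebra.centralizer ℂ ((N.commutant : Set (H →L[ℂ] H)) ∪ S) :
        StarSubalgebra ℂ (H →L[ℂ] H)) : Set (H →L[ℂ] H))) =
      ((StarSubalgebra.centralizer ℂ ((N.commutant : Set (H →L[ℂ] H)) ∪ S) :
        StarSubalgebra ℂ (H →L[ℂ] H)) : Set (H →L[ℂ] H))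
    rw [StarSubalgebra.coe_centralizer]
    exact Set.centralizer_centralizer_centralizer _

theorem mem_relC {N : VonNeumannAlgebra H} {S : Set (H →L[ℂ] H)} {x : H →L[ℂ] H} :
    x ∈ relC N S ↔ x ∈ N ∧ (∀ y ∈ S, y * x = x * y) ∧ (∀ y ∈ S, star y * x = x * star y) := by
  have h0 : x ∈ relC N S ↔
      x ∈ StarSubalgebra.centralizer ℂ ((N.commutant : Set (H →L[ℂ] H)) ∪ S) := Iff.rfl
  rw [h0, StarSubalgebra.mem_centralizer_iff]
  constructor
  · intro h
    refine ⟨?_, fun y hy => (h y (Or.inr hy)).1, fun y hy => (h y (Or.inr hy)).2⟩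
    rw [← VonNeumannAlgebra.commutant_commutant N, VonNeumannAlgebra.mem_commutant_iff]
    intro g hg
    exact (h g (Or.inl hg)).1
  · rintro ⟨h1, h2, h3⟩ g hg
    rcases hg with hg | hg
    · have hg' : g ∈ N.commutant := hg
      rw [VonNeumannAlgebra.mem_commutant_iff] at hg'
      have hg2 : star g ∈ N.commutant := star_mem hg
      rw [VonNeumannAlgebra.mem_commutant_iff] at hg2
      exact ⟨(hg' x h1).symm, (hg2 x h1).symm⟩
    · exact ⟨h2 g hg, h3 g hg⟩

theorem ndix (N : VonNeumannAlgebra H) {K : ℕ} (hK : 0 < K)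
    {e : Fin K → Fin K → N.toStarSubalgebra} (he : MUn e) : NDix e := by
  classical
  intro n q hq ε hε
  set S : Set (H →L[ℂ] H) := Set.range fun p : Fin K × Fin K => (e p.1 p.2 : H →L[ℂ] H) with hS
  have hCmt : ∀ y : N.toStarSubalgebra, Cmt e y → (y : H →L[ℂ] H) ∈ relC N S := by
    intro y hy
    rw [mem_relC]
    refine ⟨y.2, ?_, ?_⟩
    · rintro _ ⟨p, rfl⟩
      exact (congrArg (Subtype.val) (hy p.1 p.2)).symm
    · rintro _ ⟨p, rfl⟩
      have h1 : star (e p.1 p.2 : H →L[ℂ] H) = (e p.2 p.1 : H →L[ℂ] H) :=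
        congrArg Subtype.val (he.star p.1 p.2)
      simp only [h1]
      exact (congrArg (Subtype.val) (hy p.2 p.1)).symm
  have hCmt' : ∀ y : N.toStarSubalgebra, (y : H →L[ℂ] H) ∈ relC N S → Cmt e y := by
    intro y hy i j
    apply Subtype.ext
    exact ((mem_relC.1 hy).2.1 _ ⟨(i, j), rfl⟩).symm
  obtain ⟨Ψ, hΨ, hΨc⟩ := Crest.Agent.R124.Cmp.dixmier_av (relC N S) hε
    (Finset.univ.image fun j => (q j : H →L[ℂ] H)) (by
      intro x hx
      obtain ⟨j, -, rfl⟩ := Finset.mem_image.1 hx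
      exact hCmt _ (hq j))
  obtain ⟨ι, _, _, u, hu, hΨu⟩ := hΨ
  have hN0 : 0 < Fintype.card ι := Fintype.card_pos
  set eq := (Fintype.equivFin ι).symm with heq
  have huN : ∀ i, u i ∈ N := fun i => (mem_relC.1 (hu i).1).1
  refine ⟨Fintype.card ι, hN0, fun s => ⟨u (eq s), huN _⟩, ?_, ?_, ?_⟩
  · intro s
    rw [Unitary.mem_iff]
    have h1 := Unitary.mem_iff.1 (hu (eq s)).2
    exact ⟨Subtype.ext h1.1, Subtype.ext h1.2⟩
  · intro s
    exact hCmt' _ (hu (eq s)).1
  · intro j
    obtain ⟨c, hcR, hcR', hc⟩ := hΨc (q j : H →L[ℂ] H)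
      (Finset.mem_image_of_mem _ (Finset.mem_univ j))
    have hcN : c ∈ N := (mem_relC.1 hcR).1
    have hcC : Cmt e ⟨c, hcN⟩ := hCmt' ⟨c, hcN⟩ hcR
    refine ⟨⟨c, hcN⟩, ?_, ?_⟩
    · intro y
      have hco : ∀ i k, (⟨c, hcN⟩ : N.toStarSubalgebra) * co e y i k =
          co e y i k * ⟨c, hcN⟩ := by
        intro i k
        have h2 := (VonNeumannAlgebra.mem_commutant_iff.1 hcR') _ (hCmt _ (co_cmt he y i k))
        exact Subtype.ext h2.symm
      have hy : y = ∑ k, ∑ i, e i k * co e y i k := by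
        have h3 : y = y * ∑ k, e k k := by rw [he.sum, mul_one]
        conv_lhs => rw [h3]
        rw [Finset.mul_sum]
        exact Finset.sum_congr rfl fun k _ => mul_e_eq he y k k
      rw [hy, Finset.mul_sum, Finset.sum_mul]
      refine Finset.sum_congr rfl fun k _ => ?_
      rw [Finset.mul_sum, Finset.sum_mul]
      refine Finset.sum_congr rfl fun i _ => ?_
      rw [← mul_assoc, hcC i k, mul_assoc, hco, mul_assoc]
    · have h4 : (((1 / ((Fintype.card ι : ℕ) : ℂ)) • ∑ s : Fin (Fintype.card ι),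
          star (⟨u (eq s), huN _⟩ : N.toStarSubalgebra) * q j * ⟨u (eq s), huN _⟩ - ⟨c, hcN⟩ :
          N.toStarSubalgebra) : H →L[ℂ] H) = Ψ (q j : H →L[ℂ] H) - c := by
        have h5 : ∑ i, star (u i) * (q j : H →L[ℂ] H) * u i =
            ∑ s, star (u (eq s)) * (q j : H →L[ℂ] H) * u (eq s) :=
          (Equiv.sum_comp eq fun i => star (u i) * (q j : H →L[ℂ] H) * u i).symm
        rw [hΨu, Crest.Agent.R124.Cmp.avg, h5]
        have h6 : ((Fintype.card ι : ℝ)⁻¹ : ℝ) •
            ∑ s, star (u (eq s)) * (q j : H →L[ℂ] H) * u (eq s) =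
            (1 / ((Fintype.card ι : ℕ) : ℂ)) •
              ∑ s, star (u (eq s)) * (q j : H →L[ℂ] H) * u (eq s) := by
          rw [← Complex.coe_smul]
          congr 1
          push_cast
          rw [one_div]
        rw [h6]
        simp
      calc _ = ‖Ψ (q j : H →L[ℂ] H) - c‖ := by rw [← h4]; rfl
        _ ≤ ε := hc

end Crest.Agent.R121
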