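import Crest.Agent.R121.LMain
import Crest.Agent.R121.FLD

/-! ROW 121, module L: Liouville lemma for a von Neumann algebra with a trace and large matrix units. -/

set_option autoImplicit false
open Finset

namespace Crest.Agent.R121

variable {H : Type*} [NormedAddCommGroup H] [InnerProductSpace ℂ H] [CompleteSpace H]

theorem L_vn (N : VonNeumannAlgebra H) {τ : N.toStarSubalgebra →ₗ[ℂ] ℂ} (hτ : TrS τ)
    (hK : ∀ K₀ : ℕ, ∃ K, K₀ ≤ K ∧ 0 < K ∧ ∃ e : Fin K → Fin K → N.toStarSubalgebra, MUn e)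
    {m : ℕ} (z : Fin m → N.toStarSubalgebra) (hz : ∀ l, z l ∈ unitary N.toStarSubalgebra)
    {r : ℕ} (T : Fin r → N.toStarSubalgebra →L[ℂ] N.toStarSubalgebra) (hT : ∀ a, TC τ (T a))
    {δ : ℝ} (hδ : 0 < δ) :
    ∃ a : Av N.toStarSubalgebra, ∀ l t x,
      n2 τ (a.ap (T t) x - z l * a.ap (T t) (star (z l) * x)) ≤ δ * ‖x‖ := by
  refine L_main hτ z hz (Cf := 3 * ((m + m : ℕ) : ℝ)) (fun K₀ => ?_) T hT hδ
  obtain ⟨K, hKK, hK0, e, he⟩ := hK K₀
  obtain ⟨e', he', h⟩ := flat_exists hτ hK0 he (ndix N hK0 he)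
    (Fin.append z fun l => star (z l)) (fun l => by
      refine Fin.addCases (fun l => ?_) (fun l => ?_) l
      · rw [Fin.append_left]; exact hz l
      · rw [Fin.append_right]; exact Unitary.star_mem (hz l))
  refine ⟨K, hKK, e', he', fun l => ⟨?_, ?_⟩⟩
  · have := h (Fin.castAdd m l)
    rwa [Fin.append_left] at this
  · have := h (Fin.natAdd m l)
    rwa [Fin.append_right] at this

/-- the form used with `good_of_trace`: `x = z y` -/
theorem L_vn' (N : VonNeumannAlgebra H) {τ : N.toStarSubalgebra →ₗ[ℂ] ℂ} (hτ : TrS τ)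
    (hK : ∀ K₀ : ℕ, ∃ K, K₀ ≤ K ∧ 0 < K ∧ ∃ e : Fin K → Fin K → N.toStarSubalgebra, MUn e)
    {m : ℕ} (z : Fin m → N.toStarSubalgebra) (hz : ∀ l, z l ∈ unitary N.toStarSubalgebra)
    {r : ℕ} (T : Fin r → N.toStarSubalgebra →L[ℂ] N.toStarSubalgebra) (hT : ∀ a, TC τ (T a))
    {δ : ℝ} (hδ : 0 < δ) :
    ∃ (n : ℕ) (p : Fin n → ℝ) (u : Fin n → N.toStarSubalgebra), (∀ l, 0 ≤ p l) ∧ ∑ l, p l = 1 ∧
      (∀ l, u l ∈ unitary N.toStarSubalgebra) ∧ ∀ l t y,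
        n2 τ (∑ i, (p i : ℂ) • (star (u i) * T t (u i * (z l * y))) -
          z l * ∑ i, (p i : ℂ) • (star (u i) * T t (u i * y))) ≤ δ * ‖y‖ := by
  obtain ⟨a, ha⟩ := L_vn N hτ hK z hz T hT hδ
  refine ⟨a.n, a.w, a.u, a.hw, a.hs, a.hu, fun l t y => ?_⟩
  have h1 := ha l t (z l * y)
  have h2 : star (z l) * (z l * y) = y := by
    rw [← mul_assoc, Unitary.star_mul_self_of_mem (hz l), one_mul]
  rw [h2, Av.ap_apply, Av.ap_apply] at h1
  refine h1.trans ?_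
  have h3 : ‖z l * y‖ = ‖y‖ := CStarRing.norm_mem_unitary_mul (U := z l) y (hz l)
  rw [h3]

end Crest.Agent.R121
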