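import Crest.Agent.R121.NC
import Mathlib.Analysis.CStarAlgebra.GelfandNaimarkSegal

/-! Row 121, N, piece ND (helper26): the left cut lemma.

`φ(a* s_i² a)` is small (eventually in `i`) if `a` is small in the 2-norm. -/

set_option autoImplicit false

namespace Crest.Agent.R121.N

open scoped ComplexOrder InnerProductSpace ComplexConjugate
open Filter

universe u
variable {A : Type u} [CStarAlgebra A] [PartialOrder A] [StarOrderedRing A]

/-- `y ↦ φ(w* y w)` -/
noncomputable def cj (φ : A →ₚ[ℂ] ℂ) (w : A) : A →ₚ[ℂ] ℂ :=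
  PositiveLinearMap.mk₀ (φ.toLinearMap ∘ₗ (LinearMap.mulLeft ℂ (star w)) ∘ₗ
    (LinearMap.mulRight ℂ w)) (by
      intro a ha
      have : 0 ≤ star w * a * w := star_left_conjugate_nonneg ha w
      simpa [mul_assoc] using φ.map_nonneg this)

theorem cj_apply (φ : A →ₚ[ℂ] ℂ) (w y : A) : cj φ w y = φ (star w * y * w) := by
  change φ (star w * (y * w)) = _
  rw [mul_assoc]

theorem ndre_nonneg (φ : A →ₚ[ℂ] ℂ) (y : A) : 0 ≤ (φ (star y * y)).re :=
  (Complex.le_def.1 (φ.map_nonneg (star_mul_self_nonneg y))).1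

theorem ndre_mono (φ : A →ₚ[ℂ] ℂ) {x y : A} (h : x ≤ y) : (φ x).re ≤ (φ y).re :=
  (Complex.le_def.1 (OrderHomClass.mono φ h)).1

/-- Cauchy-Schwarz -/
theorem cs (φ : A →ₚ[ℂ] ℂ) (x y : A) :
    ‖φ (star x * y)‖ ≤ √(φ (star x * x)).re * √(φ (star y * y)).re := by
  have := norm_inner_le_norm (𝕜 := ℂ) (φ.toPreGNS x) (φ.toPreGNS y)
  rwa [PositiveLinearMap.preGNS_inner_def, PositiveLinearMap.preGNS_norm_def,
    PositiveLinearMap.preGNS_norm_def] at this

theorem tri (φ : A →ₚ[ℂ] ℂ) (x y : A) :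
    √(φ (star (x + y) * (x + y))).re ≤ √(φ (star x * x)).re + √(φ (star y * y)).re := by
  have := norm_add_le (φ.toPreGNS x) (φ.toPreGNS y)
  rwa [← map_add, PositiveLinearMap.preGNS_norm_def, PositiveLinearMap.preGNS_norm_def,
    PositiveLinearMap.preGNS_norm_def] at this

theorem conj_le_of_le_one (φ : A →ₚ[ℂ] ℂ) {p : A} (hp : p ≤ 1) (y : A) :
    (φ (star y * p * y)).re ≤ (φ (star y * y)).re := by
  refine ndre_mono φ ?_
  have := star_left_conjugate_le_conjugate hp y
  rwa [mul_one] at this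

theorem nd_star_mul_le_one {a : A} (ha : ‖a‖ ≤ 1) : star a * a ≤ 1 := by
  have h1 : ‖star a * a‖ ≤ 1 := by
    rw [CStarRing.norm_star_mul_self]
    nlinarith [norm_nonneg a]
  exact (CStarAlgebra.norm_le_one_iff_of_nonneg _ (star_mul_self_nonneg a)).1 h1

theorem four_pol (φ : A →ₚ[ℂ] ℂ) (a y : A) :
    4 * φ (y * a) = ∑ k : Fin 4, Complex.I ^ (k : ℕ) *
      cj φ (a + Complex.I ^ (k : ℕ) • (1 : A)) y := by
  simp only [cj_apply, Fin.sum_univ_four, star_add, star_smul, star_one, add_mul, mul_add,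
    smul_mul_assoc, mul_smul_comm, one_mul, mul_one, map_add, map_smul, smul_add, smul_smul,
    smul_eq_mul]
  simp [pow_succ]
  ring_nf
  simp
  ring

theorem left_cut (τ : A →ₚ[ℂ] ℂ) (htr : ∀ a b, τ (a * b) = τ (b * a)) {ι : Type u}
    {U : Ultrafilter ι} {s : ι → A} (h : IsNet τ U s) (φ : A →ₚ[ℂ] ℂ) (ε : ℝ) (hε : 0 < ε) :
    ∃ δ : ℝ, 0 < δ ∧ ∀ a : A, ‖a‖ ≤ 1 → (τ (star a * a)).re ≤ δ →
      ∀ᶠ i in (U : Filter ι), (φ (star a * s i * s i * a)).re ≤ ε := by
  obtain ⟨δ, hδ, hev⟩ := h.small φ (ε / 16) (by positivity)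
  refine ⟨δ, hδ, fun a ha hta => ?_⟩
  have hφ1 : 0 ≤ (φ 1).re := by
    have := ndre_nonneg φ 1
    simpa using this
  set ε₂ : ℝ := (ε / 4) ^ 2 / (4 * (φ 1).re + 1) with hε₂
  have hε₂0 : 0 < ε₂ := by positivity
  set w : Fin 4 → A := fun k => a + Complex.I ^ (k : ℕ) • (1 : A) with hw
  choose δ' hδ'0 hδ' using fun k : Fin 4 => h.small (cj φ (w k)) ε₂ hε₂0
  have hall : ∀ᶠ i in (U : Filter ι), ∀ k : Fin 4, ∀ b : A, ‖b‖ ≤ 1 →
      (τ (star b * b)).re ≤ δ' k → (cj φ (w k) (s i * (star b * b) * s i)).re ≤ ε₂ :=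
    Filter.eventually_all.2 hδ'
  filter_upwards [hall] with i hi
  -- choose β
  obtain ⟨δ₀, hδ₀, hδ₀'⟩ : ∃ δ₀ : ℝ, 0 < δ₀ ∧ ∀ k, δ₀ ≤ δ' k := by
    refine ⟨Finset.univ.inf' Finset.univ_nonempty δ', ?_, fun k =>
      Finset.inf'_le _ (Finset.mem_univ k)⟩
    rw [Finset.lt_inf'_iff]
    exact fun k _ => hδ'0 k
  have hlim : ∀ᶠ β in (U : Filter ι), (τ (1 - s β * s β)).re ≤ δ₀ :=
    (h.lim.eventually (gt_mem_nhds hδ₀)).mono fun β hβ => hβ.le
  obtain ⟨β, hβ1, hβ2⟩ := (hev.and hlim).exists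
  have hβ := hβ1 a ha hta
  set g : A := 1 - s β with hg
  have hgsa : star g = g := by
    rw [hg, star_sub, star_one, (h.sa β).star_eq]
  have hsi : star (s i) = s i := (h.sa i).star_eq
  have hsβ : star (s β) = s β := (h.sa β).star_eq
  have hsi1 : s i * s i ≤ 1 := by
    have := nd_star_mul_le_one (h.norm_le i)
    rwa [hsi] at this
  have hsβ0 : 0 ≤ s β * s β := by
    have := star_mul_self_nonneg (s β)
    rwa [hsβ] at this
  have hgg : g * g ≤ 1 := (h.sq β).trans (by
    rw [sub_le_self_iff]; exact hsβ0)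
  have hgn : ‖g‖ ≤ 1 := by
    have h1 : ‖g * g‖ ≤ 1 := by
      have h0 : 0 ≤ g * g := by
        have := star_mul_self_nonneg g
        rwa [hgsa] at this
      exact (CStarAlgebra.norm_le_one_iff_of_nonneg _ h0).2 hgg
    have h2 : ‖g‖ * ‖g‖ = ‖g * g‖ := by
      have := CStarRing.norm_star_mul_self (x := g)
      rw [hgsa] at this
      exact this.symm
    nlinarith [norm_nonneg g]
  set b : A := g * star a * s i with hb
  have hbn : ‖b‖ ≤ 1 := by
    calc ‖b‖ ≤ ‖g‖ * ‖star a‖ * ‖s i‖ := by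
          rw [hb]
          refine (norm_mul_le _ _).trans ?_
          gcongr
          exact norm_mul_le _ _
      _ ≤ 1 * 1 * 1 := by
          rw [norm_star]
          have := h.norm_le i
          gcongr
      _ = 1 := by norm_num
  have hbt : (τ (star b * b)).re ≤ δ₀ := by
    have e1 : τ (star b * b) = τ (star g * (star (s i * a) * (s i * a)) * g) := by
      rw [htr]
      congr 1
      simp only [hb, star_mul, star_star, hgsa, hsi, mul_assoc]
    rw [e1]
    refine (conj_le_of_le_one τ (nd_star_mul_le_one ?_) g).trans ?_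
    · refine (norm_mul_le _ _).trans ?_
      nlinarith [norm_nonneg a, norm_nonneg (s i), h.norm_le i]
    · rw [hgsa]
      exact (ndre_mono τ (h.sq β)).trans hβ2
  -- the three norms
  set N : A → ℝ := fun y => √(φ (star y * y)).re with hN
  have hN0 : ∀ y, 0 ≤ N y := fun y => Real.sqrt_nonneg _
  set X := N (s i * a * g) with hX
  set Y := N (s i * a * s β) with hY
  have hYle : Y ≤ √ε / 4 := by
    have h1 : √ε / 4 = √(ε / 16) := by
      rw [Real.sqrt_div' ε (by norm_num : (0 : ℝ) ≤ 16)]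
      congr 1
      rw [show (16 : ℝ) = 4 ^ 2 by norm_num, Real.sqrt_sq (by norm_num)]
    rw [h1]
    refine Real.sqrt_le_sqrt ?_
    refine le_trans ?_ hβ
    have e2 : star (s i * a * s β) * (s i * a * s β) =
        star (a * s β) * (s i * s i) * (a * s β) := by
      simp only [star_mul, hsi, mul_assoc]
    rw [e2]
    refine (conj_le_of_le_one φ hsi1 (a * s β)).trans (le_of_eq ?_)
    congr 2
    simp only [star_mul, hsβ, mul_assoc]
  have hkey : ‖φ (b * s i * a)‖ ≤ ε / 4 := by
    have h1 : ∀ k : Fin 4, ‖cj φ (w k) (b * s i)‖ ≤ ε / 4 := by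
      intro k
      have h2 := cs (cj φ (w k)) 1 (b * s i)
      rw [star_one, one_mul, one_mul] at h2
      have h3 : star (b * s i) * (b * s i) = s i * (star b * b) * s i := by
        simp only [star_mul, hsi, mul_assoc]
      rw [h3] at h2
      have h4 := hi k b hbn (hbt.trans (hδ₀' k))
      have h5 : (cj φ (w k) 1).re ≤ 4 * (φ 1).re := by
        rw [cj_apply, mul_one]
        have h6 : star (w k) * w k ≤ (4 : ℝ) • (1 : A) := by
          have h7 : ‖w k‖ ≤ 2 := by
            refine (norm_add_le _ _).trans ?_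
            have h8 : ‖Complex.I ^ (k : ℕ) • (1 : A)‖ ≤ 1 := by
              rw [norm_smul, norm_pow, Complex.norm_I, one_pow, one_mul]
              rcases subsingleton_or_nontrivial A with hs | hs
              · rw [Subsingleton.elim (1 : A) 0]; simp
              · rw [norm_one]
            linarith
          have h8 : ‖star (w k) * w k‖ ≤ 4 := by
            rw [CStarRing.norm_star_mul_self]
            nlinarith [norm_nonneg (w k)]
          calc star (w k) * w k ≤ ‖star (w k) * w k‖ • (1 : A) := by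
                have := IsSelfAdjoint.le_algebraMap_norm_self
                  (a := star (w k) * w k) (IsSelfAdjoint.star_mul_self (w k))
                rwa [Algebra.algebraMap_eq_smul_one] at this
            _ ≤ (4 : ℝ) • (1 : A) := by
                exact smul_le_smul_of_nonneg_right h8 zero_le_one
        have h9 := ndre_mono φ h6
        have h10 : φ ((4 : ℝ) • (1 : A)) = (4 : ℝ) • φ 1 := by
          rw [← Complex.coe_smul, map_smul, Complex.coe_smul]
        rw [h10] at h9
        simpa using h9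
      refine h2.trans ?_
      calc √(cj φ (w k) 1).re * √(cj φ (w k) (s i * (star b * b) * s i)).re
          ≤ √(4 * (φ 1).re + 1) * √ε₂ := by
            gcongr
            linarith
        _ = √((4 * (φ 1).re + 1) * ε₂) := by
            rw [Real.sqrt_mul (by positivity)]
        _ = ε / 4 := by
            rw [hε₂, mul_div_cancel₀ _ (by positivity), Real.sqrt_sq (by positivity)]
    have h2 := four_pol φ a (b * s i)
    have h3 : ‖(4 : ℂ) * φ (b * s i * a)‖ ≤ 4 * (ε / 4) := by
      rw [h2]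
      refine (norm_sum_le _ _).trans ?_
      calc ∑ k : Fin 4, ‖Complex.I ^ (k : ℕ) *
            cj φ (a + Complex.I ^ (k : ℕ) • (1 : A)) (b * s i)‖ ≤ ∑ _k : Fin 4, ε / 4 := by
            refine Finset.sum_le_sum fun k _ => ?_
            rw [norm_mul, norm_pow, Complex.norm_I, one_pow, one_mul]
            exact h1 k
        _ = 4 * (ε / 4) := by simp
    rw [norm_mul] at h3
    have : ‖(4 : ℂ)‖ = 4 := by simp
    rw [this] at h3
    linarith
  have hX2 : X ^ 2 ≤ ε / 4 + X * Y := by
    have e1 : star (s i * a * g) * (s i * a * g) = b * s i * a - star (s i * a * g) *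
        (s i * a * s β) := by
      have : s i * a * g = s i * a - s i * a * s β := by
        rw [hg]; noncomm_ring
      have e2 : b * s i * a = star (s i * a * g) * (s i * a) := by
        simp only [hb, star_mul, hgsa, hsi, mul_assoc]
      rw [e2, ← mul_sub, ← this]
    have e2 : X ^ 2 = (φ (star (s i * a * g) * (s i * a * g))).re := by
      rw [hX, hN]
      exact Real.sq_sqrt (ndre_nonneg φ _)
    rw [e2, e1, map_sub, Complex.sub_re]
    have h3 := (Complex.re_le_norm (φ (b * s i * a))).trans hkey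
    have h4 : -(φ (star (s i * a * g) * (s i * a * s β))).re ≤ X * Y :=
      (neg_le_abs _).trans ((Complex.abs_re_le_norm _).trans (cs φ _ _))
    linarith
  have hXle : X ≤ √ε / 4 + √ε / 2 := by
    by_contra hcon
    push Not at hcon
    have hs : √ε ^ 2 = ε := Real.sq_sqrt hε.le
    have hs0 : 0 < √ε := Real.sqrt_pos.2 hε
    have hX0 : 0 ≤ X := hN0 _
    nlinarith [mul_le_mul_of_nonneg_left hYle hX0]
  have hZ : N (s i * a) ≤ √ε := by
    have h1 := tri φ (s i * a * s β) (s i * a * g)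
    have h2 : s i * a * s β + s i * a * g = s i * a := by
      rw [hg]; noncomm_ring
    rw [h2] at h1
    calc N (s i * a) ≤ Y + X := h1
      _ ≤ √ε / 4 + (√ε / 4 + √ε / 2) := by linarith
      _ = √ε := by ring
  have h1 : star a * s i * s i * a = star (s i * a) * (s i * a) := by
    simp only [star_mul, hsi, mul_assoc]
  rw [h1]
  have h2 : (φ (star (s i * a) * (s i * a))).re = N (s i * a) ^ 2 :=
    (Real.sq_sqrt (ndre_nonneg φ _)).symm
  rw [h2]
  calc N (s i * a) ^ 2 ≤ √ε ^ 2 := pow_le_pow_left₀ (hN0 _) hZ 2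
    _ = ε := Real.sq_sqrt hε.le

end Crest.Agent.R121.N
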