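import Crest.Agent.R121.NC
import Crest.Agent.R121.ND
import Crest.Agent.R121.C5
import Crest.Agent.R121.LInst
import Crest.Agent.R124.GTC

/-! Row 121, module N (helper26), piece NE: the normal part of a cocycle in its first variable. -/

set_option autoImplicit false

namespace Crest.Agent.R121.N

open scoped ComplexOrder InnerProductSpace
open Filter Topology

universe u v

section abstract

variable {A : Type u} [CStarAlgebra A] [PartialOrder A] [StarOrderedRing A]
variable {E : Type v} [NormedAddCommGroup E] [InnerProductSpace ℂ E]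

/-- the cut-off values of a Hilbert space valued map are small on `τ`-small elements -/
theorem small_lin {τ : A →ₚ[ℂ] ℂ} (htr : ∀ a b, τ (a * b) = τ (b * a)) {ι : Type u}
    {U : Ultrafilter ι} {s : ι → A} (h : IsNet τ U s) (T : A →ₗ[ℂ] E) {S : ℝ}
    (hS : ∀ v ∈ unitary A, ‖T v‖ ^ 2 ≤ S) {ε : ℝ} (hε : 0 < ε) :
    ∃ δ : ℝ, 0 < δ ∧ ∀ a : A, ‖a‖ ≤ 1 → (τ (star a * a)).re ≤ δ →
      ∀ᶠ i in (U : Filter ι), ‖T (s i * a)‖ ^ 2 ≤ ε := by
  obtain ⟨φ, ψ, -, -, -, -, h5⟩ := R124.little_groth_cs T hS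
  obtain ⟨δ₁, hδ₁, h1⟩ := left_cut τ htr h φ (ε / 4) (by positivity)
  obtain ⟨δ₂, hδ₂, h2⟩ := h.small ψ (ε / 4) (by positivity)
  refine ⟨min δ₁ δ₂, lt_min hδ₁ hδ₂, fun a ha hta => ?_⟩
  filter_upwards [h1 a ha (hta.trans (min_le_left _ _)), h2] with i hi1 hi2
  have e1 := hi2 (star a) (by rwa [norm_star]) (by
    rw [star_star, htr]; exact hta.trans (min_le_right _ _))
  have e2 := h5 (s i * a)
  have hs : star (s i) = s i := (h.sa i).star_eq
  have e3 : star (s i * a) * (s i * a) = star a * s i * s i * a := by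
    rw [star_mul, hs]; noncomm_ring
  have e4 : (s i * a) * star (s i * a) = s i * (star (star a) * star a) * s i := by
    rw [star_mul, hs, star_star]; noncomm_ring
  rw [e3, e4] at e2
  linarith

end abstract

end Crest.Agent.R121.N

namespace Crest.Agent.R121

open scoped ComplexOrder InnerProductSpace
open Filter Topology Crest.OpAlg

universe u

variable {H : Type u} [NormedAddCommGroup H] [InnerProductSpace ℂ H] [CompleteSpace H]
variable {M : VonNeumannAlgebra H} {c : H →L[ℂ] H}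

/-- the cut-offs of a von Neumann algebra with a trace -/
theorem exists_cut_nrm {τ : M.toStarSubalgebra →L[ℂ] ℂ} (hτ : TrOn M c τ) :
    ∃ (ι : Type u) (U : Ultrafilter ι) (s : ι → M.toStarSubalgebra),
      (∀ i, ‖s i‖ ≤ 1) ∧
      (∀ ζ : H, Tendsto (fun i => c ((s i : H →L[ℂ] H) ζ)) U (𝓝 (c ζ))) ∧
      ∀ (T : M.toStarSubalgebra →ₗ[ℂ] H) (S : ℝ),
        (∀ v ∈ unitary M.toStarSubalgebra, ‖T v‖ ^ 2 ≤ S) → ∀ ε : ℝ, 0 < ε →
        ∃ δ : ℝ, 0 < δ ∧ ∀ a : M.toStarSubalgebra, ‖a‖ ≤ 1 → (τ (star a * a)).re ≤ δ →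
          ∀ᶠ i in (U : Filter ι), ‖T (s i * a)‖ ^ 2 ≤ ε := by
  letI : PartialOrder M.toStarSubalgebra := CStarAlgebra.spectralOrder _
  letI : StarOrderedRing M.toStarSubalgebra := CStarAlgebra.spectralOrderedRing _
  let τ' : M.toStarSubalgebra →ₚ[ℂ] ℂ := PositiveLinearMap.mk₀ τ.toLinearMap (by
    intro a ha
    obtain ⟨b, rfl⟩ := CStarAlgebra.nonneg_iff_eq_star_mul_self.1 ha
    exact hτ.nonneg b)
  have hτ' : ∀ a, τ' a = τ a := fun a => rfl
  have htr : ∀ a b, τ' (a * b) = τ' (b * a) := fun a b => hτ.tr a b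
  obtain ⟨ι, U, s, h⟩ := N.exists_net τ' htr
  refine ⟨ι, U, s, h.norm_le, ?_, ?_⟩
  · intro ζ
    rw [Metric.tendsto_nhds]
    intro ε hε
    obtain ⟨δ, hδ, hac⟩ := hτ.ac ζ (ε / 4) (by positivity)
    have h1 := h.lim
    rw [Metric.tendsto_nhds] at h1
    filter_upwards [h1 δ hδ] with i hi
    have hone : ‖(1 : M.toStarSubalgebra)‖ ≤ 1 := by
      change ‖(1 : H →L[ℂ] H)‖ ≤ 1
      exact ContinuousLinearMap.norm_id_le
    have hn : ‖(1 - s i)‖ ≤ 2 := (norm_sub_le _ _).trans (by linarith [h.norm_le i])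
    have hsa : star (s i) = s i := (h.sa i).star_eq
    set a : M.toStarSubalgebra := ((1 / 2 : ℝ) : ℂ) • (1 - s i) with ha
    have han : ‖a‖ ≤ 1 := by
      rw [ha, norm_smul, Complex.norm_real, Real.norm_of_nonneg (by norm_num)]
      linarith
    have hat : (τ (star a * a)).re ≤ δ := by
      have e1 : star a * a = ((1 / 4 : ℝ) : ℂ) • ((1 - s i) * (1 - s i)) := by
        rw [ha, star_smul, smul_mul_smul_comm, star_sub, star_one, hsa]
        congr 1
        rw [RCLike.star_def, Complex.conj_ofReal]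
        norm_num
      have e2 : (τ' ((1 - s i) * (1 - s i))).re ≤ (τ' (1 - s i * s i)).re :=
        N.ndre_mono τ' (h.sq i)
      have e3 : |(τ' (1 - s i * s i)).re| < δ := by
        rw [dist_zero_right] at hi; exact hi
      have e4 : (τ' (1 - s i * s i)).re < δ := (abs_lt.1 e3).2
      have e5 : 0 ≤ (τ ((1 - s i) * (1 - s i))).re := by
        have := (Complex.le_def.1 (hτ.nonneg (1 - s i))).1
        rw [star_sub, star_one, hsa] at this
        exact this
      rw [e1, map_smul, smul_eq_mul, Complex.re_ofReal_mul]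
      rw [hτ', hτ'] at e2
      rw [hτ'] at e4
      linarith
    have h2 := hac a han hat
    have h3 : (a : H →L[ℂ] H) ζ = ((1 / 2 : ℝ) : ℂ) • (ζ - (s i : H →L[ℂ] H) ζ) := rfl
    rw [h3, map_smul, norm_smul, Complex.norm_real, Real.norm_of_nonneg (by norm_num),
      map_sub] at h2
    rw [dist_comm, dist_eq_norm]
    linarith
  · intro T S hS ε hε
    obtain ⟨δ, hδ, h1⟩ := N.small_lin htr h T hS hε
    exact ⟨δ, hδ, h1⟩

set_option maxHeartbeats 2000000 in
/-- **the normal part of a cocycle in its first variable** -/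
theorem normal_part (hc : CProj M c) {τ : M.toStarSubalgebra →L[ℂ] ℂ} (hτ : TrOn M c τ) {n : ℕ}
    (f : ContinuousMultilinearMap ℂ (fun _ : Fin (n + 1) => M.toStarSubalgebra)
      M.toStarSubalgebra)
    (hf : ∀ a : Fin (n + 2) → M.toStarSubalgebra, hochschildDiff f a = 0) :
    ∃ F : MultilinearMap ℂ (fun _ : Fin (n + 1) => M.toStarSubalgebra) M.toStarSubalgebra,
      (∀ x, ‖F x‖ ≤ ‖f‖ * ∏ i, ‖x i‖) ∧
      (∀ (u : M.toStarSubalgebra) (x : Fin (n + 1) → M.toStarSubalgebra),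
        hc.el * (u * f x) = F (Fin.cons (u * x 0) (fun i => x i.succ))
          + (∑ j : Fin n, ((-1 : ℤ) ^ (j.val + 1)) • F (Fin.cons u (mergeArgs j x)))
          + ((-1 : ℤ) ^ (n + 1)) • (F (Fin.cons u (fun i => x i.castSucc)) * x (Fin.last n))) ∧
      ∀ (x : Fin n → M.toStarSubalgebra) (ε : ℝ), 0 < ε → ∃ δ : ℝ, 0 < δ ∧
        ∀ a : M.toStarSubalgebra, ‖a‖ ≤ 1 → (τ (star a * a)).re ≤ δ →
          (τ (star (F (Fin.cons a x)) * F (Fin.cons a x))).re ≤ ε := by
  classical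
  obtain ⟨ι, U, s, hs1, hs2, hs3⟩ := exists_cut_nrm hτ
  -- the cut cochains
  let g : ι → MultilinearMap ℂ (fun _ : Fin (n + 1) => M.toStarSubalgebra) M.toStarSubalgebra :=
    fun i => (LinearMap.mulLeft ℂ hc.el).compMultilinearMap
      (f.toMultilinearMap.compLinearMap
        (fun j => (Fin.cons (LinearMap.mulLeft ℂ (s i)) (fun _ => LinearMap.id) :
          Fin (n + 1) → (M.toStarSubalgebra →ₗ[ℂ] M.toStarSubalgebra)) j))
  have hgc : ∀ i (a : M.toStarSubalgebra) (y : Fin n → M.toStarSubalgebra),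
      g i (Fin.cons a y) = hc.el * f (Fin.cons (s i * a) y) := by
    intro i a y
    change hc.el * f _ = _
    congr 2
    funext j
    refine Fin.cases ?_ (fun j => ?_) j
    · rfl
    · rfl
  have hgn : ∀ i x, ‖g i x‖ ≤ ‖f‖ * ∏ j, ‖x j‖ := by
    intro i x
    have hx : x = Fin.cons (x 0) (fun j => x j.succ) := (Fin.cons_self_tail x).symm
    rw [hx, hgc]
    refine (norm_mul_le _ _).trans ?_
    have e1 : ‖f (Fin.cons (s i * x 0) (fun j => x j.succ))‖ ≤
        ‖f‖ * ∏ j, ‖(Fin.cons (x 0) (fun j => x j.succ) : Fin (n + 1) → M.toStarSubalgebra) j‖ := by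
      refine (f.le_opNorm _).trans (mul_le_mul_of_nonneg_left ?_ (norm_nonneg _))
      rw [Fin.prod_univ_succ, Fin.prod_univ_succ]
      simp only [Fin.cons_zero, Fin.cons_succ]
      refine mul_le_mul_of_nonneg_right ?_ (Finset.prod_nonneg fun i _ => norm_nonneg _)
      refine (norm_mul_le _ _).trans ?_
      nlinarith [hs1 i, norm_nonneg (x 0)]
    have e2 := hc.norm_el_le
    nlinarith [norm_nonneg (f (Fin.cons (s i * x 0) (fun j => x j.succ))), norm_nonneg hc.el]
  obtain ⟨G, -, hG2, hG3⟩ := exists_wlim M U g (norm_nonneg f) hgn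
  refine ⟨G.toMultilinearMap, hG2, ?_, ?_⟩
  · -- the identity
    intro u x
    have key : ∀ (F : (Fin (n + 1) → M.toStarSubalgebra) → M.toStarSubalgebra) (ξ η : H),
        ⟪((F (Fin.cons (u * x 0) (fun i => x i.succ))
          + (∑ j : Fin n, ((-1 : ℤ) ^ (j.val + 1)) • F (Fin.cons u (mergeArgs j x)))
          + ((-1 : ℤ) ^ (n + 1)) • (F (Fin.cons u (fun i => x i.castSucc)) * x (Fin.last n)) :
            M.toStarSubalgebra) : H →L[ℂ] H) ξ, η⟫_ℂ =
        ⟪(F (Fin.cons (u * x 0) (fun i => x i.succ)) : H →L[ℂ] H) ξ, η⟫_ℂ +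
        (∑ j : Fin n, ((-1 : ℂ) ^ (j.val + 1)) *
          ⟪(F (Fin.cons u (mergeArgs j x)) : H →L[ℂ] H) ξ, η⟫_ℂ) +
        ((-1 : ℂ) ^ (n + 1)) * ⟪(F (Fin.cons u (fun i => x i.castSucc)) : H →L[ℂ] H)
            (((x (Fin.last n) : M.toStarSubalgebra) : H →L[ℂ] H) ξ), η⟫_ℂ := by
      intro F ξ η
      have hz : ∀ (k : ℕ) (ζ : H),
          ⟪((-1 : ℤ) ^ k) • ζ, η⟫_ℂ = ((-1 : ℂ) ^ k) * ⟪ζ, η⟫_ℂ := by
        intro k ζ
        rcases Nat.even_or_odd k with hk | hk
        · simp [hk.neg_one_pow]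
        · simp [hk.neg_one_pow]
      push_cast
      simp only [Pi.add_apply, Finset.sum_apply, Pi.smul_apply, Function.comp_apply,
        inner_add_left, hz, sum_inner]
    refine alg_ext fun ξ η => ?_
    have hR : Tendsto (fun i => ⟪((g i (Fin.cons (u * x 0) (fun i => x i.succ))
          + (∑ j : Fin n, ((-1 : ℤ) ^ (j.val + 1)) • g i (Fin.cons u (mergeArgs j x)))
          + ((-1 : ℤ) ^ (n + 1)) • (g i (Fin.cons u (fun i => x i.castSucc)) * x (Fin.last n)) :
            M.toStarSubalgebra) : H →L[ℂ] H) ξ, η⟫_ℂ) U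
        (𝓝 ⟪((G (Fin.cons (u * x 0) (fun i => x i.succ))
          + (∑ j : Fin n, ((-1 : ℤ) ^ (j.val + 1)) • G (Fin.cons u (mergeArgs j x)))
          + ((-1 : ℤ) ^ (n + 1)) • (G (Fin.cons u (fun i => x i.castSucc)) * x (Fin.last n)) :
            M.toStarSubalgebra) : H →L[ℂ] H) ξ, η⟫_ℂ) := by
      rw [key (⇑G) ξ η]
      refine Tendsto.congr (fun i => (key (⇑(g i)) ξ η).symm) ?_
      exact ((hG3 _ _ _).add (tendsto_finsetSum _ fun j _ => (hG3 _ _ _).const_mul _)).add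
        ((hG3 _ _ _).const_mul _)
    have hid : ∀ i, g i (Fin.cons (u * x 0) (fun i => x i.succ))
          + (∑ j : Fin n, ((-1 : ℤ) ^ (j.val + 1)) • g i (Fin.cons u (mergeArgs j x)))
          + ((-1 : ℤ) ^ (n + 1)) • (g i (Fin.cons u (fun i => x i.castSucc)) * x (Fin.last n)) =
        hc.el * (s i * (u * f x)) := by
      intro i
      have h := firstComp_self (⇑f) hf (s i * u) x
      rw [← mul_assoc (s i), h]
      simp only [hgc]
      rw [mul_add, mul_add, Finset.mul_sum]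
      simp only [mul_smul_comm, mul_assoc]
    have hL : Tendsto (fun i => ⟪((hc.el * (s i * (u * f x)) : M.toStarSubalgebra) :
          H →L[ℂ] H) ξ, η⟫_ℂ) U
        (𝓝 ⟪((hc.el * (u * f x) : M.toStarSubalgebra) : H →L[ℂ] H) ξ, η⟫_ℂ) := by
      have h1 := hs2 (((u * f x : M.toStarSubalgebra) : H →L[ℂ] H) ξ)
      exact (h1.inner tendsto_const_nhds)
    simp_rw [hid] at hR
    exact tendsto_nhds_unique hL hR
  · -- smallness
    intro x ε hε
    set P : ℝ := ‖f‖ * ∏ i, ‖x i‖ with hP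
    have hP0 : 0 ≤ P := mul_nonneg (norm_nonneg _) (Finset.prod_nonneg fun i _ => norm_nonneg _)
    have hFn : ∀ a : M.toStarSubalgebra, ‖a‖ ≤ 1 → ‖G (Fin.cons a x)‖ ≤ P := by
      intro a ha
      refine (hG2 _).trans ?_
      rw [hP, Fin.prod_univ_succ]
      simp only [Fin.cons_zero, Fin.cons_succ]
      refine mul_le_mul_of_nonneg_left ?_ (norm_nonneg _)
      have h0 : 0 ≤ ∏ i : Fin n, ‖x i‖ := Finset.prod_nonneg fun i _ => norm_nonneg _
      nlinarith
    -- vector smallness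
    have hvec : ∀ (ξ : H) (κ : ℝ), 0 < κ → ∃ δ : ℝ, 0 < δ ∧ ∀ a : M.toStarSubalgebra, ‖a‖ ≤ 1 →
        (τ (star a * a)).re ≤ δ → ‖(G (Fin.cons a x) : H →L[ℂ] H) ξ‖ ≤ κ := by
      intro ξ κ hκ
      let T : M.toStarSubalgebra →ₗ[ℂ] H :=
        { toFun := fun a => ((hc.el * f (Fin.cons a x) : M.toStarSubalgebra) : H →L[ℂ] H) ξ
          map_add' := fun a b => by
            have e : f (Fin.cons (a + b) x) = f (Fin.cons a x) + f (Fin.cons b x) := by
              have := f.toMultilinearMap.cons_add x a b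
              exact this
            rw [e, mul_add]; rfl
          map_smul' := fun z a => by
            have e : f (Fin.cons (z • a) x) = z • f (Fin.cons a x) := by
              have := f.toMultilinearMap.cons_smul x z a
              exact this
            rw [e, mul_smul_comm]; rfl }
      have hT : ∀ a, T a = ((hc.el * f (Fin.cons a x) : M.toStarSubalgebra) : H →L[ℂ] H) ξ :=
        fun a => rfl
      have hTS : ∀ v ∈ unitary M.toStarSubalgebra, ‖T v‖ ^ 2 ≤ (P * ‖ξ‖) ^ 2 := by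
        intro v hv
        refine pow_le_pow_left₀ (norm_nonneg _) ?_ 2
        rw [hT]
        refine (ContinuousLinearMap.le_opNorm _ _).trans ?_
        refine mul_le_mul_of_nonneg_right ?_ (norm_nonneg _)
        change ‖hc.el * f (Fin.cons v x)‖ ≤ P
        have hv1 : ‖v‖ ≤ 1 := norm_le_one_of_star_mul (Unitary.star_mul_self_of_mem hv)
        refine (norm_mul_le _ _).trans ?_
        have e1 : ‖f (Fin.cons v x)‖ ≤ P := by
          refine (f.le_opNorm _).trans ?_
          rw [hP, Fin.prod_univ_succ]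
          simp only [Fin.cons_zero, Fin.cons_succ]
          refine mul_le_mul_of_nonneg_left ?_ (norm_nonneg _)
          have h0 : 0 ≤ ∏ i : Fin n, ‖x i‖ := Finset.prod_nonneg fun i _ => norm_nonneg _
          nlinarith
        have e2 := hc.norm_el_le
        nlinarith [norm_nonneg (f (Fin.cons v x)), norm_nonneg hc.el]
      obtain ⟨δ, hδ, h1⟩ := hs3 T _ hTS (κ ^ 2) (by positivity)
      refine ⟨δ, hδ, fun a ha hta => ?_⟩
      set w : H := (G (Fin.cons a x) : H →L[ℂ] H) ξ with hw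
      have h2 := hG3 (Fin.cons a x) ξ w
      have h3 : ∀ᶠ i in (U : Filter ι),
          ‖⟪((g i (Fin.cons a x) : M.toStarSubalgebra) : H →L[ℂ] H) ξ, w⟫_ℂ‖ ≤ κ * ‖w‖ := by
        filter_upwards [h1 a ha hta] with i hi
        rw [hgc]
        change ‖⟪T (s i * a), w⟫_ℂ‖ ≤ _
        refine (norm_inner_le_norm _ _).trans (mul_le_mul_of_nonneg_right ?_ (norm_nonneg _))
        exact le_of_sq_le_sq hi hκ.le
      have h4 : ‖⟪w, w⟫_ℂ‖ ≤ κ * ‖w‖ := le_of_tendsto h2.norm h3
      rw [inner_self_eq_norm_sq_to_K] at h4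
      have h5 : ‖w‖ ^ 2 ≤ κ * ‖w‖ := by
        have e : ‖((‖w‖ : ℂ)) ^ 2‖ = ‖w‖ ^ 2 := by
          rw [norm_pow, Complex.norm_real, norm_norm]
        rw [← e]
        exact h4
      by_contra hcon
      push Not at hcon
      nlinarith [norm_nonneg w]
    obtain ⟨m, ξ, η, hn⟩ := hτ.normal (ε / (2 * (P ^ 2 + 1))) (by positivity)
    set κ : ℝ := Real.sqrt (ε / (2 * (m + 1))) with hκ
    have hκ0 : 0 < κ := Real.sqrt_pos.2 (by positivity)
    have hκ2 : κ * κ = ε / (2 * (m + 1)) := Real.mul_self_sqrt (by positivity)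
    choose δ₁ hδ₁ h1 using fun k => hvec (ξ k) κ hκ0
    choose δ₂ hδ₂ h2 using fun k => hvec (η k) κ hκ0
    obtain ⟨δ, hδ, hδ'⟩ : ∃ δ : ℝ, 0 < δ ∧ ∀ k : Fin m, δ ≤ δ₁ k ∧ δ ≤ δ₂ k := by
      rcases (Finset.univ : Finset (Fin m)).eq_empty_or_nonempty with h | h
      · refine ⟨1, one_pos, fun k => ?_⟩
        exact absurd (Finset.mem_univ k) (by rw [h]; exact Finset.notMem_empty _)
      · obtain ⟨k₁, -, hk₁⟩ := Finset.exists_min_image Finset.univ (fun k => min (δ₁ k) (δ₂ k)) h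
        refine ⟨min (δ₁ k₁) (δ₂ k₁), lt_min (hδ₁ _) (hδ₂ _), fun k => ?_⟩
        have := hk₁ k (Finset.mem_univ _)
        exact ⟨this.trans (min_le_left _ _), this.trans (min_le_right _ _)⟩
    refine ⟨δ, hδ, fun a ha hta => ?_⟩
    set F : M.toStarSubalgebra := G (Fin.cons a x) with hF
    have hFP : ‖F‖ ≤ P := hFn a ha
    have h3 := hn (star F * F)
    have h4 : ‖star F * F‖ ≤ P ^ 2 := by
      refine (norm_mul_le _ _).trans ?_
      rw [norm_star]
      nlinarith [norm_nonneg F]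
    have h5 : ∀ k, ‖⟪η k, ((star F * F : M.toStarSubalgebra) : H →L[ℂ] H) (ξ k)⟫_ℂ‖ ≤ κ * κ := by
      intro k
      have e : ⟪η k, ((star F * F : M.toStarSubalgebra) : H →L[ℂ] H) (ξ k)⟫_ℂ =
          ⟪(F : H →L[ℂ] H) (η k), (F : H →L[ℂ] H) (ξ k)⟫_ℂ := by
        change ⟪η k, (ContinuousLinearMap.adjoint (F : H →L[ℂ] H)) ((F : H →L[ℂ] H) (ξ k))⟫_ℂ = _
        rw [ContinuousLinearMap.adjoint_inner_right]
      rw [e]
      refine (norm_inner_le_norm _ _).trans ?_
      exact mul_le_mul (h2 k a ha (hta.trans (hδ' k).2)) (h1 k a ha (hta.trans (hδ' k).1))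
        (norm_nonneg _) hκ0.le
    have h6 : ‖∑ k, ⟪η k, ((star F * F : M.toStarSubalgebra) : H →L[ℂ] H) (ξ k)⟫_ℂ‖ ≤ ε / 2 := by
      refine (norm_sum_le_of_le _ fun k _ => h5 k).trans ?_
      rw [Finset.sum_const, Finset.card_univ, Fintype.card_fin, nsmul_eq_mul, hκ2]
      rw [mul_div_assoc', div_le_div_iff₀ (by positivity) (by positivity)]
      nlinarith
    have h7 : ε / (2 * (P ^ 2 + 1)) * ‖star F * F‖ ≤ ε / 2 := by
      have : ε / (2 * (P ^ 2 + 1)) * ‖star F * F‖ ≤ ε / (2 * (P ^ 2 + 1)) * (P ^ 2 + 1) :=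
        mul_le_mul_of_nonneg_left (by linarith) (by positivity)
      refine this.trans (le_of_eq ?_)
      field_simp
    calc (τ (star F * F)).re ≤ ‖τ (star F * F)‖ := Complex.re_le_norm _
      _ = ‖(τ (star F * F) - ∑ k, ⟪η k, ((star F * F : M.toStarSubalgebra) : H →L[ℂ] H) (ξ k)⟫_ℂ) +
            ∑ k, ⟪η k, ((star F * F : M.toStarSubalgebra) : H →L[ℂ] H) (ξ k)⟫_ℂ‖ := by
          rw [sub_add_cancel]
      _ ≤ ε / 2 + ε / 2 := (norm_add_le _ _).trans (add_le_add (h3.trans h7) h6)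
      _ = ε := by ring

end Crest.Agent.R121
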