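import Crest.Agent.R121.FDefs
import Crest.Agent.R124.Cmp2
import Crest.Agent.R95.SpecB

/-! Row 121, module TH (helper84): halving of projections, matrix units of size `2^m`.

`Abel M e`: the corner `e M e` is commutative.
`halving`: every projection `p` of `M` is `v* v + v v* + r` with `v` a partial isometry, `v v = 0` and
`r` abelian.
`exists_mu2`: if there is no nonzero abelian projection below the central projection `d` then there are matrix
units of size `2^m` with unit `d` for every `m`. -/

set_option autoImplicit false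
set_option linter.unusedSectionVars false
set_option linter.deprecated false

open Filter Topology Crest.Agent.R95.VN Crest.Agent.R124.Cmp
open scoped InnerProductSpace

namespace Crest.Agent.R121

variable {H : Type*} [NormedAddCommGroup H] [InnerProductSpace ℂ H] [CompleteSpace H]

/-- the corner `e M e` is commutative -/
def Abel (M : VonNeumannAlgebra H) (e : H →L[ℂ] H) : Prop :=
  ∀ x ∈ M, ∀ y ∈ M, e * x * e * y * e = e * y * e * x * e

/-- if all projections below `r` are central in the corner then self-adjoint contractions of the corner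
commute with the corner. -/
theorem comm_of_proj (M : VonNeumannAlgebra H) {r : H →L[ℂ] H} (hr : IsStarProjection r)
    (hrM : r ∈ M)
    (h : ∀ f ∈ M, IsStarProjection f → r * f = f → ∀ x ∈ M, f * x * (r - f) = 0)
    {a : H →L[ℂ] H} (haM : a ∈ M) (has : star a = a) (han : ‖a‖ ≤ 1) (hra : r * a = a)
    {y : H →L[ℂ] H} (hy : y ∈ M) :
    a * (r * y * r) = r * y * r * a := by
  have har : a * r = a := by
    have := congrArg star hra
    rwa [star_mul, has, proj_star hr] at this
  set b : H →L[ℂ] H := (1 / 2 : ℂ) • (1 + a) with hb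
  have hbM : b ∈ M := smul_mem _ (add_mem (one_mem _) haM)
  have hbs : star b = b := by
    rw [hb, star_smul, star_add, star_one, has]
    congr 1
    simp
  have hav : ∀ v : H, |(⟪v, a v⟫_ℂ).re| ≤ ‖v‖ ^ 2 := by
    intro v
    calc |(⟪v, a v⟫_ℂ).re| ≤ ‖⟪v, a v⟫_ℂ‖ := Complex.abs_re_le_norm _
      _ ≤ ‖v‖ * ‖a v‖ := norm_inner_le_norm _ _
      _ ≤ ‖v‖ * (1 * ‖v‖) := by
          gcongr
          exact a.le_of_opNorm_le han v
      _ = ‖v‖ ^ 2 := by ring
  have hbv : ∀ v : H, (⟪v, b v⟫_ℂ).re = (‖v‖ ^ 2 + (⟪v, a v⟫_ℂ).re) / 2 := by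
    intro v
    have e1 : b v = (1 / 2 : ℂ) • (v + a v) := rfl
    rw [e1, inner_smul_right, inner_add_right]
    have e2 : (⟪v, v⟫_ℂ).re = ‖v‖ ^ 2 := by
      rw [← RCLike.re_to_complex, inner_self_eq_norm_sq]
    have e3 : ((1 / 2 : ℂ) * (⟪v, v⟫_ℂ + ⟪v, a v⟫_ℂ)).re = (1 / 2 : ℝ) * (⟪v, v⟫_ℂ + ⟪v, a v⟫_ℂ).re := by
      have : (1 / 2 : ℂ) = ((1 / 2 : ℝ) : ℂ) := by push_cast; rfl
      rw [this, Complex.re_ofReal_mul]
    rw [e3, Complex.add_re, e2]
    ring
  have hb0 : ∀ v : H, 0 ≤ (⟪v, b v⟫_ℂ).re := by
    intro v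
    rw [hbv]
    have := (abs_le.1 (hav v)).1
    linarith
  have hb1 : ∀ v : H, (⟪v, b v⟫_ℂ).re ≤ ‖v‖ ^ 2 := by
    intro v
    rw [hbv]
    have := (abs_le.1 (hav v)).2
    linarith
  have hrb : r * b = b * r := by
    rw [hb, mul_smul_comm, smul_mul_assoc, mul_add, add_mul, hra, har, mul_one, one_mul]
  have hr1 : ‖r‖ ≤ 1 := by
    have := pi_norm_le (w := r) (by rw [proj_star hr, proj_mul hr, proj_mul hr])
    exact ContinuousLinearMap.opNorm_le_bound _ zero_le_one fun v => by
      rw [one_mul]; exact this v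
  set z : H →L[ℂ] H := r * y * r with hz
  have hrz : r * z = z := by rw [hz, ← mul_assoc, ← mul_assoc, proj_mul hr]
  have hzr : z * r = z := by rw [hz, mul_assoc, proj_mul hr]
  have key : ∀ n : ℕ, 1 ≤ n → ‖r * b * z - z * (r * b)‖ ≤ 2 * ‖z‖ / n := by
    intro n hn
    have hn0 : (0 : ℝ) < n := by exact_mod_cast hn
    obtain ⟨f, hf1, hf2, -, hf4⟩ := R95.layer_cake M hbM hbs hb0 hb1 n hn
    have hfr : ∀ k, r * f k = f k * r := fun k => hf2 k r hrb
    have hg : ∀ k, (r * f k) * z = z * (r * f k) := by
      intro k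
      have hp : IsStarProjection (r * f k) := by
        refine ⟨?_, ?_⟩
        · show r * f k * (r * f k) = r * f k
          rw [mul_assoc, ← mul_assoc (f k) r, ← hfr, mul_assoc, proj_mul (hf1 k).2, ← mul_assoc,
            proj_mul hr]
        · show star (r * f k) = r * f k
          rw [star_mul, proj_star hr, proj_star (hf1 k).2, hfr]
      have hpM : r * f k ∈ M := mul_mem hrM (hf1 k).1
      have hrp : r * (r * f k) = r * f k := by rw [← mul_assoc, proj_mul hr]
      have hpr : r * f k * r = r * f k := by rw [mul_assoc, ← hfr, ← mul_assoc, proj_mul hr]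
      have k1 := h _ hpM hp hrp y hy
      have hp' : IsStarProjection (r - r * f k) := proj_sub hp hr hrp
      have k2 := h _ (sub_mem hrM hpM) hp' (by rw [mul_sub, proj_mul hr, hrp]) y hy
      rw [sub_sub_cancel] at k2
      set g := r * f k with hgdef
      have e1 : g * z = g * z * g := by
        have : g * z * (r - g) = 0 := by
          have : g * z * (r - g) = g * y * (r - g) := by
            rw [hz]
            calc g * (r * y * r) * (r - g) = (g * r) * y * (r * (r - g)) := by
                  simp only [mul_assoc]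
              _ = g * y * (r - g) := by rw [hpr, mul_sub, proj_mul hr, hrp]
          rw [this, k1]
        rw [mul_sub, sub_eq_zero] at this
        rw [← this, mul_assoc g z r, hzr]
      have e2 : z * g = g * z * g := by
        have : (r - g) * z * g = 0 := by
          have : (r - g) * z * g = (r - g) * y * g := by
            rw [hz]
            calc (r - g) * (r * y * r) * g = ((r - g) * r) * y * (r * g) := by
                  simp only [mul_assoc]
              _ = (r - g) * y * g := by rw [sub_mul, proj_mul hr, hpr, hrp]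
          rw [this, k2]
        rw [sub_mul, sub_mul, sub_eq_zero] at this
        rw [← this, hrz]
      rw [e1, e2]
    set s : H →L[ℂ] H := r * ((1 / n : ℂ) • ∑ k, f k) with hs
    have hsz : s * z = z * s := by
      rw [hs, mul_smul_comm, Finset.mul_sum, smul_mul_assoc, mul_smul_comm, Finset.sum_mul,
        Finset.mul_sum]
      congr 1
      exact Finset.sum_congr rfl fun k _ => hg k
    have hd : ‖r * b - s‖ ≤ 1 / n := by
      rw [hs, ← mul_sub]
      calc ‖r * (b - (1 / n : ℂ) • ∑ k, f k)‖ ≤ ‖r‖ * ‖b - (1 / n : ℂ) • ∑ k, f k‖ := norm_mul_le _ _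
        _ ≤ 1 * (1 / n) := by gcongr
        _ = 1 / n := one_mul _
    have e3 : r * b * z - z * (r * b) = (r * b - s) * z - z * (r * b - s) := by
      rw [sub_mul, mul_sub, hsz]; abel
    rw [e3]
    calc ‖(r * b - s) * z - z * (r * b - s)‖ ≤ ‖(r * b - s) * z‖ + ‖z * (r * b - s)‖ := norm_sub_le _ _
      _ ≤ ‖r * b - s‖ * ‖z‖ + ‖z‖ * ‖r * b - s‖ := add_le_add (norm_mul_le _ _) (norm_mul_le _ _)
      _ ≤ 1 / n * ‖z‖ + ‖z‖ * (1 / n) := by gcongr
      _ = 2 * ‖z‖ / n := by ring
  have h0 : ‖r * b * z - z * (r * b)‖ ≤ 0 :=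
    ge_of_tendsto (tendsto_const_div_atTop_nhds_zero_nat (2 * ‖z‖)) (eventually_atTop.2 ⟨1, key⟩)
  have h1 : r * b * z = z * (r * b) := sub_eq_zero.1 (norm_le_zero_iff.1 h0)
  have h2 : r * b = (1 / 2 : ℂ) • (r + a) := by
    rw [hb, mul_smul_comm, mul_add, mul_one, hra]
  rw [h2, smul_mul_assoc, mul_smul_comm, add_mul, mul_add, hrz, hzr] at h1
  have h3 := smul_right_injective _ (show (1 / 2 : ℂ) ≠ 0 by norm_num) h1
  exact add_left_cancel h3

/-- if all projections below `r` are central in the corner then the corner is commutative -/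
theorem abel_of_proj (M : VonNeumannAlgebra H) {r : H →L[ℂ] H} (hr : IsStarProjection r)
    (hrM : r ∈ M)
    (h : ∀ f ∈ M, IsStarProjection f → r * f = f → ∀ x ∈ M, f * x * (r - f) = 0) : Abel M r := by
  intro x hx y hy
  -- self-adjoint elements of the corner
  have hsa : ∀ a ∈ M, star a = a → r * a = a → a * (r * y * r) = r * y * r * a := by
    intro a haM has hra
    by_cases ha : ‖a‖ = 0
    · rw [norm_eq_zero.1 ha, zero_mul, mul_zero]
    · have hpos : 0 < ‖a‖ := lt_of_le_of_ne (norm_nonneg _) (Ne.symm ha)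
      have h1 := comm_of_proj M hr hrM h (a := ((‖a‖⁻¹ : ℝ) : ℂ) • a) (smul_mem _ haM)
        (by rw [star_smul, has]; congr 1; simp)
        (by rw [norm_smul, Complex.norm_real, Real.norm_eq_abs, abs_of_pos (inv_pos.2 hpos),
              inv_mul_cancel₀ ha])
        (by rw [mul_smul_comm, hra]) hy
      rw [smul_mul_assoc, mul_smul_comm] at h1
      exact smul_right_injective _ (by
        rw [Ne, Complex.ofReal_eq_zero, inv_eq_zero]; exact ha) h1
  set w : H →L[ℂ] H := r * x * r with hw
  have hwM : w ∈ M := mul_mem (mul_mem hrM hx) hrM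
  have hrw : r * w = w := by rw [hw, ← mul_assoc, ← mul_assoc, proj_mul hr]
  have hrws : r * star w = star w := by
    rw [hw, star_mul, star_mul, proj_star hr, ← mul_assoc, proj_mul hr]
  have h1 := hsa (w + star w) (add_mem hwM (star_mem hwM)) (by rw [star_add, star_star, add_comm])
    (by rw [mul_add, hrw, hrws])
  have h2 := hsa (Complex.I • (w - star w)) (smul_mem _ (sub_mem hwM (star_mem hwM))) (by
      rw [star_smul, star_sub, star_star, RCLike.star_def, Complex.conj_I, neg_smul, ← smul_neg,
        neg_sub])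
    (by rw [mul_smul_comm, mul_sub, hrw, hrws])
  rw [smul_mul_assoc, mul_smul_comm] at h2
  have h2' := smul_right_injective _ Complex.I_ne_zero h2
  have h3 : w * (r * y * r) = r * y * r * w := by
    have e1 : w = (1 / 2 : ℂ) • ((w + star w) + (w - star w)) := by
      rw [add_add_sub_cancel, ← two_smul ℂ w, smul_smul]; norm_num
    rw [e1, smul_mul_assoc, mul_smul_comm, add_mul, mul_add, h1]
    congr 2
  rw [hw] at h3
  calc r * x * r * y * r = r * x * (r * r) * y * r := by rw [proj_mul hr]
    _ = r * x * r * (r * y * r) := by simp only [mul_assoc]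
    _ = r * y * r * (r * x * r) := h3
    _ = r * y * (r * r) * x * r := by simp only [mul_assoc]
    _ = r * y * r * x * r := by rw [proj_mul hr]

/-- a maximal partial isometry `v` below `p` with `v v = 0` -/
theorem exists_max_half (M : VonNeumannAlgebra H) (p : H →L[ℂ] H) :
    ∃ v ∈ M, v * star v * v = v ∧ v * p = v ∧ p * v = v ∧ v * v = 0 ∧
      ∀ v' ∈ M, v' * star v' * v' = v' → v' * p = v' → p * v' = v' → v' * v' = 0 → Ext v v' →
        Ext v' v := by
  let X : Type _ := {w : H →L[ℂ] H // w ∈ M ∧ w * star w * w = w ∧ w * p = w ∧ p * w = w ∧ w * w = 0}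
  have hz : (0 : H →L[ℂ] H) ∈ M ∧ (0 : H →L[ℂ] H) * star 0 * 0 = 0 ∧
      (0 : H →L[ℂ] H) * p = 0 ∧ p * (0 : H →L[ℂ] H) = 0 ∧ (0 : H →L[ℂ] H) * 0 = 0 := by
    refine ⟨zero_mem _, ?_, ?_, ?_, ?_⟩ <;> simp
  obtain ⟨m, hm⟩ := exists_maximal_of_chains_bounded (α := X) (r := fun a b => Ext a.1 b.1)
    (by
      intro c hc
      rcases c.eq_empty_or_nonempty with rfl | hne
      · exact ⟨⟨0, hz⟩, fun a ha => absurd ha (Set.notMem_empty a)⟩
      · have _ : Nonempty c := hne.to_subtype
        have hdir : ∀ i j : c, ∃ k : c, Ext i.1.1 k.1.1 ∧ Ext j.1.1 k.1.1 := by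
          intro i j
          rcases eq_or_ne i.1 j.1 with h | h
          · refine ⟨i, Ext.refl i.1.2.2.1, ?_⟩
            rw [← h]; exact Ext.refl i.1.2.2.1
          · rcases hc i.2 j.2 h with h' | h'
            · exact ⟨j, h', Ext.refl j.1.2.2.1⟩
            · exact ⟨i, Ext.refl i.1.2.2.1, h'⟩
        obtain ⟨v, hvN, hv1, hv2, hv3, hv4⟩ := exists_sup (N := M) (fun i : c => i.1.1)
          (fun i => i.1.2.1) (fun i => i.1.2.2.1) hdir
        have h00 : ∀ i j : c, i.1.1 * j.1.1 = 0 := by
          intro i j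
          obtain ⟨k, hik, hjk⟩ := hdir i j
          have hi := i.1.2.2.1
          have hk := k.1.2.2.1
          have e1 : star i.1.1 * i.1.1 = star i.1.1 * k.1.1 := by
            have := congrArg star (hik.left hi hk)
            simpa using this.symm
          calc i.1.1 * j.1.1 = i.1.1 * star i.1.1 * i.1.1 * (k.1.1 * (star j.1.1 * j.1.1)) := by
                rw [hi, show k.1.1 * (star j.1.1 * j.1.1) = j.1.1 from hjk]
            _ = i.1.1 * (star i.1.1 * i.1.1) * (k.1.1 * (star j.1.1 * j.1.1)) := by
                simp only [mul_assoc]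
            _ = i.1.1 * star i.1.1 * (k.1.1 * k.1.1) * (star j.1.1 * j.1.1) := by
                rw [e1]; simp only [mul_assoc]
            _ = 0 := by rw [k.1.2.2.2.2.2, mul_zero, zero_mul]
        have h01 : ∀ j : c, v * j.1.1 = 0 := by
          intro j
          have e1 : v * (1 - j.1.1 * star j.1.1) = v := by
            apply hv4
            intro i
            rw [mul_sub, mul_one, ← mul_assoc, h00, zero_mul, sub_zero]
          have e2 : v * (j.1.1 * star j.1.1) = 0 := by
            rw [mul_sub, mul_one] at e1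
            exact sub_eq_self.1 e1
          calc v * j.1.1 = v * (j.1.1 * star j.1.1) * j.1.1 := by
                rw [mul_assoc v, j.1.2.2.1]
            _ = 0 := by rw [e2, zero_mul]
        have h02 : v * v = 0 := by
          have e1 : (1 - star v * v) * v = v := by
            apply hv3
            intro i
            rw [sub_mul, one_mul, mul_assoc, h01, mul_zero, sub_zero]
          have e2 : star v * v * v = 0 := by
            rw [sub_mul, one_mul] at e1
            exact sub_eq_self.1 e1
          calc v * v = v * star v * v * v := by rw [hv1]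
            _ = v * (star v * v * v) := by simp only [mul_assoc]
            _ = 0 := by rw [e2, mul_zero]
        exact ⟨⟨v, hvN, hv1, hv4 p fun i => i.1.2.2.2.1, hv3 p fun i => i.1.2.2.2.2.1, h02⟩,
          fun a ha => hv2 ⟨a, ha⟩⟩)
    (fun {a b c} h1 h2 => Ext.trans a.2.2.1 b.2.2.1 h1 h2)
  exact ⟨m.1, m.2.1, m.2.2.1, m.2.2.2.1, m.2.2.2.2.1, m.2.2.2.2.2, fun v' h1 h2 h3 h4 h5 h6 =>
    hm ⟨v', h1, h2, h3, h4, h5⟩ h6⟩

/-- **halving** -/
theorem halving (M : VonNeumannAlgebra H) {p : H →L[ℂ] H} (hp : IsStarProjection p) (hpM : p ∈ M) :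
    ∃ v ∈ M, v * star v * v = v ∧ v * v = 0 ∧ v * p = v ∧ p * v = v ∧
      IsStarProjection (p - star v * v - v * star v) ∧ Abel M (p - star v * v - v * star v) := by
  obtain ⟨v, hvM, hv, hvp, hpv, hvv, hmax⟩ := exists_max_half M p
  have hpl := pi_left hv
  have hpr := pi_right hv
  have hsvp : p * star v = star v := by
    have := congrArg star hvp
    rwa [star_mul, proj_star hp] at this
  have hsvs : star v * star v = 0 := by
    have := congrArg star hvv
    simpa using this
  have hp1 : IsStarProjection (p - star v * v) := proj_sub hpl hp (by rw [← mul_assoc, hsvp])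
  have hr : IsStarProjection (p - star v * v - v * star v) := by
    refine proj_sub hpr hp1 ?_
    rw [sub_mul, ← mul_assoc, hpv, mul_assoc, ← mul_assoc v v, hvv, zero_mul, mul_zero, sub_zero]
  set r : H →L[ℂ] H := p - star v * v - v * star v with hrdef
  have hrM : r ∈ M := sub_mem (sub_mem hpM (mul_mem (star_mem hvM) hvM)) (mul_mem hvM (star_mem hvM))
  have hrv : r * v = 0 := by
    rw [hrdef, sub_mul, sub_mul, hpv, mul_assoc, hvv, mul_zero, sub_zero, hv, sub_self]
  have hvr : v * r = 0 := by
    rw [hrdef, mul_sub, mul_sub, hvp, ← mul_assoc, hv, ← mul_assoc, hvv, zero_mul, sub_zero, sub_self]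
  have hpr' : p * r = r := by
    rw [hrdef, mul_sub, mul_sub, proj_mul hp, ← mul_assoc, hsvp, ← mul_assoc, hpv]
  have hrp : r * p = r := by
    have := congrArg star hpr'
    rwa [star_mul, proj_star hp, proj_star hr] at this
  refine ⟨v, hvM, hv, hvv, hvp, hpv, hr, ?_⟩
  apply abel_of_proj M hr hrM
  intro f hfM hf hrf x hx
  by_contra hne
  have hfr : f * r = f := by
    have := congrArg star hrf
    rwa [star_mul, proj_star hf, proj_star hr] at this
  have hrf' : IsStarProjection (r - f) := proj_sub hf hr hrf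
  obtain ⟨w, hwM, hw0, hw, hwl, hwr⟩ := pi_of_ne_zero
    (mul_mem (mul_mem hfM hx) (sub_mem hrM hfM)) hne
  have hfw : f * w = w := hwl _ (by rw [← mul_assoc, ← mul_assoc, proj_mul hf])
  have hwf : w * (r - f) = w := hwr _ hrf' (by rw [mul_assoc, proj_mul hrf'])
  have hrw : r * w = w := by rw [← hfw, ← mul_assoc, hrf]
  have hwr' : w * r = w := by
    rw [← hwf, mul_assoc, sub_mul, proj_mul hr, hfr]
  have hww : w * w = 0 := by
    calc w * w = w * (r - f) * (f * w) := by rw [hwf, hfw]
      _ = w * ((r - f) * f) * w := by simp only [mul_assoc]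
      _ = 0 := by rw [sub_mul, hrf, proj_mul hf, sub_self, mul_zero, zero_mul]
  have hsvr : star v * r = 0 := by
    have := congrArg star hrv
    simpa [proj_star hr] using this
  have hrsv : r * star v = 0 := by
    have := congrArg star hvr
    simpa [proj_star hr] using this
  have h1 : star v * w = 0 := by rw [← hrw, ← mul_assoc, hsvr, zero_mul]
  have hsw : star w = r * star w := by
    have := congrArg star hwr'
    rw [star_mul, proj_star hr] at this
    exact this.symm
  have h2 : v * star w = 0 := by rw [hsw, ← mul_assoc, hvr, zero_mul]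
  have hvw : v * w = 0 := by rw [← hrw, ← mul_assoc, hvr, zero_mul]
  have hwv : w * v = 0 := by rw [← hwr', mul_assoc, hrv, mul_zero]
  have hwsv : w * star v = 0 := by rw [← hwr', mul_assoc, hrsv, mul_zero]
  have hwp : w * p = w := by rw [← hwr', mul_assoc, hrp]
  have hpw : p * w = w := by rw [← hrw, ← mul_assoc, hpr']
  have hE : Ext v (v + w) := by
    show (v + w) * (star v * v) = v
    rw [add_mul, ← mul_assoc, hv, ← mul_assoc, hwsv, zero_mul, add_zero]
  have hE' := hmax (v + w) (add_mem hvM hwM) (pi_add hv hw h1 h2) (by rw [add_mul, hvp, hwp])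
    (by rw [mul_add, hpv, hpw]) (by rw [add_mul, mul_add, mul_add, hvv, hvw, hwv, hww]; simp) hE
  have hswv : star w * v = 0 := by
    have := congrArg star h1
    simpa using this
  have h3 : v * (star (v + w) * (v + w)) = v := by
    have e1 : star (v + w) * (v + w) = star v * v + star w * w := by
      rw [star_add, add_mul, mul_add, mul_add, h1, hswv, add_zero, zero_add]
    rw [e1, mul_add, ← mul_assoc, hv, ← mul_assoc, h2, zero_mul, add_zero]
  have h4 : v * (star (v + w) * (v + w)) = v + w := hE'
  rw [h3] at h4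
  have : w = 0 := by
    have h5 : v + w = v := h4.symm
    simpa using h5
  exact hw0 this

/-- doubling of matrix units -/
theorem mu_double {M : VonNeumannAlgebra H} {d : H →L[ℂ] H} {n : ℕ} {e : Fin n → Fin n → (H →L[ℂ] H)}
    (he : MUc M d n e) (i₀ : Fin n) {v : H →L[ℂ] H} (hvM : v ∈ M) (hv : v * star v * v = v)
    (hvv : v * v = 0) (hsum : star v * v + v * star v = e i₀ i₀) :
    ∃ e' : Fin (n * 2) → Fin (n * 2) → (H →L[ℂ] H), MUc M d (n * 2) e' := by
  have hp : IsStarProjection (e i₀ i₀) :=
    ⟨by show e i₀ i₀ * e i₀ i₀ = e i₀ i₀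
        rw [he.mul, if_pos rfl], he.star _ _⟩
  have hsvs : star v * star v = 0 := by
    have := congrArg star hvv
    simpa using this
  have hsv : star v * v * star v = star v := by
    have := congrArg star hv
    simpa [mul_assoc] using this
  have hve : v * e i₀ i₀ = v := by
    rw [← hsum, mul_add, ← mul_assoc, hv, ← mul_assoc, hvv, zero_mul, add_zero]
  have hev : e i₀ i₀ * v = v := by
    rw [← hsum, add_mul, hv, mul_assoc, hvv, mul_zero, zero_add]
  have hesv : e i₀ i₀ * star v = star v := by
    have := congrArg star hve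
    rwa [star_mul, proj_star hp] at this
  have hsve : star v * e i₀ i₀ = star v := by
    have := congrArg star hev
    rwa [star_mul, proj_star hp] at this
  let X : Fin 2 → (H →L[ℂ] H) := ![v, v * star v]
  have hXM : ∀ a, X a ∈ M := by
    intro a
    fin_cases a
    · exact hvM
    · exact mul_mem hvM (star_mem hvM)
  have hXX : ∀ a b, X a * star (X b) = if a = b then v * star v else 0 := by
    intro a b
    fin_cases a <;> fin_cases b
    · show v * star v = _
      rw [if_pos rfl]
    · show v * star (v * star v) = if (0 : Fin 2) = 1 then _ else _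
      rw [if_neg (by decide), star_mul, star_star, ← mul_assoc, hvv, zero_mul]
    · show v * star v * star v = if (1 : Fin 2) = 0 then _ else _
      rw [if_neg (by decide), mul_assoc, hsvs, mul_zero]
    · show v * star v * star (v * star v) = _
      rw [if_pos rfl, star_mul, star_star, ← mul_assoc, hv]
  have hXe : ∀ a, X a * e i₀ i₀ = X a := by
    intro a
    fin_cases a
    · exact hve
    · show v * star v * e i₀ i₀ = v * star v
      rw [mul_assoc, hsve]
  have hvX : ∀ a, v * star v * X a = X a := by
    intro a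
    fin_cases a
    · exact hv
    · show v * star v * (v * star v) = v * star v
      rw [← mul_assoc, hv]
  have hXs : ∑ a, star (X a) * X a = e i₀ i₀ := by
    rw [Fin.sum_univ_two]
    show star v * v + star (v * star v) * (v * star v) = e i₀ i₀
    rw [star_mul, star_star, ← mul_assoc, hv, hsum]
  have heX : ∀ a, e i₀ i₀ * star (X a) = star (X a) := by
    intro a
    have := congrArg star (hXe a)
    rwa [star_mul, proj_star hp] at this
  let φ : Fin (n * 2) ≃ Fin n × Fin 2 := finProdFinEquiv.symm
  refine ⟨fun s t => e (φ s).1 i₀ * star (X (φ s).2) * X (φ t).2 * e i₀ (φ t).1, ?_, ?_, ?_, ?_⟩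
  · intro s t
    exact mul_mem (mul_mem (mul_mem (he.mem _ _) (star_mem (hXM _))) (hXM _)) (he.mem _ _)
  · intro s t s' t'
    calc e (φ s).1 i₀ * star (X (φ s).2) * X (φ t).2 * e i₀ (φ t).1 *
          (e (φ s').1 i₀ * star (X (φ s').2) * X (φ t').2 * e i₀ (φ t').1)
        = e (φ s).1 i₀ * star (X (φ s).2) * X (φ t).2 * (e i₀ (φ t).1 * e (φ s').1 i₀) *
          star (X (φ s').2) * X (φ t').2 * e i₀ (φ t').1 := by simp only [mul_assoc]
      _ = if t = s' then e (φ s).1 i₀ * star (X (φ s).2) * X (φ t').2 * e i₀ (φ t').1 else 0 := by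
          rw [he.mul]
          by_cases h1 : (φ t).1 = (φ s').1
          · rw [if_pos h1, mul_assoc _ (X (φ t).2) (e i₀ i₀), hXe]
            rw [mul_assoc _ (X (φ t).2) (star (X (φ s').2)), hXX]
            by_cases h2 : (φ t).2 = (φ s').2
            · have h3 : t = s' := φ.injective (Prod.ext h1 h2)
              rw [if_pos h2, if_pos h3, mul_assoc _ (v * star v) (X (φ t').2), hvX]
            · have h3 : t ≠ s' := fun h => h2 (by rw [h])
              rw [if_neg h2, if_neg h3, mul_zero, zero_mul, zero_mul]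
          · have h3 : t ≠ s' := fun h => h1 (by rw [h])
            rw [if_neg h1, if_neg h3, mul_zero, zero_mul, zero_mul, zero_mul]
  · intro s t
    simp only [star_mul, star_star, he.star, mul_assoc]
  · calc ∑ s, e (φ s).1 i₀ * star (X (φ s).2) * X (φ s).2 * e i₀ (φ s).1
        = ∑ q : Fin n × Fin 2, e q.1 i₀ * star (X q.2) * X q.2 * e i₀ q.1 :=
          Equiv.sum_comp φ (fun q : Fin n × Fin 2 => e q.1 i₀ * star (X q.2) * X q.2 * e i₀ q.1)
      _ = ∑ i, ∑ a, e i i₀ * star (X a) * X a * e i₀ i := Fintype.sum_prod_type _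
      _ = ∑ i, e i i := by
          refine Finset.sum_congr rfl fun i _ => ?_
          have h1 : ∑ a, e i i₀ * star (X a) * X a * e i₀ i =
              e i i₀ * (∑ a, star (X a) * X a) * e i₀ i := by
            rw [Finset.mul_sum, Finset.sum_mul]
            exact Finset.sum_congr rfl fun a _ => by simp only [mul_assoc]
          rw [h1, hXs, he.mul, if_pos rfl, he.mul, if_pos rfl]
      _ = d := he.sum

/-- no abelian projection below `d`: matrix units of size `2^m` with unit `d` -/
theorem exists_mu2 {M : VonNeumannAlgebra H} {d : H →L[ℂ] H} (hd : CProj M d)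
    (hna : ∀ e, e ∈ M → IsStarProjection e → d * e = e → Abel M e → e = 0) (m : ℕ) :
    ∃ e : Fin (2 ^ m) → Fin (2 ^ m) → (H →L[ℂ] H), MUc M d (2 ^ m) e := by
  induction m with
  | zero =>
    refine ⟨fun _ _ => d, fun _ _ => hd.mem, ?_, fun _ _ => proj_star hd.proj, ?_⟩
    · intro i j k l
      have : j = k := Subsingleton.elim (α := Fin 1) _ _
      rw [if_pos this, proj_mul hd.proj]
    · show ∑ i : Fin 1, d = d
      simp
  | succ m ih =>
    obtain ⟨e, he⟩ := ih
    let i₀ : Fin (2 ^ m) := ⟨0, by positivity⟩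
    have hp : IsStarProjection (e i₀ i₀) :=
      ⟨by show e i₀ i₀ * e i₀ i₀ = e i₀ i₀
          rw [he.mul, if_pos rfl], he.star _ _⟩
    have hdp : d * e i₀ i₀ = e i₀ i₀ := by
      rw [← he.sum, Finset.sum_mul, Finset.sum_eq_single i₀]
      · rw [he.mul, if_pos rfl]
      · intro j _ hj
        rw [he.mul, if_neg hj]
      · intro h; exact absurd (Finset.mem_univ _) h
    obtain ⟨v, hvM, hv, hvv, hvp, hpv, hr, hab⟩ := halving M hp (he.mem i₀ i₀)
    have hsvp : e i₀ i₀ * star v = star v := by
      have := congrArg star hvp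
      rwa [star_mul, proj_star hp] at this
    have h0 := hna _ (sub_mem (sub_mem (he.mem i₀ i₀) (mul_mem (star_mem hvM) hvM))
      (mul_mem hvM (star_mem hvM))) hr (by
        have h1 : d * star v = star v := by rw [← hsvp, ← mul_assoc, hdp]
        have h2 : d * v = v := by rw [← hpv, ← mul_assoc, hdp]
        rw [mul_sub, mul_sub, hdp, ← mul_assoc, h1, ← mul_assoc, h2]) hab
    have hsum : star v * v + v * star v = e i₀ i₀ := by
      rw [sub_sub, sub_eq_zero] at h0
      exact h0.symm
    exact mu_double he i₀ hvM hv hvv hsum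

end Crest.Agent.R121
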