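import Crest.Agent.R121.FDefs
import Crest.Agent.R124.Cmp2

/-! Row 121, module TI (helper63): below a central projection which carries a faithful trace and
contains a nonzero abelian projection there is a nonzero central projection of finite type I. -/

set_option autoImplicit false
set_option linter.unusedSectionVars false
set_option linter.deprecated false

namespace Crest.Agent.R121

open scoped InnerProductSpace ComplexOrder
open Crest.Agent.R95.VN Crest.Agent.R124.Cmp

variable {H : Type*} [NormedAddCommGroup H] [InnerProductSpace ℂ H] [CompleteSpace H]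

/-- `s e = s` when `s⋆ s = e` is a projection -/
theorem ti_right {s e : H →L[ℂ] H} (he : IsStarProjection e) (h : star s * s = e) : s * e = s := by
  have h1 : star (s * e - s) * (s * e - s) = 0 := by
    rw [star_sub, star_mul, proj_star he, sub_mul, mul_sub, mul_sub]
    have e1 : e * star s * (s * e) = e := by
      rw [show e * star s * (s * e) = e * (star s * s) * e by simp only [mul_assoc], h, proj_mul he,
        proj_mul he]
    have e2 : e * star s * s = e := by rw [mul_assoc, h, proj_mul he]
    have e3 : star s * (s * e) = e := by rw [← mul_assoc, h, proj_mul he]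
    rw [e1, e2, e3, h]; simp
  have h2 := CStarRing.star_mul_self_eq_zero_iff (s * e - s) |>.1 h1
  exact sub_eq_zero.1 h2

theorem ti_left {s e : H →L[ℂ] H} (he : IsStarProjection e) (h : star s * s = e) :
    e * star s = star s := by
  have := congrArg star (ti_right he h)
  rwa [star_mul, proj_star he] at this

/-- copies of an abelian projection which add up to a central projection -/
theorem typeI_of (M : VonNeumannAlgebra H) {c g : H →L[ℂ] H} (hc : CProj M c) (hc0 : c ≠ 0)
    (hg : IsStarProjection g)
    (hab : ∀ a ∈ M, ∀ b ∈ M, (g * a * g) * (g * b * g) = (g * b * g) * (g * a * g))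
    {n : ℕ} (s : Fin n → (H →L[ℂ] H)) (hsM : ∀ i, s i ∈ M)
    (hs : ∀ i j, star (s i) * s j = if i = j then g else 0)
    (hsum : ∑ i, s i * star (s i) = c) : TypeI M c := by
  have hn : 0 < n := by
    rcases Nat.eq_zero_or_pos n with h | h
    · subst h
      exact absurd (by simpa using hsum.symm) hc0
    · exact h
  have hsg : ∀ i, s i * g = s i := fun i => ti_right hg (by simpa using hs i i)
  have hgs : ∀ i, g * star (s i) = star (s i) := fun i => ti_left hg (by simpa using hs i i)
  refine ⟨n, hn, fun i j => s i * star (s j), ⟨?_, ?_, ?_, hsum⟩, ?_⟩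
  · intro i j
    exact mul_mem (hsM i) (star_mem (hsM j))
  · intro i j k l
    rw [show s i * star (s j) * (s k * star (s l)) = s i * (star (s j) * s k) * star (s l) by
      simp only [mul_assoc], hs]
    by_cases h : j = k
    · rw [if_pos h, if_pos h, hsg]
    · rw [if_neg h, if_neg h]; simp
  · intro i j
    rw [star_mul, star_star]
  · intro x hx hcx hcomm
    rw [VonNeumannAlgebra.mem_commutant_iff]
    intro y hy
    -- `x s_i = s_i x₀`
    let i0 : Fin n := ⟨0, hn⟩
    set x0 : H →L[ℂ] H := star (s i0) * x * s i0 with hx0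
    have h1 : ∀ i, x * s i = s i * x0 := by
      intro i
      have h2 : s i * star (s i0) * x = x * (s i * star (s i0)) := hcomm i i0
      calc x * s i = x * (s i * star (s i0)) * s i0 := by
            rw [show x * (s i * star (s i0)) * s i0 = x * (s i * (star (s i0) * s i0)) by
              simp only [mul_assoc], hs, if_pos rfl, hsg]
        _ = s i * x0 := by rw [← h2, hx0]; simp only [mul_assoc]
    have h2 : ∀ i, star (s i) * x = x0 * star (s i) := by
      intro i
      have h3 : s i0 * star (s i) * x = x * (s i0 * star (s i)) := hcomm i0 i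
      calc star (s i) * x = star (s i0) * (s i0 * star (s i) * x) := by
            rw [show star (s i0) * (s i0 * star (s i) * x) = (star (s i0) * s i0) * star (s i) * x by
              simp only [mul_assoc], hs, if_pos rfl, hgs]
        _ = x0 * star (s i) := by rw [h3, hx0]; simp only [mul_assoc]
    have hx0g : x0 = g * (star (s i0) * x * s i0) * g := by
      rw [show g * (star (s i0) * x * s i0) * g = (g * star (s i0)) * x * (s i0 * g) by
        simp only [mul_assoc], hgs, hsg]
    have hyg : ∀ i j, star (s i) * y * s j = g * (star (s i) * y * s j) * g := by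
      intro i j
      rw [show g * (star (s i) * y * s j) * g = (g * star (s i)) * y * (s j * g) by
        simp only [mul_assoc], hgs, hsg]
    have hxy : ∀ i j, x0 * (star (s i) * y * s j) = (star (s i) * y * s j) * x0 := by
      intro i j
      rw [hyg i j, hx0g]
      exact hab _ (mul_mem (mul_mem (star_mem (hsM i0)) hx) (hsM i0)) _
        (mul_mem (mul_mem (star_mem (hsM i)) hy) (hsM j))
    have hcy : c * y = y * c := comm_of_mem hy hc.comm
    have hxc : x * c = x := by
      have : c * x = x * c := comm_of_mem hx hc.comm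
      rw [← this, hcx]
    -- `x y = c x y c`
    have A1 : x * y = ∑ i, ∑ j, s i * (x0 * (star (s i) * y * s j)) * star (s j) := by
      have : x * y = x * (∑ i, s i * star (s i)) * y * (∑ j, s j * star (s j)) := by
        rw [hsum, hxc, mul_assoc, ← hcy, ← mul_assoc, hxc]
      rw [this, Finset.mul_sum Finset.univ (fun i => s i * star (s i)) x, Finset.sum_mul,
        Finset.sum_mul]
      refine Finset.sum_congr rfl fun i _ => ?_
      rw [Finset.mul_sum]
      refine Finset.sum_congr rfl fun j _ => ?_
      rw [show x * (s i * star (s i)) * y * (s j * star (s j))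
        = (x * s i) * star (s i) * y * s j * star (s j) by simp only [mul_assoc], h1]
      simp only [mul_assoc]
    have A2 : y * x = ∑ i, ∑ j, s i * ((star (s i) * y * s j) * x0) * star (s j) := by
      have : y * x = (∑ i, s i * star (s i)) * y * (∑ j, s j * star (s j)) * x := by
        rw [hsum, mul_assoc (c * y), hcx, hcy, mul_assoc, hcx]
      rw [this, Finset.sum_mul, Finset.sum_mul, Finset.sum_mul]
      refine Finset.sum_congr rfl fun i _ => ?_
      rw [Finset.mul_sum, Finset.sum_mul]
      refine Finset.sum_congr rfl fun j _ => ?_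
      rw [show s i * star (s i) * y * (s j * star (s j)) * x
        = s i * star (s i) * y * s j * (star (s j) * x) by simp only [mul_assoc], h2]
      simp only [mul_assoc]
    show y * x = x * y
    rw [A1, A2]
    refine Finset.sum_congr rfl fun i _ => Finset.sum_congr rfl fun j _ => ?_
    rw [hxy i j]

/-- `∑ s_i s_i⋆` is a projection -/
theorem ti_proj {e : H →L[ℂ] H} (he : IsStarProjection e) {n : ℕ} (s : Fin n → (H →L[ℂ] H))
    (hs : ∀ i j, star (s i) * s j = if i = j then e else 0) :
    IsStarProjection (∑ i, s i * star (s i)) ∧ ∀ j, (∑ i, s i * star (s i)) * s j = s j := by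
  have hse : ∀ i, s i * e = s i := fun i => ti_right he (by simpa using hs i i)
  have h2 : ∀ j, (∑ i, s i * star (s i)) * s j = s j := by
    intro j
    rw [Finset.sum_mul, Finset.sum_eq_single j]
    · rw [mul_assoc, hs, if_pos rfl, hse]
    · intro i _ hij
      rw [mul_assoc, hs, if_neg hij, mul_zero]
    · simp
  refine ⟨⟨?_, ?_⟩, h2⟩
  · show (∑ i, s i * star (s i)) * (∑ i, s i * star (s i)) = ∑ i, s i * star (s i)
    rw [Finset.mul_sum]
    refine Finset.sum_congr rfl fun j _ => ?_
    rw [← mul_assoc, h2]
  · show star (∑ i, s i * star (s i)) = ∑ i, s i * star (s i)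
    rw [star_sum]
    refine Finset.sum_congr rfl fun j _ => ?_
    rw [star_mul, star_star]

/-- the number of orthogonal copies of a nonzero projection is bounded under a faithful trace -/
theorem ti_bound (M : VonNeumannAlgebra H) {c e : H →L[ℂ] H}
    {τ : M.toStarSubalgebra →L[ℂ] ℂ} (hτ : TrOn M c τ) (he : IsStarProjection e) (heM : e ∈ M)
    (hce : c * e = e) (he0 : e ≠ 0) :
    ∃ N : ℕ, ∀ n : ℕ, N ≤ n → ¬ ∃ s : Fin n → (H →L[ℂ] H), (∀ i, s i ∈ M) ∧
      ∀ i j, star (s i) * s j = if i = j then e else 0 := by
  let E : M.toStarSubalgebra := ⟨e, heM⟩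
  have hE : star E * E = E := by
    apply Subtype.ext
    show star e * e = e
    rw [proj_star he, proj_mul he]
  have h0 : 0 ≤ τ E := by
    have := hτ.nonneg E
    rwa [hE] at this
  have hpos : 0 < (τ E).re := by
    rcases (Complex.le_def.1 h0).1.lt_or_eq with h | h
    · simpa using h
    · exfalso
      apply he0
      have hE1 : ‖E‖ ≤ 1 := by
        have h5 : ‖star E * E‖ = ‖E‖ * ‖E‖ := CStarRing.norm_star_mul_self
        rw [hE] at h5
        nlinarith [norm_nonneg E]
      ext ξ
      have h3 : ∀ ε : ℝ, 0 < ε → ‖e ξ‖ ≤ ε := by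
        intro ε hε
        obtain ⟨δ, hδ, h4⟩ := hτ.ac ξ ε hε
        have h5 := h4 E hE1 (by rw [hE, ← h]; simpa using hδ.le)
        have h6 : c (e ξ) = e ξ := congrArg (fun T : H →L[ℂ] H => T ξ) hce
        rwa [show ((E : M.toStarSubalgebra) : H →L[ℂ] H) = e from rfl, h6] at h5
      have : ‖e ξ‖ ≤ 0 := le_of_forall_gt_imp_ge_of_dense (fun ε hε => h3 ε hε)
      simpa using this
  obtain ⟨N, hN⟩ := exists_nat_gt (1 / (τ E).re)
  refine ⟨N, fun n hn => ?_⟩
  rintro ⟨s, hsM, hs⟩
  let S : Fin n → M.toStarSubalgebra := fun i => ⟨s i, hsM i⟩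
  have hSS : ∀ i, star (S i) * S i = E := by
    intro i
    apply Subtype.ext
    show star (s i) * s i = e
    simpa using hs i i
  obtain ⟨hP, -⟩ := ti_proj he s hs
  have hPM : (∑ i, s i * star (s i)) ∈ M := by
    refine sum_mem fun i _ => mul_mem (hsM i) (star_mem (hsM i))
  have hco : ((∑ i, S i * star (S i) : M.toStarSubalgebra) : H →L[ℂ] H)
      = ∑ i, s i * star (s i) := by
    rw [AddSubmonoidClass.coe_finset_sum]
    rfl
  have hQ : star (1 - ∑ i, S i * star (S i)) * (1 - ∑ i, S i * star (S i))
      = 1 - ∑ i, S i * star (S i) := by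
    apply Subtype.ext
    have hQ1 := hP.one_sub
    have e1 : ((1 - ∑ i, S i * star (S i) : M.toStarSubalgebra) : H →L[ℂ] H)
        = 1 - ∑ i, s i * star (s i) := by
      rw [← hco]; rfl
    show star ((1 - ∑ i, S i * star (S i) : M.toStarSubalgebra) : H →L[ℂ] H)
      * ((1 - ∑ i, S i * star (S i) : M.toStarSubalgebra) : H →L[ℂ] H) = _
    rw [e1, proj_star hQ1, proj_mul hQ1]
  have h7 := hτ.nonneg (1 - ∑ i, S i * star (S i))
  rw [hQ, map_sub, hτ.one, map_sum] at h7
  have h8 : ∀ i, τ (S i * star (S i)) = τ E := fun i => by rw [hτ.tr, hSS]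
  simp only [h8, Finset.sum_const, Finset.card_univ, Fintype.card_fin] at h7
  have h9 := (Complex.le_def.1 h7).1
  simp only [Complex.zero_re, Complex.sub_re, Complex.one_re, nsmul_eq_mul, Complex.mul_re,
    Complex.natCast_re, Complex.natCast_im, zero_mul, sub_zero] at h9
  have h10 : (N : ℝ) ≤ n := by exact_mod_cast hn
  rw [div_lt_iff₀ hpos] at hN
  nlinarith

/-- **module TI** -/
theorem exists_typeI (M : VonNeumannAlgebra H) {c e : H →L[ℂ] H} (hc : CProj M c)
    {τ : M.toStarSubalgebra →L[ℂ] ℂ} (hτ : TrOn M c τ) (he : IsStarProjection e) (heM : e ∈ M)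
    (hce : c * e = e) (he0 : e ≠ 0)
    (hab : ∀ a ∈ M, ∀ b ∈ M, (e * a * e) * (e * b * e) = (e * b * e) * (e * a * e)) :
    ∃ c', CProj M c' ∧ c' ≠ 0 ∧ c' * c = c' ∧ TypeI M c' := by
  classical
  let P : ℕ → Prop := fun n => ∃ s : Fin n → (H →L[ℂ] H), (∀ i, s i ∈ M) ∧
      ∀ i j, star (s i) * s j = if i = j then e else 0
  obtain ⟨N, hN⟩ := ti_bound M hτ he heM hce he0
  obtain ⟨n, ⟨s, hsM, hs⟩, hn1⟩ : ∃ n, P n ∧ ¬ P (n + 1) := by
    by_contra hcon
    push Not at hcon
    have : ∀ n, P n := by
      intro n
      induction n with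
      | zero => exact ⟨fun i => i.elim0, fun i => i.elim0, fun i => i.elim0⟩
      | succ n ih => exact hcon n ih
    exact hN N le_rfl (this N)
  have hcomm : ∀ x ∈ M, c * x = x * c := fun x hx => comm_of_mem hx hc.comm
  have hse : ∀ i, s i * e = s i := fun i => ti_right he (by simpa using hs i i)
  have hec : e * c = e := by rw [← hcomm e heM, hce]
  have hcs : ∀ i, c * s i = s i := by
    intro i
    rw [hcomm _ (hsM i), ← hse i, mul_assoc, hec]
  obtain ⟨hPp, hPs⟩ := ti_proj he s hs
  set p : H →L[ℂ] H := ∑ i, s i * star (s i) with hp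
  clear_value p
  have hpM : p ∈ M := by
    rw [hp]
    exact sum_mem fun i _ => mul_mem (hsM i) (star_mem (hsM i))
  have hcp : c * p = p := by
    rw [hp, Finset.mul_sum]
    refine Finset.sum_congr rfl fun i _ => ?_
    rw [← mul_assoc, hcs]
  have hr : IsStarProjection (c - p) := proj_sub hPp hc.proj hcp
  have hrM : c - p ∈ M := sub_mem hc.mem hpM
  have hrs : ∀ i, (c - p) * s i = 0 := by
    intro i
    rw [sub_mul, hcs, hPs, sub_self]
  -- a maximal partial isometry between `e` and `r`
  obtain ⟨v, hvM, hv, hvr, hev, hcut⟩ := exists_cut M he hr heM hrM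
  have hvs : ∀ i, v * s i = 0 := by
    intro i
    rw [← hvr, mul_assoc, hrs, mul_zero]
  have hfM : (c - p) - star v * v ∈ M := sub_mem hrM (mul_mem (star_mem hvM) hvM)
  obtain ⟨z, hzM, hzc, hz, hzf, hze⟩ := exists_central M hfM
  have hzcomm : ∀ x ∈ M, z * x = x * z := fun x hx => comm_of_mem hx hzc
  have hez : (e - v * star v) * z = 0 := hze _ hcut
  have hez' : e * z = v * star v * z := by
    rw [sub_mul, sub_eq_zero] at hez
    exact hez
  -- `(1 - z) e ≠ 0`, otherwise one more copy
  have hz0 : (1 - z) * e ≠ 0 := by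
    intro h0
    have h1 : z * e = e := by
      rw [sub_mul, one_mul, sub_eq_zero] at h0
      exact h0.symm
    apply hn1
    refine ⟨Fin.snoc s (star v * z), ?_, ?_⟩
    · intro i
      refine Fin.lastCases ?_ (fun j => ?_) i
      · rw [Fin.snoc_last]
        exact mul_mem (star_mem hvM) hzM
      · rw [Fin.snoc_castSucc]
        exact hsM j
    · have k1 : star (star v * z) * (star v * z) = e := by
        rw [star_mul, star_star, proj_star hz,
          show z * v * (star v * z) = z * (v * star v * z) by simp only [mul_assoc], ← hez',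
          ← hzcomm e heM, ← mul_assoc, proj_mul hz, h1]
      have k2 : ∀ j, star (star v * z) * s j = 0 := by
        intro j
        rw [star_mul, star_star, mul_assoc, hvs, mul_zero]
      intro i j
      refine Fin.lastCases ?_ (fun i => ?_) i
      · refine Fin.lastCases ?_ (fun j => ?_) j
        · rw [Fin.snoc_last, if_pos rfl, k1]
        · rw [Fin.snoc_last, Fin.snoc_castSucc, if_neg (Fin.castSucc_ne_last j).symm, k2]
      · refine Fin.lastCases ?_ (fun j => ?_) j
        · rw [Fin.snoc_last, Fin.snoc_castSucc, if_neg (Fin.castSucc_ne_last i)]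
          have := congrArg star (k2 i)
          simpa only [star_mul, star_star, star_zero] using this
        · rw [Fin.snoc_castSucc, Fin.snoc_castSucc, hs]
          by_cases h : i = j
          · rw [if_pos h, if_pos (by rw [h])]
          · rw [if_neg h, if_neg (fun h' => h (Fin.castSucc_injective n h'))]
  -- the piece `c₁ = (1 - z) c`
  have hc1 : CProj M ((1 - z) * c) := by
    have hcz : c * z = z * c := hcomm z hzM
    refine ⟨⟨?_, ?_⟩, mul_mem (sub_mem (one_mem _) hzM) hc.mem,
      mul_mem (sub_mem (one_mem _) hzc) hc.comm⟩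
    · show (1 - z) * c * ((1 - z) * c) = (1 - z) * c
      have : c * (1 - z) = (1 - z) * c := by rw [mul_sub, sub_mul, hcz, mul_one, one_mul]
      rw [show (1 - z) * c * ((1 - z) * c) = (1 - z) * (c * (1 - z)) * c by simp only [mul_assoc],
        this, ← mul_assoc, proj_mul hz.one_sub, mul_assoc, proj_mul hc.proj]
    · show star ((1 - z) * c) = (1 - z) * c
      rw [star_mul, proj_star hc.proj, proj_star hz.one_sub, mul_sub, sub_mul, hcz, mul_one,
        one_mul]
  set c1 : H →L[ℂ] H := (1 - z) * c with hc1d
  clear_value c1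
  have hc1comm : ∀ x ∈ M, c1 * x = x * c1 := fun x hx => comm_of_mem hx hc1.comm
  have hc1c : c1 * c = c1 := by rw [hc1d, mul_assoc, proj_mul hc.proj]
  have hc1e : c1 * e ≠ 0 := by rwa [hc1d, mul_assoc, hce]
  have hc1r : c1 * (c - p) = c1 * (star v * v) := by
    have h1 : (1 - z) * ((c - p) - star v * v) = 0 := by rw [sub_mul, one_mul, hzf, sub_self]
    have h2 : c1 * ((c - p) - star v * v) = 0 := by
      rw [hc1d, mul_assoc, hcomm _ hfM, ← mul_assoc, h1, zero_mul]
    rwa [mul_sub, sub_eq_zero] at h2
  have hcc : ∀ d : H →L[ℂ] H, d ∈ M → CProj M d → ∀ i j,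
      star (d * s i) * (d * s j) = if i = j then d * e else 0 := by
    intro d hdM hd i j
    have hdc : ∀ x ∈ M, d * x = x * d := fun x hx => comm_of_mem hx hd.comm
    rw [star_mul, proj_star hd.proj,
      show star (s i) * d * (d * s j) = star (s i) * (d * d) * s j by simp only [mul_assoc],
      proj_mul hd.proj, ← hdc _ (star_mem (hsM i)), mul_assoc, hs]
    by_cases h : i = j
    · rw [if_pos h, if_pos h]
    · rw [if_neg h, if_neg h, mul_zero]
  have hde : ∀ d : H →L[ℂ] H, CProj M d → IsStarProjection (d * e) := by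
    intro d hd
    have hdc : ∀ x ∈ M, d * x = x * d := fun x hx => comm_of_mem hx hd.comm
    refine ⟨?_, ?_⟩
    · show d * e * (d * e) = d * e
      rw [show d * e * (d * e) = d * (e * d) * e by simp only [mul_assoc], ← hdc e heM,
        ← mul_assoc, proj_mul hd.proj, mul_assoc, proj_mul he]
    · show star (d * e) = d * e
      rw [star_mul, proj_star he, proj_star hd.proj, hdc e heM]
  have hdab : ∀ d : H →L[ℂ] H, CProj M d → ∀ a ∈ M, ∀ b ∈ M,
      (d * e * a * (d * e)) * (d * e * b * (d * e)) = (d * e * b * (d * e)) * (d * e * a * (d * e)) := by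
    intro d hd a ha b hb
    have hdc : ∀ x ∈ M, d * x = x * d := fun x hx => comm_of_mem hx hd.comm
    have k : ∀ x ∈ M, d * e * x * (d * e) = e * (d * x) * e := by
      intro x hx
      rw [show d * e * x * (d * e) = (d * e) * (x * d) * e by simp only [mul_assoc], ← hdc x hx,
        hdc e heM, show e * d * (d * x) * e = e * (d * d * x) * e by simp only [mul_assoc],
        proj_mul hd.proj]
    rw [k a ha, k b hb]
    exact hab _ (mul_mem hd.mem ha) _ (mul_mem hd.mem hb)
  have hvv : IsStarProjection (v * star v) := pi_right hv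
  -- `q = c₁ v v⋆`
  have hqM : c1 * (v * star v) ∈ M := mul_mem hc1.mem (mul_mem hvM (star_mem hvM))
  have hq : IsStarProjection (c1 * (v * star v)) := by
    refine ⟨?_, ?_⟩
    · show c1 * (v * star v) * (c1 * (v * star v)) = c1 * (v * star v)
      rw [show c1 * (v * star v) * (c1 * (v * star v)) = c1 * ((v * star v) * c1) * (v * star v) by
        simp only [mul_assoc], ← hc1comm _ (mul_mem hvM (star_mem hvM)),
        ← mul_assoc c1 c1 (v * star v), proj_mul hc1.proj, mul_assoc c1 (v * star v) (v * star v),
        proj_mul hvv]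
    · show star (c1 * (v * star v)) = c1 * (v * star v)
      rw [star_mul, proj_star hvv, proj_star hc1.proj, hc1comm _ (mul_mem hvM (star_mem hvM))]
  set q : H →L[ℂ] H := c1 * (v * star v) with hqd
  clear_value q
  have heq : e * q = q := by
    rw [hqd, ← mul_assoc, ← hc1comm e heM, mul_assoc c1, ← mul_assoc e, hev]
  have hqe : q * e = q := by
    have := congrArg star heq
    rwa [star_mul, proj_star hq, proj_star he] at this
  have hc1q : c1 * q = q := by rw [hqd, ← mul_assoc, proj_mul hc1.proj]
  obtain ⟨y, hyM, hyc, hy, hyq, hye⟩ := exists_central M hqM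
  have hycomm : ∀ x ∈ M, y * x = x * y := fun x hx => comm_of_mem hx hyc
  have hkey : (c1 * e - q) * y = 0 := by
    apply hye
    intro x hx
    have h1 : c1 * e - q = e * (c1 - q) * e := by
      rw [mul_sub, sub_mul, heq, hqe, ← hc1comm e heM, mul_assoc, proj_mul he]
    have h2 : (c1 * e - q) * x * q = (e * (c1 - q) * e) * (e * x * e) * q := by
      rw [h1]
      conv_lhs => rw [← heq]
      rw [show e * (c1 - q) * e * (e * x * e) * q = e * (c1 - q) * (e * e) * x * (e * q) by
        simp only [mul_assoc], proj_mul he, heq]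
    rw [h2, hab _ (sub_mem hc1.mem hqM) _ hx, ← h1, mul_assoc (e * x * e), sub_mul,
      mul_assoc c1 e q, heq, hc1q, proj_mul hq, sub_self, mul_zero]
  have hq' : c1 * e * y = q := by
    rw [sub_mul, sub_eq_zero] at hkey
    rw [hkey, ← hycomm q hqM, hyq]
  by_cases hq0 : q = 0
  · -- `n` copies
    have hcv : c1 * v = 0 := by
      have h1 : (c1 * v) * star (c1 * v) = 0 := by
        rw [star_mul, proj_star hc1.proj,
          show c1 * v * (star v * c1) = c1 * (v * star v) * c1 by simp only [mul_assoc], ← hqd,
          hq0, zero_mul]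
      exact (CStarRing.mul_star_self_eq_zero_iff _).1 h1
    have hcr : c1 * (c - p) = 0 := by
      rw [hc1r, ← mul_assoc, hc1comm _ (star_mem hvM), mul_assoc, hcv, mul_zero]
    refine ⟨c1, hc1, ?_, hc1c, typeI_of M hc1 ?_ (hde c1 hc1) (hdab c1 hc1)
      (fun i => c1 * s i) (fun i => mul_mem hc1.mem (hsM i)) (hcc c1 hc1.mem hc1) ?_⟩
    · intro h
      exact hc1e (by rw [h, zero_mul])
    · intro h
      exact hc1e (by rw [h, zero_mul])
    · have h1 : ∀ i, c1 * s i * star (c1 * s i) = c1 * (s i * star (s i)) := by
        intro i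
        rw [star_mul, proj_star hc1.proj,
          show c1 * s i * (star (s i) * c1) = c1 * ((s i * star (s i)) * c1) by
            simp only [mul_assoc], ← hc1comm _ (mul_mem (hsM i) (star_mem (hsM i))), ← mul_assoc,
          proj_mul hc1.proj]
      simp only [h1]
      rw [← Finset.mul_sum, ← hp]
      rw [mul_sub, hc1c, sub_eq_zero] at hcr
      exact hcr.symm
  · -- `n + 1` copies below `c₂ = y c₁`
    have hc2 : CProj M (y * c1) := by
      refine ⟨⟨?_, ?_⟩, mul_mem hyM hc1.mem, mul_mem hyc hc1.comm⟩
      · show y * c1 * (y * c1) = y * c1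
        rw [show y * c1 * (y * c1) = y * (c1 * y) * c1 by simp only [mul_assoc],
          hc1comm y hyM, ← mul_assoc, proj_mul hy, mul_assoc, proj_mul hc1.proj]
      · show star (y * c1) = y * c1
        rw [star_mul, proj_star hc1.proj, proj_star hy, hc1comm y hyM]
    have hc2e : y * c1 * e = q := by
      rw [mul_assoc, hycomm _ (mul_mem hc1.mem heM), hq']
    have hc2M := hc2.mem
    set c2 : H →L[ℂ] H := y * c1 with hc2d
    clear_value c2
    have hc2comm : ∀ x ∈ M, c2 * x = x * c2 := fun x hx => comm_of_mem hx hc2.comm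
    have hc2c : c2 * c = c2 := by rw [hc2d, mul_assoc, hc1c]
    have hc20 : c2 ≠ 0 := by
      intro h
      rw [h, zero_mul] at hc2e
      exact hq0 hc2e.symm
    have hc2vv : c2 * (v * star v) = c2 * e := by
      rw [hc2e, hc2d, mul_assoc, ← hqd, hyq]
    have hc2r : c2 * (c - p) = c2 * (star v * v) := by
      rw [hc2d, mul_assoc, hc1r, ← mul_assoc]
    refine ⟨c2, hc2, hc20, hc2c, typeI_of M hc2 hc20 (hde c2 hc2) (hdab c2 hc2)
      (n := n + 1) (Fin.snoc (fun i => c2 * s i) (c2 * star v)) ?_ ?_ ?_⟩
    · intro i
      refine Fin.lastCases ?_ (fun j => ?_) i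
      · rw [Fin.snoc_last]
        exact mul_mem hc2.mem (star_mem hvM)
      · rw [Fin.snoc_castSucc]
        exact mul_mem hc2.mem (hsM j)
    · have k1 : star (c2 * star v) * (c2 * star v) = c2 * e := by
        rw [star_mul, star_star, proj_star hc2.proj,
          show v * c2 * (c2 * star v) = v * (c2 * c2) * star v by simp only [mul_assoc],
          proj_mul hc2.proj, ← hc2comm v hvM, mul_assoc, hc2vv]
      have k2 : ∀ j, star (c2 * star v) * (c2 * s j) = 0 := by
        intro j
        rw [star_mul, star_star, proj_star hc2.proj,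
          show v * c2 * (c2 * s j) = v * (c2 * c2) * s j by simp only [mul_assoc],
          proj_mul hc2.proj, ← hc2comm v hvM, mul_assoc, hvs, mul_zero]
      intro i j
      refine Fin.lastCases ?_ (fun i => ?_) i
      · refine Fin.lastCases ?_ (fun j => ?_) j
        · rw [Fin.snoc_last, if_pos rfl, k1]
        · rw [Fin.snoc_last, Fin.snoc_castSucc, if_neg (Fin.castSucc_ne_last j).symm, k2]
      · refine Fin.lastCases ?_ (fun j => ?_) j
        · rw [Fin.snoc_last, Fin.snoc_castSucc, if_neg (Fin.castSucc_ne_last i)]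
          have := congrArg star (k2 i)
          simpa only [star_mul, star_star, star_zero] using this
        · rw [Fin.snoc_castSucc, Fin.snoc_castSucc, hcc c2 hc2.mem hc2]
          by_cases h : i = j
          · rw [if_pos h, if_pos (by rw [h])]
          · rw [if_neg h, if_neg (fun h' => h (Fin.castSucc_injective n h'))]
    · rw [Fin.sum_univ_castSucc]
      simp only [Fin.snoc_castSucc, Fin.snoc_last]
      have h1 : ∀ i, c2 * s i * star (c2 * s i) = c2 * (s i * star (s i)) := by
        intro i
        rw [star_mul, proj_star hc2.proj,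
          show c2 * s i * (star (s i) * c2) = c2 * ((s i * star (s i)) * c2) by
            simp only [mul_assoc], ← hc2comm _ (mul_mem (hsM i) (star_mem (hsM i))), ← mul_assoc,
          proj_mul hc2.proj]
      have h2 : c2 * star v * star (c2 * star v) = c2 * (star v * v) := by
        rw [star_mul, star_star, proj_star hc2.proj,
          show c2 * star v * (v * c2) = c2 * ((star v * v) * c2) by
            simp only [mul_assoc], ← hc2comm _ (mul_mem (star_mem hvM) hvM), ← mul_assoc,
          proj_mul hc2.proj]
      simp only [h1, h2]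
      rw [← Finset.mul_sum, ← hp, ← hc2r, mul_sub, hc2c]
      abel

end Crest.Agent.R121
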