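import Crest.Agent.R121.TD
import Crest.Agent.R121.TH
import Crest.Agent.R121.TI

/-! Row 121, module TYP (helper7): assembly of the type decomposition.

`typ_of`: below every nonzero central projection `d` there is a nonzero central projection `c`
which is properly infinite, of type `I_n` (`n` finite) or of type `II₁`, from

* `TD.exists_fin_pinf` (landed),
* `hTr`: below every finite central projection `d ≠ 0` there is a central projection `c ≠ 0`
  with a trace `TrOn M c τ` (modules TY, TQ, TN),
* `hI` : a nonzero abelian projection below `c` gives a piece of type I (module TI),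
* `hII`: no abelian projections below `c` gives matrix units of size `2 ^ m` (module TH). -/

set_option autoImplicit false

namespace Crest.Agent.R121

open scoped InnerProductSpace ComplexOrder
open Crest.OpAlg

variable {H : Type*} [NormedAddCommGroup H] [InnerProductSpace ℂ H] [CompleteSpace H]

namespace TYP

variable {M : VonNeumannAlgebra H} {c d z : H →L[ℂ] H}

theorem CProj.star_eq (hc : CProj M c) : star c = c := hc.proj.isSelfAdjoint.star_eq

theorem CProj.mul_self (hc : CProj M c) : c * c = c := hc.proj.isIdempotentElem.eq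

theorem CProj.comm_of_mem (hc : CProj M c) {x : H →L[ℂ] H} (hx : x ∈ M) : c * x = x * c :=
  ((VonNeumannAlgebra.mem_commutant_iff.1 hc.comm) x hx).symm

theorem CProj.mul (hc : CProj M c) (hd : CProj M d) : CProj M (c * d) where
  proj := by
    refine ⟨?_, ?_⟩
    · show c * d * (c * d) = c * d
      calc c * d * (c * d) = c * (d * c) * d := by simp only [mul_assoc]
        _ = c * (c * d) * d := by rw [CProj.comm_of_mem hc hd.mem]
        _ = (c * c) * (d * d) := by simp only [mul_assoc]
        _ = c * d := by rw [CProj.mul_self hc, CProj.mul_self hd]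
    · show star (c * d) = c * d
      rw [star_mul, CProj.star_eq hc, CProj.star_eq hd, CProj.comm_of_mem hc hd.mem]
  mem := mul_mem hc.mem hd.mem
  comm := mul_mem hc.comm hd.comm

/-- a properly infinite central projection cut down -/
theorem pinf_cut (hz : TD.PInf M z) (hd : CProj M d) : PInf M (z * d) := by
  intro n
  obtain ⟨s, hs, ho⟩ := hz n
  refine ⟨fun i => d * s i, fun i => mul_mem hd.mem (hs i).1, fun i j => ?_⟩
  calc star (d * s i) * (d * s j) = star (s i) * ((d * d) * s j) := by
        rw [star_mul, CProj.star_eq hd]; simp only [mul_assoc]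
    _ = star (s i) * (s j * d) := by
        rw [CProj.mul_self hd, CProj.comm_of_mem hd (hs j).1]
    _ = (star (s i) * s j) * d := by rw [mul_assoc]
    _ = if i = j then z * d else 0 := by
        rw [ho i j]
        split_ifs
        · rfl
        · rw [zero_mul]

/-- finiteness passes to smaller central projections -/
theorem fin_cut {f : H →L[ℂ] H} (hf : CProj M f) (hfin : TD.Fin' M f) (hd : CProj M d)
    (hdf : f * d = d) : TD.Fin' M d := by
  intro v hv hvd hdv hvv
  have hfd : d * f = d := by rw [← CProj.comm_of_mem hf hd.mem, hdf]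
  have hvf : v * f = v := by rw [← hvd, mul_assoc, hfd]
  have hfv : f * v = v := by rw [← hdv, ← mul_assoc, hdf]
  have hds : d * star v = star v := by
    have := congrArg star hvd
    rwa [star_mul, CProj.star_eq hd] at this
  have hsd : star v * d = star v := by
    have := congrArg star hdv
    rwa [star_mul, CProj.star_eq hd] at this
  have hfs : f * star v = star v := by rw [← hds, ← mul_assoc, hdf]
  have hsf : star v * f = star v := by rw [← hsd, mul_assoc, hfd]
  have ff : f * f = f := CProj.mul_self hf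
  have dd : d * d = d := CProj.mul_self hd
  have e1 : (f - d) * v = 0 := by rw [sub_mul, hfv, hdv, sub_self]
  have e2 : v * (f - d) = 0 := by rw [mul_sub, hvf, hvd, sub_self]
  have e3 : (f - d) * star v = 0 := by rw [sub_mul, hfs, hds, sub_self]
  have e4 : star v * (f - d) = 0 := by rw [mul_sub, hsf, hsd, sub_self]
  have e5 : (f - d) * (f - d) = f - d := by
    rw [sub_mul, mul_sub, mul_sub, ff, hdf, hfd, dd, sub_self, sub_zero]
  have e6 : star (f - d) = f - d := by rw [star_sub, CProj.star_eq hf, CProj.star_eq hd]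
  have h := hfin ((f - d) + v) (add_mem (sub_mem hf.mem hd.mem) hv)
    (by rw [add_mul, sub_mul, ff, hfd, hvf]) (by rw [mul_add, mul_sub, ff, hdf, hfv])
    (by rw [star_add, e6, add_mul, mul_add, mul_add, e5, e1, e4, hvv]; abel)
  rw [star_add, e6, add_mul, mul_add, mul_add, e5, e3, e2, add_zero, zero_add] at h
  have : f - d + v * star v = f - d + d := by rw [h]; abel
  exact add_left_cancel this

theorem typ_of (M : VonNeumannAlgebra H)
    (hTr : ∀ d, CProj M d → d ≠ 0 → TD.Fin' M d → ∃ c, CProj M c ∧ c ≠ 0 ∧ c * d = c ∧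
      ∃ τ : M.toStarSubalgebra →L[ℂ] ℂ, TrOn M c τ)
    (hI : ∀ c (τ : M.toStarSubalgebra →L[ℂ] ℂ), CProj M c → TrOn M c τ →
      ∀ e, IsStarProjection e → e ∈ M → c * e = e → e ≠ 0 →
      (∀ a ∈ M, ∀ b ∈ M, (e * a * e) * (e * b * e) = (e * b * e) * (e * a * e)) →
      ∃ c', CProj M c' ∧ c' ≠ 0 ∧ c' * c = c' ∧ TypeI M c')
    (hII : ∀ c, CProj M c → (∀ e, IsStarProjection e → e ∈ M → c * e = e →
      (∀ a ∈ M, ∀ b ∈ M, (e * a * e) * (e * b * e) = (e * b * e) * (e * a * e)) → e = 0) →
      ∀ m : ℕ, ∃ e : Fin (2 ^ m) → Fin (2 ^ m) → (H →L[ℂ] H), MUc M c (2 ^ m) e)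
    {d : H →L[ℂ] H} (hd : CProj M d) (hd0 : d ≠ 0) :
    ∃ c, CProj M c ∧ c ≠ 0 ∧ c * d = c ∧ (PInf M c ∨ TypeI M c ∨ TypeII M c) := by
  obtain ⟨z, hzM, hzc, hzp, hfin, hpi⟩ := TD.exists_fin_pinf M
  have hz : CProj M z := ⟨hzp, hzM, hzc⟩
  by_cases h0 : z * d = 0
  · have hf : CProj M (1 - z) := ⟨hzp.one_sub, sub_mem (one_mem _) hzM,
      sub_mem (one_mem _) hzc⟩
    have hfd : (1 - z) * d = d := by rw [sub_mul, one_mul, h0, sub_zero]
    obtain ⟨c, hc, hc0, hcd, τ, hτ⟩ := hTr d hd hd0 (fin_cut hf hfin hd hfd)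
    by_cases hab : ∃ e, IsStarProjection e ∧ e ∈ M ∧ c * e = e ∧
      (∀ a ∈ M, ∀ b ∈ M, (e * a * e) * (e * b * e) = (e * b * e) * (e * a * e)) ∧ e ≠ 0
    · obtain ⟨e, he, heM, hce, hea, he0⟩ := hab
      obtain ⟨c', hc', hc'0, hcc, hI'⟩ := hI c τ hc hτ e he heM hce he0 hea
      exact ⟨c', hc', hc'0, by rw [← hcc, mul_assoc, hcd], Or.inr (Or.inl hI')⟩
    · refine ⟨c, hc, hc0, hcd, Or.inr (Or.inr ⟨⟨τ, hτ⟩, fun K₀ => ?_⟩)⟩
      obtain ⟨e, he⟩ := hII c hc (fun e he heM hce hea => by
        by_contra he0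
        exact hab ⟨e, he, heM, hce, hea, he0⟩) K₀
      exact ⟨2 ^ K₀, (Nat.lt_two_pow_self).le, by positivity, e, he⟩
  · refine ⟨z * d, CProj.mul hz hd, h0, ?_, Or.inl (pinf_cut hpi hd)⟩
    rw [mul_assoc, CProj.mul_self hd]

/-- for a central projection `d`, `v⋆ v = d` already implies `v d = v` and `d v = v` -/
theorem fin_short (hd : CProj M d) (hfin : TD.Fin' M d) :
    ∀ v ∈ M, star v * v = d → v * star v = d := by
  intro v hv hvv
  have dd : d * d = d := CProj.mul_self hd
  have hds : star d = d := CProj.star_eq hd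
  have h1 : v * (1 - d) = 0 := by
    have : star (v * (1 - d)) * (v * (1 - d)) = 0 := by
      rw [star_mul, star_sub, star_one, hds]
      calc (1 - d) * star v * (v * (1 - d)) = (1 - d) * (star v * v) * (1 - d) := by
            simp only [mul_assoc]
        _ = 0 := by rw [hvv, sub_mul, one_mul, dd, sub_self, zero_mul]
    exact (CStarRing.star_mul_self_eq_zero_iff _).1 this
  have hvd : v * d = v := by
    rw [mul_sub, mul_one, sub_eq_zero] at h1
    exact h1.symm
  exact hfin v hv hvd (by rw [CProj.comm_of_mem hd hv, hvd]) hvv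

/-- below a central projection there is a properly infinite one, or it is finite -/
theorem pinf_or_fin (M : VonNeumannAlgebra H) {d : H →L[ℂ] H} (hd : CProj M d) :
    (∃ c, CProj M c ∧ c ≠ 0 ∧ c * d = c ∧ PInf M c) ∨
      (∀ v ∈ M, star v * v = d → v * star v = d) := by
  obtain ⟨z, hzM, hzc, hzp, hfin, hpi⟩ := TD.exists_fin_pinf M
  have hz : CProj M z := ⟨hzp, hzM, hzc⟩
  by_cases h0 : z * d = 0
  · have hf : CProj M (1 - z) := ⟨hzp.one_sub, sub_mem (one_mem _) hzM,
      sub_mem (one_mem _) hzc⟩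
    have hfd : (1 - z) * d = d := by rw [sub_mul, one_mul, h0, sub_zero]
    exact Or.inr (fin_short hd (fin_cut hf hfin hd hfd))
  · refine Or.inl ⟨z * d, CProj.mul hz hd, h0, ?_, pinf_cut hpi hd⟩
    rw [mul_assoc, CProj.mul_self hd]

/-- the type decomposition, from the existence of traces on finite pieces -/
theorem typ_of' (M : VonNeumannAlgebra H)
    (hTr : ∀ d, CProj M d → d ≠ 0 → (∀ v ∈ M, star v * v = d → v * star v = d) →
      ∃ c, CProj M c ∧ c ≠ 0 ∧ c * d = c ∧ ∃ τ : M.toStarSubalgebra →L[ℂ] ℂ, TrOn M c τ)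
    {d : H →L[ℂ] H} (hd : CProj M d) (hd0 : d ≠ 0) :
    ∃ c, CProj M c ∧ c ≠ 0 ∧ c * d = c ∧ (PInf M c ∨ TypeI M c ∨ TypeII M c) :=
  typ_of M (fun d hd hd0 hfin => hTr d hd hd0 (fin_short hd hfin))
    (fun _ _ hc hτ _ he heM hce he0 hab => exists_typeI M hc hτ he heM hce he0 hab)
    (fun _ hc hna m => exists_mu2 hc (fun e heM he hce hab => hna e he heM hce
      (fun a ha b hb => by
        have hee : e * e = e := he.isIdempotentElem.eq
        have h := hab a ha b hb
        calc (e * a * e) * (e * b * e) = e * a * (e * e) * b * e := by simp only [mul_assoc]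
          _ = e * b * (e * e) * a * e := by rw [hee, h]
          _ = (e * b * e) * (e * a * e) := by simp only [mul_assoc])) m) hd hd0

end TYP

end Crest.Agent.R121
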