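import Crest.Agent.R121.TEgl
import Crest.Agent.R121.TYP

/-! Row 121, module T (helper63): the local type decomposition, final form. -/

set_option autoImplicit false

namespace Crest.Agent.R121

universe u
variable {H : Type u} [NormedAddCommGroup H] [InnerProductSpace ℂ H] [CompleteSpace H]

/-- below every nonzero central projection there is a nonzero central projection which is properly
infinite, of finite type I, or of type II₁ -/
theorem typ (M : VonNeumannAlgebra H) {d : H →L[ℂ] H} (hd : CProj M d) (hd0 : d ≠ 0) :
    ∃ c, CProj M c ∧ c ≠ 0 ∧ c * d = c ∧ (PInf M c ∨ TypeI M c ∨ TypeII M c) :=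
  TYP.typ_of' M (fun _ hd hd0 hfin => exists_trOn_of_finite' hd hd0 hfin) hd hd0

end Crest.Agent.R121
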