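import Crest.Agent.R121.F1
import Crest.Agent.R121.F2b
import Crest.Agent.R121.RED2
import Crest.Agent.R121.LVn
import Crest.Agent.R121.NE
import Crest.Agent.R121.IG
import Crest.Agent.R121.TypF

/-! Row 121, module F2 (helper77): type II pieces and the final assembly. -/

set_option autoImplicit false

namespace Crest.Agent.R121

open scoped InnerProductSpace ComplexOrder
open Crest.OpAlg

universe u
variable {H : Type u} [NormedAddCommGroup H] [InnerProductSpace ℂ H] [CompleteSpace H]
variable {M : VonNeumannAlgebra H} {c : H →L[ℂ] H}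

set_option maxHeartbeats 4000000 in
/-- matrix units of the reduced algebra -/
theorem mun_red (hc : CProj M c) {K : ℕ} {e : Fin K → Fin K → (H →L[ℂ] H)} (h : MUc M c K e) :
    MUn (A := (red M hc).toStarSubalgebra)
      (fun i j => (⟨dnL c (e i j), dnL_mem hc (h.mem i j)⟩ : (red M hc).toStarSubalgebra)) := by
  have h' := muc_red hc h
  refine ⟨fun i j k l => ?_, fun i j => ?_, ?_⟩
  · split_ifs with hjk
    · refine Subtype.ext ?_
      have := h'.mul i j k l
      rw [if_pos hjk] at this
      exact this
    · refine Subtype.ext ?_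
      have := h'.mul i j k l
      rw [if_neg hjk] at this
      exact this
  · exact Subtype.ext (h'.star i j)
  · refine Subtype.ext ?_
    refine Eq.trans ?_ h'.sum
    exact map_sum (red M hc).toStarSubalgebra.subtype _ _

/-- **type II pieces** -/
theorem good_II {n : ℕ}
    (f : ContinuousMultilinearMap ℂ (fun _ : Fin (n + 1) => M.toStarSubalgebra) M.toStarSubalgebra)
    (hf : ∀ a : Fin (n + 2) → M.toStarSubalgebra, hochschildDiff f a = 0) (hc : CProj M c)
    (h : TypeII M c) : Good M f ‖f‖ c := by
  obtain ⟨⟨τ, hτ⟩, hK⟩ := h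
  obtain ⟨F, hF1, hF2, hF3⟩ := normal_part hc hτ f hf
  refine good_of_normal hc hτ ?_ f F (norm_nonneg _) hF1 hF2 hF3
  intro m z hz r T hT δ hδ
  exact L_vn' (red M hc) (trS_red hc hτ) (fun K₀ => by
    obtain ⟨K, h1, h2, e, he⟩ := hK K₀
    exact ⟨K, h1, h2, _, mun_red hc he⟩) z hz T hT hδ

end Crest.Agent.R121
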