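import Mathlib

/-! # ROW 121, module L (Liouville lemma): definitions.

Abstract setting: `A` a unital C*-algebra, `τ` a tracial state. `T : A →L[ℂ] A`.
`T^u (x) = star u * T (u * x)`.  All estimates are in the trace 2-norm `n2 τ`. -/

set_option autoImplicit false
open Finset

namespace Crest.Agent.R121

universe u
variable {A : Type u} [CStarAlgebra A]

/-- tracial state -/
structure TrS (τ : A →ₗ[ℂ] ℂ) : Prop where
  one : τ 1 = 1
  comm : ∀ a b, τ (a * b) = τ (b * a)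
  nonneg : ∀ a, 0 ≤ (τ (star a * a)).re
  norm_le : ∀ a, ‖τ a‖ ≤ ‖a‖

/-- square of the 2-norm -/
noncomputable def q2 (τ : A →ₗ[ℂ] ℂ) (x : A) : ℝ := (τ (star x * x)).re

/-- the 2-norm -/
noncomputable def n2 (τ : A →ₗ[ℂ] ℂ) (x : A) : ℝ := Real.sqrt (q2 τ x)

/-- matrix units with sum `1` -/
structure MUn {K : ℕ} (e : Fin K → Fin K → A) : Prop where
  mul : ∀ i j k l, e i j * e k l = if j = k then e i l else 0
  star : ∀ i j, star (e i j) = e j i
  sum : ∑ i, e i i = 1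

/-- `T` is left modular over the matrix units -/
def Modu {K : ℕ} (e : Fin K → Fin K → A) (T : A →L[ℂ] A) : Prop :=
  ∀ i j x, T (e i j * x) = e i j * T x

/-- `y` commutes with the matrix units -/
def Cmt {K : ℕ} (e : Fin K → Fin K → A) (y : A) : Prop := ∀ i j, y * e i j = e i j * y

/-- matrix coefficient `∑ j, e j i * z * e k j` of `z`, an element of the commutant of the `e i j` -/
noncomputable def co {K : ℕ} (e : Fin K → Fin K → A) (z : A) (i k : Fin K) : A :=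
  ∑ j, e j i * z * e k j

/-- `q_i = ∑ k, (z_ik)* z_ik` -/
noncomputable def qq {K : ℕ} (e : Fin K → Fin K → A) (z : A) (i : Fin K) : A :=
  ∑ k, star (co e z i k) * co e z i k

/-- flatness constant of `z` with respect to the matrix units `e` -/
noncomputable def flat (τ : A →ₗ[ℂ] ℂ) {K : ℕ} (e : Fin K → Fin K → A) (z : A) : ℝ :=
  (1 / K : ℝ) * ∑ i, q2 τ (qq e z i)

/-- `D_u T x = u* T (u x) - T x` -/
noncomputable def Dd (T : A →L[ℂ] A) (u x : A) : A := star u * T (u * x) - T x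

/-- `∑_{n=1}^{L} 1/n` -/
noncomputable def hs (L : ℕ) : ℝ := ∑ n ∈ range L, (1 / ((n : ℝ) + 1))

/-- finite convex combination of left translations -/
structure Av (A : Type u) [CStarAlgebra A] where
  n : ℕ
  u : Fin n → A
  w : Fin n → ℝ
  hu : ∀ l, u l ∈ unitary A
  hw : ∀ l, 0 ≤ w l
  hs : ∑ l, w l = 1

/-- the average `∑ w_l u_l* T (u_l x)` -/
noncomputable def Av.ap (a : Av A) (T : A →L[ℂ] A) : A →L[ℂ] A :=
  ∑ l, (a.w l : ℂ) • ((ContinuousLinearMap.mul ℂ A (star (a.u l))).comp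
    (T.comp (ContinuousLinearMap.mul ℂ A (a.u l))))

theorem Av.ap_apply (a : Av A) (T : A →L[ℂ] A) (x : A) :
    a.ap T x = ∑ l, (a.w l : ℂ) • (star (a.u l) * T (a.u l * x)) := by
  simp [Av.ap]

/-- 2-norm continuity on the unit ball -/
def TC (τ : A →ₗ[ℂ] ℂ) (T : A →L[ℂ] A) : Prop :=
  ∀ ε : ℝ, 0 < ε → ∃ δ : ℝ, 0 < δ ∧ ∀ x : A, ‖x‖ ≤ 1 → q2 τ x ≤ δ → n2 τ (T x) ≤ ε

/-- row/column continuity with parameters `ε`, `δ` -/
def RCN (τ : A →ₗ[ℂ] ℂ) (T : A →L[ℂ] A) (ε δ : ℝ) : Prop :=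
  ∀ (n : ℕ) (y : Fin n → A), ‖∑ i, star (y i) * y i‖ ≤ 1 → ‖∑ i, y i * star (y i)‖ ≤ 1 →
    ∑ i, q2 τ (y i) ≤ δ → ∑ i, q2 τ (T (y i)) ≤ ε

/-- `(1/K) ∑_{k,j} ‖T (z e_kj x) - z e_kj T x‖₂²` -/
noncomputable def S2 (τ : A →ₗ[ℂ] ℂ) {K : ℕ} (e : Fin K → Fin K → A) (T : A →L[ℂ] A) (z x : A) : ℝ :=
  (1 / K : ℝ) * ∑ k, ∑ j, q2 τ (T (z * e k j * x) - z * e k j * T x)

/-- the third (`Q = 3`) or general roots of unity -/
noncomputable def ph (Q : ℕ) (a : Fin Q) : ℂ := Complex.exp (2 * Real.pi * Complex.I * (a : ℕ) / Q)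

end Crest.Agent.R121
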