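import Crest.Agent.R121.RED1
import Crest.Agent.R121.LDefs
import Crest.Agent.R121.LInst
import Crest.Agent.R121.C5

/-! Row 121, module F2 (helper77), part a: from the Liouville lemma on the reduced algebra to `Good`. -/

set_option autoImplicit false

namespace Crest.Agent.R121

open scoped InnerProductSpace ComplexOrder
open Crest.OpAlg

variable {H : Type*} [NormedAddCommGroup H] [InnerProductSpace ℂ H] [CompleteSpace H]

/-- a normalised positive functional is contractive -/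
theorem pos_norm_le {A : Type*} [CStarAlgebra A] (τ : A →ₗ[ℂ] ℂ) (h1 : τ 1 = 1)
    (hp : ∀ a, 0 ≤ τ (star a * a)) (a : A) : ‖τ a‖ ≤ ‖a‖ := by
  letI := CStarAlgebra.spectralOrder A
  haveI := CStarAlgebra.spectralOrderedRing A
  let φ : A →ₚ[ℂ] ℂ := PositiveLinearMap.mk₀ τ (by
    intro b hb
    obtain ⟨x, rfl⟩ := CStarAlgebra.nonneg_iff_eq_star_mul_self.1 hb
    exact hp x)
  have hφ : ∀ x, φ x = τ x := fun x => rfl
  have h2 : ‖φ a‖ ≤ √(φ (star (1 : A) * 1)).re * √(φ (star a * a)).re := by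
    have := norm_inner_le_norm (𝕜 := ℂ) (φ.toPreGNS 1) (φ.toPreGNS a)
    rw [PositiveLinearMap.preGNS_inner_def, PositiveLinearMap.preGNS_norm_def,
      PositiveLinearMap.preGNS_norm_def] at this
    simpa using this
  have h3 : (φ (star (1 : A) * 1)).re = 1 := by
    rw [star_one, one_mul, hφ, h1, Complex.one_re]
  have h4 : (φ (star a * a)).re ≤ ‖a‖ ^ 2 := by
    have h5 : star a * a ≤ algebraMap ℝ A (‖a‖ ^ 2) := CStarAlgebra.star_mul_le_algebraMap_norm_sq
    have h6 : φ (star a * a) ≤ φ (algebraMap ℝ A (‖a‖ ^ 2)) := OrderHomClass.mono φ h5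
    have h7 : φ (algebraMap ℝ A (‖a‖ ^ 2)) = ((‖a‖ ^ 2 : ℝ) : ℂ) := by
      rw [Algebra.algebraMap_eq_smul_one, ← Complex.coe_smul, map_smul, hφ, h1, smul_eq_mul,
        mul_one]
    rw [h7] at h6
    exact (Complex.le_def.1 h6).1
  rw [h3, Real.sqrt_one, one_mul] at h2
  refine h2.trans ?_
  exact Real.sqrt_le_iff.2 ⟨norm_nonneg _, h4⟩

variable {M : VonNeumannAlgebra H} {c : H →L[ℂ] H}

/-- the trace of the reduced algebra -/
theorem trS_red (hc : CProj M c) {τ : M.toStarSubalgebra →L[ℂ] ℂ} (hτ : TrOn M c τ) :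
    TrS (τ.comp (up hc)).toLinearMap := by
  have hone : (τ.comp (up hc)).toLinearMap 1 = 1 := by
    change τ (up hc 1) = 1
    rw [← hτ.one]
    exact hτ.cut 1 (up hc 1) (by rw [up_one]; exact (mul_one c).symm)
  have hnn : ∀ a, 0 ≤ (τ.comp (up hc)).toLinearMap (star a * a) := by
    intro a
    change 0 ≤ τ (up hc (star a * a))
    rw [up_mul, up_star]
    exact hτ.nonneg _
  refine ⟨hone, fun a b => ?_, fun a => (Complex.le_def.1 (hnn a)).1, pos_norm_le _ hone hnn⟩
  change τ (up hc (a * b)) = τ (up hc (b * a))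
  rw [up_mul, up_mul]
  exact hτ.tr _ _

theorem tau_dn (hc : CProj M c) {τ : M.toStarSubalgebra →L[ℂ] ℂ} (hτ : TrOn M c τ)
    (a : M.toStarSubalgebra) : τ (up hc (dn hc a)) = τ a :=
  hτ.cut a _ (up_dn hc a)

theorem q2_dn (hc : CProj M c) {τ : M.toStarSubalgebra →L[ℂ] ℂ} (hτ : TrOn M c τ)
    (a : M.toStarSubalgebra) :
    q2 (τ.comp (up hc)).toLinearMap (dn hc a) = (τ (star a * a)).re := by
  unfold q2
  change (τ (up hc (star (dn hc a) * dn hc a))).re = _
  rw [← dn_star, ← dn_mul, tau_dn hc hτ]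

/-- `τ (b* b) = 0` for `b` in the unit ball implies `c b = 0` -/
theorem dn_eq_zero (hc : CProj M c) {τ : M.toStarSubalgebra →L[ℂ] ℂ} (hτ : TrOn M c τ)
    (b : M.toStarSubalgebra) (hb : (τ (star b * b)).re ≤ 0) : dn hc b = 0 := by
  -- scale
  set R : ℝ := ‖b‖ + 1 with hR
  have hR0 : 0 < R := by positivity
  set a : M.toStarSubalgebra := (((R)⁻¹ : ℝ) : ℂ) • b with ha
  have han : ‖a‖ ≤ 1 := by
    rw [ha, norm_smul, Complex.norm_real, Real.norm_of_nonneg (inv_nonneg.2 hR0.le),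
      inv_mul_le_iff₀ hR0, mul_one, hR]
    linarith
  have hat : (τ (star a * a)).re ≤ 0 := by
    have h1 : star a * a = (((R)⁻¹ * (R)⁻¹ : ℝ) : ℂ) • (star b * b) := by
      rw [ha, star_smul, smul_mul_smul_comm]
      congr 1
      rw [RCLike.star_def, Complex.conj_ofReal]
      push_cast; rfl
    rw [h1, map_smul, smul_eq_mul, Complex.re_ofReal_mul]
    have : 0 ≤ (R)⁻¹ * (R)⁻¹ := by positivity
    nlinarith
  have hca : ∀ ξ : H, c ((a : H →L[ℂ] H) ξ) = 0 := by
    intro ξ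
    rw [← norm_le_zero_iff]
    refine le_of_forall_pos_le_add fun ε hε => ?_
    obtain ⟨δ, hδ, h⟩ := hτ.ac ξ ε hε
    rw [zero_add]
    exact h a han (hat.trans hδ.le)
  have hcb : c * (b : H →L[ℂ] H) = 0 := by
    have hb' : (b : H →L[ℂ] H) = ((R : ℝ) : ℂ) • (a : H →L[ℂ] H) := by
      have : b = ((R : ℝ) : ℂ) • a := by
        rw [ha, smul_smul, ← Complex.ofReal_mul, mul_inv_cancel₀ hR0.ne', Complex.ofReal_one,
          one_smul]
      exact congrArg Subtype.val this
    rw [hb']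
    ext ξ
    have := hca ξ
    simp [this]
  have h1 : up hc (dn hc b) = 0 := Subtype.ext (by rw [up_dn]; exact hcb)
  have h2 := congrArg (dn hc) h1
  rwa [dn_up, map_zero] at h2

end Crest.Agent.R121
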