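import Crest.Agent.R121.F2
import Crest.Agent.R121.F0p

/-! Row 121, final assembly (helper77). -/

set_option autoImplicit false

namespace Crest.Agent.R121

open scoped InnerProductSpace ComplexOrder
open Crest.OpAlg

universe u
variable {H : Type u} [NormedAddCommGroup H] [InnerProductSpace ℂ H] [CompleteSpace H]

theorem Good.mono {M : VonNeumannAlgebra H} {n : ℕ}
    {f : (Fin (n + 1) → M.toStarSubalgebra) → M.toStarSubalgebra} {C C' : ℝ} {c : H →L[ℂ] H}
    (h : Good M f C c) (hC : C ≤ C') : Good M f C' c := by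
  obtain ⟨g, h1, h2⟩ := h
  exact ⟨g, fun x => (h1 x).trans (mul_le_mul_of_nonneg_right hC
    (Finset.prod_nonneg fun _ _ => norm_nonneg _)), h2⟩

theorem exists_primitive (M : VonNeumannAlgebra H) {n : ℕ}
    (f : ContinuousMultilinearMap ℂ (fun _ : Fin (n + 1) => M.toStarSubalgebra) M.toStarSubalgebra)
    (hf : ∀ a : Fin (n + 2) → M.toStarSubalgebra, hochschildDiff f a = 0) :
    ∃ g : ContinuousMultilinearMap ℂ (fun _ : Fin n => M.toStarSubalgebra) M.toStarSubalgebra,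
      ∀ a : Fin (n + 1) → M.toStarSubalgebra, hochschildDiff g a = f a := by
  have h0 := norm_nonneg f
  have h1 : ‖f‖ ≤ (‖f‖ + (n + 1) * ‖f‖) + (n + 1) * ‖f‖ := by
    have : (0 : ℝ) ≤ (n + 1) * ‖f‖ := by positivity
    linarith
  refine glue M f (C := (‖f‖ + (n + 1) * ‖f‖) + (n + 1) * ‖f‖) (h0.trans h1) ?_
  intro d hd hd0
  obtain ⟨c, hc, hc0, hcd, h | h | h⟩ := typ M hd hd0
  · exact ⟨c, hc, hc0, hcd, good_pinf M f hf hc h⟩
  · exact ⟨c, hc, hc0, hcd, (good_I_norm f hf hc h).mono h1⟩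
  · exact ⟨c, hc, hc0, hcd, (good_II f hf hc h).mono h1⟩

end Crest.Agent.R121
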