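import Crest.Agent.R121.L4a

/-! ROW 121, FL (helper33): `τ(q_i c) = τ(c)` and the mean over independent letters. -/

set_option autoImplicit false
open Finset

namespace Crest.Agent.R121

universe u
variable {A : Type u} [CStarAlgebra A] {τ : A →ₗ[ℂ] ℂ} {K : ℕ} {e : Fin K → Fin K → A}

namespace FLc

/-- average over one coordinate -/
theorem sum_upd {ι S : Type*} [Fintype ι] [DecidableEq ι] [Fintype S] {B : Type*}
    [AddCommGroup B] [Module ℂ B] (k : ι) (h : (ι → S) → B) :
    ∑ σ : ι → S, ∑ s : S, h (Function.update σ k s) = (Fintype.card S : ℂ) • ∑ σ : ι → S, h σ := by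
  classical
  let E : (ι → S) × S ≃ (ι → S) × S :=
    { toFun := fun p => (Function.update p.1 k p.2, p.1 k)
      invFun := fun p => (Function.update p.1 k p.2, p.1 k)
      left_inv := fun p => by simp
      right_inv := fun p => by simp }
  have h1 : ∑ p : (ι → S) × S, h (Function.update p.1 k p.2) = ∑ p : (ι → S) × S, h p.1 :=
    Equiv.sum_comp E (fun p => h p.1)
  rw [Fintype.sum_prod_type, Fintype.sum_prod_type] at h1
  rw [h1]
  simp only [Finset.sum_const, Finset.card_univ]
  rw [← Finset.smul_sum, Nat.cast_smul_eq_nsmul]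

/-- averages of products of independent letters -/
theorem avg_ind {ι S B : Type*} [Fintype ι] [DecidableEq ι] [Fintype S] [Nonempty S]
    [Ring B] [StarRing B] [Algebra ℂ B] [StarModule ℂ B]
    (τ : B →ₗ[ℂ] ℂ) (w w' : S → B) {k l : ι} (hkl : k ≠ l) :
    ∑ σ : ι → S, τ (star (w (σ k)) * w' (σ l)) = (Fintype.card (ι → S) : ℂ) *
      τ (star (((Fintype.card S : ℂ)⁻¹) • ∑ s, w s) * (((Fintype.card S : ℂ)⁻¹) • ∑ s, w' s)) := by
  have hN : (Fintype.card S : ℂ) ≠ 0 := by
    exact_mod_cast Fintype.card_ne_zero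
  set N : ℂ := (Fintype.card S : ℂ) with hNdef
  have hNs : star N = N := by
    rw [hNdef]; simp
  have step1 : ∑ σ : ι → S, τ (star (w (σ k)) * w' (σ l)) =
      ∑ σ : ι → S, τ (star (N⁻¹ • ∑ s, w s) * w' (σ l)) := by
    have h1 := sum_upd k (fun σ : ι → S => τ (star (w (σ k)) * w' (σ l)))
    simp only [Function.update_self, Function.update_of_ne hkl.symm] at h1
    have h2 : ∀ σ : ι → S, ∑ s, τ (star (w s) * w' (σ l)) =
        N * τ (star (N⁻¹ • ∑ s, w s) * w' (σ l)) := by
      intro σ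
      rw [star_smul, smul_mul_assoc, map_smul, star_inv₀, hNs, smul_eq_mul,
        mul_inv_cancel_left₀ hN, star_sum, Finset.sum_mul, map_sum]
    rw [Finset.sum_congr rfl fun σ _ => h2 σ, ← Finset.mul_sum, smul_eq_mul] at h1
    exact (mul_left_cancel₀ hN h1).symm
  have step2 : ∑ σ : ι → S, τ (star (N⁻¹ • ∑ s, w s) * w' (σ l)) =
      ∑ _σ : ι → S, τ (star (N⁻¹ • ∑ s, w s) * (N⁻¹ • ∑ s, w' s)) := by
    have h1 := sum_upd l (fun σ : ι → S => τ (star (N⁻¹ • ∑ s, w s) * w' (σ l)))
    simp only [Function.update_self] at h1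
    have h2 : ∀ _σ : ι → S, ∑ s, τ (star (N⁻¹ • ∑ s, w s) * w' s) =
        N * τ (star (N⁻¹ • ∑ s, w s) * (N⁻¹ • ∑ s, w' s)) := by
      intro σ
      rw [mul_smul_comm, map_smul, smul_eq_mul, mul_inv_cancel_left₀ hN, Finset.mul_sum, map_sum]
    rw [Finset.sum_congr rfl fun σ _ => h2 σ, ← Finset.mul_sum, smul_eq_mul] at h1
    exact (mul_left_cancel₀ hN h1).symm
  rw [step1, step2, Finset.sum_const, Finset.card_univ, nsmul_eq_mul]

theorem tau_diag (hτ : TrS τ) (he : MUn e) (hK : 0 < K) (i : Fin K) (c : A)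
    (hc : ∀ y, c * y = y * c) : (K : ℂ) * τ (e i i * c) = τ c := by
  have h1 : ∀ j, τ (e j j * c) = τ (e i i * c) := by
    intro j
    have e1 : e i i = e i j * e j i := by rw [he.mul, if_pos rfl]
    have e2 : e j j = e j i * e i j := by rw [he.mul, if_pos rfl]
    rw [e2, mul_assoc, hτ.comm, mul_assoc, hc (e j i), ← mul_assoc, ← e1]
  have h2 : τ c = ∑ j, τ (e j j * c) := by
    rw [← map_sum, ← Finset.sum_mul, he.sum, one_mul]
  rw [h2, Finset.sum_congr rfl fun j _ => h1 j]
  simp

theorem co_gram (he : MUn e) (z : A) (i k : Fin K) :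
    star (co e z i k) * co e z i k = ∑ j, e j k * (star z * e i i * z) * e k j := by
  unfold co
  rw [star_sum, Finset.sum_mul_sum]
  refine Finset.sum_congr rfl fun j _ => ?_
  rw [Finset.sum_eq_single j]
  · have h1 : star (e j i * z * e k j) = e j k * star z * e i j := by
      rw [star_mul, star_mul, he.star, he.star, mul_assoc]
    rw [h1]
    have h2 : e i j * e j i = e i i := by rw [he.mul, if_pos rfl]
    calc e j k * star z * e i j * (e j i * z * e k j)
        = e j k * star z * (e i j * e j i) * z * e k j := by simp only [mul_assoc]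
      _ = _ := by rw [h2]; simp only [mul_assoc]
  · intro l _ hl
    have h1 : star (e j i * z * e k j) = e j k * star z * e i j := by
      rw [star_mul, star_mul, he.star, he.star, mul_assoc]
    rw [h1]
    have h2 : e i j * e l i = 0 := by rw [he.mul, if_neg (Ne.symm hl)]
    calc e j k * star z * e i j * (e l i * z * e k l)
        = e j k * star z * (e i j * e l i) * z * e k l := by simp only [mul_assoc]
      _ = 0 := by rw [h2]; simp
  · intro h; exact absurd (Finset.mem_univ _) h

theorem tau_qq (hτ : TrS τ) (hK : 0 < K) (he : MUn e) {z : A} (hz : z ∈ unitary A)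
    (i : Fin K) (c : A) (hc : ∀ y, c * y = y * c) : τ (qq e z i * c) = τ c := by
  have h1 : ∀ k, τ (star (co e z i k) * co e z i k * c) =
      (K : ℂ) * τ (star z * e i i * z * (e k k * c)) := by
    intro k
    rw [co_gram he, Finset.sum_mul, map_sum]
    have h2 : ∀ j, τ (e j k * (star z * e i i * z) * e k j * c) =
        τ (star z * e i i * z * (e k k * c)) := by
      intro j
      have h3 : e j k * (star z * e i i * z) * e k j * c =
          e j k * ((star z * e i i * z) * (e k j * c)) := by simp only [mul_assoc]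
      rw [h3, hτ.comm]
      congr 1
      have h4 : e k j * c * e j k = e k k * c := by
        rw [mul_assoc, hc, ← mul_assoc, he.mul, if_pos rfl]
      rw [mul_assoc, h4]
    rw [Finset.sum_congr rfl fun j _ => h2 j]
    simp
  unfold qq
  rw [Finset.sum_mul, map_sum, Finset.sum_congr rfl fun k _ => h1 k, ← Finset.mul_sum, ← map_sum,
    ← Finset.mul_sum, ← Finset.sum_mul, he.sum, one_mul]
  have h5 : τ (star z * e i i * z * c) = τ (e i i * c) := by
    have h6 : star z * e i i * z * c = star z * (e i i * c * z) := by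
      rw [mul_assoc (star z * e i i) z c, ← hc z]
      simp only [mul_assoc]
    rw [h6, hτ.comm, mul_assoc, (Unitary.mem_iff.1 hz).2, mul_one]
  rw [h5]
  exact tau_diag hτ he hK i c hc

theorem norm_co_le (he : MUn e) {z : A} (hz : z ∈ unitary A) (i k : Fin K) :
    ‖co e z i k‖ ≤ 1 := by
  letI : PartialOrder A := CStarAlgebra.spectralOrder A
  haveI : StarOrderedRing A := CStarAlgebra.spectralOrderedRing A
  have h1 : co e z i k * star (co e z i k) ≤ 1 := by
    rw [← sum_co_row he hz i]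
    exact Finset.single_le_sum (f := fun k => co e z i k * star (co e z i k))
      (fun k _ => mul_star_self_nonneg _) (Finset.mem_univ k)
  have h2 : ‖co e z i k * star (co e z i k)‖ ≤ 1 :=
    (CStarAlgebra.norm_le_one_iff_of_nonneg _ (mul_star_self_nonneg _)).2 h1
  rw [CStarRing.norm_self_mul_star] at h2
  have h3 := norm_nonneg (co e z i k)
  nlinarith

/-- the random sum of conjugates -/
theorem mean_le (hτ : TrS τ) {N : ℕ} (hN : 0 < N) (v : Fin N → A)
    (hv : ∀ s, v s ∈ unitary A) (q : Fin K → A) (B : ℝ)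
    (h2 : q2 τ ((1 / (N : ℂ)) • ∑ s, star (v s) * (∑ k, q k) * v s) ≤ B) :
    (1 / (N : ℝ) ^ K) * ∑ s : Fin K → Fin N, q2 τ (∑ k, star (v (s k)) * q k * v (s k)) ≤
      B + ∑ k, q2 τ (q k) := by
  haveI : Nonempty (Fin N) := ⟨⟨0, hN⟩⟩
  set a : Fin K → Fin N → A := fun k t => star (v t) * q k * v t with ha
  set P : Fin K → A := fun k => ((Fintype.card (Fin N) : ℂ)⁻¹) • ∑ t, a k t with hP
  have hcard : (Fintype.card (Fin K → Fin N) : ℂ) = ((N : ℝ) ^ K : ℝ) := by
    simp
  have hNK : 0 < (N : ℝ) ^ K := by positivity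
  have hqa : ∀ k t, q2 τ (a k t) = q2 τ (q k) := by
    intro k t
    have h3 : star (v t) ∈ unitary A := Unitary.star_mem (hv t)
    rw [ha]
    show q2 τ (star (v t) * q k * v t) = q2 τ (q k)
    rw [q2_mul_unitary hτ (hv t), q2_unitary_mul h3]
  have hsq : ∀ (x : Fin K → A), q2 τ (∑ k, x k) = ∑ k, ∑ l, (τ (star (x k) * x l)).re := by
    intro x
    unfold q2
    rw [star_sum, Finset.sum_mul_sum, map_sum, Complex.re_sum]
    refine Finset.sum_congr rfl fun k _ => ?_
    rw [map_sum, Complex.re_sum]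
  have h3 : ∑ s : Fin K → Fin N, q2 τ (∑ k, a k (s k)) ≤
      (N : ℝ) ^ K * ∑ k, ∑ l, ((τ (star (P k) * P l)).re + if k = l then q2 τ (q k) else 0) := by
    have e1 : ∑ s : Fin K → Fin N, q2 τ (∑ k, a k (s k)) =
        ∑ k, ∑ l, ∑ s : Fin K → Fin N, (τ (star (a k (s k)) * a l (s l))).re := by
      rw [Finset.sum_congr rfl fun s _ => hsq fun k => a k (s k), Finset.sum_comm]
      exact Finset.sum_congr rfl fun k _ => Finset.sum_comm
    rw [e1, Finset.mul_sum]
    refine Finset.sum_le_sum fun k _ => ?_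
    rw [Finset.mul_sum]
    refine Finset.sum_le_sum fun l _ => ?_
    by_cases hkl : k = l
    · subst hkl
      rw [if_pos rfl]
      have e2 : ∀ s : Fin K → Fin N, (τ (star (a k (s k)) * a k (s k))).re = q2 τ (q k) :=
        fun s => hqa k (s k)
      rw [Finset.sum_congr rfl fun s _ => e2 s]
      have e3 : 0 ≤ (τ (star (P k) * P k)).re := hτ.nonneg (P k)
      have e4 : ∑ _s : Fin K → Fin N, q2 τ (q k) = (N : ℝ) ^ K * q2 τ (q k) := by simp
      rw [e4]
      exact mul_le_mul_of_nonneg_left (by linarith) hNK.le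
    · rw [if_neg hkl, add_zero, ← Complex.re_sum, avg_ind τ (a k) (a l) hkl, hcard,
        Complex.re_ofReal_mul]
  have h4 : ∑ k, ∑ l, ((τ (star (P k) * P l)).re + if k = l then q2 τ (q k) else 0) =
      q2 τ (∑ k, P k) + ∑ k, q2 τ (q k) := by
    rw [hsq, ← Finset.sum_add_distrib]
    refine Finset.sum_congr rfl fun k _ => ?_
    rw [Finset.sum_add_distrib]
    congr 1
    simp
  have h5 : ∑ k, P k = (1 / (N : ℂ)) • ∑ s, star (v s) * (∑ k, q k) * v s := by
    rw [hP]
    simp only [ha, ← Finset.smul_sum, Fintype.card_fin, one_div]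
    congr 1
    rw [Finset.sum_comm]
    refine Finset.sum_congr rfl fun s _ => ?_
    rw [Finset.mul_sum, Finset.sum_mul]
  rw [h4, h5] at h3
  have h6 : (1 / (N : ℝ) ^ K) * ∑ s : Fin K → Fin N, q2 τ (∑ k, a k (s k)) ≤
      q2 τ ((1 / (N : ℂ)) • ∑ s, star (v s) * (∑ k, q k) * v s) + ∑ k, q2 τ (q k) := by
    rw [one_div, inv_mul_le_iff₀ hNK]
    exact h3
  exact h6.trans (by linarith)

theorem mean_rot' (hτ : TrS τ) (hK : 0 < K) (he : MUn e) {N : ℕ} (hN : 0 < N) (v : Fin N → A)
    (hv : ∀ s, v s ∈ unitary A) {z : A} (hz : z ∈ unitary A) (i : Fin K)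
    (h2 : q2 τ ((1 / (N : ℂ)) • ∑ s, star (v s) * qq e z i * v s) ≤ 2) :
    (1 / (N : ℝ) ^ K) * ∑ s : Fin K → Fin N,
      q2 τ (∑ k, star (v (s k)) * (star (co e z i k) * co e z i k) * v (s k)) ≤ 3 := by
  have h1 := mean_le hτ hN v hv (fun k => star (co e z i k) * co e z i k) 2 h2
  have h3 : ∑ k, q2 τ (star (co e z i k) * co e z i k) ≤ 1 := by
    have h4 : ∀ k, q2 τ (star (co e z i k) * co e z i k) ≤ (τ (star (co e z i k) * co e z i k)).re := by
      intro k
      refine (q2_mul_left hτ _ _).trans ?_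
      rw [norm_star]
      have h5 := norm_co_le he hz i k
      have h6 : 0 ≤ q2 τ (co e z i k) := hτ.nonneg _
      have h7 := norm_nonneg (co e z i k)
      show ‖co e z i k‖ ^ 2 * q2 τ (co e z i k) ≤ q2 τ (co e z i k)
      have h8 : ‖co e z i k‖ ^ 2 ≤ 1 := by nlinarith
      nlinarith
    refine (Finset.sum_le_sum fun k _ => h4 k).trans ?_
    rw [← Complex.re_sum, ← map_sum]
    have h5 := tau_qq hτ hK he hz i 1 (fun y => by rw [one_mul, mul_one])
    rw [mul_one, hτ.one] at h5
    have h6 : τ (∑ k, star (co e z i k) * co e z i k) = 1 := h5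
    rw [h6]
    simp
  linarith

theorem cmt_star (he : MUn e) {y : A} (h : Cmt e y) : Cmt e (star y) := by
  intro i j
  have h1 := congrArg star (h j i)
  rw [star_mul, star_mul, he.star] at h1
  exact h1.symm

theorem cmt_mul {y y' : A} (h : Cmt e y) (h' : Cmt e y') : Cmt e (y * y') := by
  intro i j
  rw [mul_assoc, h', ← mul_assoc, h, mul_assoc]

theorem cmt_sum {ι : Type*} (s : Finset ι) {f : ι → A} (h : ∀ k ∈ s, Cmt e (f k)) :
    Cmt e (∑ k ∈ s, f k) := by
  intro i j
  rw [Finset.sum_mul, Finset.mul_sum]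
  exact Finset.sum_congr rfl fun k hk => h k hk i j

theorem qq_cmt (he : MUn e) (z : A) (i : Fin K) : Cmt e (qq e z i) :=
  cmt_sum _ fun k _ => cmt_mul (cmt_star he (co_cmt he z i k)) (co_cmt he z i k)

end FLc

end Crest.Agent.R121
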