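import Crest.Agent.R121.L4a
import Crest.Agent.R121.FLc

/-! ROW 121, FL (helper73): existence of flat matrix units.  New: ROTATE the matrix units by a random diagonal
unitary: `e'_ij = y_i e_ij y_j*`, `y_i` independent letters of the commutant.  Then (`e'_ii = e_ii`)
`qq e' z i = ∑ j, e_jj y_j (∑ k, y_k* q_ik y_k) y_j*`, `q_ik = (z_ik)* z_ik`, so
`q2 (qq e' z i) = q2 (∑ k, y_k* q_ik y_k)` and its mean over the letters is
`∑_{k≠l} τ(Ψ(q_ik) Ψ(q_il)) + ∑_k τ(q_ik²) ≤ q2 (Ψ (qq e z i)) + 1 ≤ 3`. -/

set_option autoImplicit false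
open Finset

namespace Crest.Agent.R121

universe u
variable {A : Type u} [CStarAlgebra A] {τ : A →ₗ[ℂ] ℂ} {K : ℕ} {e : Fin K → Fin K → A}

/-- norm Dixmier approximation in the commutant of the matrix units (`R124.dixmier`) -/
def NDix (e : Fin K → Fin K → A) : Prop :=
  ∀ (n : ℕ) (q : Fin n → A), (∀ j, Cmt e (q j)) → ∀ ε : ℝ, 0 < ε →
    ∃ (N : ℕ) (_ : 0 < N) (v : Fin N → A), (∀ s, v s ∈ unitary A) ∧ (∀ s, Cmt e (v s)) ∧
      ∀ j, ∃ c : A, (∀ y, c * y = y * c) ∧
        ‖(1 / (N : ℂ)) • ∑ s, star (v s) * q j * v s - c‖ ≤ ε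

/-- FL1 -/
theorem dix_law (hτ : TrS τ) (hD : NDix e) {n : ℕ} (q : Fin n → A)
    (hq : ∀ j, Cmt e (q j)) (hqc : ∀ j, ∀ c : A, (∀ y, c * y = y * c) → τ (q j * c) = τ c) :
    ∃ (N : ℕ) (_ : 0 < N) (v : Fin N → A), (∀ s, v s ∈ unitary A) ∧ (∀ s, Cmt e (v s)) ∧
      ∀ j, q2 τ ((1 / (N : ℂ)) • ∑ s, star (v s) * q j * v s) ≤ 2 := by
  obtain ⟨N, hN, v, hv, hvc, h⟩ := hD n q hq (1 / 10) (by norm_num)
  refine ⟨N, hN, v, hv, hvc, fun j => ?_⟩
  obtain ⟨c, hc, hcn⟩ := h j
  set P : A := (1 / (N : ℂ)) • ∑ s, star (v s) * q j * v s with hP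
  have hN0 : (N : ℂ) ≠ 0 := by exact_mod_cast hN.ne'
  have hsc : ∀ y, star c * y = y * star c := by
    intro y
    have h1 := congrArg star (hc (star y))
    rw [star_mul, star_mul, star_star] at h1
    exact h1.symm
  have hPc : τ (P * star c) = τ (star c) := by
    rw [hP, smul_mul_assoc, Finset.sum_mul, map_smul, map_sum]
    have h2 : ∀ s ∈ (Finset.univ : Finset (Fin N)),
        τ (star (v s) * q j * v s * star c) = τ (star c) := by
      intro s _
      rw [mul_assoc, mul_assoc, hτ.comm, ← hsc (v s), mul_assoc, mul_assoc,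
        Unitary.mul_star_self_of_mem (hv s), mul_one]
      exact hqc j _ hsc
    rw [Finset.sum_congr rfl h2, Finset.sum_const, Finset.card_univ, Fintype.card_fin,
      nsmul_eq_mul, smul_eq_mul]
    field_simp
  set d : A := P - c with hd
  have hPd : P = c + d := by rw [hd]; abel
  have hdn : n2 τ d ≤ 1 / 10 := (n2_le_norm hτ d).trans hcn
  have h1 : n2 τ (1 : A) = 1 := by
    rw [n2, q2, star_one, mul_one, hτ.one]; simp
  have ha : n2 τ c ≤ 11 / 10 := by
    have h3 : τ (star c * c) = τ (star c) - τ (star c * d) := by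
      rw [hτ.comm (star c) c, hτ.comm (star c) d, ← hPc, ← map_sub, ← sub_mul, hPd]
      congr 2
      abel
    have h4 : (n2 τ c) ^ 2 ≤ n2 τ c * 1 + n2 τ c * (1 / 10) := by
      have h5 : ‖τ (star c * c)‖ = n2 τ c ^ 2 := by
        rw [tau_star_mul hτ, n2_sq hτ, Complex.norm_real, Real.norm_of_nonneg (q2_nonneg hτ c)]
      rw [← h5, h3]
      have h6 : ‖τ (star c)‖ ≤ n2 τ c * 1 := by
        have := cs hτ c 1
        rw [mul_one, h1] at this
        exact this
      have h7 : ‖τ (star c * d)‖ ≤ n2 τ c * (1 / 10) :=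
        (cs hτ c d).trans (mul_le_mul_of_nonneg_left hdn (n2_nonneg c))
      exact (norm_sub_le _ _).trans (add_le_add h6 h7)
    rcases (n2_nonneg (τ := τ) c).eq_or_lt with h0 | h0
    · rw [← h0]; norm_num
    · nlinarith
  have h8 : n2 τ P ≤ 12 / 10 := by
    rw [hPd]
    have := n2_add hτ c d
    linarith
  rw [← n2_sq hτ]
  have h9 := n2_nonneg (τ := τ) P
  nlinarith

theorem tau_qq_central (hτ : TrS τ) (hK : 0 < K) (he : MUn e) {z : A} (hz : z ∈ unitary A)
    (i : Fin K) (c : A) (hc : ∀ y, c * y = y * c) : τ (qq e z i * c) = τ c :=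
  FLc.tau_qq hτ hK he hz i c hc

theorem Cmt.star' (he : MUn e) {y : A} (hy : Cmt e y) : Cmt e (star y) := by
  intro i j
  have h := congrArg star (hy j i)
  rw [star_mul, star_mul, he.star] at h
  exact h.symm

theorem Cmt.mul' {x y : A} (hx : Cmt e x) (hy : Cmt e y) : Cmt e (x * y) := by
  intro i j
  rw [mul_assoc, hy i j, ← mul_assoc, hx i j, mul_assoc]

theorem Cmt.sum' {ι : Type*} (s : Finset ι) (f : ι → A) (h : ∀ i ∈ s, Cmt e (f i)) :
    Cmt e (∑ i ∈ s, f i) := by
  intro i j
  rw [Finset.sum_mul, Finset.mul_sum]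
  exact Finset.sum_congr rfl fun l hl => h l hl i j

theorem rot_mun (he : MUn e) (y : Fin K → A) (hy : ∀ i, y i ∈ unitary A)
    (hc : ∀ i, Cmt e (y i)) : MUn fun i j => y i * e i j * star (y j) := by
  refine ⟨fun i j k l => ?_, fun i j => ?_, ?_⟩
  · have h1 : y i * e i j * star (y j) * (y k * e k l * star (y l)) =
        y i * (star (y j) * y k) * (e i j * e k l) * star (y l) := by
      have h2 := (Cmt.mul' (Cmt.star' he (hc j)) (hc k)) i j
      calc y i * e i j * star (y j) * (y k * e k l * star (y l))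
          = y i * (e i j * (star (y j) * y k)) * e k l * star (y l) := by noncomm_ring
        _ = y i * ((star (y j) * y k) * e i j) * e k l * star (y l) := by rw [h2]
        _ = _ := by noncomm_ring
    rw [h1, he.mul]
    by_cases hjk : j = k
    · subst hjk
      rw [if_pos rfl, if_pos rfl, Unitary.star_mul_self_of_mem (hy j), mul_one]
    · rw [if_neg hjk, if_neg hjk, mul_zero, zero_mul]
  · rw [star_mul, star_mul, star_star, he.star, mul_assoc]
  · have h1 : ∀ i ∈ (Finset.univ : Finset (Fin K)), y i * e i i * star (y i) = e i i := by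
      intro i _
      rw [hc i i i, mul_assoc, Unitary.mul_star_self_of_mem (hy i), mul_one]
    rw [Finset.sum_congr rfl h1, he.sum]

/-- diagonal element `∑ j, e_jj X_j` -/
noncomputable def fdg (e : Fin K → Fin K → A) (X : Fin K → A) : A := ∑ j, e j j * X j

theorem fdg_star (he : MUn e) (X : Fin K → A) (hX : ∀ j, Cmt e (X j)) :
    star (fdg e X) = fdg e fun j => star (X j) := by
  unfold fdg
  rw [star_sum]
  refine Finset.sum_congr rfl fun j _ => ?_
  rw [star_mul, he.star, Cmt.star' he (hX j) j j]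

theorem fdg_mul (he : MUn e) (X Z : Fin K → A) (hX : ∀ j, Cmt e (X j)) :
    fdg e X * fdg e Z = fdg e fun j => X j * Z j := by
  unfold fdg
  rw [Finset.sum_mul]
  refine Finset.sum_congr rfl fun j _ => ?_
  rw [Finset.mul_sum, Finset.sum_eq_single j]
  · calc e j j * X j * (e j j * Z j) = e j j * (X j * e j j) * Z j := by noncomm_ring
      _ = e j j * (e j j * X j) * Z j := by rw [hX j j j]
      _ = (e j j * e j j) * X j * Z j := by noncomm_ring
      _ = e j j * (X j * Z j) := by rw [he.mul, if_pos rfl, mul_assoc]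
  · intro l _ hl
    calc e j j * X j * (e l l * Z l) = e j j * (X j * e l l) * Z l := by noncomm_ring
      _ = e j j * (e l l * X j) * Z l := by rw [hX j l l]
      _ = (e j j * e l l) * X j * Z l := by noncomm_ring
      _ = 0 := by rw [he.mul, if_neg (Ne.symm hl), zero_mul, zero_mul]
  · intro h; exact absurd (Finset.mem_univ _) h

theorem tau_fdg_conj (hτ : TrS τ) (he : MUn e) (y : Fin K → A)
    (hy : ∀ i, y i ∈ unitary A) (hc : ∀ i, Cmt e (y i)) (S : A) :
    τ (fdg e fun j => y j * S * star (y j)) = τ S := by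
  unfold fdg
  rw [map_sum]
  have h1 : ∀ j ∈ (Finset.univ : Finset (Fin K)),
      τ (e j j * (y j * S * star (y j))) = τ (e j j * S) := by
    intro j _
    calc τ (e j j * (y j * S * star (y j))) = τ ((e j j * y j) * S * star (y j)) := by
          congr 1; noncomm_ring
      _ = τ ((y j * e j j) * S * star (y j)) := by rw [hc j j j]
      _ = τ (y j * (e j j * S * star (y j))) := by congr 1; noncomm_ring
      _ = τ (e j j * S * star (y j) * y j) := by rw [hτ.comm]
      _ = τ (e j j * S) := by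
          rw [mul_assoc, Unitary.star_mul_self_of_mem (hy j), mul_one]
  rw [Finset.sum_congr rfl h1, ← map_sum, ← Finset.sum_mul, he.sum, one_mul]

theorem co_rot_fl (he : MUn e) (y : Fin K → A) (hc : ∀ i, Cmt e (y i)) (z : A) (i k : Fin K) :
    co (fun i j => y i * e i j * star (y j)) z i k =
      fdg e fun j => y j * (star (y i) * co e z i k * y k) * star (y j) := by
  unfold fdg
  rw [co]
  refine Finset.sum_congr rfl fun j _ => ?_
  have hE : e j j * co e z i k = e j i * z * e k j := by
    rw [co, Finset.mul_sum, Finset.sum_eq_single j]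
    · rw [← mul_assoc, ← mul_assoc, he.mul, if_pos rfl]
    · intro l _ hl
      rw [← mul_assoc, ← mul_assoc, he.mul, if_neg (Ne.symm hl), zero_mul, zero_mul]
    · intro h; exact absurd (Finset.mem_univ _) h
  have h1 := (Cmt.mul' (hc j) (Cmt.star' he (hc i))) j j
  have h2 := (Cmt.star' he (hc i)) j i
  have h3 := hc k k j
  symm
  calc e j j * (y j * (star (y i) * co e z i k * y k) * star (y j))
      = (e j j * (y j * star (y i))) * co e z i k * y k * star (y j) := by noncomm_ring
    _ = ((y j * star (y i)) * e j j) * co e z i k * y k * star (y j) := by rw [h1]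
    _ = y j * star (y i) * (e j j * co e z i k) * y k * star (y j) := by noncomm_ring
    _ = y j * star (y i) * (e j i * z * e k j) * y k * star (y j) := by rw [hE]
    _ = y j * (star (y i) * e j i) * z * (e k j * y k) * star (y j) := by noncomm_ring
    _ = y j * (e j i * star (y i)) * z * (y k * e k j) * star (y j) := by rw [h2, h3]
    _ = y j * e j i * star (y i) * z * (y k * e k j * star (y j)) := by noncomm_ring

/-- `q2 (qq e' z i) = q2 (∑ k, y_k* q_ik y_k)` -/
theorem q2_qq_rot (hτ : TrS τ) (hK : 0 < K) (he : MUn e) (y : Fin K → A)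
    (hy : ∀ i, y i ∈ unitary A) (hc : ∀ i, Cmt e (y i)) (z : A) (i : Fin K) :
    q2 τ (qq (fun i j => y i * e i j * star (y j)) z i) =
      q2 τ (∑ k, star (y k) * (star (co e z i k) * co e z i k) * y k) := by
  have hcs : ∀ j, Cmt e (star (y j)) := fun j => Cmt.star' he (hc j)
  have hco : ∀ k, Cmt e (co e z i k) := fun k => co_cmt he z i k
  have hC : ∀ k, Cmt e (star (y i) * co e z i k * y k) := fun k =>
    Cmt.mul' (Cmt.mul' (hcs i) (hco k)) (hc k)
  have hX : ∀ k j, Cmt e (y j * (star (y i) * co e z i k * y k) * star (y j)) := fun k j =>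
    Cmt.mul' (Cmt.mul' (hc j) (hC k)) (hcs j)
  set S : A := ∑ k, star (y k) * (star (co e z i k) * co e z i k) * y k with hS
  have hScm : Cmt e S := Cmt.sum' _ _ fun k _ =>
    Cmt.mul' (Cmt.mul' (hcs k) (Cmt.mul' (Cmt.star' he (hco k)) (hco k))) (hc k)
  have hq : qq (fun i j => y i * e i j * star (y j)) z i =
      fdg e fun j => y j * S * star (y j) := by
    unfold qq
    have h1 : ∀ k ∈ (Finset.univ : Finset (Fin K)),
        star (co (fun i j => y i * e i j * star (y j)) z i k) *
          co (fun i j => y i * e i j * star (y j)) z i k =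
        fdg e fun j => y j * (star (y k) * (star (co e z i k) * co e z i k) * y k) * star (y j) := by
      intro k _
      rw [co_rot_fl he y hc, fdg_star he _ (hX k),
        fdg_mul he _ _ fun j => Cmt.star' he (hX k j)]
      congr 1
      funext j
      have hj := Unitary.star_mul_self_of_mem (hy j)
      have hi := Unitary.mul_star_self_of_mem (hy i)
      rw [star_mul, star_mul, star_mul, star_mul, star_star, star_star]
      calc y j * (star (y k) * (star (co e z i k) * y i) * star (y j)) *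
            (y j * (star (y i) * co e z i k * y k) * star (y j))
          = y j * star (y k) * star (co e z i k) * y i * (star (y j) * y j) * star (y i) *
            co e z i k * y k * star (y j) := by noncomm_ring
        _ = y j * star (y k) * star (co e z i k) * (y i * star (y i)) *
            co e z i k * y k * star (y j) := by rw [hj]; noncomm_ring
        _ = _ := by rw [hi]; noncomm_ring
    rw [Finset.sum_congr rfl h1]
    unfold fdg
    rw [Finset.sum_comm]
    refine Finset.sum_congr rfl fun j _ => ?_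
    beta_reduce
    rw [hS, Finset.mul_sum, Finset.sum_mul, Finset.mul_sum]
  rw [hq, q2, q2, fdg_star he _ fun j => Cmt.mul' (Cmt.mul' (hc j) hScm) (hcs j),
    fdg_mul he _ _ fun j => Cmt.star' he (Cmt.mul' (Cmt.mul' (hc j) hScm) (hcs j))]
  have h2 : (fun j => star (y j * S * star (y j)) * (y j * S * star (y j))) =
      fun j => y j * (star S * S) * star (y j) := by
    funext j
    have hj := Unitary.star_mul_self_of_mem (hy j)
    rw [star_mul, star_mul, star_star]
    calc y j * (star S * star (y j)) * (y j * S * star (y j))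
        = y j * star S * (star (y j) * y j) * S * star (y j) := by noncomm_ring
      _ = _ := by rw [hj]; noncomm_ring
  rw [h2, tau_fdg_conj hτ he y hy hc]

/-- mean over the letters -/
theorem mean_rot (hτ : TrS τ) (hK : 0 < K) (he : MUn e) {N : ℕ} (hN : 0 < N) (v : Fin N → A)
    (hv : ∀ s, v s ∈ unitary A) (hc : ∀ s, Cmt e (v s)) {z : A} (hz : z ∈ unitary A) (i : Fin K)
    (h2 : q2 τ ((1 / (N : ℂ)) • ∑ s, star (v s) * qq e z i * v s) ≤ 2) :
    (1 / (N : ℝ) ^ K) * ∑ s : Fin K → Fin N,
      q2 τ (∑ k, star (v (s k)) * (star (co e z i k) * co e z i k) * v (s k)) ≤ 3 :=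
  FLc.mean_rot' hτ hK he hN v hv hz i h2

theorem flat_exists (hτ : TrS τ) (hK : 0 < K) (he : MUn e) (hD : NDix e) {m : ℕ} (z : Fin m → A)
    (hz : ∀ l, z l ∈ unitary A) :
    ∃ e' : Fin K → Fin K → A, MUn e' ∧ ∀ l, flat τ e' (z l) ≤ 3 * m := by
  obtain ⟨N, hN, v, hv, hvc, h⟩ := dix_law hτ hD (n := m * K)
    (fun j => qq e (z (finProdFinEquiv.symm j).1) (finProdFinEquiv.symm j).2)
    (fun j => FLc.qq_cmt he _ _) (fun j c hc => tau_qq_central hτ hK he (hz _) _ c hc)
  have h2 : ∀ l i, q2 τ ((1 / (N : ℂ)) • ∑ s, star (v s) * qq e (z l) i * v s) ≤ 2 := by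
    intro l i
    have := h (finProdFinEquiv (l, i))
    simpa only [Equiv.symm_apply_apply] using this
  have hN0 : (0 : ℝ) < N := by exact_mod_cast hN
  have hK0 : (0 : ℝ) < K := by exact_mod_cast hK
  have hNK : 0 < (N : ℝ) ^ K := by positivity
  have h3 : ∀ l i, ∑ s : Fin K → Fin N,
      q2 τ (qq (fun i j => v (s i) * e i j * star (v (s j))) (z l) i) ≤ 3 * (N : ℝ) ^ K := by
    intro l i
    have h4 := mean_rot hτ hK he hN v hv hvc (hz l) i (h2 l i)
    rw [one_div, inv_mul_le_iff₀ hNK] at h4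
    refine le_trans (le_of_eq ?_) (h4.trans (le_of_eq (mul_comm _ _)))
    refine Finset.sum_congr rfl fun s _ => ?_
    exact q2_qq_rot hτ hK he (fun i => v (s i)) (fun i => hv _) (fun i => hvc _) (z l) i
  have h4 : ∑ s : Fin K → Fin N, ∑ l,
      flat τ (fun i j => v (s i) * e i j * star (v (s j))) (z l) ≤ 3 * m * (N : ℝ) ^ K := by
    rw [Finset.sum_comm]
    have h5 : ∀ l, ∑ s : Fin K → Fin N,
        flat τ (fun i j => v (s i) * e i j * star (v (s j))) (z l) ≤ 3 * (N : ℝ) ^ K := by
      intro l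
      unfold flat
      rw [← Finset.mul_sum, Finset.sum_comm, one_div, inv_mul_le_iff₀ hK0]
      refine (Finset.sum_le_sum fun i _ => h3 l i).trans (le_of_eq ?_)
      simp
    refine (Finset.sum_le_sum fun l _ => h5 l).trans (le_of_eq ?_)
    simp
    ring
  have h6 : ∃ s : Fin K → Fin N, ∑ l,
      flat τ (fun i j => v (s i) * e i j * star (v (s j))) (z l) ≤ 3 * m := by
    by_contra hcon
    push Not at hcon
    haveI : Nonempty (Fin K → Fin N) := ⟨fun _ => ⟨0, hN⟩⟩
    have h7 : ∑ _s : Fin K → Fin N, (3 * m : ℝ) < ∑ s : Fin K → Fin N, ∑ l,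
        flat τ (fun i j => v (s i) * e i j * star (v (s j))) (z l) :=
      Finset.sum_lt_sum_of_nonempty Finset.univ_nonempty fun s _ => hcon s
    have h8 : ∑ _s : Fin K → Fin N, (3 * m : ℝ) = 3 * m * (N : ℝ) ^ K := by
      simp
      ring
    rw [h8] at h7
    exact absurd h7 (not_lt.2 h4)
  obtain ⟨s, hs⟩ := h6
  refine ⟨fun i j => v (s i) * e i j * star (v (s j)),
    rot_mun he (fun i => v (s i)) (fun i => hv _) (fun i => hvc _), fun l => ?_⟩
  refine le_trans ?_ hs
  refine Finset.single_le_sum (f := fun l =>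
    flat τ (fun i j => v (s i) * e i j * star (v (s j))) (z l)) (fun l _ => ?_) (Finset.mem_univ l)
  unfold flat
  exact mul_nonneg (by positivity) (Finset.sum_nonneg fun i _ => q2_nonneg hτ _)

end Crest.Agent.R121
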