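import Crest.Agent.R121.FLDefs

/-!
# Row 121, piece FL0: algebra of the matrix coefficients

All statements are elementary computations with matrix units.
-/

set_option autoImplicit false

namespace Crest.Agent.R121

open Finset

variable {A : Type*} [Ring A] [StarRing A] [Algebra ℂ A] [StarModule ℂ A] {K : ℕ}
  {e : Fin K → Fin K → A}

private theorem fl0_e_mc (he : MU1 e) (z : A) (i k p q : Fin K) :
    e p q * mc e z i k = e p i * z * e k q := by
  unfold mc
  rw [Finset.mul_sum, Finset.sum_eq_single q]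
  · rw [← mul_assoc, ← mul_assoc, he.mul, if_pos rfl]
  · intro j _ hj
    rw [← mul_assoc, ← mul_assoc, he.mul, if_neg (Ne.symm hj), zero_mul, zero_mul]
  · intro h; exact absurd (Finset.mem_univ _) h

private theorem fl0_mc_e (he : MU1 e) (z : A) (i k p q : Fin K) :
    mc e z i k * e p q = e p i * z * e k q := by
  unfold mc
  rw [Finset.sum_mul, Finset.sum_eq_single p]
  · rw [mul_assoc, he.mul, if_pos rfl]
  · intro j _ hj
    rw [mul_assoc, he.mul, if_neg hj, mul_zero]
  · intro h; exact absurd (Finset.mem_univ _) h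

private theorem fl0_e_dg (he : MU1 e) (y : Fin K → A) (j i : Fin K) :
    e j i * dg e y = e j i * y i := by
  unfold dg
  rw [Finset.mul_sum, Finset.sum_eq_single i]
  · rw [← mul_assoc, he.mul, if_pos rfl]
  · intro l _ hl
    rw [← mul_assoc, he.mul, if_neg (Ne.symm hl), zero_mul]
  · intro h; exact absurd (Finset.mem_univ _) h

private theorem fl0_dg_e (he : MU1 e) (y : Fin K → A) (h : ∀ i, Cm e (y i)) (k j : Fin K) :
    dg e y * e k j = e k j * y k := by
  unfold dg
  rw [Finset.sum_mul, Finset.sum_eq_single k]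
  · rw [mul_assoc, ← h k k j, ← mul_assoc, he.mul, if_pos rfl]
  · intro l _ hl
    rw [mul_assoc, ← h l k j, ← mul_assoc, he.mul, if_neg hl, zero_mul]
  · intro h; exact absurd (Finset.mem_univ _) h

theorem mc_cm (he : MU1 e) (z : A) (i k : Fin K) : Cm e (mc e z i k) := by
  intro p q
  rw [fl0_e_mc he, fl0_mc_e he]

theorem mc_star (he : MU1 e) (z : A) (i k : Fin K) : star (mc e z i k) = mc e (star z) k i := by
  unfold mc
  rw [star_sum]
  refine Finset.sum_congr rfl fun j _ => ?_
  rw [star_mul, star_mul, he.star, he.star, mul_assoc]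

theorem mc_mul (he : MU1 e) (z w : A) (i l : Fin K) :
    ∑ k, mc e z i k * mc e w k l = mc e (z * w) i l := by
  have h1 : ∀ k, mc e z i k * mc e w k l = ∑ j, e j i * z * e k k * w * e l j := by
    intro k
    conv_lhs => rw [show mc e w k l = ∑ j, e j k * w * e l j from rfl]
    rw [Finset.mul_sum]
    refine Finset.sum_congr rfl fun j _ => ?_
    rw [← mul_assoc, ← mul_assoc, fl0_mc_e he]
  simp_rw [h1]
  rw [Finset.sum_comm]
  unfold mc
  refine Finset.sum_congr rfl fun j _ => ?_
  rw [← Finset.sum_mul, ← Finset.sum_mul, ← Finset.mul_sum, he.sum, mul_one, mul_assoc (e j i)]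

theorem mc_one (he : MU1 e) (i k : Fin K) : mc e (1 : A) i k = if i = k then 1 else 0 := by
  unfold mc
  simp_rw [mul_one, he.mul]
  split_ifs with h
  · exact he.sum
  · simp

theorem mc_recover (he : MU1 e) (z : A) : ∑ i, ∑ k, e i k * mc e z i k = z := by
  simp_rw [fl0_e_mc he]
  simp_rw [← Finset.mul_sum, he.sum, mul_one]
  rw [← Finset.sum_mul, he.sum, one_mul]

theorem mc_dg (he : MU1 e) (z : A) (y1 y2 : Fin K → A) (h1 : ∀ i, Cm e (y1 i))
    (h2 : ∀ i, Cm e (y2 i)) (i k : Fin K) :
    mc e (dg e y1 * z * dg e y2) i k = y1 i * mc e z i k * y2 k := by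
  unfold mc
  rw [Finset.mul_sum, Finset.sum_mul]
  refine Finset.sum_congr rfl fun j _ => ?_
  calc e j i * (dg e y1 * z * dg e y2) * e k j
      = (e j i * dg e y1) * z * (dg e y2 * e k j) := by noncomm_ring
    _ = (y1 i * e j i) * z * (e k j * y2 k) := by
        rw [fl0_e_dg he, fl0_dg_e he y2 h2, h1 i j i]
    _ = y1 i * (e j i * z * e k j) * y2 k := by noncomm_ring

theorem dg_star (he : MU1 e) (y : Fin K → A) (h : ∀ i, Cm e (y i)) :
    star (dg e y) = dg e (fun i => star (y i)) := by
  unfold dg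
  rw [star_sum]
  refine Finset.sum_congr rfl fun i _ => ?_
  rw [h i i i, star_mul, he.star]

theorem dg_mul (he : MU1 e) (y y' : Fin K → A) (h : ∀ i, Cm e (y i)) :
    dg e y * dg e y' = dg e (fun i => y i * y' i) := by
  conv_lhs => rw [show dg e y' = ∑ i, e i i * y' i from rfl]
  rw [Finset.mul_sum]
  unfold dg
  refine Finset.sum_congr rfl fun i _ => ?_
  have h1 := fl0_dg_e he y h i i
  unfold dg at h1
  rw [← mul_assoc, h1, mul_assoc]

theorem cm_star (he : MU1 e) {a : A} (h : Cm e a) : Cm e (star a) := by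
  intro p q
  have h1 := congrArg star (h q p)
  rw [star_mul, star_mul, he.star] at h1
  exact h1.symm

theorem dg_unitary (he : MU1 e) (y : Fin K → A) (h : ∀ i, Cm e (y i)) (hu : ∀ i, y i ∈ unitary A) :
    dg e y ∈ unitary A := by
  have hs : ∀ i, Cm e (star (y i)) := fun i => cm_star he (h i)
  rw [Unitary.mem_iff]
  rw [dg_star he y h, dg_mul he _ _ hs, dg_mul he _ _ h]
  constructor
  · have : (fun i => star (y i) * y i) = fun _ : Fin K => (1 : A) := by
      funext i
      exact (Unitary.mem_iff.1 (hu i)).1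
    rw [this]
    simp [dg, he.sum]
  · have : (fun i => y i * star (y i)) = fun _ : Fin K => (1 : A) := by
      funext i
      exact (Unitary.mem_iff.1 (hu i)).2
    rw [this]
    simp [dg, he.sum]

/-- rows of a unitary: `∑ k, a_k a_k* = 1` -/
theorem row_one (he : MU1 e) {z : A} (hz : z ∈ unitary A) (i : Fin K) :
    ∑ k, mc e z i k * star (mc e z i k) = 1 := by
  simp_rw [mc_star he]
  rw [mc_mul he, (Unitary.mem_iff.1 hz).2, mc_one he, if_pos rfl]

/-- `τ(q_i c) = τ(c)` for central `c` -/
theorem row_tau (he : MU1 e) {τ : A →ₗ[ℂ] ℂ} (hτ : TrA τ) {z : A} (hz : z ∈ unitary A) (i : Fin K)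
    (c : A) (hc : ∀ a, a * c = c * a) :
    τ ((∑ k, star (mc e z i k) * mc e z i k) * c) = τ c := by
  have h1 : ∀ k, τ (star (mc e z i k) * mc e z i k * c) =
      τ (mc e z i k * star (mc e z i k) * c) := by
    intro k
    rw [mul_assoc, hτ.tr, mul_assoc, ← hc, ← mul_assoc]
  rw [Finset.sum_mul, map_sum]
  simp_rw [h1]
  rw [← map_sum, ← Finset.sum_mul, row_one he hz i, one_mul]

end Crest.Agent.R121
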