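import Crest.Agent.R121.FL0

/-!
# Row 121, piece FL0b: phase averages of the random rows

`phs_sum`, `phs_zero`, `phs_single`, `phs_star_mul` (FL2) give: the mean over `d` of
`star (χ (d k)) * χ (d l)` is `1` for `k = l` and `0` for `k ≠ l` (`Q ≥ 2`).
-/

set_option autoImplicit false

namespace Crest.Agent.R121

open Finset

variable {A : Type*} [Ring A] [StarRing A] [Algebra ℂ A] [StarModule ℂ A] {K : ℕ}
  {e : Fin K → Fin K → A}

/-- the rows of a diagonal unitary have modulus one: `dg e y` is flat with constant `1` -/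
theorem flat_dg (he : MU1 e) {τ : A →ₗ[ℂ] ℂ} (hτ : TrA τ) {Q : ℕ} [NeZero Q] (y : Fin K → A)
    (h : ∀ i, Cm e (y i)) (hu : ∀ i, y i ∈ unitary A) : Flat τ Q e (dg e y) 1 := by
  sorry

/-- average of `Y* Y` over the phases and over `i` -/
theorem avg_star_mul (he : MU1 e) {Q : ℕ} [NeZero Q] (hQ : 2 ≤ Q) {z : A} (hz : z ∈ unitary A) :
    ∑ i : Fin K, ∑ d : Fin K → ZMod Q, star (rowS e z d i) * rowS e z d i =
      ((K : ℂ) * (Fintype.card (Fin K → ZMod Q) : ℂ)) • (1 : A) := by
  sorry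

/-- average of `Y Y*` over the phases, for every `i` -/
theorem avg_mul_star (he : MU1 e) {Q : ℕ} [NeZero Q] (hQ : 2 ≤ Q) {z : A} (hz : z ∈ unitary A)
    (i : Fin K) :
    ∑ d : Fin K → ZMod Q, rowS e z d i * star (rowS e z d i) =
      (Fintype.card (Fin K → ZMod Q) : ℂ) • (1 : A) := by
  sorry

end Crest.Agent.R121
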