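import Crest.Agent.R121.FL0
import Crest.Agent.R124.Cmp4
import Crest.Agent.R95.VNa

/-!
# Row 121, piece FL1: the Dixmier input in a von Neumann algebra

Proof.  `N₀ = {x ∈ N : x commutes with all e i j}` is a von Neumann algebra on `H`
(the commutant of the star closed set `N' ∪ {e i j}`).  Apply `R124.Cmp.dixmier N₀` to `Qs` with `ε`
small: `‖Ψ(q) - c‖ ≤ ε`, `c ∈ N₀ ∩ N₀'`.  Such a `c` commutes with `N₀` and with the `e i j`; every
`a ∈ N` is `∑ e i k * mc e a i k` with `mc e a i k ∈ N₀`, so `c` is central in `N`.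
`τ(Ψ(q) c) = τ(q c) = τ(c)`, hence `|τ(c* c) - τ(c*)| ≤ ε ‖c‖`, `|τ(c) - 1| ≤ ε`, `τ(Ψ(q)* Ψ(q)) ≤ 2` for
`ε` small (depending on `max ‖q‖`).
-/

set_option autoImplicit false

namespace Crest.Agent.R121

open Finset

variable {H : Type*} [NormedAddCommGroup H] [InnerProductSpace ℂ H] [CompleteSpace H]

private theorem fl1_comm {N : VonNeumannAlgebra H} {x y : H →L[ℂ] H} (hx : x ∈ N)
    (hy : y ∈ N.commutant) : x * y = y * x :=
  VonNeumannAlgebra.mem_commutant_iff.1 hy x hx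

private theorem fl1_star (N : VonNeumannAlgebra H) {b : H →L[ℂ] H} (hbN : b ∈ N)
    (hbc : b ∈ N.commutant) {δ : ℝ} (hδ : 0 < δ) :
    ∃ d e : H →L[ℂ] H, d ∈ N ∧ d ∈ N.commutant ∧ e ∈ N ∧ star b = b * d + e ∧
      ‖d‖ ≤ ‖b‖ ^ 2 * δ⁻¹ ∧ ‖e‖ ^ 2 ≤ 2 * δ := by
  set a : H →L[ℂ] H := star b * b with ha
  have hsa : IsSelfAdjoint a := IsSelfAdjoint.star_mul_self b
  have hnn : 0 ≤ a := star_mul_self_nonneg b
  have haN : a ∈ N := mul_mem (star_mem hbN) hbN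
  have hac : a ∈ N.commutant := mul_mem (star_mem hbc) hbc
  set f : ℝ → ℝ := fun t => (|t| + δ)⁻¹ with hf
  have hfc : Continuous f := by
    apply Continuous.inv₀ (by fun_prop)
    intro t; positivity
  set k : H →L[ℂ] H := cfc f a with hk
  have hkN : k ∈ N := Crest.Agent.R95.vn_cfc_mem N haN hsa f hfc
  have hkc : k ∈ N.commutant := Crest.Agent.R95.vn_cfc_mem N.commutant hac hsa f hfc
  have hks : star k = k := (cfc_predicate f a : IsSelfAdjoint k)
  have hsp : ∀ t ∈ spectrum ℝ a, 0 ≤ t := fun t ht => spectrum_nonneg_of_nonneg hnn ht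
  have hkn : ‖k‖ ≤ δ⁻¹ := by
    refine norm_cfc_le (inv_nonneg.2 hδ.le) fun t ht => ?_
    rw [Real.norm_eq_abs, abs_of_nonneg (by positivity)]
    simp only [hf]
    gcongr
    have := abs_nonneg t
    linarith
  have hak : a * k = 1 - (δ : ℂ) • k := by
    have h1 : a * k = cfc (fun t => t * f t) a := by
      have := (cfc_mul (fun t : ℝ => t) f a (by fun_prop) hfc.continuousOn)
      rw [this, cfc_id' ℝ a]
    have h2 : (1 : H →L[ℂ] H) - (δ : ℂ) • k = cfc (fun t => 1 - δ * f t) a := by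
      rw [cfc_sub (fun _ => (1 : ℝ)) (fun t => δ * f t) a (by fun_prop) (by fun_prop),
        cfc_const_one ℝ a, cfc_const_mul δ f a hfc.continuousOn]
      congr 1
    rw [h1, h2]
    refine cfc_congr fun t ht => ?_
    have h0 := hsp t ht
    simp only [hf]
    rw [abs_of_nonneg h0]
    field_simp
    ring
  have hbb : b * star b = a := fl1_comm hbN (star_mem hbc)
  refine ⟨star b * star b * k, (δ : ℂ) • (star b * k),
    mul_mem (mul_mem (star_mem hbN) (star_mem hbN)) hkN,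
    mul_mem (mul_mem (star_mem hbc) (star_mem hbc)) hkc,
    Crest.Agent.R95.vn_smul_mem N _ (mul_mem (star_mem hbN) hkN), ?_, ?_, ?_⟩
  · have h3 : b * (star b * star b * k) = star b * (a * k) := by
      rw [← mul_assoc, ← mul_assoc, hbb, ← mul_assoc]
      congr 1
      exact fl1_comm haN (star_mem hbc)
    rw [h3, hak, mul_sub, mul_one, mul_smul_comm]
    abel
  · calc ‖star b * star b * k‖ ≤ ‖star b‖ * ‖star b‖ * ‖k‖ :=
          (norm_mul_le _ _).trans (mul_le_mul_of_nonneg_right (norm_mul_le _ _) (norm_nonneg _))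
      _ = ‖b‖ ^ 2 * ‖k‖ := by rw [norm_star]; ring
      _ ≤ ‖b‖ ^ 2 * δ⁻¹ := by gcongr
  · have h4 : star ((δ : ℂ) • (star b * k)) * ((δ : ℂ) • (star b * k)) =
        ((δ : ℂ) * δ) • (k - (δ : ℂ) • (k * k)) := by
      rw [star_smul, smul_mul_smul_comm, star_mul, star_star, hks]
      have : k * b * (star b * k) = k - (δ : ℂ) • (k * k) := by
        rw [mul_assoc, ← mul_assoc b, hbb, hak, mul_sub, mul_one, mul_smul_comm]
      rw [this]
      simp
    have h5 : ‖(δ : ℂ) • (star b * k)‖ ^ 2 = ‖star ((δ : ℂ) • (star b * k)) *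
        ((δ : ℂ) • (star b * k))‖ := by
      rw [CStarRing.norm_star_mul_self, sq]
    rw [h5, h4, norm_smul]
    have h6 : ‖((δ : ℂ) * δ)‖ = δ * δ := by
      rw [norm_mul, Complex.norm_real, Real.norm_eq_abs, abs_of_pos hδ]
    have h7 : ‖k - (δ : ℂ) • (k * k)‖ ≤ δ⁻¹ + δ * (δ⁻¹ * δ⁻¹) := by
      refine (norm_sub_le _ _).trans (add_le_add hkn ?_)
      rw [norm_smul, Complex.norm_real, Real.norm_eq_abs, abs_of_pos hδ]
      gcongr
      exact (norm_mul_le _ _).trans (by gcongr)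
    rw [h6]
    calc δ * δ * ‖k - (δ : ℂ) • (k * k)‖ ≤ δ * δ * (δ⁻¹ + δ * (δ⁻¹ * δ⁻¹)) := by gcongr
      _ = 2 * δ := by field_simp; ring

private theorem fl1_abs {A : Type*} [NormedRing A] [NormedAlgebra ℂ A] [StarRing A]
    [NormedStarGroup A] (τ : A →L[ℂ] ℂ) (hτ1 : τ 1 = 1) {B δ ε : ℝ} {P c d r : A} (hB0 : 0 ≤ B)
    (hPn : ‖P‖ ≤ B) (h1n : ‖(1 : A)‖ ≤ 1) (hPc : ‖P - c‖ ≤ ε) (hcc : c * star c = star c * c)
    (hbd : star (c - 1) = (c - 1) * d + r) (hδ0 : 0 < δ) (hδ : δ ≤ (32 * (‖τ‖ + 1) ^ 2)⁻¹)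
    (hdn : ‖d‖ ≤ ‖c - 1‖ ^ 2 * δ⁻¹) (hrn : ‖r‖ ^ 2 ≤ 2 * δ) (hε0 : 0 < ε) (hε1 : ε ≤ 1)
    (hεΛ : ε * (‖τ‖ * ((2 * B + 2) + 1 + (B + 2) ^ 2 * δ⁻¹ + (B + 2))) ≤ 1 / 2)
    (hP1 : τ P = 1) (hPd : τ (P * d) = τ d) (hPs : τ (P * star (c - 1)) = τ (star (c - 1))) :
    (τ (star P * P)).re ≤ 2 := by
  set T : ℝ := ‖τ‖ with hT
  have hT0 : 0 ≤ T := norm_nonneg _
  have hτle : ∀ a : A, ‖τ a‖ ≤ T * ‖a‖ := fun a => τ.le_opNorm a
  have hbτ : ∀ w : A, τ (P * w) = τ w → ‖τ ((c - 1) * w)‖ ≤ T * ε * ‖w‖ := by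
    intro w hw
    have h1 : τ ((c - 1) * w) = - τ ((P - c) * w) := by
      rw [sub_mul, sub_mul, map_sub, map_sub, hw, one_mul]
      ring
    rw [h1, norm_neg]
    calc ‖τ ((P - c) * w)‖ ≤ T * ‖(P - c) * w‖ := hτle _
      _ ≤ T * (‖P - c‖ * ‖w‖) := by gcongr; exact norm_mul_le _ _
      _ ≤ T * (ε * ‖w‖) := by gcongr
      _ = T * ε * ‖w‖ := by ring
  have hcn : ‖c‖ ≤ B + 1 := by
    calc ‖c‖ = ‖P - (P - c)‖ := by rw [sub_sub_cancel]
      _ ≤ ‖P‖ + ‖P - c‖ := norm_sub_le _ _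
      _ ≤ B + 1 := by linarith
  have hbn : ‖c - 1‖ ≤ B + 2 := by
    calc ‖c - 1‖ ≤ ‖c‖ + ‖(1 : A)‖ := norm_sub_le _ _
      _ ≤ B + 2 := by linarith
  have hdn' : ‖d‖ ≤ (B + 2) ^ 2 * δ⁻¹ := by
    refine hdn.trans ?_
    gcongr
  have hrn' : T * ‖r‖ ≤ 1 / 4 := by
    have h2 : ‖r‖ ≤ (4 * (T + 1))⁻¹ := by
      apply le_of_sq_le_sq _ (by positivity)
      refine hrn.trans ((mul_le_mul_of_nonneg_left hδ (by norm_num)).trans (le_of_eq ?_))
      field_simp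
      ring
    calc T * ‖r‖ ≤ T * (4 * (T + 1))⁻¹ := by gcongr
      _ ≤ (T + 1) * (4 * (T + 1))⁻¹ := by gcongr; linarith
      _ = 1 / 4 := by field_simp
  have hb0 : ‖τ (c - 1)‖ ≤ T * ε := by
    have := hbτ 1 (by rw [mul_one, hP1, hτ1])
    rw [mul_one] at this
    refine this.trans ?_
    calc T * ε * ‖(1 : A)‖ ≤ T * ε * 1 := by gcongr
      _ = T * ε := mul_one _
  have hb1 : ‖τ (star (c - 1))‖ ≤ T * ε * ((B + 2) ^ 2 * δ⁻¹) + 1 / 4 := by
    rw [hbd, map_add]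
    refine (norm_add_le _ _).trans (add_le_add ?_ ((hτle _).trans hrn'))
    refine (hbτ d hPd).trans ?_
    gcongr
  have hb2 : ‖τ ((c - 1) * star (c - 1))‖ ≤ T * ε * (B + 2) := by
    refine (hbτ (star (c - 1)) hPs).trans ?_
    rw [norm_star]
    gcongr
  have hdec : star P * P = 1 + (c - 1) + star (c - 1) + (c - 1) * star (c - 1) +
      (star P * (P - c) + star (P - c) * c) := by
    have h1 : (1 : A) + (c - 1) + star (c - 1) + (c - 1) * star (c - 1) = star c * c := by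
      rw [← hcc, star_sub, star_one, mul_sub, sub_mul, sub_mul, mul_one, one_mul, mul_one]
      abel
    rw [h1, star_sub, mul_sub, sub_mul]
    abel
  have hlast : ‖τ (star P * (P - c) + star (P - c) * c)‖ ≤ T * ε * (2 * B + 1) := by
    refine (hτle _).trans ?_
    rw [mul_assoc]
    refine mul_le_mul_of_nonneg_left ?_ hT0
    refine (norm_add_le _ _).trans ?_
    have h1 : ‖star P * (P - c)‖ ≤ B * ε := by
      refine (norm_mul_le _ _).trans ?_
      rw [norm_star]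
      gcongr
    have h2 : ‖star (P - c) * c‖ ≤ ε * (B + 1) := by
      refine (norm_mul_le _ _).trans ?_
      rw [norm_star]
      gcongr
    linarith
  have hfin : (τ (star P * P)).re ≤ 1 + T * ε + (T * ε * ((B + 2) ^ 2 * δ⁻¹) + 1 / 4) +
      T * ε * (B + 2) + T * ε * (2 * B + 1) := by
    rw [hdec, map_add, map_add, map_add, map_add, hτ1]
    simp only [Complex.add_re, Complex.one_re]
    have e1 := (Complex.re_le_norm (τ (c - 1))).trans hb0
    have e2 := (Complex.re_le_norm (τ (star (c - 1)))).trans hb1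
    have e3 := (Complex.re_le_norm (τ ((c - 1) * star (c - 1)))).trans hb2
    have e4 := (Complex.re_le_norm (τ (star P * (P - c) + star (P - c) * c))).trans hlast
    linarith
  have hfin2 : 1 + T * ε + (T * ε * ((B + 2) ^ 2 * δ⁻¹) + 1 / 4) +
      T * ε * (B + 2) + T * ε * (2 * B + 1) ≤
      1 + 1 / 4 + ε * (T * ((2 * B + 2) + 1 + (B + 2) ^ 2 * δ⁻¹ + (B + 2))) := by
    have : 0 ≤ T * ε := by positivity
    nlinarith
  linarith

set_option maxHeartbeats 2000000 in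
theorem dixHyp_vn (N : VonNeumannAlgebra H) (τ : N.toStarSubalgebra →L[ℂ] ℂ)
    (hτ : TrA (τ : N.toStarSubalgebra →ₗ[ℂ] ℂ)) : DixHyp (τ : N.toStarSubalgebra →ₗ[ℂ] ℂ) := by
  classical
  intro K e he Qs hQs
  set S : Set (H →L[ℂ] H) :=
    Set.range (fun p : Fin K × Fin K => (e p.1 p.2 : H →L[ℂ] H)) with hS
  set N₀ := Crest.Agent.R95.rc S N with hN₀
  have hle0 : ∀ x ∈ N₀, x ∈ N := fun x hx => Crest.Agent.R95.rc_le S N hx
  have hmem : ∀ x : N.toStarSubalgebra, Cm e x → (x : H →L[ℂ] H) ∈ N₀ := by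
    intro x hx
    rw [hN₀, Crest.Agent.R95.mem_rc_iff]
    refine ⟨x.2, ?_, ?_⟩
    · rintro _ ⟨p, rfl⟩
      exact congrArg Subtype.val (hx p.1 p.2)
    · rintro _ ⟨p, rfl⟩
      have := congrArg Subtype.val (hx p.2 p.1)
      rw [← he.star p.1 p.2] at this
      exact this
  have hcm : ∀ (x : N.toStarSubalgebra), (x : H →L[ℂ] H) ∈ N₀ → Cm e x := by
    intro x hx p r
    rw [hN₀, Crest.Agent.R95.mem_rc_iff] at hx
    apply Subtype.ext
    exact hx.2.1 _ ⟨(p, r), rfl⟩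
  -- constants
  set T : ℝ := ‖τ‖ with hT
  have hT0 : 0 ≤ T := norm_nonneg _
  set B : ℝ := ∑ q ∈ Qs, ‖q‖ with hB
  have hB0 : 0 ≤ B := Finset.sum_nonneg fun q _ => norm_nonneg q
  have hqB : ∀ q ∈ Qs, ‖q‖ ≤ B := fun q hq =>
    Finset.single_le_sum (f := fun q => ‖q‖) (fun q _ => norm_nonneg q) hq
  set δ : ℝ := (32 * (T + 1) ^ 2)⁻¹ with hδ
  have hδ0 : 0 < δ := by positivity
  set Λ : ℝ := T * ((2 * B + 2) + 1 + (B + 2) ^ 2 * δ⁻¹ + (B + 2)) with hΛ
  have hΛ0 : 0 ≤ Λ := by positivity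
  set ε : ℝ := (2 * (Λ + 1))⁻¹ with hε
  have hε0 : 0 < ε := by positivity
  have hεΛ : ε * Λ ≤ 1 / 2 := by
    rw [hε, inv_mul_le_iff₀ (by positivity)]
    linarith
  have hε1 : ε ≤ 1 := by
    rw [hε]
    apply inv_le_one_of_one_le₀
    linarith
  obtain ⟨n, hn, u, hu, hc⟩ := Crest.Agent.R124.Cmp.dixmier N₀ hε0
    (Qs.image (fun q : N.toStarSubalgebra => (q : H →L[ℂ] H))) (by
      intro x hx
      obtain ⟨q, hq, rfl⟩ := Finset.mem_image.1 hx
      exact hmem q (hQs q hq).1)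
  set v : Fin n → N.toStarSubalgebra := fun s => ⟨u s, hle0 _ (hu s).1⟩ with hv
  have hvu : ∀ s, v s ∈ unitary N.toStarSubalgebra := by
    intro s
    rw [Unitary.mem_iff]
    obtain ⟨h1, h2⟩ := Unitary.mem_iff.1 (hu s).2
    exact ⟨Subtype.ext h1, Subtype.ext h2⟩
  refine ⟨n, hn, v, fun s => ⟨hvu s, hcm _ (hu s).1⟩, ?_⟩
  intro q hq
  obtain ⟨hqc, hqτ⟩ := hQs q hq
  obtain ⟨c, hcN0, hcc, hle⟩ := hc q (Finset.mem_image_of_mem _ hq)
  have hcN : c ∈ N := hle0 _ hcN0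
  -- `c` is central in `N`
  have hcen : ∀ y : N.toStarSubalgebra, (y : H →L[ℂ] H) * c = c * (y : H →L[ℂ] H) := by
    intro y
    have hy : (∑ i, ∑ k, (e i k : H →L[ℂ] H) *
        ((mc e y i k : N.toStarSubalgebra) : H →L[ℂ] H)) = (y : H →L[ℂ] H) := by
      have h1 : ((∑ i, ∑ k, e i k * mc e y i k : N.toStarSubalgebra) : H →L[ℂ] H) =
          (y : H →L[ℂ] H) := congrArg Subtype.val (mc_recover he y)
      rw [← h1]
      simp
    have h4 : (∑ i, ∑ k, (e i k : H →L[ℂ] H) *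
        ((mc e y i k : N.toStarSubalgebra) : H →L[ℂ] H)) * c =
        c * ∑ i, ∑ k, (e i k : H →L[ℂ] H) *
        ((mc e y i k : N.toStarSubalgebra) : H →L[ℂ] H) := by
      rw [Finset.sum_mul, Finset.mul_sum]
      refine Finset.sum_congr rfl fun i _ => ?_
      rw [Finset.sum_mul, Finset.mul_sum]
      refine Finset.sum_congr rfl fun k _ => ?_
      have h2 : ((mc e y i k : N.toStarSubalgebra) : H →L[ℂ] H) * c =
          c * ((mc e y i k : N.toStarSubalgebra) : H →L[ℂ] H) :=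
        VonNeumannAlgebra.mem_commutant_iff.1 hcc _ (hmem _ (mc_cm he _ i k))
      have h3 : (e i k : H →L[ℂ] H) * c = c * (e i k : H →L[ℂ] H) := by
        rw [hN₀, Crest.Agent.R95.mem_rc_iff] at hcN0
        exact hcN0.2.1 _ ⟨(i, k), rfl⟩
      rw [mul_assoc, h2, ← mul_assoc, h3, mul_assoc]
    rwa [hy] at h4
  have hccen : c ∈ N.commutant :=
    VonNeumannAlgebra.mem_commutant_iff.2 fun x hx => hcen ⟨x, hx⟩
  obtain ⟨d, r, hdN, hdc, hrN, hbd, hdn, hrn⟩ := fl1_star N (sub_mem hcN (one_mem N))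
    (sub_mem hccen (one_mem _)) hδ0
  -- move everything to the algebra
  set c' : N.toStarSubalgebra := ⟨c, hcN⟩ with hc'
  set d' : N.toStarSubalgebra := ⟨d, hdN⟩ with hd'
  set r' : N.toStarSubalgebra := ⟨r, hrN⟩ with hr'
  have hc'cen : ∀ a : N.toStarSubalgebra, a * c' = c' * a := fun a => Subtype.ext (hcen a)
  have hd'cen : ∀ a : N.toStarSubalgebra, a * d' = d' * a := fun a =>
    Subtype.ext (VonNeumannAlgebra.mem_commutant_iff.1 hdc _ a.2)
  have hsc : ∀ a : N.toStarSubalgebra, a * star c' = star c' * a := fun a => by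
    have := congrArg star (hc'cen (star a))
    simpa [star_mul] using this.symm
  have hbd' : star (c' - 1) = (c' - 1) * d' + r' := Subtype.ext hbd
  set P : N.toStarSubalgebra := Psi v q with hP
  have hPc : ‖P - c'‖ ≤ ε := by
    have : ((P - c' : N.toStarSubalgebra) : H →L[ℂ] H) =
        (1 / (n : ℂ)) • ∑ i, star (u i) * (q : H →L[ℂ] H) * u i - c := by
      rw [hP]
      simp [Psi, hv, hc']
    change ‖((P - c' : N.toStarSubalgebra) : H →L[ℂ] H)‖ ≤ ε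
    rw [this]; exact hle
  have hτt : ∀ a b : N.toStarSubalgebra, τ (a * b) = τ (b * a) := hτ.tr
  have hPτ : ∀ w : N.toStarSubalgebra, (∀ a, a * w = w * a) → τ (P * w) = τ w := by
    intro w hw
    have h1 : P * w = ((Fintype.card (Fin n) : ℂ)⁻¹) • ∑ s, star (v s) * q * v s * w := by
      rw [hP, Psi, smul_mul_assoc, Finset.sum_mul]
    rw [h1, map_smul, map_sum]
    have h2 : ∀ s ∈ (Finset.univ : Finset (Fin n)), τ (star (v s) * q * v s * w) = τ w := by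
      intro s _
      rw [mul_assoc _ (v s) w, hw (v s), ← mul_assoc, hτt, ← mul_assoc, ← mul_assoc,
        (Unitary.mem_iff.1 (hvu s)).2, one_mul]
      exact hqτ w hw
    rw [Finset.sum_congr rfl h2, Finset.sum_const, Finset.card_univ, nsmul_eq_mul, smul_eq_mul,
      ← mul_assoc, inv_mul_cancel₀, one_mul]
    rw [Fintype.card_fin]
    exact_mod_cast hn.ne'
  have hPn : ‖P‖ ≤ B := by
    refine le_trans ?_ (hqB q hq)
    rw [hP, Psi, norm_smul, norm_inv, Complex.norm_natCast, Fintype.card_fin]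
    have h1 : ‖∑ s, star (v s) * q * v s‖ ≤ n * ‖q‖ := by
      refine (norm_sum_le _ _).trans ?_
      refine (Finset.sum_le_sum (g := fun _ => ‖q‖) fun s _ => ?_).trans (by simp)
      have h3 : ‖u s‖ ≤ 1 := by
        have h4 : ‖u s‖ * ‖u s‖ ≤ 1 := by
          rw [← CStarRing.norm_star_mul_self, (Unitary.mem_iff.1 (hu s).2).1]
          exact ContinuousLinearMap.norm_id_le
        nlinarith [norm_nonneg (u s)]
      change ‖star (u s) * (q : H →L[ℂ] H) * u s‖ ≤ ‖(q : H →L[ℂ] H)‖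
      calc ‖star (u s) * (q : H →L[ℂ] H) * u s‖ ≤ ‖star (u s)‖ * ‖(q : H →L[ℂ] H)‖ * ‖u s‖ :=
            (norm_mul_le _ _).trans (mul_le_mul_of_nonneg_right (norm_mul_le _ _) (norm_nonneg _))
        _ ≤ 1 * ‖(q : H →L[ℂ] H)‖ * 1 := by
            rw [norm_star]
            gcongr
        _ = ‖(q : H →L[ℂ] H)‖ := by ring
    have hn' : (0 : ℝ) < n := by exact_mod_cast hn
    calc (n : ℝ)⁻¹ * ‖∑ s, star (v s) * q * v s‖ ≤ (n : ℝ)⁻¹ * (n * ‖q‖) := by gcongr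
      _ = ‖q‖ := by field_simp
  have h1n : ‖(1 : N.toStarSubalgebra)‖ ≤ 1 := by
    change ‖(1 : H →L[ℂ] H)‖ ≤ 1
    exact ContinuousLinearMap.norm_id_le
  have hdn' : ‖d'‖ ≤ ‖c' - 1‖ ^ 2 * δ⁻¹ := hdn
  have hrn' : ‖r'‖ ^ 2 ≤ 2 * δ := hrn
  have hP1 : τ P = 1 := by
    have h5 : τ (P * 1) = τ 1 := hPτ 1 (fun a => by rw [mul_one, one_mul])
    rw [mul_one] at h5
    exact h5.trans hτ.one
  have hPs : τ (P * star (c' - 1)) = τ (star (c' - 1)) := by
    apply hPτ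
    intro a
    rw [star_sub, star_one, mul_sub, sub_mul, hsc a, mul_one, one_mul]
  have hPd := hPτ d' hd'cen
  have hcc' : c' * star c' = star c' * c' := (hc'cen (star c')).symm
  rw [hΛ, hT] at hεΛ
  have hδ' : δ ≤ (32 * (‖τ‖ + 1) ^ 2)⁻¹ := le_of_eq hδ
  clear_value P c' d' r' δ ε v T Λ
  clear hc hΛ hT hδ hε hle hdn hrn hP hc' hd' hr' hv
  have := fl1_abs (A := N.toStarSubalgebra) τ hτ.one hB0 hPn h1n hPc hcc' hbd' hδ0 hδ' hdn'
    hrn' hε0 hε1 hεΛ hP1 hPd hPs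
  exact this

end Crest.Agent.R121
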