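import Mathlib

/-!
# Row 121, piece FL2: fourth moment of a random row (phases and random letters)
-/

set_option autoImplicit false
set_option linter.unusedSectionVars false

namespace Crest.Agent.R121.FL2c

open Finset

section phases

variable {ι : Type*} [Fintype ι] [DecidableEq ι] {Q : ℕ} [NeZero Q]

/-- phase character -/
noncomputable def phs (c d : ι → ZMod Q) : ℂ := ZMod.stdAddChar (∑ j, c j * d j)

theorem phs_zero (d : ι → ZMod Q) : phs (0 : ι → ZMod Q) d = 1 := by
  simp [phs]

theorem phs_single (k : ι) (d : ι → ZMod Q) :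
    phs (Pi.single k 1) d = ZMod.stdAddChar (d k) := by
  unfold phs
  congr 1
  rw [Finset.sum_eq_single k]
  · simp
  · intro j _ hj
    simp [Pi.single_eq_of_ne hj]
  · simp

theorem phs_star_mul (c c' d : ι → ZMod Q) : star (phs c d) * phs c' d = phs (c' - c) d := by
  unfold phs
  have h1 : star (ZMod.stdAddChar (∑ j, c j * d j) : ℂ) =
      ZMod.stdAddChar (-(∑ j, c j * d j)) := by
    rw [AddChar.map_neg_eq_conj]
    rfl
  rw [h1, ← AddChar.map_add_eq_mul]
  congr 1
  simp only [Pi.sub_apply, sub_mul, Finset.sum_sub_distrib]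
  abel

theorem phs_add_right (c d d' : ι → ZMod Q) : phs c (d + d') = phs c d * phs c d' := by
  unfold phs
  rw [← AddChar.map_add_eq_mul, ← Finset.sum_add_distrib]
  refine congrArg _ (Finset.sum_congr rfl fun j _ => ?_)
  rw [Pi.add_apply, mul_add]

theorem phs_single_right (c : ι → ZMod Q) (k : ι) :
    phs c (Pi.single k 1) = ZMod.stdAddChar (c k) := by
  unfold phs
  refine congrArg _ ?_
  rw [Finset.sum_eq_single k]
  · rw [Pi.single_eq_same, mul_one]
  · intro j _ hj
    rw [Pi.single_eq_of_ne hj, mul_zero]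
  · intro h
    exact absurd (Finset.mem_univ k) h

/-- phase character, bundled -/
noncomputable def phsC (c : ι → ZMod Q) : AddChar (ι → ZMod Q) ℂ where
  toFun := phs c
  map_zero_eq_one' := by simp [phs]
  map_add_eq_mul' := phs_add_right c

theorem phs_sum {c : ι → ZMod Q} (hc : c ≠ 0) : ∑ d : ι → ZMod Q, phs c d = 0 := by
  have h1 : phsC c ≠ 0 := by
    intro h
    apply hc
    funext k
    apply ZMod.injective_stdAddChar
    rw [Pi.zero_apply, AddChar.map_zero_eq_one, ← phs_single_right]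
    have := DFunLike.congr_fun h (Pi.single k 1)
    exact this
  have h2 := AddChar.sum_eq_zero_iff_ne_zero.2 h1
  exact h2

theorem phs_parseval {A : Type*} [Ring A] [StarRing A] [Algebra ℂ A] [StarModule ℂ A]
    (τ : A →ₗ[ℂ] ℂ) {J : Type*} [Fintype J] [DecidableEq J] (c : J → ι → ZMod Q)
    (hc : Function.Injective c) (x : J → A) :
    ∑ d : ι → ZMod Q, τ (star (∑ j, phs (c j) d • x j) * ∑ j, phs (c j) d • x j) =
      (Fintype.card (ι → ZMod Q) : ℂ) * ∑ j, τ (star (x j) * x j) := by
  have h1 : ∀ d : ι → ZMod Q,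
      τ (star (∑ j, phs (c j) d • x j) * ∑ j, phs (c j) d • x j) =
        ∑ j, ∑ j', phs (c j' - c j) d * τ (star (x j) * x j') := by
    intro d
    rw [star_sum, Finset.sum_mul_sum, map_sum]
    refine Finset.sum_congr rfl fun j _ => ?_
    rw [map_sum]
    refine Finset.sum_congr rfl fun j' _ => ?_
    rw [star_smul, smul_mul_smul_comm, map_smul, phs_star_mul, smul_eq_mul]
  rw [Finset.sum_congr rfl fun d _ => h1 d, Finset.sum_comm, Finset.mul_sum]
  refine Finset.sum_congr rfl fun j _ => ?_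
  rw [Finset.sum_comm, Finset.sum_eq_single j]
  · simp [phs_zero]
  · intro j' _ hj'
    rw [← Finset.sum_mul, phs_sum, zero_mul]
    intro h
    exact hj' (hc (sub_eq_zero.1 h))
  · simp

end phases

section letters

/-- average over one coordinate -/
theorem sum_update {ι S : Type*} [Fintype ι] [DecidableEq ι] [Fintype S] {B : Type*}
    [AddCommGroup B] [Module ℂ B] (k : ι) (h : (ι → S) → B) :
    ∑ σ : ι → S, ∑ s : S, h (Function.update σ k s) = (Fintype.card S : ℂ) • ∑ σ : ι → S, h σ := by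
  classical
  let E : (ι → S) × S ≃ (ι → S) × S :=
    { toFun := fun p => (Function.update p.1 k p.2, p.1 k)
      invFun := fun p => (Function.update p.1 k p.2, p.1 k)
      left_inv := fun p => by simp
      right_inv := fun p => by simp }
  have h1 : ∑ p : (ι → S) × S, h (Function.update p.1 k p.2) = ∑ p : (ι → S) × S, h p.1 :=
    Equiv.sum_comp E (fun p => h p.1)
  rw [Fintype.sum_prod_type, Fintype.sum_prod_type] at h1
  rw [h1]
  simp only [Finset.sum_const, Finset.card_univ]
  rw [← Finset.smul_sum, Nat.cast_smul_eq_nsmul]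

/-- the random row -/
noncomputable def Yrow {ι S A : Type*} [Fintype ι] {Q : ℕ} [NeZero Q] [Ring A] [Algebra ℂ A]
    (a : ι → A) (v : S → A) (d : ι → ZMod Q) (σ : ι → S) : A :=
  ∑ k, (ZMod.stdAddChar (d k) : ℂ) • (a k * v (σ k))

/-- averaging by a finite family -/
noncomputable def Psi {S A : Type*} [Fintype S] [Ring A] [StarRing A] [Algebra ℂ A]
    (v : S → A) (q : A) : A := ((Fintype.card S : ℂ)⁻¹) • ∑ s, star (v s) * q * v s

variable {ι S A : Type*} [Fintype ι] [DecidableEq ι] [Fintype S] [Nonempty S]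
  [Ring A] [StarRing A] [Algebra ℂ A] [StarModule ℂ A]

/-- exponents of the characters in `Y* Y` -/
noncomputable def exq (Q : ℕ) : Option ↥(Finset.univ.offDiag : Finset (ι × ι)) → ι → ZMod Q
  | none => 0
  | some p => Pi.single p.1.2 1 - Pi.single p.1.1 1

theorem exq_injective {Q : ℕ} (hQ : 3 ≤ Q) :
    Function.Injective (exq (ι := ι) Q) := by
  have : NeZero Q := ⟨by omega⟩
  have h1 : (1 : ZMod Q) ≠ 0 := by
    have : Fact (1 < Q) := ⟨by omega⟩
    exact one_ne_zero
  have h2 : (1 : ZMod Q) ≠ -1 := by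
    intro h
    have h3 : ((2 : ℕ) : ZMod Q) = 0 := by
      push_cast
      have : (2 : ZMod Q) = 1 + 1 := by norm_num
      rw [this]
      nth_rewrite 2 [h]
      rw [add_neg_cancel]
    rw [ZMod.natCast_eq_zero_iff] at h3
    exact absurd (Nat.le_of_dvd (by norm_num) h3) (by omega)
  have key : ∀ k l : ι, k ≠ l → ∀ m n : ι, m ≠ n →
      (Pi.single l 1 - Pi.single k 1 : ι → ZMod Q) = Pi.single n 1 - Pi.single m 1 →
      k = m ∧ l = n := by
    intro k l hkl m n hmn h
    have el := congrFun h l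
    have ek := congrFun h k
    simp only [Pi.sub_apply, Pi.single_eq_same, Pi.single_eq_of_ne hkl,
      Pi.single_eq_of_ne hkl.symm, sub_zero, zero_sub] at el ek
    have hln : l = n := by
      by_contra hne
      rw [Pi.single_eq_of_ne hne, zero_sub] at el
      by_cases hlm : l = m
      · subst hlm
        rw [Pi.single_eq_same] at el
        exact h2 el
      · rw [Pi.single_eq_of_ne hlm, neg_zero] at el
        exact h1 el
    refine ⟨?_, hln⟩
    by_contra hne
    rw [Pi.single_eq_of_ne hne, sub_zero] at ek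
    by_cases hkn : k = n
    · exact hkl (hkn.trans hln.symm)
    · rw [Pi.single_eq_of_ne hkn] at ek
      exact h1 (neg_eq_zero.1 ek)
  have key0 : ∀ k l : ι, k ≠ l → (Pi.single l 1 - Pi.single k 1 : ι → ZMod Q) ≠ 0 := by
    intro k l hkl h
    have el := congrFun h l
    simp only [Pi.sub_apply, Pi.single_eq_same, Pi.single_eq_of_ne hkl.symm, sub_zero,
      Pi.zero_apply] at el
    exact h1 el
  rintro (_ | ⟨⟨k, l⟩, hp⟩) (_ | ⟨⟨m, n⟩, hp'⟩) h
  · rfl
  · simp only [Finset.mem_offDiag, Finset.mem_univ, true_and] at hp'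
    exact absurd h.symm (key0 m n hp')
  · simp only [Finset.mem_offDiag, Finset.mem_univ, true_and] at hp
    exact absurd h (key0 k l hp)
  · simp only [Finset.mem_offDiag, Finset.mem_univ, true_and] at hp hp'
    obtain ⟨rfl, rfl⟩ := key k l hp m n hp' h
    rfl

theorem sum_split {B : Type*} [AddCommMonoid B] (F : ι → ι → B) :
    ∑ k, ∑ l, F k l = ∑ k, F k k +
      ∑ p : ↥(Finset.univ.offDiag : Finset (ι × ι)), F p.1.1 p.1.2 := by
  rw [Finset.sum_coe_sort (Finset.univ.offDiag : Finset (ι × ι)) (fun p => F p.1 p.2)]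
  have h1 : (Finset.univ.offDiag : Finset (ι × ι)) =
      (Finset.univ ×ˢ Finset.univ).filter (fun a => a.1 ≠ a.2) := by
    ext x; simp
  rw [h1, Finset.sum_filter, Finset.sum_product, ← Finset.sum_add_distrib]
  refine Finset.sum_congr rfl fun k _ => ?_
  have h2 : F k k = ∑ l, if k = l then F k l else 0 := by simp
  rw [h2, ← Finset.sum_add_distrib]
  refine Finset.sum_congr rfl fun l _ => ?_
  by_cases h : k = l <;> simp [h]

/-- the coefficients in `Y* Y` -/
noncomputable def xco (a : ι → A) (v : S → A) (σ : ι → S) :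
    Option ↥(Finset.univ.offDiag : Finset (ι × ι)) → A
  | none => ∑ k, star (a k * v (σ k)) * (a k * v (σ k))
  | some p => star (a p.1.1 * v (σ p.1.1)) * (a p.1.2 * v (σ p.1.2))

/-- expansion of `Y* Y` -/
theorem Yrow_sq {Q : ℕ} [NeZero Q] (a : ι → A) (v : S → A) (d : ι → ZMod Q) (σ : ι → S) :
    star (Yrow a v d σ) * Yrow a v d σ = ∑ j, phs (exq Q j) d • xco a v σ j := by
  unfold Yrow
  rw [star_sum, Finset.sum_mul_sum, Fintype.sum_option]
  have h1 : ∀ k l : ι, star ((ZMod.stdAddChar (d k) : ℂ) • (a k * v (σ k))) *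
      ((ZMod.stdAddChar (d l) : ℂ) • (a l * v (σ l))) =
      phs (Pi.single l 1 - Pi.single k 1) d • (star (a k * v (σ k)) * (a l * v (σ l))) := by
    intro k l
    rw [star_smul, smul_mul_smul_comm, ← phs_single, ← phs_single, phs_star_mul]
  simp only [h1]
  rw [sum_split]
  congr 1
  simp only [exq, xco, sub_self, phs_zero, one_smul]

/-- the terms of the fourth moment -/
theorem tr_conj (τ : A →ₗ[ℂ] ℂ) (htr : ∀ a b, τ (a * b) = τ (b * a)) {u v : A}
    (hu : u * star u = 1) (hv : v * star v = 1) (a b : A) :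
    τ (star (star (a * u) * (b * v)) * (star (a * u) * (b * v))) =
      τ (star (star a * b) * (star a * b)) := by
  have e1 : star (star (a * u) * (b * v)) * (star (a * u) * (b * v)) =
      star v * (star b * a * (u * star u) * star a * b * v) := by
    simp only [star_mul, star_star, mul_assoc]
  rw [e1, htr, hu]
  have e2 : star b * a * 1 * star a * b * v * star v =
      star b * a * star a * b * (v * star v) := by
    simp only [mul_one, mul_assoc]
  rw [e2, hv, mul_one]
  simp only [star_mul, star_star, mul_assoc]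

/-- the sum of all terms -/
theorem sum_tr (τ : A →ₗ[ℂ] ℂ) (a : ι → A) (ha : ∑ k, a k * star (a k) = 1) :
    ∑ l, ∑ k, τ (star (star (a k) * a l) * (star (a k) * a l)) =
      τ (∑ k, star (a k) * a k) := by
  rw [map_sum]
  refine Finset.sum_congr rfl fun l _ => ?_
  rw [← map_sum]
  congr 1
  have : ∀ k, star (star (a k) * a l) * (star (a k) * a l) =
      star (a l) * (a k * star (a k)) * a l := by
    intro k
    simp only [star_mul, star_star, mul_assoc]
  rw [Finset.sum_congr rfl fun k _ => this k, ← Finset.sum_mul, ← Finset.mul_sum, ha, mul_one]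

/-- averages of products of independent letters -/
theorem avg_indep (τ : A →ₗ[ℂ] ℂ) (w w' : S → A) {k l : ι} (hkl : k ≠ l) :
    ∑ σ : ι → S, τ (star (w (σ k)) * w' (σ l)) = (Fintype.card (ι → S) : ℂ) *
      τ (star (((Fintype.card S : ℂ)⁻¹) • ∑ s, w s) * (((Fintype.card S : ℂ)⁻¹) • ∑ s, w' s)) := by
  have hN : (Fintype.card S : ℂ) ≠ 0 := by
    exact_mod_cast Fintype.card_ne_zero
  set N : ℂ := (Fintype.card S : ℂ) with hNdef
  have hNs : star N = N := by
    rw [hNdef]; simp
  have step1 : ∑ σ : ι → S, τ (star (w (σ k)) * w' (σ l)) =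
      ∑ σ : ι → S, τ (star (N⁻¹ • ∑ s, w s) * w' (σ l)) := by
    have h1 := sum_update k (fun σ : ι → S => τ (star (w (σ k)) * w' (σ l)))
    simp only [Function.update_self, Function.update_of_ne hkl.symm] at h1
    have h2 : ∀ σ : ι → S, ∑ s, τ (star (w s) * w' (σ l)) =
        N * τ (star (N⁻¹ • ∑ s, w s) * w' (σ l)) := by
      intro σ
      rw [star_smul, smul_mul_assoc, map_smul, star_inv₀, hNs, smul_eq_mul,
        mul_inv_cancel_left₀ hN, star_sum, Finset.sum_mul, map_sum]
    rw [Finset.sum_congr rfl fun σ _ => h2 σ, ← Finset.mul_sum, smul_eq_mul] at h1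
    exact (mul_left_cancel₀ hN h1).symm
  have step2 : ∑ σ : ι → S, τ (star (N⁻¹ • ∑ s, w s) * w' (σ l)) =
      ∑ _σ : ι → S, τ (star (N⁻¹ • ∑ s, w s) * (N⁻¹ • ∑ s, w' s)) := by
    have h1 := sum_update l (fun σ : ι → S => τ (star (N⁻¹ • ∑ s, w s) * w' (σ l)))
    simp only [Function.update_self] at h1
    have h2 : ∀ _σ : ι → S, ∑ s, τ (star (N⁻¹ • ∑ s, w s) * w' s) =
        N * τ (star (N⁻¹ • ∑ s, w s) * (N⁻¹ • ∑ s, w' s)) := by
      intro σ
      rw [mul_smul_comm, map_smul, smul_eq_mul, mul_inv_cancel_left₀ hN, Finset.mul_sum, map_sum]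
    rw [Finset.sum_congr rfl fun σ _ => h2 σ, ← Finset.mul_sum, smul_eq_mul] at h1
    exact (mul_left_cancel₀ hN h1).symm
  rw [step1, step2, Finset.sum_const, Finset.card_univ, nsmul_eq_mul]

/-- **FL2: fourth moment.** -/
theorem fourth_moment {Q : ℕ} [NeZero Q] (hQ : 3 ≤ Q) (τ : A →ₗ[ℂ] ℂ)
    (htr : ∀ a b, τ (a * b) = τ (b * a)) (hpos : ∀ a, 0 ≤ (τ (star a * a)).re)
    (a : ι → A) (ha : ∑ k, a k * star (a k) = 1) (v : S → A) (hv : ∀ s, v s * star (v s) = 1) :
    ∑ d : ι → ZMod Q, ∑ σ : ι → S,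
      (τ (star (star (Yrow a v d σ) * Yrow a v d σ) *
        (star (Yrow a v d σ) * Yrow a v d σ))).re ≤
      (Fintype.card (ι → ZMod Q) : ℝ) * (Fintype.card (ι → S) : ℝ) *
        ((τ (star (Psi v (∑ k, star (a k) * a k)) * Psi v (∑ k, star (a k) * a k))).re +
          (τ (∑ k, star (a k) * a k)).re) := by
  set q : A := ∑ k, star (a k) * a k with hq
  -- average over the phases
  have h1 : ∀ σ : ι → S, ∑ d : ι → ZMod Q,
      τ (star (star (Yrow a v d σ) * Yrow a v d σ) * (star (Yrow a v d σ) * Yrow a v d σ)) =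
      (Fintype.card (ι → ZMod Q) : ℂ) * ∑ j, τ (star (xco a v σ j) * xco a v σ j) := by
    intro σ
    rw [← phs_parseval τ (exq Q) (exq_injective hQ) (xco a v σ)]
    refine Finset.sum_congr rfl fun d _ => ?_
    rw [Yrow_sq]
  -- average over the letters of the diagonal part
  let w : ι → S → A := fun k s => star (a k * v s) * (a k * v s)
  let m : ι → A := fun k => ((Fintype.card S : ℂ)⁻¹) • ∑ s, w k s
  have hm : ∑ k, m k = Psi v q := by
    simp only [m, w, Psi, ← Finset.smul_sum]
    rw [Finset.sum_comm]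
    congr 1
    refine Finset.sum_congr rfl fun s _ => ?_
    rw [hq, Finset.mul_sum, Finset.sum_mul]
    refine Finset.sum_congr rfl fun k _ => ?_
    simp only [star_mul, mul_assoc]
  have hdiag : ∀ (k : ι) (s : S), τ (star (w k s) * w k s) =
      τ (star (star (a k) * a k) * (star (a k) * a k)) := fun k s =>
    tr_conj τ htr (hv s) (hv s) (a k) (a k)
  have h2 : ∑ σ : ι → S, τ (star (xco a v σ none) * xco a v σ none) =
      (Fintype.card (ι → S) : ℂ) * (τ (star (Psi v q) * Psi v q) - ∑ k, τ (star (m k) * m k) +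
        ∑ k, τ (star (star (a k) * a k) * (star (a k) * a k))) := by
    have e1 : ∀ σ : ι → S, τ (star (xco a v σ none) * xco a v σ none) =
        ∑ k, τ (star (star (a k) * a k) * (star (a k) * a k)) +
        ∑ p : ↥(Finset.univ.offDiag : Finset (ι × ι)),
          τ (star (w p.1.1 (σ p.1.1)) * w p.1.2 (σ p.1.2)) := by
      intro σ
      simp only [xco]
      rw [star_sum, Finset.sum_mul_sum, map_sum]
      simp only [map_sum]
      rw [sum_split]
      congr 1
      refine Finset.sum_congr rfl fun k _ => hdiag k (σ k)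
    rw [Finset.sum_congr rfl fun σ _ => e1 σ, Finset.sum_add_distrib]
    have e2 : ∀ p : ↥(Finset.univ.offDiag : Finset (ι × ι)),
        ∑ σ : ι → S, τ (star (w p.1.1 (σ p.1.1)) * w p.1.2 (σ p.1.2)) =
          (Fintype.card (ι → S) : ℂ) * τ (star (m p.1.1) * m p.1.2) := by
      intro p
      have hp : p.1.1 ≠ p.1.2 := (Finset.mem_offDiag.1 p.2).2.2
      exact avg_indep τ (w p.1.1) (w p.1.2) hp
    have e4 : ∑ σ : ι → S, ∑ p : ↥(Finset.univ.offDiag : Finset (ι × ι)),
        τ (star (w p.1.1 (σ p.1.1)) * w p.1.2 (σ p.1.2)) =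
        ∑ p : ↥(Finset.univ.offDiag : Finset (ι × ι)), (Fintype.card (ι → S) : ℂ) *
          τ (star (m p.1.1) * m p.1.2) := by
      rw [Finset.sum_comm]
      exact Finset.sum_congr rfl fun p _ => e2 p
    rw [e4, ← Finset.mul_sum, Finset.sum_const, Finset.card_univ, nsmul_eq_mul]
    have e3 : τ (star (Psi v q) * Psi v q) = ∑ k, τ (star (m k) * m k) +
        ∑ p : ↥(Finset.univ.offDiag : Finset (ι × ι)), τ (star (m p.1.1) * m p.1.2) := by
      rw [← hm, star_sum, Finset.sum_mul_sum, map_sum]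
      simp only [map_sum]
      rw [sum_split]
    rw [e3]
    ring
  have h3 : ∀ (σ : ι → S) (p : ↥(Finset.univ.offDiag : Finset (ι × ι))),
      τ (star (xco a v σ (some p)) * xco a v σ (some p)) =
        τ (star (star (a p.1.1) * a p.1.2) * (star (a p.1.1) * a p.1.2)) := by
    intro σ p
    exact tr_conj τ htr (hv _) (hv _) _ _
  have h4 : τ q = ∑ k, τ (star (star (a k) * a k) * (star (a k) * a k)) +
      ∑ p : ↥(Finset.univ.offDiag : Finset (ι × ι)),
        τ (star (star (a p.1.1) * a p.1.2) * (star (a p.1.1) * a p.1.2)) := by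
    rw [hq, ← sum_tr τ a ha, Finset.sum_comm, sum_split]
  have h5 : ∑ σ : ι → S, ∑ d : ι → ZMod Q,
      τ (star (star (Yrow a v d σ) * Yrow a v d σ) * (star (Yrow a v d σ) * Yrow a v d σ)) =
      (Fintype.card (ι → ZMod Q) : ℂ) * ((Fintype.card (ι → S) : ℂ) *
        (τ (star (Psi v q) * Psi v q) - ∑ k, τ (star (m k) * m k) + τ q)) := by
    rw [Finset.sum_congr rfl fun σ _ => h1 σ, ← Finset.mul_sum]
    congr 1
    simp only [Fintype.sum_option]
    rw [Finset.sum_add_distrib, h2]
    simp only [h3]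
    rw [Finset.sum_const, Finset.card_univ, nsmul_eq_mul, h4]
    ring
  have h6 : ∑ d : ι → ZMod Q, ∑ σ : ι → S,
      (τ (star (star (Yrow a v d σ) * Yrow a v d σ) *
        (star (Yrow a v d σ) * Yrow a v d σ))).re =
      (∑ σ : ι → S, ∑ d : ι → ZMod Q,
      τ (star (star (Yrow a v d σ) * Yrow a v d σ) * (star (Yrow a v d σ) * Yrow a v d σ))).re := by
    rw [Finset.sum_comm]
    simp only [Complex.re_sum]
  rw [h6, h5]
  have h7 : ((Fintype.card (ι → ZMod Q) : ℂ) * ((Fintype.card (ι → S) : ℂ) *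
        (τ (star (Psi v q) * Psi v q) - ∑ k, τ (star (m k) * m k) + τ q))).re =
      (Fintype.card (ι → ZMod Q) : ℝ) * ((Fintype.card (ι → S) : ℝ) *
        ((τ (star (Psi v q) * Psi v q)).re - (∑ k, τ (star (m k) * m k)).re + (τ q).re)) := by
    rw [← Complex.ofReal_natCast, ← Complex.ofReal_natCast, Complex.re_ofReal_mul,
      Complex.re_ofReal_mul, Complex.add_re, Complex.sub_re]
  rw [h7, mul_assoc]
  have h8 : 0 ≤ (∑ k, τ (star (m k) * m k)).re := by
    rw [Complex.re_sum]
    exact Finset.sum_nonneg fun k _ => hpos _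
  have h9 : (0 : ℝ) ≤ Fintype.card (ι → S) := by positivity
  have h10 : (0 : ℝ) ≤ Fintype.card (ι → ZMod Q) := by positivity
  refine mul_le_mul_of_nonneg_left (mul_le_mul_of_nonneg_left ?_ h9) h10
  linarith

end letters

end Crest.Agent.R121.FL2c
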