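import Mathlib

/-!
# Row 121, module FL, lemma FL3 of ideas 554/558 (helper73): the cut

`Y = Y₁ + Y₂`, `Y₁ = Y h(Y⋆Y)`, `h(t) = min 1 (C / √t)`.
-/

set_option autoImplicit false

namespace Crest.Agent.R121.FL3

open scoped BigOperators NNReal

variable {A : Type*} [CStarAlgebra A]

/-- `h(t) = C / max C √t` -/
noncomputable def hc (C : ℝ) (t : ℝ) : ℝ := C / max C (Real.sqrt t)

theorem hc_cont {C : ℝ} (hC : 0 < C) : Continuous (hc C) := by
  unfold hc
  refine Continuous.div continuous_const (by fun_prop) fun t => ?_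
  exact (lt_of_lt_of_le hC (le_max_left _ _)).ne'

theorem hc_nonneg {C : ℝ} (hC : 0 < C) (t : ℝ) : 0 ≤ hc C t := by
  unfold hc
  exact div_nonneg hC.le (le_trans hC.le (le_max_left _ _))

theorem hc_le_one {C : ℝ} (hC : 0 < C) (t : ℝ) : hc C t ≤ 1 := by
  unfold hc
  rw [div_le_one (lt_of_lt_of_le hC (le_max_left _ _))]
  exact le_max_left _ _

theorem hc_bound {C : ℝ} (hC : 0 < C) {t : ℝ} (ht : 0 ≤ t) : hc C t * t * hc C t ≤ C ^ 2 := by
  unfold hc
  have h0 : 0 < max C (Real.sqrt t) := lt_of_lt_of_le hC (le_max_left _ _)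
  have h1 : t ≤ (max C (Real.sqrt t)) ^ 2 := by
    calc t = (Real.sqrt t) ^ 2 := (Real.sq_sqrt ht).symm
      _ ≤ _ := pow_le_pow_left₀ (Real.sqrt_nonneg _) (le_max_right _ _) 2
  have h2 : C / max C (Real.sqrt t) * t * (C / max C (Real.sqrt t))
      = C ^ 2 * (t / (max C (Real.sqrt t)) ^ 2) := by
    field_simp
  rw [h2]
  have h3 : t / (max C (Real.sqrt t)) ^ 2 ≤ 1 := (div_le_one (by positivity)).2 h1
  nlinarith [sq_nonneg C]

theorem hc_tail {C : ℝ} (hC : 0 < C) {t : ℝ} (ht : 0 ≤ t) :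
    (1 - hc C t) * t * (1 - hc C t) ≤ t ^ 2 / C ^ 2 := by
  rcases le_total (Real.sqrt t) C with h | h
  · have : hc C t = 1 := by
      unfold hc
      rw [max_eq_left h, div_self hC.ne']
    rw [this]
    have : 0 ≤ t ^ 2 / C ^ 2 := by positivity
    simpa using this
  · have h1 : C ^ 2 ≤ t := by
      calc C ^ 2 ≤ (Real.sqrt t) ^ 2 := pow_le_pow_left₀ hC.le h 2
        _ = t := Real.sq_sqrt ht
    have h2 : (1 - hc C t) * t * (1 - hc C t) ≤ t := by
      have a := hc_nonneg hC t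
      have b := hc_le_one hC t
      have : (1 - hc C t) * (1 - hc C t) ≤ 1 := by nlinarith
      nlinarith
    refine h2.trans ?_
    rw [le_div_iff₀ (by positivity)]
    nlinarith

theorem hc_tail' {C : ℝ} (hC : 0 < C) {t : ℝ} (ht : 0 ≤ t) :
    (1 - hc C t) * t * (1 - hc C t) ≤ t := by
  have a := hc_nonneg hC t
  have b := hc_le_one hC t
  have : (1 - hc C t) * (1 - hc C t) ≤ 1 := by nlinarith
  nlinarith

section Ord

variable [PartialOrder A] [StarOrderedRing A]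

/-- **FL3, operator form** -/
theorem cut_ord (Y : A) {C : ℝ} (hC : 0 < C) :
    ∃ k : A, IsSelfAdjoint k ∧ (∀ g, g * (star Y * Y) = (star Y * Y) * g → g * k = k * g) ∧
      ‖Y * k‖ ≤ C ∧
      star (Y * (1 - k)) * (Y * (1 - k)) ≤ ((1 / C ^ 2 : ℝ)) • (star Y * Y) ^ 2 ∧
      star (Y * (1 - k)) * (Y * (1 - k)) ≤ star Y * Y ∧
      (Y * (1 - k)) * star (Y * (1 - k)) ≤ Y * star Y := by
  set a : A := star Y * Y with ha
  have hsa : IsSelfAdjoint a := IsSelfAdjoint.star_mul_self Y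
  have hspec : ∀ t ∈ spectrum ℝ a, 0 ≤ t := fun t ht =>
    spectrum_star_mul_self_nonneg t ht
  have hcc : Continuous (hc C) := hc_cont hC
  have hksa : IsSelfAdjoint (cfc (hc C) a) := cfc_predicate _ _
  have e1 : (1 : A) - cfc (hc C) a = cfc (fun t => 1 - hc C t) a := by
    rw [cfc_sub (fun _ => (1 : ℝ)) (hc C) a, cfc_const_one ℝ a]
  have e2 : cfc (hc C) a * a * cfc (hc C) a = cfc (fun t => hc C t * t * hc C t) a := by
    conv_lhs => rw [show a = cfc (fun t : ℝ => t) a from (cfc_id' ℝ a).symm]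
    rw [cfc_id' ℝ a]
    rw [cfc_mul (fun t => hc C t * t) (hc C) a, cfc_mul (hc C) (fun t => t) a, cfc_id' ℝ a]
  have e3 : (1 - cfc (hc C) a) * a * (1 - cfc (hc C) a)
      = cfc (fun t => (1 - hc C t) * t * (1 - hc C t)) a := by
    rw [e1]
    rw [cfc_mul (fun t => (1 - hc C t) * t) (fun t => 1 - hc C t) a,
      cfc_mul (fun t => 1 - hc C t) (fun t => t) a, cfc_id' ℝ a]
  refine ⟨cfc (hc C) a, hksa, ?_, ?_, ?_, ?_, ?_⟩
  · intro g hg
    have : Commute a g := by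
      rw [Commute, SemiconjBy, ← hg]
    exact ((this.cfc_real (hc C)).symm).eq
  · have h1 : ‖Y * cfc (hc C) a‖ ^ 2 ≤ C ^ 2 := by
      rw [sq, ← CStarRing.norm_star_mul_self]
      have h2 : star (Y * cfc (hc C) a) * (Y * cfc (hc C) a) = cfc (hc C) a * a * cfc (hc C) a := by
        rw [star_mul, hksa.star_eq, ha]; noncomm_ring
      rw [h2, e2]
      refine norm_cfc_le (by positivity) fun t ht => ?_
      rw [Real.norm_of_nonneg (mul_nonneg (mul_nonneg (hc_nonneg hC t) (hspec t ht)) (hc_nonneg hC t))]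
      exact hc_bound hC (hspec t ht)
    exact le_of_sq_le_sq h1 hC.le
  · have h2 : star (Y * (1 - cfc (hc C) a)) * (Y * (1 - cfc (hc C) a))
        = (1 - cfc (hc C) a) * a * (1 - cfc (hc C) a) := by
      rw [star_mul, star_sub, star_one, hksa.star_eq, ha]; noncomm_ring
    rw [h2, e3]
    have h3 : (1 / C ^ 2 : ℝ) • a ^ 2 = cfc (fun t : ℝ => (1 / C ^ 2 : ℝ) • t ^ 2) a := by
      rw [cfc_smul (1 / C ^ 2 : ℝ) (fun t : ℝ => t ^ 2) a, cfc_pow_id (R := ℝ) a 2]
    rw [h3]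
    refine cfc_mono (fun t ht => ?_)
    have := hc_tail hC (hspec t ht)
    simp only [smul_eq_mul]
    calc _ ≤ t ^ 2 / C ^ 2 := this
      _ = _ := by ring
  · have h2 : star (Y * (1 - cfc (hc C) a)) * (Y * (1 - cfc (hc C) a))
        = (1 - cfc (hc C) a) * a * (1 - cfc (hc C) a) := by
      rw [star_mul, star_sub, star_one, hksa.star_eq, ha]; noncomm_ring
    rw [h2, e3]
    conv_rhs => rw [show a = cfc (fun t : ℝ => t) a from (cfc_id' ℝ a).symm]
    exact cfc_mono (fun t ht => hc_tail' hC (hspec t ht))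
  · have h2 : (Y * (1 - cfc (hc C) a)) * star (Y * (1 - cfc (hc C) a))
        = Y * ((1 - cfc (hc C) a) * (1 - cfc (hc C) a)) * star Y := by
      rw [star_mul, star_sub, star_one, hksa.star_eq]; noncomm_ring
    have h4 : (1 - cfc (hc C) a) * (1 - cfc (hc C) a) ≤ 1 := by
      rw [e1, ← cfc_mul (fun t => 1 - hc C t) (fun t => 1 - hc C t) a]
      rw [← cfc_const_one ℝ a]
      refine cfc_mono fun t _ => ?_
      have h5 := hc_nonneg hC t
      have h6 := hc_le_one hC t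
      nlinarith
    rw [h2]
    calc _ ≤ Y * 1 * star Y := star_right_conjugate_le_conjugate h4 Y
      _ = _ := by rw [mul_one]

theorem re_mono (φ : A →ₗ[ℂ] ℂ) (hφ : ∀ a, 0 ≤ (φ (star a * a)).re) {x y : A} (h : x ≤ y) :
    (φ x).re ≤ (φ y).re := by
  obtain ⟨b, hb⟩ := CStarAlgebra.nonneg_iff_eq_star_mul_self.1 (sub_nonneg.2 h)
  have := hφ b
  rw [← hb, map_sub, Complex.sub_re] at this
  linarith

end Ord

/-- **FL3**: the cut of an element `Y` at height `C` -/
theorem cut (Y : A) {C : ℝ} (hC : 0 < C) (s : Set A)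
    (hs : ∀ g ∈ s, g * Y = Y * g ∧ star g * Y = Y * star g) :
    ∃ Y₁ Y₂ : A, Y = Y₁ + Y₂ ∧ ‖Y₁‖ ≤ C ∧
      (∀ g ∈ s, g * Y₁ = Y₁ * g ∧ star g * Y₁ = Y₁ * star g) ∧
      (∀ g ∈ s, g * Y₂ = Y₂ * g ∧ star g * Y₂ = Y₂ * star g) ∧
      ∀ φ : A →ₗ[ℂ] ℂ, (∀ a, 0 ≤ (φ (star a * a)).re) →
        (φ (star Y₂ * Y₂)).re ≤ (φ ((star Y * Y) ^ 2)).re / C ^ 2 ∧
        (φ (star Y₂ * Y₂)).re ≤ (φ (star Y * Y)).re ∧
        (φ (Y₂ * star Y₂)).re ≤ (φ (Y * star Y)).re := by
  let _ := CStarAlgebra.spectralOrder A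
  let _ := CStarAlgebra.spectralOrderedRing A
  obtain ⟨k, hk, hcomm, h1, h2, h3, h4⟩ := cut_ord Y hC
  have hgk : ∀ g ∈ s, g * k = k * g ∧ star g * k = k * star g := by
    intro g hg
    obtain ⟨a1, a2⟩ := hs g hg
    have b1 : g * star Y = star Y * g := by
      have := congrArg star a2
      simpa [star_mul] using this.symm
    have b2 : star g * star Y = star Y * star g := by
      have := congrArg star a1
      simpa [star_mul] using this.symm
    constructor
    · apply hcomm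
      rw [← mul_assoc, b1, mul_assoc, a1, mul_assoc]
    · apply hcomm
      rw [← mul_assoc, b2, mul_assoc, a2, mul_assoc]
  refine ⟨Y * k, Y * (1 - k), by noncomm_ring, h1, ?_, ?_, ?_⟩
  · intro g hg
    obtain ⟨a1, a2⟩ := hs g hg
    obtain ⟨c1, c2⟩ := hgk g hg
    constructor
    · rw [← mul_assoc, a1, mul_assoc, c1, mul_assoc]
    · rw [← mul_assoc, a2, mul_assoc, c2, mul_assoc]
  · intro g hg
    obtain ⟨a1, a2⟩ := hs g hg
    obtain ⟨c1, c2⟩ := hgk g hg
    constructor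
    · rw [← mul_assoc, a1, mul_assoc, mul_sub, c1, mul_assoc, sub_mul, mul_one, one_mul]
    · rw [← mul_assoc, a2, mul_assoc, mul_sub, c2, mul_assoc, sub_mul, mul_one, one_mul]
  · intro φ hφ
    refine ⟨?_, re_mono φ hφ h3, re_mono φ hφ h4⟩
    have := re_mono φ hφ h2
    refine this.trans (le_of_eq ?_)
    rw [← Complex.coe_smul, map_smul, smul_eq_mul, Complex.re_ofReal_mul]
    ring

end Crest.Agent.R121.FL3
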