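import Crest.Agent.R121.FLDefs
import Crest.Agent.R124.GTC

/-!
# Row 121, piece FL4: error of the cut (little Grothendieck)

`|T y|_2² = sq2 τ (T y)`.  View `T` as a map into the GNS space of `τ` (Mathlib
`PositiveLinearMap.GNS`, or any Hilbert space with `‖ι a‖² = sq2 τ a`), `R124.little_groth_cs` gives
positive `φ, ψ` with `φ 1, ψ 1 ≤ B²`, `|T y|_2² ≤ 2 φ(y*y) + 2 ψ(yy*)` and: `b ≥ 0`,
`(∀ v unitary, |T (v b)|_2 ≤ m) → φ b ≤ m B` (same for `ψ` with `b v`).  For `0 ≤ b ≤ 1`, `τ b ≤ δ`: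
`‖v b‖ ≤ 1`, `τ((vb)*(vb)) = τ(b²) ≤ τ(b) ≤ δ`, so `φ b ≤ ε B`, `ψ b ≤ ε B`.
Use `b = (1/|J|) ∑ x* Y_j* Y_j x` and `b = (1/|J|) ∑ Y_j x x* Y_j*` (both `≤ 1`, trace `≤ δ`).
Second part: `τ(T(x)* Y_j* Y_j T(x)) ≤ ‖T x‖² τ(Y_j* Y_j)`.
-/

set_option autoImplicit false

namespace Crest.Agent.R121

open Finset

theorem cut_err {A : Type*} [CStarAlgebra A] [PartialOrder A] [StarOrderedRing A]
    (τ : A →ₗ[ℂ] ℂ) (hτ : TrA τ) (hτn : ∀ a, ‖τ a‖ ≤ ‖a‖) (T : A →ₗ[ℂ] A) {B ε δ : ℝ} (hB : 0 ≤ B)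
    (hε : 0 < ε) (hδ : 0 < δ) (hT : ∀ y, ‖T y‖ ≤ B * ‖y‖)
    (hcont : ∀ y, ‖y‖ ≤ 1 → sq2 τ y ≤ δ → sq2 τ (T y) ≤ ε ^ 2)
    {J : Type*} [Fintype J] [Nonempty J] (Y : J → A)
    (h1 : ∑ j, star (Y j) * Y j ≤ (Fintype.card J : ℝ) • (1 : A))
    (h2 : ∑ j, Y j * star (Y j) ≤ (Fintype.card J : ℝ) • (1 : A))
    (h3 : ∑ j, sq2 τ (Y j) ≤ (Fintype.card J : ℝ) * δ) (x : A) (hx : ‖x‖ ≤ 1) :
    ∑ j, sq2 τ (T (Y j * x) - Y j * T x) ≤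
      (Fintype.card J : ℝ) * (8 * ε * B + 2 * B ^ 2 * δ) := by
  sorry

end Crest.Agent.R121
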