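import Crest.Agent.R121.FL0b

/-!
# Row 121, piece FL5: choice of the diagonal letters

`z' = dg y1 * z * dg y2` is flat (and `star z'` too), for all `z` in a finite set of unitaries.
-/

set_option autoImplicit false

namespace Crest.Agent.R121

open Finset

variable {A : Type*} [Ring A] [StarRing A] [Algebra ℂ A] [StarModule ℂ A] {K : ℕ}
  {e : Fin K → Fin K → A}

theorem exists_letter (he : MU1 e) {τ : A →ₗ[ℂ] ℂ} (hτ : TrA τ) {Q : ℕ} [NeZero Q]
    (hQ : 3 ≤ Q) (F : Finset A) (hF : ∀ z ∈ F, z ∈ unitary A) {n : ℕ} (hn : 0 < n) (v : Fin n → A)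
    (hv : ∀ s, v s * star (v s) = 1)
    (hq : ∀ z ∈ F, ∀ i, sq2 τ (Psi v (∑ k, star (mc e z i k) * mc e z i k)) ≤ 2) :
    ∃ σ : Fin K → Fin n, ∀ z ∈ F,
      ∑ i : Fin K, ∑ d : Fin K → ZMod Q,
        sq2 τ (star (Yrow (fun k => mc e z i k) v d σ) * Yrow (fun k => mc e z i k) v d σ) ≤
      (K : ℝ) * (Fintype.card (Fin K → ZMod Q) : ℝ) * (3 * F.card) := by
  classical
  have : Nonempty (Fin n) := ⟨⟨0, hn⟩⟩
  have hsq : ∀ a : A, 0 ≤ sq2 τ a := fun a => hτ.pos a
  let G : A → (Fin K → Fin n) → ℝ := fun z σ => ∑ i : Fin K, ∑ d : Fin K → ZMod Q,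
    sq2 τ (star (Yrow (fun k => mc e z i k) v d σ) * Yrow (fun k => mc e z i k) v d σ)
  have hG0 : ∀ z σ, 0 ≤ G z σ := fun z σ =>
    Finset.sum_nonneg fun i _ => Finset.sum_nonneg fun d _ => hsq _
  have hG : ∀ z ∈ F, ∑ σ, G z σ ≤ (Fintype.card (Fin K → Fin n) : ℝ) *
      ((K : ℝ) * (Fintype.card (Fin K → ZMod Q) : ℝ) * 3) := by
    intro z hz
    have h1 : ∑ σ, G z σ = ∑ i : Fin K, ∑ d : Fin K → ZMod Q, ∑ σ : Fin K → Fin n,
        sq2 τ (star (Yrow (fun k => mc e z i k) v d σ) *
          Yrow (fun k => mc e z i k) v d σ) := by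
      simp only [G]
      rw [Finset.sum_comm]
      refine Finset.sum_congr rfl fun i _ => ?_
      rw [Finset.sum_comm]
    rw [h1]
    have h2 : ∀ i : Fin K, ∑ d : Fin K → ZMod Q, ∑ σ : Fin K → Fin n,
        sq2 τ (star (Yrow (fun k => mc e z i k) v d σ) *
          Yrow (fun k => mc e z i k) v d σ) ≤
        (Fintype.card (Fin K → ZMod Q) : ℝ) * (Fintype.card (Fin K → Fin n) : ℝ) * 3 := by
      intro i
      have h3 := fourth_moment hQ τ hτ.tr hτ.pos (fun k => mc e z i k)
        (row_one he (hF z hz) i) v hv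
      have h4 : (τ (∑ k, star (mc e z i k) * mc e z i k)).re = 1 := by
        have := row_tau he hτ (hF z hz) i 1 (by intro a; simp)
        rw [mul_one, hτ.one] at this
        rw [this]; simp
      have h5 := hq z hz i
      refine le_trans h3 ?_
      refine mul_le_mul_of_nonneg_left ?_ (by positivity)
      rw [h4]
      have h6 : (τ (star (Psi v (∑ k, star (mc e z i k) * mc e z i k)) *
        Psi v (∑ k, star (mc e z i k) * mc e z i k))).re ≤ 2 := h5
      linarith
    refine (Finset.sum_le_sum fun i _ => h2 i).trans ?_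
    rw [Finset.sum_const, Finset.card_univ, Fintype.card_fin, nsmul_eq_mul]
    apply le_of_eq
    ring
  have hsum : ∑ σ : Fin K → Fin n, ∑ z ∈ F, G z σ ≤
      ∑ _σ : Fin K → Fin n, ((K : ℝ) * (Fintype.card (Fin K → ZMod Q) : ℝ) * (3 * F.card)) := by
    rw [Finset.sum_comm]
    refine (Finset.sum_le_sum fun z hz => hG z hz).trans ?_
    rw [Finset.sum_const, Finset.sum_const, Finset.card_univ, nsmul_eq_mul, nsmul_eq_mul]
    apply le_of_eq
    ring
  obtain ⟨σ, -, hσ⟩ := Finset.exists_le_of_sum_le Finset.univ_nonempty hsum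
  refine ⟨σ, fun z hz => ?_⟩
  exact (Finset.single_le_sum (f := fun z => G z σ) (fun z _ => hG0 z σ) hz).trans hσ

theorem exists_real (he : MU1 e) {τ : A →ₗ[ℂ] ℂ} (hτ : TrA τ) (hD : DixHyp τ)
    {Q : ℕ} [NeZero Q] (hQ : 3 ≤ Q) (F : Finset A) (hF : ∀ z ∈ F, z ∈ unitary A) :
    ∃ y1 y2 : Fin K → A, (∀ i, y1 i ∈ unitary A ∧ Cm e (y1 i)) ∧
      (∀ i, y2 i ∈ unitary A ∧ Cm e (y2 i)) ∧
      ∀ z ∈ F, Flat τ Q e (dg e y1 * z * dg e y2) (3 * F.card) ∧
        Flat τ Q e (star (dg e y1 * z * dg e y2)) (3 * F.card) := by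
  classical
  -- the two finite sets
  have hcent : ∀ z ∈ unitary A, ∀ i, Cm e (∑ k, star (mc e z i k) * mc e z i k) ∧
      ∀ c : A, (∀ a, a * c = c * a) → τ ((∑ k, star (mc e z i k) * mc e z i k) * c) = τ c := by
    intro z hz i
    refine ⟨?_, fun c hc => row_tau he hτ hz i c hc⟩
    intro p q
    rw [Finset.mul_sum, Finset.sum_mul]
    refine Finset.sum_congr rfl fun k _ => ?_
    have h1 := mc_cm he z i k p q
    have h2 := cm_star he (mc_cm he z i k) p q
    rw [← mul_assoc, h2, mul_assoc, h1, mul_assoc]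
  obtain ⟨n, hn, v, hv, hvq⟩ := hD K e he
    ((F ×ˢ (Finset.univ : Finset (Fin K))).image
      (fun p => ∑ k, star (mc e p.1 p.2 k) * mc e p.1 p.2 k)) (by
    intro q hq
    obtain ⟨p, hp, rfl⟩ := Finset.mem_image.1 hq
    exact hcent p.1 (hF _ (Finset.mem_product.1 hp).1) p.2)
  obtain ⟨n', hn', v', hv', hvq'⟩ := hD K e he
    ((F ×ˢ (Finset.univ : Finset (Fin K))).image
      (fun p => ∑ k, star (mc e (star p.1) p.2 k) * mc e (star p.1) p.2 k)) (by
    intro q hq
    obtain ⟨p, hp, rfl⟩ := Finset.mem_image.1 hq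
    exact hcent (star p.1) (Unitary.star_mem (hF _ (Finset.mem_product.1 hp).1)) p.2)
  obtain ⟨σ, hσ⟩ := exists_letter he hτ hQ F hF hn v
    (fun s => (Unitary.mem_iff.1 (hv s).1).2) (fun z hz i => hvq _
      (Finset.mem_image.2 ⟨(z, i), Finset.mem_product.2 ⟨hz, Finset.mem_univ _⟩, rfl⟩))
  obtain ⟨σ', hσ'⟩ := exists_letter he hτ hQ (F.image star)
    (fun z hz => by
      obtain ⟨w, hw, rfl⟩ := Finset.mem_image.1 hz
      exact Unitary.star_mem (hF w hw)) hn' v'
    (fun s => (Unitary.mem_iff.1 (hv' s).1).2) (fun z hz i => by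
      obtain ⟨w, hw, rfl⟩ := Finset.mem_image.1 hz
      exact hvq' _ (Finset.mem_image.2 ⟨(w, i), Finset.mem_product.2 ⟨hw, Finset.mem_univ _⟩, rfl⟩))
  have hcardle : ((F.image star).card : ℝ) ≤ F.card := by
    exact_mod_cast Finset.card_image_le
  refine ⟨fun k => star (v' (σ' k)), fun k => v (σ k), fun i => ⟨Unitary.star_mem (hv' _).1,
    cm_star he (hv' _).2⟩, fun i => hv _, fun z hz => ⟨?_, ?_⟩⟩
  · -- rows of `z'`
    have key : ∀ (i : Fin K) (d : Fin K → ZMod Q),
        rowS e (dg e (fun k => star (v' (σ' k))) * z * dg e (fun k => v (σ k))) d i =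
          star (v' (σ' i)) * Yrow (fun k => mc e z i k) v d σ := by
      intro i d
      unfold rowS Yrow
      rw [Finset.mul_sum]
      refine Finset.sum_congr rfl fun k _ => ?_
      rw [mc_dg he z _ _ (fun i => cm_star he (hv' _).2) (fun i => (hv _).2), mul_smul_comm,
        mul_assoc]
    unfold Flat
    simp only [key]
    have h1 : ∀ (i : Fin K) (d : Fin K → ZMod Q),
        star (star (v' (σ' i)) * Yrow (fun k => mc e z i k) v d σ) *
          (star (v' (σ' i)) * Yrow (fun k => mc e z i k) v d σ) =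
        star (Yrow (fun k => mc e z i k) v d σ) * Yrow (fun k => mc e z i k) v d σ := by
      intro i d
      rw [star_mul, star_star, mul_assoc, ← mul_assoc (v' (σ' i)),
        (Unitary.mem_iff.1 (hv' _).1).2, one_mul]
    simp only [h1]
    exact hσ z hz
  · -- rows of `star z'`
    have key : ∀ (i : Fin K) (d : Fin K → ZMod Q),
        rowS e (star (dg e (fun k => star (v' (σ' k))) * z * dg e (fun k => v (σ k)))) d i =
          star (v (σ i)) * Yrow (fun k => mc e (star z) i k) v' d σ' := by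
      intro i d
      have h0 : star (dg e (fun k => star (v' (σ' k))) * z * dg e (fun k => v (σ k))) =
          dg e (fun k => star (v (σ k))) * star z * dg e (fun k => v' (σ' k)) := by
        rw [star_mul, star_mul, dg_star he _ (fun i => cm_star he (hv' _).2),
          dg_star he _ (fun i => (hv _).2)]
        simp only [star_star, mul_assoc]
      rw [h0]
      unfold rowS Yrow
      rw [Finset.mul_sum]
      refine Finset.sum_congr rfl fun k _ => ?_
      rw [mc_dg he (star z) _ _ (fun i => cm_star he (hv _).2) (fun i => (hv' _).2), mul_smul_comm,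
        mul_assoc]
    unfold Flat
    simp only [key]
    have h1 : ∀ (i : Fin K) (d : Fin K → ZMod Q),
        star (star (v (σ i)) * Yrow (fun k => mc e (star z) i k) v' d σ') *
          (star (v (σ i)) * Yrow (fun k => mc e (star z) i k) v' d σ') =
        star (Yrow (fun k => mc e (star z) i k) v' d σ') *
          Yrow (fun k => mc e (star z) i k) v' d σ' := by
      intro i d
      rw [star_mul, star_star, mul_assoc, ← mul_assoc (v (σ i)),
        (Unitary.mem_iff.1 (hv _).1).2, one_mul]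
    simp only [h1]
    refine (hσ' (star z) (Finset.mem_image.2 ⟨z, hz, rfl⟩)).trans ?_
    refine mul_le_mul_of_nonneg_left ?_ (by positivity)
    linarith

end Crest.Agent.R121
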