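import Crest.Agent.R121.FL2

/-!
# Row 121, module FL (helper73): flatness.  Definitions.

Abstract setting: `A` a star algebra over `ℂ` (a C*-algebra later), `τ : A →ₗ[ℂ] ℂ` a trace.
`MU1 e`: `K × K` matrix units with sum `1`.  `mc e z i k = ∑ j, e j i * z * e k j` (commutes with all
`e p q`), `z = ∑ i k, e i k * mc e z i k`.  `dg e y = ∑ i, e i i * y i`.
`rowS e z d i = ∑ k, χ(d k) • mc e z i k`: random row.
`Flat τ Q e z C`: the mean of `τ(|Y|^4)` over `i` and the phases is at most `C`.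
-/

set_option autoImplicit false

namespace Crest.Agent.R121

open Finset

/-- matrix units with sum `1` -/
structure MU1 {A : Type*} [Ring A] [StarRing A] {K : ℕ} (e : Fin K → Fin K → A) : Prop where
  mul : ∀ i j k l, e i j * e k l = if j = k then e i l else 0
  star : ∀ i j, star (e i j) = e j i
  sum : ∑ i, e i i = 1

/-- matrix coefficients in the commutant of the matrix units -/
def mc {A : Type*} [Ring A] {K : ℕ} (e : Fin K → Fin K → A) (z : A) (i k : Fin K) : A :=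
  ∑ j, e j i * z * e k j

/-- diagonal elements -/
def dg {A : Type*} [Ring A] {K : ℕ} (e : Fin K → Fin K → A) (y : Fin K → A) : A :=
  ∑ i, e i i * y i

/-- commutes with all matrix units -/
def Cm {A : Type*} [Ring A] {K : ℕ} (e : Fin K → Fin K → A) (a : A) : Prop :=
  ∀ p q, e p q * a = a * e p q

/-- random row -/
noncomputable def rowS {A : Type*} [Ring A] [Algebra ℂ A] {K Q : ℕ} [NeZero Q]
    (e : Fin K → Fin K → A) (z : A) (d : Fin K → ZMod Q) (i : Fin K) : A :=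
  ∑ k, (ZMod.stdAddChar (d k) : ℂ) • mc e z i k

/-- square of the 2-norm -/
noncomputable def sq2 {A : Type*} [Ring A] [StarRing A] [Algebra ℂ A] (τ : A →ₗ[ℂ] ℂ) (a : A) : ℝ :=
  (τ (star a * a)).re

/-- flatness: bound of the fourth moment of the random rows -/
def Flat {A : Type*} [Ring A] [StarRing A] [Algebra ℂ A] (τ : A →ₗ[ℂ] ℂ) {K : ℕ} (Q : ℕ) [NeZero Q]
    (e : Fin K → Fin K → A) (z : A) (C : ℝ) : Prop :=
  ∑ i : Fin K, ∑ d : Fin K → ZMod Q, sq2 τ (star (rowS e z d i) * rowS e z d i) ≤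
    (K : ℝ) * (Fintype.card (Fin K → ZMod Q) : ℝ) * C

/-- trace axioms -/
structure TrA {A : Type*} [Ring A] [StarRing A] [Algebra ℂ A] (τ : A →ₗ[ℂ] ℂ) : Prop where
  tr : ∀ a b, τ (a * b) = τ (b * a)
  pos : ∀ a, 0 ≤ (τ (star a * a)).re
  one : τ 1 = 1

/-- the Dixmier input -/
def DixHyp {A : Type*} [Ring A] [StarRing A] [Algebra ℂ A] (τ : A →ₗ[ℂ] ℂ) : Prop :=
  ∀ (K : ℕ) (e : Fin K → Fin K → A), MU1 e → ∀ Qs : Finset A,
    (∀ q ∈ Qs, Cm e q ∧ ∀ c : A, (∀ a, a * c = c * a) → τ (q * c) = τ c) →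
    ∃ n : ℕ, 0 < n ∧ ∃ v : Fin n → A, (∀ s, v s ∈ unitary A ∧ Cm e (v s)) ∧
      ∀ q ∈ Qs, sq2 τ (Psi v q) ≤ 2

end Crest.Agent.R121
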