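import Crest.Agent.R121.I2
import Crest.Prelude.Def_Hochschild

/-!
# Row 121, module I (helper93), part 3: the criterion hypothesis for type I central summands
-/

set_option autoImplicit false
set_option linter.unusedSectionVars false
set_option linter.style.haveILetI false

open Finset

namespace Crest.Agent.R121

section Abs

variable {A : Type*} [NormedRing A] [StarRing A] [CStarRing A] [NormedAlgebra ℂ A]

variable {N : ℕ} [NeZero N] {e : Fin N → Fin N → A} {c : A}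

/-- abstract criterion -/
theorem absI (hmul : ∀ i j k l, e i j * e k l = if j = k then e i l else 0)
    (hstar : ∀ i j, star (e i j) = e j i) (hcs : star c = c)
    (hc : ∑ i, e i i = c) (hcc : ∀ x, c * x = x * c)
    (hspan : ∀ x : A, c * x = x → (∀ i j, e i j * x = x * e i j) →
      ∃ (m : ℕ) (a : Fin m → ℂ) (z : Fin m → A),
        (∀ k, z k ∈ unitary A ∧ ∀ y, z k * y = y * z k) ∧ ∑ k, a k • z k = x)
    {T : Type*} (φ : T → A →ₗ[ℂ] A) {C : ℝ} (hφ : ∀ t x, ‖φ t x‖ ≤ C * ‖x‖)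
    (F : Finset A) {ε : ℝ} (hε : 0 < ε) :
    ∃ ψ : T → A →ₗ[ℂ] A, Reach φ ψ ∧ ∀ t, ∀ x ∈ F, ‖c * (ψ t x - x * ψ t 1)‖ ≤ ε := by
  classical
  have hec : ∀ i j, e i j * c = e i j := by
    intro i j
    rw [← hc, mul_sum, sum_eq_single j]
    · rw [hmul, if_pos rfl]
    · intro k _ hk
      rw [hmul, if_neg (Ne.symm hk)]
    · intro h; exact absurd (mem_univ _) h
  have hce : ∀ i j, c * e i j = e i j := by
    intro i j
    rw [hcc, hec]
  have hc2 : c * c = c := by
    conv_lhs => rw [← hc, sum_mul]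
    conv_rhs => rw [← hc]
    refine sum_congr rfl fun i _ => ?_
    rw [hc]; exact hec i i
  have hu : ∀ x k l, c * mco e x k l = mco e x k l := by
    intro x k l
    unfold mco
    rw [mul_sum]
    refine sum_congr rfl fun i _ => ?_
    rw [← mul_assoc, ← mul_assoc, hce]
  have hz : ∀ x k l, ∃ (m : ℕ) (a : Fin m → ℂ) (z : Fin m → A),
        (∀ k, z k ∈ unitary A ∧ ∀ y, z k * y = y * z k) ∧ ∑ k, a k • z k = mco e x k l :=
    fun x k l => hspan _ (hu x k l) fun i j => mco_comm hmul x k l i j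
  choose m a z hz1 hz2 using hz
  -- constants
  set K : ℝ := 1 + ∑ x ∈ F, ∑ k, ∑ l, ‖e k l‖ * ((∑ q, ‖a x k l q‖) * ‖(1 : A)‖) with hK
  have hK0 : 0 < K := by positivity
  have hKx : ∀ x ∈ F, ∑ k, ∑ l, ‖e k l‖ * ((∑ q, ‖a x k l q‖) * ‖(1 : A)‖) ≤ K := by
    intro x hx
    have := Finset.single_le_sum
      (f := fun x => ∑ k, ∑ l, ‖e k l‖ * ((∑ q, ‖a x k l q‖) * ‖(1 : A)‖))
      (fun y _ => by positivity) hx
    rw [hK]; linarith
  set L : List A := ((F.toList.product ((univ : Finset (Fin N × Fin N)).toList)).flatMap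
    fun p => List.ofFn (z p.1 p.2.1 p.2.2)) with hL
  have hLmem : ∀ x ∈ F, ∀ k l q, z x k l q ∈ L := by
    intro x hx k l q
    rw [hL, List.mem_flatMap]
    refine ⟨(x, (k, l)), ?_, ?_⟩
    · rw [List.pair_mem_product]
      exact ⟨Finset.mem_toList.2 hx, Finset.mem_toList.2 (mem_univ _)⟩
    · rw [List.mem_ofFn]
      exact ⟨q, rfl⟩
  have hLc : ∀ w ∈ L, w ∈ unitary A ∧ ∀ x, w * x = x * w := by
    intro w hw
    rw [hL, List.mem_flatMap] at hw
    obtain ⟨p, -, hp⟩ := hw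
    rw [List.mem_ofFn] at hp
    obtain ⟨q, rfl⟩ := hp
    exact hz1 _ _ _ q
  let φ' : T → A →ₗ[ℂ] A := fun t => uav (sgsh e c) (φ t)
  have hr1 : Reach φ φ' :=
    ⟨(Fin N → ℤˣ) × Fin N, inferInstance, inferInstance, sgsh e c,
      fun p => sgsh_unitary hmul hstar hcs hc p, fun t => rfl⟩
  obtain ⟨ψ, h1, h2, h3⟩ := exists_reach_list (div_pos hε hK0) L hLc φ' (hr1.bound hφ)
  refine ⟨ψ, hr1.trans h1, fun t x hx => ?_⟩
  have hmod : ∀ i j (y : A), ψ t (e i j * y) = e i j * ψ t y := fun i j y =>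
    h3 (e i j) (fun t x => uav_sgsh hmul hstar hcs hc (φ t) i j x) t y
  have hmodc : ∀ y : A, ψ t (c * y) = c * ψ t y := by
    intro y
    rw [← hc, sum_mul, map_sum, sum_mul]
    exact sum_congr rfl fun i _ => hmod i i y
  have hx1 : c * x = ∑ k, ∑ l, e k l * mco e x k l := by
    rw [mco_sum hmul hc, mul_assoc, ← hcc x, ← mul_assoc, hc2]
  have key : c * (ψ t x - x * ψ t 1) =
      ∑ k, ∑ l, e k l * (ψ t (mco e x k l * 1) - mco e x k l * ψ t 1) := by
    rw [mul_sub, ← hmodc, ← mul_assoc, hx1, map_sum, sum_mul, ← sum_sub_distrib]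
    refine sum_congr rfl fun k _ => ?_
    rw [map_sum, sum_mul, ← sum_sub_distrib]
    refine sum_congr rfl fun l _ => ?_
    rw [hmod, mul_one, mul_sub, mul_assoc]
  rw [key]
  have hterm : ∀ k l, ‖e k l * (ψ t (mco e x k l * 1) - mco e x k l * ψ t 1)‖ ≤
      (‖e k l‖ * ((∑ q, ‖a x k l q‖) * ‖(1 : A)‖)) * (ε / K) := by
    intro k l
    refine (norm_mul_le _ _).trans ?_
    rw [← hz2 x k l]
    have := norm_mod_of_sum (φ := ψ t) (a x k l) (z x k l) (δ := ε / K)
      (fun q y => h2 _ (hLmem x hx k l q) t y) 1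
    calc ‖e k l‖ * ‖ψ t ((∑ q, a x k l q • z x k l q) * 1) -
          (∑ q, a x k l q • z x k l q) * ψ t 1‖
        ≤ ‖e k l‖ * ((∑ q, ‖a x k l q‖) * (ε / K * ‖(1 : A)‖)) :=
          mul_le_mul_of_nonneg_left this (norm_nonneg _)
      _ = _ := by ring
  refine (norm_sum_le_of_le _ fun k _ => norm_sum_le_of_le _ fun l _ => hterm k l).trans ?_
  simp_rw [← sum_mul]
  calc (∑ k, ∑ l, ‖e k l‖ * ((∑ q, ‖a x k l q‖) * ‖(1 : A)‖)) * (ε / K) ≤ K * (ε / K) :=
        mul_le_mul_of_nonneg_right (hKx x hx) (div_pos hε hK0).le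
    _ = ε := by field_simp

end Abs

section Con

variable {H : Type*} [NormedAddCommGroup H] [InnerProductSpace ℂ H] [CompleteSpace H]

theorem isClosed_vNI (P : VonNeumannAlgebra H) :
    IsClosed (P.toStarSubalgebra : Set (H →L[ℂ] H)) := by
  have h : (P.toStarSubalgebra : Set (H →L[ℂ] H)) =
      Set.centralizer (Set.centralizer (P : Set (H →L[ℂ] H))) := by
    rw [VonNeumannAlgebra.centralizer_centralizer]
    rfl
  rw [h]
  exact Set.isClosed_centralizer _

/-- central elements are spanned by central unitaries -/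
theorem central_span (M : VonNeumannAlgebra H) (x : M.toStarSubalgebra)
    (hx : (x : H →L[ℂ] H) ∈ M.commutant) :
    ∃ (m : ℕ) (a : Fin m → ℂ) (z : Fin m → M.toStarSubalgebra),
      (∀ k, z k ∈ unitary M.toStarSubalgebra ∧ ∀ y, z k * y = y * z k) ∧ ∑ k, a k • z k = x := by
  let Z : StarSubalgebra ℂ (H →L[ℂ] H) := M.toStarSubalgebra ⊓ M.commutant.toStarSubalgebra
  have hZ : IsClosed (Z : Set (H →L[ℂ] H)) := by
    have : (Z : Set (H →L[ℂ] H)) = (M.toStarSubalgebra : Set (H →L[ℂ] H)) ∩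
        (M.commutant.toStarSubalgebra : Set (H →L[ℂ] H)) := rfl
    rw [this]
    exact (isClosed_vNI M).inter (isClosed_vNI M.commutant)
  letI : CStarAlgebra Z := StarSubalgebra.cstarAlgebra Z (h_closed := hZ)
  have hmem : (⟨(x : H →L[ℂ] H), ⟨x.2, hx⟩⟩ : Z) ∈ Submodule.span ℂ (unitary Z : Set Z) := by
    rw [CStarAlgebra.span_unitary]; trivial
  rw [Submodule.mem_span_set'] at hmem
  obtain ⟨m, a, g, hg⟩ := hmem
  refine ⟨m, a, fun k => ⟨((g k : Z) : H →L[ℂ] H), (g k : Z).2.1⟩, fun k => ⟨?_, fun y => ?_⟩, ?_⟩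
  · have := (g k).2
    rw [SetLike.mem_coe, Unitary.mem_iff] at this
    rw [Unitary.mem_iff]
    constructor
    · apply Subtype.ext
      exact congrArg (fun w : Z => (w : H →L[ℂ] H)) this.1
    · apply Subtype.ext
      exact congrArg (fun w : Z => (w : H →L[ℂ] H)) this.2
  · have h1 : ((g k : Z) : H →L[ℂ] H) ∈ M.commutant := (g k : Z).2.2
    rw [VonNeumannAlgebra.mem_commutant_iff] at h1
    apply Subtype.ext
    exact (h1 y y.2).symm
  · apply Subtype.ext
    have h2 := congrArg (fun w : Z => (w : H →L[ℂ] H)) hg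
    simp only at h2
    rw [← h2]
    simp

/-- **type I criterion**: the hypothesis of the averaging criterion holds, in norm, over a central
projection which is the sum of a finite matrix unit with central relative commutant. -/
theorem typeI_crit (M : VonNeumannAlgebra H) {c : H →L[ℂ] H} (hcp : IsStarProjection c)
    (hcM : c ∈ M) (hcM' : c ∈ M.commutant) {N : ℕ} (hN : 0 < N)
    (e : Fin N → Fin N → H →L[ℂ] H) (heM : ∀ i j, e i j ∈ M)
    (hmul : ∀ i j k l, e i j * e k l = if j = k then e i l else 0)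
    (hstar : ∀ i j, star (e i j) = e j i) (hsum : ∑ i, e i i = c)
    (hcen : ∀ x ∈ M, c * x = x → (∀ i j, e i j * x = x * e i j) → x ∈ M.commutant)
    {n : ℕ} (f : ContinuousMultilinearMap ℂ (fun _ : Fin (n + 1) => M.toStarSubalgebra)
      M.toStarSubalgebra)
    (F : Finset (Fin (n + 1) → M.toStarSubalgebra)) {ε : ℝ} (hε : 0 < ε) :
    ∃ (ι : Type) (_ : Fintype ι) (_ : Nonempty ι) (u : ι → M.toStarSubalgebra),
      (∀ i, u i ∈ unitary M.toStarSubalgebra) ∧
      ∀ X ∈ F, ‖c * ((((Fintype.card ι : ℂ))⁻¹ •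
          ∑ i, star (u i) * f (Fin.cons (u i * X 0) (Fin.tail X)) -
        X 0 * (((Fintype.card ι : ℂ))⁻¹ •
          ∑ i, star (u i) * f (Fin.cons (u i) (Fin.tail X))) : M.toStarSubalgebra) :
            H →L[ℂ] H)‖ ≤ ε := by
  classical
  haveI : NeZero N := ⟨hN.ne'⟩
  let A := M.toStarSubalgebra
  let cA : A := ⟨c, hcM⟩
  let eA : Fin N → Fin N → A := fun i j => ⟨e i j, heM i j⟩
  let φ : F → A →ₗ[ℂ] A := fun X =>
    { toFun := fun x => f (Fin.cons x (Fin.tail (X : Fin (n + 1) → A)))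
      map_add' := fun x y => f.cons_add _ x y
      map_smul' := fun r x => f.cons_smul _ r x }
  have hφ : ∀ (X : F) (x : A), ‖φ X x‖ ≤
      (‖f‖ * ∑ Y ∈ F, ∏ i, ‖Fin.tail Y i‖) * ‖x‖ := by
    intro X x
    have h1 : ‖f (Fin.cons x (Fin.tail (X : Fin (n + 1) → A)))‖ ≤
        ‖f‖ * (‖x‖ * ∏ i, ‖Fin.tail (X : Fin (n + 1) → A) i‖) := by
      refine (f.le_opNorm _).trans (le_of_eq ?_)
      rw [Fin.prod_univ_succ]
      simp
    have h2 : ∏ i, ‖Fin.tail (X : Fin (n + 1) → A) i‖ ≤ ∑ Y ∈ F, ∏ i, ‖Fin.tail Y i‖ :=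
      Finset.single_le_sum (f := fun Y : Fin (n + 1) → A => ∏ i, ‖Fin.tail Y i‖)
        (fun Y _ => Finset.prod_nonneg fun i _ => norm_nonneg _) X.2
    calc ‖φ X x‖ ≤ ‖f‖ * (‖x‖ * ∏ i, ‖Fin.tail (X : Fin (n + 1) → A) i‖) := h1
      _ ≤ ‖f‖ * (‖x‖ * ∑ Y ∈ F, ∏ i, ‖Fin.tail Y i‖) := by gcongr
      _ = _ := by ring
  obtain ⟨ψ, ⟨ι, i1, i2, u, hu, hψ⟩, hψ2⟩ := absI (e := eA) (c := cA)
    (by
      intro i j k l
      apply Subtype.ext
      have := hmul i j k l
      split_ifs with h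
      · rw [if_pos h] at this; exact this
      · rw [if_neg h] at this; exact this)
    (fun i j => Subtype.ext (hstar i j)) (Subtype.ext hcp.isSelfAdjoint)
    (by
      apply Subtype.ext
      refine Eq.trans ?_ hsum
      simp [eA])
    (fun x => by
      apply Subtype.ext
      rw [VonNeumannAlgebra.mem_commutant_iff] at hcM'
      exact (hcM' x x.2).symm)
    (fun x hx1 hx2 => central_span M x (hcen x x.2 (congrArg Subtype.val hx1)
      fun i j => congrArg Subtype.val (hx2 i j)))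
    φ hφ (F.image fun X => X 0) hε
  refine ⟨ι, i1, i2, u, hu, fun X hX => ?_⟩
  have h3 := hψ2 ⟨X, hX⟩ (X 0) (Finset.mem_image_of_mem _ hX)
  rw [hψ, uav_apply, uav_apply] at h3
  simp only [mul_one] at h3
  exact h3

end Con

end Crest.Agent.R121
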