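import Mathlib

/-!
# Row 121, module I (helper93), part 1: averages over finite families of unitaries, matrix units,
central unitaries. Abstract C*-ring setting.
-/

set_option autoImplicit false
set_option linter.unusedSectionVars false
set_option linter.style.haveILetI false

open Finset

namespace Crest.Agent.R121

section Uav

variable {A : Type*} [NormedRing A] [StarRing A] [CStarRing A] [NormedAlgebra ℂ A]

/-- the average `x ↦ (1/|ι|) ∑ u_i* φ(u_i x)` -/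
noncomputable def uav {ι : Type} [Fintype ι] (u : ι → A) (φ : A →ₗ[ℂ] A) : A →ₗ[ℂ] A :=
  ((Fintype.card ι : ℂ))⁻¹ • ∑ i, (LinearMap.mulLeft ℂ (star (u i))).comp
    (φ.comp (LinearMap.mulLeft ℂ (u i)))

theorem uav_apply {ι : Type} [Fintype ι] (u : ι → A) (φ : A →ₗ[ℂ] A) (x : A) :
    uav u φ x = ((Fintype.card ι : ℂ))⁻¹ • ∑ i, star (u i) * φ (u i * x) := by
  simp [uav, LinearMap.sum_apply]

/-- `ψ` is an average of `φ` over a finite family of unitaries -/
def Reach {T : Type*} (φ ψ : T → A →ₗ[ℂ] A) : Prop :=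
  ∃ (ι : Type) (_ : Fintype ι) (_ : Nonempty ι) (u : ι → A),
    (∀ i, u i ∈ unitary A) ∧ ∀ t, ψ t = uav u (φ t)

theorem Reach.refl {T : Type*} (φ : T → A →ₗ[ℂ] A) : Reach φ φ :=
  ⟨Unit, inferInstance, inferInstance, fun _ => 1, fun _ => one_mem _, fun t => by
    ext x; rw [uav_apply]; simp⟩

theorem Reach.trans {T : Type*} {φ ψ χ : T → A →ₗ[ℂ] A} (h1 : Reach φ ψ) (h2 : Reach ψ χ) :
    Reach φ χ := by
  obtain ⟨ι, _, _, u, hu, h1⟩ := h1
  obtain ⟨κ, _, _, v, hv, h2⟩ := h2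
  refine ⟨κ × ι, inferInstance, inferInstance, fun p => u p.2 * v p.1,
    fun p => mul_mem (hu _) (hv _), fun t => ?_⟩
  ext x
  have e : ∀ k, star (v k) * uav u (φ t) (v k * x) =
      ((Fintype.card ι : ℂ))⁻¹ • ∑ i, star (u i * v k) * φ t (u i * v k * x) := by
    intro k
    rw [uav_apply, mul_smul_comm, mul_sum]
    refine congrArg _ (Finset.sum_congr rfl fun i _ => ?_)
    rw [star_mul, mul_assoc, mul_assoc]
  rw [h2, h1, uav_apply, uav_apply, Fintype.card_prod, Fintype.sum_prod_type]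
  simp_rw [e]
  rw [← smul_sum, smul_smul, Nat.cast_mul, mul_inv]

theorem norm_star_mul_le {u : A} (hu : u ∈ unitary A) (y : A) : ‖star u * y‖ = ‖y‖ :=
  CStarRing.norm_mem_unitary_mul _ (Unitary.star_mem hu)

theorem uav_bound {ι : Type} [Fintype ι] [Nonempty ι] {u : ι → A} (hu : ∀ i, u i ∈ unitary A)
    {φ : A →ₗ[ℂ] A} {C : ℝ} (hφ : ∀ x, ‖φ x‖ ≤ C * ‖x‖) (x : A) : ‖uav u φ x‖ ≤ C * ‖x‖ := by
  rw [uav_apply, norm_smul, norm_inv, Complex.norm_natCast]
  have hc : (0 : ℝ) < Fintype.card ι := by exact_mod_cast Fintype.card_pos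
  rw [inv_mul_le_iff₀ hc]
  refine (norm_sum_le_of_le _ (n := fun _ => C * ‖x‖) fun i _ => ?_).trans (le_of_eq ?_)
  · rw [norm_star_mul_le (hu i)]
    refine (hφ _).trans (le_of_eq ?_)
    rw [CStarRing.norm_mem_unitary_mul _ (hu i)]
  · rw [sum_const, card_univ, nsmul_eq_mul]

theorem Reach.bound {T : Type*} {φ ψ : T → A →ₗ[ℂ] A} (h : Reach φ ψ) {C : ℝ}
    (hφ : ∀ t x, ‖φ t x‖ ≤ C * ‖x‖) (t : T) (x : A) : ‖ψ t x‖ ≤ C * ‖x‖ := by
  obtain ⟨ι, _, _, u, hu, h1⟩ := h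
  rw [h1]
  exact uav_bound hu (hφ t) x

/-- exact modularity over a right invariant family -/
theorem uav_mod {ι : Type} [Fintype ι] {u : ι → A} {h : A} (hh : h ∈ unitary A)
    (σ : Equiv.Perm ι) (hσ : ∀ i, u (σ i) = u i * h) (φ : A →ₗ[ℂ] A) (x : A) :
    uav u φ (h * x) = h * uav u φ x := by
  rw [uav_apply, uav_apply, mul_smul_comm, mul_sum]
  refine congrArg _ ?_
  rw [← Equiv.sum_comp σ (fun i => h * (star (u i) * φ (u i * x)))]
  refine sum_congr rfl fun i _ => ?_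
  simp only [hσ, star_mul]
  rw [← mul_assoc (u i) h x, mul_assoc (star h), ← mul_assoc h (star h),
    Unitary.mul_star_self_of_mem hh, one_mul]

/-- one central unitary: average over `1, z, …, z^(N-1)` -/
theorem exists_reach_one {T : Type*} (φ : T → A →ₗ[ℂ] A) {C : ℝ}
    (hφ : ∀ t x, ‖φ t x‖ ≤ C * ‖x‖) {z : A} (hz : z ∈ unitary A) (hzc : ∀ x, z * x = x * z)
    {ε : ℝ} (hε : 0 < ε) :
    ∃ ψ : T → A →ₗ[ℂ] A, Reach φ ψ ∧ (∀ t x, ‖ψ t (z * x) - z * ψ t x‖ ≤ ε * ‖x‖) ∧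
      (∀ y : A, (∀ x, y * x = x * y) → ∀ δ : ℝ, (∀ t x, ‖φ t (y * x) - y * φ t x‖ ≤ δ * ‖x‖) →
        (∀ t x, ‖ψ t (y * x) - y * ψ t x‖ ≤ δ * ‖x‖)) ∧
      (∀ y : A, (∀ t x, φ t (y * x) = y * φ t x) → ∀ t x, ψ t (y * x) = y * ψ t x) := by
  obtain ⟨N, hN⟩ := exists_nat_gt (2 * |C| / ε)
  have hN0 : 0 < N := by
    rcases Nat.eq_zero_or_pos N with h | h
    · subst h
      have : 0 ≤ 2 * |C| / ε := by positivity
      exact absurd hN (by push_cast; linarith)
    · exact h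
  haveI : NeZero N := ⟨hN0.ne'⟩
  have hzs : ∀ x, star z * x = x * star z := fun x => by
    have := congrArg star (hzc (star x))
    rw [star_mul, star_mul, star_star] at this
    exact this.symm
  have hpow : ∀ m : ℕ, z ^ m ∈ unitary A := fun m => pow_mem hz m
  have hzm : ∀ (m : ℕ) (x : A), z ^ m * x = x * z ^ m := fun m x =>
    (Commute.pow_left (show Commute z x from hzc x) m).eq
  have hzsm : ∀ (m : ℕ) (x : A), star (z ^ m) * x = x * star (z ^ m) := fun m x => by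
    rw [star_pow]
    exact (Commute.pow_left (show Commute (star z) x from hzs x) m).eq
  refine ⟨fun t => uav (fun m : Fin N => z ^ (m : ℕ)) (φ t),
    ⟨Fin N, inferInstance, inferInstance, fun m => z ^ (m : ℕ), fun m => hpow _, fun t => rfl⟩,
    ?_, ?_, ?_⟩
  · intro t x
    have hNr : (0 : ℝ) < N := by exact_mod_cast hN0
    have key : uav (fun m : Fin N => z ^ (m : ℕ)) (φ t) (z * x) -
        z * uav (fun m : Fin N => z ^ (m : ℕ)) (φ t) x =
        ((N : ℂ))⁻¹ • (z * (star (z ^ N) * φ t (z ^ N * x)) - z * φ t x) := by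
      rw [uav_apply, uav_apply, mul_smul_comm, ← smul_sub, Fintype.card_fin]
      congr 1
      rw [Fin.sum_univ_eq_sum_range (fun m => star (z ^ m) * φ t (z ^ m * (z * x))) N,
        Fin.sum_univ_eq_sum_range (fun m => star (z ^ m) * φ t (z ^ m * x)) N]
      have e1 : ∀ m, star (z ^ m) * φ t (z ^ m * (z * x)) =
          z * (star (z ^ (m + 1)) * φ t (z ^ (m + 1) * x)) := by
        intro m
        rw [pow_succ, star_mul, mul_assoc (star z), ← mul_assoc z (star z),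
          Unitary.mul_star_self_of_mem hz, one_mul, mul_assoc (z ^ m) z x]
      simp_rw [e1]
      rw [mul_sum, ← sum_sub_distrib]
      have := Finset.sum_range_sub (fun m => z * (star (z ^ m) * φ t (z ^ m * x))) N
      rw [this]
      simp
    rw [key, norm_smul, norm_inv, Complex.norm_natCast, inv_mul_le_iff₀ hNr]
    refine (norm_sub_le _ _).trans ?_
    rw [CStarRing.norm_mem_unitary_mul _ hz, CStarRing.norm_mem_unitary_mul _ hz,
      norm_star_mul_le (hpow N)]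
    have h1 : ‖φ t (z ^ N * x)‖ ≤ |C| * ‖x‖ := by
      refine (hφ t _).trans ?_
      rw [CStarRing.norm_mem_unitary_mul _ (hpow N)]
      exact mul_le_mul_of_nonneg_right (le_abs_self _) (norm_nonneg _)
    have h2 : ‖φ t x‖ ≤ |C| * ‖x‖ :=
      (hφ t x).trans (mul_le_mul_of_nonneg_right (le_abs_self _) (norm_nonneg _))
    have h3 : 2 * |C| ≤ N * ε := by
      rw [div_lt_iff₀ hε] at hN
      exact hN.le
    calc ‖φ t (z ^ N * x)‖ + ‖φ t x‖ ≤ (2 * |C|) * ‖x‖ := by linarith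
      _ ≤ (N * ε) * ‖x‖ := mul_le_mul_of_nonneg_right h3 (norm_nonneg _)
      _ = N * (ε * ‖x‖) := by ring
  · intro y hy δ hδ t x
    have hNr : (0 : ℝ) < N := by exact_mod_cast hN0
    rw [uav_apply, uav_apply, mul_smul_comm, ← smul_sub, mul_sum, ← sum_sub_distrib, norm_smul,
      norm_inv, Complex.norm_natCast, Fintype.card_fin, inv_mul_le_iff₀ hNr]
    refine (norm_sum_le_of_le _ (n := fun _ => δ * ‖x‖) fun m _ => ?_).trans (le_of_eq ?_)
    · have e : star (z ^ (m : ℕ)) * φ t (z ^ (m : ℕ) * (y * x)) -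
          y * (star (z ^ (m : ℕ)) * φ t (z ^ (m : ℕ) * x)) =
          star (z ^ (m : ℕ)) * (φ t (y * (z ^ (m : ℕ) * x)) - y * φ t (z ^ (m : ℕ) * x)) := by
        rw [mul_sub, ← mul_assoc (z ^ (m : ℕ)) y x, ← hy (z ^ (m : ℕ)), mul_assoc y (z ^ (m : ℕ)) x,
          ← mul_assoc y (star (z ^ (m : ℕ))), hy (star (z ^ (m : ℕ))),
          mul_assoc (star (z ^ (m : ℕ))) y]
      rw [e, norm_star_mul_le (hpow _)]
      refine (hδ t _).trans (le_of_eq ?_)
      rw [CStarRing.norm_mem_unitary_mul _ (hpow _)]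
    · rw [sum_const, card_univ, Fintype.card_fin, nsmul_eq_mul]
  · intro y hy t x
    rw [uav_apply, uav_apply, mul_smul_comm, mul_sum]
    congr 1
    refine sum_congr rfl fun m _ => ?_
    rw [← mul_assoc (z ^ (m : ℕ)) y x, hzm, mul_assoc y, hy, ← mul_assoc, ← mul_assoc, hzsm]

/-- finitely many central unitaries -/
theorem exists_reach_list {T : Type*} {C : ℝ} {ε : ℝ} (hε : 0 < ε) (L : List A)
    (hL : ∀ z ∈ L, z ∈ unitary A ∧ ∀ x, z * x = x * z) (φ : T → A →ₗ[ℂ] A)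
    (hφ : ∀ t x, ‖φ t x‖ ≤ C * ‖x‖) :
    ∃ ψ : T → A →ₗ[ℂ] A, Reach φ ψ ∧ (∀ z ∈ L, ∀ t x, ‖ψ t (z * x) - z * ψ t x‖ ≤ ε * ‖x‖) ∧
      (∀ y : A, (∀ t x, φ t (y * x) = y * φ t x) → ∀ t x, ψ t (y * x) = y * ψ t x) := by
  induction L with
  | nil => exact ⟨φ, Reach.refl φ, by simp, fun y hy => hy⟩
  | cons z L ih =>
    obtain ⟨ψ, h1, h2, h3⟩ := ih fun w hw => hL w (List.mem_cons_of_mem _ hw)
    obtain ⟨hz, hzc⟩ := hL z List.mem_cons_self
    obtain ⟨χ, k1, k2, k3, k4⟩ := exists_reach_one ψ (fun t x => h1.bound hφ t x) hz hzc hε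
    refine ⟨χ, h1.trans k1, ?_, fun y hy => k4 y (h3 y hy)⟩
    intro w hw
    rcases List.mem_cons.1 hw with rfl | hw
    · exact k2
    · exact k3 w (hL w (List.mem_cons_of_mem _ hw)).2 ε (h2 w hw)

/-- approximately modular over a unitary family ⇒ over its span -/
theorem norm_mod_of_sum {φ : A →ₗ[ℂ] A} {m : ℕ} (a : Fin m → ℂ) (z : Fin m → A) {δ : ℝ}
    (h : ∀ k x, ‖φ (z k * x) - z k * φ x‖ ≤ δ * ‖x‖) (x : A) :
    ‖φ ((∑ k, a k • z k) * x) - (∑ k, a k • z k) * φ x‖ ≤ (∑ k, ‖a k‖) * (δ * ‖x‖) := by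
  rw [sum_mul, sum_mul, map_sum, ← sum_sub_distrib, sum_mul]
  refine norm_sum_le_of_le _ fun k _ => ?_
  rw [smul_mul_assoc, smul_mul_assoc, map_smul, ← smul_sub, norm_smul]
  exact mul_le_mul_of_nonneg_left (h k x) (norm_nonneg _)

end Uav

end Crest.Agent.R121
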