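import Crest.Agent.R121.I1

/-!
# Row 121, module I (helper93), part 2: matrix units
-/

set_option autoImplicit false
set_option linter.unusedSectionVars false

open Finset

namespace Crest.Agent.R121

section MU

variable {A : Type*} [NormedRing A] [StarRing A] [CStarRing A] [NormedAlgebra ℂ A]

variable {N : ℕ} [NeZero N] (e : Fin N → Fin N → A) (c : A)

/-- signed shift unitaries `∑ s_i e_{i,i+a} + (1-c)` -/
def sgsh (p : (Fin N → ℤˣ) × Fin N) : A := (∑ i, ((p.1 i : ℤ)) • e i (i + p.2)) + (1 - c)

variable {e c}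

theorem sgsh_mul (hmul : ∀ i j k l, e i j * e k l = if j = k then e i l else 0)
    (hc : ∑ i, e i i = c) (s t : Fin N → ℤˣ) (a b : Fin N) :
    sgsh e c (s, a) * sgsh e c (t, b) = sgsh e c (fun i => s i * t (i + a), a + b) := by
  have hec : ∀ i j, e i j * c = e i j := by
    intro i j
    rw [← hc, mul_sum, sum_eq_single j]
    · rw [hmul, if_pos rfl]
    · intro k _ hk
      rw [hmul, if_neg (Ne.symm hk)]
    · intro h; exact absurd (mem_univ _) h
  have hce : ∀ i j, c * e i j = e i j := by
    intro i j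
    rw [← hc, sum_mul, sum_eq_single i]
    · rw [hmul, if_pos rfl]
    · intro k _ hk
      rw [hmul, if_neg hk]
    · intro h; exact absurd (mem_univ _) h
  have hcc : c * c = c := by
    conv_lhs => rw [← hc, sum_mul]
    conv_rhs => rw [← hc]
    refine sum_congr rfl fun i _ => ?_
    rw [hc]; exact hec i i
  unfold sgsh
  simp only
  have e1 : (∑ i, ((s i : ℤ)) • e i (i + a)) * (∑ i, ((t i : ℤ)) • e i (i + b)) =
      ∑ i, (((s i * t (i + a) : ℤˣ) : ℤ)) • e i (i + (a + b)) := by
    rw [sum_mul]
    refine sum_congr rfl fun i _ => ?_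
    rw [mul_sum, sum_eq_single (i + a)]
    · rw [smul_mul_smul_comm, hmul, if_pos rfl, add_assoc]; rfl
    · intro k _ hk
      rw [smul_mul_smul_comm, hmul, if_neg (Ne.symm hk), smul_zero]
    · intro h; exact absurd (mem_univ _) h
  have e2 : (∑ i, ((s i : ℤ)) • e i (i + a)) * (1 - c) = 0 := by
    rw [mul_sub, mul_one, sum_mul, ← sum_sub_distrib]
    refine sum_eq_zero fun i _ => ?_
    rw [smul_mul_assoc, hec, sub_self]
  have e3 : (1 - c) * (∑ i, ((t i : ℤ)) • e i (i + b)) = 0 := by
    rw [sub_mul, one_mul, mul_sum, ← sum_sub_distrib]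
    refine sum_eq_zero fun i _ => ?_
    rw [mul_smul_comm, hce, sub_self]
  have e4 : (1 - c) * (1 - c) = 1 - c := by
    rw [sub_mul, mul_sub, mul_sub, mul_one, mul_one, one_mul, hcc]; abel
  rw [add_mul, mul_add, mul_add, e1, e2, e3, e4, add_zero, zero_add]

theorem sgsh_one (hc : ∑ i, e i i = c) : sgsh e c (1, 0) = 1 := by
  unfold sgsh
  simp only [Pi.one_apply, Units.val_one, one_smul, add_zero]
  rw [hc]; abel

theorem sgsh_star (hstar : ∀ i j, star (e i j) = e j i) (hcs : star c = c)
    (s : Fin N → ℤˣ) (a : Fin N) :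
    star (sgsh e c (s, a)) = sgsh e c (fun i => s (i - a), -a) := by
  unfold sgsh
  simp only
  rw [star_add, star_sub, star_one, hcs, star_sum]
  congr 1
  rw [← Equiv.sum_comp (Equiv.subRight a)]
  refine sum_congr rfl fun i _ => ?_
  simp only [Equiv.subRight_apply]
  rw [star_zsmul, hstar, sub_add_cancel, sub_eq_add_neg]

theorem sgsh_unitary (hmul : ∀ i j k l, e i j * e k l = if j = k then e i l else 0)
    (hstar : ∀ i j, star (e i j) = e j i) (hcs : star c = c)
    (hc : ∑ i, e i i = c) (p : (Fin N → ℤˣ) × Fin N) : sgsh e c p ∈ unitary A := by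
  obtain ⟨s, a⟩ := p
  rw [Unitary.mem_iff]
  rw [sgsh_star hstar hcs, sgsh_mul hmul hc, sgsh_mul hmul hc, ← sgsh_one (e := e) hc]
  constructor
  · congr 2
    · funext i
      rw [← sub_eq_add_neg]
      exact Int.units_mul_self _
    · abel
  · congr 2
    · funext i
      rw [add_sub_cancel_right]
      exact Int.units_mul_self _
    · abel

/-- averaging over the signed shifts gives exact modularity over the matrix units -/
theorem uav_sgsh (hmul : ∀ i j k l, e i j * e k l = if j = k then e i l else 0)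
    (hstar : ∀ i j, star (e i j) = e j i) (hcs : star c = c)
    (hc : ∑ i, e i i = c) (φ : A →ₗ[ℂ] A) (i j : Fin N) (x : A) :
    uav (sgsh e c) φ (e i j * x) = e i j * uav (sgsh e c) φ x := by
  have hmod : ∀ (p : (Fin N → ℤˣ) × Fin N) (x : A),
      uav (sgsh e c) φ (sgsh e c p * x) = sgsh e c p * uav (sgsh e c) φ x := by
    rintro ⟨t, b⟩ x
    refine uav_mod (sgsh_unitary hmul hstar hcs hc _)
      { toFun := fun p : (Fin N → ℤˣ) × Fin N => (fun i => p.1 i * t (i + p.2), p.2 + b)
        invFun := fun p : (Fin N → ℤˣ) × Fin N => (fun i => p.1 i * t (i + (p.2 - b)), p.2 - b)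
        left_inv := ?_
        right_inv := ?_ } ?_ φ x
    · rintro ⟨s, a⟩
      simp only [add_sub_cancel_right, mul_assoc, Int.units_mul_self, mul_one]
    · rintro ⟨s, a⟩
      simp only [sub_add_cancel, mul_assoc, Int.units_mul_self, mul_one]
    · rintro ⟨s, a⟩
      exact (sgsh_mul hmul hc s t a b).symm
  have hd : ∀ k : Fin N, (2 : ℂ) • e k k = 1 - sgsh e c (Function.update 1 k (-1), 0) := by
    intro k
    unfold sgsh
    simp only [add_zero]
    have h1 : ∑ i, (((Function.update (1 : Fin N → ℤˣ) k (-1)) i : ℤˣ) : ℤ) • e i i =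
        c - (2 : ℂ) • e k k := by
      rw [← hc, ← Finset.sum_erase_add _ _ (mem_univ k),
        ← Finset.sum_erase_add (f := fun i => e i i) _ (mem_univ k)]
      have h2 : ∀ i ∈ univ.erase k, (((Function.update (1 : Fin N → ℤˣ) k (-1)) i : ℤˣ) : ℤ) • e i i
          = e i i := by
        intro i hi
        rw [Function.update_of_ne (Finset.ne_of_mem_erase hi)]
        simp
      rw [sum_congr rfl h2, Function.update_self]
      rw [two_smul]
      simp only [Finset.sum_erase_eq_sub (mem_univ k), Units.val_neg, Units.val_one, neg_smul,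
        one_smul]
      abel
    rw [h1]; abel
  have hkk : ∀ (k : Fin N) (x : A),
      uav (sgsh e c) φ (e k k * x) = e k k * uav (sgsh e c) φ x := by
    intro k x
    have h2 : (2 : ℂ) • uav (sgsh e c) φ (e k k * x) = (2 : ℂ) • (e k k * uav (sgsh e c) φ x) := by
      rw [← map_smul, ← smul_mul_assoc, ← smul_mul_assoc, hd, sub_mul, sub_mul, map_sub, hmod,
        one_mul, one_mul]
    exact (smul_right_injective A (two_ne_zero : (2 : ℂ) ≠ 0)) h2
  have hij : e i j = e i i * sgsh e c (1, j - i) := by
    unfold sgsh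
    simp only [Pi.one_apply, Units.val_one, one_smul]
    rw [mul_add, mul_sub, mul_one, mul_sum, ← hc, mul_sum, sum_eq_single i, sum_eq_single i]
    · rw [hmul, if_pos rfl, hmul, if_pos rfl, sub_self, add_zero, add_sub_cancel]
    · intro k _ hk
      rw [hmul, if_neg (Ne.symm hk)]
    · intro h; exact absurd (mem_univ _) h
    · intro k _ hk
      rw [hmul, if_neg (Ne.symm hk)]
    · intro h; exact absurd (mem_univ _) h
  rw [hij, mul_assoc, hkk, hmod, mul_assoc]

/-- the matrix coefficients of `x` -/
def mco (e : Fin N → Fin N → A) (x : A) (k l : Fin N) : A := ∑ i, e i k * x * e l i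

theorem mco_comm (hmul : ∀ i j k l, e i j * e k l = if j = k then e i l else 0)
    (x : A) (k l a b : Fin N) : e a b * mco e x k l = mco e x k l * e a b := by
  unfold mco
  rw [mul_sum, sum_mul, sum_eq_single b, sum_eq_single a]
  · rw [← mul_assoc, ← mul_assoc, hmul, if_pos rfl, mul_assoc, mul_assoc (e a k * x), hmul,
      if_pos rfl, ← mul_assoc]
  · intro i _ hi
    rw [mul_assoc (e i k * x), hmul, if_neg hi, mul_zero]
  · intro h; exact absurd (mem_univ _) h
  · intro i _ hi
    rw [← mul_assoc, ← mul_assoc, hmul, if_neg (Ne.symm hi), zero_mul, zero_mul]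
  · intro h; exact absurd (mem_univ _) h

theorem mco_sum (hmul : ∀ i j k l, e i j * e k l = if j = k then e i l else 0)
    (hc : ∑ i, e i i = c) (x : A) : ∑ k, ∑ l, e k l * mco e x k l = c * x * c := by
  have h1 : ∀ k l, e k l * mco e x k l = e k k * x * e l l := by
    intro k l
    unfold mco
    rw [mul_sum, sum_eq_single l]
    · rw [← mul_assoc, ← mul_assoc, hmul, if_pos rfl]
    · intro i _ hi
      rw [← mul_assoc, ← mul_assoc, hmul, if_neg (Ne.symm hi), zero_mul, zero_mul]
    · intro h; exact absurd (mem_univ _) h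
  simp_rw [h1]
  rw [← hc, sum_mul, sum_mul]
  refine sum_congr rfl fun k _ => ?_
  rw [mul_sum]

end MU

end Crest.Agent.R121
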