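import Crest.Agent.R121.LKer

/-!
# Row 121, module L, piece L1: the JUMP LEMMA
-/

set_option autoImplicit false

open Finset ComplexConjugate Filter Topology

namespace Crest.Agent.R121.LJ

/-- tracial state -/
structure TrState {A : Type*} [CStarAlgebra A] (τ : A →ₗ[ℂ] ℂ) : Prop where
  tr : ∀ a b, τ (a * b) = τ (b * a)
  nonneg : ∀ a, 0 ≤ (τ (star a * a)).re
  herm : ∀ a, τ (star a) = conj (τ a)
  one : τ 1 = 1
  bound : ∀ a, ‖τ a‖ ≤ ‖a‖

/-- the 2-norm -/
noncomputable def nt {A : Type*} [CStarAlgebra A] (τ : A →ₗ[ℂ] ℂ) (a : A) : ℝ :=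
  Real.sqrt (τ (star a * a)).re

section
variable {A : Type*} [CStarAlgebra A] {τ : A →ₗ[ℂ] ℂ}

theorem cs_tr (h : TrState τ) (x y : A) :
    ‖τ (star x * y)‖ ≤ Real.sqrt (τ (star x * x)).re * Real.sqrt (τ (star y * y)).re := by
  let c : PreInnerProductSpace.Core ℂ A :=
    { inner := fun x y => τ (star x * y)
      conj_inner_symm := fun x y => by
        show conj (τ (star y * x)) = τ (star x * y)
        rw [← h.herm]; simp
      re_inner_nonneg := fun x => h.nonneg x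
      add_left := fun x y z => by
        show τ (star (x + y) * z) = τ (star x * z) + τ (star y * z)
        rw [star_add, add_mul, map_add]
      smul_left := fun x y r => by
        show τ (star (r • x) * y) = conj r * τ (star x * y)
        rw [star_smul, smul_mul_assoc, map_smul]; rfl }
  have h1 := @InnerProductSpace.Core.inner_mul_inner_self_le ℂ A _ _ _ c x y
  have h2 : ‖τ (star x * y)‖ * ‖τ (star y * x)‖ ≤
      (τ (star x * x)).re * (τ (star y * y)).re := h1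
  have h3 : ‖τ (star y * x)‖ = ‖τ (star x * y)‖ := by
    have : τ (star y * x) = conj (τ (star x * y)) := by rw [← h.herm]; simp
    rw [this, Complex.norm_conj]
  rw [h3] at h2
  rw [← Real.sqrt_mul (h.nonneg x)]
  refine Real.le_sqrt_of_sq_le ?_
  rw [pow_two]; exact h2

theorem mono_tr (h : TrState τ) (B X : A) :
    (τ (star B * (star X * X) * B)).re ≤ ‖X‖ ^ 2 * (τ (star B * B)).re := by
  let _ := CStarAlgebra.spectralOrder A
  have _ := CStarAlgebra.spectralOrderedRing A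
  have h1 : star B * (star X * X) * B ≤ ‖star X * X‖ • (star B * B) :=
    CStarAlgebra.star_left_conjugate_le_norm_smul
  have h2 : 0 ≤ ‖star X * X‖ • (star B * B) - star B * (star X * X) * B := sub_nonneg.2 h1
  obtain ⟨d, hd⟩ := CStarAlgebra.nonneg_iff_eq_star_mul_self.1 h2
  have h3 := h.nonneg d
  rw [← hd, map_sub, Complex.sub_re, CStarRing.norm_star_mul_self] at h3
  have h4 : (‖X‖ * ‖X‖) • (star B * B) = ((‖X‖ * ‖X‖ : ℝ) : ℂ) • (star B * B) := by
    rw [Complex.coe_smul]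
  rw [h4, map_smul, smul_eq_mul, Complex.re_ofReal_mul] at h3
  nlinarith [h3]

end

/-! ### roots of unity -/

/-- `exp(2 π i / Q)` as an element of the circle -/
noncomputable def zt (Q : ℕ) : ℂ := Complex.exp (2 * Real.pi * Complex.I / Q)

theorem zt_prim (Q : ℕ) (hQ : Q ≠ 0) : IsPrimitiveRoot (zt Q) Q :=
  Complex.isPrimitiveRoot_exp Q hQ

theorem zt_norm (Q : ℕ) (hQ : Q ≠ 0) : ‖zt Q‖ = 1 :=
  (zt_prim Q hQ).norm'_eq_one hQ

theorem zt_ne (Q : ℕ) : zt Q ≠ 0 := Complex.exp_ne_zero _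

theorem zt_sum (Q : ℕ) (hQ : Q ≠ 0) (m : ℤ) (hm : |m| < Q) :
    ∑ j ∈ range Q, ((zt Q) ^ j) ^ m = if m = 0 then (Q : ℂ) else 0 := by
  split_ifs with h
  · subst h; simp
  · have h1 : ∀ j ∈ range Q, ((zt Q) ^ j) ^ m = ((zt Q) ^ m) ^ j := by
      intro j _
      rw [← zpow_natCast, ← zpow_natCast, ← zpow_mul, ← zpow_mul, mul_comm]
    rw [sum_congr rfl h1]
    have hne : (zt Q) ^ m ≠ 1 := by
      intro h2
      have := ((zt_prim Q hQ).zpow_eq_one_iff_dvd m).1 h2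
      have h3 := Int.le_of_dvd (abs_pos.2 h) ((dvd_abs _ _).2 this)
      omega
    have h4 : ((zt Q) ^ m) ^ Q = 1 := by
      rw [← zpow_natCast, ← zpow_mul, mul_comm, zpow_mul, zpow_natCast, (zt_prim Q hQ).pow_eq_one,
        one_zpow]
    have := mul_neg_geom_sum ((zt Q) ^ m) Q
    rw [h4, sub_self] at this
    rcases mul_eq_zero.1 this with h5 | h5
    · exact absurd (sub_eq_zero.1 h5).symm hne
    · exact h5

/-! ### counting -/

/-- number of pairs `(k,l)` in `range N` with `n + k - l = 0` -/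
def cnt (N : ℕ) (n : ℤ) : ℕ :=
  ∑ k ∈ range N, ∑ l ∈ range N, if n + (k : ℤ) - (l : ℤ) = 0 then 1 else 0

theorem cnt_le (N : ℕ) (n : ℤ) : cnt N n ≤ N := by
  have : ∀ k ∈ range N, (∑ l ∈ range N, if n + (k : ℤ) - (l : ℤ) = 0 then 1 else 0) ≤ 1 := by
    intro k _
    rw [← card_filter]
    refine card_le_one.2 fun a ha b hb => ?_
    have h1 := (mem_filter.1 ha).2
    have h2 := (mem_filter.1 hb).2
    omega
  calc cnt N n ≤ ∑ k ∈ range N, 1 := sum_le_sum this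
    _ = N := by simp

theorem le_cnt (N : ℕ) (n : ℤ) : N ≤ cnt N n + n.natAbs := by
  have h1 : ∀ k ∈ range N, (if 0 ≤ n + (k : ℤ) ∧ n + (k : ℤ) < N then 1 else 0) ≤
      (∑ l ∈ range N, if n + (k : ℤ) - (l : ℤ) = 0 then 1 else 0) := by
    intro k _
    split_ifs with h
    · have hm : (n + (k : ℤ)).toNat ∈ range N := by rw [mem_range]; omega
      refine le_trans ?_ (single_le_sum (f := fun l : ℕ => if n + (k : ℤ) - (l : ℤ) = 0 then 1 else 0)
        (fun _ _ => Nat.zero_le _) hm)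
      rw [if_pos (by omega)]
    · exact Nat.zero_le _
  have h2 : N ≤ (∑ k ∈ range N, if 0 ≤ n + (k : ℤ) ∧ n + (k : ℤ) < N then 1 else 0) +
      n.natAbs := by
    rw [← card_filter]
    have h3 : range N ⊆ ((range N).filter fun k : ℕ => 0 ≤ n + (k : ℤ) ∧ n + (k : ℤ) < N) ∪
        (if 0 ≤ n then (range n.natAbs).image (fun i => N - 1 - i) else range n.natAbs) := by
      intro k hk
      rw [mem_union, mem_filter]
      have hk' := mem_range.1 hk
      by_cases hc : 0 ≤ n + (k : ℤ) ∧ n + (k : ℤ) < N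
      · exact Or.inl ⟨hk, hc⟩
      · right
        split_ifs with hn
        · rw [mem_image]
          refine ⟨N - 1 - k, ?_, by omega⟩
          rw [mem_range]; omega
        · rw [mem_range]; omega
    have h4 := card_le_card h3
    rw [card_range] at h4
    refine h4.trans ((card_union_le _ _).trans (Nat.add_le_add_left ?_ _))
    split_ifs
    · exact (card_image_le).trans (by rw [card_range])
    · rw [card_range]
  exact h2.trans (Nat.add_le_add_right (sum_le_sum h1) _)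

theorem cnt_lim (n : ℤ) : Tendsto (fun N : ℕ => ((cnt N n : ℝ) / N : ℝ)) atTop (𝓝 1) := by
  have h1 : Tendsto (fun N : ℕ => 1 - (n.natAbs : ℝ) / N) atTop (𝓝 (1 - 0)) :=
    tendsto_const_nhds.sub (tendsto_const_div_atTop_nhds_zero_nat _)
  rw [sub_zero] at h1
  refine tendsto_of_tendsto_of_tendsto_of_le_of_le' h1 tendsto_const_nhds ?_ ?_
  · filter_upwards [eventually_gt_atTop 0] with N hN
    have hN' : (0 : ℝ) < N := by exact_mod_cast hN
    have : (N : ℝ) ≤ cnt N n + n.natAbs := by exact_mod_cast le_cnt N n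
    rw [le_div_iff₀ hN', sub_mul, one_mul, div_mul_cancel₀ _ hN'.ne']
    linarith
  · filter_upwards [eventually_gt_atTop 0] with N hN
    have hN' : (0 : ℝ) < N := by exact_mod_cast hN
    rw [div_le_one hN']
    exact_mod_cast cnt_le N n

/-! ### the main estimate -/

section main
variable {A : Type*} [CStarAlgebra A] {τ : A →ₗ[ℂ] ℂ}

/-- integer powers of a unitary, as elements of `A` -/
def WW (w : unitary A) (n : ℤ) : A := ((w ^ n : unitary A) : A)

theorem WW_add (w : unitary A) (m n : ℤ) : WW w m * WW w n = WW w (m + n) := by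
  rw [WW, WW, WW, zpow_add]; rfl

theorem WW_zero (w : unitary A) : WW w 0 = 1 := by
  rw [WW, zpow_zero]; rfl

theorem star_WW (w : unitary A) (n : ℤ) : star (WW w n) = WW w (-n) := by
  rw [WW, WW, zpow_neg, ← Unitary.star_eq_inv]; rfl

theorem WW_natCast (w : unitary A) (n : ℕ) : WW w (n : ℤ) = (w : A) ^ n := by
  rw [WW, zpow_natCast]; rfl

theorem WW_neg_natCast (w : unitary A) (n : ℕ) : WW w (-(n : ℤ)) = star (w : A) ^ n := by
  rw [← star_WW, WW_natCast, star_pow]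

theorem conj_zpow_circle (z : ℂ) (hz : ‖z‖ = 1) (k : ℤ) : conj (z ^ k) = z ^ (-k) := by
  have h1 : z * conj z = 1 := by rw [Complex.mul_conj, Complex.normSq_eq_norm_sq, hz]; norm_num
  have h2 : conj z = z⁻¹ := eq_inv_of_mul_eq_one_right h1
  rw [map_zpow₀, h2, inv_zpow, zpow_neg]

/-- `P` -/
noncomputable def PP (w : unitary A) (L : ℕ) (z : ℂ) : A :=
  ∑ n ∈ Icc 1 L, ((1 / n : ℝ) : ℂ) •
    (z ^ (n : ℤ) • WW w (n : ℤ) - z ^ (-(n : ℤ)) • WW w (-(n : ℤ)))

/-- `B` -/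
noncomputable def BB (w : unitary A) (N : ℕ) (z : ℂ) : A :=
  ∑ k ∈ range N, z ^ (k : ℤ) • WW w (k : ℤ)

theorem PP_norm (w : unitary A) (L : ℕ) (z : ℂ) (hz : ‖z‖ = 1) :
    ‖PP w L z‖ ≤ 2 + 2 * Real.pi := by
  have h1 : z * conj z = 1 := by rw [Complex.mul_conj, Complex.normSq_eq_norm_sq, hz]; norm_num
  have hv : z • (w : A) ∈ unitary A := by
    rw [Unitary.mem_iff]
    have hw := Unitary.mem_iff.1 w.2
    constructor
    · rw [star_smul, smul_mul_smul_comm, hw.1]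
      have : star z * z = 1 := by rw [mul_comm]; exact h1
      rw [this, one_smul]
    · rw [star_smul, smul_mul_smul_comm, hw.2]
      have : z * star z = 1 := h1
      rw [this, one_smul]
  have h := ker_unitary (z • (w : A)) hv L
  have e : PP w L z = ∑ n ∈ Icc 1 L, ((1 / n : ℝ) : ℂ) •
      ((z • (w : A)) ^ n - star (z • (w : A)) ^ n) := by
    refine sum_congr rfl fun n _ => ?_
    rw [smul_pow, star_smul, smul_pow, WW_natCast, WW_neg_natCast, zpow_natCast]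
    congr 3
    rw [← conj_zpow_circle z hz, zpow_natCast, map_pow]
    rfl
  rw [e]; exact h

theorem star_BB (w : unitary A) (N : ℕ) (z : ℂ) (hz : ‖z‖ = 1) :
    star (BB w N z) = ∑ l ∈ range N, z ^ (-(l : ℤ)) • WW w (-(l : ℤ)) := by
  rw [BB, star_sum]
  refine sum_congr rfl fun k _ => ?_
  rw [star_smul, star_WW]
  congr 1
  exact conj_zpow_circle z hz k

theorem BB_star (w : unitary A) (N : ℕ) (z : ℂ) (hz : ‖z‖ = 1) :
    BB w N z * star (BB w N z) =
      ∑ k ∈ range N, ∑ l ∈ range N, z ^ ((k : ℤ) - l) • WW w ((k : ℤ) - l) := by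
  have hz0 : z ≠ 0 := by intro h; rw [h, norm_zero] at hz; exact zero_ne_one hz
  rw [star_BB w N z hz, BB, sum_mul_sum]
  refine sum_congr rfl fun k _ => sum_congr rfl fun l _ => ?_
  rw [smul_mul_smul_comm, WW_add, ← zpow_add₀ hz0, sub_eq_add_neg]

theorem star_BB_BB (w : unitary A) (N : ℕ) (z : ℂ) (hz : ‖z‖ = 1) :
    star (BB w N z) * BB w N z =
      ∑ k ∈ range N, ∑ l ∈ range N, z ^ ((k : ℤ) - l) • WW w ((k : ℤ) - l) := by
  have hz0 : z ≠ 0 := by intro h; rw [h, norm_zero] at hz; exact zero_ne_one hz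
  rw [star_BB w N z hz, BB, sum_mul_sum, sum_comm]
  refine sum_congr rfl fun k _ => sum_congr rfl fun l _ => ?_
  rw [smul_mul_smul_comm, WW_add, ← zpow_add₀ hz0]
  congr 2 <;> ring

/-- averages of linear functionals of `B B*` -/
theorem avg_BB (φ : A →ₗ[ℂ] ℂ) (w : unitary A) (N Q : ℕ) (hQ : Q ≠ 0) (hNQ : N ≤ Q) :
    ∑ j ∈ range Q, φ (∑ k ∈ range N, ∑ l ∈ range N,
      ((zt Q) ^ j) ^ ((k : ℤ) - l) • WW w ((k : ℤ) - l)) = (Q : ℂ) * N * φ 1 := by
  have h1 : ∀ j ∈ range Q, φ (∑ k ∈ range N, ∑ l ∈ range N,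
      ((zt Q) ^ j) ^ ((k : ℤ) - l) • WW w ((k : ℤ) - l)) =
      ∑ k ∈ range N, ∑ l ∈ range N, ((zt Q) ^ j) ^ ((k : ℤ) - l) * φ (WW w ((k : ℤ) - l)) := by
    intro j _
    rw [map_sum]
    refine sum_congr rfl fun k _ => ?_
    rw [map_sum]
    refine sum_congr rfl fun l _ => ?_
    rw [map_smul, smul_eq_mul]
  rw [sum_congr rfl h1, sum_comm]
  have h2 : ∀ k ∈ range N, ∑ j ∈ range Q, ∑ l ∈ range N,
      ((zt Q) ^ j) ^ ((k : ℤ) - l) * φ (WW w ((k : ℤ) - l)) = (Q : ℂ) * φ 1 := by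
    intro k hk
    rw [sum_comm]
    have h3 : ∀ l ∈ range N, ∑ j ∈ range Q, ((zt Q) ^ j) ^ ((k : ℤ) - l) *
        φ (WW w ((k : ℤ) - l)) = if l = k then (Q : ℂ) * φ 1 else 0 := by
      intro l hl
      have hk' := mem_range.1 hk
      have hl' := mem_range.1 hl
      rw [← sum_mul, zt_sum Q hQ _ (by rw [abs_lt]; omega)]
      by_cases hlk : l = k
      · subst hlk; simp [WW_zero]
      · rw [if_neg (by omega), if_neg hlk, zero_mul]
    rw [sum_congr rfl h3, sum_ite_eq' (range N) k, if_pos hk]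
  rw [sum_congr rfl h2, sum_const, card_range, nsmul_eq_mul]
  ring

/-- the identity for the twisted average -/
theorem avg_I (T : A →L[ℂ] A) (w : unitary A) (c β : A) (L N Q : ℕ) (hQ : L + N < Q) :
    ∑ j ∈ range Q, τ (T (PP w L ((zt Q) ^ j) * c) * β *
      (∑ k ∈ range N, ∑ l ∈ range N, ((zt Q) ^ j) ^ ((k : ℤ) - l) • WW w ((k : ℤ) - l))) =
    (Q : ℂ) * ∑ n ∈ Icc 1 L, ((1 / n : ℝ) : ℂ) *
      ((cnt N n : ℂ) * τ (T (WW w n * c) * β * WW w (-(n : ℤ))) -
        (cnt N (-(n : ℤ)) : ℂ) * τ (T (WW w (-(n : ℤ)) * c) * β * WW w n)) := by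
  have hQ0 : Q ≠ 0 := by omega
  have hz0 : ∀ j : ℕ, (zt Q) ^ j ≠ 0 := fun j => pow_ne_zero _ (zt_ne Q)
  -- the general single frequency identity
  have key : ∀ a : ℤ, |a| ≤ L → ∑ j ∈ range Q, ∑ k ∈ range N, ∑ l ∈ range N,
      ((zt Q) ^ j) ^ a * ((zt Q) ^ j) ^ ((k : ℤ) - l) *
        τ (T (WW w a * c) * β * WW w ((k : ℤ) - l)) =
      (Q : ℂ) * ((cnt N a : ℂ) * τ (T (WW w a * c) * β * WW w (-a))) := by
    intro a ha
    rw [sum_comm]
    have h3 : ∀ k ∈ range N, ∑ j ∈ range Q, ∑ l ∈ range N,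
        ((zt Q) ^ j) ^ a * ((zt Q) ^ j) ^ ((k : ℤ) - l) *
          τ (T (WW w a * c) * β * WW w ((k : ℤ) - l)) =
        ∑ l ∈ range N, (if a + (k : ℤ) - (l : ℤ) = 0 then 1 else 0) *
          ((Q : ℂ) * τ (T (WW w a * c) * β * WW w (-a))) := by
      intro k hk
      rw [sum_comm]
      refine sum_congr rfl fun l hl => ?_
      have hk' := mem_range.1 hk
      have hl' := mem_range.1 hl
      have h4 : ∀ j ∈ range Q, ((zt Q) ^ j) ^ a * ((zt Q) ^ j) ^ ((k : ℤ) - l) *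
          τ (T (WW w a * c) * β * WW w ((k : ℤ) - l)) =
          ((zt Q) ^ j) ^ (a + (k : ℤ) - l) * τ (T (WW w a * c) * β * WW w ((k : ℤ) - l)) := by
        intro j _
        rw [← zpow_add₀ (hz0 j), add_sub_assoc]
      have ha' := abs_le.1 ha
      rw [sum_congr rfl h4, ← sum_mul, zt_sum Q hQ0 _ (by rw [abs_lt]; omega)]
      by_cases h5 : a + (k : ℤ) - l = 0
      · have h6 : (k : ℤ) - l = -a := by omega
        rw [if_pos h5, if_pos h5, h6, one_mul]
      · rw [if_neg h5, if_neg h5, zero_mul, zero_mul]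
    rw [sum_congr rfl h3]
    simp only [← sum_mul]
    rw [cnt]
    push_cast
    ring
  have hexp : ∀ j ∈ range Q, τ (T (PP w L ((zt Q) ^ j) * c) * β *
      (∑ k ∈ range N, ∑ l ∈ range N, ((zt Q) ^ j) ^ ((k : ℤ) - l) • WW w ((k : ℤ) - l))) =
      ∑ n ∈ Icc 1 L, ((1 / n : ℝ) : ℂ) *
        (∑ k ∈ range N, ∑ l ∈ range N, ((zt Q) ^ j) ^ (n : ℤ) * ((zt Q) ^ j) ^ ((k : ℤ) - l) *
          τ (T (WW w n * c) * β * WW w ((k : ℤ) - l)) -
        ∑ k ∈ range N, ∑ l ∈ range N, ((zt Q) ^ j) ^ (-(n : ℤ)) * ((zt Q) ^ j) ^ ((k : ℤ) - l) *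
          τ (T (WW w (-(n : ℤ)) * c) * β * WW w ((k : ℤ) - l))) := by
    intro j _
    rw [PP, sum_mul, map_sum, sum_mul, sum_mul, map_sum]
    refine sum_congr rfl fun n _ => ?_
    rw [smul_mul_assoc, map_smul, smul_mul_assoc, smul_mul_assoc, map_smul, smul_eq_mul, sub_mul,
      map_sub, sub_mul, sub_mul, map_sub]
    congr 2
    · rw [smul_mul_assoc, map_smul, mul_sum, map_sum]
      refine sum_congr rfl fun k _ => ?_
      rw [mul_sum, map_sum]
      refine sum_congr rfl fun l _ => ?_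
      rw [smul_mul_assoc, smul_mul_smul_comm, map_smul, smul_eq_mul]
    · rw [smul_mul_assoc, map_smul, mul_sum, map_sum]
      refine sum_congr rfl fun k _ => ?_
      rw [mul_sum, map_sum]
      refine sum_congr rfl fun l _ => ?_
      rw [smul_mul_assoc, smul_mul_smul_comm, map_smul, smul_eq_mul]
  rw [sum_congr rfl hexp, sum_comm, mul_sum]
  refine sum_congr rfl fun n hn => ?_
  have hn' := mem_Icc.1 hn
  rw [← mul_sum, sum_sub_distrib, key n (by rw [abs_le]; omega), key (-(n : ℤ)) (by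
    rw [abs_le]; omega), neg_neg]
  ring

theorem sum_sqrt_sqrt_le {ι : Type*} (s : Finset ι) (f g : ι → ℝ) (hf : ∀ j ∈ s, 0 ≤ f j)
    (hg : ∀ j ∈ s, 0 ≤ g j) :
    ∑ j ∈ s, Real.sqrt (f j) * Real.sqrt (g j) ≤
      Real.sqrt (∑ j ∈ s, f j) * Real.sqrt (∑ j ∈ s, g j) := by
  rw [← Real.sqrt_mul (sum_nonneg hf)]
  refine Real.le_sqrt_of_sq_le ?_
  refine (sum_mul_sq_le_sq_mul_sq s _ _).trans (le_of_eq ?_)
  congr 1
  · exact sum_congr rfl fun j hj => Real.sq_sqrt (hf j hj)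
  · exact sum_congr rfl fun j hj => Real.sq_sqrt (hg j hj)

/-- the estimate for fixed `N` -/
theorem jump_N (h : TrState τ) (T : A →L[ℂ] A) (w : unitary A) (c β : A) (L N : ℕ) :
    ‖∑ n ∈ Icc 1 L, ((1 / n : ℝ) : ℂ) *
      ((cnt N n : ℂ) * τ (T (WW w n * c) * β * WW w (-(n : ℤ))) -
        (cnt N (-(n : ℤ)) : ℂ) * τ (T (WW w (-(n : ℤ)) * c) * β * WW w n))‖ ≤
      N * ((2 + 2 * Real.pi) * ‖T‖ * ‖c‖ * nt τ β) := by
  set Q : ℕ := L + N + 1 with hQdef
  have hQ0 : Q ≠ 0 := by omega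
  have hQpos : (0 : ℝ) < Q := by exact_mod_cast Nat.pos_of_ne_zero hQ0
  have hzn : ∀ j : ℕ, ‖(zt Q) ^ j‖ = 1 := fun j => by rw [norm_pow, zt_norm Q hQ0, one_pow]
  have hI := avg_I (τ := τ) T w c β L N Q (by omega)
  -- termwise bound
  have hterm : ∀ j ∈ range Q, ‖τ (T (PP w L ((zt Q) ^ j) * c) * β *
      (∑ k ∈ range N, ∑ l ∈ range N, ((zt Q) ^ j) ^ ((k : ℤ) - l) • WW w ((k : ℤ) - l)))‖ ≤
      ((2 + 2 * Real.pi) * ‖T‖ * ‖c‖) *
        (Real.sqrt (τ (∑ k ∈ range N, ∑ l ∈ range N,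
          ((zt Q) ^ j) ^ ((k : ℤ) - l) • WW w ((k : ℤ) - l))).re *
        Real.sqrt (τ (star β * β * ∑ k ∈ range N, ∑ l ∈ range N,
          ((zt Q) ^ j) ^ ((k : ℤ) - l) • WW w ((k : ℤ) - l))).re) := by
    intro j _
    set z := (zt Q) ^ j with hz
    set X := T (PP w L z * c) with hX
    set B := BB w N z with hB
    rw [← BB_star w N z (hzn j)]
    have e1 : τ (X * β * (B * star B)) = τ (star (star X * B) * (β * B)) := by
      rw [star_mul, star_star, mul_assoc (star B), ← mul_assoc X, h.tr (star B)]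
      simp only [mul_assoc]
    have e2 := cs_tr h (star X * B) (β * B)
    have e3 : (τ (star (star X * B) * (star X * B))).re ≤ ‖X‖ ^ 2 * (τ (star B * B)).re := by
      have := mono_tr h B (star X)
      rw [star_star, norm_star] at this
      rw [star_mul, star_star]
      simp only [mul_assoc] at this ⊢
      exact this
    have e4 : τ (star (β * B) * (β * B)) = τ (star β * β * (B * star B)) := by
      rw [star_mul, mul_assoc, h.tr (star B)]
      simp only [mul_assoc]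
    have e5 : τ (star B * B) = τ (B * star B) := h.tr _ _
    have hXn : ‖X‖ ≤ (2 + 2 * Real.pi) * ‖T‖ * ‖c‖ := by
      calc ‖X‖ ≤ ‖T‖ * ‖PP w L z * c‖ := T.le_opNorm _
        _ ≤ ‖T‖ * (‖PP w L z‖ * ‖c‖) := mul_le_mul_of_nonneg_left (norm_mul_le _ _) (norm_nonneg _)
        _ ≤ ‖T‖ * ((2 + 2 * Real.pi) * ‖c‖) :=
            mul_le_mul_of_nonneg_left (mul_le_mul_of_nonneg_right (PP_norm w L z (hzn j))
              (norm_nonneg _)) (norm_nonneg _)
        _ = (2 + 2 * Real.pi) * ‖T‖ * ‖c‖ := by ring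
    rw [e1]
    refine e2.trans ?_
    rw [e4]
    have e6 : Real.sqrt (τ (star (star X * B) * (star X * B))).re ≤
        ‖X‖ * Real.sqrt (τ (B * star B)).re := by
      rw [e5] at e3
      calc Real.sqrt (τ (star (star X * B) * (star X * B))).re ≤
            Real.sqrt (‖X‖ ^ 2 * (τ (B * star B)).re) := Real.sqrt_le_sqrt e3
        _ = ‖X‖ * Real.sqrt (τ (B * star B)).re := by
            rw [Real.sqrt_mul (by positivity), Real.sqrt_sq (norm_nonneg _)]
    have e7 := e6.trans (mul_le_mul_of_nonneg_right hXn (Real.sqrt_nonneg _))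
    exact (mul_le_mul_of_nonneg_right e7 (Real.sqrt_nonneg _)).trans (le_of_eq (by ring))
  have hnn1 : ∀ j ∈ range Q, 0 ≤ (τ (∑ k ∈ range N, ∑ l ∈ range N,
      ((zt Q) ^ j) ^ ((k : ℤ) - l) • WW w ((k : ℤ) - l))).re := by
    intro j _
    rw [← star_BB_BB w N _ (hzn j)]
    exact h.nonneg _
  have hnn2 : ∀ j ∈ range Q, 0 ≤ (τ (star β * β * ∑ k ∈ range N, ∑ l ∈ range N,
      ((zt Q) ^ j) ^ ((k : ℤ) - l) • WW w ((k : ℤ) - l))).re := by
    intro j _
    rw [← BB_star w N _ (hzn j)]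
    have := h.nonneg (β * BB w N ((zt Q) ^ j))
    have e4 : τ (star (β * BB w N ((zt Q) ^ j)) * (β * BB w N ((zt Q) ^ j))) =
        τ (star β * β * (BB w N ((zt Q) ^ j) * star (BB w N ((zt Q) ^ j)))) := by
      rw [star_mul, mul_assoc, h.tr (star (BB w N ((zt Q) ^ j)))]
      simp only [mul_assoc]
    rwa [e4] at this
  have hs1 : ∑ j ∈ range Q, (τ (∑ k ∈ range N, ∑ l ∈ range N,
      ((zt Q) ^ j) ^ ((k : ℤ) - l) • WW w ((k : ℤ) - l))).re = Q * N := by
    have := avg_BB τ w N Q hQ0 (by omega)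
    rw [h.one, mul_one] at this
    have h2 := congrArg Complex.re this
    rw [Complex.re_sum] at h2
    rw [h2]
    have : ((Q : ℂ) * N) = ((Q * N : ℝ) : ℂ) := by push_cast; ring
    rw [this, Complex.ofReal_re]
  have hs2 : ∑ j ∈ range Q, (τ (star β * β * ∑ k ∈ range N, ∑ l ∈ range N,
      ((zt Q) ^ j) ^ ((k : ℤ) - l) • WW w ((k : ℤ) - l))).re =
      Q * N * (τ (star β * β)).re := by
    have := avg_BB (τ ∘ₗ LinearMap.mulLeft ℂ (star β * β)) w N Q hQ0 (by omega)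
    simp only [LinearMap.comp_apply, LinearMap.mulLeft_apply, mul_one] at this
    have h2 := congrArg Complex.re this
    rw [Complex.re_sum] at h2
    rw [h2]
    have : ((Q : ℂ) * N) = ((Q * N : ℝ) : ℂ) := by push_cast; ring
    rw [this, Complex.re_ofReal_mul]
  have hcs : ∑ j ∈ range Q, (Real.sqrt (τ (∑ k ∈ range N, ∑ l ∈ range N,
          ((zt Q) ^ j) ^ ((k : ℤ) - l) • WW w ((k : ℤ) - l))).re *
        Real.sqrt (τ (star β * β * ∑ k ∈ range N, ∑ l ∈ range N,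
          ((zt Q) ^ j) ^ ((k : ℤ) - l) • WW w ((k : ℤ) - l))).re) ≤ Q * N * nt τ β := by
    refine (sum_sqrt_sqrt_le _ _ _ hnn1 hnn2).trans (le_of_eq ?_)
    rw [hs1, hs2, nt, Real.sqrt_mul (by positivity : (0 : ℝ) ≤ (Q : ℝ) * N), ← mul_assoc,
      Real.mul_self_sqrt (by positivity)]
  have hfin := norm_sum_le_of_le (range Q) hterm
  rw [hI, ← mul_sum, norm_mul, Complex.norm_natCast] at hfin
  have h3 : 0 ≤ (2 + 2 * Real.pi) * ‖T‖ * ‖c‖ := by positivity
  have h4 := hfin.trans (mul_le_mul_of_nonneg_left hcs h3)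
  have h5 : (Q : ℝ) * ‖∑ n ∈ Icc 1 L, ((1 / n : ℝ) : ℂ) *
      ((cnt N n : ℂ) * τ (T (WW w n * c) * β * WW w (-(n : ℤ))) -
        (cnt N (-(n : ℤ)) : ℂ) * τ (T (WW w (-(n : ℤ)) * c) * β * WW w n))‖ ≤
      Q * (N * ((2 + 2 * Real.pi) * ‖T‖ * ‖c‖ * nt τ β)) := by
    refine h4.trans (le_of_eq ?_)
    ring
  exact le_of_mul_le_mul_left h5 hQpos

/-- **JUMP LEMMA** -/
theorem jumpWW (h : TrState τ) (T : A →L[ℂ] A) (w : unitary A) (c β : A) (L : ℕ) :
    ‖∑ n ∈ Icc 1 L, ((1 / n : ℝ) : ℂ) *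
      (τ (WW w (-(n : ℤ)) * T (WW w n * c) * β) -
        τ (WW w n * T (WW w (-(n : ℤ)) * c) * β))‖ ≤
      (2 + 2 * Real.pi) * ‖T‖ * ‖c‖ * nt τ β := by
  set K := (2 + 2 * Real.pi) * ‖T‖ * ‖c‖ * nt τ β with hK
  have hN : ∀ᶠ N : ℕ in atTop, ‖∑ n ∈ Icc 1 L, ((1 / n : ℝ) : ℂ) *
      ((((cnt N n : ℝ) / N : ℝ) : ℂ) * τ (T (WW w n * c) * β * WW w (-(n : ℤ))) -
        (((cnt N (-(n : ℤ)) : ℝ) / N : ℝ) : ℂ) *
          τ (T (WW w (-(n : ℤ)) * c) * β * WW w n))‖ ≤ K := by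
    filter_upwards [eventually_gt_atTop 0] with N hN
    have hN' : (0 : ℝ) < N := by exact_mod_cast hN
    have h1 := jump_N h T w c β L N
    have e : ∑ n ∈ Icc 1 L, ((1 / n : ℝ) : ℂ) *
      ((((cnt N n : ℝ) / N : ℝ) : ℂ) * τ (T (WW w n * c) * β * WW w (-(n : ℤ))) -
        (((cnt N (-(n : ℤ)) : ℝ) / N : ℝ) : ℂ) *
          τ (T (WW w (-(n : ℤ)) * c) * β * WW w n)) = ((1 / N : ℝ) : ℂ) *
        ∑ n ∈ Icc 1 L, ((1 / n : ℝ) : ℂ) *
      ((cnt N n : ℂ) * τ (T (WW w n * c) * β * WW w (-(n : ℤ))) -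
        (cnt N (-(n : ℤ)) : ℂ) * τ (T (WW w (-(n : ℤ)) * c) * β * WW w n)) := by
      rw [mul_sum]
      refine sum_congr rfl fun n _ => ?_
      push_cast
      ring
    rw [e, norm_mul, Complex.norm_real, Real.norm_eq_abs, abs_of_pos (by positivity)]
    rw [one_div, inv_mul_le_iff₀ hN']
    exact h1
  have hlim : Tendsto (fun N : ℕ => ∑ n ∈ Icc 1 L, ((1 / n : ℝ) : ℂ) *
      ((((cnt N n : ℝ) / N : ℝ) : ℂ) * τ (T (WW w n * c) * β * WW w (-(n : ℤ))) -
        (((cnt N (-(n : ℤ)) : ℝ) / N : ℝ) : ℂ) *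
          τ (T (WW w (-(n : ℤ)) * c) * β * WW w n))) atTop
      (𝓝 (∑ n ∈ Icc 1 L, ((1 / n : ℝ) : ℂ) *
      (((1 : ℝ) : ℂ) * τ (T (WW w n * c) * β * WW w (-(n : ℤ))) -
        ((1 : ℝ) : ℂ) * τ (T (WW w (-(n : ℤ)) * c) * β * WW w n)))) := by
    refine tendsto_finsetSum _ fun n _ => Tendsto.const_mul _ (Tendsto.sub ?_ ?_)
    · exact ((Complex.continuous_ofReal.tendsto _).comp (cnt_lim n)).mul_const _
    · exact ((Complex.continuous_ofReal.tendsto _).comp (cnt_lim (-(n : ℤ)))).mul_const _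
  have := le_of_tendsto hlim.norm hN
  refine le_trans (le_of_eq ?_) this
  congr 1
  refine sum_congr rfl fun n _ => ?_
  rw [Complex.ofReal_one, one_mul, one_mul]
  congr 2
  · rw [mul_assoc, h.tr]
  · rw [mul_assoc, h.tr]

end main

end Crest.Agent.R121.LJ
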