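import Crest.Agent.R121.LDefs
import Crest.Agent.R121.LJump

/-! ROW 121, L1 JUMP LEMMA (helper52).  Proof: ideas 555 L1.  Kernel bound: `LKer.lean`. -/

set_option autoImplicit false
open Finset

namespace Crest.Agent.R121

universe u
variable {A : Type u} [CStarAlgebra A] {τ : A →ₗ[ℂ] ℂ}

theorem L1_herm_sa (hτ : TrS τ) (a : A) (ha : star a = a) : (τ a).im = 0 := by
  have hnt : Nontrivial A := ⟨⟨0, 1, fun h => by
    have := hτ.one
    rw [← h, map_zero] at this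
    exact zero_ne_one this⟩⟩
  by_contra hne
  set t : ℝ := (‖a‖ ^ 2 + 1) / (2 * (τ a).im) with ht
  have h1 := hτ.norm_le (a + ((t : ℂ) * Complex.I) • (1 : A))
  have h2 : ‖a + ((t : ℂ) * Complex.I) • (1 : A)‖ ^ 2 ≤ ‖a‖ ^ 2 + t ^ 2 := by
    rw [pow_two, ← CStarRing.norm_star_mul_self]
    have e : star (a + ((t : ℂ) * Complex.I) • (1 : A)) * (a + ((t : ℂ) * Complex.I) • (1 : A)) =
        a * a + ((t ^ 2 : ℝ) : ℂ) • (1 : A) := by
      rw [star_add, ha, star_smul, star_one]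
      have e1 : star ((t : ℂ) * Complex.I) = -((t : ℂ) * Complex.I) := by
        simp
      rw [e1, add_mul, mul_add, mul_add, smul_mul_smul_comm, mul_one, mul_smul_comm,
        smul_mul_assoc, mul_one, one_mul, neg_smul]
      have e2 : -((t : ℂ) * Complex.I) * ((t : ℂ) * Complex.I) = ((t ^ 2 : ℝ) : ℂ) := by
        push_cast
        linear_combination (-(t : ℂ) ^ 2) * Complex.I_sq
      rw [e2]
      abel
    rw [e]
    refine (norm_add_le _ _).trans (add_le_add ?_ ?_)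
    · rw [pow_two]; exact norm_mul_le _ _
    · rw [norm_smul, CStarRing.norm_one, mul_one, Complex.norm_real, Real.norm_eq_abs,
        abs_of_nonneg (by positivity)]
  have h3 : ‖τ (a + ((t : ℂ) * Complex.I) • (1 : A))‖ ^ 2 ≤ ‖a‖ ^ 2 + t ^ 2 :=
    (pow_le_pow_left₀ (norm_nonneg _) h1 2).trans h2
  rw [map_add, map_smul, hτ.one, smul_eq_mul, mul_one, ← Complex.normSq_eq_norm_sq,
    Complex.normSq_apply] at h3
  have h4 : (τ a + (t : ℂ) * Complex.I).re = (τ a).re := by simp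
  have h5 : (τ a + (t : ℂ) * Complex.I).im = (τ a).im + t := by simp
  rw [h4, h5] at h3
  have h6 : 2 * (τ a).im * t = ‖a‖ ^ 2 + 1 := by
    rw [ht]; field_simp
  nlinarith [mul_self_nonneg (τ a).re, mul_self_nonneg (τ a).im]

theorem L1_herm (hτ : TrS τ) (a : A) : τ (star a) = (starRingEnd ℂ) (τ a) := by
  have e1 := realPart_add_I_smul_imaginaryPart a
  set p : A := (realPart a : A) with hp
  set q : A := (imaginaryPart a : A) with hq
  have hp' : star p = p := (realPart a).2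
  have hq' : star q = q := (imaginaryPart a).2
  have h1 := L1_herm_sa hτ p hp'
  have h2 := L1_herm_sa hτ q hq'
  have e2 : star a = p - Complex.I • q := by
    rw [← e1, star_add, star_smul, hp', hq']
    simp [sub_eq_add_neg]
  have e3 : (starRingEnd ℂ) (τ p) = τ p := Complex.conj_eq_iff_im.2 h1
  have e4 : (starRingEnd ℂ) (τ q) = τ q := Complex.conj_eq_iff_im.2 h2
  rw [e2, map_sub, map_smul]
  conv_rhs => rw [← e1, map_add, map_smul, smul_eq_mul, map_add, map_mul, e3, e4, Complex.conj_I]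
  rw [smul_eq_mul]
  ring

theorem TrS.toState (hτ : TrS τ) : LJ.TrState τ :=
  ⟨hτ.comm, hτ.nonneg, L1_herm hτ, hτ.one, hτ.norm_le⟩

theorem jump (hτ : TrS τ) {w : A} (hw : w ∈ unitary A) (T : A →L[ℂ] A) (c β : A) (L : ℕ) :
    ‖∑ n ∈ range L, (1 / ((n : ℂ) + 1)) * (τ (star (w ^ (n + 1)) * T (w ^ (n + 1) * c) * β) -
      τ (w ^ (n + 1) * T (star (w ^ (n + 1)) * c) * β))‖ ≤ 9 * ‖T‖ * ‖c‖ * n2 τ β := by
  have h1 := LJ.jumpWW hτ.toState T ⟨w, hw⟩ c β L
  have e : ∑ n ∈ Icc 1 L, ((1 / n : ℝ) : ℂ) *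
      (τ (LJ.WW ⟨w, hw⟩ (-(n : ℤ)) * T (LJ.WW ⟨w, hw⟩ n * c) * β) -
        τ (LJ.WW ⟨w, hw⟩ n * T (LJ.WW ⟨w, hw⟩ (-(n : ℤ)) * c) * β)) =
      ∑ n ∈ range L, (1 / ((n : ℂ) + 1)) * (τ (star (w ^ (n + 1)) * T (w ^ (n + 1) * c) * β) -
      τ (w ^ (n + 1) * T (star (w ^ (n + 1)) * c) * β)) := by
    rw [← Finset.sum_bij (s := range L) (i := fun n _ => n + 1)
      (f := fun n => (1 / ((n : ℂ) + 1)) * (τ (star (w ^ (n + 1)) * T (w ^ (n + 1) * c) * β) -
      τ (w ^ (n + 1) * T (star (w ^ (n + 1)) * c) * β)))]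
    · intro n hn
      have := mem_range.1 hn
      exact mem_Icc.2 ⟨by omega, by omega⟩
    · intro a _ b _ hab
      omega
    · intro n hn
      have := mem_Icc.1 hn
      exact ⟨n - 1, mem_range.2 (by omega), by omega⟩
    · intro n _
      rw [LJ.WW_natCast, LJ.WW_neg_natCast, star_pow]
      push_cast
      rfl
  rw [e] at h1
  refine h1.trans ?_
  have hpi : 2 + 2 * Real.pi ≤ 9 := by
    have := Real.pi_lt_d2
    linarith
  have e2 : LJ.nt τ β = n2 τ β := rfl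
  rw [e2]
  have h0 : 0 ≤ n2 τ β := Real.sqrt_nonneg _
  gcongr

end Crest.Agent.R121
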