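import Crest.Agent.R121.LDefs

/-! ROW 121, LB: basic facts about the 2-norm of a tracial state. -/

set_option autoImplicit false
open Finset

namespace Crest.Agent.R121

universe u
variable {A : Type u} [CStarAlgebra A] {τ : A →ₗ[ℂ] ℂ}

/-- the values on self-adjoint elements are real -/
theorem TrS.im_sa (hτ : TrS τ) {a : A} (ha : IsSelfAdjoint a) : (τ a).im = 0 := by
  have key : ∀ t : ℝ, (τ a).re ^ 2 + ((τ a).im + t) ^ 2 ≤ ‖a‖ ^ 2 + t ^ 2 := by
    intro t
    have h1 := hτ.norm_le (a + (t * Complex.I) • (1 : A))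
    have h2 : τ (a + (t * Complex.I) • (1 : A)) = τ a + t * Complex.I := by
      rw [map_add, map_smul, hτ.one, smul_eq_mul, mul_one]
    have h3 : ‖a + (t * Complex.I) • (1 : A)‖ ^ 2 ≤ ‖a‖ ^ 2 + t ^ 2 := by
      have h4 : Star.star (a + (t * Complex.I) • (1 : A)) * (a + (t * Complex.I) • (1 : A)) =
          a * a + ((t ^ 2 : ℝ) : ℂ) • (1 : A) := by
        rw [star_add, star_smul, star_one, ha.star_eq, mul_add, add_mul, add_mul]
        simp only [smul_mul_assoc, mul_smul_comm, mul_one, one_mul, smul_smul]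
        have h5 : Star.star ((t : ℂ) * Complex.I) = -((t : ℂ) * Complex.I) := by
          simp
        rw [h5, neg_smul]
        have h6 : ((t : ℂ) * Complex.I) * -((t : ℂ) * Complex.I) = ((t ^ 2 : ℝ) : ℂ) := by
          push_cast
          linear_combination (-(t : ℂ) ^ 2) * Complex.I_mul_I
        rw [h6]
        abel
      have h7 := CStarRing.norm_star_mul_self (x := a + (t * Complex.I) • (1 : A))
      rw [h4] at h7
      rw [sq, ← h7]
      refine (norm_add_le _ _).trans ?_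
      have h8 : ‖a * a‖ ≤ ‖a‖ ^ 2 := by rw [sq]; exact norm_mul_le _ _
      have h9 : ‖((t ^ 2 : ℝ) : ℂ) • (1 : A)‖ ≤ t ^ 2 := by
        rw [norm_smul, Complex.norm_real, Real.norm_of_nonneg (sq_nonneg t)]
        rcases subsingleton_or_nontrivial A with hA | hA
        · rw [Subsingleton.elim (1 : A) 0, norm_zero, mul_zero]; positivity
        · rw [CStarRing.norm_one, mul_one]
      linarith
    rw [h2] at h1
    have h10 : ‖τ a + t * Complex.I‖ ^ 2 = (τ a).re ^ 2 + ((τ a).im + t) ^ 2 := by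
      rw [← Complex.normSq_eq_norm_sq, Complex.normSq_apply]
      simp
      ring
    rw [← h10]
    refine le_trans ?_ h3
    exact pow_le_pow_left₀ (norm_nonneg _) h1 2
  by_contra hne
  have h1 := key ((‖a‖ ^ 2 + 1) / (2 * (τ a).im))
  have h2 : 2 * (τ a).im * ((‖a‖ ^ 2 + 1) / (2 * (τ a).im)) = ‖a‖ ^ 2 + 1 := by
    field_simp
  nlinarith [sq_nonneg (τ a).re, sq_nonneg (τ a).im]

theorem TrS.star (hτ : TrS τ) (a : A) : τ (star a) = (starRingEnd ℂ) (τ a) := by
  have h1 := realPart_add_I_smul_imaginaryPart a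
  have h2 : Star.star a = (realPart a : A) - Complex.I • (imaginaryPart a : A) := by
    conv_lhs => rw [← h1]
    rw [star_add, star_smul, (realPart a).2.star_eq, (imaginaryPart a).2.star_eq]
    simp [sub_eq_add_neg]
  have h3 := hτ.im_sa (realPart a).2
  have h4 := hτ.im_sa (imaginaryPart a).2
  have h5 : (starRingEnd ℂ) (τ (realPart a : A)) = τ (realPart a : A) :=
    Complex.conj_eq_iff_im.2 h3
  have h6 : (starRingEnd ℂ) (τ (imaginaryPart a : A)) = τ (imaginaryPart a : A) :=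
    Complex.conj_eq_iff_im.2 h4
  rw [h2, map_sub, map_smul]
  conv_rhs => rw [← h1]
  rw [map_add, map_smul, map_add, smul_eq_mul, map_mul, h5, h6, Complex.conj_I]
  ring

theorem q2_nonneg (hτ : TrS τ) (x : A) : 0 ≤ q2 τ x := hτ.nonneg x

theorem n2_nonneg (x : A) : 0 ≤ n2 τ x := Real.sqrt_nonneg _

theorem n2_sq (hτ : TrS τ) (x : A) : n2 τ x ^ 2 = q2 τ x := Real.sq_sqrt (hτ.nonneg x)

theorem tau_star_mul (hτ : TrS τ) (x : A) : τ (star x * x) = (q2 τ x : ℂ) := by
  apply Complex.ext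
  · simp [q2]
  · rw [hτ.im_sa (IsSelfAdjoint.star_mul_self x), Complex.ofReal_im]

/-- the pre-inner product (helper37) `⟪x, y⟫ = τ (x* y)` -/
noncomputable def lbCore (hτ : TrS τ) : PreInnerProductSpace.Core ℂ A where
  inner x y := τ (star x * y)
  conj_inner_symm x y := by
    show (starRingEnd ℂ) (τ (Star.star y * x)) = τ (Star.star x * y)
    rw [← hτ.star, star_mul, star_star]
  re_inner_nonneg x := hτ.nonneg x
  add_left x y z := by
    show τ (Star.star (x + y) * z) = τ (Star.star x * z) + τ (Star.star y * z)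
    rw [star_add, add_mul, map_add]
  smul_left x y r := by
    show τ (Star.star (r • x) * y) = (starRingEnd ℂ) r * τ (Star.star x * y)
    rw [star_smul, smul_mul_assoc, map_smul, smul_eq_mul]
    rfl

theorem cs (hτ : TrS τ) (x y : A) : ‖τ (star x * y)‖ ≤ n2 τ x * n2 τ y := by
  have h1 : ‖τ (Star.star x * y)‖ * ‖τ (Star.star y * x)‖ ≤ q2 τ x * q2 τ y :=
    @InnerProductSpace.Core.inner_mul_inner_self_le ℂ A _ _ _ (lbCore hτ) x y
  have h2 : ‖τ (Star.star y * x)‖ = ‖τ (Star.star x * y)‖ := by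
    have : Star.star y * x = Star.star (Star.star x * y) := by rw [star_mul, star_star]
    rw [this, hτ.star, RCLike.norm_conj]
  rw [h2, ← n2_sq hτ, ← n2_sq hτ, ← sq, ← mul_pow] at h1
  exact le_of_sq_le_sq h1 (mul_nonneg (n2_nonneg _) (n2_nonneg _))

theorem n2_add (hτ : TrS τ) (x y : A) : n2 τ (x + y) ≤ n2 τ x + n2 τ y := by
  refine le_of_sq_le_sq ?_ (add_nonneg (n2_nonneg _) (n2_nonneg _))
  have h1 : q2 τ (x + y) = q2 τ x + q2 τ y + 2 * (τ (star x * y)).re := by
    unfold q2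
    have h2 : (τ (star y * x)).re = (τ (star x * y)).re := by
      have : Star.star y * x = Star.star (Star.star x * y) := by rw [star_mul, star_star]
      rw [this, hτ.star, Complex.conj_re]
    rw [star_add, add_mul, mul_add, mul_add, map_add, map_add, map_add, Complex.add_re,
      Complex.add_re, Complex.add_re, h2]
    ring
  have h3 := (Complex.re_le_norm _).trans (cs hτ x y)
  rw [n2_sq hτ, h1, ← n2_sq hτ, ← n2_sq hτ]
  nlinarith

theorem q2_smul (hτ : TrS τ) (c : ℂ) (x : A) : q2 τ (c • x) = ‖c‖ ^ 2 * q2 τ x := by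
  unfold q2
  rw [star_smul, smul_mul_smul_comm, map_smul, smul_eq_mul, tau_star_mul hτ]
  have : Star.star c * c = ((‖c‖ ^ 2 : ℝ) : ℂ) := by
    rw [Complex.star_def, mul_comm, Complex.mul_conj, Complex.normSq_eq_norm_sq]
  rw [this, ← Complex.ofReal_mul, Complex.ofReal_re, Complex.ofReal_re]

theorem n2_smul (hτ : TrS τ) (c : ℂ) (x : A) : n2 τ (c • x) = ‖c‖ * n2 τ x := by
  unfold n2
  rw [q2_smul hτ, Real.sqrt_mul (sq_nonneg _), Real.sqrt_sq (norm_nonneg _)]

theorem n2_neg (x : A) : n2 τ (-x) = n2 τ x := by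
  simp [n2, q2]

theorem n2_sub (hτ : TrS τ) (x y : A) : n2 τ (x - y) ≤ n2 τ x + n2 τ y := by
  rw [sub_eq_add_neg, ← n2_neg y]
  exact n2_add hτ x (-y)

theorem n2_sum (hτ : TrS τ) {ι : Type*} (s : Finset ι) (f : ι → A) :
    n2 τ (∑ i ∈ s, f i) ≤ ∑ i ∈ s, n2 τ (f i) := by
  classical
  induction s using Finset.induction_on with
  | empty => simp [n2, q2]
  | insert a s ha ih =>
    rw [Finset.sum_insert ha, Finset.sum_insert ha]
    exact (n2_add hτ _ _).trans (add_le_add le_rfl ih)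

/-- `‖∑ f i‖₂² ≤ |s| ∑ ‖f i‖₂²` -/
theorem q2_sum_le (hτ : TrS τ) {ι : Type*} (s : Finset ι) (f : ι → A) :
    q2 τ (∑ i ∈ s, f i) ≤ s.card * ∑ i ∈ s, q2 τ (f i) := by
  have h1 := pow_le_pow_left₀ (n2_nonneg _) (n2_sum hτ s f) 2
  have h2 := sq_sum_le_card_mul_sum_sq (s := s) (f := fun i => n2 τ (f i))
  simp only [n2_sq hτ] at h1 h2
  exact h1.trans h2

theorem q2_star (hτ : TrS τ) (x : A) : q2 τ (star x) = q2 τ x := by
  unfold q2
  rw [star_star, hτ.comm]

theorem q2_le_norm (hτ : TrS τ) (x : A) : q2 τ x ≤ ‖x‖ ^ 2 := by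
  unfold q2
  refine (Complex.re_le_norm _).trans ((hτ.norm_le _).trans ?_)
  rw [CStarRing.norm_star_mul_self, sq]

theorem n2_le_norm (hτ : TrS τ) (x : A) : n2 τ x ≤ ‖x‖ :=
  Real.sqrt_le_iff.2 ⟨norm_nonneg _, q2_le_norm hτ x⟩

/-- `‖a x‖₂ ≤ ‖a‖ ‖x‖₂` (`‖a‖² - a* a = b* b`) -/
theorem q2_mul_left (hτ : TrS τ) (a x : A) : q2 τ (a * x) ≤ ‖a‖ ^ 2 * q2 τ x := by
  let _ := CStarAlgebra.spectralOrder A
  have _ := CStarAlgebra.spectralOrderedRing A
  have h1 : 0 ≤ (algebraMap ℝ A ‖Star.star a * a‖) - Star.star a * a :=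
    sub_nonneg.2 (IsSelfAdjoint.star_mul_self a).le_algebraMap_norm_self
  obtain ⟨b, hb⟩ := CStarAlgebra.nonneg_iff_eq_star_mul_self.1 h1
  have h2 : q2 τ (a * x) + q2 τ (b * x) = ‖a‖ ^ 2 * q2 τ x := by
    unfold q2
    rw [← Complex.add_re, ← map_add]
    have h3 : Star.star (a * x) * (a * x) + Star.star (b * x) * (b * x) =
        ((‖a‖ ^ 2 : ℝ) : ℂ) • (Star.star x * x) := by
      have h4 : Star.star a * a + Star.star b * b = ((‖a‖ ^ 2 : ℝ) : ℂ) • (1 : A) := by
        rw [← hb, add_sub_cancel, CStarRing.norm_star_mul_self, Algebra.algebraMap_eq_smul_one,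
          ← Complex.coe_smul, sq]
      calc _ = Star.star x * (Star.star a * a + Star.star b * b) * x := by
            rw [star_mul, star_mul]; noncomm_ring
        _ = _ := by rw [h4]; simp
    rw [h3, map_smul, smul_eq_mul, Complex.re_ofReal_mul]
  have h5 := q2_nonneg hτ (b * x)
  linarith

theorem q2_mul_right (hτ : TrS τ) (x a : A) : q2 τ (x * a) ≤ ‖a‖ ^ 2 * q2 τ x := by
  have h := q2_mul_left hτ (star a) (star x)
  rwa [← star_mul, q2_star hτ, q2_star hτ, norm_star] at h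

theorem n2_mul_left (hτ : TrS τ) (a x : A) : n2 τ (a * x) ≤ ‖a‖ * n2 τ x := by
  refine le_of_sq_le_sq ?_ (mul_nonneg (norm_nonneg _) (n2_nonneg _))
  rw [mul_pow, n2_sq hτ, n2_sq hτ]
  exact q2_mul_left hτ a x

theorem n2_mul_right (hτ : TrS τ) (x a : A) : n2 τ (x * a) ≤ ‖a‖ * n2 τ x := by
  refine le_of_sq_le_sq ?_ (mul_nonneg (norm_nonneg _) (n2_nonneg _))
  rw [mul_pow, n2_sq hτ, n2_sq hτ]
  exact q2_mul_right hτ x a

theorem q2_unitary_mul {u : A} (hu : u ∈ unitary A) (x : A) :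
    q2 τ (u * x) = q2 τ x := by
  unfold q2
  have : Star.star (u * x) * (u * x) = Star.star x * x := by
    rw [star_mul, mul_assoc, ← mul_assoc (Star.star u), Unitary.star_mul_self_of_mem hu, one_mul]
  rw [this]

theorem q2_mul_unitary (hτ : TrS τ) {u : A} (hu : u ∈ unitary A) (x : A) :
    q2 τ (x * u) = q2 τ x := by
  rw [← q2_star hτ, star_mul, q2_unitary_mul (Unitary.star_mem hu), q2_star hτ]

theorem n2_unitary_mul {u : A} (hu : u ∈ unitary A) (x : A) :
    n2 τ (u * x) = n2 τ x := by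
  unfold n2
  rw [q2_unitary_mul hu]

/-- rows of matrix units: `∑ ‖e_ii x‖₂² = ‖x‖₂²` -/
theorem q2_rows (hτ : TrS τ) {K : ℕ} {e : Fin K → Fin K → A} (he : MUn e) (x : A) :
    ∑ i, q2 τ (e i i * x) = q2 τ x := by
  unfold q2
  have h1 : ∀ i, Star.star (e i i * x) * (e i i * x) = Star.star x * e i i * x := by
    intro i
    have h2 : e i i * e i i = e i i := by rw [he.mul, if_pos rfl]
    calc _ = Star.star x * (e i i * e i i) * x := by
          rw [star_mul, he.star]; noncomm_ring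
      _ = _ := by rw [h2]
  simp only [h1]
  rw [← Complex.re_sum, ← map_sum, ← Finset.sum_mul, ← Finset.mul_sum, he.sum, mul_one]

/-- `‖∑ i, e i i * f i‖₂² = ∑ ‖e i i * f i‖₂²` -/
theorem q2_sum_rows (hτ : TrS τ) {K : ℕ} {e : Fin K → Fin K → A} (he : MUn e) (f : Fin K → A) :
    q2 τ (∑ i, e i i * f i) = ∑ i, q2 τ (e i i * f i) := by
  rw [← q2_rows hτ he]
  refine Finset.sum_congr rfl fun i _ => ?_
  congr 1
  rw [Finset.mul_sum, Finset.sum_eq_single i]
  · rw [← mul_assoc, he.mul, if_pos rfl]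
  · intro j _ hj
    rw [← mul_assoc, he.mul, if_neg (Ne.symm hj), zero_mul]
  · intro h; exact absurd (Finset.mem_univ i) h

end Crest.Agent.R121
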