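import Mathlib

/-!
# Row 121, module L, lemma L2 (CHAIN LEMMA of idea 555), helper88

Abstract setting: `A` a C*-algebra, `tau` a tracial state.
-/

set_option autoImplicit false
set_option linter.unusedSectionVars false

namespace Crest.Agent.R121.Chain

open Finset

section Prob

variable {ι S : Type*} [Fintype ι] [DecidableEq ι] [Fintype S]

/-- product weight -/
noncomputable def pw (p : S → ℝ) (s : ι → S) : ℝ := ∏ j, p (s j)

theorem pw_nonneg (p : S → ℝ) (hp : ∀ t, 0 ≤ p t) (s : ι → S) : 0 ≤ pw p s :=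
  prod_nonneg fun _ _ => hp _

theorem sum_pw (p : S → ℝ) (hp : ∑ t, p t = 1) : ∑ s : ι → S, pw p s = 1 := by
  unfold pw
  have h := Finset.prod_univ_sum (fun _ : ι => (univ : Finset S)) (fun _ t => p t)
  rw [Fintype.piFinset_univ] at h
  rw [← h]
  simp [hp]

theorem pw_update (p : S → ℝ) (s : ι → S) (k : ι) (t : S) :
    pw p (Function.update s k t) * p (s k) = pw p s * p t := by
  unfold pw
  rw [← Finset.mul_prod_erase univ _ (mem_univ k),
    ← Finset.mul_prod_erase univ (fun j => p (s j)) (mem_univ k)]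
  simp only [Function.update_self]
  have : ∏ j ∈ univ.erase k, p (Function.update s k t j) = ∏ j ∈ univ.erase k, p (s j) :=
    prod_congr rfl fun j hj => by rw [Function.update_of_ne (ne_of_mem_erase hj)]
  rw [this]
  ring

/-- the resampling involution -/
def resEquiv (k : ι) : (ι → S) × S ≃ (ι → S) × S where
  toFun q := (Function.update q.1 k q.2, q.1 k)
  invFun q := (Function.update q.1 k q.2, q.1 k)
  left_inv q := by
    ext i <;> simp
  right_inv q := by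
    ext i <;> simp

theorem resample (p : S → ℝ) (hp : ∑ t, p t = 1) (k : ι) (F : (ι → S) → ℂ) :
    ∑ s, (pw p s : ℂ) * F s =
      ∑ s, (pw p s : ℂ) * ∑ t, (p t : ℂ) * F (Function.update s k t) := by
  have h1 : ∑ s, (pw p s : ℂ) * ∑ t, (p t : ℂ) * F (Function.update s k t) =
      ∑ q : (ι → S) × S, ((pw p q.1 * p q.2 : ℝ) : ℂ) * F (Function.update q.1 k q.2) := by
    rw [Fintype.sum_prod_type]
    refine sum_congr rfl fun s _ => ?_
    rw [mul_sum]
    refine sum_congr rfl fun t _ => ?_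
    push_cast
    ring
  have h2 : ∑ q : (ι → S) × S, ((pw p q.1 * p q.2 : ℝ) : ℂ) * F q.1 =
      ∑ s, (pw p s : ℂ) * F s := by
    rw [Fintype.sum_prod_type]
    refine sum_congr rfl fun s _ => ?_
    simp only
    rw [← sum_mul]
    congr 1
    push_cast
    rw [← mul_sum]
    have : (∑ t, (p t : ℂ)) = 1 := by
      rw [← Complex.ofReal_sum, hp, Complex.ofReal_one]
    rw [this, mul_one]
  rw [h1, ← h2]
  symm
  refine Fintype.sum_equiv (resEquiv k) _ _ fun q => ?_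
  simp only [resEquiv, Equiv.coe_fn_mk]
  rw [pw_update]

theorem exp_one (p : S → ℝ) (hp : ∑ t, p t = 1) (k : ι) (f : S → ℂ) :
    ∑ s : ι → S, (pw p s : ℂ) * f (s k) = ∑ t, (p t : ℂ) * f t := by
  rw [resample p hp k]
  simp only [Function.update_self]
  rw [← sum_mul, ← Complex.ofReal_sum, sum_pw p hp, Complex.ofReal_one, one_mul]

end Prob

section Units

variable {A : Type*} [CStarAlgebra A] {ι : Type*} [Fintype ι] [DecidableEq ι]

/-- matrix units -/
structure IsMU (e : ι → ι → A) : Prop where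
  mul_same : ∀ i j l, e i j * e j l = e i l
  mul_ne : ∀ i j k l, j ≠ k → e i j * e k l = 0
  star_e : ∀ i j, star (e i j) = e j i
  sum_e : ∑ i, e i i = 1

theorem IsMU.norm_le {e : ι → ι → A} (he : IsMU e) (j : ι) : ‖e j j‖ ≤ 1 := by
  have h : ‖e j j‖ = ‖e j j‖ * ‖e j j‖ := by
    conv_lhs => rw [← he.mul_same j j j]
    conv_lhs => rw [← he.star_e j j]
    rw [he.star_e j j]
    have := CStarRing.norm_star_mul_self (x := e j j)
    rwa [he.star_e j j] at this
  by_contra hcon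
  push Not at hcon
  nlinarith

/-- generalised permutation matrix -/
noncomputable def Mon (e : ι → ι → A) (a : Equiv.Perm ι) (U : ι → unitary A) : A :=
  ∑ j, e (a j) j * (U j : A)

variable {e : ι → ι → A} (he : IsMU e)

theorem Mon_mul (hee : ∀ i j l, e i j * e j l = e i l)
    (hne : ∀ i j k l, j ≠ k → e i j * e k l = 0) (a b : Equiv.Perm ι)
    (U V : ι → unitary A) (hU : ∀ k i j, e i j * (U k : A) = U k * e i j) :
    Mon e a U * Mon e b V = Mon e (a * b) fun j => U (b j) * V j := by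
  unfold Mon
  rw [sum_mul_sum, sum_comm]
  refine sum_congr rfl fun j _ => ?_
  rw [sum_eq_single (b j)]
  · rw [mul_assoc, ← mul_assoc (U (b j) : A), ← hU, mul_assoc, ← mul_assoc, hee]
    rfl
  · intro i _ hi
    rw [mul_assoc, ← mul_assoc (U i : A), ← hU, mul_assoc, ← mul_assoc, hne _ _ _ _ hi, zero_mul]
  · intro h
    exact absurd (mem_univ _) h

theorem Mon_star (he : IsMU e) (a : Equiv.Perm ι) (U : ι → unitary A)
    (hU : ∀ k i j, e i j * (U k : A) = U k * e i j) :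
    star (Mon e a U) = ∑ j, e j (a j) * star (U j : A) := by
  unfold Mon
  rw [star_sum]
  refine sum_congr rfl fun j _ => ?_
  rw [star_mul, he.star_e]
  have := congrArg star (hU j (a j) j)
  rw [star_mul, star_mul, he.star_e] at this
  exact this

theorem comm_star (he : IsMU e) (U : unitary A) (hU : ∀ i j, e i j * (U : A) = U * e i j)
    (i j : ι) : e i j * star (U : A) = star (U : A) * e i j := by
  have := congrArg star (hU j i)
  rw [star_mul, star_mul, he.star_e] at this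
  exact this.symm

theorem Mon_unitary (he : IsMU e) (a : Equiv.Perm ι) (U : ι → unitary A)
    (hU : ∀ k i j, e i j * (U k : A) = U k * e i j) : Mon e a U ∈ unitary A := by
  rw [Unitary.mem_iff]
  constructor
  · rw [Mon_star he a U hU]
    unfold Mon
    rw [sum_mul_sum, ← he.sum_e]
    refine sum_congr rfl fun i _ => ?_
    rw [sum_eq_single i]
    · rw [comm_star he _ (hU i), mul_assoc, ← mul_assoc (e i (a i)), he.mul_same, hU i,
        ← mul_assoc, Unitary.coe_star_mul_self, one_mul]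
    · intro j _ hj
      rw [comm_star he _ (hU i), mul_assoc, ← mul_assoc (e i (a i)),
        he.mul_ne _ _ _ _ (fun h => hj (a.injective h).symm), zero_mul, mul_zero]
    · intro h
      exact absurd (mem_univ _) h
  · rw [Mon_star he a U hU]
    unfold Mon
    rw [sum_mul_sum, ← he.sum_e]
    rw [← Equiv.sum_comp a (fun i => e i i)]
    refine sum_congr rfl fun i _ => ?_
    rw [sum_eq_single i]
    · rw [hU i, mul_assoc, ← mul_assoc (e (a i) i), he.mul_same, comm_star he _ (hU i),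
        ← mul_assoc, Unitary.mul_star_self_of_mem (U i).2, one_mul]
    · intro j _ hj
      rw [hU i, mul_assoc, ← mul_assoc (e (a i) i), he.mul_ne _ _ _ _ (Ne.symm hj), zero_mul,
        mul_zero]
    · intro h
      exact absurd (mem_univ _) h

theorem Mon_T1 (he : IsMU e) (T : A → A) (hTa : ∀ s : Finset ι, ∀ f : ι → A,
      T (∑ i ∈ s, f i) = ∑ i ∈ s, T (f i))
    (hT : ∀ i j x, T (e i j * x) = e i j * T x) (a : Equiv.Perm ι) (U : ι → unitary A)
    (hU : ∀ k i j, e i j * (U k : A) = U k * e i j) (x : A) :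
    star (Mon e a U) * T (Mon e a U * x) =
      ∑ j, e j j * (star (U j : A) * T ((U j : A) * x)) := by
  rw [Mon_star he a U hU]
  unfold Mon
  rw [show (∑ j, e (a j) j * (U j : A)) * x = ∑ j, e (a j) j * (U j : A) * x from sum_mul _ _ _,
    hTa, sum_mul_sum]
  refine sum_congr rfl fun i _ => ?_
  rw [sum_eq_single i]
  · rw [mul_assoc (e (a i) i), hT, comm_star he _ (hU i), mul_assoc, ← mul_assoc (e i (a i)),
      he.mul_same, ← mul_assoc, ← comm_star he _ (hU i), mul_assoc]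
  · intro j _ hj
    rw [mul_assoc (e (a j) j), hT, comm_star he _ (hU i), mul_assoc, ← mul_assoc (e i (a i)),
      he.mul_ne _ _ _ _ (fun h => hj (a.injective h).symm), zero_mul, mul_zero]
  · intro h
    exact absurd (mem_univ _) h

theorem Mon_T2 (he : IsMU e) (T : A → A) (hTa : ∀ s : Finset ι, ∀ f : ι → A,
      T (∑ i ∈ s, f i) = ∑ i ∈ s, T (f i))
    (hT : ∀ i j x, T (e i j * x) = e i j * T x) (a : Equiv.Perm ι) (U : ι → unitary A)
    (hU : ∀ k i j, e i j * (U k : A) = U k * e i j) (x : A) :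
    Mon e a U * T (star (Mon e a U) * x) =
      ∑ j, e (a j) (a j) * ((U j : A) * T (star (U j : A) * x)) := by
  rw [Mon_star he a U hU]
  unfold Mon
  rw [show (∑ j, e j (a j) * star (U j : A)) * x = ∑ j, e j (a j) * star (U j : A) * x from
    sum_mul _ _ _, hTa, sum_mul_sum]
  refine sum_congr rfl fun i _ => ?_
  rw [sum_eq_single i]
  · rw [mul_assoc (e i (a i)), hT, hU i, mul_assoc, ← mul_assoc (e (a i) i),
      he.mul_same, ← mul_assoc, ← hU i, mul_assoc]
  · intro j _ hj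
    rw [mul_assoc (e j (a j)), hT, hU i, mul_assoc, ← mul_assoc (e (a i) i),
      he.mul_ne _ _ _ _ (Ne.symm hj), zero_mul, mul_zero]
  · intro h
    exact absurd (mem_univ _) h

/-- the product of the letters `y_{s(σ^{n-1} j)} ⋯ y_{s j}` -/
noncomputable def Yw {S : Type*} (y : S → unitary A) (σ : Equiv.Perm ι) (s : ι → S) :
    ℕ → ι → unitary A
  | 0, _ => 1
  | n + 1, j => y (s ((σ ^ n) j)) * Yw y σ s n j

theorem Yw_succ' {S : Type*} (y : S → unitary A) (σ : Equiv.Perm ι) (s : ι → S) (n : ℕ) (j : ι) :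
    Yw y σ s (n + 1) j = Yw y σ s n (σ j) * y (s j) := by
  induction n with
  | zero => simp [Yw]
  | succ n ih =>
    rw [Yw, ih, Yw, ← mul_assoc]
    congr 3

theorem Yw_comm {S : Type*} (y : S → unitary A) (hy : ∀ t i j, e i j * (y t : A) = y t * e i j)
    (σ : Equiv.Perm ι) (s : ι → S) (n : ℕ) (k i j : ι) :
    e i j * (Yw y σ s n k : A) = Yw y σ s n k * e i j := by
  induction n with
  | zero => simp [Yw]
  | succ n ih =>
    rw [Yw]
    push_cast
    rw [← mul_assoc, hy, mul_assoc, ih, mul_assoc]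

theorem Yw_update {S : Type*} (y : S → unitary A) (σ : Equiv.Perm ι) (s : ι → S) (k : ι) (t : S)
    (n : ℕ) (j : ι) (h : ∀ i < n, (σ ^ i) j ≠ k) :
    Yw y σ (Function.update s k t) n j = Yw y σ s n j := by
  induction n with
  | zero => simp [Yw]
  | succ n ih =>
    rw [Yw, Yw, ih (fun i hi => h i (by omega)), Function.update_of_ne (h n (by omega))]

theorem Mon_pow (he : IsMU e) {S : Type*} (y : S → unitary A)
    (hy : ∀ t i j, e i j * (y t : A) = y t * e i j) (σ : Equiv.Perm ι) (s : ι → S) (n : ℕ) :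
    Mon e σ (fun j => y (s j)) ^ n = Mon e (σ ^ n) (Yw y σ s n) := by
  induction n with
  | zero =>
    simp only [pow_zero, Mon, Yw, Equiv.Perm.coe_one, id_eq, OneMemClass.coe_one, mul_one]
    exact he.sum_e.symm
  | succ n ih =>
    rw [pow_succ', ih, Mon_mul he.mul_same he.mul_ne _ _ _ _ (fun k i j => hy _ i j), ← pow_succ']
    rfl

end Units

section Main

variable {A : Type*} [CStarAlgebra A] {ι S : Type*} [Fintype ι] [DecidableEq ι] [Fintype S]

/-- `D_u(x) = u* T(u x) - T x` -/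
noncomputable def DD (T : A →L[ℂ] A) (u : unitary A) (x : A) : A :=
  star (u : A) * T ((u : A) * x) - T x

theorem norm_umul (u : unitary A) (a : A) : ‖(u : A) * a‖ = ‖a‖ :=
  CStarRing.norm_coe_unitary_mul u a

theorem norm_sumul (u : unitary A) (a : A) : ‖star (u : A) * a‖ = ‖a‖ := by
  have := CStarRing.norm_coe_unitary_mul (star u) a
  rwa [Unitary.coe_star] at this

theorem norm_DD (T : A →L[ℂ] A) (u : unitary A) (x : A) : ‖DD T u x‖ ≤ 2 * ‖T‖ * ‖x‖ := by
  unfold DD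
  refine (norm_sub_le _ _).trans ?_
  rw [norm_sumul]
  have h1 := T.le_opNorm ((u : A) * x)
  rw [norm_umul] at h1
  have h2 := T.le_opNorm x
  linarith

theorem avg_bound (p : S → ℝ) (hp0 : ∀ t, 0 ≤ p t) (hp : ∑ t, p t = 1) (c : (ι → S) → ℂ) (b : ℝ)
    (hc : ∀ s, ‖c s‖ ≤ b) : ‖∑ s, (pw p s : ℂ) * c s‖ ≤ b := by
  refine (norm_sum_le _ _).trans ?_
  have h1 : ∀ s ∈ (univ : Finset (ι → S)), ‖(pw p s : ℂ) * c s‖ ≤ pw p s * b := by
    intro s _
    rw [norm_mul, Complex.norm_real, Real.norm_of_nonneg (pw_nonneg p hp0 s)]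
    exact mul_le_mul_of_nonneg_left (hc s) (pw_nonneg p hp0 s)
  refine (sum_le_sum h1).trans ?_
  rw [← sum_mul, sum_pw p hp, one_mul]

variable {e : ι → ι → A} (he : IsMU e) (tau : A →ₗ[ℂ] ℂ)

theorem kappa_one (he : IsMU e) (hnorm : ∀ a, ‖tau a‖ ≤ ‖a‖) (j : ι) (X : A) :
    ‖tau (e j j * X)‖ ≤ 1 * ‖X‖ := by
  refine (hnorm _).trans ?_
  have h1 := norm_mul_le (e j j) X
  have h3 := he.norm_le j
  have h4 : ‖e j j‖ * ‖X‖ ≤ 1 * ‖X‖ :=
    mul_le_mul_of_nonneg_right h3 (norm_nonneg _)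
  linarith

theorem phi_bound (κ : ℝ) (hκ0 : 0 ≤ κ) (hκ : ∀ j X, ‖tau (e j j * X)‖ ≤ κ * ‖X‖) (j : ι)
    (Z D : A) : ‖tau (e j j * (Z * star D))‖ ≤ κ * (‖Z‖ * ‖D‖) := by
  refine (hκ _ _).trans ?_
  have h2 := norm_mul_le Z (star D)
  rw [norm_star] at h2
  exact mul_le_mul_of_nonneg_left h2 hκ0

/-- first family of averages -/
noncomputable def FF (p : S → ℝ) (y : S → unitary A) (σ : Equiv.Perm ι) (T : A →L[ℂ] A)
    (e : ι → ι → A) (tau : A →ₗ[ℂ] ℂ) (x : A) (n : ℕ) (j : ι) : ℂ :=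
  ∑ s : ι → S, (pw p s : ℂ) * tau (e j j *
    ((star (Yw y σ s n j : A) * T ((Yw y σ s n j : A) * x)) * star (DD T (y (s j)) x)))

/-- second family of averages -/
noncomputable def GG (p : S → ℝ) (y : S → unitary A) (σ : Equiv.Perm ι) (T : A →L[ℂ] A)
    (e : ι → ι → A) (tau : A →ₗ[ℂ] ℂ) (x : A) (n : ℕ) (j : ι) : ℂ :=
  ∑ s : ι → S, (pw p s : ℂ) * tau (e ((σ ^ n) j) ((σ ^ n) j) *
    (((Yw y σ s n j : A) * T (star (Yw y σ s n j : A) * x)) *
      star (DD T (y (s ((σ ^ n) j))) x)))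

theorem FF_step (p : S → ℝ) (hp0 : ∀ t, 0 ≤ p t) (hp : ∑ t, p t = 1) (y : S → unitary A)
    (σ : Equiv.Perm ι) (T : A →L[ℂ] A) (κ : ℝ) (hκ0 : 0 ≤ κ)
    (hκ : ∀ j X, ‖tau (e j j * X)‖ ≤ κ * ‖X‖) (x : A)
    (η : ℝ) (hη : ∀ z, ‖∑ t, (p t : ℂ) • (star (y t : A) * T ((y t : A) * z)) - T z‖ ≤ η * ‖z‖)
    (n : ℕ) (j : ι) (hn : 1 ≤ n) (hσ : ∀ i < n, (σ ^ i) j ≠ (σ ^ n) j) :
    ‖FF p y σ T e tau x (n + 1) j - FF p y σ T e tau x n j‖ ≤ κ * (2 * η * ‖T‖ * ‖x‖ ^ 2) := by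
  unfold FF
  rw [resample p hp ((σ ^ n) j), ← sum_sub_distrib]
  simp_rw [← mul_sub]
  refine avg_bound p hp0 hp _ _ fun s => ?_
  have hj : j ≠ (σ ^ n) j := by
    have := hσ 0 (by omega)
    simpa using this
  set Y : unitary A := Yw y σ s n j with hY
  have h1 : ∀ t : S, tau (e j j *
      ((star (Yw y σ (Function.update s ((σ ^ n) j) t) (n + 1) j : A) *
        T ((Yw y σ (Function.update s ((σ ^ n) j) t) (n + 1) j : A) * x)) *
        star (DD T (y (Function.update s ((σ ^ n) j) t j)) x))) =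
      tau (e j j * ((star (Y : A) * (star (y t : A) * T ((y t : A) * ((Y : A) * x)))) *
        star (DD T (y (s j)) x))) := by
    intro t
    rw [Function.update_of_ne hj, Yw, Function.update_self, Yw_update y σ s _ t n j hσ]
    push_cast
    rw [star_mul]
    simp only [mul_assoc]
    rfl
  simp_rw [h1]
  have h2 : ∑ t, (p t : ℂ) * tau (e j j *
      ((star (Y : A) * (star (y t : A) * T ((y t : A) * ((Y : A) * x)))) *
        star (DD T (y (s j)) x))) = tau (e j j * ((star (Y : A) *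
        (∑ t, (p t : ℂ) • (star (y t : A) * T ((y t : A) * ((Y : A) * x))))) *
        star (DD T (y (s j)) x))) := by
    rw [mul_sum, sum_mul, mul_sum, map_sum]
    refine sum_congr rfl fun t _ => ?_
    rw [mul_smul_comm, smul_mul_assoc, mul_smul_comm, map_smul, smul_eq_mul]
  rw [h2, ← map_sub, ← mul_sub, ← sub_mul, ← mul_sub]
  refine (phi_bound tau κ hκ0 hκ j _ _).trans ?_
  rw [norm_sumul]
  have h3 := hη ((Y : A) * x)
  rw [norm_umul] at h3
  have h4 := norm_DD T (y (s j)) x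
  have h5 : 0 ≤ η * ‖x‖ := (norm_nonneg _).trans h3
  refine mul_le_mul_of_nonneg_left ?_ hκ0
  calc _ ≤ (η * ‖x‖) * (2 * ‖T‖ * ‖x‖) := mul_le_mul h3 h4 (norm_nonneg _) h5
    _ = _ := by ring

theorem GG_step (p : S → ℝ) (hp0 : ∀ t, 0 ≤ p t) (hp : ∑ t, p t = 1) (y : S → unitary A)
    (hat : Equiv.Perm S) (hph : ∀ t, p (hat t) = p t) (hyh : ∀ t, (y (hat t) : A) = star (y t : A))
    (σ : Equiv.Perm ι) (T : A →L[ℂ] A) (κ : ℝ) (hκ0 : 0 ≤ κ)
    (hκ : ∀ j X, ‖tau (e j j * X)‖ ≤ κ * ‖X‖) (x : A)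
    (η : ℝ) (hη : ∀ z, ‖∑ t, (p t : ℂ) • (star (y t : A) * T ((y t : A) * z)) - T z‖ ≤ η * ‖z‖)
    (n : ℕ) (j : ι) (hσ : ∀ i, 1 ≤ i → i ≤ n + 1 → (σ ^ i) j ≠ j) :
    ‖GG p y σ T e tau x (n + 1) j - GG p y σ T e tau x n (σ j)‖ ≤ κ * (2 * η * ‖T‖ * ‖x‖ ^ 2) := by
  unfold GG
  rw [resample p hp j, ← sum_sub_distrib]
  simp_rw [← mul_sub]
  refine avg_bound p hp0 hp _ _ fun s => ?_
  have hj : (σ ^ (n + 1)) j ≠ j := hσ (n + 1) (by omega) le_rfl
  have hj' : (σ ^ n) (σ j) = (σ ^ (n + 1)) j := by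
    rw [pow_succ]; rfl
  set Y : unitary A := Yw y σ s n (σ j) with hY
  have hYu : ∀ t : S, Yw y σ (Function.update s j t) n (σ j) = Y := by
    intro t
    refine Yw_update y σ s j t n (σ j) fun i hi => ?_
    have := hσ (i + 1) (by omega) (by omega)
    rwa [pow_succ, Equiv.Perm.mul_apply] at this
  have h1 : ∀ t : S, tau (e ((σ ^ (n + 1)) j) ((σ ^ (n + 1)) j) *
      (((Yw y σ (Function.update s j t) (n + 1) j : A) *
        T (star (Yw y σ (Function.update s j t) (n + 1) j : A) * x)) *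
        star (DD T (y (Function.update s j t ((σ ^ (n + 1)) j))) x))) =
      tau (e ((σ ^ (n + 1)) j) ((σ ^ (n + 1)) j) *
        (((Y : A) * ((y t : A) * T (star (y t : A) * (star (Y : A) * x)))) *
        star (DD T (y (s ((σ ^ (n + 1)) j))) x))) := by
    intro t
    rw [Function.update_of_ne hj, Yw_succ', Function.update_self, hYu t]
    push_cast
    rw [star_mul]
    simp only [mul_assoc]
  simp_rw [h1, hj']
  have h2 : ∑ t, (p t : ℂ) * tau (e ((σ ^ (n + 1)) j) ((σ ^ (n + 1)) j) *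
        (((Y : A) * ((y t : A) * T (star (y t : A) * (star (Y : A) * x)))) *
        star (DD T (y (s ((σ ^ (n + 1)) j))) x))) =
      tau (e ((σ ^ (n + 1)) j) ((σ ^ (n + 1)) j) *
        (((Y : A) * ∑ t, (p t : ℂ) • (star (y t : A) * T ((y t : A) * (star (Y : A) * x)))) *
        star (DD T (y (s ((σ ^ (n + 1)) j))) x))) := by
    have h3 : ∑ t, (p t : ℂ) • (star (y t : A) * T ((y t : A) * (star (Y : A) * x))) =
        ∑ t, (p t : ℂ) • ((y t : A) * T (star (y t : A) * (star (Y : A) * x))) := by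
      rw [← Equiv.sum_comp hat]
      refine sum_congr rfl fun t _ => ?_
      rw [hph, hyh, star_star]
    rw [h3, mul_sum, sum_mul, mul_sum, map_sum]
    refine sum_congr rfl fun t _ => ?_
    rw [mul_smul_comm, smul_mul_assoc, mul_smul_comm, map_smul, smul_eq_mul]
  rw [h2, ← map_sub, ← mul_sub, ← sub_mul, ← mul_sub]
  refine (phi_bound tau κ hκ0 hκ _ _ _).trans ?_
  rw [norm_umul]
  have h3 := hη (star (Y : A) * x)
  rw [norm_sumul] at h3
  have h4 := norm_DD T (y (s ((σ ^ (n + 1)) j))) x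
  have h5 : 0 ≤ η * ‖x‖ := (norm_nonneg _).trans h3
  refine mul_le_mul_of_nonneg_left ?_ hκ0
  calc _ ≤ (η * ‖x‖) * (2 * ‖T‖ * ‖x‖) := mul_le_mul h3 h4 (norm_nonneg _) h5
    _ = _ := by ring

theorem FF_all (p : S → ℝ) (hp0 : ∀ t, 0 ≤ p t) (hp : ∑ t, p t = 1) (y : S → unitary A)
    (σ : Equiv.Perm ι) (T : A →L[ℂ] A) (κ : ℝ) (hκ0 : 0 ≤ κ)
    (hκ : ∀ j X, ‖tau (e j j * X)‖ ≤ κ * ‖X‖) (x : A)
    (η : ℝ) (hη : ∀ z, ‖∑ t, (p t : ℂ) • (star (y t : A) * T ((y t : A) * z)) - T z‖ ≤ η * ‖z‖)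
    (j : ι) (n : ℕ) (hn : 1 ≤ n) (hσ : ∀ i k, i < k → k < n → (σ ^ i) j ≠ (σ ^ k) j) :
    ‖FF p y σ T e tau x n j - FF p y σ T e tau x 1 j‖ ≤ (n - 1) * (κ * (2 * η * ‖T‖ * ‖x‖ ^ 2)) := by
  induction n, hn using Nat.le_induction with
  | base => simp
  | succ n hn ih =>
    have h1 := ih fun i k hik hk => hσ i k hik (by omega)
    have h2 := FF_step tau p hp0 hp y σ T κ hκ0 hκ x η hη n j hn
      fun i hi => hσ i n hi (by omega)
    have h3 := norm_add_le (FF p y σ T e tau x (n + 1) j - FF p y σ T e tau x n j)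
      (FF p y σ T e tau x n j - FF p y σ T e tau x 1 j)
    rw [sub_add_sub_cancel] at h3
    push_cast
    linarith

theorem GG_all (p : S → ℝ) (hp0 : ∀ t, 0 ≤ p t) (hp : ∑ t, p t = 1) (y : S → unitary A)
    (hat : Equiv.Perm S) (hph : ∀ t, p (hat t) = p t) (hyh : ∀ t, (y (hat t) : A) = star (y t : A))
    (σ : Equiv.Perm ι) (T : A →L[ℂ] A) (κ : ℝ) (hκ0 : 0 ≤ κ)
    (hκ : ∀ j X, ‖tau (e j j * X)‖ ≤ κ * ‖X‖) (x : A)
    (η : ℝ) (hη : ∀ z, ‖∑ t, (p t : ℂ) • (star (y t : A) * T ((y t : A) * z)) - T z‖ ≤ η * ‖z‖)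
    (n : ℕ) : ∀ (j : ι) (_ : ∀ i, 1 ≤ i → i ≤ n → ∀ k, (σ ^ i) k ≠ k),
    ‖GG p y σ T e tau x n j - GG p y σ T e tau x 0 ((σ ^ n) j)‖ ≤
      n * (κ * (2 * η * ‖T‖ * ‖x‖ ^ 2)) := by
  induction n with
  | zero => simp
  | succ n ih =>
    intro j hσ
    have h1 := ih (σ j) fun i hi1 hi2 => hσ i hi1 (by omega)
    have h2 := GG_step tau p hp0 hp y hat hph hyh σ T κ hκ0 hκ x η hη n j
      fun i hi1 hi2 => hσ i hi1 hi2 j
    have h3 := norm_add_le (GG p y σ T e tau x (n + 1) j - GG p y σ T e tau x n (σ j))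
      (GG p y σ T e tau x n (σ j) - GG p y σ T e tau x 0 ((σ ^ n) (σ j)))
    rw [sub_add_sub_cancel] at h3
    have h4 : (σ ^ (n + 1)) j = (σ ^ n) (σ j) := by rw [pow_succ]; rfl
    rw [h4, Nat.cast_succ]
    linarith

theorem FF_one_sub (p : S → ℝ) (hp : ∑ t, p t = 1) (y : S → unitary A)
    (σ : Equiv.Perm ι) (T : A →L[ℂ] A) (x : A) (j : ι) :
    FF p y σ T e tau x 1 j - GG p y σ T e tau x 0 j =
      ∑ t, (p t : ℂ) * tau (e j j * (DD T (y t) x * star (DD T (y t) x))) := by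
  unfold FF GG
  rw [← sum_sub_distrib, ← exp_one p hp j
    (fun t => tau (e j j * (DD T (y t) x * star (DD T (y t) x))))]
  refine sum_congr rfl fun s _ => ?_
  rw [← mul_sub, ← map_sub]
  congr 2
  simp only [Yw, pow_zero, Equiv.Perm.coe_one, id_eq, OneMemClass.coe_one, star_one, one_mul,
    mul_one]
  rw [← mul_sub, ← sub_mul]
  rfl

theorem tau_beta (htr : ∀ a b, tau (a * b) = tau (b * a)) (he : IsMU e) (Z D : ι → A) :
    tau ((∑ j, e j j * Z j) * ∑ j, star (D j) * e j j) =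
      ∑ j, tau (e j j * (Z j * star (D j))) := by
  rw [sum_mul_sum, map_sum]
  refine sum_congr rfl fun i _ => ?_
  rw [map_sum, sum_eq_single i]
  · rw [← mul_assoc, htr, ← mul_assoc, ← mul_assoc, he.mul_same, mul_assoc]
  · intro j _ hj
    rw [← mul_assoc, htr, ← mul_assoc, ← mul_assoc, he.mul_ne _ _ _ _ hj, zero_mul, zero_mul,
      map_zero]
  · intro h
    exact absurd (mem_univ _) h

theorem tau_beta' (htr : ∀ a b, tau (a * b) = tau (b * a)) (he : IsMU e) (a : Equiv.Perm ι)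
    (Z D : ι → A) :
    tau ((∑ j, e (a j) (a j) * Z j) * ∑ j, star (D j) * e j j) =
      ∑ j, tau (e (a j) (a j) * (Z j * star (D (a j)))) := by
  have h1 : ∑ j, e (a j) (a j) * Z j = ∑ j, e j j * Z (a.symm j) := by
    rw [← Equiv.sum_comp a (fun j => e j j * Z (a.symm j))]
    simp only [Equiv.symm_apply_apply]
  rw [h1, tau_beta tau htr he,
    ← Equiv.sum_comp a (fun j => tau (e j j * (Z (a.symm j) * star (D j))))]
  simp only [Equiv.symm_apply_apply]

/-- `|x|_2 ^ 2` averaged -/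
noncomputable def BB (p : S → ℝ) (y : S → unitary A) (T : A →L[ℂ] A) (tau : A →ₗ[ℂ] ℂ) (x : A) :
    ℝ := ∑ t, p t * (tau (star (DD T (y t) x) * DD T (y t) x)).re

theorem sum_FG (htr : ∀ a b, tau (a * b) = tau (b * a)) (p : S → ℝ)
    (y : S → unitary A) (T : A →L[ℂ] A) (he : IsMU e) (x : A) :
    (∑ j, ∑ t, (p t : ℂ) * tau (e j j * (DD T (y t) x * star (DD T (y t) x)))).re =
      BB p y T tau x := by
  rw [sum_comm]
  unfold BB
  rw [Complex.re_sum]
  refine sum_congr rfl fun t _ => ?_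
  rw [← mul_sum, ← map_sum, ← sum_mul, he.sum_e, one_mul, htr, Complex.re_ofReal_mul]

theorem jensen (p : S → ℝ) (hp0 : ∀ t, 0 ≤ p t) (hp : ∑ t, p t = 1) (b : (ι → S) → ℝ)
    (hb : ∀ s, 0 ≤ b s) :
    ∑ s, pw p s * Real.sqrt (b s) ≤ Real.sqrt (∑ s, pw p s * b s) := by
  apply Real.le_sqrt_of_sq_le
  have h := Finset.sum_sq_le_sum_mul_sum_of_sq_le_mul (univ : Finset (ι → S))
    (r := fun s => pw p s * Real.sqrt (b s)) (f := fun s => pw p s) (g := fun s => pw p s * b s)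
    (fun s _ => pw_nonneg p hp0 s) (fun s _ => mul_nonneg (pw_nonneg p hp0 s) (hb s))
    (fun s _ => by
      rw [mul_pow, Real.sq_sqrt (hb s)]
      exact le_of_eq (by ring))
  rwa [sum_pw p hp, one_mul] at h

theorem quad_bound {h B a c : ℝ} (hh : 0 < h) (hB : 0 ≤ B) (ha : 0 ≤ a) (hc : 0 ≤ c)
    (hi : h * B ≤ a * Real.sqrt B + c) : B ≤ (2 * a / h) ^ 2 + 2 * c / h := by
  rcases le_total c (a * Real.sqrt B) with h1 | h1
  · have h2 : h * B ≤ 2 * a * Real.sqrt B := by linarith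
    have h3 : Real.sqrt B ≤ 2 * a / h := by
      rw [le_div_iff₀ hh]
      rcases eq_or_lt_of_le (Real.sqrt_nonneg B) with h4 | h4
      · rw [← h4]; linarith
      · have h5 : Real.sqrt B * Real.sqrt B = B := Real.mul_self_sqrt hB
        have h6 : Real.sqrt B * (Real.sqrt B * h) ≤ Real.sqrt B * (2 * a) := by
          calc Real.sqrt B * (Real.sqrt B * h) = h * B := by rw [← mul_assoc, h5]; ring
            _ ≤ _ := by linarith
        exact le_of_mul_le_mul_left h6 h4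
    have h4 : B ≤ (2 * a / h) ^ 2 := by
      calc B = Real.sqrt B ^ 2 := (Real.sq_sqrt hB).symm
        _ ≤ _ := pow_le_pow_left₀ (Real.sqrt_nonneg B) h3 2
    have h5 : 0 ≤ 2 * c / h := by positivity
    linarith
  · have h2 : h * B ≤ 2 * c := by linarith
    have h3 : B ≤ 2 * c / h := by
      rw [le_div_iff₀ hh]; linarith
    have h4 : 0 ≤ (2 * a / h) ^ 2 := sq_nonneg _
    linarith

/-- **L2 (CHAIN LEMMA)**, general index set: `σ` a permutation with `σ ^ n` fixed point free for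
`0 < n < K`, letters with symmetric weights `p`. -/
theorem chain (htr : ∀ a b, tau (a * b) = tau (b * a)) (κ : ℝ) (hκ0 : 0 ≤ κ)
    (hκ : ∀ j X, ‖tau (e j j * X)‖ ≤ κ * ‖X‖)
    (hpos : ∀ a, 0 ≤ (tau (star a * a)).re) (C0 : ℝ) (hC0 : 0 ≤ C0) (T : A →L[ℂ] A)
    (hJ : ∀ (w : unitary A) (x β : A) (L : ℕ),
      ‖∑ n ∈ Icc 1 L, (1 / (n : ℂ)) *
          (tau (star ((w : A) ^ n) * T ((w : A) ^ n * x) * β) -
            tau ((w : A) ^ n * T (star ((w : A) ^ n) * x) * β))‖ ≤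
        C0 * ‖T‖ * ‖x‖ * Real.sqrt (tau (star β * β)).re)
    (he : IsMU e) (hT : ∀ i j x, T (e i j * x) = e i j * T x)
    (σ : Equiv.Perm ι) (K : ℕ) (hK : 2 ≤ K)
    (hσ : ∀ n, 1 ≤ n → n < K → ∀ j, (σ ^ n) j ≠ j)
    (p : S → ℝ) (hp0 : ∀ t, 0 ≤ p t) (hp : ∑ t, p t = 1) (y : S → unitary A)
    (hyc : ∀ t i j, e i j * (y t : A) = y t * e i j)
    (hat : Equiv.Perm S) (hph : ∀ t, p (hat t) = p t) (hyh : ∀ t, (y (hat t) : A) = star (y t : A))
    (η : ℝ) (hη : ∀ z, ‖∑ t, (p t : ℂ) • (star (y t : A) * T ((y t : A) * z)) - T z‖ ≤ η * ‖z‖)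
    (x : A) :
    ∑ t, p t * (tau (star (DD T (y t) x) * DD T (y t) x)).re ≤
      (2 * C0 * ‖T‖ * ‖x‖ / (∑ n ∈ Icc 1 (K - 1), 1 / (n : ℝ))) ^ 2 +
        8 * (Fintype.card ι * κ * K) * η * ‖T‖ * ‖x‖ ^ 2 / (∑ n ∈ Icc 1 (K - 1), 1 / (n : ℝ)) := by
  set h : ℝ := ∑ n ∈ Icc 1 (K - 1), 1 / (n : ℝ) with hh
  set B : ℝ := BB p y T tau x with hBdef
  have hB : 0 ≤ B := sum_nonneg fun t _ => mul_nonneg (hp0 t) (hpos _)
  have hhpos : 0 < h := by
    refine sum_pos (fun n hn => ?_) ⟨1, mem_Icc.2 ⟨le_rfl, by omega⟩⟩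
    have := (mem_Icc.1 hn).1
    positivity
  have hηx : 0 ≤ η * ‖x‖ := (norm_nonneg _).trans (hη x)
  set ε0 : ℝ := κ * (2 * η * ‖T‖ * ‖x‖ ^ 2) with hε0
  have hε0n : 0 ≤ ε0 := by
    have : ε0 = κ * (2 * ‖T‖ * ‖x‖ * (η * ‖x‖)) := by rw [hε0]; ring
    rw [this]; positivity
  -- the unitary of a choice of letters
  let W : (ι → S) → unitary A := fun s =>
    ⟨Mon e σ fun j => y (s j), Mon_unitary he σ _ fun k i j => hyc _ i j⟩
  let β : (ι → S) → A := fun s => ∑ j, star (DD T (y (s j)) x) * e j j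
  have hTa : ∀ s : Finset ι, ∀ f : ι → A, T (∑ i ∈ s, f i) = ∑ i ∈ s, T (f i) :=
    fun s f => map_sum T f s
  have hterm1 : ∀ s n, tau (star ((W s : A) ^ n) * T ((W s : A) ^ n * x) * β s) =
      ∑ j, tau (e j j * ((star (Yw y σ s n j : A) * T ((Yw y σ s n j : A) * x)) *
        star (DD T (y (s j)) x))) := by
    intro s n
    have h1 : (W s : A) ^ n = Mon e (σ ^ n) (Yw y σ s n) := Mon_pow he y hyc σ s n
    rw [h1, Mon_T1 he T hTa hT _ _ (Yw_comm y hyc σ s n)]
    exact tau_beta tau htr he _ _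
  have hterm2 : ∀ s n, tau ((W s : A) ^ n * T (star ((W s : A) ^ n) * x) * β s) =
      ∑ j, tau (e ((σ ^ n) j) ((σ ^ n) j) *
        (((Yw y σ s n j : A) * T (star (Yw y σ s n j : A) * x)) *
        star (DD T (y (s ((σ ^ n) j))) x))) := by
    intro s n
    have h1 : (W s : A) ^ n = Mon e (σ ^ n) (Yw y σ s n) := Mon_pow he y hyc σ s n
    rw [h1, Mon_T2 he T hTa hT _ _ (Yw_comm y hyc σ s n)]
    exact tau_beta' tau htr he (σ ^ n) _ fun j => DD T (y (s j)) x
  -- the expectation of the jump sum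
  have hE : ∑ s, (pw p s : ℂ) * ∑ n ∈ Icc 1 (K - 1), (1 / (n : ℂ)) *
          (tau (star ((W s : A) ^ n) * T ((W s : A) ^ n * x) * β s) -
            tau ((W s : A) ^ n * T (star ((W s : A) ^ n) * x) * β s)) =
      ∑ n ∈ Icc 1 (K - 1), (1 / (n : ℂ)) *
        (∑ j, FF p y σ T e tau x n j - ∑ j, GG p y σ T e tau x n j) := by
    simp_rw [mul_sum]
    rw [sum_comm]
    refine sum_congr rfl fun n _ => ?_
    unfold FF GG
    rw [sum_comm, sum_comm (s := univ) (t := univ)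
      (f := fun j s => (pw p s : ℂ) * tau (e ((σ ^ n) j) ((σ ^ n) j) *
        (((Yw y σ s n j : A) * T (star (Yw y σ s n j : A) * x)) *
        star (DD T (y (s ((σ ^ n) j))) x)))), ← sum_sub_distrib, mul_sum]
    refine sum_congr rfl fun s _ => ?_
    rw [hterm1, hterm2, ← mul_sum, ← mul_sum]
    ring
  -- one `n`
  have hone : ∀ n ∈ Icc 1 (K - 1), B - (Fintype.card ι : ℝ) * ((2 * n) * ε0) ≤
      (∑ j, FF p y σ T e tau x n j - ∑ j, GG p y σ T e tau x n j).re := by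
    intro n hn
    obtain ⟨hn1, hn2⟩ := mem_Icc.1 hn
    have hpw : ∀ i k, i < k → k < n → ∀ j, (σ ^ i) j ≠ (σ ^ k) j := by
      intro i k hik hk j hc
      have h1 := hσ (k - i) (by omega) (by omega) ((σ ^ i) j)
      apply h1
      rw [← Equiv.Perm.mul_apply, ← pow_add, Nat.sub_add_cancel hik.le]
      exact hc.symm
    have h1 : ∀ j, ‖FF p y σ T e tau x n j - FF p y σ T e tau x 1 j‖ ≤ (n - 1) * ε0 :=
      fun j => FF_all tau p hp0 hp y σ T κ hκ0 hκ x η hη j n hn1 fun i k hik hk => hpw i k hik hk j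
    have h2 : ∀ j, ‖GG p y σ T e tau x n j - GG p y σ T e tau x 0 ((σ ^ n) j)‖ ≤ n * ε0 :=
      fun j => GG_all tau p hp0 hp y hat hph hyh σ T κ hκ0 hκ x η hη n j
        fun i hi1 hi2 k => hσ i hi1 (by omega) k
    have h3 : ∑ j, FF p y σ T e tau x n j - ∑ j, GG p y σ T e tau x n j =
        ∑ j, (FF p y σ T e tau x 1 j - GG p y σ T e tau x 0 j) +
        (∑ j, (FF p y σ T e tau x n j - FF p y σ T e tau x 1 j) -
          ∑ j, (GG p y σ T e tau x n j - GG p y σ T e tau x 0 ((σ ^ n) j))) := by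
      simp only [sum_sub_distrib]
      rw [Equiv.sum_comp (σ ^ n) (fun j => GG p y σ T e tau x 0 j)]
      ring
    rw [h3, Complex.add_re]
    have h4 : (∑ j, (FF p y σ T e tau x 1 j - GG p y σ T e tau x 0 j)).re = B := by
      simp_rw [FF_one_sub tau p hp y σ T x]
      exact sum_FG tau htr p y T he x
    rw [h4]
    have h5 : ‖∑ j, (FF p y σ T e tau x n j - FF p y σ T e tau x 1 j) -
          ∑ j, (GG p y σ T e tau x n j - GG p y σ T e tau x 0 ((σ ^ n) j))‖ ≤
        (Fintype.card ι : ℝ) * ((2 * n) * ε0) := by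
      refine (norm_sub_le _ _).trans ?_
      have h6 := norm_sum_le_of_le (univ : Finset ι) fun j _ => h1 j
      have h7 := norm_sum_le_of_le (univ : Finset ι) fun j _ => h2 j
      rw [sum_const, nsmul_eq_mul, card_univ] at h6 h7
      have h8 : (0 : ℝ) ≤ (Fintype.card ι : ℝ) * ε0 := by positivity
      nlinarith
    have h6 := Complex.abs_re_le_norm (∑ j, (FF p y σ T e tau x n j - FF p y σ T e tau x 1 j) -
          ∑ j, (GG p y σ T e tau x n j - GG p y σ T e tau x 0 ((σ ^ n) j)))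
    have h7 := (abs_le.1 (h6.trans h5)).1
    linarith
  -- lower bound
  have hlow : h * B - (Fintype.card ι : ℝ) * (2 * (K - 1 : ℕ) * ε0) ≤
      (∑ n ∈ Icc 1 (K - 1), (1 / (n : ℂ)) *
        (∑ j, FF p y σ T e tau x n j - ∑ j, GG p y σ T e tau x n j)).re := by
    rw [Complex.re_sum]
    have h1 : ∀ n ∈ Icc 1 (K - 1), (1 / (n : ℝ)) * B - (Fintype.card ι : ℝ) * (2 * ε0) ≤
        ((1 / (n : ℂ)) *
        (∑ j, FF p y σ T e tau x n j - ∑ j, GG p y σ T e tau x n j)).re := by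
      intro n hn
      have hn1 := (mem_Icc.1 hn).1
      have hn0 : (0 : ℝ) < n := by exact_mod_cast hn1
      have h2 : (1 / (n : ℂ)) = ((1 / (n : ℝ) : ℝ) : ℂ) := by push_cast; rfl
      rw [h2, Complex.re_ofReal_mul]
      have h3 := mul_le_mul_of_nonneg_left (hone n hn) (by positivity : (0 : ℝ) ≤ 1 / n)
      refine le_trans (le_of_eq ?_) h3
      field_simp
    refine le_trans (le_of_eq ?_) (sum_le_sum h1)
    rw [sum_sub_distrib, ← sum_mul, sum_const, nsmul_eq_mul, Nat.card_Icc, ← hh]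
    simp only [Nat.add_sub_cancel]
    ring
  -- upper bound
  have hup : ‖∑ s, (pw p s : ℂ) * ∑ n ∈ Icc 1 (K - 1), (1 / (n : ℂ)) *
          (tau (star ((W s : A) ^ n) * T ((W s : A) ^ n * x) * β s) -
            tau ((W s : A) ^ n * T (star ((W s : A) ^ n) * x) * β s))‖ ≤
      C0 * ‖T‖ * ‖x‖ * Real.sqrt B := by
    refine (norm_sum_le _ _).trans ?_
    have h1 : ∀ s ∈ (univ : Finset (ι → S)), ‖(pw p s : ℂ) * ∑ n ∈ Icc 1 (K - 1), (1 / (n : ℂ)) *
          (tau (star ((W s : A) ^ n) * T ((W s : A) ^ n * x) * β s) -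
            tau ((W s : A) ^ n * T (star ((W s : A) ^ n) * x) * β s))‖ ≤
        C0 * ‖T‖ * ‖x‖ * (pw p s * Real.sqrt (tau (star (β s) * β s)).re) := by
      intro s _
      rw [norm_mul, Complex.norm_real, Real.norm_of_nonneg (pw_nonneg p hp0 s)]
      have h2 := mul_le_mul_of_nonneg_left (hJ (W s) x (β s) (K - 1)) (pw_nonneg p hp0 s)
      refine h2.trans (le_of_eq (by ring))
    refine (sum_le_sum h1).trans ?_
    rw [← mul_sum]
    refine mul_le_mul_of_nonneg_left ?_ (by positivity)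
    refine (jensen p hp0 hp _ fun s => hpos _).trans (Real.sqrt_le_sqrt (le_of_eq ?_))
    have h3 : ∀ s, tau (star (β s) * β s) =
        ∑ j, tau (e j j * (DD T (y (s j)) x * star (DD T (y (s j)) x))) := by
      intro s
      have h4 : star (β s) = ∑ j, e j j * DD T (y (s j)) x := by
        simp only [β]
        rw [star_sum]
        refine sum_congr rfl fun j _ => ?_
        rw [star_mul, star_star, he.star_e]
      rw [h4]
      exact tau_beta tau htr he (fun j => DD T (y (s j)) x) fun j => DD T (y (s j)) x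
    have h5 : ∑ s, pw p s * (tau (star (β s) * β s)).re =
        (∑ s, (pw p s : ℂ) * tau (star (β s) * β s)).re := by
      rw [Complex.re_sum]
      refine sum_congr rfl fun s _ => ?_
      rw [Complex.re_ofReal_mul]
    rw [h5]
    simp_rw [h3, mul_sum]
    rw [sum_comm]
    have h6 : ∀ j, ∑ s : ι → S, (pw p s : ℂ) *
        tau (e j j * (DD T (y (s j)) x * star (DD T (y (s j)) x))) =
        ∑ t, (p t : ℂ) * tau (e j j * (DD T (y t) x * star (DD T (y t) x))) := fun j =>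
      exp_one p hp j fun t => tau (e j j * (DD T (y t) x * star (DD T (y t) x)))
    simp_rw [h6]
    exact sum_FG tau htr p y T he x
  rw [hE] at hup
  have hfin : h * B ≤ C0 * ‖T‖ * ‖x‖ * Real.sqrt B +
      (Fintype.card ι : ℝ) * (2 * (K : ℝ) * ε0) := by
    have h1 := (Complex.re_le_norm (∑ n ∈ Icc 1 (K - 1), (1 / (n : ℂ)) *
        (∑ j, FF p y σ T e tau x n j - ∑ j, GG p y σ T e tau x n j))).trans hup
    have h2 : (Fintype.card ι : ℝ) * (2 * (K - 1 : ℕ) * ε0) ≤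
        (Fintype.card ι : ℝ) * (2 * (K : ℝ) * ε0) := by
      have h3 : ((K - 1 : ℕ) : ℝ) ≤ K := by exact_mod_cast Nat.sub_le K 1
      gcongr
    linarith
  have hq := quad_bound hhpos hB (by positivity : 0 ≤ C0 * ‖T‖ * ‖x‖)
    (by positivity : 0 ≤ (Fintype.card ι : ℝ) * (2 * (K : ℝ) * ε0)) hfin
  refine hq.trans (le_of_eq ?_)
  rw [hε0]
  ring

theorem finRotate_pow_apply (k : ℕ) (n : ℕ) (i : Fin (k + 1)) :
    (((finRotate (k + 1)) ^ n) i : ℕ) = (i + n) % (k + 1) := by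
  induction n generalizing i with
  | zero => simp [Nat.mod_eq_of_lt i.2]
  | succ n ih =>
    rw [pow_succ, Equiv.Perm.mul_apply, ih, finRotate_apply, Fin.val_add, Fin.val_one',
      Nat.mod_add_mod, Nat.add_right_comm, Nat.add_mod_mod, Nat.add_assoc]

theorem finRotate_pow_ne (K n : ℕ) (h1 : 1 ≤ n) (h2 : n < K) (j : Fin K) :
    ((finRotate K) ^ n) j ≠ j := by
  obtain ⟨k, rfl⟩ : ∃ k, K = k + 1 := ⟨K - 1, by omega⟩
  intro hc
  have h3 := congrArg Fin.val hc
  rw [finRotate_pow_apply] at h3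
  have hj := j.2
  rcases lt_or_ge ((j : ℕ) + n) (k + 1) with h | h
  · rw [Nat.mod_eq_of_lt h] at h3
    omega
  · rw [Nat.mod_eq_sub_mod h, Nat.mod_eq_of_lt (by omega)] at h3
    omega

end Main

/-- **L2 (CHAIN LEMMA)** for matrix units indexed by `Fin K` and the uniform law on the letters
(a finite family, closed under adjoints through the permutation `hat`). -/
theorem chain_fin {A : Type*} [CStarAlgebra A] {S : Type*} [Fintype S] [Nonempty S]
    (tau : A →ₗ[ℂ] ℂ)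
    (htr : ∀ a b, tau (a * b) = tau (b * a))
    (hpos : ∀ a, 0 ≤ (tau (star a * a)).re) (C0 : ℝ) (hC0 : 0 ≤ C0) (T : A →L[ℂ] A)
    (hJ : ∀ (w : unitary A) (x β : A) (L : ℕ),
      ‖∑ n ∈ Icc 1 L, (1 / (n : ℂ)) *
          (tau (star ((w : A) ^ n) * T ((w : A) ^ n * x) * β) -
            tau ((w : A) ^ n * T (star ((w : A) ^ n) * x) * β))‖ ≤
        C0 * ‖T‖ * ‖x‖ * Real.sqrt (tau (star β * β)).re)
    (K : ℕ) (hK : 2 ≤ K) (e : Fin K → Fin K → A) (he : IsMU e) (κ : ℝ) (hκ0 : 0 ≤ κ)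
    (hκ : ∀ j X, ‖tau (e j j * X)‖ ≤ κ * ‖X‖)
    (hT : ∀ i j x, T (e i j * x) = e i j * T x)
    (y : S → unitary A)
    (hyc : ∀ t i j, e i j * (y t : A) = y t * e i j)
    (hat : Equiv.Perm S) (hyh : ∀ t, (y (hat t) : A) = star (y t : A))
    (η : ℝ) (hη : ∀ z, ‖(1 / (Fintype.card S : ℂ)) • (∑ t, star (y t : A) * T ((y t : A) * z)) -
      T z‖ ≤ η * ‖z‖)
    (x : A) :
    (1 / (Fintype.card S : ℝ)) * ∑ t, (tau (star (DD T (y t) x) * DD T (y t) x)).re ≤
      (2 * C0 * ‖T‖ * ‖x‖ / (∑ n ∈ Icc 1 (K - 1), 1 / (n : ℝ))) ^ 2 +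
        8 * ((K : ℝ) ^ 2 * κ) * η * ‖T‖ * ‖x‖ ^ 2 / (∑ n ∈ Icc 1 (K - 1), 1 / (n : ℝ)) := by
  have hS : (0 : ℝ) < Fintype.card S := by exact_mod_cast Fintype.card_pos
  have h := chain tau htr κ hκ0 hκ hpos C0 hC0 T hJ he hT (finRotate K) K hK
    (fun n h1 h2 j => finRotate_pow_ne K n h1 h2 j) (fun _ : S => 1 / (Fintype.card S : ℝ))
    (fun _ => by positivity)
    (by rw [sum_const, card_univ, nsmul_eq_mul, mul_one_div_cancel hS.ne'])
    y hyc hat (fun _ => rfl) hyh η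
    (fun z => by
      rw [← smul_sum]
      push_cast
      exact hη z) x
  rw [← mul_sum, Fintype.card_fin] at h
  refine h.trans (le_of_eq ?_)
  ring

end Crest.Agent.R121.Chain
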