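import Crest.Agent.R121.L1
import Crest.Agent.R121.LB
import Crest.Agent.R121.LChain

/-! ROW 121, L2 CHAIN LEMMA (helper88).  Proof: ideas 555 L2 (index set of letters `S`, uniform law). -/

set_option autoImplicit false
open Finset

namespace Crest.Agent.R121

universe u
variable {A : Type u} [CStarAlgebra A] {τ : A →ₗ[ℂ] ℂ}

theorem MUn.isMU {K : ℕ} {e : Fin K → Fin K → A} (he : MUn e) : Chain.IsMU e where
  mul_same i j l := by rw [he.mul, if_pos rfl]
  mul_ne i j k l h := by rw [he.mul, if_neg h]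
  star_e := he.star
  sum_e := he.sum

/-- `τ (e j j) = 1 / K` -/
theorem MUn.tau_diag (hτ : TrS τ) {K : ℕ} {e : Fin K → Fin K → A} (he : MUn e) (j : Fin K) :
    τ (e j j) = 1 / (K : ℂ) := by
  have h1 : ∀ i, τ (e i i) = τ (e j j) := by
    intro i
    have h2 : e i i = e i j * e j i := by rw [he.mul, if_pos rfl]
    have h3 : e j j = e j i * e i j := by rw [he.mul, if_pos rfl]
    rw [h2, hτ.comm, ← h3]
  have h2 : (K : ℂ) * τ (e j j) = 1 := by
    have h3 := congrArg τ he.sum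
    rw [map_sum, hτ.one, sum_congr rfl fun i _ => h1 i, sum_const, card_univ, Fintype.card_fin,
      nsmul_eq_mul] at h3
    exact h3
  have hK : (K : ℂ) ≠ 0 := by
    intro h
    rw [h, zero_mul] at h2
    exact zero_ne_one h2
  rw [eq_div_iff hK, mul_comm]
  exact h2

theorem kappa_bound (hτ : TrS τ) {K : ℕ} {e : Fin K → Fin K → A} (he : MUn e) (j : Fin K)
    (X : A) : ‖τ (e j j * X)‖ ≤ (1 / (K : ℝ)) * ‖X‖ := by
  have h1 : τ (e j j * X) = τ (star (e j j) * (X * e j j)) := by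
    rw [he.star, hτ.comm (e j j) (X * e j j), mul_assoc, he.mul, if_pos rfl, hτ.comm X (e j j)]
  rw [h1]
  have h2 := cs hτ (e j j) (X * e j j)
  have h3 := n2_mul_left hτ X (e j j)
  have h4 : n2 τ (e j j) * n2 τ (e j j) = 1 / (K : ℝ) := by
    rw [← pow_two, n2_sq hτ, q2, he.star, he.mul, if_pos rfl, he.tau_diag hτ]
    rw [show (1 / (K : ℂ)) = ((1 / (K : ℝ) : ℝ) : ℂ) by push_cast; rfl, Complex.ofReal_re]
  have h5 := mul_le_mul_of_nonneg_left h3 (n2_nonneg (τ := τ) (e j j))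
  calc _ ≤ _ := h2
    _ ≤ _ := h5
    _ = (n2 τ (e j j) * n2 τ (e j j)) * ‖X‖ := by ring
    _ = _ := by rw [h4]

theorem sum_Icc_range {M : Type*} [AddCommMonoid M] (f : ℕ → M) (L : ℕ) :
    ∑ n ∈ Icc 1 L, f n = ∑ n ∈ range L, f (n + 1) := by
  induction L with
  | zero => simp
  | succ L ih => rw [sum_Icc_succ_top (by omega), ih, sum_range_succ]

theorem chain (hτ : TrS τ) {K : ℕ} (hK : 2 ≤ K) {e : Fin K → Fin K → A} (he : MUn e)
    (T : A →L[ℂ] A) (hT : Modu e T) {S : Type} [Fintype S] [Nonempty S] (y : S → A)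
    (inv : S → S) (hy : ∀ s, y s ∈ unitary A) (hc : ∀ s, Cmt e (y s))
    (hinv : ∀ s, inv (inv s) = s) (hys : ∀ s, y (inv s) = star (y s)) {η : ℝ} (hη0 : 0 ≤ η)
    (hη : ∀ x, ‖(1 / (Fintype.card S : ℂ)) • ∑ s, Dd T (y s) x‖ ≤ η * ‖x‖) (x : A) :
    (1 / (Fintype.card S : ℝ)) * ∑ s, q2 τ (Dd T (y s) x) ≤
      (20 * ‖T‖ * ‖x‖ / hs (K - 1)) ^ 2 + 16 * K ^ 2 * η * ‖T‖ * ‖x‖ ^ 2 / hs (K - 1) := by
  have hKpos : (0 : ℝ) < K := by exact_mod_cast (by omega : 0 < K)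
  have hScard : (Fintype.card S : ℂ) ≠ 0 := by exact_mod_cast Fintype.card_ne_zero
  have hsum : ∑ n ∈ Icc 1 (K - 1), 1 / (n : ℝ) = hs (K - 1) := by
    rw [sum_Icc_range, hs]
    exact sum_congr rfl fun n _ => by push_cast; rfl
  have hhs : 0 < hs (K - 1) := by
    unfold hs
    exact sum_pos (fun n _ => by positivity) ⟨0, mem_range.2 (by omega)⟩
  have key := Chain.chain_fin (S := S) τ hτ.comm hτ.nonneg 9 (by norm_num) T
    (fun w x β L => by
      have h1 := jump hτ w.2 T x β L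
      rw [sum_Icc_range]
      simp only [Nat.cast_add, Nat.cast_one]
      exact h1)
    K hK e he.isMU (1 / (K : ℝ)) (by positivity) (kappa_bound hτ he) hT
    (fun s => ⟨y s, hy s⟩) (fun s i j => (hc s i j).symm)
    (Function.Involutive.toPerm inv hinv) (fun s => hys s) η
    (fun z => by
      have h1 := hη z
      have h2 : (1 / (Fintype.card S : ℂ)) • ∑ s, Dd T (y s) z =
          (1 / (Fintype.card S : ℂ)) • (∑ s, star (y s) * T (y s * z)) - T z := by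
        unfold Dd
        rw [sum_sub_distrib, smul_sub, sum_const, card_univ, ← Nat.cast_smul_eq_nsmul ℂ, smul_smul,
          one_div_mul_cancel hScard, one_smul]
      rw [h2] at h1
      exact h1) x
  refine key.trans ?_
  rw [hsum]
  have h1 : (2 * 9 * ‖T‖ * ‖x‖ / hs (K - 1)) ^ 2 ≤ (20 * ‖T‖ * ‖x‖ / hs (K - 1)) ^ 2 := by
    gcongr
    norm_num
  have h2 : 8 * ((K : ℝ) ^ 2 * (1 / (K : ℝ))) * η * ‖T‖ * ‖x‖ ^ 2 / hs (K - 1) ≤
      16 * K ^ 2 * η * ‖T‖ * ‖x‖ ^ 2 / hs (K - 1) := by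
    have h3 : (K : ℝ) ^ 2 * (1 / (K : ℝ)) = K := by field_simp
    have h4 : (K : ℝ) ≤ (K : ℝ) ^ 2 := by
      have : (1 : ℝ) ≤ K := by exact_mod_cast (by omega : 1 ≤ K)
      nlinarith
    rw [h3]
    have h5 : 8 * (K : ℝ) ≤ 16 * (K : ℝ) ^ 2 := by linarith
    gcongr
  linarith

end Crest.Agent.R121
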