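import Mathlib

/-!
# Row 121, module L, lemmas L3 and L6 of idea 555 (helper98): averages of a bounded map

Abstract setting: `A` a unital C*-algebra, `T : A →L[ℂ] A`.

* `TU u T x = u⋆ T(u x)`; `Hull T` = the (real) convex hull of all `TU u T`, `u` unitary.
* `exists_modular`: matrix units `e i j`; there is `T₁ ∈ Hull T₀` with `T₁ (e i j x) = e i j T₁ x`.
* `exists_invariant`: finitely many unitaries `y s` commuting with the `e i j`; for `m ≥ 1` there is a modular
  `T ∈ Hull T₀` with `‖(1/|S|) ∑ y_s⋆ T(y_s x) - T x‖ ≤ (2 ‖T₀‖ / m) ‖x‖`.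
* `exists_four_unitary_comm`, `gen_elem`: general elements of the commutant of the matrix units.
-/

set_option autoImplicit false

namespace Crest.Agent.R121.LAvg

open scoped BigOperators

variable {A : Type*} [CStarAlgebra A]

/-- `TU u T x = star u * T (u * x)` -/
noncomputable def TU (u : A) (T : A →L[ℂ] A) : A →L[ℂ] A :=
  (ContinuousLinearMap.mul ℂ A (star u)).comp (T.comp (ContinuousLinearMap.mul ℂ A u))

@[simp] theorem TU_apply (u : A) (T : A →L[ℂ] A) (x : A) : TU u T x = star u * T (u * x) := rfl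

theorem TU_TU (u v : A) (T : A →L[ℂ] A) : TU v (TU u T) = TU (u * v) T := by
  ext x
  simp [mul_assoc]

theorem TU_one (T : A →L[ℂ] A) : TU (1 : A) T = T := by
  ext x
  simp

/-- the convex hull of all translates of `T` -/
def Hull (T : A →L[ℂ] A) : Set (A →L[ℂ] A) :=
  convexHull ℝ (Set.range fun u : unitary A => TU (u : A) T)

theorem self_mem_Hull (T : A →L[ℂ] A) : T ∈ Hull T :=
  subset_convexHull ℝ _ ⟨1, by simpa using TU_one T⟩

theorem TU_mem_Hull (T : A →L[ℂ] A) (u : unitary A) : TU (u : A) T ∈ Hull T :=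
  subset_convexHull ℝ _ ⟨u, rfl⟩

theorem convex_Hull (T : A →L[ℂ] A) : Convex ℝ (Hull T) := convex_convexHull ℝ _

theorem norm_unitary_mul (u : unitary A) (x : A) : ‖(u : A) * x‖ = ‖x‖ :=
  CStarRing.norm_coe_unitary_mul u x

theorem norm_TU_le (u : unitary A) (T : A →L[ℂ] A) : ‖TU (u : A) T‖ ≤ ‖T‖ := by
  refine ContinuousLinearMap.opNorm_le_bound _ (norm_nonneg _) fun x => ?_
  rw [TU_apply]
  have h1 : ‖star (u : A) * T ((u : A) * x)‖ = ‖T ((u : A) * x)‖ := by
    have := norm_unitary_mul (star u) (T ((u : A) * x))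
    simpa using this
  rw [h1]
  calc ‖T ((u : A) * x)‖ ≤ ‖T‖ * ‖(u : A) * x‖ := T.le_opNorm _
    _ = ‖T‖ * ‖x‖ := by rw [norm_unitary_mul]

theorem norm_le_of_mem_Hull {T S : A →L[ℂ] A} (hS : S ∈ Hull T) : ‖S‖ ≤ ‖T‖ := by
  have h : Hull T ⊆ Metric.closedBall (0 : A →L[ℂ] A) ‖T‖ := by
    refine convexHull_min ?_ (convex_closedBall _ _)
    rintro _ ⟨u, rfl⟩
    simpa using norm_TU_le u T
  simpa using h hS

/-- `TU u` as a linear map of `T` -/
noncomputable def TUl (u : A) : (A →L[ℂ] A) →ₗ[ℝ] (A →L[ℂ] A) where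
  toFun := TU u
  map_add' S T := by ext x; simp [mul_add]
  map_smul' c T := by ext x; simp

theorem TU_mem_of_mem {T S : A →L[ℂ] A} (hS : S ∈ Hull T) (u : unitary A) :
    TU (u : A) S ∈ Hull T := by
  have h : Hull T ⊆ (TUl (u : A)) ⁻¹' (Hull T) := by
    refine convexHull_min ?_ ((convex_Hull T).linear_preimage _)
    rintro _ ⟨v, rfl⟩
    show TU (u : A) (TU (v : A) T) ∈ Hull T
    rw [TU_TU]
    exact TU_mem_Hull T (v * u)
  exact h hS

theorem Hull_trans {T S R : A →L[ℂ] A} (hS : S ∈ Hull T) (hR : R ∈ Hull S) : R ∈ Hull T := by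
  have h : Hull S ⊆ Hull T := by
    refine convexHull_min ?_ (convex_Hull T)
    rintro _ ⟨v, rfl⟩
    exact TU_mem_of_mem hS v
  exact h hR

/-- the average of finitely many elements of the hull -/
theorem avg_mem {T : A →L[ℂ] A} {I : Type*} [Fintype I] [Nonempty I] (S : I → A →L[ℂ] A)
    (hS : ∀ i, S i ∈ Hull T) : ((Fintype.card I : ℂ)⁻¹ • ∑ i, S i) ∈ Hull T := by
  have hc : (0 : ℝ) < (Fintype.card I : ℝ) := by exact_mod_cast Fintype.card_pos
  have h := (convex_Hull T).sum_mem (t := Finset.univ) (w := fun _ : I => (Fintype.card I : ℝ)⁻¹)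
    (z := S) (fun i _ => by positivity)
    (by simp [Finset.card_univ]) (fun i _ => hS i)
  have e : (∑ i, (Fintype.card I : ℝ)⁻¹ • S i) = (Fintype.card I : ℂ)⁻¹ • ∑ i, S i := by
    rw [Finset.smul_sum]
    refine Finset.sum_congr rfl fun i _ => ?_
    ext x
    simp only [smul_apply]
    rw [← Complex.coe_smul]
    simp
  rwa [e] at h

/-! ### Signs -/

theorem sum_sign_eq_zero {K : ℕ} (j j' : Fin K) (h : j ≠ j') :
    ∑ ε : Fin K → ℤˣ, (((ε j : ℤ) : ℂ) * ((ε j' : ℤ) : ℂ)) = 0 := by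
  classical
  have h1 := Equiv.sum_comp (Equiv.mulRight (Pi.mulSingle j (-1 : ℤˣ)))
    (fun ε : Fin K → ℤˣ => (((ε j : ℤ) : ℂ) * ((ε j' : ℤ) : ℂ)))
  have h2 : ∀ ε : Fin K → ℤˣ,
      (((((Equiv.mulRight (Pi.mulSingle j (-1 : ℤˣ))) ε) j : ℤ) : ℂ)
        * ((((Equiv.mulRight (Pi.mulSingle j (-1 : ℤˣ))) ε) j' : ℤ) : ℂ))
      = - (((ε j : ℤ) : ℂ) * ((ε j' : ℤ) : ℂ)) := by
    intro ε
    simp [Pi.mulSingle_eq_of_ne (Ne.symm h)]
  simp only [h2, Finset.sum_neg_distrib] at h1
  have h3 : (2 : ℂ) * ∑ ε : Fin K → ℤˣ, (((ε j : ℤ) : ℂ) * ((ε j' : ℤ) : ℂ)) = 0 := by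
    linear_combination -h1
  simpa using h3

theorem sign_sq (u : ℤˣ) : (((u : ℤ) : ℂ) * ((u : ℤ) : ℂ)) = 1 := by
  rcases Int.units_eq_one_or u with h | h <;> simp [h]

/-! ### Matrix units -/

/-- matrix units with sum one -/
structure MU (K : ℕ) (e : Fin K → Fin K → A) : Prop where
  mul : ∀ i j k l, e i j * e k l = if j = k then e i l else 0
  star : ∀ i j, star (e i j) = e j i
  one : ∑ i, e i i = 1

section MUsec

variable {K : ℕ} {e : Fin K → Fin K → A}

/-- the signed shift -/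
noncomputable def gel (e : Fin K → Fin K → A) [NeZero K] (p : (Fin K → ℤˣ) × Fin K) : A :=
  ∑ j, ((p.1 j : ℤ) : ℂ) • e (j + p.2) j

theorem star_gel (he : MU K e) [NeZero K] (p : (Fin K → ℤˣ) × Fin K) :
    star (gel e p) = ∑ j, ((p.1 j : ℤ) : ℂ) • e j (j + p.2) := by
  unfold gel
  rw [star_sum]
  refine Finset.sum_congr rfl fun j _ => ?_
  rw [star_smul, he.star]
  congr 1
  simp

theorem gel_unitary (he : MU K e) [NeZero K] (p : (Fin K → ℤˣ) × Fin K) : gel e p ∈ unitary A := by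
  rw [Unitary.mem_iff, star_gel he]
  unfold gel
  constructor
  · rw [Finset.sum_mul_sum]
    simp only [smul_mul_smul_comm, he.mul, add_left_inj]
    simp only [smul_ite, smul_zero, Finset.sum_ite_eq, Finset.mem_univ, if_true, sign_sq, one_smul]
    exact he.one
  · rw [Finset.sum_mul_sum]
    simp only [smul_mul_smul_comm, he.mul]
    simp only [smul_ite, smul_zero, Finset.sum_ite_eq, Finset.mem_univ, if_true, sign_sq, one_smul]
    rw [← he.one]
    exact Equiv.sum_comp (Equiv.addRight p.2) (fun i => e i i)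

/-- the modular average is `(1/K) ∑ e i j T(e j i x)` -/
theorem avg_gel (he : MU K e) [NeZero K] (T : A →L[ℂ] A) (x : A) :
    ((Fintype.card ((Fin K → ℤˣ) × Fin K) : ℂ)⁻¹ • ∑ p, TU (gel e p) T) x
      = (K : ℂ)⁻¹ • ∑ i, ∑ j, e i j * T (e j i * x) := by
  have h1 : ∀ p : (Fin K → ℤˣ) × Fin K, TU (gel e p) T x
      = ∑ j, ∑ j', (((p.1 j : ℤ) : ℂ) * ((p.1 j' : ℤ) : ℂ)) • (e j (j + p.2) * T (e (j' + p.2) j' * x)) := by
    intro p
    rw [TU_apply, star_gel he]
    unfold gel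
    have e0 : T ((∑ j, ((p.1 j : ℤ) : ℂ) • e (j + p.2) j) * x)
        = ∑ j, ((p.1 j : ℤ) : ℂ) • T (e (j + p.2) j * x) := by
      rw [Finset.sum_mul, map_sum]
      refine Finset.sum_congr rfl fun j _ => ?_
      rw [smul_mul_assoc, map_smul]
    rw [e0, Finset.sum_mul_sum]
    refine Finset.sum_congr rfl fun j _ => Finset.sum_congr rfl fun j' _ => ?_
    rw [smul_mul_smul_comm]
  rw [smul_apply, sum_apply]
  simp only [h1]
  rw [Fintype.sum_prod_type]
  have h2 : ∀ k : Fin K, ∑ ε : Fin K → ℤˣ, ∑ j, ∑ j', (((ε j : ℤ) : ℂ) * ((ε j' : ℤ) : ℂ)) •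
      (e j (j + k) * T (e (j' + k) j' * x))
      = (Fintype.card (Fin K → ℤˣ) : ℂ) • ∑ j, (e j (j + k) * T (e (j + k) j * x)) := by
    intro k
    rw [Finset.sum_comm]
    rw [Finset.smul_sum]
    refine Finset.sum_congr rfl fun j _ => ?_
    rw [Finset.sum_comm]
    rw [Finset.sum_eq_single j]
    · simp only [sign_sq, one_smul, Finset.sum_const, Finset.card_univ]
      rw [← Nat.cast_smul_eq_nsmul ℂ]
    · intro j' _ hj'
      rw [← Finset.sum_smul, sum_sign_eq_zero j j' (Ne.symm hj'), zero_smul]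
    · simp
  rw [Finset.sum_comm]
  simp only [h2]
  rw [← Finset.smul_sum, smul_smul]
  have h3 : ∑ k : Fin K, ∑ j, (e j (j + k) * T (e (j + k) j * x))
      = ∑ i, ∑ j, e i j * T (e j i * x) := by
    rw [Finset.sum_comm]
    refine Finset.sum_congr rfl fun j _ => ?_
    exact Equiv.sum_comp (Equiv.addLeft j) (fun i => e j i * T (e i j * x))
  rw [h3]
  congr 1
  rw [Fintype.card_prod, Fintype.card_fin]
  push_cast
  have hc : (Fintype.card (Fin K → ℤˣ) : ℂ) ≠ 0 := by
    exact_mod_cast Fintype.card_ne_zero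
  field_simp

/-- **L6a**: there is a `K`-modular element in the hull -/
theorem exists_modular (he : MU K e) [NeZero K] (T₀ : A →L[ℂ] A) :
    ∃ T₁ ∈ Hull T₀, ∀ i j x, T₁ (e i j * x) = e i j * T₁ x := by
  refine ⟨_, avg_mem (T := T₀) (I := (Fin K → ℤˣ) × Fin K) (fun p => TU (gel e p) T₀)
    (fun p => TU_mem_Hull T₀ ⟨gel e p, gel_unitary he p⟩), ?_⟩
  intro k l x
  rw [avg_gel he, avg_gel he]
  rw [mul_smul_comm]
  congr 1
  have hL : ∑ i, ∑ j, e i j * T₀ (e j i * (e k l * x)) = ∑ j, e k j * T₀ (e j l * x) := by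
    rw [Finset.sum_eq_single k]
    · refine Finset.sum_congr rfl fun j _ => ?_
      rw [← mul_assoc (e j k), he.mul]; simp
    · intro i _ hi
      refine Finset.sum_eq_zero fun j _ => ?_
      rw [← mul_assoc (e j i), he.mul, if_neg hi]; simp
    · simp
  have hR : e k l * ∑ i, ∑ j, e i j * T₀ (e j i * x) = ∑ j, e k j * T₀ (e j l * x) := by
    rw [Finset.mul_sum, Finset.sum_eq_single l]
    · rw [Finset.mul_sum]
      refine Finset.sum_congr rfl fun j _ => ?_
      rw [← mul_assoc, he.mul]; simp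
    · intro i _ hi
      rw [Finset.mul_sum]
      refine Finset.sum_eq_zero fun j _ => ?_
      rw [← mul_assoc, he.mul, if_neg (Ne.symm hi)]; simp
    · simp
  rw [hL, hR]

end MUsec

/-! ### Invariance under the letters -/

/-- average over the letters, as a linear map -/
noncomputable def Qav {S : Type*} [Fintype S] (y : S → A) : (A →L[ℂ] A) →ₗ[ℂ] (A →L[ℂ] A) where
  toFun T := (Fintype.card S : ℂ)⁻¹ • ∑ s, TU (y s) T
  map_add' T₁ T₂ := by ext x; simp [mul_add, Finset.sum_add_distrib]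
  map_smul' c T := by
    ext x
    simp [Finset.smul_sum, smul_smul, mul_comm]

theorem Qav_apply {S : Type*} [Fintype S] (y : S → A) (T : A →L[ℂ] A) :
    Qav y T = (Fintype.card S : ℂ)⁻¹ • ∑ s, TU (y s) T := rfl

theorem Qav_mem {S : Type*} [Fintype S] [Nonempty S] (y : S → A) (hy : ∀ s, y s ∈ unitary A)
    {T₀ T : A →L[ℂ] A} (hT : T ∈ Hull T₀) : Qav y T ∈ Hull T₀ :=
  avg_mem _ fun s => TU_mem_of_mem hT ⟨y s, hy s⟩

/-- the maps which are modular for the matrix units -/
def Modular {K : ℕ} (e : Fin K → Fin K → A) (T : A →L[ℂ] A) : Prop :=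
  ∀ i j x, T (e i j * x) = e i j * T x

theorem Modular.add {K : ℕ} {e : Fin K → Fin K → A} {T T' : A →L[ℂ] A} (h : Modular e T)
    (h' : Modular e T') : Modular e (T + T') := by
  intro i j x
  simp [h i j x, h' i j x, mul_add]

theorem Modular.smul {K : ℕ} {e : Fin K → Fin K → A} {T : A →L[ℂ] A} (c : ℂ) (h : Modular e T) :
    Modular e (c • T) := by
  intro i j x
  simp [h i j x]

theorem Modular.zero {K : ℕ} {e : Fin K → Fin K → A} : Modular e (0 : A →L[ℂ] A) := by
  intro i j x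
  simp

theorem Modular.sum {K : ℕ} {e : Fin K → Fin K → A} {I : Type*} (s : Finset I) (T : I → A →L[ℂ] A)
    (h : ∀ i ∈ s, Modular e (T i)) : Modular e (∑ i ∈ s, T i) := by
  classical
  induction s using Finset.induction_on with
  | empty => simpa using Modular.zero
  | insert a s ha ih =>
    rw [Finset.sum_insert ha]
    exact (h a (Finset.mem_insert_self _ _)).add (ih fun i hi => h i (Finset.mem_insert_of_mem hi))

theorem Modular.TU {K : ℕ} {e : Fin K → Fin K → A} (he : MU K e) {T : A →L[ℂ] A}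
    (h : Modular e T) (y : A) (hy : ∀ i j, e i j * y = y * e i j) : Modular e (TU y T) := by
  intro i j x
  rw [TU_apply, TU_apply, ← mul_assoc y, ← hy, mul_assoc, h i j, ← mul_assoc, ← mul_assoc]
  congr 1
  have := congrArg star (hy j i)
  rw [star_mul, star_mul, he.star] at this
  exact this

theorem Modular.Qav {K : ℕ} {e : Fin K → Fin K → A} (he : MU K e) {S : Type*} [Fintype S]
    {y : S → A} (hc : ∀ s i j, e i j * y s = y s * e i j) {T : A →L[ℂ] A} (h : Modular e T) :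
    Modular e (Qav y T) := by
  rw [Qav_apply]
  exact (Modular.sum _ _ fun s _ => h.TU he (y s) (hc s)).smul _

/-- **L6b** -/
theorem exists_invariant {K : ℕ} {e : Fin K → Fin K → A} (he : MU K e) [NeZero K]
    {S : Type*} [Fintype S] [Nonempty S] (y : S → A) (hy : ∀ s, y s ∈ unitary A)
    (hc : ∀ s i j, e i j * y s = y s * e i j) (T₀ : A →L[ℂ] A) (m : ℕ) (hm : 1 ≤ m) :
    ∃ T ∈ Hull T₀, Modular e T ∧ ‖T‖ ≤ ‖T₀‖ ∧
      (∀ x, ‖(Fintype.card S : ℂ)⁻¹ • ∑ s, star (y s) * T (y s * x) - T x‖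
        ≤ 2 * ‖T₀‖ / m * ‖x‖) := by
  obtain ⟨T₁, hT₁, hmod⟩ := exists_modular he T₀
  have hmem : ∀ k, ((Qav y)^[k] T₁) ∈ Hull T₀ := by
    intro k
    induction k with
    | zero => simpa using hT₁
    | succ k ih =>
      rw [Function.iterate_succ_apply']
      exact Qav_mem y hy ih
  have hmodk : ∀ k, Modular e ((Qav y)^[k] T₁) := by
    intro k
    induction k with
    | zero => exact hmod
    | succ k ih =>
      rw [Function.iterate_succ_apply']
      exact ih.Qav he hc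
  haveI : Nonempty (Fin m) := ⟨⟨0, hm⟩⟩
  let T : A →L[ℂ] A := (Fintype.card (Fin m) : ℂ)⁻¹ • ∑ k : Fin m, (Qav y)^[(k : ℕ)] T₁
  have hT : T ∈ Hull T₀ := avg_mem _ fun k : Fin m => hmem k
  refine ⟨T, hT, ?_, norm_le_of_mem_Hull hT, ?_⟩
  · exact (Modular.sum Finset.univ (fun k : Fin m => (Qav y)^[(k : ℕ)] T₁) fun k _ => hmodk k).smul _
  · intro x
    have hdiff : Qav y T - T = (m : ℂ)⁻¹ • ((Qav y)^[m] T₁ - T₁) := by
      have h1 : Qav y T = (m : ℂ)⁻¹ • ∑ k ∈ Finset.range m, (Qav y)^[k + 1] T₁ := by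
        simp only [T, map_smul, map_sum, Fintype.card_fin]
        rw [Finset.sum_range]
        congr 1
        refine Finset.sum_congr rfl fun k _ => ?_
        rw [Function.iterate_succ_apply']
      have h2 : T = (m : ℂ)⁻¹ • ∑ k ∈ Finset.range m, (Qav y)^[k] T₁ := by
        simp only [T, Fintype.card_fin]
        rw [Finset.sum_range]
      have h5 : ∑ k ∈ Finset.range m, (Qav y)^[k + 1] T₁ - ∑ k ∈ Finset.range m, (Qav y)^[k] T₁
          = (Qav y)^[m] T₁ - T₁ := by
        rw [← Finset.sum_sub_distrib, Finset.sum_range_sub (fun k => (Qav y)^[k] T₁)]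
        rfl
      rw [h1, ← h5]
      conv_lhs => rw [h2]
      exact (smul_sub _ _ _).symm
    have hx : (Fintype.card S : ℂ)⁻¹ • ∑ s, star (y s) * T (y s * x) - T x = (Qav y T - T) x := by
      rw [sub_apply, Qav_apply, smul_apply,
        sum_apply]
      simp
    rw [hx, hdiff]
    have hn : ‖(m : ℂ)⁻¹ • ((Qav y)^[m] T₁ - T₁)‖ ≤ 2 * ‖T₀‖ / m := by
      rw [norm_smul, norm_inv, Complex.norm_natCast]
      have h3 : ‖(Qav y)^[m] T₁ - T₁‖ ≤ 2 * ‖T₀‖ := by
        calc _ ≤ ‖(Qav y)^[m] T₁‖ + ‖T₁‖ := norm_sub_le _ _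
          _ ≤ ‖T₀‖ + ‖T₀‖ := add_le_add (norm_le_of_mem_Hull (hmem m)) (norm_le_of_mem_Hull hT₁)
          _ = 2 * ‖T₀‖ := by ring
      have hm' : (0 : ℝ) < m := by exact_mod_cast hm
      rw [inv_mul_le_iff₀ hm']
      calc _ ≤ 2 * ‖T₀‖ := h3
        _ = m * (2 * ‖T₀‖ / m) := by field_simp
    exact (ContinuousLinearMap.le_opNorm _ _).trans
      (mul_le_mul_of_nonneg_right hn (norm_nonneg _))

/-! ### L3: general elements of the commutant -/

theorem exists_four_unitary_comm (s : Set A) (Y : A)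
    (hY : ∀ g ∈ s, g * Y = Y * g ∧ star g * Y = Y * star g) :
    ∃ (U : Fin 4 → A) (c : Fin 4 → ℂ), (∀ r, U r ∈ unitary A) ∧ Y = ∑ r, c r • U r ∧
      (∀ r, ‖c r‖ ≤ ‖Y‖ / 2) ∧ ∀ r, ∀ g ∈ s, g * U r = U r * g := by
  let B : StarSubalgebra ℂ A := StarSubalgebra.centralizer ℂ s
  have hB : IsClosed (B : Set A) := by
    rw [StarSubalgebra.coe_centralizer]
    exact Set.isClosed_centralizer _
  haveI : IsClosed (B : Set A) := hB
  have hYB : Y ∈ B := StarSubalgebra.mem_centralizer_iff (R := ℂ) |>.2 hY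
  obtain ⟨u, c, h1, h2⟩ := CStarAlgebra.exists_sum_four_unitary (A := B) ⟨Y, hYB⟩
  refine ⟨fun r => ((u r : B) : A), c, ?_, ?_, ?_, ?_⟩
  · intro r
    have := (u r).2
    rw [Unitary.mem_iff] at this ⊢
    constructor
    · exact congrArg (Subtype.val) this.1
    · exact congrArg (Subtype.val) this.2
  · have := congrArg (Subtype.val) h1
    simpa using this
  · intro r
    exact h2 r
  · intro r g hg
    exact ((StarSubalgebra.mem_centralizer_iff (R := ℂ)).1 ((u r : B)).2 g hg).1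

/-- positivity of the trace gives the Cauchy-Schwarz inequality for sums of squares -/
theorem re_tau_sum_le (τ : A →ₗ[ℂ] ℂ) (hpos : ∀ a, 0 ≤ (τ (star a * a)).re) {n : ℕ}
    (w : Fin n → A) :
    (τ (star (∑ r, w r) * ∑ r, w r)).re ≤ n * ∑ r, (τ (star (w r) * w r)).re := by
  have h : ∑ r, ∑ s, (τ (star (w r - w s) * (w r - w s))).re
      = 2 * (n * ∑ r, (τ (star (w r) * w r)).re) - 2 * (τ (star (∑ r, w r) * ∑ r, w r)).re := by
    have e1 : ∀ r s, (τ (star (w r - w s) * (w r - w s))).re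
        = (τ (star (w r) * w r)).re + (τ (star (w s) * w s)).re
          - (τ (star (w r) * w s)).re - (τ (star (w s) * w r)).re := by
      intro r s
      have : star (w r - w s) * (w r - w s) = star (w r) * w r + star (w s) * w s
          - star (w r) * w s - star (w s) * w r := by
        rw [star_sub]; noncomm_ring
      rw [this]; simp
    simp only [e1, Finset.sum_sub_distrib, Finset.sum_add_distrib, Finset.sum_const,
      Finset.card_univ, Fintype.card_fin, nsmul_eq_mul]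
    have e2 : (τ (star (∑ r, w r) * ∑ r, w r)).re = ∑ r, ∑ s, (τ (star (w r) * w s)).re := by
      rw [star_sum, Finset.sum_mul_sum]
      simp
    have e3 : ∑ r, ∑ s, (τ (star (w s) * w r)).re = ∑ r, ∑ s, (τ (star (w r) * w s)).re :=
      Finset.sum_comm
    rw [e2, e3, ← Finset.mul_sum]
    ring
  have h0 : 0 ≤ ∑ r, ∑ s, (τ (star (w r - w s) * (w r - w s))).re :=
    Finset.sum_nonneg fun r _ => Finset.sum_nonneg fun s _ => hpos _
  linarith

/-- **L3** -/
theorem gen_elem (τ : A →ₗ[ℂ] ℂ) (hpos : ∀ a, 0 ≤ (τ (star a * a)).re) (s : Set A) (Y : A)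
    (hY : ∀ g ∈ s, g * Y = Y * g ∧ star g * Y = Y * star g) :
    ∃ U : Fin 4 → A, (∀ r, U r ∈ unitary A) ∧ (∀ r, ∀ g ∈ s, g * U r = U r * g) ∧
      ∀ (T : A →L[ℂ] A) (x : A), (τ (star (T (Y * x) - Y * T x) * (T (Y * x) - Y * T x))).re
        ≤ ‖Y‖ ^ 2 * ∑ r, (τ (star (star (U r) * T (U r * x) - T x)
            * (star (U r) * T (U r * x) - T x))).re := by
  obtain ⟨U, c, hU, hYs, hc, hcomm⟩ := exists_four_unitary_comm s Y hY
  refine ⟨U, hU, hcomm, ?_⟩
  intro T x
  have h1 : T (Y * x) - Y * T x = ∑ r, c r • (U r * (star (U r) * T (U r * x) - T x)) := by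
    have e1 : T (Y * x) = ∑ r, c r • T (U r * x) := by
      rw [hYs, Finset.sum_mul, map_sum]
      refine Finset.sum_congr rfl fun r _ => ?_
      rw [smul_mul_assoc, map_smul]
    have e2 : Y * T x = ∑ r, c r • (U r * T x) := by
      conv_lhs => rw [hYs]
      rw [Finset.sum_mul]
      refine Finset.sum_congr rfl fun r _ => ?_
      rw [smul_mul_assoc]
    rw [e1, e2, ← Finset.sum_sub_distrib]
    refine Finset.sum_congr rfl fun r _ => ?_
    rw [← smul_sub, mul_sub, ← mul_assoc, (Unitary.mem_iff.1 (hU r)).2, one_mul]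
  rw [h1]
  refine (re_tau_sum_le τ hpos _).trans ?_
  have h2 : ∀ r, (τ (star (c r • (U r * (star (U r) * T (U r * x) - T x)))
        * (c r • (U r * (star (U r) * T (U r * x) - T x))))).re
      = ‖c r‖ ^ 2 * (τ (star (star (U r) * T (U r * x) - T x)
            * (star (U r) * T (U r * x) - T x))).re := by
    intro r
    set D := star (U r) * T (U r * x) - T x with hD
    have e3 : star (c r • (U r * D)) * (c r • (U r * D)) = ((‖c r‖ ^ 2 : ℝ) : ℂ) • (star D * D) := by
      rw [star_smul, smul_mul_smul_comm, star_mul]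
      have e4 : star D * star (U r) * (U r * D) = star D * D := by
        rw [mul_assoc, ← mul_assoc (star (U r)), (Unitary.mem_iff.1 (hU r)).1, one_mul]
      rw [e4]
      congr 1
      rw [Complex.star_def, Complex.conj_mul']
      push_cast
      rfl
    rw [e3, map_smul, smul_eq_mul, Complex.re_ofReal_mul]
  simp only [h2]
  have h3 : ∀ r, ‖c r‖ ^ 2 * (τ (star (star (U r) * T (U r * x) - T x)
            * (star (U r) * T (U r * x) - T x))).re
      ≤ (‖Y‖ / 2) ^ 2 * (τ (star (star (U r) * T (U r * x) - T x)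
            * (star (U r) * T (U r * x) - T x))).re := by
    intro r
    exact mul_le_mul_of_nonneg_right (pow_le_pow_left₀ (norm_nonneg _) (hc r) 2) (hpos _)
  calc ((4 : ℕ) : ℝ) * ∑ r, ‖c r‖ ^ 2 * (τ (star (star (U r) * T (U r * x) - T x)
            * (star (U r) * T (U r * x) - T x))).re
      ≤ ((4 : ℕ) : ℝ) * ∑ r, (‖Y‖ / 2) ^ 2 * (τ (star (star (U r) * T (U r * x) - T x)
            * (star (U r) * T (U r * x) - T x))).re :=
        mul_le_mul_of_nonneg_left (Finset.sum_le_sum fun r _ => h3 r) (by norm_num)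
    _ = _ := by
        rw [← Finset.mul_sum]
        push_cast
        ring

end Crest.Agent.R121.LAvg
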