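import Crest.Agent.R121.LDefs
import Crest.Agent.R121.LAvg

/-! ROW 121, L3 (helper92): elements of the commutant are combinations of 4 unitaries of the
commutant (`CStarAlgebra.exists_sum_four_unitary` style; the unitaries `h ± i √(1 - h²)` are
continuous functions of `h`, hence in the commutant). -/

set_option autoImplicit false
open Finset

namespace Crest.Agent.R121

universe u
variable {A : Type u} [CStarAlgebra A] {τ : A →ₗ[ℂ] ℂ}

theorem four_unitaries {K : ℕ} {e : Fin K → Fin K → A} (he : MUn e) {Y : A} (hY : Cmt e Y)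
    {C1 : ℝ} (hC1 : 0 < C1) (hn : ‖Y‖ ≤ C1) :
    ∃ (U : Fin 4 → A) (c : Fin 4 → ℂ), (∀ r, U r ∈ unitary A) ∧ (∀ r, Cmt e (U r)) ∧
      (∀ r, ‖c r‖ ≤ C1 / 2) ∧ Y = ∑ r, c r • U r := by
  obtain ⟨U, c, h1, h2, h3, h4⟩ := LAvg.exists_four_unitary_comm
    (Set.range fun p : Fin K × Fin K => e p.1 p.2) Y (by
      rintro _ ⟨p, rfl⟩
      refine ⟨(hY _ _).symm, ?_⟩
      show star (e p.1 p.2) * Y = Y * star (e p.1 p.2)
      rw [he.star]
      exact (hY _ _).symm)
  refine ⟨U, c, h1, ?_, ?_, h2⟩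
  · intro r i j
    exact (h4 r _ ⟨(i, j), rfl⟩).symm
  · intro r
    exact (h3 r).trans (by linarith)

end Crest.Agent.R121
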