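import Crest.Agent.R121.LB
import Crest.Agent.R121.FL2c

/-! ROW 121, L4a (helper25): matrix coefficients.  Proof: ideas 555 L4, 554.
`z = ∑ e_ik z_ik`, `z_ik = co e z i k` in the commutant; the phases `δ_k` are independent third roots
of unity `ph 3`. -/

set_option autoImplicit false
open Finset

namespace Crest.Agent.R121

universe u
variable {A : Type u} [CStarAlgebra A] {τ : A →ₗ[ℂ] ℂ} {K : ℕ} {e : Fin K → Fin K → A}

theorem co_cmt (he : MUn e) (z : A) (i k : Fin K) : Cmt e (co e z i k) := by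
  intro a b
  unfold co
  rw [Finset.mul_sum, Finset.sum_mul]
  rw [Finset.sum_eq_single a, Finset.sum_eq_single b]
  · rw [← mul_assoc, ← mul_assoc, he.mul, mul_assoc (e a i * z), he.mul]
    simp
  · intro j _ hj
    rw [← mul_assoc, ← mul_assoc, he.mul, if_neg (Ne.symm hj), zero_mul, zero_mul]
  · simp
  · intro j _ hj
    rw [mul_assoc (e j i * z), he.mul, if_neg hj, mul_zero]
  · simp

theorem co_star (he : MUn e) (z : A) (i k : Fin K) : star (co e z i k) = co e (star z) k i := by
  unfold co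
  rw [star_sum]
  refine Finset.sum_congr rfl fun j _ => ?_
  rw [star_mul, star_mul, he.star, he.star, mul_assoc]

/-- `z e_kj = ∑ i, e_ij z_ik` -/
theorem mul_e_eq (he : MUn e) (z : A) (k j : Fin K) :
    z * e k j = ∑ i, e i j * co e z i k := by
  have h1 : ∀ i, e i j * co e z i k = e i i * (z * e k j) := by
    intro i
    unfold co
    rw [Finset.mul_sum, Finset.sum_eq_single j]
    · rw [← mul_assoc, ← mul_assoc, he.mul, if_pos rfl, mul_assoc]
    · intro l _ hl
      rw [← mul_assoc, ← mul_assoc, he.mul, if_neg (Ne.symm hl), zero_mul, zero_mul]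
    · simp
  rw [Finset.sum_congr rfl fun i _ => h1 i, ← Finset.sum_mul, he.sum, one_mul]

/-- `z_ik w_kl = ∑ j, e_ji z e_kk w e_lj` -/
theorem co_mul_co (he : MUn e) (z w : A) (i k l : Fin K) :
    co e z i k * co e w k l = ∑ j, e j i * z * e k k * w * e l j := by
  unfold co
  rw [Finset.sum_mul_sum]
  refine Finset.sum_congr rfl fun j _ => ?_
  rw [Finset.sum_eq_single j]
  · have h := he.mul k j j k
    rw [if_pos rfl] at h
    calc e j i * z * e k j * (e j k * w * e l j)
        = e j i * z * (e k j * e j k) * w * e l j := by noncomm_ring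
      _ = _ := by rw [h]
  · intro m _ hm
    have h := he.mul k j m k
    rw [if_neg (Ne.symm hm)] at h
    calc e j i * z * e k j * (e m k * w * e l m)
        = e j i * z * (e k j * e m k) * w * e l m := by noncomm_ring
      _ = _ := by rw [h]; simp
  · simp

theorem sum_co_mul_co (he : MUn e) (z w : A) (i l : Fin K) :
    ∑ k, co e z i k * co e w k l = co e (z * w) i l := by
  rw [Finset.sum_congr rfl fun k _ => co_mul_co he z w i k l, Finset.sum_comm]
  unfold co
  refine Finset.sum_congr rfl fun j _ => ?_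
  have : ∀ k, e j i * z * e k k * w * e l j = (e j i * z) * e k k * (w * e l j) := by
    intro k; noncomm_ring
  rw [Finset.sum_congr rfl fun k _ => this k, ← Finset.sum_mul, ← Finset.mul_sum, he.sum]
  noncomm_ring

theorem co_one (he : MUn e) (i : Fin K) : co e 1 i i = 1 := by
  unfold co
  rw [← he.sum]
  refine Finset.sum_congr rfl fun j _ => ?_
  rw [he.sum, mul_one, he.mul, if_pos rfl]

theorem sum_co_row (he : MUn e) {z : A} (hz : z ∈ unitary A) (i : Fin K) :
    ∑ k, co e z i k * star (co e z i k) = 1 := by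
  rw [Finset.sum_congr rfl fun k _ => by rw [co_star he], sum_co_mul_co he,
    (Unitary.mem_iff.1 hz).2, co_one he]

theorem sum_co_col (he : MUn e) {z : A} (hz : z ∈ unitary A) (k : Fin K) :
    ∑ i, star (co e z i k) * co e z i k = 1 := by
  rw [Finset.sum_congr rfl fun k _ => by rw [co_star he], sum_co_mul_co he,
    (Unitary.mem_iff.1 hz).1, co_one he]

/-- `Y_{i,δ} = ∑ δ_k z_ik` -/
noncomputable def Yd (e : Fin K → Fin K → A) (z : A) (i : Fin K) (d : Fin K → Fin 3) : A :=
  ∑ k, ph 3 (d k) • co e z i k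

theorem Yd_cmt (he : MUn e) (z : A) (i : Fin K) (d : Fin K → Fin 3) : Cmt e (Yd e z i d) := by
  intro a b
  unfold Yd
  rw [Finset.mul_sum, Finset.sum_mul]
  refine Finset.sum_congr rfl fun k _ => ?_
  rw [mul_smul_comm, smul_mul_assoc, co_cmt he]

/-- `Fin 3` and `ZMod 3` -/
def tz (a : Fin 3) : ZMod 3 := a

theorem ph_eq (a : Fin 3) : ph 3 a = ZMod.stdAddChar (N := 3) (tz a) := by
  have h := ZMod.stdAddChar_coe (N := 3) ((a : ℕ) : ℤ)
  have h2 : (((a : ℕ) : ℤ) : ZMod 3) = tz a := by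
    fin_cases a <;> rfl
  rw [h2] at h
  rw [h]
  unfold ph
  congr 1

theorem ph_single (d : Fin K → Fin 3) (k : Fin K) :
    ph 3 (d k) = FL2c.phs (Q := 3) (Pi.single k 1 : Fin K → ZMod 3) (fun j => tz (d j)) := by
  rw [FL2c.phs_single, ph_eq]

theorem ph_star_mul (a : Fin 3) : star (ph 3 a) * ph 3 a = 1 := by
  rw [ph_eq]
  have h := FL2c.phs_star_mul (ι := Unit) (Q := 3) (fun _ => (1 : ZMod 3)) (fun _ => 1)
    (fun _ => tz a)
  simpa [FL2c.phs] using h

theorem single_inj : Function.Injective (fun k : Fin K => (Pi.single k 1 : Fin K → ZMod 3)) := by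
  intro k l h
  by_contra hkl
  have h1 := congrFun h k
  simp only [Pi.single_eq_same] at h1
  rw [Pi.single_eq_of_ne hkl] at h1
  exact one_ne_zero h1

theorem card_Fin3 : (Fintype.card (Fin K → ZMod 3) : ℂ) = 3 ^ K := by
  simp [ZMod.card]

theorem sum_ph (k l : Fin K) : ∑ d : Fin K → Fin 3, star (ph 3 (d k)) * ph 3 (d l) =
    if k = l then (3 : ℂ) ^ K else 0 := by
  by_cases hkl : k = l
  · subst hkl
    rw [if_pos rfl]
    simp only [ph_star_mul]
    simp
  · rw [if_neg hkl]
    have h1 : ∀ d : Fin K → Fin 3, star (ph 3 (d k)) * ph 3 (d l) =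
        FL2c.phs (Q := 3) (Pi.single l 1 - Pi.single k 1 : Fin K → ZMod 3)
          (fun j => tz (d j)) := by
      intro d
      rw [ph_single, ph_single, FL2c.phs_star_mul]
    rw [Finset.sum_congr rfl fun d _ => h1 d]
    have h2 : ∑ d : Fin K → ZMod 3, FL2c.phs (Q := 3)
        (Pi.single l 1 - Pi.single k 1 : Fin K → ZMod 3) d = 0 := by
      refine FL2c.phs_sum ?_
      intro h
      exact hkl (single_inj (sub_eq_zero.1 h).symm)
    exact h2

/-- averages over the phases: second moments -/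
theorem avg_star_mul (i : Fin K) (z : A) :
    (1 / (3 : ℂ) ^ K) • ∑ d : Fin K → Fin 3, star (Yd e z i d) * Yd e z i d = qq e z i := by
  have h1 : ∀ d : Fin K → Fin 3, star (Yd e z i d) * Yd e z i d =
      ∑ k, ∑ l, (star (ph 3 (d k)) * ph 3 (d l)) • (star (co e z i k) * co e z i l) := by
    intro d
    unfold Yd
    rw [star_sum, Finset.sum_mul_sum]
    refine Finset.sum_congr rfl fun k _ => Finset.sum_congr rfl fun l _ => ?_
    rw [star_smul, smul_mul_smul_comm]
  rw [Finset.sum_congr rfl fun d _ => h1 d, Finset.sum_comm]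
  have h2 : ∀ k, ∑ d : Fin K → Fin 3, ∑ l, (star (ph 3 (d k)) * ph 3 (d l)) •
      (star (co e z i k) * co e z i l) = (3 : ℂ) ^ K • (star (co e z i k) * co e z i k) := by
    intro k
    rw [Finset.sum_comm]
    simp only [← Finset.sum_smul, sum_ph]
    rw [Finset.sum_eq_single k]
    · rw [if_pos rfl]
    · intro l _ hl
      rw [if_neg (Ne.symm hl), zero_smul]
    · simp
  rw [Finset.sum_congr rfl fun k _ => h2 k, ← Finset.smul_sum, smul_smul]
  unfold qq
  rw [one_div, inv_mul_cancel₀ (pow_ne_zero K three_ne_zero), one_smul]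

theorem avg_mul_star (he : MUn e) {z : A} (hz : z ∈ unitary A) (i : Fin K) :
    (1 / (3 : ℂ) ^ K) • ∑ d : Fin K → Fin 3, Yd e z i d * star (Yd e z i d) = 1 := by
  have h1 : ∀ d : Fin K → Fin 3, Yd e z i d * star (Yd e z i d) =
      ∑ k, ∑ l, (star (ph 3 (d l)) * ph 3 (d k)) • (co e z i k * star (co e z i l)) := by
    intro d
    unfold Yd
    rw [star_sum, Finset.sum_mul_sum]
    refine Finset.sum_congr rfl fun k _ => Finset.sum_congr rfl fun l _ => ?_
    rw [star_smul, smul_mul_smul_comm, mul_comm (star (ph 3 (d l)))]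
  rw [Finset.sum_congr rfl fun d _ => h1 d, Finset.sum_comm]
  have h2 : ∀ k, ∑ d : Fin K → Fin 3, ∑ l, (star (ph 3 (d l)) * ph 3 (d k)) •
      (co e z i k * star (co e z i l)) = (3 : ℂ) ^ K • (co e z i k * star (co e z i k)) := by
    intro k
    rw [Finset.sum_comm]
    simp only [← Finset.sum_smul, sum_ph]
    rw [Finset.sum_eq_single k]
    · rw [if_pos rfl]
    · intro l _ hl
      rw [if_neg hl, zero_smul]
    · simp
  rw [Finset.sum_congr rfl fun k _ => h2 k, ← Finset.smul_sum, smul_smul, sum_co_row he hz,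
    one_div, inv_mul_cancel₀ (pow_ne_zero K three_ne_zero), one_smul]

theorem sum_qq (he : MUn e) {z : A} (hz : z ∈ unitary A) : ∑ i, qq e z i = (K : ℂ) • (1 : A) := by
  unfold qq
  rw [Finset.sum_comm, Finset.sum_congr rfl fun k _ => sum_co_col he hz k]
  simp [Nat.cast_smul_eq_nsmul]

/-- FOURTH MOMENT -/
theorem fourth_moment (hτ : TrS τ) (he : MUn e) {z : A} (hz : z ∈ unitary A) (i : Fin K) :
    (1 / (3 : ℝ) ^ K) * ∑ d : Fin K → Fin 3, q2 τ (star (Yd e z i d) * Yd e z i d) ≤
      q2 τ (qq e z i) + (τ (qq e z i)).re := by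
  have h := FL2c.fourth_moment (ι := Fin K) (S := Unit) (Q := 3) le_rfl τ hτ.comm hτ.nonneg
    (fun k => co e z i k) (sum_co_row he hz i) (fun _ => (1 : A)) (fun _ => by simp)
  have h1 : ∀ d : Fin K → Fin 3, ∀ σ : Fin K → Unit,
      FL2c.Yrow (fun k => co e z i k) (fun _ : Unit => (1 : A)) (fun j => tz (d j)) σ =
        Yd e z i d := by
    intro d σ
    unfold FL2c.Yrow Yd
    refine Finset.sum_congr rfl fun k _ => ?_
    rw [mul_one, ph_eq]
  have h2 : FL2c.Psi (fun _ : Unit => (1 : A)) (∑ k, star (co e z i k) * co e z i k) = qq e z i := by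
    simp [FL2c.Psi, qq]
  have h' : ∑ d : Fin K → Fin 3, ∑ σ : Fin K → Unit,
      (τ (star (star (FL2c.Yrow (fun k => co e z i k) (fun _ : Unit => (1 : A))
        (fun j => tz (d j)) σ) * FL2c.Yrow (fun k => co e z i k) (fun _ : Unit => (1 : A))
        (fun j => tz (d j)) σ) * (star (FL2c.Yrow (fun k => co e z i k) (fun _ : Unit => (1 : A))
        (fun j => tz (d j)) σ) * FL2c.Yrow (fun k => co e z i k) (fun _ : Unit => (1 : A))
        (fun j => tz (d j)) σ))).re ≤
      (Fintype.card (Fin K → ZMod 3) : ℝ) * (Fintype.card (Fin K → Unit) : ℝ) *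
        ((τ (star (FL2c.Psi (fun _ : Unit => (1 : A)) (∑ k, star (co e z i k) * co e z i k)) *
          FL2c.Psi (fun _ : Unit => (1 : A)) (∑ k, star (co e z i k) * co e z i k))).re +
          (τ (∑ k, star (co e z i k) * co e z i k)).re) := h
  clear h
  rename' h' => h
  simp only [h1, h2] at h
  have h3 : (Fintype.card (Fin K → ZMod 3) : ℝ) = 3 ^ K := by simp [ZMod.card]
  rw [h3] at h
  simp only [Finset.sum_const, Finset.card_univ, Fintype.card_pi, Fintype.card_unit,
    Finset.prod_const_one, one_smul, Nat.cast_one, mul_one] at h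
  have h4 : ∑ d : Fin K → Fin 3, q2 τ (star (Yd e z i d) * Yd e z i d) ≤
      3 ^ K * (q2 τ (qq e z i) + (τ (qq e z i)).re) := h
  rw [one_div, inv_mul_le_iff₀ (by positivity)]
  exact h4

/-- `∑_j ‖∑_i e_ij G_i‖₂² = ∑_i ‖G_i‖₂²` -/
theorem delta_sq (he : MUn e) (τ : A →ₗ[ℂ] ℂ) (G : Fin K → A) :
    ∑ j, q2 τ (∑ i, e i j * G i) = ∑ i, q2 τ (G i) := by
  have h1 : ∀ j, star (∑ i, e i j * G i) * (∑ i, e i j * G i) =
      ∑ i, star (G i) * e j j * G i := by
    intro j
    rw [star_sum, Finset.sum_mul_sum]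
    refine Finset.sum_congr rfl fun i _ => ?_
    rw [Finset.sum_eq_single i]
    · rw [star_mul, he.star, mul_assoc, ← mul_assoc (e j i), he.mul, if_pos rfl, ← mul_assoc]
    · intro l _ hl
      rw [star_mul, he.star, mul_assoc, ← mul_assoc (e j i), he.mul, if_neg (Ne.symm hl),
        zero_mul, mul_zero]
    · simp
  unfold q2
  rw [Finset.sum_congr rfl fun j _ => by rw [h1 j]]
  simp only [map_sum, Complex.re_sum]
  rw [Finset.sum_comm]
  refine Finset.sum_congr rfl fun i _ => ?_
  rw [← Complex.re_sum, ← map_sum, ← Finset.sum_mul, ← Finset.mul_sum, he.sum, mul_one]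

theorem row_parseval (τ : A →ₗ[ℂ] ℂ) (g : Fin K → A) :
    ∑ d : Fin K → Fin 3, q2 τ (∑ k, ph 3 (d k) • g k) = (3 : ℝ) ^ K * ∑ k, q2 τ (g k) := by
  have h1 := FL2c.phs_parseval (Q := 3) τ (fun k : Fin K => (Pi.single k 1 : Fin K → ZMod 3))
    single_inj g
  have h2 := congrArg Complex.re h1
  rw [Complex.re_sum] at h2
  have h3 : ∑ d : Fin K → Fin 3, q2 τ (∑ k, ph 3 (d k) • g k) =
      ∑ d : Fin K → Fin 3, (τ (star (∑ k, FL2c.phs (Pi.single k 1 : Fin K → ZMod 3)
        (fun j => tz (d j)) • g k) *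
        ∑ k, FL2c.phs (Pi.single k 1 : Fin K → ZMod 3) (fun j => tz (d j)) • g k)).re := by
    refine Finset.sum_congr rfl fun d _ => ?_
    unfold q2
    simp only [ph_single]
  rw [h3]
  refine Eq.trans ?_ (h2.trans ?_)
  · rfl
  rw [card_Fin3]
  have h4 : ((3 : ℂ) ^ K) = (((3 : ℝ) ^ K : ℝ) : ℂ) := by push_cast; rfl
  rw [h4, Complex.re_ofReal_mul, Complex.re_sum]
  rfl

/-- `S2` in terms of the `Y_{i,δ}` -/
theorem S2_eq (hτ : TrS τ) (he : MUn e) (T : A →L[ℂ] A) (hT : Modu e T) (z x : A) :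
    S2 τ e T z x = (1 / K : ℝ) * ∑ i, (1 / (3 : ℝ) ^ K) *
      ∑ d : Fin K → Fin 3, q2 τ (T (Yd e z i d * x) - Yd e z i d * T x) := by
  have h1 : ∀ k j, T (z * e k j * x) - z * e k j * T x =
      ∑ i, e i j * (T (co e z i k * x) - co e z i k * T x) := by
    intro k j
    rw [mul_e_eq he z k j, Finset.sum_mul, Finset.sum_mul, map_sum,
      ← Finset.sum_sub_distrib]
    refine Finset.sum_congr rfl fun i _ => ?_
    rw [mul_assoc, hT, mul_assoc, mul_sub]
  have h2 : ∀ i (d : Fin K → Fin 3), T (Yd e z i d * x) - Yd e z i d * T x =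
      ∑ k, ph 3 (d k) • (T (co e z i k * x) - co e z i k * T x) := by
    intro i d
    unfold Yd
    rw [Finset.sum_mul, Finset.sum_mul, map_sum, ← Finset.sum_sub_distrib]
    refine Finset.sum_congr rfl fun k _ => ?_
    rw [smul_mul_assoc, smul_mul_assoc, map_smul, smul_sub]
  unfold S2
  simp only [h1, h2]
  rw [Finset.sum_congr rfl fun k _ => delta_sq he τ _]
  simp only [row_parseval]
  congr 1
  rw [Finset.sum_comm]
  refine Finset.sum_congr rfl fun i _ => ?_
  rw [one_div, inv_mul_cancel_left₀ (by positivity)]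

end Crest.Agent.R121
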