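import Crest.Agent.R121.LB

/-! ROW 121, L4b: truncation by continuous functional calculus.
`Y' = Y * φ(Y* Y)`, `φ(t) = min 1 (C1/√t)`, `c = 1 - φ(Y* Y)`, `Y'' = Y c = c' Y`.
`Y''* Y'' ≤ Y* Y`, `Y'' Y''* ≤ Y Y*`, `(Y''* Y'') ≤ (Y* Y)²/C1²`. -/

set_option autoImplicit false
open Finset

namespace Crest.Agent.R121

universe u

section order

variable {A : Type u} [CStarAlgebra A]

/-- `h(s) = C / max(C, √s)` -/
noncomputable def cutf (C s : ℝ) : ℝ := C / max C (√s)

theorem cutf_cont {C : ℝ} (hC : 0 < C) : Continuous (cutf C) := by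
  unfold cutf
  refine Continuous.div continuous_const (continuous_const.max Real.continuous_sqrt) fun s => ?_
  exact (lt_of_lt_of_le hC (le_max_left _ _)).ne'

theorem cutf_nonneg {C : ℝ} (hC : 0 < C) (s : ℝ) : 0 ≤ cutf C s := by
  unfold cutf
  exact div_nonneg hC.le (hC.le.trans (le_max_left _ _))

theorem cutf_le_one {C : ℝ} (hC : 0 < C) (s : ℝ) : cutf C s ≤ 1 := by
  unfold cutf
  exact div_le_one_of_le₀ (le_max_left _ _) (hC.le.trans (le_max_left _ _))

theorem cutf_sq_mul {C : ℝ} (hC : 0 < C) {s : ℝ} (hs : 0 ≤ s) : cutf C s * s * cutf C s ≤ C ^ 2 := by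
  unfold cutf
  have hm : 0 < max C (√s) := lt_of_lt_of_le hC (le_max_left _ _)
  have h1 : s ≤ max C (√s) ^ 2 := by
    calc s = √s ^ 2 := (Real.sq_sqrt hs).symm
      _ ≤ _ := pow_le_pow_left₀ (Real.sqrt_nonneg _) (le_max_right _ _) 2
  have e : C / max C (√s) * s * (C / max C (√s)) = C ^ 2 * (s / max C (√s) ^ 2) := by
    field_simp
  rw [e]
  have h2 : s / max C (√s) ^ 2 ≤ 1 := div_le_one_of_le₀ h1 (by positivity)
  nlinarith [sq_nonneg C]

theorem one_sub_cutf {C : ℝ} (hC : 0 < C) {s : ℝ} (hs : 0 ≤ s) :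
    (1 - cutf C s) * s * (1 - cutf C s) ≤ (C ^ 2)⁻¹ * (s * s) := by
  have h0 := cutf_nonneg hC s
  have h1 := cutf_le_one hC s
  rcases le_total (√s) C with h | h
  · have : cutf C s = 1 := by
      unfold cutf
      rw [max_eq_left h, div_self hC.ne']
    rw [this]
    have : 0 ≤ (C ^ 2)⁻¹ * (s * s) := by positivity
    linarith
  · have h2 : C ^ 2 ≤ s := by
      calc C ^ 2 ≤ √s ^ 2 := pow_le_pow_left₀ hC.le h 2
        _ = s := Real.sq_sqrt hs
    have h3 : (1 - cutf C s) * s * (1 - cutf C s) ≤ s := by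
      have h4 : (1 - cutf C s) * (1 - cutf C s) ≤ 1 := by nlinarith
      nlinarith
    refine h3.trans ?_
    have hC2 : 0 < C ^ 2 := by positivity
    rw [inv_mul_eq_div, le_div_iff₀ hC2]
    nlinarith

/-- cut of `Y` at the level `C`; everything commuting with `Y` and `Y*` commutes with the
two parts -/
theorem exists_cut_b [PartialOrder A] [StarOrderedRing A] (Y : A) {C : ℝ} (hC : 0 < C) :
    ∃ Y' Y'' : A, Y = Y' + Y'' ∧ ‖Y'‖ ≤ C ∧
    star Y'' * Y'' ≤ ((C ^ 2)⁻¹ : ℝ) • ((star Y * Y) * (star Y * Y)) ∧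
    star Y'' * Y'' ≤ star Y * Y ∧ Y'' * star Y'' ≤ Y * star Y ∧
    (∀ b : A, b * Y = Y * b → b * star Y = star Y * b → b * Y' = Y' * b ∧
      b * star Y' = star Y' * b ∧ b * Y'' = Y'' * b ∧ b * star Y'' = star Y'' * b) := by
  set t : A := star Y * Y with ht
  have ht0 : 0 ≤ t := star_mul_self_nonneg Y
  have hsa : IsSelfAdjoint t := ht0.isSelfAdjoint
  have hsp : ∀ s ∈ spectrum ℝ t, 0 ≤ s := fun s hs => spectrum_nonneg_of_nonneg ht0 hs
  have hc := cutf_cont hC
  have hc1 : Continuous fun s => 1 - cutf C s := continuous_const.sub hc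
  set h : A := cfc (cutf C) t with hh
  set k : A := cfc (fun s => 1 - cutf C s) t with hk
  have hhsa : star h = h := (cfc_predicate (cutf C) t : IsSelfAdjoint _)
  have hksa : star k = k := (cfc_predicate (fun s => 1 - cutf C s) t : IsSelfAdjoint _)
  have hsum : h + k = 1 := by
    rw [hh, hk, ← cfc_add t (cutf C) (fun s => 1 - cutf C s) hc.continuousOn hc1.continuousOn]
    have : (fun s => cutf C s + (1 - cutf C s)) = fun _ => (1 : ℝ) := by funext s; ring
    rw [this]
    exact cfc_const_one ℝ t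
  have e1 : star (Y * h) * (Y * h) = cfc (fun s => cutf C s * s * cutf C s) t := by
    rw [star_mul, hhsa]
    have : h * star Y * (Y * h) = h * t * h := by rw [ht]; noncomm_ring
    rw [this, cfc_mul (fun s => cutf C s * s) (cutf C) t (hc.mul continuous_id).continuousOn
      hc.continuousOn, cfc_mul (cutf C) (fun s => s) t hc.continuousOn continuous_id.continuousOn,
      cfc_id' ℝ t]
  have e2 : star (Y * k) * (Y * k) = cfc (fun s => (1 - cutf C s) * s * (1 - cutf C s)) t := by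
    rw [star_mul, hksa]
    have : k * star Y * (Y * k) = k * t * k := by rw [ht]; noncomm_ring
    rw [this, cfc_mul (fun s => (1 - cutf C s) * s) (fun s => 1 - cutf C s) t
      (hc1.mul continuous_id).continuousOn
      hc1.continuousOn, cfc_mul (fun s => 1 - cutf C s) (fun s => s) t hc1.continuousOn
      continuous_id.continuousOn, cfc_id' ℝ t]
  have e3 : (Y * k) * star (Y * k) = Y * cfc (fun s => (1 - cutf C s) * (1 - cutf C s)) t *
      star Y := by
    rw [star_mul, hksa, cfc_mul (fun s => 1 - cutf C s) (fun s => 1 - cutf C s) t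
      hc1.continuousOn hc1.continuousOn]
    noncomm_ring
  refine ⟨Y * h, Y * k, ?_, ?_, ?_, ?_, ?_, ?_⟩
  · rw [← mul_add, hsum, mul_one]
  · have h1 : ‖Y * h‖ * ‖Y * h‖ ≤ C * C := by
      rw [← CStarRing.norm_star_mul_self, e1]
      refine norm_cfc_le (by positivity) fun s hs => ?_
      have hs0 := hsp s hs
      rw [Real.norm_of_nonneg (mul_nonneg (mul_nonneg (cutf_nonneg hC s) hs0) (cutf_nonneg hC s))]
      exact (cutf_sq_mul hC hs0).trans (by rw [sq])
    exact abs_le_of_sq_le_sq' (by nlinarith) hC.le |>.2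
  · rw [e2]
    have e4 : ((C ^ 2)⁻¹ : ℝ) • (t * t) = cfc (fun s => (C ^ 2)⁻¹ * (s * s)) t := by
      rw [cfc_const_mul _ (fun s => s * s) t (continuous_id.mul continuous_id).continuousOn,
        cfc_mul (fun s => s) (fun s => s) t continuous_id.continuousOn continuous_id.continuousOn,
        cfc_id' ℝ t]
    rw [e4]
    refine cfc_mono (fun s hs => one_sub_cutf hC (hsp s hs)) ?_ ?_
    · exact ((hc1.mul continuous_id).mul hc1).continuousOn
    · exact (continuous_const.mul (continuous_id.mul continuous_id)).continuousOn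
  · rw [e2]
    have e4 : t = cfc (fun s => s) t := (cfc_id' ℝ t).symm
    conv_rhs => rw [e4]
    refine cfc_mono (fun s hs => ?_) ((hc1.mul continuous_id).mul hc1).continuousOn
      continuous_id.continuousOn
    have h0 := cutf_nonneg hC s
    have h1 := cutf_le_one hC s
    have h4 : (1 - cutf C s) * (1 - cutf C s) ≤ 1 := by nlinarith
    have := hsp s hs
    nlinarith
  · rw [e3]
    have h1 : cfc (fun s => (1 - cutf C s) * (1 - cutf C s)) t ≤ 1 := by
      refine cfc_le_one (fun s => (1 - cutf C s) * (1 - cutf C s)) t fun s _ => ?_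
      have h0 := cutf_nonneg hC s
      have h1 := cutf_le_one hC s
      nlinarith
    have := star_right_conjugate_le_conjugate h1 Y
    simpa using this
  · intro b hb1 hb2
    have hbt : Commute b t := by
      rw [ht]
      exact Commute.mul_right hb2 hb1
    have hbh : Commute b h := (Commute.cfc_real hbt.symm (cutf C)).symm
    have hbk : Commute b k := (Commute.cfc_real hbt.symm (fun s => 1 - cutf C s)).symm
    refine ⟨Commute.mul_right hb1 hbh, ?_, Commute.mul_right hb1 hbk, ?_⟩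
    · rw [star_mul, hhsa]
      exact Commute.mul_right hbh hb2
    · rw [star_mul, hksa]
      exact Commute.mul_right hbk hb2

end order

variable {A : Type u} [CStarAlgebra A] {τ : A →ₗ[ℂ] ℂ} {K : ℕ} {e : Fin K → Fin K → A}

/-- monotonicity of the trace -/
theorem TrS.re_mono_b [PartialOrder A] [StarOrderedRing A] (hτ : TrS τ) {a b : A} (h : a ≤ b) :
    (τ a).re ≤ (τ b).re := by
  obtain ⟨z, hz⟩ := CStarAlgebra.nonneg_iff_eq_star_mul_self.1 (sub_nonneg.2 h)
  have h1 := hτ.nonneg z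
  rw [← hz, map_sub, Complex.sub_re] at h1
  linarith

/-- single element (order version) -/
theorem cut [PartialOrder A] [StarOrderedRing A] (hτ : TrS τ) (Y : A) {C1 : ℝ} (hC1 : 0 < C1) :
    ∃ Y' : A, ‖Y'‖ ≤ C1 ∧ (∀ b : A, b * Y = Y * b → star b * Y = Y * star b → b * Y' = Y' * b) ∧
      star (Y - Y') * (Y - Y') ≤ star Y * Y ∧ (Y - Y') * star (Y - Y') ≤ Y * star Y ∧
      q2 τ (Y - Y') ≤ q2 τ (star Y * Y) / C1 ^ 2 := by
  obtain ⟨Y', Y'', h1, h2, h3, h4, h5, h6⟩ := exists_cut_b Y hC1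
  have e : Y - Y' = Y'' := by rw [h1]; simp
  refine ⟨Y', h2, fun b hb hb' => ?_, ?_, ?_, ?_⟩
  · refine (h6 b hb ?_).1
    have := congrArg star hb'
    simp only [star_mul, star_star] at this
    exact this.symm
  · rwa [e]
  · rwa [e]
  · rw [e]
    have h7 := hτ.re_mono_b h3
    unfold q2
    refine h7.trans (le_of_eq ?_)
    rw [star_mul, star_star, ← Complex.coe_smul, map_smul, smul_eq_mul, Complex.re_ofReal_mul]
    rw [inv_mul_eq_div]

/-- finite families: the sums are controlled (`0 ≤ a ≤ b → ‖a‖ ≤ ‖b‖`) -/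
theorem cut_family (hτ : TrS τ) {ι : Type} [Fintype ι] (Y : ι → A) {C1 : ℝ} (hC1 : 0 < C1) :
    ∃ Y' : ι → A, (∀ i, ‖Y' i‖ ≤ C1) ∧
      (∀ i, ∀ b : A, b * Y i = Y i * b → star b * Y i = Y i * star b → b * Y' i = Y' i * b) ∧
      (∀ i, q2 τ (Y i - Y' i) ≤ q2 τ (star (Y i) * Y i) / C1 ^ 2) ∧
      ∀ x : A, ‖∑ i, star ((Y i - Y' i) * x) * ((Y i - Y' i) * x)‖ ≤
          ‖∑ i, star (Y i) * Y i‖ * ‖x‖ ^ 2 ∧
        ‖∑ i, ((Y i - Y' i) * x) * star ((Y i - Y' i) * x)‖ ≤
          ‖∑ i, Y i * star (Y i)‖ * ‖x‖ ^ 2 := by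
  let _ : PartialOrder A := CStarAlgebra.spectralOrder A
  have _ : StarOrderedRing A := CStarAlgebra.spectralOrderedRing A
  choose Y' h1 h2 h3 h4 h5 using fun i => cut hτ (Y i) hC1
  refine ⟨Y', h1, h2, h5, fun x => ⟨?_, ?_⟩⟩
  · have e1 : ∑ i, star ((Y i - Y' i) * x) * ((Y i - Y' i) * x) =
        star x * (∑ i, star (Y i - Y' i) * (Y i - Y' i)) * x := by
      rw [Finset.mul_sum, Finset.sum_mul]
      refine Finset.sum_congr rfl fun i _ => ?_
      simp only [star_mul, mul_assoc]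
    have h6 : 0 ≤ ∑ i, star (Y i - Y' i) * (Y i - Y' i) :=
      Finset.sum_nonneg fun i _ => star_mul_self_nonneg _
    have h7 : ∑ i, star (Y i - Y' i) * (Y i - Y' i) ≤ ∑ i, star (Y i) * Y i :=
      Finset.sum_le_sum fun i _ => h3 i
    have h8 := CStarAlgebra.norm_le_norm_of_nonneg_of_le h6 h7
    rw [e1]
    calc ‖star x * (∑ i, star (Y i - Y' i) * (Y i - Y' i)) * x‖
        ≤ ‖star x‖ * ‖∑ i, star (Y i - Y' i) * (Y i - Y' i)‖ * ‖x‖ :=
          (norm_mul_le _ _).trans (mul_le_mul_of_nonneg_right (norm_mul_le _ _) (norm_nonneg _))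
      _ = ‖∑ i, star (Y i - Y' i) * (Y i - Y' i)‖ * ‖x‖ ^ 2 := by rw [norm_star]; ring
      _ ≤ _ := mul_le_mul_of_nonneg_right h8 (by positivity)
  · have h6 : 0 ≤ ∑ i, (Y i - Y' i) * star (Y i - Y' i) :=
      Finset.sum_nonneg fun i _ => mul_star_self_nonneg _
    have h7 : ∑ i, (Y i - Y' i) * star (Y i - Y' i) ≤ ∑ i, Y i * star (Y i) :=
      Finset.sum_le_sum fun i _ => h4 i
    have h8 := CStarAlgebra.norm_le_norm_of_nonneg_of_le h6 h7
    have h9 : ∑ i, ((Y i - Y' i) * x) * star ((Y i - Y' i) * x) ≤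
        ‖x‖ ^ 2 • ∑ i, (Y i - Y' i) * star (Y i - Y' i) := by
      rw [Finset.smul_sum]
      refine Finset.sum_le_sum fun i _ => ?_
      have h10 : x * star x ≤ ‖x‖ ^ 2 • (1 : A) := by
        have := CStarAlgebra.mul_star_le_algebraMap_norm_sq (a := x)
        rwa [Algebra.algebraMap_eq_smul_one] at this
      have h11 := star_right_conjugate_le_conjugate h10 (Y i - Y' i)
      rw [star_mul]
      calc (Y i - Y' i) * x * (star x * star (Y i - Y' i))
          = (Y i - Y' i) * (x * star x) * star (Y i - Y' i) := by simp only [mul_assoc]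
        _ ≤ (Y i - Y' i) * (‖x‖ ^ 2 • (1 : A)) * star (Y i - Y' i) := h11
        _ = _ := by rw [mul_smul_comm, mul_one, smul_mul_assoc]
    have h12 : 0 ≤ ∑ i, ((Y i - Y' i) * x) * star ((Y i - Y' i) * x) :=
      Finset.sum_nonneg fun i _ => mul_star_self_nonneg _
    have h13 := CStarAlgebra.norm_le_norm_of_nonneg_of_le h12 h9
    refine h13.trans ?_
    rw [norm_smul, Real.norm_of_nonneg (by positivity : (0 : ℝ) ≤ ‖x‖ ^ 2), mul_comm]
    exact mul_le_mul_of_nonneg_right h8 (by positivity)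

end Crest.Agent.R121
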