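import Crest.Agent.R121.L4a
import Crest.Agent.R121.L4b
import Crest.Agent.R121.L3

/-! ROW 121, L4c: the letters.  `S = Fin m × (Fin K × (Fin K → Fin 3)) × Fin 4 × Bool`: the 4 unitaries
(`four_unitaries`) of the truncation `Y'` of `Y_{i,δ}(z_l)` and their adjoints.
`T(Yx) - Y T x = [T(Y'x) - Y' T x] + T(Y''x) - Y'' T x`, `q2 (a+b+c) ≤ 3 (..)`;
first term `≤ C1² ∑_r q2 (Dd T U_r x)` (`q2_sum_le`, `‖c_r‖ ≤ C1/2`), second: `RCN` for the family
`(K 3^K)^{-1/2} ‖x‖^{-1} Y'' x` (`cut_family`, `avg_star_mul`, `sum_qq`, `avg_mul_star`), third: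
`q2_mul_right`, `fourth_moment`, `flat`, `∑ τ (qq i) = K`. -/

set_option autoImplicit false
open Finset

namespace Crest.Agent.R121

universe u
variable {A : Type u} [CStarAlgebra A] {τ : A →ₗ[ℂ] ℂ} {K : ℕ} {e : Fin K → Fin K → A}

theorem L4c.q2_three (hτ : TrS τ) (a b c : A) :
    q2 τ (a + b + c) ≤ 3 * (q2 τ a + q2 τ b + q2 τ c) := by
  have h := q2_sum_le hτ univ ![a, b, c]
  simpa [Fin.sum_univ_three] using h

theorem L4c.sum_star_mul (he : MUn e) {z : A} (hz : z ∈ unitary A) :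
    ∑ p : Fin K × (Fin K → Fin 3), star (Yd e z p.1 p.2) * Yd e z p.1 p.2 =
      ((K : ℂ) * 3 ^ K) • (1 : A) := by
  rw [Fintype.sum_prod_type]
  have h1 : ∀ i, ∑ d : Fin K → Fin 3, star (Yd e z i d) * Yd e z i d = (3 : ℂ) ^ K • qq e z i := by
    intro i
    rw [← avg_star_mul i z, smul_smul, mul_one_div, div_self (pow_ne_zero K three_ne_zero), one_smul]
  rw [Finset.sum_congr rfl fun i _ => h1 i, ← Finset.smul_sum, sum_qq he hz, smul_smul, mul_comm]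

theorem L4c.sum_mul_star (he : MUn e) {z : A} (hz : z ∈ unitary A) :
    ∑ p : Fin K × (Fin K → Fin 3), Yd e z p.1 p.2 * star (Yd e z p.1 p.2) =
      ((K : ℂ) * 3 ^ K) • (1 : A) := by
  rw [Fintype.sum_prod_type]
  have h1 : ∀ i, ∑ d : Fin K → Fin 3, Yd e z i d * star (Yd e z i d) = (3 : ℂ) ^ K • (1 : A) := by
    intro i
    rw [← avg_mul_star he hz i, smul_smul, mul_one_div, div_self (pow_ne_zero K three_ne_zero),
      one_smul]
  rw [Finset.sum_congr rfl fun i _ => h1 i]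
  simp only [Finset.sum_const, Finset.card_univ, Fintype.card_fin]
  rw [← Nat.cast_smul_eq_nsmul ℂ, smul_smul]

theorem L4c.norm_smul_one_le (N : ℕ) : ‖((N : ℂ)) • (1 : A)‖ ≤ N := by
  rw [norm_smul, Complex.norm_natCast]
  rcases subsingleton_or_nontrivial A with hA | hA
  · rw [Subsingleton.elim (1 : A) 0, norm_zero, mul_zero]; positivity
  · rw [CStarRing.norm_one, mul_one]

/-- the sum of the fourth moments -/
theorem L4c.sum_fourth (hτ : TrS τ) (hK : 0 < K) (he : MUn e) {z : A} (hz : z ∈ unitary A) {Cf : ℝ}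
    (hf : flat τ e z ≤ Cf) :
    ∑ p : Fin K × (Fin K → Fin 3), q2 τ (star (Yd e z p.1 p.2) * Yd e z p.1 p.2) ≤
      (K : ℝ) * 3 ^ K * (Cf + 1) := by
  rw [Fintype.sum_prod_type]
  have hK' : (0 : ℝ) < K := by exact_mod_cast hK
  have h1 : ∀ i, ∑ d : Fin K → Fin 3, q2 τ (star (Yd e z i d) * Yd e z i d) ≤
      3 ^ K * (q2 τ (qq e z i) + (τ (qq e z i)).re) := by
    intro i
    have h := fourth_moment hτ he hz i
    rwa [one_div, inv_mul_le_iff₀ (by positivity)] at h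
  have h2 : ∑ i, q2 τ (qq e z i) ≤ K * Cf := by
    unfold flat at hf
    rwa [one_div, inv_mul_le_iff₀ hK'] at hf
  have h3 : ∑ i, (τ (qq e z i)).re = K := by
    rw [← Complex.re_sum, ← map_sum, sum_qq he hz, map_smul, hτ.one]
    simp
  calc _ ≤ ∑ i, 3 ^ K * (q2 τ (qq e z i) + (τ (qq e z i)).re) := Finset.sum_le_sum fun i _ => h1 i
    _ = 3 ^ K * (∑ i, q2 τ (qq e z i) + ∑ i, (τ (qq e z i)).re) := by
        rw [← Finset.mul_sum, Finset.sum_add_distrib]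
    _ ≤ 3 ^ K * (K * Cf + K) := by
        rw [h3]
        have : (0 : ℝ) < 3 ^ K := by positivity
        exact mul_le_mul_of_nonneg_left (by linarith) this.le
    _ = _ := by ring

theorem L4c.one (hτ : TrS τ) (hK : 0 < K) (he : MUn e) {z : A} (hz : z ∈ unitary A) {Cf : ℝ}
    (hf : flat τ e z ≤ Cf) {C1 : ℝ} (hC1 : 0 < C1) :
    ∃ U : Fin K × (Fin K → Fin 3) → Fin 4 → A,
      (∀ p r, U p r ∈ unitary A) ∧ (∀ p r, Cmt e (U p r)) ∧
      ∀ (T : A →L[ℂ] A) (CT ε δ : ℝ), Modu e T → ‖T‖ ≤ CT → RCN τ T ε δ →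
        (Cf + 1) / C1 ^ 2 ≤ δ → ∀ x, S2 τ e T z x ≤
          3 * (C1 ^ 2 * (((K : ℝ) * 3 ^ K)⁻¹ * ∑ p, ∑ r, q2 τ (Dd T (U p r) x)) +
            (ε + CT ^ 2 * ((Cf + 1) / C1 ^ 2)) * ‖x‖ ^ 2) := by
  classical
  have hK' : (0 : ℝ) < K := by exact_mod_cast hK
  set Y : Fin K × (Fin K → Fin 3) → A := fun p => Yd e z p.1 p.2 with hYdef
  obtain ⟨Y', hY1, hY2, hY3, hY4⟩ := cut_family hτ Y hC1
  have hY'c : ∀ p, Cmt e (Y' p) := by
    intro p i j
    refine (hY2 p (e i j) ?_ ?_).symm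
    · exact (Yd_cmt he z p.1 p.2 i j).symm
    · rw [he.star]
      exact (Yd_cmt he z p.1 p.2 j i).symm
  choose U c hU hUc hc hYU using fun p => four_unitaries he (hY'c p) hC1 (hY1 p)
  refine ⟨U, hU, hUc, ?_⟩
  intro T CT ε δ hT hCT hR hδ x
  set N : ℝ := (K : ℝ) * 3 ^ K with hN
  have hN0 : 0 < N := by positivity
  -- the 2-norms of the cut-off parts
  have hcut : ∑ p, q2 τ (Y p - Y' p) ≤ N * ((Cf + 1) / C1 ^ 2) := by
    calc _ ≤ ∑ p, q2 τ (star (Y p) * Y p) / C1 ^ 2 := Finset.sum_le_sum fun p _ => hY3 p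
      _ = (∑ p, q2 τ (star (Y p) * Y p)) / C1 ^ 2 := by rw [Finset.sum_div]
      _ ≤ (N * (Cf + 1)) / C1 ^ 2 :=
          div_le_div_of_nonneg_right (L4c.sum_fourth hτ hK he hz hf) (by positivity)
      _ = _ := by ring
  -- first term
  have h1 : ∀ p, q2 τ (T (Y' p * x) - Y' p * T x) ≤ C1 ^ 2 * ∑ r, q2 τ (Dd T (U p r) x) := by
    intro p
    have e1 : T (Y' p * x) - Y' p * T x = ∑ r, c p r • (U p r * Dd T (U p r) x) := by
      conv_lhs => rw [hYU p]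
      rw [Finset.sum_mul, Finset.sum_mul, map_sum, ← Finset.sum_sub_distrib]
      refine Finset.sum_congr rfl fun r _ => ?_
      rw [smul_mul_assoc, smul_mul_assoc, map_smul, ← smul_sub]
      unfold Dd
      rw [mul_sub, ← mul_assoc, Unitary.mul_star_self_of_mem (hU p r), one_mul]
    rw [e1]
    refine (q2_sum_le hτ univ _).trans ?_
    rw [Finset.card_univ, Fintype.card_fin, Finset.mul_sum, Finset.mul_sum]
    refine Finset.sum_le_sum fun r _ => ?_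
    rw [q2_smul hτ, q2_unitary_mul (hU p r)]
    have h2 : ‖c p r‖ ^ 2 ≤ (C1 / 2) ^ 2 := pow_le_pow_left₀ (norm_nonneg _) (hc p r) 2
    have h3 := q2_nonneg hτ (Dd T (U p r) x)
    have h4 := mul_le_mul_of_nonneg_right h2 h3
    push_cast
    nlinarith
  -- second term
  have h2 : ∑ p, q2 τ (T ((Y p - Y' p) * x)) ≤ N * ε * ‖x‖ ^ 2 := by
    rcases eq_or_ne x 0 with hx | hx
    · subst hx
      simp [q2]
    have hx0 : 0 < ‖x‖ := norm_pos_iff.2 hx
    set s : ℝ := (Real.sqrt N * ‖x‖)⁻¹ with hs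
    have hs0 : 0 < s := by
      rw [hs]
      have := Real.sqrt_pos.2 hN0
      positivity
    have hs2 : s ^ 2 = (N * ‖x‖ ^ 2)⁻¹ := by
      rw [hs, inv_pow, mul_pow, Real.sq_sqrt hN0.le]
    have hsn : ‖(s : ℂ)‖ = s := by
      rw [Complex.norm_real, Real.norm_of_nonneg hs0.le]
    let E := (Fintype.equivFin (Fin K × (Fin K → Fin 3))).symm
    obtain ⟨h4a, h4b⟩ := hY4 x
    have h5 : ‖∑ p, star (Y p) * Y p‖ ≤ N := by
      have h := L4c.sum_star_mul he hz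
      have h' := L4c.norm_smul_one_le (A := A) (K * 3 ^ K)
      push_cast at h'
      rw [← h] at h'
      exact h'
    have h6 : ‖∑ p, Y p * star (Y p)‖ ≤ N := by
      have h := L4c.sum_mul_star he hz
      have h' := L4c.norm_smul_one_le (A := A) (K * 3 ^ K)
      push_cast at h'
      rw [← h] at h'
      exact h'
    have hss : star (s : ℂ) * (s : ℂ) = ((s ^ 2 : ℝ) : ℂ) := by
      rw [Complex.star_def, Complex.conj_ofReal]
      push_cast
      ring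
    have hn : ∀ w : A, ‖((s ^ 2 : ℝ) : ℂ) • w‖ = s ^ 2 * ‖w‖ := by
      intro w
      rw [norm_smul, Complex.norm_real, Real.norm_of_nonneg (by positivity)]
    have hfin : ∀ w : ℝ, w ≤ N * ‖x‖ ^ 2 → s ^ 2 * w ≤ 1 := by
      intro w hw
      rw [hs2, inv_mul_le_iff₀ (by positivity), mul_one]
      exact hw
    have h7 := hR _ (fun k => (s : ℂ) • ((Y (E k) - Y' (E k)) * x)) ?_ ?_ ?_
    · have h8 : ∑ k, q2 τ (T ((s : ℂ) • ((Y (E k) - Y' (E k)) * x))) =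
          s ^ 2 * ∑ p, q2 τ (T ((Y p - Y' p) * x)) := by
        rw [← E.sum_comp (fun p => q2 τ (T ((Y p - Y' p) * x))), Finset.mul_sum]
        refine Finset.sum_congr rfl fun k _ => ?_
        rw [map_smul, q2_smul hτ, hsn]
      rw [h8, hs2, inv_mul_le_iff₀ (by positivity)] at h7
      linarith
    · have h8 : ∑ k, star ((s : ℂ) • ((Y (E k) - Y' (E k)) * x)) *
          ((s : ℂ) • ((Y (E k) - Y' (E k)) * x)) =
          ((s ^ 2 : ℝ) : ℂ) • ∑ p, star ((Y p - Y' p) * x) * ((Y p - Y' p) * x) := by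
        rw [← E.sum_comp (fun p => star ((Y p - Y' p) * x) * ((Y p - Y' p) * x)), Finset.smul_sum]
        refine Finset.sum_congr rfl fun k _ => ?_
        rw [star_smul, smul_mul_smul_comm, hss]
      rw [h8, hn]
      exact hfin _ (h4a.trans (mul_le_mul_of_nonneg_right h5 (by positivity)))
    · have h8 : ∑ k, ((s : ℂ) • ((Y (E k) - Y' (E k)) * x)) *
          star ((s : ℂ) • ((Y (E k) - Y' (E k)) * x)) =
          ((s ^ 2 : ℝ) : ℂ) • ∑ p, ((Y p - Y' p) * x) * star ((Y p - Y' p) * x) := by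
        rw [← E.sum_comp (fun p => ((Y p - Y' p) * x) * star ((Y p - Y' p) * x)), Finset.smul_sum]
        refine Finset.sum_congr rfl fun k _ => ?_
        rw [star_smul, smul_mul_smul_comm, mul_comm, hss]
      rw [h8, hn]
      exact hfin _ (h4b.trans (mul_le_mul_of_nonneg_right h6 (by positivity)))
    · have h8 : ∑ k, q2 τ ((s : ℂ) • ((Y (E k) - Y' (E k)) * x)) =
          s ^ 2 * ∑ p, q2 τ ((Y p - Y' p) * x) := by
        rw [← E.sum_comp (fun p => q2 τ ((Y p - Y' p) * x)), Finset.mul_sum]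
        refine Finset.sum_congr rfl fun k _ => ?_
        rw [q2_smul hτ, hsn]
      rw [h8, hs2, inv_mul_le_iff₀ (by positivity)]
      calc ∑ p, q2 τ ((Y p - Y' p) * x) ≤ ∑ p, ‖x‖ ^ 2 * q2 τ (Y p - Y' p) :=
            Finset.sum_le_sum fun p _ => q2_mul_right hτ _ _
        _ = ‖x‖ ^ 2 * ∑ p, q2 τ (Y p - Y' p) := by rw [Finset.mul_sum]
        _ ≤ ‖x‖ ^ 2 * (N * ((Cf + 1) / C1 ^ 2)) :=
            mul_le_mul_of_nonneg_left hcut (by positivity)
        _ ≤ ‖x‖ ^ 2 * (N * δ) :=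
            mul_le_mul_of_nonneg_left (mul_le_mul_of_nonneg_left hδ hN0.le) (by positivity)
        _ = _ := by ring
  -- third term
  have h3 : ∑ p, q2 τ ((Y p - Y' p) * T x) ≤ N * (CT ^ 2 * ((Cf + 1) / C1 ^ 2)) * ‖x‖ ^ 2 := by
    have hTx : ‖T x‖ ^ 2 ≤ CT ^ 2 * ‖x‖ ^ 2 := by
      rw [← mul_pow]
      refine pow_le_pow_left₀ (norm_nonneg _) ?_ 2
      exact (T.le_opNorm x).trans (mul_le_mul_of_nonneg_right hCT (norm_nonneg _))
    have hc0 : 0 ≤ ∑ p, q2 τ (Y p - Y' p) := Finset.sum_nonneg fun p _ => q2_nonneg hτ _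
    calc ∑ p, q2 τ ((Y p - Y' p) * T x) ≤ ∑ p, ‖T x‖ ^ 2 * q2 τ (Y p - Y' p) :=
          Finset.sum_le_sum fun p _ => q2_mul_right hτ _ _
      _ = ‖T x‖ ^ 2 * ∑ p, q2 τ (Y p - Y' p) := by rw [Finset.mul_sum]
      _ ≤ (CT ^ 2 * ‖x‖ ^ 2) * ∑ p, q2 τ (Y p - Y' p) := mul_le_mul_of_nonneg_right hTx hc0
      _ ≤ (CT ^ 2 * ‖x‖ ^ 2) * (N * ((Cf + 1) / C1 ^ 2)) :=
          mul_le_mul_of_nonneg_left hcut (by positivity)
      _ = _ := by ring
  -- assembly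
  have hS : S2 τ e T z x = N⁻¹ * ∑ p, q2 τ (T (Y p * x) - Y p * T x) := by
    rw [S2_eq hτ he T hT z x, Fintype.sum_prod_type, ← Finset.mul_sum, ← mul_assoc, hN, mul_inv,
      one_div, one_div]
  rw [hS]
  have h4 : ∀ p, q2 τ (T (Y p * x) - Y p * T x) ≤
      3 * (C1 ^ 2 * ∑ r, q2 τ (Dd T (U p r) x) + q2 τ (T ((Y p - Y' p) * x)) +
        q2 τ ((Y p - Y' p) * T x)) := by
    intro p
    have e1 : T (Y p * x) - Y p * T x = (T (Y' p * x) - Y' p * T x) + T ((Y p - Y' p) * x) +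
        (-((Y p - Y' p) * T x)) := by
      rw [sub_mul, sub_mul, map_sub]
      abel
    have e2 : q2 τ (-((Y p - Y' p) * T x)) = q2 τ ((Y p - Y' p) * T x) := by simp [q2]
    rw [e1]
    refine (L4c.q2_three hτ _ _ _).trans ?_
    rw [e2]
    have := h1 p
    linarith
  have h5 : ∑ p, q2 τ (T (Y p * x) - Y p * T x) ≤
      3 * (C1 ^ 2 * ∑ p, ∑ r, q2 τ (Dd T (U p r) x) + N * ε * ‖x‖ ^ 2 +
        N * (CT ^ 2 * ((Cf + 1) / C1 ^ 2)) * ‖x‖ ^ 2) := by
    refine (Finset.sum_le_sum fun p _ => h4 p).trans ?_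
    rw [← Finset.mul_sum, Finset.sum_add_distrib, Finset.sum_add_distrib, ← Finset.mul_sum]
    linarith
  rw [inv_mul_le_iff₀ hN0]
  refine h5.trans (le_of_eq ?_)
  have hN1 : N * N⁻¹ = 1 := mul_inv_cancel₀ hN0.ne'
  linear_combination (-3 * C1 ^ 2 * ∑ p, ∑ r, q2 τ (Dd T (U p r) x)) * hN1

theorem letters (hτ : TrS τ) (hK : 0 < K) (he : MUn e) {m : ℕ} (hm : 0 < m) (z : Fin m → A)
    (hz : ∀ l, z l ∈ unitary A) {Cf : ℝ} (hf : ∀ l, flat τ e (z l) ≤ Cf) {C1 : ℝ} (hC1 : 0 < C1) :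
    ∃ (S : Type) (_ : Fintype S) (_ : Nonempty S) (y : S → A) (inv : S → S),
      (∀ s, y s ∈ unitary A) ∧ (∀ s, Cmt e (y s)) ∧ (∀ s, inv (inv s) = s) ∧
      (∀ s, y (inv s) = star (y s)) ∧
      ∀ (T : A →L[ℂ] A) (CT B ε δ : ℝ), Modu e T → ‖T‖ ≤ CT → RCN τ T ε δ →
        (Cf + 1) / C1 ^ 2 ≤ δ →
        (∀ x, (1 / (Fintype.card S : ℝ)) * ∑ s, q2 τ (Dd T (y s) x) ≤ B * ‖x‖ ^ 2) →
        ∀ l x, S2 τ e T (z l) x ≤
          3 * (8 * m * C1 ^ 2 * B + ε + CT ^ 2 * ((Cf + 1) / C1 ^ 2)) * ‖x‖ ^ 2 := by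
  classical
  choose U hU hUc hUT using fun l => L4c.one hτ hK he (hz l) (hf l) hC1
  have hK' : (0 : ℝ) < K := by exact_mod_cast hK
  have hm' : (0 : ℝ) < m := by exact_mod_cast hm
  have : Nonempty (Fin m) := ⟨⟨0, hm⟩⟩
  have : Nonempty (Fin K) := ⟨⟨0, hK⟩⟩
  refine ⟨Fin m × (Fin K × (Fin K → Fin 3)) × Fin 4 × Bool, inferInstance, inferInstance,
    fun s => if s.2.2.2 then U s.1 s.2.1 s.2.2.1 else star (U s.1 s.2.1 s.2.2.1),
    fun s => (s.1, s.2.1, s.2.2.1, !s.2.2.2), ?_, ?_, ?_, ?_, ?_⟩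
  · rintro ⟨l, p, r, b⟩
    cases b
    · simpa using Unitary.star_mem (hU l p r)
    · simpa using hU l p r
  · rintro ⟨l, p, r, b⟩
    cases b
    · intro i j
      have h := congrArg star (hUc l p r j i)
      rw [star_mul, star_mul, he.star] at h
      simpa using h.symm
    · simpa using hUc l p r
  · rintro ⟨l, p, r, b⟩
    simp
  · rintro ⟨l, p, r, b⟩
    cases b <;> simp
  intro T CT B ε δ hT hCT hR hδ hB l x
  refine (hUT l T CT ε δ hT hCT hR hδ x).trans ?_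
  set N : ℝ := (K : ℝ) * 3 ^ K with hN
  have hN0 : 0 < N := by positivity
  have h1 := hB x
  have hcard : (Fintype.card (Fin m × (Fin K × (Fin K → Fin 3)) × Fin 4 × Bool) : ℝ) =
      m * N * 8 := by
    simp only [Fintype.card_prod, Fintype.card_fin, Fintype.card_pi, Finset.prod_const,
      Finset.card_univ, Fintype.card_bool, hN]
    push_cast
    ring
  rw [hcard, one_div, inv_mul_le_iff₀ (by positivity)] at h1
  have h2 : ∑ p, ∑ r, q2 τ (Dd T (U l p r) x) ≤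
      ∑ s : Fin m × (Fin K × (Fin K → Fin 3)) × Fin 4 × Bool,
        q2 τ (Dd T (if s.2.2.2 then U s.1 s.2.1 s.2.2.1 else star (U s.1 s.2.1 s.2.2.1)) x) := by
    have e0 : ∑ s : Fin m × (Fin K × (Fin K → Fin 3)) × Fin 4 × Bool,
        q2 τ (Dd T (if s.2.2.2 then U s.1 s.2.1 s.2.2.1 else star (U s.1 s.2.1 s.2.2.1)) x) =
        ∑ l' : Fin m, ∑ p : Fin K × (Fin K → Fin 3), ∑ r : Fin 4,
          (q2 τ (Dd T (U l' p r) x) + q2 τ (Dd T (star (U l' p r)) x)) := by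
      rw [Fintype.sum_prod_type]
      refine Finset.sum_congr rfl fun l' _ => ?_
      rw [Fintype.sum_prod_type]
      refine Finset.sum_congr rfl fun p _ => ?_
      rw [Fintype.sum_prod_type]
      refine Finset.sum_congr rfl fun r _ => ?_
      rw [Fintype.sum_bool]
      simp
    rw [e0]
    refine le_trans ?_ (Finset.single_le_sum (f := fun l' : Fin m =>
      ∑ p : Fin K × (Fin K → Fin 3), ∑ r : Fin 4,
          (q2 τ (Dd T (U l' p r) x) + q2 τ (Dd T (star (U l' p r)) x)))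
      (fun l' _ => Finset.sum_nonneg fun p _ => Finset.sum_nonneg fun r _ =>
        add_nonneg (q2_nonneg hτ _) (q2_nonneg hτ _)) (Finset.mem_univ l))
    refine Finset.sum_le_sum fun p _ => Finset.sum_le_sum fun r _ => ?_
    have := q2_nonneg hτ (Dd T (star (U l p r)) x)
    linarith
  have h3 := h2.trans h1
  have h4 : N⁻¹ * ∑ p, ∑ r, q2 τ (Dd T (U l p r) x) ≤ 8 * m * (B * ‖x‖ ^ 2) := by
    rw [inv_mul_le_iff₀ hN0]
    refine h3.trans (le_of_eq ?_)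
    ring
  have h5 : C1 ^ 2 * (N⁻¹ * ∑ p, ∑ r, q2 τ (Dd T (U l p r) x)) ≤
      C1 ^ 2 * (8 * m * (B * ‖x‖ ^ 2)) := mul_le_mul_of_nonneg_left h4 (by positivity)
  nlinarith [h5]

end Crest.Agent.R121
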