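import Crest.Agent.R121.LPow

/-! ROW 121, module L, pieces L4, L5, end (helper83).

`powers`: if `T` (modular over the matrix units `e`) almost commutes with `z e_kj` and `z* e_kj`
in mean square, then `T x` and `z T (z* x)` are close in 2-norm, given the JUMP LEMMA `hJ`. -/

set_option autoImplicit false
set_option linter.unusedSectionVars false

namespace Crest.Agent.R121.LP

open scoped BigOperators ComplexConjugate

variable {A : Type*} [CStarAlgebra A] {ι : Type*} [Fintype ι] [DecidableEq ι]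
variable (Q : ℕ) [NeZero Q] {e : ι → ι → A} {φ : ι → ι → ℂ} {τ : A →ₗ[ℂ] ℂ}

theorem pow_star_mul {w : A} (h : star w * w = 1) (n : ℕ) : star (w ^ n) * w ^ n = 1 := by
  induction n with
  | zero => simp
  | succ n ih =>
    rw [pow_succ', star_mul, mul_assoc, ← mul_assoc (star w), h, one_mul, ih]

theorem pow_mul_star {w : A} (h : w * star w = 1) (n : ℕ) : w ^ n * star (w ^ n) = 1 := by
  induction n with
  | zero => simp
  | succ n ih =>
    rw [pow_succ, star_mul, mul_assoc, ← mul_assoc w, h, one_mul, ih]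

/-- telescoping -/
theorem tele {w : A} (h : star w * w = 1) (T : A →ₗ[ℂ] A) (x : A) (n : ℕ) :
    star (w ^ n) * T (w ^ n * x) - T x =
      ∑ m ∈ Finset.range n, star (w ^ (m + 1)) * dl T w (w ^ m * x) := by
  induction n with
  | zero => simp
  | succ n ih =>
    rw [Finset.sum_range_succ, ← ih, dl_apply, mul_sub, ← mul_assoc w, ← pow_succ',
      ← mul_assoc _ w]
    have h1 : star (w ^ (n + 1)) * w = star (w ^ n) := by
      rw [pow_succ', star_mul, mul_assoc, h, mul_one]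
    rw [h1]
    abel

theorem D_bound (hp : ∀ a, 0 ≤ (τ (star a * a)).re) (he : MU e) (hφ : Phi φ)
    [Nonempty ι] (T : A →ₗ[ℂ] A) (z : A) (hz : star z * z = 1) (hz' : z * star z = 1) (ε : ℝ)
    (hε : ∀ x, ∑ p : ι × ι, n2 τ (dl T (z * e p.1 p.2) x) ≤ Fintype.card ι * (ε ^ 2 * ‖x‖ ^ 2))
    (n L : ℕ) (hnL : n ≤ L) (hQ : L < Q) (x : A) :
    ∑ ω : Om ι Q, n2 τ (star ((z * bb Q e φ ω) ^ n) * T ((z * bb Q e φ ω) ^ n * x) - T x) ≤
      Fintype.card (Om ι Q) * ((L : ℝ) ^ 2 * (L.factorial : ℝ) ^ 2 * (ε ^ 2 * ‖x‖ ^ 2)) := by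
  have hw : ∀ ω, star (z * bb Q e φ ω) * (z * bb Q e φ ω) = 1 := by
    intro ω
    rw [star_mul, mul_assoc, ← mul_assoc (star z), hz, one_mul, bb_star_mul Q he hφ]
  have hw' : ∀ ω, (z * bb Q e φ ω) * star (z * bb Q e φ ω) = 1 := by
    intro ω
    rw [star_mul, mul_assoc, ← mul_assoc (bb Q e φ ω), bb_mul_star Q he hφ, one_mul, hz']
  have h1 : ∀ ω : Om ι Q,
      n2 τ (star ((z * bb Q e φ ω) ^ n) * T ((z * bb Q e φ ω) ^ n * x) - T x) ≤
      n * ∑ m ∈ Finset.range n, n2 τ (dl T (z * bb Q e φ ω) ((z * bb Q e φ ω) ^ m * x)) := by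
    intro ω
    rw [tele (hw ω)]
    refine (n2_sum_le hp _ _).trans ?_
    rw [Finset.card_range]
    refine le_of_eq ?_
    congr 1
    refine Finset.sum_congr rfl fun m _ => ?_
    exact n2_unitary_mul (by rw [star_star]; exact pow_mul_star (hw' ω) (m + 1)) _
  have h2 := Finset.sum_le_sum fun (ω : Om ι Q) (_ : ω ∈ Finset.univ) => h1 ω
  refine h2.trans ?_
  rw [← Finset.mul_sum, Finset.sum_comm]
  have h3 : ∀ m ∈ Finset.range n,
      ∑ ω : Om ι Q, n2 τ (dl T (z * bb Q e φ ω) ((z * bb Q e φ ω) ^ m * x)) ≤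
      Fintype.card (Om ι Q) * ((L.factorial : ℝ) ^ 2 * (ε ^ 2 * ‖x‖ ^ 2)) := by
    intro m hm
    have hm' := Finset.mem_range.1 hm
    refine (pow_bound Q hp he hφ T z hz ε hε m (by omega) x).trans ?_
    have h4 : ((m + 1).factorial : ℝ) ≤ L.factorial := by
      exact_mod_cast Nat.factorial_le (by omega)
    gcongr
  have h5 := Finset.sum_le_sum h3
  rw [Finset.sum_const, Finset.card_range, nsmul_eq_mul] at h5
  have h6 : (n : ℝ) ≤ L := by exact_mod_cast hnL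
  calc _ ≤ (n : ℝ) * (n * (Fintype.card (Om ι Q) *
        ((L.factorial : ℝ) ^ 2 * (ε ^ 2 * ‖x‖ ^ 2)))) :=
        mul_le_mul_of_nonneg_left h5 (Nat.cast_nonneg _)
    _ ≤ (L : ℝ) * (L * (Fintype.card (Om ι Q) *
        ((L.factorial : ℝ) ^ 2 * (ε ^ 2 * ‖x‖ ^ 2)))) := by gcongr
    _ = _ := by ring

/-- the flip of the phases -/
def flip : Om ι Q ≃ Om ι Q where
  toFun ω := (-ω.2, -ω.1)
  invFun ω := (-ω.2, -ω.1)
  left_inv ω := by simp
  right_inv ω := by simp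

theorem D_bound' (hp : ∀ a, 0 ≤ (τ (star a * a)).re) (he : MU e) (hφ : Phi φ)
    [Nonempty ι] (T : A →ₗ[ℂ] A) (z : A) (hz : star z * z = 1) (hz' : z * star z = 1) (ε : ℝ)
    (hε : ∀ x, ∑ p : ι × ι, n2 τ (dl T (z * e p.1 p.2) x) ≤ Fintype.card ι * (ε ^ 2 * ‖x‖ ^ 2))
    (n L : ℕ) (hnL : n ≤ L) (hQ : L < Q) (x : A) :
    ∑ ω : Om ι Q, n2 τ (star ((z * star (bb Q e φ ω)) ^ n) *
      T ((z * star (bb Q e φ ω)) ^ n * x) - T x) ≤
      Fintype.card (Om ι Q) * ((L : ℝ) ^ 2 * (L.factorial : ℝ) ^ 2 * (ε ^ 2 * ‖x‖ ^ 2)) := by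
  have h := D_bound Q hp he hφ.adj T z hz hz' ε hε n L hnL hQ x
  rw [← (flip (ι := ι) Q).sum_comp] at h
  refine le_trans (le_of_eq ?_) h
  refine Finset.sum_congr rfl fun ω _ => ?_
  rw [bb_star Q he]; rfl

theorem T_bb (he : MU e) (T : A →ₗ[ℂ] A) (hT : ∀ i j x, T (e i j * x) = e i j * T x)
    (ω : Om ι Q) (x : A) : T (star (bb Q e φ ω) * x) = star (bb Q e φ ω) * T x := by
  rw [bb_star Q he]
  unfold bb
  rw [Finset.sum_mul, Finset.sum_mul, map_sum]
  refine Finset.sum_congr rfl fun p _ => ?_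
  rw [smul_mul_assoc, map_smul, hT, smul_mul_assoc]

theorem back_pow (b z : A) (hb : b * star b = 1) (n : ℕ) :
    (z * b) ^ (n + 1) * star b = z * (b * z) ^ n := by
  induction n with
  | zero => rw [zero_add, pow_one, pow_zero, mul_one, mul_assoc, hb, mul_one]
  | succ n ih =>
    rw [pow_succ', mul_assoc, ih, pow_succ']
    simp only [mul_assoc]

theorem star_pow_back (b z : A) (n : ℕ) :
    star ((z * b) ^ (n + 1)) = star b * ((star z * star b) ^ n * star z) := by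
  induction n with
  | zero => rw [zero_add, pow_one, pow_zero, one_mul, star_mul]
  | succ n ih =>
    rw [pow_succ, star_mul, ih, star_mul, pow_succ']
    simp only [mul_assoc]

theorem w_back (b z : A) (hb : b * star b = 1) (T : A →ₗ[ℂ] A)
    (hTb : ∀ x, T (star b * x) = star b * T x) (x : A) (n : ℕ) :
    (z * b) ^ (n + 1) * T (star ((z * b) ^ (n + 1)) * x) =
      z * (star ((star z * star b) ^ n) * T ((star z * star b) ^ n * (star z * x))) := by
  rw [star_pow_back, mul_assoc (star b), hTb, ← mul_assoc, back_pow b z hb, mul_assoc z]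
  congr 2
  · rw [star_pow, star_mul, star_star, star_star]
  · rw [mul_assoc]

theorem powers (h1 : τ 1 = 1) (hn : ∀ a, ‖τ a‖ ≤ ‖a‖) (hp : ∀ a, 0 ≤ (τ (star a * a)).re)
    (ht : ∀ a b, τ (a * b) = τ (b * a)) (he : MU e) (hφ : Phi φ) [Nonempty ι]
    (T : A →ₗ[ℂ] A) (hT : ∀ i j x, T (e i j * x) = e i j * T x)
    (z : A) (hz : star z * z = 1) (hz' : z * star z = 1) (ε : ℝ) (hε0 : 0 ≤ ε)
    (hε : ∀ x, ∑ p : ι × ι, n2 τ (T (z * e p.1 p.2 * x) - z * e p.1 p.2 * T x) ≤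
      Fintype.card ι * (ε ^ 2 * ‖x‖ ^ 2))
    (hε' : ∀ x, ∑ p : ι × ι, n2 τ (T (star z * e p.1 p.2 * x) - star z * e p.1 p.2 * T x) ≤
      Fintype.card ι * (ε ^ 2 * ‖x‖ ^ 2))
    (L : ℕ) (C : ℝ)
    (hJ : ∀ w : A, star w * w = 1 → w * star w = 1 → ∀ c β : A,
      ‖∑ n ∈ Finset.range L, ((1 : ℂ) / (n + 1)) *
        (τ (star (w ^ (n + 1)) * T (w ^ (n + 1) * c) * β) -
          τ (w ^ (n + 1) * T (star (w ^ (n + 1)) * c) * β))‖ ≤ C * ‖c‖ * √(n2 τ β))
    (x : A) :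
    (∑ n ∈ Finset.range L, (1 : ℝ) / (n + 1)) * √(n2 τ (T x - z * T (star z * x))) ≤
      C * ‖x‖ + (∑ n ∈ Finset.range L, (1 : ℝ) / (n + 1)) *
        (4 * (L : ℝ) ^ 2 * L.factorial * ε * ‖x‖) := by
  classical
  set h : ℝ := ∑ n ∈ Finset.range L, (1 : ℝ) / (n + 1) with hh
  have hh0 : 0 ≤ h := Finset.sum_nonneg fun n _ => by positivity
  have : NeZero (L + 2) := ⟨by omega⟩
  have hO : (0 : ℝ) < Fintype.card (Om ι (L + 2)) := by exact_mod_cast Fintype.card_pos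
  set b : Om ι (L + 2) → A := fun ω => bb (L + 2) e φ ω with hb
  have hb1 : ∀ ω, star (b ω) * b ω = 1 := bb_star_mul (L + 2) he hφ
  have hb2 : ∀ ω, b ω * star (b ω) = 1 := bb_mul_star (L + 2) he hφ
  set D : ℕ → Om ι (L + 2) → A := fun n ω =>
    star ((z * b ω) ^ n) * T ((z * b ω) ^ n * x) - T x with hD
  set D' : ℕ → Om ι (L + 2) → A := fun n ω =>
    star ((star z * star (b ω)) ^ n) * T ((star z * star (b ω)) ^ n * (star z * x)) -
      T (star z * x) with hD'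
  set R0 : ℝ := (L : ℝ) ^ 2 * (L.factorial : ℝ) ^ 2 * (ε ^ 2 * ‖x‖ ^ 2) with hR0
  have hR00 : 0 ≤ R0 := by positivity
  have a1 : ∀ n ≤ L, ∑ ω, n2 τ (D n ω) ≤ Fintype.card (Om ι (L + 2)) * R0 := fun n hn' =>
    D_bound (L + 2) hp he hφ T z hz hz' ε (fun x => hε x) n L hn' (by omega) x
  have a2 : ∀ n ≤ L, ∑ ω, n2 τ (D' n ω) ≤ Fintype.card (Om ι (L + 2)) * R0 := by
    intro n hn'
    refine (D_bound' (L + 2) hp he hφ T (star z) (by rw [star_star, hz']) (by rw [star_star, hz])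
      ε (fun x => hε' x) n L hn' (by omega) (star z * x)).trans ?_
    have e1 : ‖star z * x‖ ≤ ‖x‖ := norm_mul_le_of (by rw [star_star, hz']) x
    rw [hR0]
    gcongr
  obtain ⟨ω, hω⟩ : ∃ ω : Om ι (L + 2),
      ∑ n ∈ Finset.range L, (n2 τ (D (n + 1) ω) + n2 τ (D' n ω)) ≤ 2 * L * R0 := by
    have e1 : ∑ ω : Om ι (L + 2), ∑ n ∈ Finset.range L, (n2 τ (D (n + 1) ω) + n2 τ (D' n ω)) ≤
        ∑ ω : Om ι (L + 2), 2 * L * R0 := by
      rw [Finset.sum_comm, Finset.sum_const, nsmul_eq_mul, Finset.card_univ]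
      have e2 : ∀ n ∈ Finset.range L, ∑ ω : Om ι (L + 2),
          (n2 τ (D (n + 1) ω) + n2 τ (D' n ω)) ≤
          2 * (Fintype.card (Om ι (L + 2)) * R0) := by
        intro n hn'
        have hn'' := Finset.mem_range.1 hn'
        rw [Finset.sum_add_distrib]
        linarith [a1 (n + 1) (by omega), a2 n (by omega)]
      refine (Finset.sum_le_sum e2).trans ?_
      rw [Finset.sum_const, Finset.card_range, nsmul_eq_mul]
      exact le_of_eq (by ring)
    obtain ⟨ω, -, hω⟩ := Finset.exists_le_of_sum_le Finset.univ_nonempty e1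
    exact ⟨ω, hω⟩
  set S : ℝ := 2 * (L : ℝ) ^ 2 * L.factorial * ε * ‖x‖ with hS
  have hS0 : 0 ≤ S := by positivity
  have hRS : 2 * L * R0 ≤ S ^ 2 := by
    rw [hS, hR0]
    have e1 : (L : ℝ) ^ 3 ≤ 2 * (L : ℝ) ^ 4 := by
      rcases Nat.eq_zero_or_pos L with h0 | h0
      · rw [h0]; norm_num
      · have : (1 : ℝ) ≤ L := by exact_mod_cast h0
        have e2 : 0 ≤ (L : ℝ) ^ 3 := by positivity
        nlinarith
    have e3 : 0 ≤ (L.factorial : ℝ) ^ 2 * (ε ^ 2 * ‖x‖ ^ 2) := by positivity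
    nlinarith [mul_le_mul_of_nonneg_right e1 e3]
  have hsq : ∀ n ∈ Finset.range L, √(n2 τ (D (n + 1) ω)) ≤ S ∧ √(n2 τ (D' n ω)) ≤ S := by
    intro n hn'
    have e1 : n2 τ (D (n + 1) ω) + n2 τ (D' n ω) ≤ S ^ 2 := by
      refine le_trans ?_ (hω.trans hRS)
      exact Finset.single_le_sum (f := fun n => n2 τ (D (n + 1) ω) + n2 τ (D' n ω))
        (fun m _ => add_nonneg (hp _) (hp _)) hn'
    have e2 : 0 ≤ n2 τ (D (n + 1) ω) := hp _
    have e3 : 0 ≤ n2 τ (D' n ω) := hp _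
    constructor
    · exact Real.sqrt_le_iff.2 ⟨hS0, by linarith⟩
    · exact Real.sqrt_le_iff.2 ⟨hS0, by linarith⟩
  set w : A := z * b ω with hw
  have hw1 : star w * w = 1 := by
    rw [hw, star_mul, mul_assoc, ← mul_assoc (star z), hz, one_mul, hb1]
  have hw2 : w * star w = 1 := by
    rw [hw, star_mul, mul_assoc, ← mul_assoc (b ω), hb2, one_mul, hz']
  set y : A := T x - z * T (star z * x) with hy
  have hJ' := hJ w hw1 hw2 x (star y)
  have b1 : ∀ n, star (w ^ (n + 1)) * T (w ^ (n + 1) * x) = T x + D (n + 1) ω := by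
    intro n; exact (add_sub_cancel _ _).symm
  have b2 : ∀ n, w ^ (n + 1) * T (star (w ^ (n + 1)) * x) = z * T (star z * x) + z * D' n ω := by
    intro n
    rw [hw, w_back (b ω) z (hb2 ω) T (fun x => T_bb (L + 2) he T hT ω x) x n, hD']
    rw [← mul_add]; congr 1; exact (add_sub_cancel _ _).symm
  have b3 : ∀ n : ℕ, (τ (star (w ^ (n + 1)) * T (w ^ (n + 1) * x) * star y) -
          τ (w ^ (n + 1) * T (star (w ^ (n + 1)) * x) * star y)) =
      τ (star y * y) + (τ (D (n + 1) ω * star y) - τ (z * D' n ω * star y)) := by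
    intro n
    rw [b1, b2, ht (star y) y, hy]
    simp only [add_mul, sub_mul, map_add, map_sub]
    ring
  simp only [b3] at hJ'
  have hre : h * n2 τ y - h * (2 * S * √(n2 τ y)) ≤
      ‖∑ n ∈ Finset.range L, ((1 : ℂ) / (n + 1)) *
        (τ (star y * y) + (τ (D (n + 1) ω * star y) - τ (z * D' n ω * star y)))‖ := by
    refine le_trans ?_ (Complex.re_le_norm _)
    rw [Complex.re_sum, hh, Finset.sum_mul, Finset.sum_mul, ← Finset.sum_sub_distrib]
    refine Finset.sum_le_sum fun n hn' => ?_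
    have e1 : ((1 : ℂ) / (n + 1)) = (((1 : ℝ) / (n + 1) : ℝ) : ℂ) := by push_cast; rfl
    rw [e1, Complex.re_ofReal_mul, ← mul_sub]
    refine mul_le_mul_of_nonneg_left ?_ (by positivity)
    rw [Complex.add_re, Complex.sub_re]
    have e2 := (Complex.abs_re_le_norm (τ (D (n + 1) ω * star y))).trans
      (cs' h1 hn hp ht (D (n + 1) ω) (star y))
    have e3 := (Complex.abs_re_le_norm (τ (z * D' n ω * star y))).trans
      (cs' h1 hn hp ht (z * D' n ω) (star y))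
    rw [n2_star ht] at e2 e3
    rw [n2_unitary_mul hz] at e3
    have e4 : √(n2 τ (D (n + 1) ω)) * √(n2 τ y) ≤ S * √(n2 τ y) :=
      mul_le_mul_of_nonneg_right (hsq n hn').1 (Real.sqrt_nonneg _)
    have e5 : √(n2 τ (D' n ω)) * √(n2 τ y) ≤ S * √(n2 τ y) :=
      mul_le_mul_of_nonneg_right (hsq n hn').2 (Real.sqrt_nonneg _)
    have e6 := (abs_le.1 (e2.trans e4)).1
    have e7 := (abs_le.1 (e3.trans e5)).2
    have e8 : (τ (star y * y)).re = n2 τ y := rfl
    rw [e8]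
    linarith
  have hfin := hre.trans hJ'
  rw [n2_star ht] at hfin
  have hny : n2 τ y = √(n2 τ y) * √(n2 τ y) := (Real.mul_self_sqrt (hp y)).symm
  rcases (Real.sqrt_nonneg (n2 τ y)).eq_or_lt with h0 | h0
  · rw [← h0, mul_zero]
    have hC : 0 ≤ C * ‖x‖ := by
      have e1 := hJ 1 (by rw [star_one, one_mul]) (by rw [star_one, one_mul]) x 1
      have e2 : 0 ≤ C * ‖x‖ * √(n2 τ 1) := le_trans (norm_nonneg _) e1
      have e3 : n2 τ (1 : A) = 1 := by
        unfold n2; rw [star_one, one_mul, h1]; rfl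
      rw [e3, Real.sqrt_one, mul_one] at e2
      exact e2
    have hS' : 0 ≤ 4 * (L : ℝ) ^ 2 * L.factorial * ε * ‖x‖ := by
      have e4 : 4 * (L : ℝ) ^ 2 * L.factorial * ε * ‖x‖ = 2 * S := by rw [hS]; ring
      rw [e4]; linarith
    exact add_nonneg hC (mul_nonneg hh0 hS')
  · have e1 : √(n2 τ y) * (h * √(n2 τ y)) ≤ √(n2 τ y) * (C * ‖x‖ + h * (2 * S)) := by
      have e3 : h * n2 τ y = h * (√(n2 τ y) * √(n2 τ y)) := congrArg (h * ·) hny
      rw [e3] at hfin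
      linarith
    have e2 := le_of_mul_le_mul_left e1 h0
    refine e2.trans (le_of_eq ?_)
    rw [hS]; ring

end Crest.Agent.R121.LP
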