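import Crest.Agent.R121.L1
import Crest.Agent.R121.LPowEnd

/-! ROW 121, L5: powers of `w = z b`, GT-free version (adapter: helper52; proof: helper83
`LPowEnd.lean`, jump lemma `L1.lean`). -/

set_option autoImplicit false
open Finset

namespace Crest.Agent.R121

universe u

theorem L5_zt_mul (K : ℕ) (hK : K ≠ 0) (a b j : ℕ) :
    (LJ.zt K) ^ (a * j) * (starRingEnd ℂ) ((LJ.zt K) ^ (b * j)) =
      ((LJ.zt K) ^ j) ^ ((a : ℤ) - b) := by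
  have h1 := LJ.conj_zpow_circle (LJ.zt K) (LJ.zt_norm K hK) ((b * j : ℕ) : ℤ)
  rw [zpow_natCast] at h1
  rw [h1, ← zpow_natCast, ← zpow_add₀ (LJ.zt_ne K), ← zpow_natCast, ← zpow_mul]
  congr 1
  push_cast
  ring

/-- the DFT matrix -/
theorem L5_exists_phi (K : ℕ) (hK : 0 < K) : ∃ φ : Fin K → Fin K → ℂ, LP.Phi φ := by
  have hK0 : K ≠ 0 := hK.ne'
  have hKr : (0 : ℝ) < K := by exact_mod_cast hK
  set r : ℝ := (Real.sqrt K)⁻¹ with hr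
  have hrr : r * r = 1 / K := by
    rw [hr, ← mul_inv, Real.mul_self_sqrt hKr.le, one_div]
  have hrc : ((r : ℂ)) * (r : ℂ) = 1 / (K : ℂ) := by
    rw [← Complex.ofReal_mul, hrr]; push_cast; rfl
  have hsum : ∀ k l : Fin K, (if ((k : ℕ) : ℤ) - ((l : ℕ) : ℤ) = 0 then (K : ℂ) else 0) * (1 / K) =
      if k = l then 1 else 0 := by
    intro k l
    by_cases h : k = l
    · subst h
      rw [if_pos (sub_self _), if_pos rfl]
      have : (K : ℂ) ≠ 0 := by exact_mod_cast hK0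
      field_simp
    · rw [if_neg, if_neg h, zero_mul]
      intro h2
      exact h (Fin.ext (by omega))
  refine ⟨fun i j => (r : ℂ) * (LJ.zt K) ^ ((i : ℕ) * (j : ℕ)), ⟨fun i j => ?_, fun k l => ?_,
    fun k l => ?_⟩⟩
  · rw [norm_mul, norm_pow, LJ.zt_norm K hK0, one_pow, mul_one, Complex.norm_real,
      Real.norm_eq_abs, sq_abs, pow_two, hrr, Fintype.card_fin]
  · have h1 : ∀ j : Fin K, (r : ℂ) * (LJ.zt K) ^ ((k : ℕ) * (j : ℕ)) *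
        (starRingEnd ℂ) ((r : ℂ) * (LJ.zt K) ^ ((l : ℕ) * (j : ℕ))) =
        ((LJ.zt K) ^ (j : ℕ)) ^ (((k : ℕ) : ℤ) - ((l : ℕ) : ℤ)) * (1 / K) := by
      intro j
      rw [map_mul, Complex.conj_ofReal, ← hrc, ← L5_zt_mul K hK0]
      ring
    rw [Finset.sum_congr rfl fun j _ => h1 j, ← Finset.sum_mul,
      ← Finset.sum_range (fun j => ((LJ.zt K) ^ j) ^ (((k : ℕ) : ℤ) - ((l : ℕ) : ℤ))),
      LJ.zt_sum K hK0 _ (by have := k.2; have := l.2; rw [abs_lt]; omega)]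
    exact hsum k l
  · have h1 : ∀ j : Fin K, (starRingEnd ℂ) ((r : ℂ) * (LJ.zt K) ^ ((j : ℕ) * (k : ℕ))) *
        ((r : ℂ) * (LJ.zt K) ^ ((j : ℕ) * (l : ℕ))) =
        ((LJ.zt K) ^ (j : ℕ)) ^ (((l : ℕ) : ℤ) - ((k : ℕ) : ℤ)) * (1 / K) := by
      intro j
      rw [map_mul, Complex.conj_ofReal, ← hrc, ← L5_zt_mul K hK0, mul_comm (j : ℕ) (k : ℕ),
        mul_comm (j : ℕ) (l : ℕ)]
      ring
    rw [Finset.sum_congr rfl fun j _ => h1 j, ← Finset.sum_mul,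
      ← Finset.sum_range (fun j => ((LJ.zt K) ^ j) ^ (((l : ℕ) : ℤ) - ((k : ℕ) : ℤ))),
      LJ.zt_sum K hK0 _ (by have := k.2; have := l.2; rw [abs_lt]; omega), hsum l k]
    by_cases h : k = l
    · rw [if_pos h, if_pos h.symm]
    · rw [if_neg h, if_neg (Ne.symm h)]

theorem L5_S2 {A : Type u} [CStarAlgebra A] (τ : A →ₗ[ℂ] ℂ) {K : ℕ} (hK : 0 < K)
    (e : Fin K → Fin K → A) (T : A →L[ℂ] A) (z x : A) (B : ℝ) (h : S2 τ e T z x ≤ B) :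
    ∑ p : Fin K × Fin K, LP.n2 τ ((T : A →ₗ[ℂ] A) (z * e p.1 p.2 * x) -
      z * e p.1 p.2 * (T : A →ₗ[ℂ] A) x) ≤ Fintype.card (Fin K) * B := by
  have hKr : (0 : ℝ) < K := by exact_mod_cast hK
  rw [S2, one_div, inv_mul_le_iff₀ hKr] at h
  rw [Fintype.card_fin, Fintype.sum_prod_type]
  exact h

/-- `CL` depends on `L` only -/
theorem powers (L : ℕ) (hL : 0 < L) : ∃ CL : ℝ, 0 ≤ CL ∧
    ∀ (A : Type u) [CStarAlgebra A] (τ : A →ₗ[ℂ] ℂ) (_ : TrS τ) (K : ℕ) (_ : 0 < K)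
      (e : Fin K → Fin K → A) (_ : MUn e) (T : A →L[ℂ] A) (_ : Modu e T) (z : A)
      (_ : z ∈ unitary A) (ε : ℝ) (_ : 0 ≤ ε) (_ : ∀ x, S2 τ e T z x ≤ ε ^ 2 * ‖x‖ ^ 2)
      (_ : ∀ x, S2 τ e T (star z) x ≤ ε ^ 2 * ‖x‖ ^ 2) (x : A),
      hs L * n2 τ (T x - z * T (star z * x)) ≤ (9 * ‖T‖ + CL * ε) * ‖x‖ := by
  refine ⟨hs L * (4 * (L : ℝ) ^ 2 * L.factorial), ?_, ?_⟩
  · have : 0 ≤ hs L := sum_nonneg fun n _ => by positivity
    positivity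
  intro A _ τ hτ K hK e he T hT z hz ε hε hS hS' x
  obtain ⟨φ, hφ⟩ := L5_exists_phi K hK
  have hne : Nonempty (Fin K) := ⟨⟨0, hK⟩⟩
  have hz' := Unitary.mem_iff.1 hz
  have key := LP.powers (τ := τ) (e := e) (φ := φ) hτ.one hτ.norm_le hτ.nonneg hτ.comm
    ⟨he.mul, he.star, he.sum⟩ hφ (T : A →ₗ[ℂ] A) hT z hz'.1 hz'.2 ε hε
    (fun x => L5_S2 τ hK e T z x _ (hS x)) (fun x => L5_S2 τ hK e T (star z) x _ (hS' x)) L
    (9 * ‖T‖) (fun w h1 h2 c β => jump hτ (Unitary.mem_iff.2 ⟨h1, h2⟩) T c β L) x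
  refine key.trans (le_of_eq ?_)
  rw [hs]
  ring

end Crest.Agent.R121
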