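import Crest.Agent.R121.LB
import Crest.Agent.R121.LAvg

/-! ROW 121, L6 (helper92): averaging. -/

set_option autoImplicit false
open Finset

namespace Crest.Agent.R121

universe u
variable {A : Type u} [CStarAlgebra A] {τ : A →ₗ[ℂ] ℂ} {K : ℕ} {e : Fin K → Fin K → A}

theorem norm_TU_le' {u : A} (hu : u ∈ unitary A) (T : A →L[ℂ] A) :
    ‖(ContinuousLinearMap.mul ℂ A (star u)).comp (T.comp (ContinuousLinearMap.mul ℂ A u))‖ ≤ ‖T‖ :=
  LAvg.norm_TU_le ⟨u, hu⟩ T

theorem Av.norm_ap_le (a : Av A) (T : A →L[ℂ] A) : ‖a.ap T‖ ≤ ‖T‖ := by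
  unfold Av.ap
  calc _ ≤ ∑ l, ‖(a.w l : ℂ) • ((ContinuousLinearMap.mul ℂ A (star (a.u l))).comp
      (T.comp (ContinuousLinearMap.mul ℂ A (a.u l))))‖ := norm_sum_le _ _
    _ ≤ ∑ l, a.w l * ‖T‖ := by
        refine Finset.sum_le_sum fun l _ => ?_
        rw [norm_smul, Complex.norm_real, Real.norm_of_nonneg (a.hw l)]
        exact mul_le_mul_of_nonneg_left (norm_TU_le' (a.hu l) T) (a.hw l)
    _ = ‖T‖ := by rw [← Finset.sum_mul, a.hs, one_mul]

/-- averages over an arbitrary finite index type -/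
noncomputable def Av.of {I : Type} [Fintype I] (u : I → A) (w : I → ℝ) (hu : ∀ i, u i ∈ unitary A)
    (hw : ∀ i, 0 ≤ w i) (hs : ∑ i, w i = 1) : Av A where
  n := Fintype.card I
  u := fun l => u ((Fintype.equivFin I).symm l)
  w := fun l => w ((Fintype.equivFin I).symm l)
  hu := fun l => hu _
  hw := fun l => hw _
  hs := by rw [← hs]; exact Equiv.sum_comp (Fintype.equivFin I).symm w

theorem Av.of_ap {I : Type} [Fintype I] (u : I → A) (w : I → ℝ) (hu : ∀ i, u i ∈ unitary A)
    (hw : ∀ i, 0 ≤ w i) (hs : ∑ i, w i = 1) (T : A →L[ℂ] A) (x : A) :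
    (Av.of u w hu hw hs).ap T x = ∑ i, (w i : ℂ) • (star (u i) * T (u i * x)) := by
  rw [Av.ap_apply]
  exact Equiv.sum_comp (Fintype.equivFin I).symm
    (fun i => (w i : ℂ) • (star (u i) * T (u i * x)))

theorem Av.of_u {I : Type} [Fintype I] (u : I → A) (w : I → ℝ) (hu : ∀ i, u i ∈ unitary A)
    (hw : ∀ i, 0 ≤ w i) (hs : ∑ i, w i = 1) {P : A → Prop} (hP : ∀ i, P (u i)) :
    ∀ l, P ((Av.of u w hu hw hs).u l) := fun _ => hP _

/-- first `a`, then `b` -/
noncomputable def Av.comp (a b : Av A) : Av A :=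
  Av.of (I := Fin b.n × Fin a.n) (fun p => a.u p.2 * b.u p.1) (fun p => b.w p.1 * a.w p.2)
    (fun p => mul_mem (a.hu _) (b.hu _)) (fun p => mul_nonneg (b.hw _) (a.hw _)) (by
      rw [Fintype.sum_prod_type]
      simp only [← Finset.mul_sum, a.hs, mul_one, b.hs])

theorem Av.comp_ap (a b : Av A) (T : A →L[ℂ] A) : (a.comp b).ap T = b.ap (a.ap T) := by
  ext x
  unfold Av.comp
  rw [Av.of_ap, Av.ap_apply, Fintype.sum_prod_type]
  refine Finset.sum_congr rfl fun l _ => ?_
  rw [Av.ap_apply, Finset.mul_sum, Finset.smul_sum]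
  refine Finset.sum_congr rfl fun k _ => ?_
  simp only [mul_smul_comm, smul_smul, star_mul, mul_assoc]
  push_cast
  rfl

theorem Av.comp_u (a b : Av A) {P : A → Prop} (hP : ∀ k l, P (a.u k * b.u l)) :
    ∀ l, P ((a.comp b).u l) := Av.of_u _ _ _ _ _ fun _ => hP _ _

theorem Av.ap_ap (a b : Av A) : ∃ c : Av A, ∀ T : A →L[ℂ] A, c.ap T = b.ap (a.ap T) :=
  ⟨a.comp b, fun T => Av.comp_ap a b T⟩

theorem Cmt.mul {y y' : A} (h : Cmt e y) (h' : Cmt e y') : Cmt e (y * y') := by
  intro i j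
  rw [mul_assoc, h' i j, ← mul_assoc, h i j, mul_assoc]

theorem Cmt.star_unitary {y : A} (h : Cmt e y) (hy : y ∈ unitary A) : Cmt e (star y) := by
  intro i j
  obtain ⟨h1, h2⟩ := Unitary.mem_iff.1 hy
  calc star y * e i j = star y * e i j * (y * star y) := by rw [h2, mul_one]
    _ = star y * (e i j * y) * star y := by noncomm_ring
    _ = star y * (y * e i j) * star y := by rw [h i j]
    _ = (star y * y) * e i j * star y := by noncomm_ring
    _ = e i j * star y := by rw [h1, one_mul]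

theorem Cmt.one : Cmt e (1 : A) := fun i j => by rw [one_mul, mul_one]

theorem Av.modu (a : Av A) (ha : ∀ l, Cmt e (a.u l)) {T : A →L[ℂ] A} (hT : Modu e T) :
    Modu e (a.ap T) := by
  intro i j x
  rw [Av.ap_apply, Av.ap_apply, Finset.mul_sum]
  refine Finset.sum_congr rfl fun l _ => ?_
  rw [mul_smul_comm]
  congr 1
  rw [← mul_assoc, ha l i j, mul_assoc, hT i j, ← mul_assoc, ← mul_assoc,
    ((ha l).star_unitary (a.hu l)) i j]

theorem q2_convex (hτ : TrS τ) {n : ℕ} (w : Fin n → ℝ) (hw : ∀ l, 0 ≤ w l) (hs : ∑ l, w l = 1)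
    (v : Fin n → A) : q2 τ (∑ l, (w l : ℂ) • v l) ≤ ∑ l, w l * q2 τ (v l) := by
  have e1 : ∀ r s, q2 τ (v r - v s) = q2 τ (v r) + q2 τ (v s)
      - (τ (star (v r) * v s)).re - (τ (star (v s) * v r)).re := by
    intro r s
    unfold q2
    have : star (v r - v s) * (v r - v s) = star (v r) * v r + star (v s) * v s
        - star (v r) * v s - star (v s) * v r := by
      rw [star_sub]; noncomm_ring
    rw [this]; simp
  have e2 : q2 τ (∑ l, (w l : ℂ) • v l) = ∑ r, ∑ s, w r * w s * (τ (star (v r) * v s)).re := by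
    unfold q2
    rw [star_sum, Finset.sum_mul_sum]
    simp only [star_smul, smul_mul_smul_comm, map_sum, map_smul, Complex.re_sum, smul_eq_mul]
    refine Finset.sum_congr rfl fun r _ => Finset.sum_congr rfl fun s _ => ?_
    have : (star (w r : ℂ)) * (w s : ℂ) = ((w r * w s : ℝ) : ℂ) := by
      simp
    rw [this, Complex.re_ofReal_mul]
  have h0 : 0 ≤ ∑ r, ∑ s, w r * w s * q2 τ (v r - v s) :=
    Finset.sum_nonneg fun r _ => Finset.sum_nonneg fun s _ =>
      mul_nonneg (mul_nonneg (hw r) (hw s)) (q2_nonneg hτ _)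
  have h1 : ∑ r, ∑ s, w r * w s * q2 τ (v r - v s)
      = 2 * ∑ l, w l * q2 τ (v l) - 2 * q2 τ (∑ l, (w l : ℂ) • v l) := by
    rw [e2]
    simp only [e1, mul_sub, mul_add, Finset.sum_sub_distrib, Finset.sum_add_distrib]
    have a1 : ∑ r, ∑ s, w r * w s * q2 τ (v r) = ∑ l, w l * q2 τ (v l) := by
      refine Finset.sum_congr rfl fun r _ => ?_
      calc ∑ s, w r * w s * q2 τ (v r) = (w r * q2 τ (v r)) * ∑ s, w s := by
            rw [Finset.mul_sum]; exact Finset.sum_congr rfl fun s _ => by ring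
        _ = _ := by rw [hs, mul_one]
    have a2 : ∑ r, ∑ s, w r * w s * q2 τ (v s) = ∑ l, w l * q2 τ (v l) := by
      rw [Finset.sum_comm]
      refine Finset.sum_congr rfl fun r _ => ?_
      calc ∑ s, w s * w r * q2 τ (v r) = (w r * q2 τ (v r)) * ∑ s, w s := by
            rw [Finset.mul_sum]; exact Finset.sum_congr rfl fun s _ => by ring
        _ = _ := by rw [hs, mul_one]
    have a3 : ∑ r, ∑ s, w r * w s * (τ (star (v s) * v r)).re
        = ∑ r, ∑ s, w r * w s * (τ (star (v r) * v s)).re := by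
      rw [Finset.sum_comm]
      exact Finset.sum_congr rfl fun r _ => Finset.sum_congr rfl fun s _ => by ring
    rw [a1, a2, a3]
    ring
  linarith

theorem Av.rcn (hτ : TrS τ) (a : Av A) {T : A →L[ℂ] A} {ε δ : ℝ} (hT : RCN τ T ε δ) :
    RCN τ (a.ap T) ε δ := by
  intro n y h1 h2 h3
  have hl : ∀ l, ∑ i, q2 τ (T (a.u l * y i)) ≤ ε := by
    intro l
    obtain ⟨hu1, hu2⟩ := Unitary.mem_iff.1 (a.hu l)
    refine hT n (fun i => a.u l * y i) ?_ ?_ ?_
    · have : ∑ i, star (a.u l * y i) * (a.u l * y i) = ∑ i, star (y i) * y i := by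
        refine Finset.sum_congr rfl fun i _ => ?_
        rw [star_mul, mul_assoc, ← mul_assoc (star (a.u l)), hu1, one_mul]
      rw [this]; exact h1
    · have : ∑ i, (a.u l * y i) * star (a.u l * y i) = a.u l * (∑ i, y i * star (y i)) * star (a.u l) := by
        rw [Finset.mul_sum, Finset.sum_mul]
        refine Finset.sum_congr rfl fun i _ => ?_
        rw [star_mul]; noncomm_ring
      rw [this]
      have hn : ‖a.u l * (∑ i, y i * star (y i)) * star (a.u l)‖ = ‖∑ i, y i * star (y i)‖ := by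
        rw [CStarRing.norm_mul_mem_unitary _ (Unitary.star_mem (a.hu l)),
          CStarRing.norm_mem_unitary_mul _ (a.hu l)]
      rw [hn]; exact h2
    · have : ∑ i, q2 τ (a.u l * y i) = ∑ i, q2 τ (y i) :=
        Finset.sum_congr rfl fun i _ => q2_unitary_mul (a.hu l) _
      rw [this]; exact h3
  calc ∑ i, q2 τ (a.ap T (y i)) ≤ ∑ i, ∑ l, a.w l * q2 τ (star (a.u l) * T (a.u l * y i)) := by
        refine Finset.sum_le_sum fun i _ => ?_
        rw [Av.ap_apply]
        exact q2_convex hτ a.w a.hw a.hs _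
    _ = ∑ l, a.w l * ∑ i, q2 τ (T (a.u l * y i)) := by
        rw [Finset.sum_comm]
        refine Finset.sum_congr rfl fun l _ => ?_
        rw [Finset.mul_sum]
        refine Finset.sum_congr rfl fun i _ => ?_
        rw [q2_unitary_mul (Unitary.star_mem (a.hu l))]
    _ ≤ ∑ l, a.w l * ε := Finset.sum_le_sum fun l _ => mul_le_mul_of_nonneg_left (hl l) (a.hw l)
    _ = ε := by rw [← Finset.sum_mul, a.hs, one_mul]

/-- average over the finite group of signed permutation matrices -/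
theorem exists_modu (he : MUn e) : ∃ a : Av A, ∀ T : A →L[ℂ] A, Modu e (a.ap T) := by
  rcases Nat.eq_zero_or_pos K with hK | hK
  · subst hK
    refine ⟨Av.of (I := Unit) (fun _ => 1) (fun _ => 1) (fun _ => one_mem _) (fun _ => zero_le_one)
      (by simp), fun T i => i.elim0⟩
  · haveI : NeZero K := ⟨hK.ne'⟩
    have he' : LAvg.MU K e := ⟨he.mul, he.star, he.sum⟩
    have hcard : (0 : ℝ) < (Fintype.card ((Fin K → ℤˣ) × Fin K) : ℝ) := by
      exact_mod_cast Fintype.card_pos
    refine ⟨Av.of (I := (Fin K → ℤˣ) × Fin K) (fun p => LAvg.gel e p)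
      (fun _ => (Fintype.card ((Fin K → ℤˣ) × Fin K) : ℝ)⁻¹)
      (fun p => LAvg.gel_unitary he' p) (fun _ => by positivity)
      (by simp only [Finset.sum_const, Finset.card_univ, nsmul_eq_mul]
          exact mul_inv_cancel₀ hcard.ne'), fun T => ?_⟩
    have key : ∀ x, (Av.of (I := (Fin K → ℤˣ) × Fin K) (fun p => LAvg.gel e p)
      (fun _ => (Fintype.card ((Fin K → ℤˣ) × Fin K) : ℝ)⁻¹)
      (fun p => LAvg.gel_unitary he' p) (fun _ => by positivity)
      (by simp only [Finset.sum_const, Finset.card_univ, nsmul_eq_mul]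
          exact mul_inv_cancel₀ hcard.ne')).ap T x = (K : ℂ)⁻¹ • ∑ i, ∑ j, e i j * T (e j i * x) := by
      intro x
      rw [← LAvg.avg_gel he' T x, Av.of_ap, smul_apply, _root_.sum_apply, Finset.smul_sum]
      refine Finset.sum_congr rfl fun p _ => ?_
      rw [LAvg.TU_apply]
      push_cast
      rfl
    intro k l x
    rw [key, key, mul_smul_comm]
    congr 1
    have hL : ∑ i, ∑ j, e i j * T (e j i * (e k l * x)) = ∑ j, e k j * T (e j l * x) := by
      rw [Finset.sum_eq_single k]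
      · refine Finset.sum_congr rfl fun j _ => ?_
        rw [← mul_assoc (e j k), he.mul]; simp
      · intro i _ hi
        refine Finset.sum_eq_zero fun j _ => ?_
        rw [← mul_assoc (e j i), he.mul, if_neg hi]; simp
      · simp
    have hR : e k l * ∑ i, ∑ j, e i j * T (e j i * x) = ∑ j, e k j * T (e j l * x) := by
      rw [Finset.mul_sum, Finset.sum_eq_single l]
      · rw [Finset.mul_sum]
        refine Finset.sum_congr rfl fun j _ => ?_
        rw [← mul_assoc, he.mul]; simp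
      · intro i _ hi
        rw [Finset.mul_sum]
        refine Finset.sum_eq_zero fun j _ => ?_
        rw [← mul_assoc, he.mul, if_neg (Ne.symm hi)]; simp
      · simp
    rw [hL, hR]

theorem Av.ap_add (a : Av A) (T T' : A →L[ℂ] A) : a.ap (T + T') = a.ap T + a.ap T' := by
  ext x
  rw [add_apply]
  simp only [Av.ap_apply, add_apply, mul_add, smul_add, Finset.sum_add_distrib]

theorem Av.ap_smul (a : Av A) (c : ℂ) (T : A →L[ℂ] A) : a.ap (c • T) = c • a.ap T := by
  ext x
  rw [smul_apply]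
  simp only [Av.ap_apply, smul_apply, mul_smul_comm, Finset.smul_sum]
  exact Finset.sum_congr rfl fun l _ => smul_comm _ _ _

theorem Av.ap_sum (a : Av A) {I : Type*} (s : Finset I) (T : I → A →L[ℂ] A) :
    a.ap (∑ i ∈ s, T i) = ∑ i ∈ s, a.ap (T i) := by
  classical
  induction s using Finset.induction_on with
  | empty =>
    simp only [Finset.sum_empty]
    ext x
    rw [Av.ap_apply]
    simp
  | insert b s hb ih => rw [Finset.sum_insert hb, Finset.sum_insert hb, Av.ap_add, ih]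

/-- the average of finitely many averages -/
noncomputable def Av.mean (m : ℕ) (hm : 0 < m) (a : Fin m → Av A) : Av A :=
  Av.of (I := Σ k : Fin m, Fin (a k).n) (fun p => (a p.1).u p.2) (fun p => (m : ℝ)⁻¹ * (a p.1).w p.2)
    (fun p => (a p.1).hu _) (fun p => mul_nonneg (by positivity) ((a p.1).hw _)) (by
      rw [Fintype.sum_sigma]
      simp only [← Finset.mul_sum, (a _).hs]
      have : (m : ℝ) ≠ 0 := by exact_mod_cast hm.ne'
      simp [this])

theorem Av.mean_ap (m : ℕ) (hm : 0 < m) (a : Fin m → Av A) (T : A →L[ℂ] A) :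
    (Av.mean m hm a).ap T = (m : ℂ)⁻¹ • ∑ k, (a k).ap T := by
  ext x
  unfold Av.mean
  rw [Av.of_ap, Fintype.sum_sigma, smul_apply, _root_.sum_apply, Finset.smul_sum]
  refine Finset.sum_congr rfl fun k _ => ?_
  rw [Av.ap_apply, Finset.smul_sum]
  refine Finset.sum_congr rfl fun l _ => ?_
  rw [smul_smul]
  push_cast
  rfl

/-- iterates of an average -/
noncomputable def Av.iter (q : Av A) : ℕ → Av A
  | 0 => Av.of (I := Unit) (fun _ => 1) (fun _ => 1) (fun _ => one_mem _) (fun _ => zero_le_one)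
      (by simp)
  | k + 1 => (Av.iter q k).comp q

theorem Av.iter_zero_ap (q : Av A) (T : A →L[ℂ] A) : (q.iter 0).ap T = T := by
  ext x
  show (Av.of (I := Unit) _ _ _ _ _).ap T x = _
  rw [Av.of_ap]
  simp

theorem Av.iter_succ_ap (q : Av A) (k : ℕ) (T : A →L[ℂ] A) :
    (q.iter (k + 1)).ap T = q.ap ((q.iter k).ap T) := Av.comp_ap _ _ _

theorem Av.iter_cmt (q : Av A) (hq : ∀ l, Cmt e (q.u l)) (k : ℕ) :
    ∀ l, Cmt e ((q.iter k).u l) := by
  induction k with
  | zero => exact Av.of_u _ _ _ _ _ fun _ => Cmt.one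
  | succ k ih => exact Av.comp_u _ _ fun k l => (ih k).mul (hq l)

/-- Cesaro means of the random walk with letters `y s` -/
theorem exists_harm {S : Type} [Fintype S] [Nonempty S] (y : S → A)
    (hy : ∀ s, y s ∈ unitary A) (hc : ∀ s, Cmt e (y s)) {CT η : ℝ} (hη : 0 < η) :
    ∃ a : Av A, (∀ l, Cmt e (a.u l)) ∧ ∀ T : A →L[ℂ] A, ‖T‖ ≤ CT → ∀ x,
      ‖(1 / (Fintype.card S : ℂ)) • ∑ s, Dd (a.ap T) (y s) x‖ ≤ η * ‖x‖ := by
  have hcard : (0 : ℝ) < (Fintype.card S : ℝ) := by exact_mod_cast Fintype.card_pos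
  have hcardC : (Fintype.card S : ℂ) ≠ 0 := by exact_mod_cast Fintype.card_ne_zero
  let q : Av A := Av.of y (fun _ => (Fintype.card S : ℝ)⁻¹) hy (fun _ => by positivity)
      (by simp only [Finset.sum_const, Finset.card_univ, nsmul_eq_mul]
          exact mul_inv_cancel₀ hcard.ne')
  have hq : ∀ l, Cmt e (q.u l) := Av.of_u _ _ _ _ _ hc
  obtain ⟨m, hm⟩ := exists_nat_gt (2 * CT / η)
  obtain ⟨m', hm'⟩ : ∃ m' : ℕ, m' = m + 1 := ⟨_, rfl⟩
  have hm0 : 0 < m' := by omega
  let a : Av A := Av.mean m' hm0 (fun k => q.iter k)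
  refine ⟨a, Av.of_u _ _ _ _ _ fun p => Av.iter_cmt q hq _ _, ?_⟩
  intro T hT x
  have e1 : (1 / (Fintype.card S : ℂ)) • ∑ s, Dd (a.ap T) (y s) x = (q.ap (a.ap T) - a.ap T) x := by
    rw [sub_apply]
    have : q.ap (a.ap T) x = ∑ s, ((Fintype.card S : ℝ)⁻¹ : ℂ) • (star (y s) * (a.ap T) (y s * x)) := by
      show (Av.of _ _ _ _ _).ap _ x = _
      rw [Av.of_ap]
      push_cast
      rfl
    rw [this]
    unfold Dd
    rw [Finset.sum_sub_distrib, smul_sub, Finset.smul_sum, Finset.sum_const, Finset.card_univ,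
      ← Nat.cast_smul_eq_nsmul ℂ, smul_smul, one_div, inv_mul_cancel₀ hcardC, one_smul]
    push_cast
    rfl
  have e2 : q.ap (a.ap T) - a.ap T = (m' : ℂ)⁻¹ • ((q.iter m').ap T - T) := by
    have h1 : a.ap T = (m' : ℂ)⁻¹ • ∑ k ∈ Finset.range m', (q.iter k).ap T := by
      show (Av.mean _ _ _).ap T = _
      rw [Av.mean_ap, Finset.sum_range]
    have h2 : q.ap (a.ap T) = (m' : ℂ)⁻¹ • ∑ k ∈ Finset.range m', (q.iter (k + 1)).ap T := by
      rw [h1, Av.ap_smul, Av.ap_sum]
      simp only [Av.iter_succ_ap]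
    have h5 : ∑ k ∈ Finset.range m', (q.iter (k + 1)).ap T - ∑ k ∈ Finset.range m', (q.iter k).ap T
        = (q.iter m').ap T - T := by
      rw [← Finset.sum_sub_distrib, Finset.sum_range_sub (fun k => (q.iter k).ap T),
        Av.iter_zero_ap]
    rw [h2, ← h5]
    conv_lhs => rw [h1]
    exact (smul_sub _ _ _).symm
  rw [e1, e2]
  have hm'' : (0 : ℝ) < m' := by exact_mod_cast hm0
  have hn : ‖(m' : ℂ)⁻¹ • ((q.iter m').ap T - T)‖ ≤ η := by
    rw [norm_smul, norm_inv, Complex.norm_natCast, inv_mul_le_iff₀ hm'']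
    have h3 : ‖(q.iter m').ap T - T‖ ≤ 2 * CT := by
      calc _ ≤ ‖(q.iter m').ap T‖ + ‖T‖ := norm_sub_le _ _
        _ ≤ ‖T‖ + ‖T‖ := add_le_add (Av.norm_ap_le _ _) le_rfl
        _ ≤ CT + CT := add_le_add hT hT
        _ = 2 * CT := by ring
    refine h3.trans ?_
    have h4 : 2 * CT / η < m' := by
      rw [hm']; push_cast; linarith
    rw [div_lt_iff₀ hη] at h4
    exact h4.le
  exact (ContinuousLinearMap.le_opNorm _ _).trans (mul_le_mul_of_nonneg_right hn (norm_nonneg _))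

end Crest.Agent.R121
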