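import Crest.Agent.R121.LJump
import Crest.Agent.R121.LAvg
import Crest.Agent.R121.FL2

/-!
# Row 121, module L, piece L4 (helper25): matrix coefficients

`mcf e z i k = ∑ j, e j i * z * e k j` is the matrix coefficient of `z` in the commutant of the
matrix units; `Yd e z i d = ∑ k, δ_k • mcf e z i k` the random row.

* `L4_identity` : `∑_{k,j} |Δ_kj(y)|₂² = ∑_i avg_d |T(Y_{i,d} y) - Y_{i,d} T y|₂²`.
* `exists_letters` : the letters of the (cut) rows, and the bound of `∑_{k,j} |Δ_kj(y)|₂²` by the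
  average of `|D_s(y)|₂²` over the letters and the error of the cut.
-/

set_option autoImplicit false
set_option linter.unusedSectionVars false

open Finset ComplexConjugate

namespace Crest.Agent.R121.LCoef

open LAvg Crest.Agent.R121

variable {A : Type*} [CStarAlgebra A] {K : ℕ} {e : Fin K → Fin K → A}

/-- the square of the 2-norm -/
noncomputable def nq (τ : A →ₗ[ℂ] ℂ) (a : A) : ℝ := (τ (star a * a)).re

/-- matrix coefficient of `z` in the commutant of the matrix units -/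
noncomputable def mcf (e : Fin K → Fin K → A) (z : A) (i k : Fin K) : A :=
  ∑ j, e j i * z * e k j

theorem mcf_comm (he : MU K e) (z : A) (i k a b : Fin K) :
    e a b * mcf e z i k = mcf e z i k * e a b := by
  unfold mcf
  rw [Finset.mul_sum, Finset.sum_mul]
  rw [Finset.sum_eq_single b, Finset.sum_eq_single a]
  · rw [← mul_assoc, ← mul_assoc, he.mul, mul_assoc (e a i * z), he.mul]
    simp
  · intro j _ hj
    rw [mul_assoc (e j i * z), he.mul, if_neg hj, mul_zero]
  · simp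
  · intro j _ hj
    rw [← mul_assoc, ← mul_assoc, he.mul, if_neg (Ne.symm hj), zero_mul, zero_mul]
  · simp

theorem mul_e_eq (he : MU K e) (z : A) (k j : Fin K) :
    z * e k j = ∑ i, e i j * mcf e z i k := by
  have h1 : ∀ i, e i j * mcf e z i k = e i i * (z * e k j) := by
    intro i
    unfold mcf
    rw [Finset.mul_sum, Finset.sum_eq_single j]
    · rw [← mul_assoc, ← mul_assoc, he.mul, if_pos rfl, mul_assoc]
    · intro l _ hl
      rw [← mul_assoc, ← mul_assoc, he.mul, if_neg (Ne.symm hl), zero_mul, zero_mul]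
    · simp
  rw [Finset.sum_congr rfl fun i _ => h1 i, ← Finset.sum_mul, he.one, one_mul]

theorem delta_sq (he : MU K e) (τ : A →ₗ[ℂ] ℂ) (G : Fin K → A) :
    ∑ j, nq τ (∑ i, e i j * G i) = ∑ i, nq τ (G i) := by
  have h1 : ∀ j, star (∑ i, e i j * G i) * (∑ i, e i j * G i) =
      ∑ i, star (G i) * e j j * G i := by
    intro j
    rw [star_sum, Finset.sum_mul_sum]
    refine Finset.sum_congr rfl fun i _ => ?_
    rw [Finset.sum_eq_single i]
    · rw [star_mul, he.star, mul_assoc, ← mul_assoc (e j i), he.mul, if_pos rfl, ← mul_assoc]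
    · intro l _ hl
      rw [star_mul, he.star, mul_assoc, ← mul_assoc (e j i), he.mul, if_neg (Ne.symm hl),
        zero_mul, mul_zero]
    · simp
  unfold nq
  rw [Finset.sum_congr rfl fun j _ => by rw [h1 j]]
  simp only [map_sum, Complex.re_sum]
  rw [Finset.sum_comm]
  refine Finset.sum_congr rfl fun i _ => ?_
  rw [← Complex.re_sum, ← map_sum, ← Finset.sum_mul, ← Finset.mul_sum, he.one, mul_one]

/-- the random row of `z` -/
noncomputable def Yd {Q : ℕ} [NeZero Q] (e : Fin K → Fin K → A) (z : A) (i : Fin K)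
    (d : Fin K → ZMod Q) : A :=
  ∑ k, (ZMod.stdAddChar (d k) : ℂ) • mcf e z i k

theorem Yd_comm {Q : ℕ} [NeZero Q] (he : MU K e) (z : A) (i : Fin K) (d : Fin K → ZMod Q)
    (a b : Fin K) : e a b * Yd e z i d = Yd e z i d * e a b := by
  unfold Yd
  rw [Finset.mul_sum, Finset.sum_mul]
  refine Finset.sum_congr rfl fun k _ => ?_
  rw [mul_smul_comm, smul_mul_assoc, mcf_comm he]

/-- exponents of the phases of a row -/
theorem exrow_injective {Q : ℕ} (hQ : 2 ≤ Q) :
    Function.Injective (fun k : Fin K => (Pi.single k 1 : Fin K → ZMod Q)) := by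
  intro k l h
  by_contra hkl
  have h1 := congrFun h k
  simp only [Pi.single_eq_same] at h1
  rw [Pi.single_eq_of_ne hkl] at h1
  have : Fact (1 < Q) := ⟨hQ⟩
  exact one_ne_zero h1

theorem row_parseval {Q : ℕ} [NeZero Q] (hQ : 2 ≤ Q) (τ : A →ₗ[ℂ] ℂ) (g : Fin K → A) :
    ∑ d : Fin K → ZMod Q, nq τ (∑ k, (ZMod.stdAddChar (d k) : ℂ) • g k) =
      (Fintype.card (Fin K → ZMod Q) : ℝ) * ∑ k, nq τ (g k) := by
  have h1 := phs_parseval (Q := Q) τ (fun k : Fin K => (Pi.single k 1 : Fin K → ZMod Q))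
    (exrow_injective hQ) g
  simp only [phs_single] at h1
  have h2 := congrArg Complex.re h1
  rw [Complex.re_sum] at h2
  unfold nq
  rw [h2]
  rw [← Complex.ofReal_natCast, Complex.re_ofReal_mul, Complex.re_sum]

/-- **L4, identity** -/
theorem L4_identity {Q : ℕ} [NeZero Q] (hQ : 2 ≤ Q) (τ : A →ₗ[ℂ] ℂ) (he : MU K e)
    (T : A →L[ℂ] A) (hT : Modular e T) (z y : A) :
    (Fintype.card (Fin K → ZMod Q) : ℝ) *
      ∑ k, ∑ j, nq τ (T (z * (e k j * y)) - z * (e k j * T y)) =
    ∑ i, ∑ d : Fin K → ZMod Q, nq τ (T (Yd e z i d * y) - Yd e z i d * T y) := by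
  have h1 : ∀ k j, T (z * (e k j * y)) - z * (e k j * T y) =
      ∑ i, e i j * (T (mcf e z i k * y) - mcf e z i k * T y) := by
    intro k j
    rw [← mul_assoc, ← mul_assoc, mul_e_eq he z k j, Finset.sum_mul, Finset.sum_mul, map_sum,
      ← Finset.sum_sub_distrib]
    refine Finset.sum_congr rfl fun i _ => ?_
    rw [mul_assoc, hT, mul_assoc, mul_sub]
  have h2 : ∀ i (d : Fin K → ZMod Q), T (Yd e z i d * y) - Yd e z i d * T y =
      ∑ k, (ZMod.stdAddChar (d k) : ℂ) • (T (mcf e z i k * y) - mcf e z i k * T y) := by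
    intro i d
    unfold Yd
    rw [Finset.sum_mul, Finset.sum_mul, map_sum, ← Finset.sum_sub_distrib]
    refine Finset.sum_congr rfl fun k _ => ?_
    rw [smul_mul_assoc, smul_mul_assoc, map_smul, smul_sub]
  simp only [h1, h2]
  rw [Finset.sum_congr rfl fun k _ => delta_sq he τ _]
  rw [Finset.sum_congr rfl fun i _ => row_parseval hQ τ _]
  rw [← Finset.mul_sum, Finset.sum_comm]

theorem nq_nonneg {τ : A →ₗ[ℂ] ℂ} (hpos : ∀ a, 0 ≤ (τ (star a * a)).re) (a : A) : 0 ≤ nq τ a :=
  hpos a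

theorem nq_add_le {τ : A →ₗ[ℂ] ℂ} (hpos : ∀ a, 0 ≤ (τ (star a * a)).re) (a b : A) :
    nq τ (a + b) ≤ 2 * nq τ a + 2 * nq τ b := by
  have h1 : star (a + b) * (a + b) + star (a - b) * (a - b) =
      (star a * a + star a * a) + (star b * b + star b * b) := by
    rw [star_add, star_sub]; noncomm_ring
  have h2 := congrArg (fun x => (τ x).re) h1
  simp only [map_add, Complex.add_re] at h2
  have h3 := hpos (a - b)
  unfold nq
  linarith

/-- the letters -/
abbrev Lt (I : Type*) (K Q : ℕ) : Type _ := (I × Fin K × (Fin K → ZMod Q)) × Fin 4 × Bool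

/-- **L4, bound**: letters `y` (unitaries commuting with the matrix units, closed under adjoint)
such that the defect of the `Δ_kj` is bounded by the average over the letters and the cut. -/
theorem exists_letters {Q : ℕ} [NeZero Q] [NeZero K] (hQ : 2 ≤ Q) (he : MU K e)
    (τ : A →ₗ[ℂ] ℂ) (hpos : ∀ a, 0 ≤ (τ (star a * a)).re)
    {I : Type*} [Fintype I] [Nonempty I] (z : I → A)
    (Y1 Y2 : I → Fin K → (Fin K → ZMod Q) → A) {C1 : ℝ}
    (hC : ∀ a i d, ‖Y1 a i d‖ ≤ C1) (hcomm : ∀ a i d j k, e j k * Y1 a i d = Y1 a i d * e j k)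
    (hY : ∀ a i d, Yd e (z a) i d = Y1 a i d + Y2 a i d) :
    ∃ y : Lt I K Q → A, (∀ s, y s ∈ unitary A) ∧ (∀ s i j, e i j * y s = y s * e i j) ∧
      (∀ p r b, y (p, r, !b) = star (y (p, r, b))) ∧
      ∀ (T : A →L[ℂ] A), Modular e T → ∀ (a : I) (x : A),
        ∑ k, ∑ j, nq τ (T (z a * (e k j * x)) - z a * (e k j * T x)) ≤
          K * (16 * Fintype.card I * C1 ^ 2 *
            ((Fintype.card (Lt I K Q) : ℝ)⁻¹ * ∑ s, nq τ (star (y s) * T (y s * x) - T x))) +
          2 * ((Fintype.card (Fin K → ZMod Q) : ℝ)⁻¹ *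
            ∑ i, ∑ d, nq τ (T (Y2 a i d * x) - Y2 a i d * T x)) := by
  classical
  -- the four unitaries of every row
  have hst : ∀ p : I × Fin K × (Fin K → ZMod Q),
      ∀ g ∈ (Set.range fun q : Fin K × Fin K => e q.1 q.2), g * Y1 p.1 p.2.1 p.2.2 =
        Y1 p.1 p.2.1 p.2.2 * g ∧ star g * Y1 p.1 p.2.1 p.2.2 = Y1 p.1 p.2.1 p.2.2 * star g := by
    rintro p _ ⟨q, rfl⟩
    refine ⟨hcomm _ _ _ _ _, ?_⟩
    simp only [he.star]
    exact hcomm _ _ _ _ _
  choose U hU hUc hUb using fun p : I × Fin K × (Fin K → ZMod Q) =>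
    gen_elem τ hpos _ _ (hst p)
  have hUc' : ∀ p r i j, e i j * U p r = U p r * e i j := fun p r i j => hUc p r _ ⟨(i, j), rfl⟩
  refine ⟨fun s => if s.2.2 then U s.1 s.2.1 else star (U s.1 s.2.1), ?_, ?_, ?_, ?_⟩
  · rintro ⟨p, r, b⟩
    cases b
    · simpa using Unitary.star_mem (hU p r)
    · simpa using hU p r
  · rintro ⟨p, r, b⟩ i j
    cases b
    · have h1 := congrArg star (hUc' p r j i)
      rw [star_mul, star_mul, he.star] at h1
      simpa using h1.symm
    · simpa using hUc' p r i j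
  · rintro p r b
    cases b <;> simp
  intro T hT a x
  set y : Lt I K Q → A := fun s => if s.2.2 then U s.1 s.2.1 else star (U s.1 s.2.1) with hy
  set N : ℝ := (Fintype.card (Fin K → ZMod Q) : ℝ) with hN
  have hNpos : 0 < N := by
    rw [hN]; exact_mod_cast Fintype.card_pos
  have hIpos : (0 : ℝ) < Fintype.card I := by exact_mod_cast Fintype.card_pos
  have hKpos : (0 : ℝ) < K := by exact_mod_cast Nat.pos_of_ne_zero (NeZero.ne K)
  set D : Lt I K Q → ℝ := fun s => nq τ (star (y s) * T (y s * x) - T x) with hD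
  have hD0 : ∀ s, 0 ≤ D s := fun s => hpos _
  have h1 := L4_identity hQ τ he T hT (z a) x
  rw [← hN] at h1
  have h2 : ∀ i d, nq τ (T (Yd e (z a) i d * x) - Yd e (z a) i d * T x) ≤
      2 * (C1 ^ 2 * ∑ r, D ((a, i, d), r, true)) +
        2 * nq τ (T (Y2 a i d * x) - Y2 a i d * T x) := by
    intro i d
    have e1 : T (Yd e (z a) i d * x) - Yd e (z a) i d * T x =
        (T (Y1 a i d * x) - Y1 a i d * T x) + (T (Y2 a i d * x) - Y2 a i d * T x) := by
      rw [hY, add_mul, add_mul, map_add]; abel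
    rw [e1]
    refine (nq_add_le hpos _ _).trans ?_
    have e2 : nq τ (T (Y1 a i d * x) - Y1 a i d * T x) ≤ C1 ^ 2 * ∑ r, D ((a, i, d), r, true) := by
      have e3 := hUb (a, i, d) T x
      refine le_trans e3 ?_
      have e4 : ∑ r, (τ (star (star (U (a, i, d) r) * T (U (a, i, d) r * x) - T x)
            * (star (U (a, i, d) r) * T (U (a, i, d) r * x) - T x))).re =
          ∑ r, D ((a, i, d), r, true) := by
        refine Finset.sum_congr rfl fun r _ => ?_
        simp [hD, hy, nq]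
      rw [e4]
      refine mul_le_mul_of_nonneg_right ?_ (Finset.sum_nonneg fun r _ => hD0 _)
      exact pow_le_pow_left₀ (norm_nonneg _) (hC a i d) 2
    linarith
  have h3 : ∑ i, ∑ d : Fin K → ZMod Q, ∑ r, D ((a, i, d), r, true) ≤ ∑ s, D s := by
    have e1 : ∑ s, D s = ∑ b : I, ∑ i, ∑ d : Fin K → ZMod Q, ∑ r, ∑ c, D ((b, i, d), r, c) := by
      simp only [Fintype.sum_prod_type]
    rw [e1]
    refine le_trans ?_ (Finset.single_le_sum (f := fun b : I => ∑ i, ∑ d : Fin K → ZMod Q,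
      ∑ r, ∑ c, D ((b, i, d), r, c)) (fun b _ => Finset.sum_nonneg fun i _ =>
        Finset.sum_nonneg fun d _ => Finset.sum_nonneg fun r _ => Finset.sum_nonneg fun c _ =>
          hD0 _) (Finset.mem_univ a))
    refine Finset.sum_le_sum fun i _ => Finset.sum_le_sum fun d _ => Finset.sum_le_sum fun r _ => ?_
    rw [Fintype.sum_bool]
    have := hD0 ((a, i, d), r, false)
    linarith
  have h4 : ∑ i, ∑ d : Fin K → ZMod Q, nq τ (T (Yd e (z a) i d * x) - Yd e (z a) i d * T x) ≤
      2 * C1 ^ 2 * ∑ s, D s +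
        2 * ∑ i, ∑ d, nq τ (T (Y2 a i d * x) - Y2 a i d * T x) := by
    refine (Finset.sum_le_sum fun i _ => Finset.sum_le_sum fun d _ => h2 i d).trans ?_
    simp only [Finset.sum_add_distrib, ← Finset.mul_sum]
    have : C1 ^ 2 * ∑ i, ∑ d : Fin K → ZMod Q, ∑ r, D ((a, i, d), r, true) ≤
        C1 ^ 2 * ∑ s, D s := mul_le_mul_of_nonneg_left h3 (sq_nonneg _)
    linarith
  rw [← h1] at h4
  have hcard : (Fintype.card (Lt I K Q) : ℝ) = 8 * Fintype.card I * K * N := by
    rw [hN]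
    simp only [Fintype.card_prod, Fintype.card_fin, Fintype.card_bool]
    push_cast
    ring
  have h5 : (K : ℝ) * (16 * Fintype.card I * C1 ^ 2 *
            ((Fintype.card (Lt I K Q) : ℝ)⁻¹ * ∑ s, D s)) = N⁻¹ * (2 * C1 ^ 2 * ∑ s, D s) := by
    rw [hcard]
    field_simp
    ring
  rw [h5]
  have h6 : ∑ k, ∑ j, nq τ (T (z a * (e k j * x)) - z a * (e k j * T x)) ≤
      N⁻¹ * (2 * C1 ^ 2 * ∑ s, D s +
        2 * ∑ i, ∑ d, nq τ (T (Y2 a i d * x) - Y2 a i d * T x)) := by
    rw [inv_mul_eq_div, le_div_iff₀ hNpos, mul_comm]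
    exact h4
  refine h6.trans (le_of_eq ?_)
  ring

end Crest.Agent.R121.LCoef
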