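import Crest.Agent.R121.LJump

/-!
# Row 121, module L: end step (jump lemma + powers estimate => Liouville estimate)
-/

set_option autoImplicit false

open Finset ComplexConjugate

namespace Crest.Agent.R121.LEnd

open Crest.Agent.R121.LJ

variable {A : Type*} [CStarAlgebra A] {τ : A →ₗ[ℂ] ℂ}

theorem nt_nonneg (a : A) : 0 ≤ nt τ a := Real.sqrt_nonneg _

theorem nt_sq (h : TrState τ) (a : A) : nt τ a ^ 2 = (τ (star a * a)).re :=
  Real.sq_sqrt (h.nonneg a)

theorem nt_star (h : TrState τ) (a : A) : nt τ (star a) = nt τ a := by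
  rw [nt, nt, star_star, h.tr]

theorem nt_unitary (u a : A) (hu : star u * u = 1) : nt τ (u * a) = nt τ a := by
  rw [nt, nt, star_mul, mul_assoc, ← mul_assoc (star u), hu, one_mul]

theorem tr_mul_le (h : TrState τ) (a b : A) : ‖τ (a * b)‖ ≤ nt τ a * nt τ b := by
  have := cs_tr h (star a) b
  rw [star_star] at this
  rw [← nt_star h a]
  rw [nt, nt, star_star]; exact this

theorem sum_le_of_avg_sq {ι : Type*} [Fintype ι] [Nonempty ι] (a : ι → ℝ) (δ : ℝ) (hδ : 0 ≤ δ)
    (h : ((Fintype.card ι : ℝ)⁻¹) * ∑ i, a i ^ 2 ≤ δ ^ 2) :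
    ∑ i, a i ≤ Fintype.card ι * δ := by
  have hc : (0 : ℝ) < Fintype.card ι := by exact_mod_cast Fintype.card_pos
  have h1 : (∑ i, a i) ^ 2 ≤ (Fintype.card ι : ℝ) * ∑ i, a i ^ 2 := by
    have := sq_sum_le_card_mul_sum_sq (s := (Finset.univ : Finset ι)) (f := a)
    rwa [Finset.card_univ] at this
  have h2 : ∑ i, a i ^ 2 ≤ Fintype.card ι * δ ^ 2 := by
    rwa [inv_mul_le_iff₀ hc] at h
  have h3 : (∑ i, a i) ^ 2 ≤ ((Fintype.card ι : ℝ) * δ) ^ 2 := by
    refine h1.trans ((mul_le_mul_of_nonneg_left h2 hc.le).trans (le_of_eq ?_))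
    ring
  exact (le_abs_self _).trans (abs_le_of_sq_le_sq h3 (by positivity))

theorem WW_isometry (w : unitary A) (n : ℤ) : star (WW w n) * WW w n = 1 := by
  rw [star_WW, WW_add, neg_add_cancel, WW_zero]

theorem WW_cancel (w : unitary A) (n : ℤ) : WW w n * WW w (-n) = 1 := by
  rw [WW_add, add_neg_cancel, WW_zero]

theorem WW_cancel' (w : unitary A) (n : ℤ) : WW w (-n) * WW w n = 1 := by
  rw [WW_add, neg_add_cancel, WW_zero]

/-- **end step** -/
theorem liou_end (h : TrState τ) (T : A →L[ℂ] A) (z : unitary A) {ι : Type*} [Fintype ι]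
    [Nonempty ι] (b : ι → unitary A)
    (hb' : ∀ i x, T (star (b i : A) * x) = star (b i : A) * T x)
    (x : A) (δ : ℝ) (hδ : 0 ≤ δ) (L : ℕ) (hL : 1 ≤ L)
    (H1 : ∀ n ∈ Icc 1 L, ((Fintype.card ι : ℝ)⁻¹) *
      ∑ i, nt τ (T (((z : A) * b i) ^ n * x) - ((z : A) * b i) ^ n * T x) ^ 2 ≤ δ ^ 2)
    (H2 : ∀ n < L, ((Fintype.card ι : ℝ)⁻¹) *
      ∑ i, nt τ (T ((star (z : A) * star (b i : A)) ^ n * (star (z : A) * x)) -
        (star (z : A) * star (b i : A)) ^ n * T (star (z : A) * x)) ^ 2 ≤ δ ^ 2) :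
    nt τ (T x - z * T (star (z : A) * x)) ≤
      (2 + 2 * Real.pi) * ‖T‖ * ‖x‖ / (∑ n ∈ Icc 1 L, (1 / n : ℝ)) + 2 * δ := by
  set D := T x - z * T (star (z : A) * x) with hD
  set hh := ∑ n ∈ Icc 1 L, (1 / n : ℝ) with hhh
  have hc : (0 : ℝ) < Fintype.card ι := by exact_mod_cast Fintype.card_pos
  have hhpos : 0 < hh := by
    refine sum_pos (fun n hn => ?_) ⟨1, mem_Icc.2 ⟨le_refl _, hL⟩⟩
    have := (mem_Icc.1 hn).1
    have : (0 : ℝ) < n := by exact_mod_cast this
    positivity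
  have hDn : nt τ (star D) = nt τ D := nt_star h D
  -- the two errors
  set X : ι → ℕ → A := fun i n => WW (z * b i) (-(n : ℤ)) * T (WW (z * b i) n * x) - T x with hX
  set Y : ι → ℕ → A := fun i n => WW (z * b i) n * T (WW (z * b i) (-(n : ℤ)) * x) -
    z * T (star (z : A) * x) with hY
  have hXn : ∀ i n, nt τ (X i n) =
      nt τ (T (((z : A) * b i) ^ n * x) - ((z : A) * b i) ^ n * T x) := by
    intro i n
    rw [← nt_unitary (WW (z * b i) n) (X i n) (WW_isometry _ _)]
    congr 1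
    rw [hX]
    show WW (z * b i) n * (WW (z * b i) (-(n : ℤ)) * T (WW (z * b i) n * x) - T x) = _
    rw [mul_sub, ← mul_assoc, WW_cancel, one_mul, WW_natCast]
    rfl
  have hYn : ∀ i n, nt τ (Y i (n + 1)) =
      nt τ (T ((star (z : A) * star (b i : A)) ^ n * (star (z : A) * x)) -
        (star (z : A) * star (b i : A)) ^ n * T (star (z : A) * x)) := by
    intro i n
    have hw : WW (z * b i) (-((n + 1 : ℕ) : ℤ)) =
        star (b i : A) * (star (z : A) * star (b i : A)) ^ n * star (z : A) := by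
      rw [WW_neg_natCast]
      have e1 : star ((z * b i : unitary A) : A) = star (b i : A) * star (z : A) := by
        rw [← star_mul]; rfl
      rw [e1]
      clear_value X Y D hh
      clear H1 H2 hXn
      induction n with
      | zero => simp
      | succ n ih =>
        rw [pow_succ, ih]
        have : (star (z : A) * star (b i : A)) ^ (n + 1) =
            (star (z : A) * star (b i : A)) ^ n * (star (z : A) * star (b i : A)) := pow_succ _ _
        rw [this]
        simp only [mul_assoc]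
    rw [← nt_unitary (WW (z * b i) (-((n + 1 : ℕ) : ℤ))) (Y i (n + 1)) (WW_isometry _ _)]
    have e2 : WW (z * b i) (-((n + 1 : ℕ) : ℤ)) * Y i (n + 1) =
        star (b i : A) * (T ((star (z : A) * star (b i : A)) ^ n * (star (z : A) * x)) -
        (star (z : A) * star (b i : A)) ^ n * T (star (z : A) * x)) := by
      show WW (z * b i) (-((n + 1 : ℕ) : ℤ)) * (WW (z * b i) ((n + 1 : ℕ) : ℤ) *
        T (WW (z * b i) (-((n + 1 : ℕ) : ℤ)) * x) - z * T (star (z : A) * x)) = _
      rw [mul_sub, ← mul_assoc, WW_cancel', one_mul, hw, mul_sub]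
      have hz := Unitary.mem_iff.1 z.2
      congr 1
      · rw [mul_assoc, mul_assoc, hb' i]
      · rw [mul_assoc, ← mul_assoc (star (z : A)), hz.1, one_mul, mul_assoc]
    rw [e2]
    refine nt_unitary _ _ ?_
    rw [star_star]
    exact (Unitary.mem_iff.1 (b i).2).2
  -- the jump lemma for each i
  have hJ : ∀ i, hh * nt τ D ^ 2 ≤ (2 + 2 * Real.pi) * ‖T‖ * ‖x‖ * nt τ D +
      ∑ n ∈ Icc 1 L, (1 / n : ℝ) * ((nt τ (X i n) + nt τ (Y i n)) * nt τ D) := by
    intro i
    have h1 := jumpWW h T (z * b i) x (star D) L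
    rw [hDn] at h1
    have h2 : ((hh * nt τ D ^ 2 : ℝ) : ℂ) = (∑ n ∈ Icc 1 L, ((1 / n : ℝ) : ℂ) *
      (τ (WW (z * b i) (-(n : ℤ)) * T (WW (z * b i) n * x) * star D) -
        τ (WW (z * b i) n * T (WW (z * b i) (-(n : ℤ)) * x) * star D))) -
        ∑ n ∈ Icc 1 L, ((1 / n : ℝ) : ℂ) * (τ (X i n * star D) - τ (Y i n * star D)) := by
      rw [← sum_sub_distrib]
      have e3 : ∀ n ∈ Icc 1 L, ((1 / n : ℝ) : ℂ) *
          (τ (WW (z * b i) (-(n : ℤ)) * T (WW (z * b i) n * x) * star D) -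
            τ (WW (z * b i) n * T (WW (z * b i) (-(n : ℤ)) * x) * star D)) -
          ((1 / n : ℝ) : ℂ) * (τ (X i n * star D) - τ (Y i n * star D)) =
          ((1 / n : ℝ) : ℂ) * τ (D * star D) := by
        intro n _
        rw [← mul_sub]
        congr 1
        rw [← map_sub, ← map_sub, ← map_sub]
        congr 1
        rw [← sub_mul, ← sub_mul, ← sub_mul]
        congr 1
        rw [hD]
        show _ - ((WW (z * b i) (-(n : ℤ)) * T (WW (z * b i) n * x) - T x) -
          (WW (z * b i) n * T (WW (z * b i) (-(n : ℤ)) * x) - z * T (star (z : A) * x))) = _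
        abel
      rw [sum_congr rfl e3, ← sum_mul, nt_sq h, h.tr D]
      have e4 : τ (star D * D) = (((τ (star D * D)).re : ℝ) : ℂ) := by
        have : conj (τ (star D * D)) = τ (star D * D) := by rw [← h.herm]; simp
        exact (Complex.conj_eq_iff_re.1 this).symm
      rw [e4, Complex.ofReal_re, ← Complex.ofReal_sum, ← Complex.ofReal_mul]
    have h3 : hh * nt τ D ^ 2 = ‖((hh * nt τ D ^ 2 : ℝ) : ℂ)‖ := by
      rw [Complex.norm_real, Real.norm_eq_abs, abs_of_nonneg (by positivity)]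
    rw [h3, h2]
    refine (norm_sub_le _ _).trans (add_le_add h1 ?_)
    refine norm_sum_le_of_le _ fun n _ => ?_
    rw [norm_mul, Complex.norm_real, Real.norm_eq_abs, abs_of_nonneg (by positivity)]
    refine mul_le_mul_of_nonneg_left ?_ (by positivity)
    refine (norm_sub_le _ _).trans ?_
    rw [add_mul]
    refine add_le_add ?_ ?_
    · refine (tr_mul_le h _ _).trans (le_of_eq ?_); rw [hDn]
    · refine (tr_mul_le h _ _).trans (le_of_eq ?_); rw [hDn]
  -- sum over i
  have hS := sum_le_sum (fun i (_ : i ∈ (univ : Finset ι)) => hJ i)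
  rw [sum_const, card_univ, nsmul_eq_mul, sum_add_distrib, sum_const, card_univ, nsmul_eq_mul,
    sum_comm] at hS
  have hE : ∑ n ∈ Icc 1 L, ∑ i, (1 / n : ℝ) * ((nt τ (X i n) + nt τ (Y i n)) * nt τ D) ≤
      ∑ n ∈ Icc 1 L, (1 / n : ℝ) * ((Fintype.card ι * (2 * δ)) * nt τ D) := by
    refine sum_le_sum fun n hn => ?_
    rw [← mul_sum, ← sum_mul, sum_add_distrib]
    refine mul_le_mul_of_nonneg_left ?_ (by positivity)
    refine mul_le_mul_of_nonneg_right ?_ (nt_nonneg _)
    have a1 : ∑ i, nt τ (X i n) ≤ Fintype.card ι * δ := by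
      refine sum_le_of_avg_sq _ δ hδ ?_
      simp only [hXn]
      exact H1 n hn
    have a2 : ∑ i, nt τ (Y i n) ≤ Fintype.card ι * δ := by
      refine sum_le_of_avg_sq _ δ hδ ?_
      obtain ⟨m, rfl⟩ : ∃ m, n = m + 1 := ⟨n - 1, by have := (mem_Icc.1 hn).1; omega⟩
      simp only [hYn]
      exact H2 m (by have := (mem_Icc.1 hn).2; omega)
    linarith
  rw [← sum_mul, ← hhh] at hE
  have hF : (Fintype.card ι : ℝ) * (hh * nt τ D ^ 2) ≤ Fintype.card ι *
      (((2 + 2 * Real.pi) * ‖T‖ * ‖x‖ + hh * (2 * δ)) * nt τ D) := by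
    refine (hS.trans (add_le_add_right hE _)).trans (le_of_eq ?_)
    ring
  have hG := le_of_mul_le_mul_left hF hc
  rcases (nt_nonneg (τ := τ) D).eq_or_lt with h0 | h0
  · rw [← h0]
    have : 0 ≤ (2 + 2 * Real.pi) * ‖T‖ * ‖x‖ := by positivity
    positivity
  · have hK : hh * nt τ D ≤ (2 + 2 * Real.pi) * ‖T‖ * ‖x‖ + hh * (2 * δ) := by
      refine le_of_mul_le_mul_right ?_ h0
      refine le_trans (le_of_eq ?_) hG
      ring
    rw [div_add' _ _ _ hhpos.ne', le_div_iff₀ hhpos]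
    linarith

end Crest.Agent.R121.LEnd
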