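import Mathlib

/-!
# Row 121, module L, piece L0: the kernel `∑_{n ≤ L} (w^n - w^{-n})/n` is uniformly bounded
-/

set_option autoImplicit false

open Finset

namespace Crest.Agent.R121

/-- summation by parts -/
theorem sin_tail_aux (θ : ℝ) (m : ℕ) : ∀ L : ℕ, m ≤ L →
    |2 * Real.sin (θ / 2) * ∑ n ∈ Ioc m L, Real.sin (n * θ) / n +
      Real.cos ((L + 1 / 2) * θ) / (L + 1) - Real.cos ((m + 1 / 2) * θ) / (m + 1)| ≤
      1 / ((m : ℝ) + 1) - 1 / ((L : ℝ) + 1) := by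
  intro L hL
  induction L, hL using Nat.le_induction with
  | base => simp
  | succ L hL ih =>
    have e : Ioc m (L + 1) = insert (L + 1) (Ioc m L) := by
      ext x; simp only [mem_Ioc, mem_insert]; omega
    rw [e, sum_insert (by simp)]
    have hL1 : ((L : ℝ) + 1) ≠ 0 := by positivity
    have hL2 : ((L : ℝ) + 1 + 1) ≠ 0 := by positivity
    have htrig : 2 * Real.sin (θ / 2) * Real.sin (((L + 1 : ℕ) : ℝ) * θ) =
        Real.cos ((L + 1 / 2) * θ) - Real.cos ((((L + 1 : ℕ) : ℝ) + 1 / 2) * θ) := by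
      have e1 : ((L : ℝ) + 1 / 2) * θ = ((L + 1 : ℕ) : ℝ) * θ - θ / 2 := by push_cast; ring
      have e2 : (((L + 1 : ℕ) : ℝ) + 1 / 2) * θ = ((L + 1 : ℕ) : ℝ) * θ + θ / 2 := by
        push_cast; ring
      rw [e1, e2, Real.cos_sub, Real.cos_add]
      ring
    have key : 2 * Real.sin (θ / 2) * (Real.sin (((L + 1 : ℕ) : ℝ) * θ) / ((L + 1 : ℕ) : ℝ) +
          ∑ n ∈ Ioc m L, Real.sin (n * θ) / n) +
        Real.cos ((((L + 1 : ℕ) : ℝ) + 1 / 2) * θ) / (((L + 1 : ℕ) : ℝ) + 1) -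
        Real.cos ((m + 1 / 2) * θ) / (m + 1) =
        (2 * Real.sin (θ / 2) * ∑ n ∈ Ioc m L, Real.sin (n * θ) / n +
          Real.cos ((L + 1 / 2) * θ) / (L + 1) - Real.cos ((m + 1 / 2) * θ) / (m + 1)) -
        Real.cos ((((L + 1 : ℕ) : ℝ) + 1 / 2) * θ) * (1 / ((L : ℝ) + 1) - 1 / ((L : ℝ) + 1 + 1)) := by
      have : 2 * Real.sin (θ / 2) * (Real.sin (((L + 1 : ℕ) : ℝ) * θ) / ((L + 1 : ℕ) : ℝ)) =
          (Real.cos ((L + 1 / 2) * θ) - Real.cos ((((L + 1 : ℕ) : ℝ) + 1 / 2) * θ)) /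
            ((L : ℝ) + 1) := by
        rw [← htrig]; push_cast; ring
      rw [mul_add, this]
      push_cast
      ring
    rw [key]
    have hc : |Real.cos ((((L + 1 : ℕ) : ℝ) + 1 / 2) * θ) *
        (1 / ((L : ℝ) + 1) - 1 / ((L : ℝ) + 1 + 1))| ≤ 1 / ((L : ℝ) + 1) - 1 / ((L : ℝ) + 1 + 1) := by
      have hpos : 0 ≤ 1 / ((L : ℝ) + 1) - 1 / ((L : ℝ) + 1 + 1) := by
        rw [sub_nonneg]
        exact one_div_le_one_div_of_le (by positivity) (by linarith)
      rw [abs_mul, abs_of_nonneg hpos]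
      exact mul_le_of_le_one_left hpos (Real.abs_cos_le_one _)
    have h3 := abs_sub (2 * Real.sin (θ / 2) * ∑ n ∈ Ioc m L, Real.sin (n * θ) / n +
          Real.cos ((L + 1 / 2) * θ) / (L + 1) - Real.cos ((m + 1 / 2) * θ) / (m + 1))
        (Real.cos ((((L + 1 : ℕ) : ℝ) + 1 / 2) * θ) * (1 / ((L : ℝ) + 1) - 1 / ((L : ℝ) + 1 + 1)))
    push_cast at h3 hc ⊢
    linarith

theorem sin_sum_le (θ : ℝ) (h0 : 0 ≤ θ) (h1 : θ ≤ Real.pi) (L : ℕ) :
    |∑ n ∈ Icc 1 L, Real.sin (n * θ) / n| ≤ 1 + Real.pi := by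
  rcases h0.eq_or_lt with rfl | h0
  · simp; positivity
  have hterm : ∀ n : ℕ, |Real.sin (n * θ) / n| ≤ θ := by
    intro n
    rcases Nat.eq_zero_or_pos n with rfl | hn
    · simpa using h0.le
    have hn' : (0 : ℝ) < n := by exact_mod_cast hn
    rw [abs_div, abs_of_pos hn', div_le_iff₀ hn']
    calc |Real.sin (n * θ)| ≤ |(n : ℝ) * θ| := Real.abs_sin_le_abs
      _ = θ * n := by rw [abs_of_pos (by positivity)]; ring
  have hfirst : ∀ m : ℕ, (m : ℝ) * θ ≤ 1 → |∑ n ∈ Icc 1 m, Real.sin (n * θ) / n| ≤ 1 := by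
    intro m hm
    calc |∑ n ∈ Icc 1 m, Real.sin (n * θ) / n| ≤ ∑ n ∈ Icc 1 m, |Real.sin (n * θ) / n| :=
          abs_sum_le_sum_abs _ _
      _ ≤ ∑ n ∈ Icc 1 m, θ := sum_le_sum fun n _ => hterm n
      _ = m * θ := by rw [sum_const, Nat.card_Icc, nsmul_eq_mul]; simp
      _ ≤ 1 := hm
  set m := ⌊1 / θ⌋₊ with hm
  have hm1 : (m : ℝ) * θ ≤ 1 := by
    have := Nat.floor_le (a := 1 / θ) (by positivity)
    calc (m : ℝ) * θ ≤ (1 / θ) * θ := mul_le_mul_of_nonneg_right this h0.le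
      _ = 1 := by field_simp
  have hm2 : 1 < ((m : ℝ) + 1) * θ := by
    have := Nat.lt_floor_add_one (1 / θ)
    calc (1 : ℝ) = (1 / θ) * θ := by field_simp
      _ < ((m : ℝ) + 1) * θ := mul_lt_mul_of_pos_right this h0
  rcases le_or_gt L m with hL | hL
  · have : (L : ℝ) * θ ≤ 1 := by
      have : (L : ℝ) ≤ m := by exact_mod_cast hL
      nlinarith
    have := hfirst L this
    have := Real.pi_pos
    linarith
  · have e : Icc 1 L = Icc 1 m ∪ Ioc m L := by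
      ext x; simp only [mem_Icc, mem_union, mem_Ioc]; omega
    have hd : Disjoint (Icc 1 m) (Ioc m L) := by
      rw [disjoint_left]; intro x hx hx'; simp only [mem_Icc, mem_Ioc] at hx hx'; omega
    rw [e, sum_union hd]
    refine (abs_add_le _ _).trans (add_le_add (hfirst m hm1) ?_)
    have haux := sin_tail_aux θ m L hL.le
    have hsin : θ / Real.pi ≤ Real.sin (θ / 2) := by
      have := Real.mul_le_sin (x := θ / 2) (by linarith) (by linarith)
      calc θ / Real.pi = 2 / Real.pi * (θ / 2) := by ring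
        _ ≤ _ := this
    have hsin0 : 0 < Real.sin (θ / 2) := lt_of_lt_of_le (by positivity) hsin
    have c1 : |Real.cos ((L + 1 / 2) * θ) / ((L : ℝ) + 1)| ≤ 1 / ((L : ℝ) + 1) := by
      rw [abs_div, abs_of_pos (by positivity : (0 : ℝ) < (L : ℝ) + 1)]
      exact div_le_div_of_nonneg_right (Real.abs_cos_le_one _) (by positivity)
    have c2 : |Real.cos ((m + 1 / 2) * θ) / ((m : ℝ) + 1)| ≤ 1 / ((m : ℝ) + 1) := by
      rw [abs_div, abs_of_pos (by positivity : (0 : ℝ) < (m : ℝ) + 1)]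
      exact div_le_div_of_nonneg_right (Real.abs_cos_le_one _) (by positivity)
    have h2 : |2 * Real.sin (θ / 2) * ∑ n ∈ Ioc m L, Real.sin (n * θ) / n| ≤
        2 / ((m : ℝ) + 1) := by
      have d1 := abs_le.1 haux
      have d2 := abs_le.1 c1
      have d3 := abs_le.1 c2
      have e2 : 2 / ((m : ℝ) + 1) = 1 / ((m : ℝ) + 1) + 1 / ((m : ℝ) + 1) := by ring
      rw [abs_le, e2]
      constructor <;> linarith [d1.1, d1.2, d2.1, d2.2, d3.1, d3.2]
    rw [abs_mul, abs_of_pos (by positivity : (0 : ℝ) < 2 * Real.sin (θ / 2))] at h2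
    have hm3 : 1 / ((m : ℝ) + 1) < θ := by
      rw [div_lt_iff₀ (by positivity)]; linarith
    have hpi := Real.pi_pos
    by_contra hcon
    push Not at hcon
    have h4 : 2 * (θ / Real.pi) * Real.pi < 2 * Real.sin (θ / 2) *
        |∑ n ∈ Ioc m L, Real.sin (n * θ) / n| := by
      calc 2 * (θ / Real.pi) * Real.pi ≤ 2 * Real.sin (θ / 2) * Real.pi := by
            have := mul_le_mul_of_nonneg_right hsin hpi.le
            linarith
        _ < _ := mul_lt_mul_of_pos_left hcon (by positivity)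
    have h5 : 2 * (θ / Real.pi) * Real.pi = 2 * θ := by field_simp
    have h6 : 2 / ((m : ℝ) + 1) = 2 * (1 / ((m : ℝ) + 1)) := by ring
    rw [h5] at h4
    rw [h6] at h2
    linarith

/-- scalar kernel bound on the unit circle -/
theorem ker_circle (z : ℂ) (hz : ‖z‖ = 1) (L : ℕ) :
    ‖∑ n ∈ Icc 1 L, ((1 / n : ℝ) : ℂ) * (z ^ n - (starRingEnd ℂ) z ^ n)‖ ≤
      2 + 2 * Real.pi := by
  set θ := Complex.arg z with hθ
  have hzexp : z = Complex.exp (θ * Complex.I) := by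
    have := Complex.norm_mul_exp_arg_mul_I z
    rw [hz] at this
    simpa using this.symm
  have hpow : ∀ n : ℕ, z ^ n - (starRingEnd ℂ) z ^ n = ((2 * Real.sin (n * θ) : ℝ) : ℂ) *
      Complex.I := by
    intro n
    have e1 : z ^ n = Complex.exp (((n * θ : ℝ) : ℂ) * Complex.I) := by
      rw [hzexp, ← Complex.exp_nat_mul]
      congr 1
      push_cast
      ring
    rw [← map_pow, e1, Complex.exp_mul_I]
    rw [← Complex.ofReal_cos, ← Complex.ofReal_sin]
    simp only [map_add, map_mul, Complex.conj_ofReal, Complex.conj_I]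
    push_cast
    ring
  have hsum : ∑ n ∈ Icc 1 L, ((1 / n : ℝ) : ℂ) * (z ^ n - (starRingEnd ℂ) z ^ n) =
      ((2 * ∑ n ∈ Icc 1 L, Real.sin (n * θ) / n : ℝ) : ℂ) * Complex.I := by
    rw [mul_sum, Complex.ofReal_sum, sum_mul]
    refine sum_congr rfl fun n _ => ?_
    rw [hpow]
    push_cast
    ring
  rw [hsum, norm_mul, Complex.norm_I, mul_one, Complex.norm_real, Real.norm_eq_abs, abs_mul,
    abs_of_pos (by norm_num : (0 : ℝ) < 2)]
  have hmain : |∑ n ∈ Icc 1 L, Real.sin (n * θ) / n| ≤ 1 + Real.pi := by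
    rcases le_total 0 θ with h | h
    · exact sin_sum_le θ h (Complex.arg_le_pi z) L
    · have := sin_sum_le (-θ) (by linarith) (by linarith [Complex.neg_pi_lt_arg z]) L
      have e : ∑ n ∈ Icc 1 L, Real.sin (n * -θ) / n = -∑ n ∈ Icc 1 L, Real.sin (n * θ) / n := by
        rw [← sum_neg_distrib]
        refine sum_congr rfl fun n _ => ?_
        rw [mul_neg, Real.sin_neg, neg_div]
      rwa [e, abs_neg] at this
  linarith

/-- **L0.** uniform bound for unitaries of a C*-algebra -/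
theorem ker_unitary {A : Type*} [CStarAlgebra A] (v : A) (hv : v ∈ unitary A) (L : ℕ) :
    ‖∑ n ∈ Icc 1 L, ((1 / n : ℝ) : ℂ) • (v ^ n - star v ^ n)‖ ≤ 2 + 2 * Real.pi := by
  have hn : IsStarNormal v := ⟨by
    rw [Commute, SemiconjBy, (Unitary.mem_iff.1 hv).1, (Unitary.mem_iff.1 hv).2]⟩
  have e : ∑ n ∈ Icc 1 L, ((1 / n : ℝ) : ℂ) • (v ^ n - star v ^ n) =
      cfc (fun z : ℂ => ∑ n ∈ Icc 1 L, ((1 / n : ℝ) : ℂ) * (z ^ n - (starRingEnd ℂ) z ^ n)) v := by
    have e0 : (fun z : ℂ => ∑ n ∈ Icc 1 L, ((1 / n : ℝ) : ℂ) * (z ^ n - (starRingEnd ℂ) z ^ n)) =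
        ∑ n ∈ Icc 1 L, fun z : ℂ => ((1 / n : ℝ) : ℂ) * (z ^ n - (starRingEnd ℂ) z ^ n) := by
      funext z; rw [Finset.sum_apply]
    rw [e0, cfc_sum (fun (n : ℕ) (z : ℂ) => ((1 / n : ℝ) : ℂ) * (z ^ n - (starRingEnd ℂ) z ^ n)) v
      (Icc 1 L) (fun n _ => by fun_prop)]
    refine sum_congr rfl fun n _ => ?_
    rw [cfc_const_mul _ _ v (by fun_prop), cfc_sub _ _ v (by fun_prop) (by fun_prop),
      cfc_pow_id (R := ℂ) v n]
    congr 2
    have := cfc_pow (fun z : ℂ => (starRingEnd ℂ) z) n v (by fun_prop)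
    rw [this]
    congr 1
    exact (cfc_star_id (R := ℂ) (a := v)).symm
  rw [e]
  refine norm_cfc_le (by positivity) fun z hz => ker_circle z ?_ L
  have := spectrum.subset_circle_of_unitary hv hz
  simpa using this

end Crest.Agent.R121
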