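import Crest.Agent.R121.LB
import Crest.Agent.R124.GTC

/-! ROW 121, LR: 2-norm continuity implies row/column continuity.
`R124.little_groth_cs` for `A → L²(A, τ)` (GNS of `τ`): `‖T b‖₂² ≤ 2 φ(b* b) + 2 ψ(b b*)` and
`φ(b) ≤ M √S` if `‖T(v b)‖₂ ≤ M` for all unitaries `v`, `ψ(b) ≤ M √S` if `‖T(b v)‖₂ ≤ M`;
for `0 ≤ b ≤ 1`, `τ(b) ≤ δ`: `q2 (v b) = τ(b²) ≤ δ`. -/

set_option autoImplicit false
open Finset

namespace Crest.Agent.R121

universe u
variable {A : Type u} [CStarAlgebra A] {τ : A →ₗ[ℂ] ℂ}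

open scoped ComplexOrder in
theorem rcn_of_tc (hτ : TrS τ) {T : A →L[ℂ] A} (hT : TC τ T) {ε : ℝ} (hε : 0 < ε) :
    ∃ δ : ℝ, 0 < δ ∧ RCN τ T ε δ := by
  let _ := CStarAlgebra.spectralOrder A
  have _ := CStarAlgebra.spectralOrderedRing A
  have : Nontrivial A := by
    refine ⟨⟨1, 0, fun h => ?_⟩⟩
    have h1 := hτ.one
    rw [h, map_zero] at h1
    exact zero_ne_one h1
  have hpos : ∀ a : A, 0 ≤ a → 0 ≤ τ a := by
    intro a ha
    obtain ⟨b, hb⟩ := CStarAlgebra.nonneg_iff_eq_star_mul_self.mp ha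
    rw [hb, tau_star_mul hτ]
    exact_mod_cast q2_nonneg hτ b
  let f : A →ₚ[ℂ] ℂ := PositiveLinearMap.mk₀ τ hpos
  have hf : ∀ a, f a = τ a := fun a => rfl
  let L : A →ₗ[ℂ] f.GNS :=
    (UniformSpace.Completion.toComplL (𝕜 := ℂ) (E := f.PreGNS)).toLinearMap ∘ₗ
      f.toPreGNS.toLinearMap ∘ₗ T.toLinearMap
  have hL : ∀ a, ‖L a‖ = n2 τ (T a) := by
    intro a
    have h1 : L a = ((f.toPreGNS (T a) : f.PreGNS) : f.GNS) := rfl
    rw [h1, UniformSpace.Completion.norm_coe, PositiveLinearMap.preGNS_norm_def]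
    rfl
  set R : ℝ := ‖T‖ + 1 with hR
  have hR0 : 0 < R := by have := norm_nonneg T; linarith
  have hvn : ∀ v ∈ unitary A, ‖v‖ ≤ 1 := fun v hv => (CStarRing.norm_of_mem_unitary hv).le
  have hS : ∀ v ∈ unitary A, ‖L v‖ ^ 2 ≤ R ^ 2 := by
    intro v hv
    rw [hL]
    have h1 : n2 τ (T v) ≤ R := by
      refine (n2_le_norm hτ _).trans ((T.le_opNorm v).trans ?_)
      have h2 := hvn v hv
      have h3 := norm_nonneg T
      nlinarith [norm_nonneg v]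
    exact pow_le_pow_left₀ (n2_nonneg _) h1 2
  obtain ⟨φ, ψ, -, -, h3, h4, h5⟩ := R124.little_groth_cs L hS
  have hRS : √(R ^ 2) = R := Real.sqrt_sq hR0.le
  rw [hRS] at h3 h4
  have hε' : 0 < ε / (4 * R) := by positivity
  obtain ⟨δ, hδ, hδ2⟩ := hT _ hε'
  have key : ∀ b : A, 0 ≤ b → ‖b‖ ≤ 1 → (τ b).re ≤ δ → q2 τ b ≤ δ := by
    intro b hb hb1 hbδ
    obtain ⟨c, hc⟩ := CStarAlgebra.nonneg_iff_eq_star_mul_self.mp hb
    have e1 : q2 τ (star c * c) ≤ ‖star c‖ ^ 2 * q2 τ c := q2_mul_left hτ _ _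
    have e2 : ‖star c‖ ^ 2 = ‖b‖ := by
      rw [hc, norm_star, CStarRing.norm_star_mul_self, sq]
    have e3 : q2 τ c = (τ b).re := by rw [q2, ← hc]
    rw [← hc, e2, e3] at e1
    have e4 : 0 ≤ (τ b).re := by rw [← e3]; exact q2_nonneg hτ c
    nlinarith
  refine ⟨δ, hδ, ?_⟩
  intro n y hy1 hy2 hy3
  have hb0 : 0 ≤ ∑ i, star (y i) * y i := Finset.sum_nonneg fun i _ => star_mul_self_nonneg _
  have hb0' : 0 ≤ ∑ i, y i * star (y i) := Finset.sum_nonneg fun i _ => mul_star_self_nonneg _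
  have hbδ : (τ (∑ i, star (y i) * y i)).re ≤ δ := by
    rw [map_sum, Complex.re_sum]
    exact hy3
  have hbδ' : (τ (∑ i, y i * star (y i))).re ≤ δ := by
    rw [map_sum, Complex.re_sum]
    refine le_trans (le_of_eq ?_) hy3
    refine Finset.sum_congr rfl fun i _ => ?_
    rw [q2, hτ.comm]
  have k1 := key _ hb0 hy1 hbδ
  have k2 := key _ hb0' hy2 hbδ'
  have m1 : (φ (∑ i, star (y i) * y i)).re ≤ ε / (4 * R) * R := by
    refine h3 _ hb0 _ fun v hv => ?_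
    rw [hL]
    refine hδ2 _ ?_ ?_
    · refine (norm_mul_le _ _).trans ?_
      exact mul_le_one₀ (hvn v hv) (norm_nonneg _) hy1
    · rw [q2_unitary_mul hv]
      exact k1
  have m2 : (ψ (∑ i, y i * star (y i))).re ≤ ε / (4 * R) * R := by
    refine h4 _ hb0' _ fun v hv => ?_
    rw [hL]
    refine hδ2 _ ?_ ?_
    · refine (norm_mul_le _ _).trans ?_
      exact mul_le_one₀ hy2 (norm_nonneg _) (hvn v hv)
    · rw [q2_mul_unitary hτ hv]
      exact k2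
  have e5 : ε / (4 * R) * R = ε / 4 := by field_simp
  rw [e5] at m1 m2
  have m3 : ∑ i, q2 τ (T (y i)) ≤
      2 * (φ (∑ i, star (y i) * y i)).re + 2 * (ψ (∑ i, y i * star (y i))).re := by
    rw [map_sum, map_sum, Complex.re_sum, Complex.re_sum, Finset.mul_sum, Finset.mul_sum,
      ← Finset.sum_add_distrib]
    refine Finset.sum_le_sum fun i _ => ?_
    have := h5 (y i)
    rwa [hL, n2_sq hτ] at this
  linarith

end Crest.Agent.R121
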