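import Crest.Agent.R121.L2
import Crest.Agent.R121.L4c
import Crest.Agent.R121.L5
import Crest.Agent.R121.L6
import Crest.Agent.R121.LR

/-! ROW 121, module L: the Liouville lemma (assembly, helper2). -/

set_option autoImplicit false
open Finset Filter

namespace Crest.Agent.R121

universe u
variable {A : Type u} [CStarAlgebra A] {τ : A →ₗ[ℂ] ℂ}

theorem hs_tendsto : Tendsto hs atTop atTop := Real.tendsto_sum_range_one_div_nat_succ_atTop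

theorem hs_pos {L : ℕ} (hL : 0 < L) : 0 < hs L := by
  have h1 : (1 / (((0 : ℕ) : ℝ) + 1)) ≤ hs L :=
    single_le_sum (f := fun n : ℕ => (1 / ((n : ℝ) + 1))) (fun i _ => by positivity)
      (mem_range.2 hL)
  have h2 : (0 : ℝ) < 1 / (((0 : ℕ) : ℝ) + 1) := by norm_num
  linarith

theorem RCN.mono {T : A →L[ℂ] A} {ε δ δ' : ℝ} (h : RCN τ T ε δ) (hd : δ' ≤ δ) : RCN τ T ε δ' :=
  fun n y h1 h2 h3 => h n y h1 h2 (h3.trans hd)

/-- the trivial average -/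
noncomputable def Av.id (A : Type u) [CStarAlgebra A] : Av A where
  n := 1
  u := fun _ => 1
  w := fun _ => 1
  hu := fun _ => one_mem _
  hw := fun _ => zero_le_one
  hs := by simp

/-- one stage: constants `E`, `CT` -/
theorem L_stage (hτ : TrS τ) {m : ℕ} (hm : 0 < m) (z : Fin m → A) (hz : ∀ l, z l ∈ unitary A)
    {Cf : ℝ} (hCf : 0 ≤ Cf) (hflat : ∀ K₀ : ℕ, ∃ K, K₀ ≤ K ∧ ∃ e : Fin K → Fin K → A, MUn e ∧
      ∀ l, flat τ e (z l) ≤ Cf) {r : ℕ} (T : Fin r → A →L[ℂ] A) (hT : ∀ a, TC τ (T a))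
    {CT E : ℝ} (hCT : 0 < CT) (hTn : ∀ a, ‖T a‖ ≤ CT) (hE : 0 < E) :
    ∃ (a : Av A) (K : ℕ) (e : Fin K → Fin K → A), 0 < K ∧ MUn e ∧
      ∀ t, Modu e (a.ap (T t)) ∧ ‖a.ap (T t)‖ ≤ CT ∧ ∀ l x, S2 τ e (a.ap (T t)) (z l) x ≤ E * ‖x‖ ^ 2 := by
  classical
  -- parameters of row/column continuity
  have h1 : ∀ t, ∃ δ : ℝ, 0 < δ ∧ RCN τ (T t) (E / 9) δ := fun t =>
    rcn_of_tc hτ (hT t) (by positivity)
  choose dl hdl0 hdl using h1
  obtain ⟨δ₀, hδ₀, hδ₀le⟩ : ∃ δ₀ : ℝ, 0 < δ₀ ∧ ∀ t, δ₀ ≤ dl t := by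
    have hs0 : 0 ≤ ∑ t, 1 / dl t := sum_nonneg fun t _ => (one_div_pos.2 (hdl0 t)).le
    refine ⟨1 / (∑ t, 1 / dl t + 1), by positivity, fun t => ?_⟩
    rw [div_le_iff₀ (by positivity)]
    have h2 : 1 / dl t ≤ ∑ t, 1 / dl t :=
      single_le_sum (f := fun t => 1 / dl t) (fun t _ => (one_div_pos.2 (hdl0 t)).le) (mem_univ t)
    have h3 : dl t * (1 / dl t) = 1 := by
      have := (hdl0 t).ne'
      field_simp
    have h4 := mul_le_mul_of_nonneg_left h2 (hdl0 t).le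
    have h5 := hdl0 t
    nlinarith
  have hR : ∀ t, RCN τ (T t) (E / 9) δ₀ := fun t => (hdl t).mono (hδ₀le t)
  -- truncation level
  set W : ℝ := (Cf + 1) * (1 / δ₀ + 9 * CT ^ 2 / E) with hW
  have hW0 : 0 < W := by positivity
  set C1 : ℝ := Real.sqrt W with hC1def
  have hC1 : 0 < C1 := Real.sqrt_pos.2 hW0
  have hC1s : C1 ^ 2 = W := Real.sq_sqrt hW0.le
  have hc1 : (Cf + 1) / C1 ^ 2 ≤ δ₀ := by
    rw [hC1s, div_le_iff₀ hW0, hW]
    have : δ₀ * ((Cf + 1) * (1 / δ₀ + 9 * CT ^ 2 / E)) = (Cf + 1) + δ₀ * (Cf + 1) * (9 * CT ^ 2 / E) := by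
      field_simp
    rw [this]
    have : 0 ≤ δ₀ * (Cf + 1) * (9 * CT ^ 2 / E) := by positivity
    linarith
  have hc2 : CT ^ 2 * ((Cf + 1) / C1 ^ 2) ≤ E / 9 := by
    rw [hC1s, ← mul_div_assoc, div_le_iff₀ hW0, hW]
    have : E / 9 * ((Cf + 1) * (1 / δ₀ + 9 * CT ^ 2 / E)) =
        CT ^ 2 * (Cf + 1) + E / 9 * (Cf + 1) * (1 / δ₀) := by
      field_simp
      ring
    rw [this]
    have : 0 ≤ E / 9 * (Cf + 1) * (1 / δ₀) := by positivity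
    linarith
  have hm' : (0 : ℝ) < m := by exact_mod_cast hm
  set B : ℝ := E / (72 * m * C1 ^ 2) with hB
  have hB0 : 0 < B := by positivity
  have hB1 : 8 * m * C1 ^ 2 * B = E / 9 := by
    rw [hB]; field_simp; norm_num
  -- the size of the matrix units
  have hsq : 0 < Real.sqrt (B / 2) := Real.sqrt_pos.2 (by positivity)
  obtain ⟨K₀, hK₀⟩ := (tendsto_atTop.1 hs_tendsto (20 * CT / Real.sqrt (B / 2))).exists_forall_of_atTop
  obtain ⟨K, hK, e, he, hfl⟩ := hflat (K₀ + 2)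
  have hK2 : 2 ≤ K := by omega
  have hKpos : 0 < K := by omega
  have hhs : 20 * CT / Real.sqrt (B / 2) ≤ hs (K - 1) := hK₀ (K - 1) (by omega)
  have hhs0 : 0 < hs (K - 1) := hs_pos (by omega)
  have hb1 : 20 * CT / hs (K - 1) ≤ Real.sqrt (B / 2) := by
    rw [div_le_iff₀ hsq] at hhs
    rw [div_le_iff₀ hhs0]
    linarith
  -- letters
  obtain ⟨S, _, _, y, inv, hy, hc, hinv, hys, hS⟩ := letters hτ hKpos he hm z hz hfl hC1
  have hK' : (0 : ℝ) < K := by exact_mod_cast hKpos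
  set η : ℝ := B * hs (K - 1) / (32 * K ^ 2 * CT) with hη
  have hη0 : 0 < η := by positivity
  obtain ⟨a1, ha1⟩ := exists_modu he
  obtain ⟨a2, ha2c, ha2⟩ := exists_harm (e := e) y hy hc (CT := CT) hη0
  obtain ⟨a, ha⟩ := Av.ap_ap a1 a2
  refine ⟨a, K, e, hKpos, he, fun t => ?_⟩
  have hmod : Modu e (a.ap (T t)) := by rw [ha]; exact a2.modu ha2c (ha1 _)
  have hnorm : ‖a.ap (T t)‖ ≤ CT := (a.norm_ap_le _).trans (hTn t)
  refine ⟨hmod, hnorm, fun l x => ?_⟩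
  have hrcn : RCN τ (a.ap (T t)) (E / 9) δ₀ := a.rcn hτ (hR t)
  have key := hS (a.ap (T t)) CT B (E / 9) δ₀ hmod hnorm hrcn hc1 (fun x => by
    have h1 := chain hτ hK2 he (a.ap (T t)) hmod y inv hy hc hinv hys hη0.le (fun x => by
      rw [ha]
      exact ha2 _ ((a1.norm_ap_le _).trans (hTn t)) x) x
    refine h1.trans ?_
    have h2 : (20 * ‖a.ap (T t)‖ * ‖x‖ / hs (K - 1)) ^ 2 ≤ B / 2 * ‖x‖ ^ 2 := by
      have h3 : 20 * ‖a.ap (T t)‖ * ‖x‖ / hs (K - 1) ≤ Real.sqrt (B / 2) * ‖x‖ := by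
        calc 20 * ‖a.ap (T t)‖ * ‖x‖ / hs (K - 1) ≤ 20 * CT * ‖x‖ / hs (K - 1) := by gcongr
          _ = 20 * CT / hs (K - 1) * ‖x‖ := by ring
          _ ≤ Real.sqrt (B / 2) * ‖x‖ := by gcongr
      calc (20 * ‖a.ap (T t)‖ * ‖x‖ / hs (K - 1)) ^ 2 ≤ (Real.sqrt (B / 2) * ‖x‖) ^ 2 := by gcongr
        _ = B / 2 * ‖x‖ ^ 2 := by rw [mul_pow, Real.sq_sqrt (by positivity)]
    have h4 : 16 * K ^ 2 * η * ‖a.ap (T t)‖ * ‖x‖ ^ 2 / hs (K - 1) ≤ B / 2 * ‖x‖ ^ 2 := by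
      calc 16 * K ^ 2 * η * ‖a.ap (T t)‖ * ‖x‖ ^ 2 / hs (K - 1) ≤
            16 * K ^ 2 * η * CT * ‖x‖ ^ 2 / hs (K - 1) := by gcongr
        _ = B / 2 * ‖x‖ ^ 2 := by rw [hη]; field_simp; ring
    linarith) l x
  refine key.trans ?_
  rw [hB1]
  have : 3 * (E / 9 + E / 9 + CT ^ 2 * ((Cf + 1) / C1 ^ 2)) ≤ E := by linarith
  gcongr

/-- **Liouville lemma** -/
theorem L_main (hτ : TrS τ) {m : ℕ} (z : Fin m → A) (hz : ∀ l, z l ∈ unitary A) {Cf : ℝ}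
    (hflat : ∀ K₀ : ℕ, ∃ K, K₀ ≤ K ∧ ∃ e : Fin K → Fin K → A, MUn e ∧
      ∀ l, flat τ e (z l) ≤ Cf ∧ flat τ e (star (z l)) ≤ Cf)
    {r : ℕ} (T : Fin r → A →L[ℂ] A) (hT : ∀ a, TC τ (T a)) {δ : ℝ} (hδ : 0 < δ) :
    ∃ a : Av A, ∀ l t x,
      n2 τ (a.ap (T t) x - z l * a.ap (T t) (star (z l) * x)) ≤ δ * ‖x‖ := by
  rcases Nat.eq_zero_or_pos m with rfl | hm
  · exact ⟨Av.id A, fun l => l.elim0⟩
  set CT : ℝ := 1 + ∑ t, ‖T t‖ with hCTd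
  have hCT : 0 < CT := by positivity
  have hTn : ∀ t, ‖T t‖ ≤ CT := fun t => by
    have : ‖T t‖ ≤ ∑ t, ‖T t‖ :=
      single_le_sum (f := fun t => ‖T t‖) (fun t _ => norm_nonneg _) (mem_univ t)
    linarith
  obtain ⟨L₀, hL₀⟩ := (tendsto_atTop.1 hs_tendsto (18 * CT / δ)).exists_forall_of_atTop
  set L := L₀ + 1 with hLd
  have hL : 0 < L := by omega
  have hhL : 18 * CT / δ ≤ hs L := hL₀ L (by omega)
  have hhL0 : 0 < hs L := hs_pos hL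
  have h9 : 9 * CT ≤ δ / 2 * hs L := by
    rw [div_le_iff₀ hδ] at hhL
    linarith
  obtain ⟨CL, hCL0, hCL⟩ := powers.{u} L hL
  set ε : ℝ := δ * hs L / (2 * (CL + 1)) with hε
  have hε0 : 0 < ε := by positivity
  have hCLε : CL * ε ≤ δ / 2 * hs L := by
    have h1 : (CL + 1) * ε = δ / 2 * hs L := by rw [hε]; field_simp
    nlinarith
  obtain ⟨a, K, e, hK, he, ha⟩ := L_stage hτ (m := m + m) (by omega)
    (Fin.append z fun l => star (z l)) (fun l => by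
      refine Fin.addCases (fun l => ?_) (fun l => ?_) l
      · rw [Fin.append_left]; exact hz l
      · rw [Fin.append_right]; exact Unitary.star_mem (hz l)) (Cf := |Cf|) (abs_nonneg _) (fun K₀ => by
      obtain ⟨K, hK, e, he, h⟩ := hflat K₀
      refine ⟨K, hK, e, he, fun l => ?_⟩
      refine Fin.addCases (fun l => ?_) (fun l => ?_) l
      · rw [Fin.append_left]; exact (h l).1.trans (le_abs_self _)
      · rw [Fin.append_right]; exact (h l).2.trans (le_abs_self _)) T hT hCT hTn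
    (E := ε ^ 2) (by positivity)
  refine ⟨a, fun l t x => ?_⟩
  obtain ⟨hmod, hnorm, hS⟩ := ha t
  have h1 : ∀ x, S2 τ e (a.ap (T t)) (z l) x ≤ ε ^ 2 * ‖x‖ ^ 2 := fun x => by
    have := hS (Fin.castAdd m l) x
    rwa [Fin.append_left] at this
  have h2 : ∀ x, S2 τ e (a.ap (T t)) (star (z l)) x ≤ ε ^ 2 * ‖x‖ ^ 2 := fun x => by
    have := hS (Fin.natAdd m l) x
    rwa [Fin.append_right] at this
  have h3 := hCL A τ hτ K hK e he (a.ap (T t)) hmod (z l) (hz l) ε hε0.le h1 h2 x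
  have h4 : (9 * ‖a.ap (T t)‖ + CL * ε) * ‖x‖ ≤ (hs L * δ) * ‖x‖ := by
    gcongr
    have : 9 * ‖a.ap (T t)‖ ≤ 9 * CT := by gcongr
    linarith
  have h5 : hs L * n2 τ (a.ap (T t) x - z l * a.ap (T t) (star (z l) * x)) ≤
      hs L * (δ * ‖x‖) := by linarith
  exact le_of_mul_le_mul_left h5 hhL0

end Crest.Agent.R121
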