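import Mathlib

/-!
# Row 121, module L, phases

Orthogonality of random phases and the decoupling inequality used in the powers lemma (L5 of
idea 555, GT-free version).
-/

set_option autoImplicit false

namespace Crest.Agent.R121.LPw

open Finset
open scoped ComplexConjugate InnerProductSpace

variable {K Q n : ℕ}

/-- monomial of the phases along a sequence of indices -/
noncomputable def mon (ω : ℂ) (p : Fin K → Fin Q) (k : Fin n → Fin K) : ℂ :=
  ∏ i, ω ^ (p (k i) : ℕ)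

/-- number of occurrences -/
def cnt (k : Fin n → Fin K) (a : Fin K) : ℕ := (univ.filter fun i => k i = a).card

theorem cnt_le (k : Fin n → Fin K) (a : Fin K) : cnt k a ≤ n := by
  unfold cnt
  exact (card_filter_le _ _).trans (by simp)

theorem mon_eq (ω : ℂ) (p : Fin K → Fin Q) (k : Fin n → Fin K) :
    mon ω p k = ∏ a, (ω ^ (p a : ℕ)) ^ cnt k a := by
  unfold mon cnt
  rw [← Finset.prod_fiberwise_of_maps_to (s := univ) (t := univ) (g := k)
    (f := fun i => ω ^ (p (k i) : ℕ)) (fun _ _ => mem_univ _)]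
  refine Finset.prod_congr rfl fun a _ => ?_
  rw [Finset.prod_congr rfl (g := fun _ => ω ^ (p a : ℕ))]
  · rw [Finset.prod_const]
  · intro i hi
    rw [(mem_filter.mp hi).2]

theorem norm_mon {ω : ℂ} (hω : ‖ω‖ = 1) (p : Fin K → Fin Q) (k : Fin n → Fin K) :
    ‖mon ω p k‖ = 1 := by
  unfold mon
  rw [norm_prod]
  simp [hω]

theorem sum_root {ω : ℂ} (hω : IsPrimitiveRoot ω Q) (hn : n < Q) {c c' : ℕ} (hc : c ≤ n)
    (hc' : c' ≤ n) (hcc : c ≠ c') (hω1 : ‖ω‖ = 1) :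
    ∑ q : Fin Q, (ω ^ (q : ℕ)) ^ c * conj ((ω ^ (q : ℕ)) ^ c') = 0 := by
  have h0 : ω ≠ 0 := by
    intro h
    rw [h] at hω1
    simp at hω1
  have hconj : conj ω = ω⁻¹ := by
    rw [Complex.inv_def, Complex.normSq_eq_norm_sq, hω1]
    simp
  set r : ℂ := ω ^ c * (ω⁻¹) ^ c' with hr
  have hterm : ∀ q : Fin Q, (ω ^ (q : ℕ)) ^ c * conj ((ω ^ (q : ℕ)) ^ c') = r ^ (q : ℕ) := by
    intro q
    rw [map_pow, map_pow, hconj, hr, mul_pow, ← pow_mul, ← pow_mul, ← pow_mul, ← pow_mul,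
      mul_comm (q : ℕ) c, mul_comm (q : ℕ) c']
  rw [Finset.sum_congr rfl fun q _ => hterm q]
  have hr1 : r ≠ 1 := by
    intro h
    rw [hr, inv_pow, ← div_eq_mul_inv, div_eq_one_iff_eq (pow_ne_zero _ h0)] at h
    exact hcc (hω.pow_inj (by omega) (by omega) h)
  have hrQ : r ^ Q = 1 := by
    rw [hr, mul_pow, ← pow_mul, ← pow_mul, mul_comm c Q, mul_comm c' Q, pow_mul, pow_mul,
      inv_pow, hω.pow_eq_one]
    simp
  rw [Fin.sum_univ_eq_sum_range (fun i => r ^ i) Q]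
  have := mul_neg_geom_sum r Q
  rw [hrQ, sub_self] at this
  rcases mul_eq_zero.mp this with h | h
  · exact absurd (sub_eq_zero.mp h).symm hr1
  · exact h

theorem sum_mon_zero {ω : ℂ} (hω : IsPrimitiveRoot ω Q) (hω1 : ‖ω‖ = 1) (hn : n < Q)
    {k k' : Fin n → Fin K} (h : ∃ a, cnt k a ≠ cnt k' a) :
    ∑ p : Fin K → Fin Q, mon ω p k * conj (mon ω p k') = 0 := by
  obtain ⟨a, ha⟩ := h
  have h1 : ∀ p : Fin K → Fin Q, mon ω p k * conj (mon ω p k') =
      ∏ b, ((ω ^ (p b : ℕ)) ^ cnt k b * conj ((ω ^ (p b : ℕ)) ^ cnt k' b)) := by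
    intro p
    rw [mon_eq, mon_eq, map_prod, ← Finset.prod_mul_distrib]
  rw [Finset.sum_congr rfl fun p _ => h1 p]
  have h2 := Finset.prod_univ_sum (fun _ : Fin K => (univ : Finset (Fin Q)))
    (fun b q => (ω ^ (q : ℕ)) ^ cnt k b * conj ((ω ^ (q : ℕ)) ^ cnt k' b))
  rw [Fintype.piFinset_univ] at h2
  rw [← h2]
  exact Finset.prod_eq_zero (mem_univ a)
    (sum_root hω hn (cnt_le k a) (cnt_le k' a) ha hω1)

theorem card_same_le (k : Fin n → Fin K) :
    (univ.filter fun k' : Fin n → Fin K => cnt k' = cnt k).card ≤ n ^ n := by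
  classical
  have h : ∀ k' ∈ (univ.filter fun k' : Fin n → Fin K => cnt k' = cnt k),
      ∃ σ : Fin n → Fin n, k' = k ∘ σ := by
    intro k' hk'
    have hk := (mem_filter.mp hk').2
    have hex : ∀ i, ∃ j, k j = k' i := by
      intro i
      have h1 : 0 < cnt k' (k' i) := by
        unfold cnt
        exact card_pos.mpr ⟨i, mem_filter.mpr ⟨mem_univ _, rfl⟩⟩
      rw [hk] at h1
      unfold cnt at h1
      obtain ⟨j, hj⟩ := card_pos.mp h1
      exact ⟨j, (mem_filter.mp hj).2⟩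
    choose σ hσ using hex
    exact ⟨σ, funext fun i => (hσ i).symm⟩
  have hsub : (univ.filter fun k' : Fin n → Fin K => cnt k' = cnt k) ⊆
      univ.image fun σ : Fin n → Fin n => k ∘ σ := by
    intro k' hk'
    obtain ⟨σ, hσ⟩ := h k' hk'
    exact mem_image.mpr ⟨σ, mem_univ _, hσ.symm⟩
  refine (card_le_card hsub).trans (card_image_le.trans ?_)
  simp

variable {E : Type*} [SeminormedAddCommGroup E] [InnerProductSpace ℂ E]

theorem norm_sq_sum {ι : Type*} (s : Finset ι) (c : ι → ℂ) (v : ι → E) :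
    ((‖∑ i ∈ s, c i • v i‖ ^ 2 : ℝ) : ℂ) =
      ∑ i ∈ s, ∑ j ∈ s, (conj (c i) * c j) * ⟪v i, v j⟫_ℂ := by
  have h := inner_self_eq_norm_sq_to_K (𝕜 := ℂ) (∑ i ∈ s, c i • v i)
  have h' : ((‖∑ i ∈ s, c i • v i‖ ^ 2 : ℝ) : ℂ) = (‖∑ i ∈ s, c i • v i‖ : ℂ) ^ 2 := by
    push_cast; rfl
  rw [h']
  have h3 : ((‖∑ i ∈ s, c i • v i‖ : ℝ) : ℂ) ^ 2 =
      ⟪∑ i ∈ s, c i • v i, ∑ i ∈ s, c i • v i⟫_ℂ := h.symm
  rw [h3, sum_inner]
  refine Finset.sum_congr rfl fun i _ => ?_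
  rw [inner_sum]
  refine Finset.sum_congr rfl fun j _ => ?_
  rw [inner_smul_left, inner_smul_right]
  ring

/-- the double sum formula -/
theorem avg_formula (ω : ℂ) (v : (Fin n → Fin K) → E) :
    ((∑ p : Fin K → Fin Q, ‖∑ k, mon ω p k • v k‖ ^ 2 : ℝ) : ℂ) =
      ∑ k, ∑ k', (∑ p : Fin K → Fin Q, mon ω p k' * conj (mon ω p k)) * ⟪v k, v k'⟫_ℂ := by
  push_cast
  have h1 : ∀ p : Fin K → Fin Q, ((‖∑ k, mon ω p k • v k‖ : ℝ) : ℂ) ^ 2 =
      ∑ k, ∑ k', (conj (mon ω p k) * mon ω p k') * ⟪v k, v k'⟫_ℂ := by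
    intro p
    have := norm_sq_sum univ (mon ω p) v
    push_cast at this
    exact this
  rw [Finset.sum_congr rfl fun p _ => h1 p, Finset.sum_comm]
  refine Finset.sum_congr rfl fun k _ => ?_
  rw [Finset.sum_comm]
  refine Finset.sum_congr rfl fun k' _ => ?_
  rw [Finset.sum_mul]
  refine Finset.sum_congr rfl fun p _ => ?_
  ring

/-- upper bound (decoupling) -/
theorem avg_le {ω : ℂ} (hω : IsPrimitiveRoot ω Q) (hω1 : ‖ω‖ = 1) (hn : n < Q)
    (v : (Fin n → Fin K) → E) :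
    ∑ p : Fin K → Fin Q, ‖∑ k, mon ω p k • v k‖ ^ 2 ≤
      (Q : ℝ) ^ K * ((n : ℝ) ^ n * ∑ k, ‖v k‖ ^ 2) := by
  classical
  have h1 := avg_formula (Q := Q) ω v
  have h2 : (∑ p : Fin K → Fin Q, ‖∑ k, mon ω p k • v k‖ ^ 2 : ℝ) =
      ∑ k, ∑ k', ((∑ p : Fin K → Fin Q, mon ω p k' * conj (mon ω p k)) * ⟪v k, v k'⟫_ℂ).re := by
    have := congrArg Complex.re h1
    rw [Complex.ofReal_re] at this
    rw [this]
    simp only [Complex.re_sum]
  rw [h2]
  have h3 : ∀ k k' : Fin n → Fin K,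
      ((∑ p : Fin K → Fin Q, mon ω p k' * conj (mon ω p k)) * ⟪v k, v k'⟫_ℂ).re ≤
        if cnt k' = cnt k then (Q : ℝ) ^ K * ((‖v k‖ ^ 2 + ‖v k'‖ ^ 2) / 2) else 0 := by
    intro k k'
    split_ifs with h
    · refine (Complex.re_le_norm _).trans ?_
      rw [norm_mul]
      have ha : ‖∑ p : Fin K → Fin Q, mon ω p k' * conj (mon ω p k)‖ ≤ (Q : ℝ) ^ K := by
        refine (norm_sum_le _ _).trans ?_
        have : ∀ p : Fin K → Fin Q, ‖mon ω p k' * conj (mon ω p k)‖ = 1 := by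
          intro p
          rw [norm_mul, RCLike.norm_conj, norm_mon hω1, norm_mon hω1, one_mul]
        rw [Finset.sum_congr rfl fun p _ => this p]
        simp
      have hb : ‖⟪v k, v k'⟫_ℂ‖ ≤ (‖v k‖ ^ 2 + ‖v k'‖ ^ 2) / 2 := by
        refine (norm_inner_le_norm _ _).trans ?_
        nlinarith [sq_nonneg (‖v k‖ - ‖v k'‖)]
      exact mul_le_mul ha hb (norm_nonneg _) (by positivity)
    · have : ∃ a, cnt k' a ≠ cnt k a := by
        by_contra hcon
        push Not at hcon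
        exact h (funext hcon)
      rw [sum_mon_zero hω hω1 hn this]
      simp
  refine (Finset.sum_le_sum fun k _ => Finset.sum_le_sum fun k' _ => h3 k k').trans ?_
  have h4 : ∑ k : Fin n → Fin K, ∑ k' : Fin n → Fin K,
      (if cnt k' = cnt k then (Q : ℝ) ^ K * ((‖v k‖ ^ 2 + ‖v k'‖ ^ 2) / 2) else 0) =
      (Q : ℝ) ^ K * ∑ k : Fin n → Fin K,
        ((univ.filter fun k' : Fin n → Fin K => cnt k' = cnt k).card : ℝ) * ‖v k‖ ^ 2 := by
    have hA : ∑ k : Fin n → Fin K, ∑ k' : Fin n → Fin K,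
        (if cnt k' = cnt k then ‖v k‖ ^ 2 else 0) =
        ∑ k : Fin n → Fin K,
        ((univ.filter fun k' : Fin n → Fin K => cnt k' = cnt k).card : ℝ) * ‖v k‖ ^ 2 := by
      refine Finset.sum_congr rfl fun k _ => ?_
      rw [← Finset.sum_filter, Finset.sum_const, nsmul_eq_mul]
    have hB : ∑ k : Fin n → Fin K, ∑ k' : Fin n → Fin K,
        (if cnt k' = cnt k then ‖v k'‖ ^ 2 else 0) =
        ∑ k : Fin n → Fin K,
        ((univ.filter fun k' : Fin n → Fin K => cnt k' = cnt k).card : ℝ) * ‖v k‖ ^ 2 := by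
      rw [← hA, Finset.sum_comm]
      refine Finset.sum_congr rfl fun k _ => Finset.sum_congr rfl fun k' _ => ?_
      by_cases h : cnt k = cnt k'
      · rw [if_pos h, if_pos h.symm]
      · rw [if_neg h, if_neg (Ne.symm h)]
    have hC : ∀ k k' : Fin n → Fin K,
        (if cnt k' = cnt k then (Q : ℝ) ^ K * ((‖v k‖ ^ 2 + ‖v k'‖ ^ 2) / 2) else 0) =
        (Q : ℝ) ^ K / 2 * (if cnt k' = cnt k then ‖v k‖ ^ 2 else 0) +
        (Q : ℝ) ^ K / 2 * (if cnt k' = cnt k then ‖v k'‖ ^ 2 else 0) := by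
      intro k k'
      split_ifs <;> ring
    rw [Finset.sum_congr rfl fun k _ => Finset.sum_congr rfl fun k' _ => hC k k']
    simp only [Finset.sum_add_distrib, ← Finset.mul_sum]
    rw [hA, hB]
    ring
  rw [h4]
  refine mul_le_mul_of_nonneg_left ?_ (by positivity)
  rw [Finset.mul_sum]
  refine Finset.sum_le_sum fun k _ => ?_
  refine mul_le_mul_of_nonneg_right ?_ (by positivity)
  exact_mod_cast card_same_le k

/-- exact orthogonality for sequences of length one -/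
theorem avg_eq {ω : ℂ} (hω : IsPrimitiveRoot ω Q) (hω1 : ‖ω‖ = 1) (hn : 1 < Q)
    (v : Fin K → E) :
    ∑ p : Fin K → Fin Q, ‖∑ k, ω ^ (p k : ℕ) • v k‖ ^ 2 =
      (Q : ℝ) ^ K * ∑ k, ‖v k‖ ^ 2 := by
  classical
  have hmon : ∀ (p : Fin K → Fin Q) (k : Fin K),
      ω ^ (p k : ℕ) = mon ω p (fun _ : Fin 1 => k) := by
    intro p k
    simp [mon]
  have hz : ∀ k k' : Fin K, k ≠ k' →
      ∑ p : Fin K → Fin Q, ω ^ (p k : ℕ) * conj (ω ^ (p k' : ℕ)) = 0 := by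
    intro k k' hk
    have := sum_mon_zero (K := K) hω hω1 hn (k := fun _ : Fin 1 => k)
      (k' := fun _ : Fin 1 => k') ⟨k, by
        unfold cnt
        simp [Ne.symm hk]⟩
    simpa only [← hmon] using this
  have h1 : ((∑ p : Fin K → Fin Q, ‖∑ k, ω ^ (p k : ℕ) • v k‖ ^ 2 : ℝ) : ℂ) =
      ∑ k, ∑ k', (∑ p : Fin K → Fin Q, ω ^ (p k' : ℕ) * conj (ω ^ (p k : ℕ))) *
        ⟪v k, v k'⟫_ℂ := by
    push_cast
    have h1 : ∀ p : Fin K → Fin Q, ((‖∑ k, ω ^ (p k : ℕ) • v k‖ : ℝ) : ℂ) ^ 2 =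
        ∑ k, ∑ k', (conj (ω ^ (p k : ℕ)) * ω ^ (p k' : ℕ)) * ⟪v k, v k'⟫_ℂ := by
      intro p
      have := norm_sq_sum univ (fun k => ω ^ (p k : ℕ)) v
      push_cast at this
      rw [this]
    rw [Finset.sum_congr rfl fun p _ => h1 p, Finset.sum_comm]
    refine Finset.sum_congr rfl fun k _ => ?_
    rw [Finset.sum_comm]
    refine Finset.sum_congr rfl fun k' _ => ?_
    rw [Finset.sum_mul]
    refine Finset.sum_congr rfl fun p _ => ?_
    ring
  have h2 : ∀ k k' : Fin K, (∑ p : Fin K → Fin Q, ω ^ (p k' : ℕ) * conj (ω ^ (p k : ℕ))) *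
        ⟪v k, v k'⟫_ℂ = if k' = k then ((Q : ℂ) ^ K) * ((‖v k‖ : ℂ) ^ 2) else 0 := by
    intro k k'
    split_ifs with h
    · subst h
      have : ∀ p : Fin K → Fin Q, ω ^ (p k' : ℕ) * conj (ω ^ (p k' : ℕ)) = 1 := by
        intro p
        rw [Complex.mul_conj, Complex.normSq_eq_norm_sq, norm_pow, hω1]
        simp
      rw [Finset.sum_congr rfl fun p _ => this p]
      have h3 : ⟪v k', v k'⟫_ℂ = ((‖v k'‖ : ℝ) : ℂ) ^ 2 := inner_self_eq_norm_sq_to_K _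
      rw [h3]
      simp
    · rw [hz k' k h, zero_mul]
  rw [Finset.sum_congr rfl fun k _ => Finset.sum_congr rfl fun k' _ => h2 k k'] at h1
  simp only [Finset.sum_ite_eq', mem_univ, if_true] at h1
  have h4 : ((∑ p : Fin K → Fin Q, ‖∑ k, ω ^ (p k : ℕ) • v k‖ ^ 2 : ℝ) : ℂ) =
      (((Q : ℝ) ^ K * ∑ k, ‖v k‖ ^ 2 : ℝ) : ℂ) := by
    rw [h1]
    push_cast
    rw [Finset.mul_sum]
  exact_mod_cast h4

end Crest.Agent.R121.LPw
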