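import Crest.Agent.R121.LPow2

/-! ROW 121, module L, piece L5: POWERS (helper83).

Main results: `pow_bound` (moments of `T ((z b)^(m+1) x) - z b T ((z b)^m x)`), `powers`
(`T x` and `z T (z* x)` are close if `T` almost commutes with `z e_kj`), `coeff_identity` (L4). -/

set_option autoImplicit false
set_option linter.unusedSectionVars false

namespace Crest.Agent.R121.LP

open scoped BigOperators ComplexConjugate

variable {A : Type*} [CStarAlgebra A] {ι : Type*} [Fintype ι] [DecidableEq ι]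

/-- `x ↦ T (y x) - y T x` -/
noncomputable def dl (T : A →ₗ[ℂ] A) (y : A) : A →ₗ[ℂ] A :=
  T ∘ₗ LinearMap.mulLeft ℂ y - LinearMap.mulLeft ℂ y ∘ₗ T

theorem dl_apply (T : A →ₗ[ℂ] A) (y x : A) : dl T y x = T (y * x) - y * T x := rfl

theorem dl_sum (T : A →ₗ[ℂ] A) {α : Type*} (s : Finset α) (c : α → ℂ) (y : α → A) (x : A) :
    dl T (∑ i ∈ s, c i • y i) x = ∑ i ∈ s, c i • dl T (y i) x := by
  simp only [dl_apply, Finset.sum_mul, map_sum, smul_mul_assoc, map_smul, smul_sub,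
    Finset.sum_sub_distrib]

/-- words -/
noncomputable def VV (T : A →ₗ[ℂ] A) (e : ι → ι → A) (z : A) :
    (m : ℕ) → (Fin (m + 1) → ι × ι) → A →ₗ[ℂ] A
  | 0, s => dl T (z * e (s 0).1 (s 0).2)
  | m + 1, s => (VV T e z m (Fin.tail s)) ∘ₗ LinearMap.mulLeft ℂ (z * e (s 0).1 (s 0).2)

variable (Q : ℕ) [NeZero Q] {e : ι → ι → A} {φ : ι → ι → ℂ} {τ : A →ₗ[ℂ] ℂ}

theorem mul_bb (z : A) (ω : Om ι Q) : z * bb Q e φ ω =
    ∑ p : ι × ι, (φ p.1 p.2 * ch1 Q p ω) • (z * e p.1 p.2) := by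
  unfold bb
  rw [Finset.mul_sum]
  simp only [mul_smul_comm]

/-- expansion of powers -/
theorem expand (T : A →ₗ[ℂ] A) (z : A) (ω : Om ι Q) (m : ℕ) : ∀ x : A,
    dl T (z * bb Q e φ ω) ((z * bb Q e φ ω) ^ m * x) =
      ∑ s : Fin (m + 1) → ι × ι, chs Q s ω • ((∏ i, φ (s i).1 (s i).2) • VV T e z m s x) := by
  induction m with
  | zero =>
    intro x
    rw [pow_zero, one_mul, mul_bb, dl_sum]
    refine Fintype.sum_equiv (Equiv.funUnique (Fin 1) (ι × ι)).symm _ _ fun p => ?_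
    simp only [VV, Equiv.funUnique_symm_apply, uniqueElim_const, Finset.prod_const,
      Finset.card_univ, Fintype.card_fin, zero_add, pow_one, chs, smul_smul]
    rw [mul_comm]
  | succ m ih =>
    intro x
    set w := z * bb Q e φ ω with hw
    have h1 : w ^ (m + 1) * x = w ^ m * (w * x) := by rw [pow_succ, mul_assoc]
    have h2 : w * x = ∑ p : ι × ι, (φ p.1 p.2 * ch1 Q p ω) • (z * e p.1 p.2 * x) := by
      rw [hw, mul_bb, Finset.sum_mul]
      simp only [smul_mul_assoc]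
    rw [h1, ih (w * x), ← (Fin.consEquiv (fun _ : Fin (m + 2) => ι × ι)).sum_comp,
      Fintype.sum_prod_type, Finset.sum_comm]
    refine Finset.sum_congr rfl fun s _ => ?_
    rw [h2, map_sum, Finset.smul_sum, Finset.smul_sum]
    refine Finset.sum_congr rfl fun p _ => ?_
    have h3 : (Fin.consEquiv (fun _ : Fin (m + 2) => ι × ι)) (p, s) =
      (Fin.cons p s : Fin (m + 2) → ι × ι) := rfl
    have h5 : ∏ i, φ ((Fin.cons p s : Fin (m + 2) → ι × ι) i).1
        ((Fin.cons p s : Fin (m + 2) → ι × ι) i).2 =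
        φ p.1 p.2 * ∏ i, φ (s i).1 (s i).2 := by
      rw [Fin.prod_univ_succ]; rfl
    rw [h3, chs_cons, h5]
    simp only [Fin.cons_zero, VV, Fin.tail_cons, LinearMap.comp_apply,
      LinearMap.mulLeft_apply, map_smul, smul_smul, AddChar.mul_apply]
    congr 1
    ring

/-- one level orthogonality -/
theorem level (hφ : Phi φ) (hQ : 2 ≤ Q) (L : A →ₗ[ℂ] A) :
    ∑ ω, n2 τ (L (bb Q e φ ω)) =
      Fintype.card (Om ι Q) * ((1 / Fintype.card ι : ℝ) * ∑ p : ι × ι, n2 τ (L (e p.1 p.2))) := by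
  have h1 : ∀ ω, L (bb Q e φ ω) = ∑ p : ι × ι, ch1 Q p ω • (φ p.1 p.2 • L (e p.1 p.2)) := by
    intro ω
    unfold bb
    rw [map_sum]
    refine Finset.sum_congr rfl fun p _ => ?_
    rw [map_smul, smul_smul, mul_comm]
  simp only [h1]
  rw [ortho_inj (ch1 Q) (ch1_inj Q hQ)]
  simp only [n2_smul, hφ.nrm, ← Finset.mul_sum]

theorem norm_le_one_of {u : A} (h : star u * u = 1) : ‖u‖ ≤ 1 := by
  have h1 : ‖u‖ * ‖u‖ = ‖(1 : A)‖ := by rw [← CStarRing.norm_star_mul_self, h]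
  rcases subsingleton_or_nontrivial A with hs | hs
  · have : u = 0 := Subsingleton.elim _ _
    rw [this, norm_zero]; norm_num
  · rw [CStarRing.norm_one] at h1
    nlinarith [norm_nonneg u]

theorem norm_mul_le_of {u : A} (h : star u * u = 1) (x : A) : ‖u * x‖ ≤ ‖x‖ :=
  (norm_mul_le _ _).trans (by
    have := norm_le_one_of h
    nlinarith [norm_nonneg x, norm_nonneg u])

/-- the sum over all words -/
theorem words (he : MU e) (hφ : Phi φ) (hQ : 2 ≤ Q)
    [Nonempty ι] (T : A →ₗ[ℂ] A) (z : A) (hz : star z * z = 1) (ε : ℝ)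
    (hε : ∀ x, ∑ p : ι × ι, n2 τ (dl T (z * e p.1 p.2) x) ≤ Fintype.card ι * (ε ^ 2 * ‖x‖ ^ 2))
    (m : ℕ) : ∀ x : A, ∑ s : Fin (m + 1) → ι × ι, n2 τ (VV T e z m s x) ≤
      (Fintype.card ι : ℝ) ^ (m + 1) * (ε ^ 2 * ‖x‖ ^ 2) := by
  have hK : (0 : ℝ) < Fintype.card ι := by exact_mod_cast Fintype.card_pos
  have hO : (0 : ℝ) < Fintype.card (Om ι Q) := by exact_mod_cast Fintype.card_pos
  induction m with
  | zero =>
    intro x
    have h0 : ∑ s : Fin (0 + 1) → ι × ι, n2 τ (VV T e z 0 s x) =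
        ∑ p : ι × ι, n2 τ (dl T (z * e p.1 p.2) x) := by
      refine (Fintype.sum_equiv (Equiv.funUnique (Fin 1) (ι × ι)).symm _ _ fun p => ?_).symm
      simp [VV]
    rw [h0, zero_add, pow_one]
    exact hε x
  | succ m ih =>
    intro x
    rw [← (Fin.consEquiv (fun _ : Fin (m + 2) => ι × ι)).sum_comp, Fintype.sum_prod_type,
      Finset.sum_comm]
    have h1 : ∀ s : Fin (m + 1) → ι × ι,
        ∑ p : ι × ι, n2 τ (VV T e z (m + 1)
          ((Fin.consEquiv (fun _ : Fin (m + 2) => ι × ι)) (p, s)) x) =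
        Fintype.card ι / Fintype.card (Om ι Q) *
          ∑ ω : Om ι Q, n2 τ (VV T e z m s (z * (bb Q e φ ω * x))) := by
      intro s
      have h2 := level (τ := τ) (e := e) Q hφ hQ
        ((VV T e z m s) ∘ₗ (LinearMap.mulLeft ℂ z) ∘ₗ (LinearMap.mulRight ℂ x))
      have h3 : ∀ p : ι × ι, VV T e z (m + 1)
          ((Fin.consEquiv (fun _ : Fin (m + 2) => ι × ι)) (p, s)) x =
          ((VV T e z m s) ∘ₗ (LinearMap.mulLeft ℂ z) ∘ₗ (LinearMap.mulRight ℂ x))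
            (e p.1 p.2) := by
        intro p
        have h4 : (Fin.consEquiv (fun _ : Fin (m + 2) => ι × ι)) (p, s) =
          (Fin.cons p s : Fin (m + 2) → ι × ι) := rfl
        rw [h4]
        simp only [VV, Fin.tail_cons, Fin.cons_zero, LinearMap.comp_apply,
          LinearMap.mulLeft_apply, LinearMap.mulRight_apply, mul_assoc]
      simp only [h3]
      have h5 : ∀ ω, ((VV T e z m s) ∘ₗ (LinearMap.mulLeft ℂ z) ∘ₗ (LinearMap.mulRight ℂ x))
          (bb Q e φ ω) = VV T e z m s (z * (bb Q e φ ω * x)) := fun ω => rfl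
      simp only [h5] at h2
      rw [h2]
      field_simp
    rw [Finset.sum_congr rfl fun s _ => h1 s, ← Finset.mul_sum, Finset.sum_comm]
    have h6 : ∀ ω : Om ι Q, ∑ s : Fin (m + 1) → ι × ι,
        n2 τ (VV T e z m s (z * (bb Q e φ ω * x))) ≤
        (Fintype.card ι : ℝ) ^ (m + 1) * (ε ^ 2 * ‖x‖ ^ 2) := by
      intro ω
      refine (ih _).trans ?_
      have h7 : ‖z * (bb Q e φ ω * x)‖ ≤ ‖x‖ :=
        (norm_mul_le_of hz _).trans (norm_mul_le_of (bb_star_mul Q he hφ ω) _)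
      have h8 : ‖z * (bb Q e φ ω * x)‖ ^ 2 ≤ ‖x‖ ^ 2 := pow_le_pow_left₀ (norm_nonneg _) h7 2
      have h9 : 0 ≤ (Fintype.card ι : ℝ) ^ (m + 1) * ε ^ 2 := by positivity
      nlinarith [mul_le_mul_of_nonneg_left h8 h9]
    have h10 := Finset.sum_le_sum fun (ω : Om ι Q) (_ : ω ∈ Finset.univ) => h6 ω
    rw [Finset.sum_const, nsmul_eq_mul, Finset.card_univ] at h10
    calc _ ≤ (Fintype.card ι : ℝ) / Fintype.card (Om ι Q) * (Fintype.card (Om ι Q) *
          ((Fintype.card ι : ℝ) ^ (m + 1) * (ε ^ 2 * ‖x‖ ^ 2))) :=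
          mul_le_mul_of_nonneg_left h10 (by positivity)
      _ = _ := by field_simp; ring

/-- POWERS: second moment of `T (w^(m+1) x) - w T (w^m x)`, `w = z b(ω)` -/
theorem pow_bound (hp : ∀ a, 0 ≤ (τ (star a * a)).re) (he : MU e) (hφ : Phi φ)
    [Nonempty ι] (T : A →ₗ[ℂ] A) (z : A) (hz : star z * z = 1) (ε : ℝ)
    (hε : ∀ x, ∑ p : ι × ι, n2 τ (dl T (z * e p.1 p.2) x) ≤ Fintype.card ι * (ε ^ 2 * ‖x‖ ^ 2))
    (m : ℕ) (hQ : m + 1 < Q) (x : A) :
    ∑ ω : Om ι Q, n2 τ (dl T (z * bb Q e φ ω) ((z * bb Q e φ ω) ^ m * x)) ≤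
      Fintype.card (Om ι Q) * (((m + 1).factorial : ℝ) ^ 2 * (ε ^ 2 * ‖x‖ ^ 2)) := by
  have hK : (0 : ℝ) < Fintype.card ι := by exact_mod_cast Fintype.card_pos
  simp only [expand]
  refine (ortho_le hp _ _ _ (fun s => chs_count Q hQ s)).trans ?_
  have h1 : ∀ s : Fin (m + 1) → ι × ι,
      n2 τ ((∏ i, φ (s i).1 (s i).2) • VV T e z m s x) =
        (1 / (Fintype.card ι : ℝ)) ^ (m + 1) * n2 τ (VV T e z m s x) := by
    intro s
    rw [n2_smul, norm_prod, ← Finset.prod_pow]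
    simp only [hφ.nrm, Finset.prod_const, Finset.card_univ, Fintype.card_fin]
  simp only [h1]
  rw [← Finset.mul_sum]
  have h2 := words Q he hφ (by omega) T z hz ε hε m x
  have h3 : (1 / (Fintype.card ι : ℝ)) ^ (m + 1) *
      ∑ s : Fin (m + 1) → ι × ι, n2 τ (VV T e z m s x) ≤ ε ^ 2 * ‖x‖ ^ 2 := by
    calc _ ≤ (1 / (Fintype.card ι : ℝ)) ^ (m + 1) *
          ((Fintype.card ι : ℝ) ^ (m + 1) * (ε ^ 2 * ‖x‖ ^ 2)) :=
          mul_le_mul_of_nonneg_left h2 (by positivity)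
      _ = _ := by
          rw [one_div, inv_pow]; field_simp
  calc _ ≤ ((m + 1).factorial : ℝ) ^ 2 * Fintype.card (Om ι Q) * (ε ^ 2 * ‖x‖ ^ 2) :=
        mul_le_mul_of_nonneg_left h3 (by positivity)
    _ = _ := by ring

end Crest.Agent.R121.LP
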