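import Mathlib

/-! ROW 121, module L: squared 2-norm of a tracial state, orthogonality over finite characters.
(helper83) -/

set_option autoImplicit false

namespace Crest.Agent.R121.LP

open scoped BigOperators ComplexConjugate

variable {A : Type*} [CStarAlgebra A]

/-- squared 2-norm -/
noncomputable def n2 (τ : A →ₗ[ℂ] ℂ) (x : A) : ℝ := (τ (star x * x)).re

section basic

variable (τ : A →ₗ[ℂ] ℂ)

theorem herm_sa (h1 : τ 1 = 1) (hn : ∀ a, ‖τ a‖ ≤ ‖a‖) (a : A) (ha : star a = a) :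
    (τ a).im = 0 := by
  by_contra hne
  have key : ∀ t : ℝ, ((τ a).im + t) ^ 2 ≤ ‖a‖ ^ 2 + t ^ 2 := by
    intro t
    set b : A := a + (t * Complex.I) • (1 : A) with hb
    have e1 : star b * b = a * a + ((t : ℂ) ^ 2) • (1 : A) := by
      have e2 : (star ((t : ℂ) * Complex.I)) = -((t : ℂ) * Complex.I) := by
        simp
      rw [hb, star_add, star_smul, ha, star_one, e2]
      have e3 : (t : ℂ) ^ 2 = -(((t : ℂ) * Complex.I) * ((t : ℂ) * Complex.I)) := by
        ring_nf; simp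
      rw [e3]
      generalize (t : ℂ) * Complex.I = c
      rw [neg_smul, neg_smul, add_mul, mul_add, Algebra.mul_smul_comm, mul_one,
        neg_mul, mul_add, Algebra.smul_mul_assoc, Algebra.smul_mul_assoc, one_mul, one_mul,
        smul_smul]
      abel
    have e4 : ‖b‖ ^ 2 ≤ ‖a‖ ^ 2 + t ^ 2 := by
      have : ‖b‖ ^ 2 = ‖star b * b‖ := by rw [CStarRing.norm_star_mul_self, sq]
      rw [this, e1]
      refine (norm_add_le _ _).trans ?_
      refine add_le_add ?_ ?_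
      · rw [sq]; exact norm_mul_le _ _
      · rw [norm_smul]
        have h3 : ‖((t : ℂ) ^ 2)‖ = t ^ 2 := by simp
        rw [h3]
        rcases subsingleton_or_nontrivial A with hs | hs
        · have : (1 : A) = 0 := Subsingleton.elim _ _
          rw [this, norm_zero, mul_zero]; positivity
        · rw [CStarRing.norm_one, mul_one]
    have e5 : ‖τ b‖ ^ 2 ≤ ‖b‖ ^ 2 := pow_le_pow_left₀ (norm_nonneg _) (hn b) 2
    have e6 : (τ b).im = (τ a).im + t := by
      rw [hb, map_add, map_smul, h1]; simp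
    have e7 : (τ b).im ^ 2 ≤ ‖τ b‖ ^ 2 := by
      rw [← sq_abs]
      exact pow_le_pow_left₀ (abs_nonneg _) (Complex.abs_im_le_norm _) 2
    rw [← e6]; linarith
  have h2 := key ((‖a‖ ^ 2 + 1) / (τ a).im)
  have h3 : ((τ a).im + (‖a‖ ^ 2 + 1) / (τ a).im) ^ 2 =
      (τ a).im ^ 2 + 2 * (‖a‖ ^ 2 + 1) + ((‖a‖ ^ 2 + 1) / (τ a).im) ^ 2 := by
    field_simp
    ring
  rw [h3] at h2
  nlinarith [sq_nonneg (τ a).im, sq_nonneg ‖a‖]

theorem herm (h1 : τ 1 = 1) (hn : ∀ a, ‖τ a‖ ≤ ‖a‖) (a : A) : τ (star a) = conj (τ a) := by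
  have e1 := herm_sa τ h1 hn (star a + a) (by rw [star_add, star_star, add_comm])
  have e2 := herm_sa τ h1 hn (Complex.I • (star a - a)) (by
    rw [star_smul, star_sub, star_star]; simp [smul_sub]; abel)
  rw [map_add, Complex.add_im] at e1
  rw [map_smul, map_sub, smul_eq_mul, Complex.mul_im] at e2
  simp only [Complex.I_re, Complex.I_im, zero_mul, one_mul, zero_add, Complex.sub_re] at e2
  apply Complex.ext
  · rw [Complex.conj_re]; linarith
  · rw [Complex.conj_im]; linarith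

theorem form_herm (h1 : τ 1 = 1) (hn : ∀ a, ‖τ a‖ ≤ ‖a‖) (x y : A) :
    τ (star y * x) = conj (τ (star x * y)) := by
  rw [← herm τ h1 hn, star_mul, star_star]

variable {τ}

theorem n2_nonneg (hp : ∀ a, 0 ≤ (τ (star a * a)).re) (x : A) : 0 ≤ n2 τ x := hp x

theorem n2_zero : n2 τ 0 = 0 := by simp [n2]

theorem n2_smul (c : ℂ) (x : A) : n2 τ (c • x) = ‖c‖ ^ 2 * n2 τ x := by
  unfold n2
  rw [star_smul, smul_mul_assoc, mul_smul_comm, smul_smul, map_smul, smul_eq_mul]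
  have : star c * c = ((‖c‖ ^ 2 : ℝ) : ℂ) := by
    rw [Complex.star_def, Complex.conj_mul']; push_cast; rfl
  rw [this, Complex.re_ofReal_mul]

theorem n2_add (x y : A) : n2 τ (x + y) =
    n2 τ x + n2 τ y + ((τ (star x * y)).re + (τ (star y * x)).re) := by
  unfold n2
  rw [star_add]
  simp only [add_mul, mul_add, map_add, Complex.add_re]
  ring

theorem n2_neg (x : A) : n2 τ (-x) = n2 τ x := by simp [n2]

theorem cross_le (hp : ∀ a, 0 ≤ (τ (star a * a)).re) (x y : A) :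
    (τ (star x * y)).re + (τ (star y * x)).re ≤ n2 τ x + n2 τ y := by
  have h := n2_add (τ := τ) x (-y)
  have h0 := hp (x + -y)
  change 0 ≤ n2 τ (x + -y) at h0
  rw [h, n2_neg] at h0
  simp only [mul_neg, star_neg, neg_mul, map_neg, Complex.neg_re] at h0
  linarith

theorem n2_add_le (hp : ∀ a, 0 ≤ (τ (star a * a)).re) (x y : A) :
    n2 τ (x + y) ≤ 2 * n2 τ x + 2 * n2 τ y := by
  rw [n2_add]; linarith [cross_le hp x y]

theorem n2_unitary_mul {u : A} (hu : star u * u = 1) (x : A) : n2 τ (u * x) = n2 τ x := by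
  unfold n2
  rw [star_mul, mul_assoc, ← mul_assoc (star u), hu, one_mul]

theorem n2_star (ht : ∀ a b, τ (a * b) = τ (b * a)) (x : A) : n2 τ (star x) = n2 τ x := by
  unfold n2
  rw [star_star, ht]

theorem n2_le_norm (hn : ∀ a, ‖τ a‖ ≤ ‖a‖) (x : A) : n2 τ x ≤ ‖x‖ ^ 2 := by
  unfold n2
  refine (Complex.re_le_norm _).trans ((hn _).trans ?_)
  rw [CStarRing.norm_star_mul_self, sq]

/-- `n2` of a sum of `n` terms -/
theorem n2_sum_le {ι : Type*} (hp : ∀ a, 0 ≤ (τ (star a * a)).re) (s : Finset ι) (v : ι → A) :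
    n2 τ (∑ i ∈ s, v i) ≤ s.card * ∑ i ∈ s, n2 τ (v i) := by
  have e : 2 * n2 τ (∑ i ∈ s, v i) = ∑ i ∈ s, ∑ j ∈ s,
      ((τ (star (v i) * v j)).re + (τ (star (v j) * v i)).re) := by
    have h1 : n2 τ (∑ i ∈ s, v i) = ∑ i ∈ s, ∑ j ∈ s, (τ (star (v i) * v j)).re := by
      unfold n2
      rw [star_sum, Finset.sum_mul]
      simp only [Finset.mul_sum, map_sum, Complex.re_sum]
    simp only [Finset.sum_add_distrib]
    have h2 : ∑ i ∈ s, ∑ j ∈ s, (τ (star (v j) * v i)).re =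
      ∑ i ∈ s, ∑ j ∈ s, (τ (star (v i) * v j)).re := Finset.sum_comm
    rw [h2, ← h1]; ring
  have h3 : ∑ i ∈ s, ∑ j ∈ s, ((τ (star (v i) * v j)).re + (τ (star (v j) * v i)).re) ≤
      ∑ i ∈ s, ∑ j ∈ s, (n2 τ (v i) + n2 τ (v j)) :=
    Finset.sum_le_sum fun i _ => Finset.sum_le_sum fun j _ => cross_le hp _ _
  have h4 : ∑ i ∈ s, ∑ j ∈ s, (n2 τ (v i) + n2 τ (v j)) =
      2 * (s.card * ∑ i ∈ s, n2 τ (v i)) := by
    simp only [Finset.sum_add_distrib, Finset.sum_const, nsmul_eq_mul]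
    rw [← Finset.mul_sum]; ring
  linarith

/-- Cauchy-Schwarz -/
theorem cs_sq (h1 : τ 1 = 1) (hn : ∀ a, ‖τ a‖ ≤ ‖a‖) (hp : ∀ a, 0 ≤ (τ (star a * a)).re)
    (x y : A) : ‖τ (star x * y)‖ ^ 2 ≤ n2 τ x * n2 τ y := by
  set c := τ (star x * y) with hc
  by_cases h0 : c = 0
  · rw [h0, norm_zero, zero_pow two_ne_zero]
    exact mul_nonneg (hp x) (hp y)
  have hc0 : 0 < ‖c‖ := norm_pos_iff.2 h0
  have key : ∀ t : ℝ, 0 ≤ (‖c‖ ^ 2 * n2 τ x) * (t * t) + (2 * ‖c‖ ^ 2) * t + n2 τ y := by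
    intro t
    have h := n2_add (τ := τ) (((t : ℂ) * c) • x) y
    have hh := hp (((t : ℂ) * c) • x + y)
    change 0 ≤ n2 τ (((t : ℂ) * c) • x + y) at hh
    rw [h, n2_smul, star_smul] at hh
    have e1 : (τ (star ((t : ℂ) * c) • star x * y)).re = t * ‖c‖ ^ 2 := by
      rw [smul_mul_assoc, map_smul, ← hc, smul_eq_mul, star_mul', Complex.star_def,
        Complex.conj_ofReal, mul_assoc, Complex.conj_mul', Complex.re_ofReal_mul]
      norm_cast
    have e2 : (τ (star y * ((t : ℂ) * c) • x)).re = t * ‖c‖ ^ 2 := by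
      rw [mul_smul_comm, map_smul, form_herm τ h1 hn, ← hc, smul_eq_mul, mul_assoc,
        Complex.mul_conj', Complex.re_ofReal_mul]
      norm_cast
    rw [e1, e2, norm_mul, Complex.norm_real, mul_pow, Real.norm_eq_abs, sq_abs] at hh
    nlinarith
  have hd := discrim_le_zero key
  unfold discrim at hd
  have : ‖c‖ ^ 2 * ‖c‖ ^ 2 ≤ ‖c‖ ^ 2 * (n2 τ x * n2 τ y) := by nlinarith
  exact le_of_mul_le_mul_left this (by positivity)

theorem cs (h1 : τ 1 = 1) (hn : ∀ a, ‖τ a‖ ≤ ‖a‖) (hp : ∀ a, 0 ≤ (τ (star a * a)).re)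
    (x y : A) : ‖τ (star x * y)‖ ≤ √(n2 τ x) * √(n2 τ y) := by
  rw [← Real.sqrt_mul (n2_nonneg hp x)]
  exact Real.le_sqrt_of_sq_le (cs_sq h1 hn hp x y)

/-- Cauchy-Schwarz, second form -/
theorem cs' (h1 : τ 1 = 1) (hn : ∀ a, ‖τ a‖ ≤ ‖a‖) (hp : ∀ a, 0 ≤ (τ (star a * a)).re)
    (ht : ∀ a b, τ (a * b) = τ (b * a)) (x y : A) : ‖τ (x * y)‖ ≤ √(n2 τ x) * √(n2 τ y) := by
  have := cs h1 hn hp (star x) y
  rwa [star_star, n2_star ht] at this

end basic

section ortho

variable {τ : A →ₗ[ℂ] ℂ} {S Ω : Type*} [Fintype S] [AddCommGroup Ω] [Fintype Ω]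

open Classical in
theorem ortho_eq (ψ : S → AddChar Ω ℂ) (v : S → A) :
    ∑ ω, n2 τ (∑ s, ψ s ω • v s) = Fintype.card Ω *
      ∑ s, ∑ t, if ψ s = ψ t then (τ (star (v s) * v t)).re else 0 := by
  have h1 : ∀ ω, n2 τ (∑ s, ψ s ω • v s) =
      ∑ s, ∑ t, ((ψ t * (ψ s)⁻¹) ω * τ (star (v s) * v t)).re := by
    intro ω
    unfold n2
    rw [star_sum, Finset.sum_mul]
    simp only [Finset.mul_sum, map_sum, Complex.re_sum]
    refine Finset.sum_congr rfl fun s _ => Finset.sum_congr rfl fun t _ => ?_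
    rw [star_smul, smul_mul_assoc, mul_smul_comm, smul_smul, map_smul, smul_eq_mul,
      AddChar.mul_apply, AddChar.inv_apply', AddChar.inv_apply_eq_conj, Complex.star_def,
      mul_comm (conj _)]
  simp only [h1]
  rw [Finset.sum_comm, Finset.mul_sum]
  refine Finset.sum_congr rfl fun s _ => ?_
  rw [Finset.sum_comm, Finset.mul_sum]
  refine Finset.sum_congr rfl fun t _ => ?_
  rw [← Complex.re_sum, ← Finset.sum_mul, AddChar.sum_eq_ite]
  by_cases h : ψ s = ψ t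
  · rw [if_pos h, h, mul_inv_cancel]
    rw [if_pos (by rfl)]
    rw [← Complex.ofReal_natCast, Complex.re_ofReal_mul]
  · rw [if_neg h, if_neg]
    · simp
    · intro hh
      apply h
      have h2 : ψ t * (ψ s)⁻¹ = 1 := hh
      exact (mul_inv_eq_one.1 h2).symm

open Classical in
theorem ortho_le (hp : ∀ a, 0 ≤ (τ (star a * a)).re) (ψ : S → AddChar Ω ℂ) (v : S → A) (M : ℝ)
    (hM : ∀ s, ((Finset.univ.filter fun t => ψ s = ψ t).card : ℝ) ≤ M) :
    ∑ ω, n2 τ (∑ s, ψ s ω • v s) ≤ M * Fintype.card Ω * ∑ s, n2 τ (v s) := by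
  rw [ortho_eq]
  have h1 : ∑ s, ∑ t, (if ψ s = ψ t then (τ (star (v s) * v t)).re else 0) ≤
      M * ∑ s, n2 τ (v s) := by
    have e1 : ∑ s, ∑ t, (if ψ s = ψ t then (τ (star (v s) * v t)).re else 0) =
        ∑ s, ∑ t, (if ψ s = ψ t then (τ (star (v t) * v s)).re else 0) := by
      rw [Finset.sum_comm]
      refine Finset.sum_congr rfl fun s _ => Finset.sum_congr rfl fun t _ => ?_
      simp only [eq_comm (a := ψ t)]
    have e2 : 2 * ∑ s, ∑ t, (if ψ s = ψ t then (τ (star (v s) * v t)).re else 0) ≤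
        ∑ s, ∑ t, (if ψ s = ψ t then n2 τ (v s) + n2 τ (v t) else 0) := by
      rw [two_mul]
      nth_rw 2 [e1]
      rw [← Finset.sum_add_distrib]
      refine Finset.sum_le_sum fun s _ => ?_
      rw [← Finset.sum_add_distrib]
      refine Finset.sum_le_sum fun t _ => ?_
      split_ifs
      · exact cross_le hp _ _
      · simp
    have e3 : ∑ s, ∑ t, (if ψ s = ψ t then n2 τ (v s) + n2 τ (v t) else 0) =
        2 * ∑ s, ∑ t, (if ψ s = ψ t then n2 τ (v s) else 0) := by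
      have e4 : ∑ s, ∑ t, (if ψ s = ψ t then n2 τ (v t) else 0) =
          ∑ s, ∑ t, (if ψ s = ψ t then n2 τ (v s) else 0) := by
        rw [Finset.sum_comm]
        refine Finset.sum_congr rfl fun s _ => Finset.sum_congr rfl fun t _ => ?_
        simp only [eq_comm (a := ψ t)]
      rw [two_mul]
      conv_rhs => rw [← e4]
      rw [e4]
      conv_rhs => arg 2; rw [← e4]
      rw [← Finset.sum_add_distrib]
      refine Finset.sum_congr rfl fun s _ => ?_
      rw [← Finset.sum_add_distrib]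
      refine Finset.sum_congr rfl fun t _ => ?_
      split_ifs <;> simp
    have e5 : ∑ s, ∑ t, (if ψ s = ψ t then n2 τ (v s) else 0) ≤ M * ∑ s, n2 τ (v s) := by
      rw [Finset.mul_sum]
      refine Finset.sum_le_sum fun s _ => ?_
      rw [← Finset.sum_filter, Finset.sum_const, nsmul_eq_mul]
      exact mul_le_mul_of_nonneg_right (hM s) (hp _)
    linarith
  calc _ ≤ (Fintype.card Ω : ℝ) * (M * ∑ s, n2 τ (v s)) :=
        mul_le_mul_of_nonneg_left h1 (Nat.cast_nonneg _)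
    _ = _ := by ring

open Classical in
theorem ortho_inj (ψ : S → AddChar Ω ℂ) (hψ : Function.Injective ψ) (v : S → A) :
    ∑ ω, n2 τ (∑ s, ψ s ω • v s) = Fintype.card Ω * ∑ s, n2 τ (v s) := by
  rw [ortho_eq]
  congr 1
  refine Finset.sum_congr rfl fun s _ => ?_
  simp only [hψ.eq_iff]
  rw [Finset.sum_ite_eq]
  simp [n2]

end ortho

end Crest.Agent.R121.LP
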