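import Crest.Agent.R121.LPow1

/-! ROW 121, module L, pieces L4 / L5: matrix units, random unitaries of a matrix algebra, powers of `z b`.
(helper83) -/

set_option autoImplicit false
set_option linter.unusedSectionVars false

namespace Crest.Agent.R121.LP

open scoped BigOperators ComplexConjugate

variable {A : Type*} [CStarAlgebra A] {ι : Type*} [Fintype ι] [DecidableEq ι]

/-- matrix units with sum `1` -/
structure MU (e : ι → ι → A) : Prop where
  mul : ∀ i j k l, e i j * e k l = if j = k then e i l else 0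
  star : ∀ i j, star (e i j) = e j i
  one : ∑ i, e i i = 1

/-- phase group -/
abbrev Om (ι : Type*) (Q : ℕ) := (ι → ZMod Q) × (ι → ZMod Q)

section chars

variable (Q : ℕ) [NeZero Q]

/-- the monomial `δ'_k δ_j` -/
noncomputable def ch1 (p : ι × ι) : AddChar (Om ι Q) ℂ where
  toFun ω := ZMod.stdAddChar (ω.1 p.1 + ω.2 p.2)
  map_zero_eq_one' := by simp
  map_add_eq_mul' a b := by
    rw [← AddChar.map_add_eq_mul]; congr 1
    simp only [Prod.fst_add, Prod.snd_add, Pi.add_apply]; ring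

theorem ch1_apply (p : ι × ι) (ω : Om ι Q) :
    ch1 Q p ω = ZMod.stdAddChar (ω.1 p.1 + ω.2 p.2) := rfl

/-- the monomial of a sequence -/
noncomputable def chs {m : ℕ} (s : Fin m → ι × ι) : AddChar (Om ι Q) ℂ := ∏ i, ch1 Q (s i)

theorem prod_apply {α : Type*} (t : Finset α) (f : α → AddChar (Om ι Q) ℂ) (ω : Om ι Q) :
    (∏ i ∈ t, f i) ω = ∏ i ∈ t, f i ω := by
  classical
  induction t using Finset.induction_on with
  | empty => simp
  | insert a t ha ih => rw [Finset.prod_insert ha, Finset.prod_insert ha, AddChar.mul_apply, ih]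

theorem map_sum_prod {α : Type*} (t : Finset α) (f : α → ZMod Q) :
    (ZMod.stdAddChar (∑ i ∈ t, f i) : ℂ) = ∏ i ∈ t, ZMod.stdAddChar (f i) := by
  classical
  induction t using Finset.induction_on with
  | empty => simp
  | insert a t ha ih => rw [Finset.prod_insert ha, Finset.sum_insert ha,
      AddChar.map_add_eq_mul, ih]

theorem chs_apply {m : ℕ} (s : Fin m → ι × ι) (ω : Om ι Q) :
    chs Q s ω = ZMod.stdAddChar (∑ i, (ω.1 (s i).1 + ω.2 (s i).2)) := by
  rw [chs, prod_apply]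
  simp only [ch1_apply]
  exact (map_sum_prod Q _ _).symm

theorem chs_cons {m : ℕ} (p : ι × ι) (s : Fin m → ι × ι) :
    chs Q (Fin.cons p s : Fin (m + 1) → ι × ι) = ch1 Q p * chs Q s := by
  rw [chs, Fin.prod_univ_succ]; rfl

theorem ch1_inj (hQ : 2 ≤ Q) : Function.Injective (ch1 (ι := ι) Q) := by
  intro p q h
  have h1 : ∀ ω : Om ι Q, (ω.1 p.1 + ω.2 p.2 : ZMod Q) = ω.1 q.1 + ω.2 q.2 := by
    intro ω
    have := DFunLike.congr_fun h ω
    rw [ch1_apply, ch1_apply] at this
    exact ZMod.injective_stdAddChar this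
  have : Fact (1 < Q) := ⟨hQ⟩
  have h2 := h1 (Pi.single p.1 1, 0)
  have h3 := h1 (0, Pi.single p.2 1)
  simp only [Pi.single_eq_same, Pi.zero_apply, add_zero, zero_add] at h2 h3
  ext
  · by_contra hne
    rw [Pi.single_eq_of_ne (fun hh => hne hh.symm)] at h2
    exact one_ne_zero h2
  · by_contra hne
    rw [Pi.single_eq_of_ne (fun hh => hne hh.symm)] at h3
    exact one_ne_zero h3

/-- sequences with the same counts differ by a permutation -/
theorem exists_perm {m : ℕ} (k l : Fin m → ι)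
    (h : ∀ a, (Finset.univ.filter fun i => k i = a).card =
      (Finset.univ.filter fun i => l i = a).card) : ∃ σ : Equiv.Perm (Fin m), l = k ∘ σ := by
  have e : ∀ a, {i // l i = a} ≃ {i // k i = a} := fun a =>
    Fintype.equivOfCardEq (by
      rw [Fintype.card_subtype, Fintype.card_subtype, h a])
  refine ⟨Equiv.ofFiberEquiv e, ?_⟩
  funext i
  exact (Equiv.ofFiberEquiv_map e i).symm

theorem chs_eq {m : ℕ} (hQ : m < Q) (s t : Fin m → ι × ι) (h : chs Q s = chs Q t) :
    ∃ σ τ : Equiv.Perm (Fin m), t = fun i => ((s (σ i)).1, (s (τ i)).2) := by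
  have h1 : ∀ ω : Om ι Q, (∑ i, (ω.1 (s i).1 + ω.2 (s i).2) : ZMod Q) =
      ∑ i, (ω.1 (t i).1 + ω.2 (t i).2) := by
    intro ω
    have := DFunLike.congr_fun h ω
    rw [chs_apply, chs_apply] at this
    exact ZMod.injective_stdAddChar this
  have hc : ∀ f : Fin m → ι, ∀ a, (∑ i, (Pi.single a 1 : ι → ZMod Q) (f i)) =
      ((Finset.univ.filter fun i => f i = a).card : ZMod Q) := by
    intro f a
    simp only [Pi.single_apply]
    rw [Finset.sum_boole]
  have hlt : ∀ f : Fin m → ι, ∀ a, (Finset.univ.filter fun i => f i = a).card < Q := by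
    intro f a
    refine lt_of_le_of_lt (Finset.card_le_univ _) ?_
    rwa [Fintype.card_fin]
  have hinj : ∀ a b : ℕ, a < Q → b < Q → (a : ZMod Q) = b → a = b := by
    intro a b ha hb hab
    rw [ZMod.natCast_eq_natCast_iff'] at hab
    rwa [Nat.mod_eq_of_lt ha, Nat.mod_eq_of_lt hb] at hab
  obtain ⟨σ, hσ⟩ := exists_perm (fun i => (s i).1) (fun i => (t i).1) (by
    intro a
    have h2 := h1 (Pi.single a 1, 0)
    simp only [Pi.zero_apply, add_zero] at h2
    rw [hc (fun i => (s i).1), hc (fun i => (t i).1)] at h2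
    exact hinj _ _ (hlt _ _) (hlt _ _) h2)
  obtain ⟨τ, hτ⟩ := exists_perm (fun i => (s i).2) (fun i => (t i).2) (by
    intro a
    have h2 := h1 (0, Pi.single a 1)
    simp only [Pi.zero_apply, zero_add] at h2
    rw [hc (fun i => (s i).2), hc (fun i => (t i).2)] at h2
    exact hinj _ _ (hlt _ _) (hlt _ _) h2)
  refine ⟨σ, τ, ?_⟩
  funext i
  exact Prod.ext (congrFun hσ i) (congrFun hτ i)

open Classical in
theorem chs_count {m : ℕ} (hQ : m < Q) (s : Fin m → ι × ι) :
    ((Finset.univ.filter fun t : Fin m → ι × ι => chs Q s = chs Q t).card : ℝ) ≤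
      (m.factorial : ℝ) ^ 2 := by
  have h1 : (Finset.univ.filter fun t : Fin m → ι × ι => chs Q s = chs Q t) ⊆
      (Finset.univ : Finset (Equiv.Perm (Fin m) × Equiv.Perm (Fin m))).image
        (fun στ => fun i => ((s (στ.1 i)).1, (s (στ.2 i)).2)) := by
    intro t ht
    obtain ⟨σ, τ, h⟩ := chs_eq Q hQ s t (Finset.mem_filter.1 ht).2
    exact Finset.mem_image.2 ⟨(σ, τ), Finset.mem_univ _, h.symm⟩
  have h2 := (Finset.card_le_card h1).trans Finset.card_image_le
  rw [Finset.card_univ, Fintype.card_prod, Fintype.card_perm, Fintype.card_fin] at h2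
  calc _ ≤ ((m.factorial * m.factorial : ℕ) : ℝ) := by exact_mod_cast h2
    _ = _ := by push_cast; ring

end chars

/-- `b(ω)` -/
noncomputable def bb (Q : ℕ) [NeZero Q] (e : ι → ι → A) (φ : ι → ι → ℂ) (ω : Om ι Q) : A :=
  ∑ p : ι × ι, (φ p.1 p.2 * ch1 Q p ω) • e p.1 p.2

/-- the coefficients of a unitary matrix with entries of absolute value `(card ι)^(-1/2)` -/
structure Phi (φ : ι → ι → ℂ) : Prop where
  nrm : ∀ i j, ‖φ i j‖ ^ 2 = 1 / Fintype.card ι
  row : ∀ k l, ∑ j, φ k j * conj (φ l j) = if k = l then 1 else 0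
  col : ∀ k l, ∑ j, conj (φ j k) * φ j l = if k = l then 1 else 0

theorem Phi.adj {φ : ι → ι → ℂ} (h : Phi φ) : Phi (fun i j => conj (φ j i)) where
  nrm i j := by rw [RCLike.norm_conj]; exact h.nrm j i
  row k l := by simpa using h.col k l
  col k l := by simpa using h.row k l

variable (Q : ℕ) [NeZero Q] {e : ι → ι → A} {φ : ι → ι → ℂ}

theorem conj_ch1 (p : ι × ι) (ω : Om ι Q) : conj (ch1 Q p ω) = ch1 Q p (-ω) := by
  rw [AddChar.map_neg_eq_conj]

theorem ch1_mul_conj (p q : ι × ι) (ω : Om ι Q) : ch1 Q p ω * conj (ch1 Q q ω) =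
    ZMod.stdAddChar (ω.1 p.1) * ZMod.stdAddChar (ω.2 p.2) *
      (conj (ZMod.stdAddChar (ω.1 q.1)) * conj (ZMod.stdAddChar (ω.2 q.2))) := by
  rw [ch1_apply, ch1_apply, AddChar.map_add_eq_mul, AddChar.map_add_eq_mul, map_mul]

theorem std_mul_conj (x : ZMod Q) : ZMod.stdAddChar x * conj (ZMod.stdAddChar x) = (1 : ℂ) := by
  rw [← AddChar.map_neg_eq_conj, ← AddChar.map_add_eq_mul, add_neg_cancel,
    AddChar.map_zero_eq_one]

theorem bb_star (he : MU e) (ω : Om ι Q) :
    star (bb Q e φ ω) = bb Q e (fun i j => conj (φ j i)) (-ω.2, -ω.1) := by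
  unfold bb
  rw [star_sum]
  refine Fintype.sum_equiv (Equiv.prodComm ι ι) _ _ fun p => ?_
  simp only [Equiv.prodComm_apply, Prod.fst_swap, Prod.snd_swap]
  rw [star_smul, he.star, Complex.star_def, map_mul, conj_ch1]
  congr 2
  rw [ch1_apply, ch1_apply]
  congr 1
  simp only [Prod.fst_neg, Prod.snd_neg, Pi.neg_apply, Prod.fst_swap, Prod.snd_swap]
  ring

theorem bb_mul_star (he : MU e) (hφ : Phi φ) (ω : Om ι Q) :
    bb Q e φ ω * star (bb Q e φ ω) = 1 := by
  unfold bb
  rw [star_sum, Finset.sum_mul]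
  have h0 : ∀ p q : ι × ι, ((φ p.1 p.2 * ch1 Q p ω) • e p.1 p.2) *
      star ((φ q.1 q.2 * ch1 Q q ω) • e q.1 q.2) =
      (φ p.1 p.2 * ch1 Q p ω * star (φ q.1 q.2 * ch1 Q q ω)) •
        (if p.2 = q.2 then e p.1 q.1 else 0) := by
    intro p q
    rw [star_smul, he.star, smul_mul_assoc, mul_smul_comm, smul_smul, he.mul]
  simp only [Finset.mul_sum, h0]
  rw [Fintype.sum_prod_type]
  have h1 : ∀ i j : ι, ∑ q : ι × ι, (φ i j * ch1 Q (i, j) ω * star (φ q.1 q.2 * ch1 Q q ω)) •
      (if j = q.2 then e i q.1 else 0) =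
      ∑ l, (φ i j * conj (φ l j) * (ZMod.stdAddChar (ω.1 i) * conj (ZMod.stdAddChar (ω.1 l)))) •
        e i l := by
    intro i j
    rw [Fintype.sum_prod_type]
    refine Finset.sum_congr rfl fun l _ => ?_
    rw [Finset.sum_eq_single j]
    · rw [if_pos rfl, Complex.star_def, map_mul]
      congr 1
      have h2 := ch1_mul_conj Q (i, j) (l, j) ω
      simp only at h2
      have h3 := std_mul_conj Q (ω.2 j)
      calc _ = φ i j * conj (φ l j) * (ch1 Q (i, j) ω * conj (ch1 Q (l, j) ω)) := by ring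
        _ = φ i j * conj (φ l j) * (ZMod.stdAddChar (ω.1 i) * conj (ZMod.stdAddChar (ω.1 l)) *
            (ZMod.stdAddChar (ω.2 j) * conj (ZMod.stdAddChar (ω.2 j)))) := by rw [h2]; ring
        _ = _ := by rw [h3]; ring
    · intro m _ hm
      rw [if_neg (fun hh => hm hh.symm), smul_zero]
    · intro h; exact (h (Finset.mem_univ _)).elim
  have h4 : ∀ i : ι, ∑ j, ∑ l, (φ i j * conj (φ l j) *
      (ZMod.stdAddChar (ω.1 i) * conj (ZMod.stdAddChar (ω.1 l)))) • e i l = e i i := by
    intro i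
    rw [Finset.sum_comm]
    simp only [← Finset.sum_smul, ← Finset.sum_mul]
    rw [Finset.sum_eq_single i]
    · rw [hφ.row, if_pos rfl, one_mul, std_mul_conj, one_smul]
    · intro l _ hl
      rw [hφ.row, if_neg (fun hh => hl hh.symm), zero_mul, zero_smul]
    · intro h; exact (h (Finset.mem_univ _)).elim
  have h5 : ∀ i : ι, ∑ j : ι, ∑ q : ι × ι,
      (φ i j * ch1 Q (i, j) ω * star (φ q.1 q.2 * ch1 Q q ω)) •
      (if j = q.2 then e i q.1 else 0) = e i i := by
    intro i
    rw [← h4 i]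
    exact Finset.sum_congr rfl fun j _ => h1 i j
  rw [← he.one]
  exact Finset.sum_congr rfl fun i _ => h5 i

theorem bb_star_mul (he : MU e) (hφ : Phi φ) (ω : Om ι Q) :
    star (bb Q e φ ω) * bb Q e φ ω = 1 := by
  have h := bb_mul_star Q he hφ.adj (-ω.2, -ω.1)
  rw [← bb_star Q he ω, star_star] at h
  exact h

end Crest.Agent.R121.LP
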