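import Crest.Agent.R121.LPhase

/-!
# Row 121, module L, powers lemma (L5 of idea 555, GT-free, uniform hypothesis)

Setting: `A` a unital C*-algebra, `e k j` matrix units, `z` unitary, `T : A → A` linear,
`ι : A → E` linear into a (semi-)inner product space with `‖ι (u y)‖ = ‖ι y‖` for unitaries `u`
(the 2-norm).  `b = ∑ ω^{p' k} c_{kj} ω^{p j} e_{kj}` with `c` a flat unitary scalar matrix.
-/

set_option autoImplicit false

namespace Crest.Agent.R121.LPw

open Finset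
open scoped ComplexConjugate InnerProductSpace

variable {K Q : ℕ} {A : Type*} [CStarAlgebra A]

/-- matrix units -/
structure MU (e : Fin K → Fin K → A) : Prop where
  mul : ∀ i j k l, e i j * e k l = if j = k then e i l else 0
  star : ∀ i j, star (e i j) = e j i
  sum : ∑ i, e i i = 1

/-- element with coefficients `β` -/
noncomputable def bm (e : Fin K → Fin K → A) (β : Fin K → Fin K → ℂ) : A :=
  ∑ k, ∑ j, β k j • e k j

/-- coefficients with phases -/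
noncomputable def bet (ω : ℂ) (c : Fin K → Fin K → ℂ) (p' p : Fin K → Fin Q) :
    Fin K → Fin K → ℂ :=
  fun k j => ω ^ (p' k : ℕ) * c k j * ω ^ (p j : ℕ)

/-- words `z e_{k 0, j 0} z e_{k 1, j 1} ⋯ x` -/
noncomputable def word (z : A) (e : Fin K → Fin K → A) :
    (n : ℕ) → (Fin n → Fin K) → (Fin n → Fin K) → A → A
  | 0, _, _, x => x
  | n + 1, k, j, x => z * (e (k 0) (j 0) * word z e n (Fin.tail k) (Fin.tail j) x)

theorem sum_fin_succ {M : Type*} [AddCommMonoid M] {n : ℕ} (f : (Fin (n + 1) → Fin K) → M) :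
    ∑ k, f k = ∑ a : Fin K, ∑ k : Fin n → Fin K, f (Fin.cons a k) := by
  rw [← (Fin.consEquiv fun _ : Fin (n + 1) => Fin K).sum_comp f, Fintype.sum_prod_type]
  rfl

theorem bm_mul (z : A) (e : Fin K → Fin K → A) (β : Fin K → Fin K → ℂ) (y : A) :
    z * bm e β * y = ∑ k, ∑ j, β k j • (z * (e k j * y)) := by
  rw [mul_assoc, bm, Finset.sum_mul, Finset.mul_sum]
  refine Finset.sum_congr rfl fun a _ => ?_
  rw [Finset.sum_mul, Finset.mul_sum]
  refine Finset.sum_congr rfl fun b _ => ?_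
  rw [smul_mul_assoc, mul_smul_comm]

theorem expand (z : A) (e : Fin K → Fin K → A) (β : Fin K → Fin K → ℂ) (n : ℕ) (x : A) :
    (z * bm e β) ^ n * x =
      ∑ k : Fin n → Fin K, ∑ j : Fin n → Fin K, (∏ i, β (k i) (j i)) • word z e n k j x := by
  induction n with
  | zero => simp [word]
  | succ n ih =>
    rw [pow_succ', mul_assoc, ih, sum_fin_succ, bm_mul]
    simp only [sum_fin_succ (n := n), Fin.prod_univ_succ, Fin.cons_zero, Fin.cons_succ, word,
      Fin.tail_cons]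
    refine Finset.sum_congr rfl fun a _ => ?_
    conv_rhs => rw [Finset.sum_comm]
    refine Finset.sum_congr rfl fun b _ => ?_
    simp only [Finset.mul_sum, Finset.smul_sum, mul_smul_comm, smul_smul]

variable {E : Type*} [SeminormedAddCommGroup E] [InnerProductSpace ℂ E]

/-- the defect of modularity -/
noncomputable def Dl (ι : A →ₗ[ℂ] E) (T : A →ₗ[ℂ] A) (z : A) (e : Fin K → Fin K → A)
    (k j : Fin K) : A →ₗ[ℂ] E :=
  ι ∘ₗ (T ∘ₗ (LinearMap.mulLeft ℂ (z * e k j)) - (LinearMap.mulLeft ℂ (z * e k j)) ∘ₗ T)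

theorem Dl_apply (ι : A →ₗ[ℂ] E) (T : A →ₗ[ℂ] A) (z : A) (e : Fin K → Fin K → A)
    (k j : Fin K) (y : A) :
    Dl ι T z e k j y = ι (T (z * (e k j * y)) - z * (e k j * T y)) := by
  simp [Dl]

theorem step_sum (ι : A →ₗ[ℂ] E) (T : A →ₗ[ℂ] A) (z : A) (e : Fin K → Fin K → A)
    (β : Fin K → Fin K → ℂ) (y : A) :
    ι (T (z * bm e β * y) - z * bm e β * T y) = ∑ k, ∑ j, β k j • Dl ι T z e k j y := by
  simp only [Dl_apply]
  rw [bm_mul, bm_mul]
  simp only [map_sum, map_sub, map_smul, smul_sub, Finset.sum_sub_distrib]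

/-- random flat unitaries -/
theorem avg_bm (ι : A →ₗ[ℂ] E) {ω : ℂ} (hω : IsPrimitiveRoot ω Q) (hω1 : ‖ω‖ = 1) (hQ : 1 < Q)
    (e : Fin K → Fin K → A) (c : Fin K → Fin K → ℂ) (z y : A) :
    ∑ p' : Fin K → Fin Q, ∑ p : Fin K → Fin Q, ‖ι (z * (bm e (bet ω c p' p) * y))‖ ^ 2 =
      (Q : ℝ) ^ K * ((Q : ℝ) ^ K * ∑ k, ∑ j, ‖c k j‖ ^ 2 * ‖ι (z * (e k j * y))‖ ^ 2) := by
  have h1 : ∀ p' p : Fin K → Fin Q, ι (z * (bm e (bet ω c p' p) * y)) =
      ∑ k, ω ^ (p' k : ℕ) • ∑ j, ω ^ (p j : ℕ) • (c k j • ι (z * (e k j * y))) := by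
    intro p' p
    rw [bm, Finset.sum_mul, Finset.mul_sum, map_sum]
    refine Finset.sum_congr rfl fun k _ => ?_
    rw [Finset.sum_mul, Finset.mul_sum, map_sum, Finset.smul_sum]
    refine Finset.sum_congr rfl fun j _ => ?_
    rw [smul_mul_assoc, mul_smul_comm, map_smul, smul_smul, smul_smul, bet]
    congr 1
    ring
  rw [Finset.sum_comm]
  rw [Finset.sum_congr rfl fun p _ => Finset.sum_congr rfl fun p' _ => by rw [h1 p' p]]
  rw [Finset.sum_congr rfl fun p _ => avg_eq hω hω1 hQ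
    (fun k => ∑ j, ω ^ (p j : ℕ) • (c k j • ι (z * (e k j * y))))]
  rw [← Finset.mul_sum, Finset.sum_comm]
  rw [Finset.sum_congr rfl fun k _ => avg_eq hω hω1 hQ (fun j => c k j • ι (z * (e k j * y)))]
  rw [← Finset.mul_sum]
  simp only [norm_smul, mul_pow]

theorem norm_bm_le (e : Fin K → Fin K → A) (he : MU e) (β : Fin K → Fin K → ℂ)
    (hβ : ∀ j l, ∑ k, conj (β k j) * β k l = if j = l then 1 else 0) :
    star (bm e β) * bm e β = 1 := by
  have h1 : star (bm e β) = ∑ k, ∑ j, conj (β k j) • e j k := by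
    rw [bm, star_sum]
    refine Finset.sum_congr rfl fun k _ => ?_
    rw [star_sum]
    refine Finset.sum_congr rfl fun j _ => ?_
    rw [star_smul, he.star]
    rfl
  have h2 : star (bm e β) * bm e β = ∑ j, ∑ l, (∑ k, conj (β k j) * β k l) • e j l := by
    rw [h1, bm, Finset.sum_mul]
    have : ∀ k : Fin K, (∑ j, conj (β k j) • e j k) * ∑ k', ∑ l, β k' l • e k' l =
        ∑ j, ∑ l, (conj (β k j) * β k l) • e j l := by
      intro k
      rw [Finset.sum_mul]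
      refine Finset.sum_congr rfl fun j _ => ?_
      rw [Finset.mul_sum]
      rw [Finset.sum_eq_single k]
      · rw [Finset.mul_sum]
        refine Finset.sum_congr rfl fun l _ => ?_
        rw [smul_mul_assoc, mul_smul_comm, he.mul, if_pos rfl, smul_smul]
      · intro k' _ hk'
        rw [Finset.mul_sum]
        refine Finset.sum_eq_zero fun l _ => ?_
        rw [smul_mul_assoc, mul_smul_comm, he.mul, if_neg (Ne.symm hk'), smul_zero, smul_zero]
      · intro h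
        exact absurd (mem_univ _) h
    rw [Finset.sum_congr rfl fun k _ => this k, Finset.sum_comm]
    refine Finset.sum_congr rfl fun j _ => ?_
    rw [Finset.sum_comm]
    refine Finset.sum_congr rfl fun l _ => ?_
    rw [Finset.sum_smul]
  rw [h2]
  simp only [hβ, ite_smul, one_smul, zero_smul, Finset.sum_ite_eq, mem_univ, if_true]
  exact he.sum

theorem bet_unitary {ω : ℂ} (hω1 : ‖ω‖ = 1) (c : Fin K → Fin K → ℂ)
    (hc : ∀ j l, ∑ k, conj (c k j) * c k l = if j = l then 1 else 0) (p' p : Fin K → Fin Q)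
    (j l : Fin K) :
    ∑ k, conj (bet ω c p' p k j) * bet ω c p' p k l = if j = l then 1 else 0 := by
  have hm : ∀ m : ℕ, conj (ω ^ m) * ω ^ m = 1 := by
    intro m
    rw [mul_comm, Complex.mul_conj, Complex.normSq_eq_norm_sq, norm_pow, hω1]
    simp
  have h1 : ∀ k, conj (bet ω c p' p k j) * bet ω c p' p k l =
      (conj (ω ^ (p j : ℕ)) * ω ^ (p l : ℕ)) * (conj (c k j) * c k l) := by
    intro k
    unfold bet
    rw [map_mul, map_mul]
    calc conj (ω ^ (p' k : ℕ)) * conj (c k j) * conj (ω ^ (p j : ℕ)) *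
          (ω ^ (p' k : ℕ) * c k l * ω ^ (p l : ℕ))
        = (conj (ω ^ (p' k : ℕ)) * ω ^ (p' k : ℕ)) *
          ((conj (ω ^ (p j : ℕ)) * ω ^ (p l : ℕ)) * (conj (c k j) * c k l)) := by ring
      _ = _ := by rw [hm, one_mul]
  rw [Finset.sum_congr rfl fun k _ => h1 k, ← Finset.mul_sum, hc]
  split_ifs with h
  · subst h
    rw [hm, one_mul]
  · rw [mul_zero]

theorem norm_le_one_of_star_mul {b : A} (h : star b * b = 1) : ‖b‖ ≤ 1 := by
  have h1 : ‖b‖ * ‖b‖ = ‖(1 : A)‖ := by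
    rw [← CStarRing.norm_star_mul_self, h]
  rcases subsingleton_or_nontrivial A with hs | hs
  · rw [Subsingleton.elim b 0]
    simp
  · rw [norm_one] at h1
    nlinarith [norm_nonneg b]

/-- iterated averages of a quadratic form bounded by the norm -/
theorem chain_bound {ω : ℂ} (hω : IsPrimitiveRoot ω Q) (hω1 : ‖ω‖ = 1) (hQ : 1 < Q)
    (e : Fin K → Fin K → A) (he : MU e) (c : Fin K → Fin K → ℂ)
    (hc : ∀ j l, ∑ k, conj (c k j) * c k l = if j = l then 1 else 0)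
    (hcK : ∀ k j, ‖c k j‖ ^ 2 = (K : ℝ)⁻¹) (z : A) (hz : star z * z = 1) (C : ℝ) (n : ℕ) :
    ∀ (S : Type) [Fintype S] (Φ : S → A →ₗ[ℂ] E)
      (_ : ∀ y, ∑ s, ‖Φ s y‖ ^ 2 ≤ C * ‖y‖ ^ 2) (x : A),
      ∑ k : Fin n → Fin K, ∑ j : Fin n → Fin K,
        ((K : ℝ)⁻¹) ^ n * ∑ s, ‖Φ s (word z e n k j x)‖ ^ 2 ≤ C * ‖x‖ ^ 2 := by
  have hQ0 : (0 : ℝ) < (Q : ℝ) ^ K := by
    have : 0 < Q := by omega
    positivity
  induction n with
  | zero =>
    intro S _ Φ hΦ x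
    simpa [word] using hΦ x
  | succ n ih =>
    intro S _ Φ hΦ x
    have hK0 : (0 : ℝ) ≤ (K : ℝ)⁻¹ := by positivity
    have key : ∀ y, ∑ t : S × Fin K × Fin K,
        ‖(((Real.sqrt ((K : ℝ)⁻¹) : ℝ) : ℂ) •
          (Φ t.1 ∘ₗ LinearMap.mulLeft ℂ (z * e t.2.1 t.2.2))) y‖ ^ 2 ≤ C * ‖y‖ ^ 2 := by
      intro y
      have h1 : ∀ t : S × Fin K × Fin K,
          ‖(((Real.sqrt ((K : ℝ)⁻¹) : ℝ) : ℂ) •
          (Φ t.1 ∘ₗ LinearMap.mulLeft ℂ (z * e t.2.1 t.2.2))) y‖ ^ 2 =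
          (K : ℝ)⁻¹ * ‖Φ t.1 (z * (e t.2.1 t.2.2 * y))‖ ^ 2 := by
        intro t
        rw [LinearMap.smul_apply, norm_smul, mul_pow, Complex.norm_real, Real.norm_eq_abs,
          sq_abs, Real.sq_sqrt hK0]
        simp
      rw [Finset.sum_congr rfl fun t _ => h1 t, Fintype.sum_prod_type]
      have h2 : ∀ s : S, ∑ kj : Fin K × Fin K, (K : ℝ)⁻¹ * ‖Φ s (z * (e kj.1 kj.2 * y))‖ ^ 2 =
          ((Q : ℝ) ^ K)⁻¹ * (((Q : ℝ) ^ K)⁻¹ * ∑ p' : Fin K → Fin Q, ∑ p : Fin K → Fin Q,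
            ‖Φ s (z * (bm e (bet ω c p' p) * y))‖ ^ 2) := by
        intro s
        rw [avg_bm (Φ s) hω hω1 hQ e c z y, inv_mul_cancel_left₀ hQ0.ne',
          inv_mul_cancel_left₀ hQ0.ne', Fintype.sum_prod_type]
        simp only [hcK]
      rw [Finset.sum_congr rfl fun s _ => h2 s, ← Finset.mul_sum, ← Finset.mul_sum,
        Finset.sum_comm]
      have h3 : ∑ p' : Fin K → Fin Q, ∑ s : S, ∑ p : Fin K → Fin Q,
          ‖Φ s (z * (bm e (bet ω c p' p) * y))‖ ^ 2 ≤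
          ∑ _p' : Fin K → Fin Q, ∑ _p : Fin K → Fin Q, C * ‖y‖ ^ 2 := by
        refine Finset.sum_le_sum fun p' _ => ?_
        rw [Finset.sum_comm]
        refine Finset.sum_le_sum fun p _ => ?_
        refine (hΦ _).trans ?_
        have hC : 0 ≤ C * ‖y‖ ^ 2 := (Finset.sum_nonneg fun s _ => by positivity).trans (hΦ y)
        have hb := norm_le_one_of_star_mul
          (norm_bm_le e he _ (bet_unitary hω1 c hc p' p))
        have hz1 := norm_le_one_of_star_mul hz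
        have hle : ‖z * (bm e (bet ω c p' p) * y)‖ ≤ ‖y‖ := by
          calc ‖z * (bm e (bet ω c p' p) * y)‖ ≤ ‖z‖ * (‖bm e (bet ω c p' p)‖ * ‖y‖) := by
                refine (norm_mul_le _ _).trans ?_
                gcongr
                exact norm_mul_le _ _
            _ ≤ 1 * (1 * ‖y‖) := by gcongr
            _ = ‖y‖ := by ring
        rcases (norm_nonneg y).eq_or_lt with h0 | h0
        · have : ‖z * (bm e (bet ω c p' p) * y)‖ = 0 := le_antisymm (by rw [h0]; exact hle)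
            (norm_nonneg _)
          rw [this, ← h0]
        · have hC0 : 0 ≤ C := by
            by_contra hneg
            push Not at hneg
            nlinarith [pow_pos h0 2]
          gcongr
      have h4 : ∑ _p' : Fin K → Fin Q, ∑ _p : Fin K → Fin Q, C * ‖y‖ ^ 2 =
          (Q : ℝ) ^ K * ((Q : ℝ) ^ K * (C * ‖y‖ ^ 2)) := by
        simp
      rw [h4] at h3
      calc ((Q : ℝ) ^ K)⁻¹ * (((Q : ℝ) ^ K)⁻¹ * ∑ p' : Fin K → Fin Q, ∑ s : S,
            ∑ p : Fin K → Fin Q, ‖Φ s (z * (bm e (bet ω c p' p) * y))‖ ^ 2)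
          ≤ ((Q : ℝ) ^ K)⁻¹ * (((Q : ℝ) ^ K)⁻¹ *
              ((Q : ℝ) ^ K * ((Q : ℝ) ^ K * (C * ‖y‖ ^ 2)))) := by gcongr
        _ = C * ‖y‖ ^ 2 := by
            rw [inv_mul_cancel_left₀ hQ0.ne', inv_mul_cancel_left₀ hQ0.ne']
    have h5 := ih (S × Fin K × Fin K) _ key x
    refine le_of_eq_of_le ?_ h5
    rw [sum_fin_succ]
    simp only [sum_fin_succ (n := n), Fin.cons_zero, word, Fin.tail_cons]
    have h6 : ∀ t : S × Fin K × Fin K, ∀ y,
        ‖(((Real.sqrt ((K : ℝ)⁻¹) : ℝ) : ℂ) •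
        (Φ t.1 ∘ₗ LinearMap.mulLeft ℂ (z * e t.2.1 t.2.2))) y‖ ^ 2 =
        (K : ℝ)⁻¹ * ‖Φ t.1 (z * (e t.2.1 t.2.2 * y))‖ ^ 2 := by
      intro t y
      rw [LinearMap.smul_apply, norm_smul, mul_pow, Complex.norm_real, Real.norm_eq_abs,
        sq_abs, Real.sq_sqrt hK0]
      simp
    simp only [h6, Fintype.sum_prod_type]
    -- left: ∑ a, ∑ k, ∑ b, ∑ j, K⁻¹^(n+1) * ∑ s, F
    have hL : ∀ (F : Fin K → (Fin n → Fin K) → Fin K → (Fin n → Fin K) → S → ℝ),
        ∑ a, ∑ k, ∑ b, ∑ j, ((K : ℝ)⁻¹) ^ (n + 1) * ∑ s, F a k b j s =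
        ∑ k, ∑ j, ((K : ℝ)⁻¹) ^ n * ∑ s, ∑ a, ∑ b, (K : ℝ)⁻¹ * F a k b j s := by
      intro F
      rw [Finset.sum_comm]
      refine Finset.sum_congr rfl fun k _ => ?_
      rw [Finset.sum_congr rfl fun a _ => Finset.sum_comm, Finset.sum_comm]
      refine Finset.sum_congr rfl fun j _ => ?_
      rw [Finset.sum_comm]
      simp only [Finset.mul_sum]
      rw [Finset.sum_congr rfl fun a _ => Finset.sum_comm]
      rw [Finset.sum_comm]
      refine Finset.sum_congr rfl fun s _ => ?_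
      rw [Finset.sum_comm]
      refine Finset.sum_congr rfl fun a _ => Finset.sum_congr rfl fun b _ => ?_
      rw [pow_succ]
      ring
    exact hL fun a k b j s => ‖(Φ s) (z * (e a b * word z e n k j x))‖ ^ 2

/-- one step of the powers lemma, averaged over the phases -/
theorem power_step {ω : ℂ} (hω : IsPrimitiveRoot ω Q) (hω1 : ‖ω‖ = 1)
    (e : Fin K → Fin K → A) (he : MU e) (c : Fin K → Fin K → ℂ)
    (hc : ∀ j l, ∑ k, conj (c k j) * c k l = if j = l then 1 else 0)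
    (hcK : ∀ k j, ‖c k j‖ ^ 2 = (K : ℝ)⁻¹) (z : A) (hz : star z * z = 1)
    (ι : A →ₗ[ℂ] E) (T : A →ₗ[ℂ] A) {ε : ℝ}
    (hH : ∀ y, ∑ k, ∑ j, (K : ℝ)⁻¹ * ‖ι (T (z * (e k j * y)) - z * (e k j * T y))‖ ^ 2 ≤
      ε ^ 2 * ‖y‖ ^ 2) (n : ℕ) (hn : n + 1 < Q) (x : A) :
    ∑ p' : Fin K → Fin Q, ∑ p : Fin K → Fin Q,
      ‖ι (T ((z * bm e (bet ω c p' p)) ^ (n + 1) * x) -
        z * bm e (bet ω c p' p) * T ((z * bm e (bet ω c p' p)) ^ n * x))‖ ^ 2 ≤
      ((Q : ℝ) ^ K) ^ 2 * ((((n + 1 : ℕ) : ℝ) ^ (n + 1)) ^ 2 * (ε ^ 2 * ‖x‖ ^ 2)) := by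
  have hQ : 1 < Q := by omega
  have hcb := chain_bound (E := E) hω hω1 hQ e he c hc hcK z hz (ε ^ 2) n (Fin K × Fin K)
    (fun t => ((Real.sqrt ((K : ℝ)⁻¹) : ℝ) : ℂ) • Dl ι T z e t.1 t.2) (by
      intro y
      refine le_of_eq_of_le ?_ (hH y)
      rw [Fintype.sum_prod_type]
      refine Finset.sum_congr rfl fun k _ => Finset.sum_congr rfl fun j _ => ?_
      rw [LinearMap.smul_apply, norm_smul, mul_pow, Complex.norm_real, Real.norm_eq_abs,
        sq_abs, Real.sq_sqrt (by positivity), Dl_apply]) x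
  -- expansion
  set v : (Fin (n + 1) → Fin K) → (Fin (n + 1) → Fin K) → E := fun k j =>
    (∏ i, c (k i) (j i)) • Dl ι T z e (k 0) (j 0) (word z e n (Fin.tail k) (Fin.tail j) x)
    with hv
  have h1 : ∀ p' p : Fin K → Fin Q,
      ι (T ((z * bm e (bet ω c p' p)) ^ (n + 1) * x) -
        z * bm e (bet ω c p' p) * T ((z * bm e (bet ω c p' p)) ^ n * x)) =
      ∑ k, mon ω p' k • ∑ j, mon ω p j • v k j := by
    intro p' p
    rw [pow_succ', mul_assoc (z * bm e (bet ω c p' p)), step_sum, expand]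
    have h2 : ∀ f : (Fin (n + 1) → Fin K) → (Fin (n + 1) → Fin K) → E,
        ∑ k, ∑ j, f k j = ∑ a, ∑ b, ∑ k : Fin n → Fin K, ∑ j : Fin n → Fin K,
          f (Fin.cons a k) (Fin.cons b j) := by
      intro f
      rw [sum_fin_succ]
      refine Finset.sum_congr rfl fun a _ => ?_
      simp only [sum_fin_succ (M := E) (n := n)]
      rw [Finset.sum_comm]
    simp only [Finset.smul_sum]
    rw [h2]
    refine Finset.sum_congr rfl fun a _ => Finset.sum_congr rfl fun b _ => ?_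
    simp only [map_sum, map_smul, Finset.smul_sum]
    refine Finset.sum_congr rfl fun k _ => Finset.sum_congr rfl fun j _ => ?_
    simp only [hv, Fin.cons_zero, Fin.tail_cons, smul_smul, mon, bet, Fin.prod_univ_succ,
      Fin.cons_succ]
    congr 1
    have h3 : ∏ i, (ω ^ (p' (k i) : ℕ) * c (k i) (j i) * ω ^ (p (j i) : ℕ)) =
        (∏ i, ω ^ (p' (k i) : ℕ)) * (∏ i, c (k i) (j i)) * ∏ i, ω ^ (p (j i) : ℕ) := by
      rw [Finset.prod_mul_distrib, Finset.prod_mul_distrib]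
    rw [h3]
    ring
  have h4 : ∀ k j : Fin (n + 1) → Fin K, ‖v k j‖ ^ 2 = ((K : ℝ)⁻¹) ^ (n + 1) *
      ‖Dl ι T z e (k 0) (j 0) (word z e n (Fin.tail k) (Fin.tail j) x)‖ ^ 2 := by
    intro k j
    simp only [hv]
    rw [norm_smul, mul_pow, norm_prod, ← Finset.prod_pow]
    simp [hcK]
  calc ∑ p' : Fin K → Fin Q, ∑ p : Fin K → Fin Q,
      ‖ι (T ((z * bm e (bet ω c p' p)) ^ (n + 1) * x) -
        z * bm e (bet ω c p' p) * T ((z * bm e (bet ω c p' p)) ^ n * x))‖ ^ 2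
      = ∑ p : Fin K → Fin Q, ∑ p' : Fin K → Fin Q,
        ‖∑ k, mon ω p' k • ∑ j, mon ω p j • v k j‖ ^ 2 := by
        rw [Finset.sum_comm]
        exact Finset.sum_congr rfl fun p _ => Finset.sum_congr rfl fun p' _ => by rw [h1 p' p]
    _ ≤ ∑ p : Fin K → Fin Q, (Q : ℝ) ^ K * (((n + 1 : ℕ) : ℝ) ^ (n + 1) *
          ∑ k, ‖∑ j, mon ω p j • v k j‖ ^ 2) :=
        Finset.sum_le_sum fun p _ => avg_le hω hω1 hn _
    _ = (Q : ℝ) ^ K * (((n + 1 : ℕ) : ℝ) ^ (n + 1) *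
          ∑ k, ∑ p : Fin K → Fin Q, ‖∑ j, mon ω p j • v k j‖ ^ 2) := by
        rw [← Finset.mul_sum, ← Finset.mul_sum, Finset.sum_comm]
    _ ≤ (Q : ℝ) ^ K * (((n + 1 : ℕ) : ℝ) ^ (n + 1) *
          ∑ k, (Q : ℝ) ^ K * (((n + 1 : ℕ) : ℝ) ^ (n + 1) * ∑ j, ‖v k j‖ ^ 2)) := by
        gcongr with k _
        exact avg_le hω hω1 hn _
    _ = ((Q : ℝ) ^ K) ^ 2 * ((((n + 1 : ℕ) : ℝ) ^ (n + 1)) ^ 2 *
          ∑ k, ∑ j, ‖v k j‖ ^ 2) := by
        rw [← Finset.mul_sum, ← Finset.mul_sum]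
        ring
    _ ≤ ((Q : ℝ) ^ K) ^ 2 * ((((n + 1 : ℕ) : ℝ) ^ (n + 1)) ^ 2 * (ε ^ 2 * ‖x‖ ^ 2)) := by
        refine mul_le_mul_of_nonneg_left (mul_le_mul_of_nonneg_left ?_ (by positivity))
          (by positivity)
        refine le_of_eq_of_le ?_ hcb
        rw [sum_fin_succ]
        simp only [sum_fin_succ (M := ℝ) (n := n), h4, Fin.cons_zero, Fin.tail_cons,
          Fintype.sum_prod_type, LinearMap.smul_apply, norm_smul, mul_pow]
        have hL : ∀ (F : Fin K → (Fin n → Fin K) → Fin K → (Fin n → Fin K) → ℝ),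
            ∑ a, ∑ k, ∑ b, ∑ j, ((K : ℝ)⁻¹) ^ (n + 1) * F a k b j =
            ∑ k, ∑ j, ((K : ℝ)⁻¹) ^ n * ∑ a, ∑ b, (K : ℝ)⁻¹ * F a k b j := by
          intro F
          rw [Finset.sum_comm]
          refine Finset.sum_congr rfl fun k _ => ?_
          rw [Finset.sum_congr rfl fun a _ => Finset.sum_comm, Finset.sum_comm]
          refine Finset.sum_congr rfl fun j _ => ?_
          simp only [Finset.mul_sum]
          refine Finset.sum_congr rfl fun a _ => Finset.sum_congr rfl fun b _ => ?_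
          rw [pow_succ]
          ring
        have h5 : ‖((Real.sqrt ((K : ℝ)⁻¹) : ℝ) : ℂ)‖ ^ 2 = (K : ℝ)⁻¹ := by
          rw [Complex.norm_real, Real.norm_eq_abs, sq_abs, Real.sq_sqrt (by positivity)]
        rw [h5]
        exact hL fun a k b j => ‖Dl ι T z e a b (word z e n k j x)‖ ^ 2

/-- **powers lemma**: `T (wⁿ x) ≈ wⁿ T x`, `w = z b`, in mean over the phases -/
theorem powers {ω : ℂ} (hω : IsPrimitiveRoot ω Q) (hω1 : ‖ω‖ = 1)
    (e : Fin K → Fin K → A) (he : MU e) (c : Fin K → Fin K → ℂ)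
    (hc : ∀ j l, ∑ k, conj (c k j) * c k l = if j = l then 1 else 0)
    (hcK : ∀ k j, ‖c k j‖ ^ 2 = (K : ℝ)⁻¹) (z : A) (hz : star z * z = 1)
    (ι : A →ₗ[ℂ] E) (hι : ∀ u : A, star u * u = 1 → ∀ y, ‖ι (u * y)‖ = ‖ι y‖)
    (T : A →ₗ[ℂ] A) {ε : ℝ}
    (hH : ∀ y, ∑ k, ∑ j, (K : ℝ)⁻¹ * ‖ι (T (z * (e k j * y)) - z * (e k j * T y))‖ ^ 2 ≤
      ε ^ 2 * ‖y‖ ^ 2) (n : ℕ) (hn : n < Q) (x : A) :
    ∑ p' : Fin K → Fin Q, ∑ p : Fin K → Fin Q,
      ‖ι (T ((z * bm e (bet ω c p' p)) ^ n * x) -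
        (z * bm e (bet ω c p' p)) ^ n * T x)‖ ^ 2 ≤
      ((Q : ℝ) ^ K) ^ 2 * ((n * (n : ℝ) ^ n) ^ 2 * (ε ^ 2 * ‖x‖ ^ 2)) := by
  set w : (Fin K → Fin Q) → (Fin K → Fin Q) → A := fun p' p => z * bm e (bet ω c p' p) with hw
  have hwu : ∀ p' p, star (w p' p) * w p' p = 1 := by
    intro p' p
    simp only [hw]
    rw [star_mul]
    calc star (bm e (bet ω c p' p)) * star z * (z * bm e (bet ω c p' p))
        = star (bm e (bet ω c p' p)) * (star z * z) * bm e (bet ω c p' p) := by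
          simp only [mul_assoc]
      _ = 1 := by rw [hz, mul_one, norm_bm_le e he _ (bet_unitary hω1 c hc p' p)]
  have hwpu : ∀ p' p (m : ℕ), star (w p' p ^ m) * w p' p ^ m = 1 := by
    intro p' p m
    induction m with
    | zero => simp
    | succ m ih =>
      rw [pow_succ', star_mul]
      calc star (w p' p ^ m) * star (w p' p) * (w p' p * w p' p ^ m)
          = star (w p' p ^ m) * (star (w p' p) * w p' p) * w p' p ^ m := by
            simp only [mul_assoc]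
        _ = 1 := by rw [hwu, mul_one, ih]
  -- telescoping
  have h1 : ∀ p' p, ι (T (w p' p ^ n * x) - w p' p ^ n * T x) =
      ∑ m ∈ range n, ι (w p' p ^ (n - 1 - m) *
        (T (w p' p ^ (m + 1) * x) - w p' p * T (w p' p ^ m * x))) := by
    intro p' p
    have h2 : ∀ m ∈ range n, ι (w p' p ^ (n - 1 - m) *
        (T (w p' p ^ (m + 1) * x) - w p' p * T (w p' p ^ m * x))) =
        ι (w p' p ^ (n - (m + 1)) * T (w p' p ^ (m + 1) * x)) -
        ι (w p' p ^ (n - m) * T (w p' p ^ m * x)) := by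
      intro m hm
      have hmn := mem_range.mp hm
      rw [← map_sub, mul_sub, ← mul_assoc, ← pow_succ]
      have e1 : n - 1 - m + 1 = n - m := by omega
      have e2 : n - 1 - m = n - (m + 1) := by omega
      rw [e1, e2]
    rw [Finset.sum_congr rfl h2,
      Finset.sum_range_sub (fun m => ι (w p' p ^ (n - m) * T (w p' p ^ m * x)))]
    simp
  have h3 : ∀ p' p, ‖ι (T (w p' p ^ n * x) - w p' p ^ n * T x)‖ ^ 2 ≤
      n * ∑ m ∈ range n, ‖ι (T (w p' p ^ (m + 1) * x) - w p' p * T (w p' p ^ m * x))‖ ^ 2 := by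
    intro p' p
    rw [h1]
    have h4 : ‖∑ m ∈ range n, ι (w p' p ^ (n - 1 - m) *
        (T (w p' p ^ (m + 1) * x) - w p' p * T (w p' p ^ m * x)))‖ ≤
        ∑ m ∈ range n, ‖ι (T (w p' p ^ (m + 1) * x) - w p' p * T (w p' p ^ m * x))‖ := by
      refine (norm_sum_le _ _).trans (Finset.sum_le_sum fun m _ => ?_)
      rw [hι _ (hwpu p' p _)]
    calc ‖∑ m ∈ range n, ι (w p' p ^ (n - 1 - m) *
        (T (w p' p ^ (m + 1) * x) - w p' p * T (w p' p ^ m * x)))‖ ^ 2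
        ≤ (∑ m ∈ range n,
          ‖ι (T (w p' p ^ (m + 1) * x) - w p' p * T (w p' p ^ m * x))‖) ^ 2 := by
          gcongr
      _ ≤ (range n).card * ∑ m ∈ range n,
          ‖ι (T (w p' p ^ (m + 1) * x) - w p' p * T (w p' p ^ m * x))‖ ^ 2 :=
          sq_sum_le_card_mul_sum_sq
      _ = _ := by rw [card_range]
  calc ∑ p' : Fin K → Fin Q, ∑ p : Fin K → Fin Q,
      ‖ι (T (w p' p ^ n * x) - w p' p ^ n * T x)‖ ^ 2
      ≤ ∑ p' : Fin K → Fin Q, ∑ p : Fin K → Fin Q, n * ∑ m ∈ range n,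
        ‖ι (T (w p' p ^ (m + 1) * x) - w p' p * T (w p' p ^ m * x))‖ ^ 2 :=
        Finset.sum_le_sum fun p' _ => Finset.sum_le_sum fun p _ => h3 p' p
    _ = n * ∑ m ∈ range n, ∑ p' : Fin K → Fin Q, ∑ p : Fin K → Fin Q,
        ‖ι (T (w p' p ^ (m + 1) * x) - w p' p * T (w p' p ^ m * x))‖ ^ 2 := by
        simp only [← Finset.mul_sum]
        congr 1
        rw [Finset.sum_congr rfl fun p' _ => Finset.sum_comm, Finset.sum_comm]
    _ ≤ n * ∑ _m ∈ range n, ((Q : ℝ) ^ K) ^ 2 * (((n : ℝ) ^ n) ^ 2 * (ε ^ 2 * ‖x‖ ^ 2)) := by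
        gcongr with m hm
        have hmn := mem_range.mp hm
        refine (power_step hω hω1 e he c hc hcK z hz ι T hH m (by omega) x).trans ?_
        gcongr
        calc (((m + 1 : ℕ) : ℝ)) ^ (m + 1) ≤ (n : ℝ) ^ (m + 1) := by
              gcongr
              omega
          _ ≤ (n : ℝ) ^ n := by
              apply pow_le_pow_right₀
              · have : 1 ≤ n := by omega
                exact_mod_cast this
              · omega
    _ = ((Q : ℝ) ^ K) ^ 2 * ((n * (n : ℝ) ^ n) ^ 2 * (ε ^ 2 * ‖x‖ ^ 2)) := by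
        rw [Finset.sum_const, card_range, nsmul_eq_mul]
        ring

end Crest.Agent.R121.LPw
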