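import Crest.Agent.R121.NDefs

/-! Row 121, N, piece NA (helper92): resolvent cut-off.

`s = κ (κ + x)⁻¹ = cfc (fun t => κ / (κ + t)) x`.  All inequalities are `cfc` inequalities for
functions of `x` on `[0, ∞)`: `s x s = cfc (κ² t/(κ+t)²) ≤ κ`, `(1-s)² ≤ 1 - s²` because
`(t/(κ+t))² ≤ 1 - (κ/(κ+t))²`, `1 - s² ≤ (2/κ) x` because `1 - (κ/(κ+t))² ≤ 2t/κ`. -/

set_option autoImplicit false

namespace Crest.Agent.R121.N

open scoped ComplexOrder

universe u
variable {A : Type u} [CStarAlgebra A] [PartialOrder A] [StarOrderedRing A]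

/-- the resolvent function, made continuous everywhere -/
noncomputable def rf (κ t : ℝ) : ℝ := κ / (κ + |t|)

theorem rf_cont {κ : ℝ} (hκ : 0 < κ) : Continuous (rf κ) := by
  unfold rf
  refine Continuous.div continuous_const (by fun_prop) fun t => ?_
  have := abs_nonneg t
  linarith

theorem rf_nonneg {κ : ℝ} (hκ : 0 < κ) (t : ℝ) : 0 ≤ rf κ t := by
  unfold rf; positivity

theorem rf_le_one {κ : ℝ} (hκ : 0 < κ) (t : ℝ) : rf κ t ≤ 1 := by
  unfold rf
  have := abs_nonneg t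
  rw [div_le_one (by linarith)]
  linarith

theorem exists_resolvent (x : A) (hx : 0 ≤ x) (κ : ℝ) (hκ : 0 < κ) :
    ∃ s : A, IsSelfAdjoint s ∧ 0 ≤ s ∧ ‖s‖ ≤ 1 ∧ s * x * s ≤ κ • (1 : A) ∧
      (1 - s) * (1 - s) ≤ 1 - s * s ∧ 1 - s * s ≤ (2 / κ) • x := by
  have hsa : IsSelfAdjoint x := IsSelfAdjoint.of_nonneg hx
  have hspec : ∀ t ∈ spectrum ℝ x, 0 ≤ t := fun t ht => spectrum_nonneg_of_nonneg hx ht
  have hcc : Continuous (rf κ) := rf_cont hκ
  have e1 : (1 : A) - cfc (rf κ) x = cfc (fun t => 1 - rf κ t) x := by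
    rw [cfc_sub (fun _ => (1 : ℝ)) (rf κ) x, cfc_const_one ℝ x]
  have e2 : cfc (rf κ) x * x * cfc (rf κ) x = cfc (fun t => rf κ t * t * rf κ t) x := by
    rw [cfc_mul (fun t => rf κ t * t) (rf κ) x, cfc_mul (rf κ) (fun t => t) x, cfc_id' ℝ x]
  have e3 : (1 : A) - cfc (rf κ) x * cfc (rf κ) x = cfc (fun t => 1 - rf κ t * rf κ t) x := by
    rw [cfc_sub (fun _ => (1 : ℝ)) (fun t => rf κ t * rf κ t) x, cfc_const_one ℝ x,
      cfc_mul (rf κ) (rf κ) x]
  have e4 : (1 - cfc (rf κ) x) * (1 - cfc (rf κ) x)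
      = cfc (fun t => (1 - rf κ t) * (1 - rf κ t)) x := by
    rw [e1, cfc_mul (fun t => 1 - rf κ t) (fun t => 1 - rf κ t) x]
  refine ⟨cfc (rf κ) x, cfc_predicate _ _, cfc_nonneg fun t _ => rf_nonneg hκ t, ?_, ?_, ?_, ?_⟩
  · refine norm_cfc_le zero_le_one fun t _ => ?_
    rw [Real.norm_of_nonneg (rf_nonneg hκ t)]
    exact rf_le_one hκ t
  · rw [e2]
    have h3 : κ • (1 : A) = cfc (fun _ : ℝ => κ) x := by
      rw [cfc_const κ x, Algebra.algebraMap_eq_smul_one]
    rw [h3]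
    refine cfc_mono fun t ht => ?_
    have h0 := hspec t ht
    have h1 : rf κ t * t ≤ κ := by
      unfold rf
      rw [abs_of_nonneg h0, div_mul_eq_mul_div, div_le_iff₀ (by linarith)]
      nlinarith
    have h2 := rf_nonneg hκ t
    have h4 := rf_le_one hκ t
    have h5 : 0 ≤ rf κ t * t := mul_nonneg h2 h0
    nlinarith
  · rw [e4, e3]
    refine cfc_mono fun t _ => ?_
    have h2 := rf_nonneg hκ t
    have h4 := rf_le_one hκ t
    nlinarith
  · rw [e3]
    have h3 : (2 / κ) • x = cfc (fun t : ℝ => (2 / κ) • t) x := by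
      rw [cfc_smul (2 / κ) (fun t : ℝ => t) x, cfc_id' ℝ x]
    rw [h3]
    refine cfc_mono fun t ht => ?_
    have h0 := hspec t ht
    have h2 := rf_nonneg hκ t
    have h4 := rf_le_one hκ t
    have h5 : 1 - rf κ t ≤ t / κ := by
      unfold rf
      rw [abs_of_nonneg h0]
      have hk : 0 < κ + t := by linarith
      rw [sub_le_iff_le_add, ← sub_le_iff_le_add', ]
      rw [le_div_iff₀ hk]
      have : (1 - t / κ) * (κ + t) = κ - t * t / κ := by
        field_simp
        ring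
      rw [this]
      have : 0 ≤ t * t / κ := by positivity
      linarith
    simp only [smul_eq_mul]
    calc 1 - rf κ t * rf κ t = (1 - rf κ t) * (1 + rf κ t) := by ring
      _ ≤ (t / κ) * 2 := by
          have h6 : 0 ≤ 1 - rf κ t := by linarith
          have h7 : 0 ≤ t / κ := by positivity
          nlinarith
      _ = 2 / κ * t := by ring

end Crest.Agent.R121.N
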