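import Crest.Agent.R121.NA

/-! Row 121, N, piece NB (helper33): singular mass and joint near-optimal cut-offs.

`exists_s0`: `f(δ) = sSup {φ(1 - t* t) : t ∈ Sm τ δ}` (bounded by `φ 1`, contains `φ 0` from
`t = 1`), monotone in `δ`; `v = sInf (f '' Ioi 0)`.

`exists_joint`: for `φ ∈ F` take `t_φ ∈ Sm τ δ₁` with `φ(q_φ) ≥ v_φ - ε/2`, `q_φ = 1 - t_φ* t_φ`,
`x = ∑ q_φ ≥ 0`, `s` from `exists_resolvent` (`κ = μ²` small, then `δ₁` small).
`τ(1 - s²) ≤ (2/κ) ∑ τ(q_φ) ≤ (2/κ) |F| δ₁ ≤ δ`.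
`0 ≤ (s - μ(1-s)) q (s - μ(1-s))` gives `μ q ≤ (1+μ) s q s + μ(1+μ) (1-s) q (1-s)`, so
`φ(q) ≤ (1+μ) μ φ(1) + (1+μ) φ(1-s²)`. -/

set_option autoImplicit false

namespace Crest.Agent.R121.N

open scoped ComplexOrder

universe u
variable {A : Type u} [CStarAlgebra A] [PartialOrder A] [StarOrderedRing A]

theorem re_mono (φ : A →ₚ[ℂ] ℂ) {a b : A} (h : a ≤ b) : (φ a).re ≤ (φ b).re :=
  (Complex.le_def.1 (OrderHomClass.mono φ h)).1

theorem re_nonneg (φ : A →ₚ[ℂ] ℂ) {a : A} (h : 0 ≤ a) : 0 ≤ (φ a).re := by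
  have := re_mono φ h
  rwa [map_zero, Complex.zero_re] at this

theorem re_smul (φ : A →ₚ[ℂ] ℂ) (c : ℝ) (a : A) : (φ (c • a)).re = c * (φ a).re := by
  have h : c • a = (c : ℂ) • a := (Complex.coe_smul c a).symm
  rw [h, map_smul, smul_eq_mul, Complex.re_ofReal_mul]

theorem norm_one_le' : ‖(1 : A)‖ ≤ 1 := by
  rcases subsingleton_or_nontrivial A with h | h
  · rw [Subsingleton.elim (1 : A) 0, norm_zero]; exact zero_le_one
  · exact CStarRing.norm_one.le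

theorem q_nonneg {t : A} (ht : ‖t‖ ≤ 1) : 0 ≤ 1 - star t * t := by
  rw [sub_nonneg]
  refine (CStarAlgebra.norm_le_one_iff_of_nonneg _ (star_mul_self_nonneg t)).1 ?_
  rw [CStarRing.norm_star_mul_self]
  nlinarith [norm_nonneg t]

theorem q_le_one (t : A) : 1 - star t * t ≤ 1 := by
  rw [sub_le_self_iff]
  exact star_mul_self_nonneg t

theorem exists_s0 (τ φ : A →ₚ[ℂ] ℂ) : ∃ v : ℝ, IsS0 τ φ v := by
  set S : ℝ → Set ℝ := fun δ => (fun t : A => (φ (1 - star t * t)).re) '' Sm τ δ with hS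
  have hbdd : ∀ δ, BddAbove (S δ) := by
    intro δ
    refine ⟨(φ 1).re, ?_⟩
    rintro _ ⟨t, -, rfl⟩
    exact re_mono φ (q_le_one t)
  have h0 : ∀ δ, 0 < δ → (0 : ℝ) ∈ S δ := by
    intro δ hδ
    refine ⟨1, ⟨norm_one_le', ?_⟩, ?_⟩
    · rw [star_one, mul_one, sub_self, map_zero, Complex.zero_re]
      exact hδ.le
    · show (φ (1 - star 1 * 1)).re = 0
      rw [star_one, mul_one, sub_self, map_zero, Complex.zero_re]
  set f : ℝ → ℝ := fun δ => sSup (S δ) with hf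
  have hf0 : ∀ δ, 0 < δ → 0 ≤ f δ := fun δ hδ => le_csSup (hbdd δ) (h0 δ hδ)
  have hbb : BddBelow (f '' Set.Ioi 0) := by
    refine ⟨0, ?_⟩
    rintro _ ⟨δ, hδ, rfl⟩
    exact hf0 δ hδ
  refine ⟨sInf (f '' Set.Ioi 0), ?_, ?_⟩
  · intro ε hε
    have hne : (f '' Set.Ioi 0).Nonempty := ⟨f 1, 1, Set.mem_Ioi.2 one_pos, rfl⟩
    obtain ⟨_, ⟨δ, hδ, rfl⟩, hlt⟩ := exists_lt_of_csInf_lt hne (lt_add_of_pos_right _ hε)
    refine ⟨δ, hδ, fun t ht => ?_⟩
    exact (le_csSup (hbdd δ) ⟨t, ht, rfl⟩).trans hlt.le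
  · intro ε hε δ hδ
    have h1 : sInf (f '' Set.Ioi 0) ≤ f δ := csInf_le hbb ⟨δ, hδ, rfl⟩
    have h2 : sInf (f '' Set.Ioi 0) - ε < sSup (S δ) := by
      have : f δ = sSup (S δ) := rfl
      linarith
    obtain ⟨_, ⟨t, ht, rfl⟩, hlt⟩ := exists_lt_of_lt_csSup ⟨0, h0 δ hδ⟩ h2
    exact ⟨t, ht, hlt.le⟩

/-- the quadratic inequality -/
theorem quad (φ : A →ₚ[ℂ] ℂ) {q s : A} (hq0 : 0 ≤ q) (hq1 : q ≤ 1) (hs : IsSelfAdjoint s)
    {μ : ℝ} (hμ0 : 0 < μ) (hμ1 : μ ≤ 1) (h1 : (φ (s * q * s)).re ≤ μ ^ 2 * (φ 1).re)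
    (h2 : (1 - s) * (1 - s) ≤ 1 - s * s) :
    (φ q).re - 3 * μ * (φ 1).re ≤ (φ (1 - s * s)).re := by
  have hb : IsSelfAdjoint (1 - s) := (IsSelfAdjoint.one A).sub hs
  have hy : star (s - μ • (1 - s)) = s - μ • (1 - s) := by
    rw [star_sub, star_smul, hs.star_eq, hb.star_eq]
    rfl
  have h3 : 0 ≤ (s - μ • (1 - s)) * q * (s - μ • (1 - s)) := by
    have := star_left_conjugate_nonneg hq0 (s - μ • (1 - s))
    rwa [hy] at this
  have h4 : (1 - s) * q * (1 - s) ≤ (1 - s) * (1 - s) := by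
    have := star_left_conjugate_le_conjugate hq1 (1 - s)
    rwa [hb.star_eq, mul_one] at this
  have h5 : μ • q + (s - μ • (1 - s)) * q * (s - μ • (1 - s)) =
      (1 + μ) • (s * q * s) + (μ * (1 + μ)) • ((1 - s) * q * (1 - s)) := by
    set b := 1 - s with hbdef
    have hq : q = (s + b) * q * (s + b) := by
      rw [hbdef, add_sub_cancel, one_mul, mul_one]
    have e1 : (s - μ • b) * q * (s - μ • b) = s * q * s - μ • (s * q * b) - μ • (b * q * s) +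
        (μ * μ) • (b * q * b) := by
      simp only [sub_mul, mul_sub, smul_mul_assoc, mul_smul_comm]
      module
    have e2 : μ • q = μ • (s * q * s) + μ • (s * q * b) + μ • (b * q * s) + μ • (b * q * b) := by
      conv_lhs => rw [hq]
      simp only [add_mul, mul_add, smul_add]
      abel
    rw [e1, e2, add_smul, mul_add, add_smul, one_smul, mul_one]
    abel
  have h6 : μ * (φ q).re ≤ (1 + μ) * (φ (s * q * s)).re +
      (μ * (1 + μ)) * (φ ((1 - s) * q * (1 - s))).re := by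
    have e1 := congrArg (fun x => (φ x).re) h5
    simp only [map_add, Complex.add_re, re_smul] at e1
    have e2 := re_nonneg φ h3
    linarith
  have h7 := re_mono φ (h4.trans h2)
  have h8 : (φ (1 - s * s)).re ≤ (φ 1).re := by
    refine re_mono φ ?_
    have := q_le_one s
    rwa [hs.star_eq] at this
  have h9 : 0 ≤ (φ 1).re := re_nonneg φ zero_le_one
  have h10 : μ * (φ q).re ≤ μ * ((1 + μ) * μ * (φ 1).re + (1 + μ) * (φ (1 - s * s)).re) := by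
    have e1 : (1 + μ) * (φ (s * q * s)).re ≤ (1 + μ) * (μ ^ 2 * (φ 1).re) :=
      mul_le_mul_of_nonneg_left h1 (by linarith)
    have e2 : (μ * (1 + μ)) * (φ ((1 - s) * q * (1 - s))).re ≤
        (μ * (1 + μ)) * (φ (1 - s * s)).re :=
      mul_le_mul_of_nonneg_left h7 (by positivity)
    nlinarith
  have h11 := le_of_mul_le_mul_left h10 hμ0
  have h12 : μ * (φ (1 - s * s)).re ≤ μ * (φ 1).re := mul_le_mul_of_nonneg_left h8 hμ0.le
  have h13 : μ * μ * (φ 1).re ≤ μ * (φ 1).re := by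
    have : μ * μ ≤ μ := by nlinarith
    exact mul_le_mul_of_nonneg_right this h9
  nlinarith

theorem exists_joint (τ : A →ₚ[ℂ] ℂ) (F : Finset (A →ₚ[ℂ] ℂ)) (v : (A →ₚ[ℂ] ℂ) → ℝ)
    (hv : ∀ φ ∈ F, IsS0 τ φ (v φ)) (ε : ℝ) (hε : 0 < ε) (δ : ℝ) (hδ : 0 < δ) :
    ∃ s : A, IsSelfAdjoint s ∧ 0 ≤ s ∧ ‖s‖ ≤ 1 ∧ (1 - s) * (1 - s) ≤ 1 - s * s ∧
      (τ (1 - s * s)).re ≤ δ ∧ ∀ φ ∈ F, v φ - ε ≤ (φ (1 - s * s)).re := by
  classical
  set C : ℝ := ∑ φ ∈ F, (φ (1 : A)).re with hC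
  have hC0 : 0 ≤ C := Finset.sum_nonneg fun φ _ => re_nonneg φ zero_le_one
  have hφC : ∀ φ ∈ F, (φ (1 : A)).re ≤ C := fun φ hφ =>
    Finset.single_le_sum (f := fun φ : A →ₚ[ℂ] ℂ => (φ (1 : A)).re)
      (fun φ _ => re_nonneg φ zero_le_one) hφ
  set μ : ℝ := min 1 (ε / (6 * (C + 1))) with hμ
  have hμ0 : 0 < μ := lt_min one_pos (by positivity)
  have hμ1 : μ ≤ 1 := min_le_left _ _
  have hμ2 : μ * (6 * (C + 1)) ≤ ε := by
    have := min_le_right (1 : ℝ) (ε / (6 * (C + 1)))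
    rw [← hμ, le_div_iff₀ (by positivity)] at this
    exact this
  set κ : ℝ := μ ^ 2 with hκ
  have hκ0 : 0 < κ := by positivity
  set δ₁ : ℝ := δ * κ / (2 * ((F.card : ℝ) + 1)) with hδ₁
  have hδ₁0 : 0 < δ₁ := by positivity
  have hex : ∀ φ : A →ₚ[ℂ] ℂ, ∃ t : A, ‖t‖ ≤ 1 ∧ (τ (1 - star t * t)).re ≤ δ₁ ∧
      (φ ∈ F → v φ - ε / 2 ≤ (φ (1 - star t * t)).re) := by
    intro φ
    by_cases hφ : φ ∈ F
    · obtain ⟨t, ht, h⟩ := (hv φ hφ).2 (ε / 2) (by positivity) δ₁ hδ₁0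
      exact ⟨t, ht.1, ht.2, fun _ => h⟩
    · refine ⟨1, norm_one_le', ?_, fun h => absurd h hφ⟩
      rw [star_one, mul_one, sub_self, map_zero, Complex.zero_re]
      exact hδ₁0.le
  choose t ht1 ht2 ht3 using hex
  set q : (A →ₚ[ℂ] ℂ) → A := fun φ => 1 - star (t φ) * t φ with hq
  have hq0 : ∀ φ, 0 ≤ q φ := fun φ => q_nonneg (ht1 φ)
  set x : A := ∑ φ ∈ F, q φ with hx
  have hx0 : 0 ≤ x := Finset.sum_nonneg fun φ _ => hq0 φ
  obtain ⟨s, hs1, hs2, hs3, hs4, hs5, hs6⟩ := exists_resolvent x hx0 κ hκ0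
  refine ⟨s, hs1, hs2, hs3, hs5, ?_, fun φ hφ => ?_⟩
  · have h1 := re_mono τ hs6
    rw [re_smul] at h1
    have h2 : (τ x).re ≤ F.card * δ₁ := by
      rw [hx, map_sum, Complex.re_sum]
      refine (Finset.sum_le_sum fun φ _ => ht2 φ).trans (le_of_eq ?_)
      rw [Finset.sum_const, nsmul_eq_mul]
    have h3 : 2 / κ * (F.card * δ₁) ≤ δ := by
      rw [hδ₁]
      have e1 : 2 / κ * (F.card * (δ * κ / (2 * ((F.card : ℝ) + 1)))) =
          δ * (F.card / ((F.card : ℝ) + 1)) := by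
        field_simp
      rw [e1]
      have e2 : (F.card : ℝ) / ((F.card : ℝ) + 1) ≤ 1 := by
        rw [div_le_one (by positivity)]
        linarith
      nlinarith
    have h4 : 2 / κ * (τ x).re ≤ 2 / κ * (F.card * δ₁) :=
      mul_le_mul_of_nonneg_left h2 (by positivity)
    linarith
  · have h1 : (φ (s * q φ * s)).re ≤ μ ^ 2 * (φ 1).re := by
      have e1 : s * q φ * s ≤ s * x * s := by
        have := star_left_conjugate_le_conjugate
          (Finset.single_le_sum (f := q) (fun φ _ => hq0 φ) hφ) s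
        rwa [hs1.star_eq] at this
      have e2 := re_mono φ (e1.trans hs4)
      rw [re_smul] at e2
      exact e2
    have h2 := quad φ (hq0 φ) (q_le_one (t φ)) hs1 hμ0 hμ1 h1 hs5
    have h3 := ht3 φ hφ
    have h4 : 3 * μ * (φ 1).re ≤ ε / 2 := by
      have e1 := hφC φ hφ
      have e2 : μ * (φ 1).re ≤ μ * (C + 1) := mul_le_mul_of_nonneg_left (by linarith) hμ0.le
      linarith
    have h5 : (φ (q φ)).re = (φ (1 - star (t φ) * t φ)).re := rfl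
    linarith

end Crest.Agent.R121.N
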