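import Crest.Agent.R121.NB

/-! Row 121, N, piece NC (helper36): the net.

Index set `ι = Finset (A →ₚ[ℂ] ℂ) × ℕ`, `U = Ultrafilter.of atTop`, `s i` from `exists_joint`
with `F = i.1`, `ε = δ = 1/(i.2+1)` (`v φ` chosen from `exists_s0`).
`small`: given `φ, ε`; `δ₀` from `(IsS0).1` with `ε/4`; take `δ = δ₀/2` (and `δ ≤ …`); eventually
`φ ∈ i.1`, `1/(i.2+1) ≤ min (ε/4) (δ₀/2)`.  For `‖a‖ ≤ 1`, `τ(a* a) ≤ δ₀/2` put
`p = a* a - (1/4)(a* a)²`, `r = 1 - (1/2) a* a` (self-adjoint contraction, `r² = 1 - p`),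
`t = r * s`: `‖t‖ ≤ 1`, `1 - t* t = 1 - s² + s p s`, `τ(s p s) ≤ τ(s a* a s) = τ(a s² a*) ≤
τ(a a*) = τ(a* a) ≤ δ₀/2`, so `t ∈ Sm τ δ₀`, hence `φ(1 - s²) + φ(s p s) ≤ v φ + ε/4` and
`φ(1 - s²) ≥ v φ - ε/4`: `φ(s p s) ≤ ε/2`.  Finally `(a* a)² ≤ a* a` gives
`(3/4) φ(s a* a s) ≤ φ(s p s)`. -/

set_option autoImplicit false

namespace Crest.Agent.R121.N

open scoped ComplexOrder
open Filter Topology

universe u
variable {A : Type u} [CStarAlgebra A] [PartialOrder A] [StarOrderedRing A]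

theorem pos_re_mono (φ : A →ₚ[ℂ] ℂ) {x y : A} (h : x ≤ y) : (φ x).re ≤ (φ y).re :=
  (Complex.le_def.1 (OrderHomClass.mono φ h)).1

theorem mul_star_le_one {a : A} (ha : ‖a‖ ≤ 1) : a * star a ≤ 1 := by
  rw [← CStarAlgebra.norm_le_one_iff_of_nonneg _ (mul_star_self_nonneg a)]
  rw [CStarRing.norm_self_mul_star]
  nlinarith [norm_nonneg a]

theorem star_mul_le_one {a : A} (ha : ‖a‖ ≤ 1) : star a * a ≤ 1 := by
  rw [← CStarAlgebra.norm_le_one_iff_of_nonneg _ (star_mul_self_nonneg a)]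
  rw [CStarRing.norm_star_mul_self]
  nlinarith [norm_nonneg a]

theorem sa_conj_mono {s x y : A} (hs : IsSelfAdjoint s) (h : x ≤ y) : s * x * s ≤ s * y * s := by
  have := star_left_conjugate_le_conjugate h s
  rwa [hs.star_eq] at this

/-- the key estimate -/
theorem net_key (τ φ : A →ₚ[ℂ] ℂ) (htr : ∀ a b, τ (a * b) = τ (b * a)) {v ε δ₀ : ℝ}
    (hv : ∀ t ∈ Sm τ δ₀, (φ (1 - star t * t)).re ≤ v + ε / 4) {s : A} (hs : IsSelfAdjoint s)
    (hs1 : ‖s‖ ≤ 1) (hτs : (τ (1 - s * s)).re ≤ δ₀ / 2) (hφs : v - ε / 4 ≤ (φ (1 - s * s)).re)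
    {a : A} (ha : ‖a‖ ≤ 1) (hτa : (τ (star a * a)).re ≤ δ₀ / 2) (hε : 0 < ε) :
    (φ (s * (star a * a) * s)).re ≤ ε := by
  set b : A := star a * a with hb
  have hb0 : 0 ≤ b := star_mul_self_nonneg a
  have hb1 : b ≤ 1 := star_mul_le_one ha
  have hbsa : star b = b := (IsSelfAdjoint.of_nonneg hb0).star_eq
  have hbb : b * b ≤ b := by
    have h1 := star_left_conjugate_le_conjugate (mul_star_le_one ha) a
    rw [mul_one] at h1
    calc b * b = star a * (a * star a) * a := by rw [hb]; simp only [mul_assoc]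
      _ ≤ star a * a := h1
  have hbb0 : 0 ≤ b * b := by
    have := star_mul_self_nonneg b
    rwa [hbsa] at this
  set r : A := 1 - (1 / 2 : ℝ) • b with hr
  set p : A := b - (1 / 4 : ℝ) • (b * b) with hp
  have hrsa : star r = r := by
    rw [hr, star_sub, star_one, star_smul, hbsa]; simp
  have hrr : r * r = 1 - p := by
    rw [hr, hp, mul_sub, sub_mul, sub_mul, one_mul, mul_one, one_mul, smul_mul_smul_comm]
    have h1 : (1 / 2 : ℝ) • b + (1 / 2 : ℝ) • b = b := by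
      rw [← add_smul]; norm_num
    have h2 : (1 / 2 * (1 / 2) : ℝ) = 1 / 4 := by norm_num
    rw [h2]
    have h3 : (1 : A) - (1 / 2 : ℝ) • b - ((1 / 2 : ℝ) • b - (1 / 4 : ℝ) • (b * b)) =
        1 - ((1 / 2 : ℝ) • b + (1 / 2 : ℝ) • b) + (1 / 4 : ℝ) • (b * b) := by abel
    rw [h3, h1]; abel
  have hhalf : (1 / 2 : ℝ) • b ≤ (1 / 2 : ℝ) • (1 : A) := smul_le_smul_of_nonneg_left hb1 (by norm_num)
  have hr0 : 0 ≤ r := by
    rw [hr, sub_nonneg]
    refine hhalf.trans ?_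
    have h1 : (0 : A) ≤ 1 := zero_le_one
    have := smul_le_smul_of_nonneg_right (show (1 / 2 : ℝ) ≤ 1 by norm_num) h1
    rwa [one_smul] at this
  have hr1 : ‖r‖ ≤ 1 := by
    rw [CStarAlgebra.norm_le_one_iff_of_nonneg _ hr0, hr]
    have : (0 : A) ≤ (1 / 2 : ℝ) • b := smul_nonneg (by norm_num) hb0
    exact sub_le_self _ this
  have ht : r * s ∈ Sm τ δ₀ ∧ (φ (1 - star (r * s) * (r * s))).re =
      (φ (1 - s * s)).re + (φ (s * p * s)).re := by
    have e : 1 - star (r * s) * (r * s) = (1 - s * s) + s * p * s := by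
      have e1 : star (r * s) * (r * s) = s * (r * r) * s := by
        rw [star_mul, hrsa, hs.star_eq]; simp only [mul_assoc]
      rw [e1, hrr, mul_sub, mul_one, sub_mul]
      abel
    refine ⟨⟨?_, ?_⟩, ?_⟩
    · refine (norm_mul_le _ _).trans ?_
      nlinarith [norm_nonneg r, norm_nonneg s]
    · rw [e, map_add, Complex.add_re]
      have h1 : (τ (s * p * s)).re ≤ (τ (s * b * s)).re := by
        apply pos_re_mono
        apply sa_conj_mono hs
        rw [hp]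
        exact sub_le_self _ (smul_nonneg (by norm_num) hbb0)
      have h2 : τ (s * b * s) = τ (a * (s * s) * star a) := by
        have : s * b * s = (s * star a) * (a * s) := by rw [hb]; simp only [mul_assoc]
        rw [this, htr]
        simp only [mul_assoc]
      have h3 : (τ (a * (s * s) * star a)).re ≤ (τ (a * star a)).re := by
        apply pos_re_mono
        have hss : s * s ≤ 1 := by
          have := star_mul_le_one hs1
          rwa [hs.star_eq] at this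
        have := star_right_conjugate_le_conjugate hss a
        rwa [mul_one] at this
      have h4 : τ (a * star a) = τ (star a * a) := htr _ _
      rw [h4] at h3
      rw [h2] at h1
      linarith
    · rw [e, map_add, Complex.add_re]
  have h1 := hv _ ht.1
  rw [ht.2] at h1
  have h2 : (φ (s * ((3 / 4 : ℝ) • b) * s)).re ≤ (φ (s * p * s)).re := by
    apply pos_re_mono
    apply sa_conj_mono hs
    have h3 : (1 / 4 : ℝ) • (b * b) ≤ (1 / 4 : ℝ) • b := smul_le_smul_of_nonneg_left hbb (by norm_num)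
    have h4 : (3 / 4 : ℝ) • b = b - (1 / 4 : ℝ) • b := by
      nth_rewrite 2 [← one_smul ℝ b]
      rw [← sub_smul]; norm_num
    rw [h4, hp]
    exact sub_le_sub_left h3 _
  have h5 : (φ (s * ((3 / 4 : ℝ) • b) * s)).re = 3 / 4 * (φ (s * b * s)).re := by
    have : s * ((3 / 4 : ℝ) • b) * s = (((3 / 4 : ℝ) : ℂ)) • (s * b * s) := by
      rw [mul_smul_comm, smul_mul_assoc, Complex.coe_smul]
    rw [this, map_smul, smul_eq_mul, Complex.re_ofReal_mul]
  have h6 : 0 ≤ (φ (s * b * s)).re := by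
    have h7 : 0 ≤ s * b * s := by
      have := star_left_conjugate_nonneg hb0 s
      rwa [hs.star_eq] at this
    have := pos_re_mono φ h7
    rwa [map_zero, Complex.zero_re] at this
  rw [h5] at h2
  linarith

theorem exists_net (τ : A →ₚ[ℂ] ℂ) (htr : ∀ a b, τ (a * b) = τ (b * a)) :
    ∃ (ι : Type u) (U : Ultrafilter ι) (s : ι → A), IsNet τ U s := by
  classical
  choose v hv using fun φ : A →ₚ[ℂ] ℂ => exists_s0 τ φ
  have hpos : ∀ n : ℕ, (0 : ℝ) < 1 / ((n : ℝ) + 1) := fun n => by positivity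
  choose s hs1 hs2 hs3 hs4 hs5 hs6 using fun i : Finset (A →ₚ[ℂ] ℂ) × ℕ =>
    exists_joint τ i.1 v (fun φ _ => hv φ) (1 / ((i.2 : ℝ) + 1)) (hpos i.2) (1 / ((i.2 : ℝ) + 1))
      (hpos i.2)
  let U : Ultrafilter (Finset (A →ₚ[ℂ] ℂ) × ℕ) := Ultrafilter.of atTop
  have hU : (U : Filter (Finset (A →ₚ[ℂ] ℂ) × ℕ)) ≤ atTop := Ultrafilter.of_le _
  have hsnd : Tendsto (fun i : Finset (A →ₚ[ℂ] ℂ) × ℕ => 1 / ((i.2 : ℝ) + 1)) U (𝓝 0) := by
    have h1 : Tendsto (fun i : Finset (A →ₚ[ℂ] ℂ) × ℕ => i.2) atTop atTop := by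
      rw [← prod_atTop_atTop_eq]; exact tendsto_snd
    exact (tendsto_one_div_add_atTop_nhds_zero_nat.comp h1).mono_left hU
  refine ⟨Finset (A →ₚ[ℂ] ℂ) × ℕ, U, s, hs1, hs2, hs3, hs4, ?_, ?_⟩
  · refine squeeze_zero (fun i => ?_) (fun i => hs5 i) hsnd
    have h1 : 0 ≤ 1 - s i * s i := by
      rw [sub_nonneg]
      have := star_mul_le_one (hs3 i)
      rwa [(hs1 i).star_eq] at this
    have := pos_re_mono τ h1
    rwa [map_zero, Complex.zero_re] at this
  · intro φ ε hε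
    obtain ⟨δ₀, hδ₀, h1⟩ := (hv φ).1 (ε / 4) (by positivity)
    refine ⟨δ₀ / 2, by positivity, ?_⟩
    have e1 : ∀ᶠ i in (U : Filter (Finset (A →ₚ[ℂ] ℂ) × ℕ)), φ ∈ i.1 := by
      apply hU
      filter_upwards [eventually_ge_atTop (({φ} : Finset (A →ₚ[ℂ] ℂ)), 0)] with i hi
      exact hi.1 (Finset.mem_singleton_self φ)
    have e2 : ∀ᶠ i in (U : Filter (Finset (A →ₚ[ℂ] ℂ) × ℕ)),
        1 / ((i.2 : ℝ) + 1) < min (ε / 4) (δ₀ / 2) :=
      hsnd.eventually (gt_mem_nhds (lt_min (by positivity) (by positivity)))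
    filter_upwards [e1, e2] with i hi1 hi2 a ha hτa
    have h2 : 1 / ((i.2 : ℝ) + 1) ≤ ε / 4 := hi2.le.trans (min_le_left _ _)
    have h3 : 1 / ((i.2 : ℝ) + 1) ≤ δ₀ / 2 := hi2.le.trans (min_le_right _ _)
    refine net_key τ φ htr h1 (hs1 i) (hs3 i) ((hs5 i).trans h3) ?_ ha hτa hε
    have := hs6 i φ hi1
    linarith

end Crest.Agent.R121.N
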