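import Mathlib

/-! Row 121, module N (helper26): normal part in the first variable.  Definitions.

`A` a unital C*-algebra, `τ` a positive tracial functional.  `Sm τ δ` = contractions `t` such
that `1 - t* t` has trace `≤ δ`. -/

set_option autoImplicit false

namespace Crest.Agent.R121.N

open scoped ComplexOrder

universe u
variable {A : Type u} [CStarAlgebra A] [PartialOrder A] [StarOrderedRing A]

/-- contractions `t` with `τ(1 - t* t) ≤ δ` -/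
def Sm (τ : A →ₚ[ℂ] ℂ) (δ : ℝ) : Set A := {t | ‖t‖ ≤ 1 ∧ (τ (1 - star t * t)).re ≤ δ}

/-- the singular mass of `φ` relative to `τ` -/
def IsS0 (τ φ : A →ₚ[ℂ] ℂ) (v : ℝ) : Prop :=
  (∀ ε : ℝ, 0 < ε → ∃ δ : ℝ, 0 < δ ∧ ∀ t ∈ Sm τ δ, (φ (1 - star t * t)).re ≤ v + ε) ∧
  (∀ ε : ℝ, 0 < ε → ∀ δ : ℝ, 0 < δ → ∃ t ∈ Sm τ δ, v - ε ≤ (φ (1 - star t * t)).re)

/-- a net of cut-offs -/
structure IsNet (τ : A →ₚ[ℂ] ℂ) {ι : Type u} (U : Ultrafilter ι) (s : ι → A) : Prop where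
  sa : ∀ i, IsSelfAdjoint (s i)
  nonneg : ∀ i, 0 ≤ s i
  norm_le : ∀ i, ‖s i‖ ≤ 1
  sq : ∀ i, (1 - s i) * (1 - s i) ≤ 1 - s i * s i
  lim : Filter.Tendsto (fun i => (τ (1 - s i * s i)).re) U (nhds 0)
  small : ∀ (φ : A →ₚ[ℂ] ℂ) (ε : ℝ), 0 < ε → ∃ δ : ℝ, 0 < δ ∧ ∀ᶠ i in (U : Filter ι),
    ∀ a : A, ‖a‖ ≤ 1 → (τ (star a * a)).re ≤ δ → (φ (s i * (star a * a) * s i)).re ≤ ε

end Crest.Agent.R121.N
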