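import Mathlib

/-!
# Row 121, module P (properly infinite part), file P0: sign averages and the chain lemma

`Σ_p ± F(U_0 p, …, U_k p)` is bounded by `C ∏ B_l` if all `Σ_p ± U_l p` are bounded by `B_l`.
-/

set_option autoImplicit false

namespace Crest.Agent.R121.P

open Finset

/-- sign of a boolean -/
noncomputable def sg (b : Bool) : ℂ := if b then 1 else -1

theorem sg_mul_self (b : Bool) : sg b * sg b = 1 := by cases b <;> simp [sg]

theorem sg_not (b : Bool) : sg (!b) = -sg b := by cases b <;> simp [sg]

theorem sg_norm (b : Bool) : ‖sg b‖ = 1 := by cases b <;> simp [sg]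

theorem sg_star (b : Bool) : (starRingEnd ℂ) (sg b) = sg b := by cases b <;> simp [sg]

/-- orthogonality of the signs -/
theorem sum_sg {n : ℕ} (p q : Fin n) :
    ∑ e : Fin n → Bool, sg (e p) * sg (e q) = if p = q then (2 : ℂ) ^ n else 0 := by
  classical
  by_cases h : p = q
  · subst h
    simp only [sg_mul_self, if_true]
    simp [Fintype.card_pi]
  · rw [if_neg h]
    let φ : (Fin n → Bool) ≃ (Fin n → Bool) :=
      { toFun := fun e => Function.update e p (!(e p))
        invFun := fun e => Function.update e p (!(e p))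
        left_inv := fun e => by
          funext i
          by_cases hi : i = p
          · subst hi; simp
          · simp [Function.update_of_ne hi]
        right_inv := fun e => by
          funext i
          by_cases hi : i = p
          · subst hi; simp
          · simp [Function.update_of_ne hi] }
    have h1 : ∑ e : Fin n → Bool, sg (e p) * sg (e q) =
        ∑ e : Fin n → Bool, -(sg (e p) * sg (e q)) := by
      rw [← Equiv.sum_comp φ]
      refine Finset.sum_congr rfl fun e _ => ?_
      change sg (Function.update e p (!(e p)) p) * sg (Function.update e p (!(e p)) q) = _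
      rw [Function.update_self, Function.update_of_ne (Ne.symm h), sg_not, neg_mul]
    rw [Finset.sum_neg_distrib] at h1
    have h2 : (2 : ℂ) * ∑ e : Fin n → Bool, sg (e p) * sg (e q) = 0 := by
      linear_combination h1
    simpa using h2

/-- splitting a diagonal sum by signs: `G` linear in the first variable -/
theorem diag_split {V W : Type*} [AddCommGroup V] [Module ℂ V] [AddCommGroup W] [Module ℂ W]
    {n : ℕ} (G : Fin n → V →ₗ[ℂ] W) (α : Fin n → ℂ) (u : Fin n → V) :
    (2 : ℂ) ^ n • ∑ p, α p • G p (u p) =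
      ∑ e : Fin n → Bool, ∑ p, sg (e p) • G p (∑ q, (α q * sg (e q)) • u q) := by
  have h1 : ∀ e : Fin n → Bool, ∑ p, sg (e p) • G p (∑ q, (α q * sg (e q)) • u q) =
      ∑ p, ∑ q, (sg (e p) * sg (e q)) • (α q • G p (u q)) := by
    intro e
    refine Finset.sum_congr rfl fun p _ => ?_
    rw [map_sum, Finset.smul_sum]
    refine Finset.sum_congr rfl fun q _ => ?_
    rw [map_smul, smul_smul, smul_smul]
    congr 1
    ring
  rw [Finset.sum_congr rfl fun e _ => h1 e, Finset.sum_comm, Finset.smul_sum]
  refine Finset.sum_congr rfl fun p _ => ?_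
  rw [Finset.sum_comm]
  have h2 : ∀ q : Fin n, ∑ e : Fin n → Bool, (sg (e p) * sg (e q)) • (α q • G p (u q)) =
      if p = q then (2 : ℂ) ^ n • (α q • G p (u q)) else 0 := by
    intro q
    rw [← Finset.sum_smul, sum_sg]
    split_ifs <;> simp
  rw [Finset.sum_congr rfl fun q _ => h2 q, Finset.sum_ite_eq, if_pos (Finset.mem_univ _)]

/-- norm bound from an average over signs -/
theorem norm_le_of_avg {W : Type*} [NormedAddCommGroup W] [NormedSpace ℂ W] {n : ℕ} (x : W)
    (y : (Fin n → Bool) → W) (R : ℝ) (h : (2 : ℂ) ^ n • x = ∑ e, y e) (hy : ∀ e, ‖y e‖ ≤ R) :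
    ‖x‖ ≤ R := by
  have h1 : ‖(2 : ℂ) ^ n • x‖ ≤ 2 ^ n * R := by
    rw [h]
    refine (norm_sum_le _ _).trans ?_
    refine (Finset.sum_le_sum fun e _ => hy e).trans ?_
    simp [Fintype.card_pi]
  rw [norm_smul, norm_pow] at h1
  have h2 : ‖(2 : ℂ)‖ = 2 := by simp
  rw [h2] at h1
  exact le_of_mul_le_mul_left h1 (by positivity)

/-- CHAIN LEMMA -/
theorem chain {V W : Type*} [NormedAddCommGroup V] [NormedSpace ℂ V] [NormedAddCommGroup W]
    [NormedSpace ℂ W] {n : ℕ} : ∀ (k : ℕ) (F : MultilinearMap ℂ (fun _ : Fin (k + 1) => V) W)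
    (C : ℝ), 0 ≤ C → (∀ m, ‖F m‖ ≤ C * ∏ i, ‖m i‖) →
    ∀ (U : Fin (k + 1) → Fin n → V) (B : Fin (k + 1) → ℝ),
    (∀ l, ∀ c d : Fin n → Bool, ‖∑ p, (sg (c p) * sg (d p)) • U l p‖ ≤ B l) →
    ∀ c : Fin n → Bool, ‖∑ p, sg (c p) • F (fun l => U l p)‖ ≤ C * ∏ l, B l := by
  intro k
  induction k with
  | zero =>
    intro F C hC hF U B hB c
    have h1 : ∀ p, F (fun l => U l p) = F.toLinearMap (fun _ => (0 : V)) 0 (U 0 p) := by
      intro p
      rw [MultilinearMap.toLinearMap_apply]
      congr 1
      funext l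
      rw [show l = 0 from Fin.ext (by omega), Function.update_self]
    have h2 : ∑ p, sg (c p) • F (fun l => U l p) =
        F (fun _ => ∑ p, sg (c p) • U 0 p) := by
      have h3 : F (fun _ => ∑ p, sg (c p) • U 0 p) =
          F.toLinearMap (fun _ => (0 : V)) 0 (∑ p, sg (c p) • U 0 p) := by
        rw [MultilinearMap.toLinearMap_apply]
        congr 1
        funext l
        rw [show l = 0 from Fin.ext (by omega), Function.update_self]
      rw [h3, map_sum]
      refine Finset.sum_congr rfl fun p _ => ?_
      rw [h1, map_smul]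
    rw [h2]
    refine (hF _).trans ?_
    refine mul_le_mul_of_nonneg_left ?_ hC
    rw [Fin.prod_univ_one, Fin.prod_univ_one]
    have h4 := hB 0 c (fun _ => true)
    simpa [sg] using h4
  | succ k ih =>
    intro F C hC hF U B hB c
    have hcons : ∀ p, F (fun l => U l p) = F.curryLeft (U 0 p) (fun l => U l.succ p) := by
      intro p
      rw [MultilinearMap.curryLeft_apply]
      congr 1
      funext l
      refine Fin.cases ?_ (fun i => ?_) l
      · rw [Fin.cons_zero]
      · rw [Fin.cons_succ]
    let G : Fin n → V →ₗ[ℂ] W := fun p =>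
      { toFun := fun x => F.curryLeft x (fun l => U l.succ p)
        map_add' := fun x y => by rw [map_add]; rfl
        map_smul' := fun r x => by rw [map_smul]; rfl }
    have hG : ∑ p, sg (c p) • F (fun l => U l p) = ∑ p, sg (c p) • G p (U 0 p) := by
      refine Finset.sum_congr rfl fun p _ => ?_
      rw [hcons]; rfl
    rw [hG]
    refine norm_le_of_avg _ _ _ (diag_split G (fun p => sg (c p)) (fun p => U 0 p)) fun e => ?_
    have hB0 : 0 ≤ B 0 := (norm_nonneg _).trans (hB 0 c e)
    have hmul : C * ∏ l, B l = (C * B 0) * ∏ l : Fin (k + 1), B l.succ := by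
      rw [Fin.prod_univ_succ, mul_assoc]
    rw [hmul]
    refine ih (F.curryLeft (∑ q, (sg (c q) * sg (e q)) • U 0 q)) (C * B 0)
      (mul_nonneg hC hB0) ?_ (fun l p => U l.succ p) (fun l => B l.succ)
      (fun l c' d' => hB l.succ c' d') e
    intro m
    rw [MultilinearMap.curryLeft_apply]
    refine (hF _).trans ?_
    rw [Fin.prod_univ_succ, Fin.cons_zero, mul_assoc]
    refine mul_le_mul_of_nonneg_left ?_ hC
    simp only [Fin.cons_succ]
    exact mul_le_mul_of_nonneg_right (hB 0 c e) (Finset.prod_nonneg fun i _ => norm_nonneg _)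

end Crest.Agent.R121.P
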