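import Crest.Agent.R121.P0

/-!
# Row 121, module P, file P1: isometries with orthogonal ranges, norm bounds
-/

set_option autoImplicit false

namespace Crest.Agent.R121.P

open Finset
open scoped InnerProductSpace

variable {H : Type*} [NormedAddCommGroup H] [InnerProductSpace ℂ H] [CompleteSpace H]

/-- isometries with orthogonal ranges -/
def Orth {m : ℕ} (a : Fin m → H →L[ℂ] H) : Prop :=
  ∀ p q, star (a p) * a q = if p = q then 1 else 0

theorem mul_app (a b : H →L[ℂ] H) (x : H) : (a * b) x = a (b x) := rfl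

theorem Orth.inner {m : ℕ} {a : Fin m → H →L[ℂ] H} (ha : Orth a) (p q : Fin m) (x y : H) :
    ⟪a p x, a q y⟫_ℂ = if p = q then ⟪x, y⟫_ℂ else 0 := by
  have h : ⟪x, (star (a p) * a q) y⟫_ℂ = ⟪x, ((if p = q then 1 else 0 : H →L[ℂ] H)) y⟫_ℂ := by
    rw [ha p q]
  rw [mul_app, ContinuousLinearMap.star_eq_adjoint, ContinuousLinearMap.adjoint_inner_right] at h
  rw [h]
  split_ifs
  · rfl
  · simp

theorem Orth.norm_sum {m : ℕ} {a : Fin m → H →L[ℂ] H} (ha : Orth a) (v : Fin m → H) :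
    ‖∑ p, a p (v p)‖ ^ 2 = ∑ p, ‖v p‖ ^ 2 := by
  rw [← inner_self_eq_norm_sq (𝕜 := ℂ), sum_inner]
  have h1 : ∀ p, ⟪a p (v p), ∑ q, a q (v q)⟫_ℂ = ⟪v p, v p⟫_ℂ := by
    intro p
    rw [inner_sum]
    have h1 : ∀ q, ⟪a p (v p), a q (v q)⟫_ℂ = if p = q then ⟪v p, v q⟫_ℂ else 0 := fun q =>
      ha.inner p q _ _
    rw [Finset.sum_congr rfl fun q _ => h1 q, Finset.sum_ite_eq, if_pos (Finset.mem_univ _)]
  rw [Finset.sum_congr rfl fun p _ => h1 p, map_sum]
  exact Finset.sum_congr rfl fun p _ => inner_self_eq_norm_sq (𝕜 := ℂ) _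

theorem Orth.bessel {m : ℕ} {a : Fin m → H →L[ℂ] H} (ha : Orth a) (v : H) :
    ∑ p, ‖star (a p) v‖ ^ 2 ≤ ‖v‖ ^ 2 := by
  set u : H := ∑ p, a p (star (a p) v) with hu
  have h1 : ‖u‖ ^ 2 = ∑ p, ‖star (a p) v‖ ^ 2 := ha.norm_sum _
  have h2 : ∑ p, ‖star (a p) v‖ ^ 2 = RCLike.re ⟪u, v⟫_ℂ := by
    rw [hu, sum_inner, map_sum]
    refine Finset.sum_congr rfl fun p _ => ?_
    rw [ContinuousLinearMap.star_eq_adjoint, ← ContinuousLinearMap.adjoint_inner_right,
      inner_self_eq_norm_sq]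
  have h3 : ‖u‖ ^ 2 ≤ ‖u‖ * ‖v‖ := by
    rw [h1, h2]
    exact (RCLike.re_le_norm _).trans (norm_inner_le_norm _ _)
  rw [← h1]
  have h5 : ‖u‖ ≤ ‖v‖ := by
    rcases (norm_nonneg u).eq_or_lt with h | h
    · rw [← h]; exact norm_nonneg _
    · rw [pow_two] at h3
      exact le_of_mul_le_mul_left h3 h
  exact pow_le_pow_left₀ (norm_nonneg _) h5 2

/-- the matrix bound -/
def MBd {m : ℕ} (y : Fin m → Fin m → H →L[ℂ] H) (K : ℝ) : Prop :=
  ∀ z : Fin m → H, ∑ p, ‖∑ q, y p q (z q)‖ ^ 2 ≤ K ^ 2 * ∑ q, ‖z q‖ ^ 2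

theorem norm_matrix {m : ℕ} {a b : Fin m → H →L[ℂ] H} (ha : Orth a) (hb : Orth b)
    {y : Fin m → Fin m → H →L[ℂ] H} {K : ℝ} (hK : 0 ≤ K) (hy : MBd y K) (θ β : Fin m → ℂ)
    (hθ : ∀ p, ‖θ p‖ = 1) (hβ : ∀ p, ‖β p‖ = 1) :
    ‖∑ p, θ p • (a p * ∑ q, β q • (y p q * star (b q)))‖ ≤ K := by
  refine ContinuousLinearMap.opNorm_le_bound _ hK fun v => ?_
  have h1 : (∑ p, θ p • (a p * ∑ q, β q • (y p q * star (b q)))) v =
      ∑ p, a p (θ p • ∑ q, y p q (β q • star (b q) v)) := by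
    rw [ContinuousLinearMap.sum_apply]
    refine Finset.sum_congr rfl fun p _ => ?_
    rw [ContinuousLinearMap.smul_apply, mul_app, ContinuousLinearMap.sum_apply, map_smul]
    congr 2
    refine Finset.sum_congr rfl fun q _ => ?_
    rw [ContinuousLinearMap.smul_apply, mul_app, map_smul]
  have h2 : ‖(∑ p, θ p • (a p * ∑ q, β q • (y p q * star (b q)))) v‖ ^ 2 ≤ (K * ‖v‖) ^ 2 := by
    rw [h1, ha.norm_sum]
    have h3 : ∀ p, ‖θ p • ∑ q, y p q (β q • star (b q) v)‖ ^ 2 =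
        ‖∑ q, y p q (β q • star (b q) v)‖ ^ 2 := by
      intro p; rw [norm_smul, hθ, one_mul]
    rw [Finset.sum_congr rfl fun p _ => h3 p]
    refine (hy _).trans ?_
    rw [mul_pow]
    refine mul_le_mul_of_nonneg_left ?_ (by positivity)
    have h4 : ∀ q, ‖β q • star (b q) v‖ ^ 2 = ‖star (b q) v‖ ^ 2 := by
      intro q; rw [norm_smul, hβ, one_mul]
    rw [Finset.sum_congr rfl fun q _ => h4 q]
    exact hb.bessel v
  exact (sq_le_sq₀ (norm_nonneg _) (by positivity)).1 h2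

theorem norm_diag {m : ℕ} {a b : Fin m → H →L[ℂ] H} (ha : Orth a) (hb : Orth b)
    (x : H →L[ℂ] H) (θ : Fin m → ℂ) (hθ : ∀ p, ‖θ p‖ = 1) :
    ‖∑ p, θ p • (a p * x * star (b p))‖ ≤ ‖x‖ := by
  have hy : MBd (fun p q : Fin m => if p = q then x else 0) ‖x‖ := by
    intro z
    rw [Finset.mul_sum]
    refine Finset.sum_le_sum fun p _ => ?_
    have h1 : ∑ q, (if p = q then x else 0) (z q) = x (z p) := by
      have : ∀ q, (if p = q then x else 0) (z q) = if p = q then x (z q) else 0 := by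
        intro q; split_ifs <;> simp
      rw [Finset.sum_congr rfl fun q _ => this q, Finset.sum_ite_eq, if_pos (Finset.mem_univ _)]
    rw [h1, ← mul_pow]
    exact pow_le_pow_left₀ (norm_nonneg _) (x.le_opNorm _) 2
  have h := norm_matrix ha hb (norm_nonneg x) hy θ (fun _ => 1) hθ (fun _ => by simp)
  refine le_trans (le_of_eq ?_) h
  congr 1
  refine Finset.sum_congr rfl fun p _ => ?_
  congr 1
  rw [mul_assoc]
  congr 1
  have : ∀ q, (1 : ℂ) • ((if p = q then x else 0) * star (b q)) =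
      if p = q then x * star (b q) else 0 := by
    intro q; split_ifs <;> simp
  rw [Finset.sum_congr rfl fun q _ => this q, Finset.sum_ite_eq, if_pos (Finset.mem_univ _)]

end Crest.Agent.R121.P
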