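import Crest.Agent.R121.P1

/-!
# Row 121, module P, file P2: the core estimate (signs at every junction)
-/

set_option autoImplicit false

namespace Crest.Agent.R121.P

open Finset
open scoped InnerProductSpace

variable {H : Type*} [NormedAddCommGroup H] [InnerProductSpace ℂ H] [CompleteSpace H]
variable {M : VonNeumannAlgebra H}

/-- the arguments: `a p * x' j * b p*` and `a p * t` -/
noncomputable def args {k m : ℕ} (a : Fin (k + 2) → Fin m → M.toStarSubalgebra)
    (x' : Fin k → M.toStarSubalgebra) (p : Fin m) (t : M.toStarSubalgebra) :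
    Fin (k + 1) → M.toStarSubalgebra :=
  Fin.snoc (α := fun _ => M.toStarSubalgebra)
    (fun j : Fin k => a j.castSucc.castSucc p * x' j * star (a j.castSucc.succ p))
    (a (Fin.last k).castSucc p * t)

/-- evaluation functional -/
noncomputable def Lam (u ζ : H) : M.toStarSubalgebra →ₗ[ℂ] ℂ where
  toFun t := ⟪u, (t : H →L[ℂ] H) ζ⟫_ℂ
  map_add' x y := by
    rw [← inner_add_right]; rfl
  map_smul' c x := by
    rw [RingHom.id_apply, smul_eq_mul, ← inner_smul_right]; rfl

theorem Lam_apply (u ζ : H) (t : M.toStarSubalgebra) :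
    Lam u ζ t = ⟪u, (t : H →L[ℂ] H) ζ⟫_ℂ := rfl

theorem Lam_sum_right {m : ℕ} (u : H) (c : Fin m → ℂ) (ζ : Fin m → H)
    (t : M.toStarSubalgebra) :
    ∑ q, c q • Lam u (ζ q) t = Lam u (∑ q, c q • ζ q) t := by
  rw [Lam_apply, map_sum, inner_sum]
  refine Finset.sum_congr rfl fun q _ => ?_
  rw [map_smul, inner_smul_right, Lam_apply, smul_eq_mul]

/-- `f (snoc U (b * t))` as a linear map of `t` -/
noncomputable def Glin {k m : ℕ}
    (f : MultilinearMap ℂ (fun _ : Fin (k + 1) => M.toStarSubalgebra) M.toStarSubalgebra)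
    (a : Fin (k + 2) → Fin m → M.toStarSubalgebra)
    (x' : Fin k → M.toStarSubalgebra) (p : Fin m) :
    M.toStarSubalgebra →ₗ[ℂ] M.toStarSubalgebra :=
  (f.toLinearMap (args a x' p 0) (Fin.last k)).comp
    (LinearMap.mulLeft ℂ (a (Fin.last k).castSucc p))

theorem Glin_apply {k m : ℕ}
    (f : MultilinearMap ℂ (fun _ : Fin (k + 1) => M.toStarSubalgebra) M.toStarSubalgebra)
    (a : Fin (k + 2) → Fin m → M.toStarSubalgebra)
    (x' : Fin k → M.toStarSubalgebra) (p : Fin m) (t : M.toStarSubalgebra) :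
    Glin f a x' p t = f (args a x' p t) := by
  rw [Glin, LinearMap.comp_apply, LinearMap.mulLeft_apply, MultilinearMap.toLinearMap_apply]
  congr 1
  unfold args
  rw [Fin.update_snoc_last]

theorem norm_coeA (x : M.toStarSubalgebra) : ‖x‖ = ‖(x : H →L[ℂ] H)‖ := rfl

theorem norm_le_sqrt {x B : ℝ} (hx : 0 ≤ x) (h : x ^ 2 = B) : x = Real.sqrt B := by
  rw [← h, Real.sqrt_sq hx]

/-- **core estimate** -/
theorem core {k m : ℕ}
    (f : MultilinearMap ℂ (fun _ : Fin (k + 1) => M.toStarSubalgebra) M.toStarSubalgebra)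
    {C : ℝ} (hC : 0 ≤ C) (hf : ∀ x, ‖f x‖ ≤ C * ∏ i, ‖x i‖)
    (a : Fin (k + 2) → Fin m → M.toStarSubalgebra)
    (ha : ∀ l, Orth (fun p => (a l p : H →L[ℂ] H)))
    (x' : Fin k → M.toStarSubalgebra) (Y : Fin m → Fin m → M.toStarSubalgebra) {K : ℝ}
    (hK : 0 ≤ K) (hY : MBd (fun p q => (Y p q : H →L[ℂ] H)) K) (z w : Fin m → H) :
    ‖∑ p, ∑ q, ⟪(a 0 p : H →L[ℂ] H) (w p),
      ((f (args a x' p (Y p q * star (a (Fin.last (k + 1)) q))) : M.toStarSubalgebra) :
        H →L[ℂ] H) ((a (Fin.last (k + 1)) q : H →L[ℂ] H) (z q))⟫_ℂ‖ ≤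
      C * ((∏ j, ‖x' j‖) * K) * (Real.sqrt (∑ q, ‖z q‖ ^ 2) * Real.sqrt (∑ p, ‖w p‖ ^ 2)) := by
  set ζ : Fin m → H := fun q => (a (Fin.last (k + 1)) q : H →L[ℂ] H) (z q) with hζ
  set u : Fin m → H := fun p => (a 0 p : H →L[ℂ] H) (w p) with hu
  set t : Fin m → Fin m → M.toStarSubalgebra :=
    fun p q => Y p q * star (a (Fin.last (k + 1)) q) with ht
  -- first average (last junction)
  have h1 : (2 : ℂ) ^ m • ∑ p, ∑ q, ⟪u p, ((f (args a x' p (t p q)) : M.toStarSubalgebra) :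
      H →L[ℂ] H) (ζ q)⟫_ℂ = ∑ e : Fin m → Bool, ∑ p, Lam (u p) (∑ q, sg (e q) • ζ q)
        (f (args a x' p (∑ q, (1 * sg (e q)) • t p q))) := by
    rw [Finset.smul_sum, Finset.sum_comm (s := (Finset.univ : Finset (Fin m → Bool)))]
    refine Finset.sum_congr rfl fun p _ => ?_
    have h2 := diag_split (fun q => (Lam (u p) (ζ q)).comp (Glin f a x' p))
      (fun _ => (1 : ℂ)) (fun q => t p q)
    simp only [one_smul, LinearMap.comp_apply, Glin_apply] at h2
    have h3 : ∑ q, ⟪u p, ((f (args a x' p (t p q)) : M.toStarSubalgebra) :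
      H →L[ℂ] H) (ζ q)⟫_ℂ = ∑ q, Lam (u p) (ζ q) (f (args a x' p (t p q))) := rfl
    rw [h3, h2]
    refine Finset.sum_congr rfl fun e _ => ?_
    exact Lam_sum_right (u p) (fun q => sg (e q)) ζ _
  refine norm_le_of_avg _ _ _ h1 fun e => ?_
  -- second average (junction zero)
  set ζe : H := ∑ q, sg (e q) • ζ q with hζe
  set F : Fin m → M.toStarSubalgebra := fun p => f (args a x' p (∑ q, (1 * sg (e q)) • t p q))
    with hF
  have hζn : ‖ζe‖ = Real.sqrt (∑ q, ‖z q‖ ^ 2) := by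
    refine norm_le_sqrt (norm_nonneg _) ?_
    have e1 : ζe = ∑ q, (a (Fin.last (k + 1)) q : H →L[ℂ] H) (sg (e q) • z q) := by
      rw [hζe]
      refine Finset.sum_congr rfl fun q _ => ?_
      rw [map_smul]
    rw [e1, (ha (Fin.last (k + 1))).norm_sum]
    refine Finset.sum_congr rfl fun q _ => ?_
    rw [norm_smul, sg_norm, one_mul]
  have h4 : (2 : ℂ) ^ m • ∑ p, Lam (u p) ζe (F p) =
      ∑ d : Fin m → Bool, ⟪∑ p, sg (d p) • u p,
        ((∑ q, sg (d q) • F q : M.toStarSubalgebra) : H →L[ℂ] H) ζe⟫_ℂ := by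
    have h5 := diag_split (fun p => Lam (u p) ζe) (fun _ => (1 : ℂ)) F
    simp only [one_smul, one_mul] at h5
    rw [h5]
    refine Finset.sum_congr rfl fun d _ => ?_
    rw [sum_inner]
    refine Finset.sum_congr rfl fun p _ => ?_
    rw [inner_smul_left, sg_star, Lam_apply, smul_eq_mul]
  refine norm_le_of_avg _ _ _ h4 fun d => ?_
  have hun : ‖∑ p, sg (d p) • u p‖ = Real.sqrt (∑ p, ‖w p‖ ^ 2) := by
    refine norm_le_sqrt (norm_nonneg _) ?_
    have e1 : ∑ p, sg (d p) • u p = ∑ p, (a 0 p : H →L[ℂ] H) (sg (d p) • w p) := by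
      refine Finset.sum_congr rfl fun q _ => ?_
      rw [map_smul]
    rw [e1, (ha 0).norm_sum]
    refine Finset.sum_congr rfl fun q _ => ?_
    rw [norm_smul, sg_norm, one_mul]
  have hFn : ‖∑ q, sg (d q) • F q‖ ≤ C * ((∏ j, ‖x' j‖) * K) := by
    have hch := chain k f C hC hf
      (fun l p => args a x' p (∑ q, (1 * sg (e q)) • t p q) l)
      (Fin.snoc (α := fun _ => ℝ) (fun j => ‖x' j‖) K) ?_ d
    · rw [Fin.prod_univ_castSucc] at hch
      simp only [Fin.snoc_castSucc, Fin.snoc_last] at hch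
      exact hch
    · intro l c c'
      refine Fin.lastCases ?_ (fun j => ?_) l
      · rw [Fin.snoc_last]
        simp only [args, Fin.snoc_last]
        have h6 := norm_matrix (ha (Fin.last k).castSucc) (ha (Fin.last (k + 1))) hK hY
          (fun p => sg (c p) * sg (c' p)) (fun q => sg (e q))
          (fun p => by rw [norm_mul, sg_norm, sg_norm, one_mul]) (fun q => sg_norm _)
        refine le_trans (le_of_eq ?_) h6
        rw [norm_coeA]
        congr 1
        push_cast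
        simp only [one_mul]
        rfl
      · rw [Fin.snoc_castSucc]
        simp only [args, Fin.snoc_castSucc]
        have h6 := norm_diag (ha j.castSucc.castSucc) (ha j.castSucc.succ) (x' j : H →L[ℂ] H)
          (fun p => sg (c p) * sg (c' p))
          (fun p => by rw [norm_mul, sg_norm, sg_norm, one_mul])
        refine le_trans (le_of_eq ?_) h6
        rw [norm_coeA]
        congr 1
        push_cast
        rfl
  refine (norm_inner_le_norm _ _).trans ?_
  rw [hun]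
  have h7 : ‖((∑ q, sg (d q) • F q : M.toStarSubalgebra) : H →L[ℂ] H) ζe‖ ≤
      C * ((∏ j, ‖x' j‖) * K) * Real.sqrt (∑ q, ‖z q‖ ^ 2) := by
    refine (ContinuousLinearMap.le_opNorm _ _).trans ?_
    rw [hζn]
    exact mul_le_mul_of_nonneg_right hFn (Real.sqrt_nonneg _)
  calc Real.sqrt (∑ p, ‖w p‖ ^ 2) *
        ‖((∑ q, sg (d q) • F q : M.toStarSubalgebra) : H →L[ℂ] H) ζe‖
      ≤ Real.sqrt (∑ p, ‖w p‖ ^ 2) *
        (C * ((∏ j, ‖x' j‖) * K) * Real.sqrt (∑ q, ‖z q‖ ^ 2)) :=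
        mul_le_mul_of_nonneg_left h7 (Real.sqrt_nonneg _)
    _ = _ := by ring

end Crest.Agent.R121.P
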