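import Crest.Agent.R121.P4b
import Crest.Agent.R121.B0
import Crest.Agent.R121.FDefs

/-!
# Row 121, module P (helper66), file P4: the gauge on a properly infinite central piece

`gauge_c`: if `c` is a central projection of `M` with `PInf M c` and `f` is a bounded cocycle then
`c f = f' + d h` where `f'` is a cocycle which is completely bounded in the last variable.
-/

set_option autoImplicit false

namespace Crest.Agent.R121

open Finset
open Crest.OpAlg
open scoped InnerProductSpace

universe u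
variable {H : Type u} [NormedAddCommGroup H] [InnerProductSpace ℂ H] [CompleteSpace H]
variable {M : VonNeumannAlgebra H}

theorem hochschildDiff_sub' {A : Type*} [Ring A] {n : ℕ} (g h : (Fin n → A) → A)
    (a : Fin (n + 1) → A) :
    hochschildDiff (fun x => g x - h x) a = hochschildDiff g a - hochschildDiff h a := by
  unfold hochschildDiff
  simp only [mul_sub, sub_mul, smul_sub, Finset.sum_sub_distrib]
  abel

theorem hochschildDiff_cmul {A : Type*} [Ring A] {n : ℕ} {c : A} (hc : ∀ x, c * x = x * c)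
    (g : (Fin n → A) → A) (a : Fin (n + 1) → A) :
    hochschildDiff (fun x => c * g x) a = c * hochschildDiff g a := by
  unfold hochschildDiff
  simp only [mul_add, Finset.mul_sum, mul_smul_comm, ← mul_assoc]
  rw [hc (a 0)]

theorem gauge_c (M : VonNeumannAlgebra H) {n : ℕ}
    (f : ContinuousMultilinearMap ℂ (fun _ : Fin (n + 1) => M.toStarSubalgebra)
      M.toStarSubalgebra)
    (hf : ∀ a, hochschildDiff f a = 0) :
    ∃ C₁ C₂ : ℝ, 0 ≤ C₁ ∧ 0 ≤ C₂ ∧ ∀ c : H →L[ℂ] H, CProj M c → PInf M c →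
    ∃ (f' : ContinuousMultilinearMap ℂ (fun _ : Fin (n + 1) => M.toStarSubalgebra)
        M.toStarSubalgebra)
      (h : ContinuousMultilinearMap ℂ (fun _ : Fin n => M.toStarSubalgebra) M.toStarSubalgebra),
      (∀ a, hochschildDiff f' a = 0) ∧ LastCB M C₁ f' ∧ (∀ x, ‖h x‖ ≤ C₂ * ∏ i, ‖x i‖) ∧
      ∀ a, c * (f a : H →L[ℂ] H) = ((f' a + hochschildDiff h a : M.toStarSubalgebra) :
        H →L[ℂ] H) := by
  refine ⟨‖f‖, (n + 1) * ‖f‖, norm_nonneg _, by positivity, fun c hc hP => ?_⟩
  set e : M.toStarSubalgebra := ⟨c, hc.mem⟩ with he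
  have hec : ∀ x, e * x = x * e := fun x => Subtype.ext
    (VonNeumannAlgebra.mem_commutant_iff.1 hc.comm (x : H →L[ℂ] H) x.2).symm
  have he2 : e * e = e := Subtype.ext hc.proj.isIdempotentElem
  have hes : star e = e := Subtype.ext hc.proj.isSelfAdjoint.star_eq
  have hen : ‖e‖ ≤ 1 := by
    have h1 : ‖star e * e‖ = ‖e‖ * ‖e‖ := CStarRing.norm_star_mul_self
    rw [hes, he2] at h1
    by_contra h
    nlinarith [norm_nonneg e, not_le.1 h]
  let F : MultilinearMap ℂ (fun _ : Fin (n + 1) => M.toStarSubalgebra) M.toStarSubalgebra :=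
    (LinearMap.mulLeft ℂ e).compMultilinearMap f.toMultilinearMap
  have hFa : ∀ x, F x = e * f x := fun x => rfl
  have hFC : ∀ x, ‖F x‖ ≤ ‖f‖ * ∏ i, ‖x i‖ := by
    intro x
    rw [hFa]
    calc ‖e * f x‖ ≤ ‖e‖ * ‖f x‖ := norm_mul_le _ _
      _ ≤ 1 * ‖f x‖ := mul_le_mul_of_nonneg_right hen (norm_nonneg _)
      _ ≤ ‖f‖ * ∏ i, ‖x i‖ := by rw [one_mul]; exact f.le_opNorm x
  have hFd : ∀ a : Fin (n + 2) → M.toStarSubalgebra, hochschildDiff F a = 0 := by
    intro a
    have h1 : hochschildDiff F a = hochschildDiff (fun x => e * f x) a := rfl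
    rw [h1, hochschildDiff_cmul hec, hf, mul_zero]
  have hPI : ∀ n : ℕ, ∃ s : Fin n → M.toStarSubalgebra, PC.OrthAC e s := by
    intro n
    obtain ⟨s, hs1, hs2⟩ := hP n
    refine ⟨fun i => ⟨s i, hs1 i⟩, fun i j => Subtype.ext ?_⟩
    have h1 := hs2 i j
    by_cases hij : i = j
    · rw [if_pos hij] at h1 ⊢
      exact h1
    · rw [if_neg hij] at h1 ⊢
      exact h1
  obtain ⟨f', G, h1, h2, h3, h4, h5⟩ := PC.propInf_cb he2 hes hec hPI F (norm_nonneg f) hFC hFd
    (fun x => by rw [hFa, ← mul_assoc, he2])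
  refine ⟨f', G, fun a => ?_, ?_, h4, fun a => ?_⟩
  · have h6 : hochschildDiff f' a =
        hochschildDiff (fun x => F x - hochschildDiff G x) a := by
      congr 1
      funext x
      exact h2 x
    rw [h6, hochschildDiff_sub' F (fun x => hochschildDiff G x), hFd, diff_diff, sub_zero]
  · intro x m y hy ξ
    have h7 := h5 m x y 1 zero_le_one (fun z => by rw [one_pow, one_mul]; exact hy z) ξ
    rw [mul_one] at h7
    simp only [h2]
    exact h7
  · rw [h2, sub_add_cancel]
    rfl

end Crest.Agent.R121
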