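import Crest.Agent.R121.P3
import Crest.Agent.R121.P4a

/-!
# Row 121, module P (helper66), file P4b: P1-P3 for partial isometries `s_i` with
`s_i* s_j = δ_ij c`, `c` a central projection.
-/

set_option autoImplicit false

namespace Crest.Agent.R121.PC

open Finset Filter Topology
open scoped InnerProductSpace
open Crest.Agent.R121.P

variable {H : Type*} [NormedAddCommGroup H] [InnerProductSpace ℂ H] [CompleteSpace H]

/-- partial isometries with initial projection `c` and orthogonal ranges -/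
structure OrthC {m : ℕ} (c : H →L[ℂ] H) (a : Fin m → H →L[ℂ] H) : Prop where
  nrm : ∀ v, ‖c v‖ ≤ ‖v‖
  mul : ∀ p q, star (a p) * a q = if p = q then c else 0

theorem OrthC.inner {m : ℕ} {c : H →L[ℂ] H} {a : Fin m → H →L[ℂ] H} (ha : OrthC c a)
    (p q : Fin m) (x y : H) :
    ⟪a p x, a q y⟫_ℂ = if p = q then ⟪x, c y⟫_ℂ else 0 := by
  have h : ⟪x, (star (a p) * a q) y⟫_ℂ = ⟪x, ((if p = q then c else 0 : H →L[ℂ] H)) y⟫_ℂ := by
    rw [ha.mul p q]
  rw [mul_app, ContinuousLinearMap.star_eq_adjoint, ContinuousLinearMap.adjoint_inner_right] at h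
  rw [h]
  split_ifs
  · rfl
  · simp

theorem OrthC.norm_sum_le {m : ℕ} {c : H →L[ℂ] H} {a : Fin m → H →L[ℂ] H} (ha : OrthC c a)
    (v : Fin m → H) :
    ‖∑ p, a p (v p)‖ ^ 2 ≤ ∑ p, ‖v p‖ ^ 2 := by
  rw [← inner_self_eq_norm_sq (𝕜 := ℂ), sum_inner]
  have h1 : ∀ p, ⟪a p (v p), ∑ q, a q (v q)⟫_ℂ = ⟪v p, c (v p)⟫_ℂ := by
    intro p
    rw [inner_sum]
    have h1 : ∀ q, ⟪a p (v p), a q (v q)⟫_ℂ = if p = q then ⟪v p, c (v q)⟫_ℂ else 0 := fun q =>
      ha.inner p q _ _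
    rw [Finset.sum_congr rfl fun q _ => h1 q, Finset.sum_ite_eq, if_pos (Finset.mem_univ _)]
  rw [Finset.sum_congr rfl fun p _ => h1 p, map_sum]
  refine Finset.sum_le_sum fun p _ => ?_
  refine (RCLike.re_le_norm _).trans ((norm_inner_le_norm _ _).trans ?_)
  rw [pow_two]
  exact mul_le_mul_of_nonneg_left (ha.nrm _) (norm_nonneg _)

theorem OrthC.bessel {m : ℕ} {c : H →L[ℂ] H} {a : Fin m → H →L[ℂ] H} (ha : OrthC c a) (v : H) :
    ∑ p, ‖star (a p) v‖ ^ 2 ≤ ‖v‖ ^ 2 := by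
  set u : H := ∑ p, a p (star (a p) v) with hu
  have h1 : ‖u‖ ^ 2 ≤ ∑ p, ‖star (a p) v‖ ^ 2 := ha.norm_sum_le _
  have h2 : ∑ p, ‖star (a p) v‖ ^ 2 = RCLike.re ⟪u, v⟫_ℂ := by
    rw [hu, sum_inner, map_sum]
    refine Finset.sum_congr rfl fun p _ => ?_
    rw [ContinuousLinearMap.star_eq_adjoint, ← ContinuousLinearMap.adjoint_inner_right,
      inner_self_eq_norm_sq]
  have h4 : ∑ p, ‖star (a p) v‖ ^ 2 ≤ ‖u‖ * ‖v‖ := by
    rw [h2]
    exact (RCLike.re_le_norm _).trans (norm_inner_le_norm _ _)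
  have h3 : ‖u‖ ^ 2 ≤ ‖u‖ * ‖v‖ := h1.trans h4
  have h5 : ‖u‖ ≤ ‖v‖ := by
    rcases (norm_nonneg u).eq_or_lt with h | h
    · rw [← h]; exact norm_nonneg _
    · rw [pow_two] at h3
      exact le_of_mul_le_mul_left h3 h
  refine h4.trans ?_
  rw [pow_two]
  exact mul_le_mul_of_nonneg_right h5 (norm_nonneg _)

theorem norm_matrix {m : ℕ} {c : H →L[ℂ] H} {a b : Fin m → H →L[ℂ] H} (ha : OrthC c a) (hb : OrthC c b)
    {y : Fin m → Fin m → H →L[ℂ] H} {K : ℝ} (hK : 0 ≤ K) (hy : MBd y K) (θ β : Fin m → ℂ)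
    (hθ : ∀ p, ‖θ p‖ = 1) (hβ : ∀ p, ‖β p‖ = 1) :
    ‖∑ p, θ p • (a p * ∑ q, β q • (y p q * star (b q)))‖ ≤ K := by
  refine ContinuousLinearMap.opNorm_le_bound _ hK fun v => ?_
  have h1 : (∑ p, θ p • (a p * ∑ q, β q • (y p q * star (b q)))) v =
      ∑ p, a p (θ p • ∑ q, y p q (β q • star (b q) v)) := by
    rw [ContinuousLinearMap.sum_apply]
    refine Finset.sum_congr rfl fun p _ => ?_
    rw [ContinuousLinearMap.smul_apply, mul_app, ContinuousLinearMap.sum_apply, map_smul]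
    congr 2
    refine Finset.sum_congr rfl fun q _ => ?_
    rw [ContinuousLinearMap.smul_apply, mul_app, map_smul]
  have h2 : ‖(∑ p, θ p • (a p * ∑ q, β q • (y p q * star (b q)))) v‖ ^ 2 ≤ (K * ‖v‖) ^ 2 := by
    rw [h1]
    refine (ha.norm_sum_le _).trans ?_
    have h3 : ∀ p, ‖θ p • ∑ q, y p q (β q • star (b q) v)‖ ^ 2 =
        ‖∑ q, y p q (β q • star (b q) v)‖ ^ 2 := by
      intro p; rw [norm_smul, hθ, one_mul]
    rw [Finset.sum_congr rfl fun p _ => h3 p]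
    refine (hy _).trans ?_
    rw [mul_pow]
    refine mul_le_mul_of_nonneg_left ?_ (by positivity)
    have h4 : ∀ q, ‖β q • star (b q) v‖ ^ 2 = ‖star (b q) v‖ ^ 2 := by
      intro q; rw [norm_smul, hβ, one_mul]
    rw [Finset.sum_congr rfl fun q _ => h4 q]
    exact hb.bessel v
  exact (sq_le_sq₀ (norm_nonneg _) (by positivity)).1 h2

theorem norm_diag {m : ℕ} {c : H →L[ℂ] H} {a b : Fin m → H →L[ℂ] H} (ha : OrthC c a) (hb : OrthC c b)
    (x : H →L[ℂ] H) (θ : Fin m → ℂ) (hθ : ∀ p, ‖θ p‖ = 1) :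
    ‖∑ p, θ p • (a p * x * star (b p))‖ ≤ ‖x‖ := by
  have hy : MBd (fun p q : Fin m => if p = q then x else 0) ‖x‖ := by
    intro z
    rw [Finset.mul_sum]
    refine Finset.sum_le_sum fun p _ => ?_
    have h1 : ∑ q, (if p = q then x else 0) (z q) = x (z p) := by
      have : ∀ q, (if p = q then x else 0) (z q) = if p = q then x (z q) else 0 := by
        intro q; split_ifs <;> simp
      rw [Finset.sum_congr rfl fun q _ => this q, Finset.sum_ite_eq, if_pos (Finset.mem_univ _)]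
    rw [h1, ← mul_pow]
    exact pow_le_pow_left₀ (norm_nonneg _) (x.le_opNorm _) 2
  have h := norm_matrix ha hb (norm_nonneg x) hy θ (fun _ => 1) hθ (fun _ => by simp)
  refine le_trans (le_of_eq ?_) h
  congr 1
  refine Finset.sum_congr rfl fun p _ => ?_
  congr 1
  rw [mul_assoc]
  congr 1
  have : ∀ q, (1 : ℂ) • ((if p = q then x else 0) * star (b q)) =
      if p = q then x * star (b q) else 0 := by
    intro q; split_ifs <;> simp
  rw [Finset.sum_congr rfl fun q _ => this q, Finset.sum_ite_eq, if_pos (Finset.mem_univ _)]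


variable {M : VonNeumannAlgebra H}

/-- **core estimate** -/
theorem core {k m : ℕ}
    (f : MultilinearMap ℂ (fun _ : Fin (k + 1) => M.toStarSubalgebra) M.toStarSubalgebra)
    {C : ℝ} (hC : 0 ≤ C) (hf : ∀ x, ‖f x‖ ≤ C * ∏ i, ‖x i‖)
    (a : Fin (k + 2) → Fin m → M.toStarSubalgebra)
    {c : H →L[ℂ] H} (ha : ∀ l, OrthC c (fun p => (a l p : H →L[ℂ] H)))
    (x' : Fin k → M.toStarSubalgebra) (Y : Fin m → Fin m → M.toStarSubalgebra) {K : ℝ}
    (hK : 0 ≤ K) (hY : MBd (fun p q => (Y p q : H →L[ℂ] H)) K) (z w : Fin m → H) :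
    ‖∑ p, ∑ q, ⟪(a 0 p : H →L[ℂ] H) (w p),
      ((f (args a x' p (Y p q * star (a (Fin.last (k + 1)) q))) : M.toStarSubalgebra) :
        H →L[ℂ] H) ((a (Fin.last (k + 1)) q : H →L[ℂ] H) (z q))⟫_ℂ‖ ≤
      C * ((∏ j, ‖x' j‖) * K) * (Real.sqrt (∑ q, ‖z q‖ ^ 2) * Real.sqrt (∑ p, ‖w p‖ ^ 2)) := by
  set ζ : Fin m → H := fun q => (a (Fin.last (k + 1)) q : H →L[ℂ] H) (z q) with hζ
  set u : Fin m → H := fun p => (a 0 p : H →L[ℂ] H) (w p) with hu
  set t : Fin m → Fin m → M.toStarSubalgebra :=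
    fun p q => Y p q * star (a (Fin.last (k + 1)) q) with ht
  -- first average (last junction)
  have h1 : (2 : ℂ) ^ m • ∑ p, ∑ q, ⟪u p, ((f (args a x' p (t p q)) : M.toStarSubalgebra) :
      H →L[ℂ] H) (ζ q)⟫_ℂ = ∑ e : Fin m → Bool, ∑ p, Lam (u p) (∑ q, sg (e q) • ζ q)
        (f (args a x' p (∑ q, (1 * sg (e q)) • t p q))) := by
    rw [Finset.smul_sum, Finset.sum_comm (s := (Finset.univ : Finset (Fin m → Bool)))]
    refine Finset.sum_congr rfl fun p _ => ?_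
    have h2 := diag_split (fun q => (Lam (u p) (ζ q)).comp (Glin f a x' p))
      (fun _ => (1 : ℂ)) (fun q => t p q)
    simp only [one_smul, LinearMap.comp_apply, Glin_apply] at h2
    have h3 : ∑ q, ⟪u p, ((f (args a x' p (t p q)) : M.toStarSubalgebra) :
      H →L[ℂ] H) (ζ q)⟫_ℂ = ∑ q, Lam (u p) (ζ q) (f (args a x' p (t p q))) := rfl
    rw [h3, h2]
    refine Finset.sum_congr rfl fun e _ => ?_
    exact Lam_sum_right (u p) (fun q => sg (e q)) ζ _
  refine norm_le_of_avg _ _ _ h1 fun e => ?_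
  -- second average (junction zero)
  set ζe : H := ∑ q, sg (e q) • ζ q with hζe
  set F : Fin m → M.toStarSubalgebra := fun p => f (args a x' p (∑ q, (1 * sg (e q)) • t p q))
    with hF
  have hζn : ‖ζe‖ ≤ Real.sqrt (∑ q, ‖z q‖ ^ 2) := by
    refine Real.le_sqrt_of_sq_le ?_
    have e1 : ζe = ∑ q, (a (Fin.last (k + 1)) q : H →L[ℂ] H) (sg (e q) • z q) := by
      rw [hζe]
      refine Finset.sum_congr rfl fun q _ => ?_
      rw [map_smul]
    rw [e1]
    refine ((ha (Fin.last (k + 1))).norm_sum_le _).trans (le_of_eq ?_)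
    refine Finset.sum_congr rfl fun q _ => ?_
    rw [norm_smul, sg_norm, one_mul]
  have h4 : (2 : ℂ) ^ m • ∑ p, Lam (u p) ζe (F p) =
      ∑ d : Fin m → Bool, ⟪∑ p, sg (d p) • u p,
        ((∑ q, sg (d q) • F q : M.toStarSubalgebra) : H →L[ℂ] H) ζe⟫_ℂ := by
    have h5 := diag_split (fun p => Lam (u p) ζe) (fun _ => (1 : ℂ)) F
    simp only [one_smul, one_mul] at h5
    rw [h5]
    refine Finset.sum_congr rfl fun d _ => ?_
    rw [sum_inner]
    refine Finset.sum_congr rfl fun p _ => ?_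
    rw [inner_smul_left, sg_star, Lam_apply, smul_eq_mul]
  refine norm_le_of_avg _ _ _ h4 fun d => ?_
  have hun : ‖∑ p, sg (d p) • u p‖ ≤ Real.sqrt (∑ p, ‖w p‖ ^ 2) := by
    refine Real.le_sqrt_of_sq_le ?_
    have e1 : ∑ p, sg (d p) • u p = ∑ p, (a 0 p : H →L[ℂ] H) (sg (d p) • w p) := by
      refine Finset.sum_congr rfl fun q _ => ?_
      rw [map_smul]
    rw [e1]
    refine ((ha 0).norm_sum_le _).trans (le_of_eq ?_)
    refine Finset.sum_congr rfl fun q _ => ?_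
    rw [norm_smul, sg_norm, one_mul]
  have hFn : ‖∑ q, sg (d q) • F q‖ ≤ C * ((∏ j, ‖x' j‖) * K) := by
    have hch := chain k f C hC hf
      (fun l p => args a x' p (∑ q, (1 * sg (e q)) • t p q) l)
      (Fin.snoc (α := fun _ => ℝ) (fun j => ‖x' j‖) K) ?_ d
    · rw [Fin.prod_univ_castSucc] at hch
      simp only [Fin.snoc_castSucc, Fin.snoc_last] at hch
      exact hch
    · intro l c₁ c₁'
      refine Fin.lastCases ?_ (fun j => ?_) l
      · rw [Fin.snoc_last]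
        simp only [args, Fin.snoc_last]
        have h6 := norm_matrix (ha (Fin.last k).castSucc) (ha (Fin.last (k + 1))) hK hY
          (fun p => sg (c₁ p) * sg (c₁' p)) (fun q => sg (e q))
          (fun p => by rw [norm_mul, sg_norm, sg_norm, one_mul]) (fun q => sg_norm _)
        refine le_trans (le_of_eq ?_) h6
        rw [norm_coeA]
        congr 1
        push_cast
        simp only [one_mul]
        rfl
      · rw [Fin.snoc_castSucc]
        simp only [args, Fin.snoc_castSucc]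
        have h6 := norm_diag (ha j.castSucc.castSucc) (ha j.castSucc.succ) (x' j : H →L[ℂ] H)
          (fun p => sg (c₁ p) * sg (c₁' p))
          (fun p => by rw [norm_mul, sg_norm, sg_norm, one_mul])
        refine le_trans (le_of_eq ?_) h6
        rw [norm_coeA]
        congr 1
        push_cast
        rfl
  refine (norm_inner_le_norm _ _).trans ?_
  refine (mul_le_mul_of_nonneg_right hun (norm_nonneg _)).trans ?_
  have h7 : ‖((∑ q, sg (d q) • F q : M.toStarSubalgebra) : H →L[ℂ] H) ζe‖ ≤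
      C * ((∏ j, ‖x' j‖) * K) * Real.sqrt (∑ q, ‖z q‖ ^ 2) := by
    refine (ContinuousLinearMap.le_opNorm _ _).trans ?_
    exact mul_le_mul hFn hζn (norm_nonneg _) (by positivity)
  calc Real.sqrt (∑ p, ‖w p‖ ^ 2) *
        ‖((∑ q, sg (d q) • F q : M.toStarSubalgebra) : H →L[ℂ] H) ζe‖
      ≤ Real.sqrt (∑ p, ‖w p‖ ^ 2) *
        (C * ((∏ j, ‖x' j‖) * K) * Real.sqrt (∑ q, ‖z q‖ ^ 2)) :=
        mul_le_mul_of_nonneg_left h7 (Real.sqrt_nonneg _)
    _ = _ := by ring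


/-- partial isometries with orthogonal ranges in `M` and initial projection `c` -/
def OrthAC {n : ℕ} (c : M.toStarSubalgebra) (s : Fin n → M.toStarSubalgebra) : Prop :=
  ∀ i j, star (s i) * s j = if i = j then c else 0

theorem OrthAC.orth {n m : ℕ} {c : M.toStarSubalgebra} {s : Fin n → M.toStarSubalgebra}
    (hs : OrthAC c s) (hc : ∀ v, ‖(c : H →L[ℂ] H) v‖ ≤ ‖v‖) (g : Fin m → Fin n)
    (hg : Function.Injective g) : OrthC (c : H →L[ℂ] H) (fun p => (s (g p) : H →L[ℂ] H)) := by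
  refine ⟨hc, ?_⟩
  intro p q
  have h2 : ((star (s (g p)) * s (g q) : M.toStarSubalgebra) : H →L[ℂ] H) =
      star (s (g p) : H →L[ℂ] H) * (s (g q) : H →L[ℂ] H) := rfl
  rw [← h2, hs]
  by_cases h3 : p = q
  · subst h3; simp
  · have h4 : g p ≠ g q := fun h => h3 (hg h)
    rw [if_neg h4, if_neg h3]
    rfl

theorem Pf_form {k m n : ℕ} [NeZero n] (hmn : m ≤ n) {c : M.toStarSubalgebra}
    (hc : ∀ v, ‖(c : H →L[ℂ] H) v‖ ≤ ‖v‖) (s : Fin n → M.toStarSubalgebra)
    (hs : OrthAC c s)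
    (f : MultilinearMap ℂ (fun _ : Fin (k + 1) => M.toStarSubalgebra) M.toStarSubalgebra)
    {C : ℝ} (hC : 0 ≤ C) (hf : ∀ x, ‖f x‖ ≤ C * ∏ i, ‖x i‖)
    (x' : Fin k → M.toStarSubalgebra) (Y : Fin m → Fin m → M.toStarSubalgebra) {K : ℝ}
    (hK : 0 ≤ K) (hY : MBd (fun p q => (Y p q : H →L[ℂ] H)) K) (z w : Fin m → H) :
    ‖∑ p, ∑ q, ⟪w p, (Pf s f (Fin.snoc (α := fun _ => M.toStarSubalgebra) x' (Y p q)) :
      H →L[ℂ] H) (z q)⟫_ℂ‖ ≤
      C * ((∏ j, ‖x' j‖) * K) * (Real.sqrt (∑ q, ‖z q‖ ^ 2) * Real.sqrt (∑ p, ‖w p‖ ^ 2)) := by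
  have hn0 : (n : ℂ) ≠ 0 := Nat.cast_ne_zero.2 (NeZero.ne n)
  have hN0 : (n : ℂ) ^ (k + 2) ≠ 0 := pow_ne_zero _ hn0
  set ι : Fin m → Fin n := Fin.castLE hmn with hι
  have hιi : Function.Injective ι := Fin.castLE_injective hmn
  set T : (Fin (k + 2) → Fin n) → Fin m → Fin m → ℂ := fun σ p q =>
    ⟪(s (σ 0) : H →L[ℂ] H) (w p),
        ((f (fun l : Fin (k + 1) => s (σ l.castSucc) *
          (Fin.snoc (α := fun _ => M.toStarSubalgebra) x' (Y p q) l) * star (s (σ l.succ))) :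
          M.toStarSubalgebra) : H →L[ℂ] H) ((s (σ (Fin.last (k + 1))) : H →L[ℂ] H) (z q))⟫_ℂ
    with hT
  set τ : Fin m → Fin m → Fin (k + 2) → Fin n := fun p q =>
    Fin.snoc (α := fun _ => Fin n) (fun _ => ι p) (ι q) with hτ
  have h1 : (n : ℂ) ^ (k + 2) * ∑ p, ∑ q, ⟪w p,
      (Pf s f (Fin.snoc (α := fun _ => M.toStarSubalgebra) x' (Y p q)) : H →L[ℂ] H) (z q)⟫_ℂ =
      ∑ r : Fin (k + 2) → Fin n, ∑ p, ∑ q, T (r + τ p q) p q := by
    rw [Finset.mul_sum, Finset.sum_comm (s := (Finset.univ : Finset (Fin (k + 2) → Fin n)))]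
    refine Finset.sum_congr rfl fun p _ => ?_
    rw [Finset.mul_sum, Finset.sum_comm (s := (Finset.univ : Finset (Fin (k + 2) → Fin n)))]
    refine Finset.sum_congr rfl fun q _ => ?_
    rw [inner_Pf, ← mul_assoc, mul_inv_cancel₀ hN0, one_mul]
    exact (Equiv.sum_comp (Equiv.addRight (τ p q)) (fun σ => T σ p q)).symm
  have h2 : ∀ r : Fin (k + 2) → Fin n, ‖∑ p, ∑ q, T (r + τ p q) p q‖ ≤
      C * ((∏ j, ‖x' j‖) * K) * (Real.sqrt (∑ q, ‖z q‖ ^ 2) * Real.sqrt (∑ p, ‖w p‖ ^ 2)) := by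
    intro r
    set a : Fin (k + 2) → Fin m → M.toStarSubalgebra := fun l p => s (r l + ι p) with ha
    have haO : ∀ l, OrthC (c : H →L[ℂ] H) (fun p => (a l p : H →L[ℂ] H)) := by
      intro l
      exact hs.orth hc (fun p => r l + ι p) fun p q h => hιi (add_left_cancel h)
    refine le_trans (le_of_eq ?_) (PC.core f hC hf a haO x' Y hK hY z w)
    congr 1
    refine Finset.sum_congr rfl fun p _ => Finset.sum_congr rfl fun q _ => ?_
    have hlast : (r + τ p q) (Fin.last (k + 1)) = r (Fin.last (k + 1)) + ι q := by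
      rw [Pi.add_apply, hτ]; simp only [Fin.snoc_last]
    have hcs : ∀ l : Fin (k + 1), (r + τ p q) l.castSucc = r l.castSucc + ι p := by
      intro l
      rw [Pi.add_apply, hτ]; simp only [Fin.snoc_castSucc]
    have h0 : (r + τ p q) 0 = r 0 + ι p := by
      have := hcs 0
      rwa [Fin.castSucc_zero] at this
    rw [hT]
    simp only
    rw [hlast, h0]
    have hargs : (fun l : Fin (k + 1) => s ((r + τ p q) l.castSucc) *
          (Fin.snoc (α := fun _ => M.toStarSubalgebra) x' (Y p q) l) *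
          star (s ((r + τ p q) l.succ))) =
        args a x' p (Y p q * star (a (Fin.last (k + 1)) q)) := by
      funext l
      refine Fin.lastCases ?_ (fun j => ?_) l
      · unfold args
        rw [hcs, Fin.succ_last, hlast, Fin.snoc_last, Fin.snoc_last, mul_assoc]
      · unfold args
        rw [hcs, Fin.snoc_castSucc, Fin.snoc_castSucc, ← Fin.castSucc_succ, hcs]
    rw [hargs]
  have h3 : ‖(n : ℂ) ^ (k + 2) * ∑ p, ∑ q, ⟪w p,
      (Pf s f (Fin.snoc (α := fun _ => M.toStarSubalgebra) x' (Y p q)) : H →L[ℂ] H) (z q)⟫_ℂ‖ ≤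
      (n : ℝ) ^ (k + 2) * (C * ((∏ j, ‖x' j‖) * K) *
        (Real.sqrt (∑ q, ‖z q‖ ^ 2) * Real.sqrt (∑ p, ‖w p‖ ^ 2))) := by
    rw [h1]
    refine (norm_sum_le _ _).trans ?_
    refine (Finset.sum_le_sum fun r _ => h2 r).trans ?_
    rw [Finset.sum_const, Finset.card_univ, nsmul_eq_mul, Fintype.card_pi]
    simp
  rw [norm_mul, norm_pow, Complex.norm_natCast] at h3
  have hn1 : (0 : ℝ) < (n : ℝ) ^ (k + 2) := by
    have : (0 : ℝ) < (n : ℝ) := Nat.cast_pos.2 (NeZero.pos n)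
    positivity
  exact le_of_mul_le_mul_left h3 hn1

/-- the twisted average as a multilinear map -/
noncomputable def PfM {k n : ℕ} [NeZero n] (s : Fin n → M.toStarSubalgebra)
    (f : MultilinearMap ℂ (fun _ : Fin (k + 1) => M.toStarSubalgebra) M.toStarSubalgebra) :
    MultilinearMap ℂ (fun _ : Fin (k + 1) => M.toStarSubalgebra) M.toStarSubalgebra :=
  av fun σ : Fin (k + 2) → Fin n =>
    ((LinearMap.mulRight ℂ (s (σ (Fin.last (k + 1))))).comp
      (LinearMap.mulLeft ℂ (star (s (σ 0))))).compMultilinearMap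
      (f.compLinearMap fun l : Fin (k + 1) =>
        (LinearMap.mulRight ℂ (star (s (σ l.succ)))).comp
          (LinearMap.mulLeft ℂ (s (σ l.castSucc))))

theorem PfM_apply {k n : ℕ} [NeZero n] (s : Fin n → M.toStarSubalgebra)
    (f : MultilinearMap ℂ (fun _ : Fin (k + 1) => M.toStarSubalgebra) M.toStarSubalgebra)
    (x : Fin (k + 1) → M.toStarSubalgebra) : PfM s f x = Pf s f x := by
  unfold PfM Pf av
  rw [MultilinearMap.smul_apply, MultilinearMap.sum_apply]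
  rfl

theorem norm_Pf_le {k n : ℕ} [NeZero n] (s : Fin n → M.toStarSubalgebra)
    (hs : ∀ i, ‖s i‖ ≤ 1)
    (f : MultilinearMap ℂ (fun _ : Fin (k + 1) => M.toStarSubalgebra) M.toStarSubalgebra)
    {C : ℝ} (hC : 0 ≤ C) (hf : ∀ x, ‖f x‖ ≤ C * ∏ i, ‖x i‖)
    (x : Fin (k + 1) → M.toStarSubalgebra) : ‖PfM s f x‖ ≤ C * ∏ i, ‖x i‖ := by
  rw [PfM_apply]
  unfold Pf
  refine norm_av_le _ fun σ => ?_
  have hs' : ∀ i, ‖star (s i)‖ ≤ 1 := fun i => by rw [norm_star]; exact hs i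
  have h1 : ‖f (fun l : Fin (k + 1) => s (σ l.castSucc) * x l * star (s (σ l.succ)))‖ ≤
      C * ∏ i, ‖x i‖ := by
    refine (hf _).trans (mul_le_mul_of_nonneg_left ?_ hC)
    refine Finset.prod_le_prod (fun i _ => norm_nonneg _) fun i _ => ?_
    calc ‖s (σ i.castSucc) * x i * star (s (σ i.succ))‖
        ≤ ‖s (σ i.castSucc)‖ * ‖x i‖ * ‖star (s (σ i.succ))‖ := norm_mul₃_le
      _ ≤ 1 * ‖x i‖ * 1 := by
          have := norm_nonneg (x i)
          exact mul_le_mul (mul_le_mul_of_nonneg_right (hs _) this) (hs' _)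
            (norm_nonneg _) (by linarith)
      _ = ‖x i‖ := by ring
  calc _ ≤ ‖star (s (σ 0))‖ *
        ‖f (fun l : Fin (k + 1) => s (σ l.castSucc) * x l * star (s (σ l.succ)))‖ *
        ‖s (σ (Fin.last (k + 1)))‖ := norm_mul₃_le
    _ ≤ 1 * (C * ∏ i, ‖x i‖) * 1 := by
        have h2 : 0 ≤ C * ∏ i, ‖x i‖ := (norm_nonneg _).trans h1
        exact mul_le_mul (mul_le_mul (hs' _) h1 (norm_nonneg _) zero_le_one) (hs _)
          (norm_nonneg _) (by linarith)
    _ = C * ∏ i, ‖x i‖ := by ring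

/-- **module P**: a bounded cocycle on a von Neumann algebra which contains arbitrarily many
isometries with orthogonal ranges is cohomologous to one which is completely bounded in the
last variable. -/
theorem propInf_cb {c : M.toStarSubalgebra} (hc2 : c * c = c) (hcs : star c = c)
    (hcc : ∀ x, c * x = x * c)
    (hPI : ∀ n : ℕ, ∃ s : Fin n → M.toStarSubalgebra, OrthAC c s) {k : ℕ}
    (f : MultilinearMap ℂ (fun _ : Fin (k + 1) => M.toStarSubalgebra) M.toStarSubalgebra)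
    {C : ℝ} (hC : 0 ≤ C) (hfC : ∀ x, ‖f x‖ ≤ C * ∏ i, ‖x i‖)
    (hf : ∀ a : Fin (k + 2) → M.toStarSubalgebra, Crest.OpAlg.hochschildDiff f a = 0)
    (hcf : ∀ x, c * f x = f x) :
    ∃ (F' : ContinuousMultilinearMap ℂ (fun _ : Fin (k + 1) => M.toStarSubalgebra)
        M.toStarSubalgebra)
      (G : ContinuousMultilinearMap ℂ (fun _ : Fin k => M.toStarSubalgebra) M.toStarSubalgebra),
      ‖F'‖ ≤ C ∧ (∀ x, F' x = f x - Crest.OpAlg.hochschildDiff G x) ∧
      ‖G‖ ≤ (k + 1) * C ∧ (∀ x, ‖G x‖ ≤ (k + 1) * C * ∏ j, ‖x j‖) ∧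
      ∀ (m : ℕ) (x' : Fin k → M.toStarSubalgebra) (Y : Fin m → Fin m → M.toStarSubalgebra)
        (K : ℝ), 0 ≤ K → MBd (fun p q => (Y p q : H →L[ℂ] H)) K →
        MBd (fun p q =>
          ((f (Fin.snoc (α := fun _ => M.toStarSubalgebra) x' (Y p q)) -
            Crest.OpAlg.hochschildDiff G
              (Fin.snoc (α := fun _ => M.toStarSubalgebra) x' (Y p q)) :
            M.toStarSubalgebra) : H →L[ℂ] H)) (C * ((∏ j, ‖x' j‖) * K)) := by
  choose s hs using fun n : ℕ => hPI (n + 1)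
  have hcn1 : ‖c‖ ≤ 1 := by
    have h1 : ‖star c * c‖ = ‖c‖ * ‖c‖ := CStarRing.norm_star_mul_self
    rw [hcs, hc2] at h1
    by_contra h
    nlinarith [norm_nonneg c, not_le.1 h]
  have hcn : ∀ v, ‖(c : H →L[ℂ] H) v‖ ≤ ‖v‖ := by
    intro v
    have h1 : ‖(c : H →L[ℂ] H)‖ ≤ 1 := hcn1
    exact ((c : H →L[ℂ] H).le_of_opNorm_le h1 v).trans (by rw [one_mul])
  have hnorm : ∀ (n : ℕ) (i : Fin (n + 1)), ‖s n i‖ ≤ 1 := by
    intro n i
    have h1 : ‖star (s n i) * s n i‖ = ‖s n i‖ * ‖s n i‖ := CStarRing.norm_star_mul_self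
    rw [hs n i i, if_pos rfl] at h1
    by_contra h
    nlinarith [norm_nonneg (s n i), not_le.1 h]
  have hsc : ∀ (n : ℕ) (i : Fin (n + 1)), s n i * c = s n i := by
    intro n i
    have h0 : star (s n i) * s n i = c := by rw [hs n i i, if_pos rfl]
    have h1 : star (s n i * c - s n i) * (s n i * c - s n i) = 0 := by
      rw [star_sub, star_mul, hcs]
      calc (c * star (s n i) - star (s n i)) * (s n i * c - s n i)
          = c * (star (s n i) * s n i) * c - c * (star (s n i) * s n i) -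
            (star (s n i) * s n i) * c + star (s n i) * s n i := by noncomm_ring
        _ = 0 := by rw [h0, hc2, hc2]; noncomm_ring
    have h2 : ‖star (s n i * c - s n i) * (s n i * c - s n i)‖ =
        ‖s n i * c - s n i‖ * ‖s n i * c - s n i‖ := CStarRing.norm_star_mul_self
    rw [h1, norm_zero] at h2
    have h3 : ‖s n i * c - s n i‖ = 0 := by
      rcases mul_eq_zero.1 h2.symm with h | h <;> exact h
    exact sub_eq_zero.1 (norm_eq_zero.1 h3)
  have hPB : ∀ n, PB c (s n) (fun i => star (s n i)) := by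
    intro n
    refine ⟨hcc, fun i => by rw [hs n i i, if_pos rfl], hsc n, fun i => ?_⟩
    have h1 := congrArg star (hsc n i)
    rwa [star_mul, hcs] at h1
  let g : ℕ → MultilinearMap ℂ (fun _ : Fin k => M.toStarSubalgebra) M.toStarSubalgebra :=
    fun n => homot f (s n) (fun i => star (s n i))
  have hg : ∀ n x, ‖g n x‖ ≤ (k + 1) * C * ∏ j, ‖x j‖ := fun n x =>
    norm_homot_le f hC hfC (s n) (fun i => star (s n i)) (hnorm n)
      (fun i => by rw [norm_star]; exact hnorm n i) x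
  obtain ⟨G, hG1, hG2, hG3⟩ := exists_wlim M (hyperfilter ℕ) g
    (C := (k + 1) * C) (by positivity) hg
  obtain ⟨F', hF1, -, hF3⟩ := exists_wlim M (hyperfilter ℕ) (fun n => PfM (s n) f)
    (C := C) hC (fun n x => norm_Pf_le (s n) (hnorm n) f hC hfC x)
  have hdiff0 : ∀ (n : ℕ) (x : Fin (k + 1) → M.toStarSubalgebra),
      f x - Crest.OpAlg.hochschildDiff (g n) x = Pf (s n) f x := fun n x =>
    PC.homot_diff f hf (s n) (fun i => star (s n i)) (hPB n) hcf x
  have hF'x : ∀ x, F' x = f x - Crest.OpAlg.hochschildDiff G x := by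
    intro x
    refine alg_ext fun ξ η => tendsto_nhds_unique (hF3 x ξ η) ?_
    have h1 := tendsto_diff (M := M) (l := (hyperfilter ℕ : Filter ℕ)) (g := fun i => ⇑(g i))
      (G := ⇑G) hG3 x ξ η
    have h2 := (tendsto_const_nhds (x := ⟪((f x : M.toStarSubalgebra) : H →L[ℂ] H) ξ, η⟫_ℂ)
      (f := (hyperfilter ℕ : Filter ℕ))).sub h1
    have e1 : ∀ a b : M.toStarSubalgebra, ⟪((a - b : M.toStarSubalgebra) : H →L[ℂ] H) ξ,
        η⟫_ℂ = ⟪(a : H →L[ℂ] H) ξ, η⟫_ℂ - ⟪(b : H →L[ℂ] H) ξ, η⟫_ℂ := by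
      intro a b
      rw [← inner_sub_left]; rfl
    rw [e1]
    refine h2.congr fun n => ?_
    rw [← e1, hdiff0, PfM_apply]
  refine ⟨F', G, hF1, hF'x, hG1, hG2, fun m x' Y K hK hY => ?_⟩
  refine vec_of_form _ (by positivity) fun z w => ?_
  have hlim : Tendsto (fun n : ℕ => ∑ p, ∑ q,
      ⟪((f (Fin.snoc (α := fun _ => M.toStarSubalgebra) x' (Y p q)) -
          Crest.OpAlg.hochschildDiff (g n)
            (Fin.snoc (α := fun _ => M.toStarSubalgebra) x' (Y p q)) :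
          M.toStarSubalgebra) : H →L[ℂ] H) (z q), w p⟫_ℂ) (hyperfilter ℕ)
      (𝓝 (∑ p, ∑ q,
      ⟪((f (Fin.snoc (α := fun _ => M.toStarSubalgebra) x' (Y p q)) -
          Crest.OpAlg.hochschildDiff G
            (Fin.snoc (α := fun _ => M.toStarSubalgebra) x' (Y p q)) :
          M.toStarSubalgebra) : H →L[ℂ] H) (z q), w p⟫_ℂ)) := by
    refine tendsto_finsetSum _ fun p _ => tendsto_finsetSum _ fun q _ => ?_
    have h1 := tendsto_diff (M := M) (l := (hyperfilter ℕ : Filter ℕ)) (g := fun i => ⇑(g i))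
      (G := ⇑G) hG3 (Fin.snoc (α := fun _ => M.toStarSubalgebra) x' (Y p q)) (z q) (w p)
    have h2 := (tendsto_const_nhds (x := ⟪((f (Fin.snoc (α := fun _ => M.toStarSubalgebra)
      x' (Y p q)) : M.toStarSubalgebra) : H →L[ℂ] H) (z q), w p⟫_ℂ)
      (f := (hyperfilter ℕ : Filter ℕ))).sub h1
    have e1 : ∀ a b : M.toStarSubalgebra, ⟪((a - b : M.toStarSubalgebra) : H →L[ℂ] H) (z q),
        w p⟫_ℂ = ⟪(a : H →L[ℂ] H) (z q), w p⟫_ℂ - ⟪(b : H →L[ℂ] H) (z q), w p⟫_ℂ := by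
      intro a b
      rw [← inner_sub_left]; rfl
    simp only [e1]
    exact h2
  refine le_of_tendsto hlim.norm ?_
  have hge : ∀ᶠ n : ℕ in (hyperfilter ℕ : Filter ℕ), m ≤ n :=
    Nat.hyperfilter_le_atTop (eventually_ge_atTop m)
  filter_upwards [hge] with n hn
  have hdiff : ∀ x : Fin (k + 1) → M.toStarSubalgebra,
      f x - Crest.OpAlg.hochschildDiff (g n) x = Pf (s n) f x := fun x =>
    PC.homot_diff f hf (s n) (fun i => star (s n i)) (hPB n) hcf x
  have h3 := PC.Pf_form (show m ≤ n + 1 by omega) hcn (s n) (hs n) f hC hfC x' Y hK hY z w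
  refine le_trans (le_of_eq ?_) h3
  rw [← RCLike.norm_conj (∑ p, ∑ q, ⟪w p,
    (Pf (s n) f (Fin.snoc (α := fun _ => M.toStarSubalgebra) x' (Y p q)) : H →L[ℂ] H) (z q)⟫_ℂ)]
  congr 1
  rw [map_sum]
  refine Finset.sum_congr rfl fun p _ => ?_
  rw [map_sum]
  refine Finset.sum_congr rfl fun q _ => ?_
  rw [inner_conj_symm, hdiff]


end Crest.Agent.R121.PC
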