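import Crest.Agent.R121.P4
import Crest.Agent.R121.F0

/-!
# Row 121, module P (helper66), file P5: properly infinite pieces are good
-/

set_option autoImplicit false

namespace Crest.Agent.R121

open Crest.OpAlg

universe u
variable {H : Type u} [NormedAddCommGroup H] [InnerProductSpace ℂ H] [CompleteSpace H]

/-- **properly infinite pieces** -/
theorem good_pinf (M : VonNeumannAlgebra H) {n : ℕ}
    (f : ContinuousMultilinearMap ℂ (fun _ : Fin (n + 1) => M.toStarSubalgebra)
      M.toStarSubalgebra)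
    (hf : ∀ a, hochschildDiff f a = 0) :
    ∃ C : ℝ, ∀ c : H →L[ℂ] H, CProj M c → PInf M c → Good M f C c := by
  obtain ⟨C₁, C₂, h1, h2, h⟩ := gauge_c M f hf
  refine ⟨C₁ + C₂, fun c hc hP => ?_⟩
  obtain ⟨f', g, h3, h4, h5, h6⟩ := h c hc hP
  exact good_of_gauge M f f' g h1 h3 h4 h5 h6

end Crest.Agent.R121
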