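import Mathlib

/-!
# Row 121, module Q (helper15), part 1: a tracial functional and a vector

`A` unital C*-algebra, `π : A → B(H)` a *-representation.  A functional is `IsNorm π` when it is a norm limit
of finite sums of vector functionals `x ↦ ⟨a, π x b⟩`.
`single`: `τ` tracial positive, `ξ ∈ H`.  Either there is a nonzero `IsNorm` tracial positive functional which
vanishes where `τ` vanishes, or `‖ξ - x ξ‖² + τ(x* x)` gets arbitrarily small.
-/

set_option autoImplicit false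

namespace Crest.Agent.R121.Q

open scoped InnerProductSpace ComplexOrder
open UniformSpace

universe u v

variable {A : Type u} [CStarAlgebra A] [PartialOrder A] [StarOrderedRing A]
variable {H : Type v} [NormedAddCommGroup H] [InnerProductSpace ℂ H] [CompleteSpace H]

/-- norm limits of finite sums of vector functionals -/
def IsNorm (π : A →⋆ₐ[ℂ] (H →L[ℂ] H)) (φ : A → ℂ) : Prop :=
  ∀ ε : ℝ, 0 < ε → ∃ (n : ℕ) (a b : Fin n → H), ∀ x : A,
    ‖φ x - ∑ k, ⟪a k, π x (b k)⟫_ℂ‖ ≤ ε * ‖x‖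

section Gns
variable (τ : A →ₚ[ℂ] ℂ)

/-- the cyclic vector -/
noncomputable def xt : τ.GNS := ((τ.toPreGNS 1 : τ.PreGNS) : τ.GNS)

theorem rho_xt (x : A) : τ.gnsStarAlgHom x (xt τ) = ((τ.toPreGNS x : τ.PreGNS) : τ.GNS) := by
  show τ.gnsNonUnitalStarAlgHom x _ = _
  rw [xt, PositiveLinearMap.gnsNonUnitalStarAlgHom_apply_coe,
    PositiveLinearMap.leftMulMapPreGNS_apply]
  simp

theorem rho_coe (x : A) (y : τ.PreGNS) :
    τ.gnsStarAlgHom x (y : τ.GNS) = ((τ.toPreGNS (x * τ.ofPreGNS y) : τ.PreGNS) : τ.GNS) := by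
  show τ.gnsNonUnitalStarAlgHom x _ = _
  rw [PositiveLinearMap.gnsNonUnitalStarAlgHom_apply_coe,
    PositiveLinearMap.leftMulMapPreGNS_apply]

theorem inner_coe (x y : A) :
    ⟪((τ.toPreGNS x : τ.PreGNS) : τ.GNS), ((τ.toPreGNS y : τ.PreGNS) : τ.GNS)⟫_ℂ
      = τ (star x * y) := by
  rw [Completion.inner_coe, PositiveLinearMap.preGNS_inner_def]
  simp

/-- the conjugation `x ξ_τ ↦ u x u* ξ_τ` on the pre-GNS space -/
noncomputable def Vp (hτ : ∀ x y, τ (x * y) = τ (y * x)) (w : unitary A) : τ.PreGNS →L[ℂ] τ.PreGNS :=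
  LinearMap.mkContinuous
    { toFun := fun x => τ.toPreGNS ((w : A) * τ.ofPreGNS x * star (w : A))
      map_add' := fun x y => by simp [mul_add, add_mul]
      map_smul' := fun c x => by simp }
    1 (fun x => by
      have h1 : τ (star ((w : A) * τ.ofPreGNS x * star (w : A)) *
          ((w : A) * τ.ofPreGNS x * star (w : A))) = τ (star (τ.ofPreGNS x) * τ.ofPreGNS x) := by
        have h2 : star ((w : A) * τ.ofPreGNS x * star (w : A)) *
          ((w : A) * τ.ofPreGNS x * star (w : A)) =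
          (w : A) * (star (τ.ofPreGNS x) * (star (w : A) * (w : A)) * τ.ofPreGNS x * star (w : A)) := by
          simp only [star_mul, star_star, mul_assoc]
        rw [h2, hτ, Unitary.coe_star_mul_self]
        simp only [mul_one, mul_assoc, Unitary.coe_star_mul_self]
      rw [one_mul]
      refine le_of_eq ?_
      show ‖τ.toPreGNS ((w : A) * τ.ofPreGNS x * star (w : A))‖ = ‖x‖
      rw [PositiveLinearMap.preGNS_norm_def, PositiveLinearMap.preGNS_norm_def,
        PositiveLinearMap.ofPreGNS_toPreGNS, h1])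

variable {τ}

/-- the conjugation on the GNS space -/
noncomputable def V (hτ : ∀ x y, τ (x * y) = τ (y * x)) (w : unitary A) : τ.GNS →L[ℂ] τ.GNS :=
  (Vp τ hτ w).completion

variable (hτ : ∀ x y, τ (x * y) = τ (y * x))

theorem V_coe (w : unitary A) (x : A) :
    V hτ w ((τ.toPreGNS x : τ.PreGNS) : τ.GNS)
      = ((τ.toPreGNS ((w : A) * x * star (w : A)) : τ.PreGNS) : τ.GNS) := by
  rw [V, ContinuousLinearMap.completion_apply_coe]
  rfl

theorem V_inner (w : unitary A) (a b : τ.GNS) : ⟪V hτ w a, V hτ w b⟫_ℂ = ⟪a, b⟫_ℂ := by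
  induction a, b using Completion.induction_on₂ with
  | hp => apply isClosed_eq <;> fun_prop
  | ih x y =>
    have hx : x = τ.toPreGNS (τ.ofPreGNS x) := rfl
    have hy : y = τ.toPreGNS (τ.ofPreGNS y) := rfl
    rw [hx, hy, V_coe, V_coe, inner_coe, inner_coe]
    have h2 : star ((w : A) * τ.ofPreGNS x * star (w : A)) *
          ((w : A) * τ.ofPreGNS y * star (w : A)) =
          (w : A) * (star (τ.ofPreGNS x) * (star (w : A) * (w : A)) * τ.ofPreGNS y * star (w : A)) := by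
      simp only [star_mul, star_star, mul_assoc]
    rw [h2, hτ, Unitary.coe_star_mul_self]
    simp only [mul_one, mul_assoc, Unitary.coe_star_mul_self]

theorem V_rho (w : unitary A) (y : A) (a : τ.GNS) :
    V hτ w (τ.gnsStarAlgHom y a) = τ.gnsStarAlgHom ((w : A) * y * star (w : A)) (V hτ w a) := by
  induction a using Completion.induction_on with
  | hp => apply isClosed_eq <;> fun_prop
  | ih x =>
    have hx : x = τ.toPreGNS (τ.ofPreGNS x) := rfl
    rw [hx, rho_coe, V_coe, V_coe, rho_coe]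
    simp only [PositiveLinearMap.ofPreGNS_toPreGNS, mul_assoc]
    rw [← mul_assoc (star (w : A)) (w : A), Unitary.coe_star_mul_self, one_mul]

theorem V_xt (w : unitary A) : V hτ w (xt τ) = xt τ := by
  rw [xt, V_coe]
  simp

theorem V_star (w : unitary A) (a : τ.GNS) : V hτ w (V hτ (star w) a) = a := by
  induction a using Completion.induction_on with
  | hp => apply isClosed_eq <;> fun_prop
  | ih x =>
    have hx : x = τ.toPreGNS (τ.ofPreGNS x) := rfl
    rw [hx, V_coe, V_coe]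
    have : (w : A) * (((star w : unitary A) : A) * τ.ofPreGNS x * star ((star w : unitary A) : A)) *
        star (w : A) = τ.ofPreGNS x := by
      have h1 : (w : A) * star (w : A) = 1 := Unitary.mul_star_self_of_mem w.2
      rw [Unitary.coe_star, star_star]
      simp only [mul_assoc, h1, mul_one]
      rw [← mul_assoc, h1, one_mul]
    rw [this]

end Gns

section Nt
variable (τ : A →ₚ[ℂ] ℂ) (π : A →⋆ₐ[ℂ] (H →L[ℂ] H))

omit [PartialOrder A] [StarOrderedRing A] in
theorem isNorm_add {φ ψ : A → ℂ} (hφ : IsNorm π φ) (hψ : IsNorm π ψ) :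
    IsNorm π (fun x => φ x + ψ x) := by
  intro ε hε
  obtain ⟨n, a, b, h⟩ := hφ (ε / 2) (by positivity)
  obtain ⟨m, a', b', h'⟩ := hψ (ε / 2) (by positivity)
  refine ⟨n + m, Fin.append a a', Fin.append b b', fun x => ?_⟩
  rw [Fin.sum_univ_add]
  simp only [Fin.append_left, Fin.append_right]
  have e : φ x + ψ x - (∑ k, ⟪a k, π x (b k)⟫_ℂ + ∑ k, ⟪a' k, π x (b' k)⟫_ℂ) =
      (φ x - ∑ k, ⟪a k, π x (b k)⟫_ℂ) + (ψ x - ∑ k, ⟪a' k, π x (b' k)⟫_ℂ) := by ring
  rw [e]
  refine (norm_add_le _ _).trans ?_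
  have := h x
  have := h' x
  linarith

omit [PartialOrder A] [StarOrderedRing A] in
theorem isNorm_smul (c : ℂ) {φ : A → ℂ} (hφ : IsNorm π φ) : IsNorm π (fun x => c * φ x) := by
  intro ε hε
  have hc : 0 < ‖c‖ + 1 := by positivity
  obtain ⟨n, a, b, h⟩ := hφ (ε / (‖c‖ + 1)) (by positivity)
  refine ⟨n, a, fun k => c • b k, fun x => ?_⟩
  have e : c * φ x - ∑ k, ⟪a k, π x (c • b k)⟫_ℂ = c * (φ x - ∑ k, ⟪a k, π x (b k)⟫_ℂ) := by
    rw [mul_sub, Finset.mul_sum]
    congr 1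
    refine Finset.sum_congr rfl fun k _ => ?_
    rw [map_smul, inner_smul_right]
  rw [e, norm_mul]
  calc ‖c‖ * ‖φ x - ∑ k, ⟪a k, π x (b k)⟫_ℂ‖ ≤ (‖c‖ + 1) * (ε / (‖c‖ + 1) * ‖x‖) := by
        refine mul_le_mul (by linarith) (h x) (norm_nonneg _) hc.le
    _ = ε * ‖x‖ := by field_simp

/-- the vectors of the GNS space which define normal functionals -/
noncomputable def Nt : Submodule ℂ τ.GNS where
  carrier := {κ | IsNorm π fun y => ⟪xt τ, τ.gnsStarAlgHom y κ⟫_ℂ}
  add_mem' := by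
    intro a b ha hb
    have := isNorm_add π ha hb
    simpa only [Set.mem_ofPred_eq, map_add, inner_add_right] using this
  zero_mem' := by
    intro ε hε
    refine ⟨0, Fin.elim0, Fin.elim0, fun x => ?_⟩
    simp only [map_zero, inner_zero_right, Finset.univ_eq_empty, Finset.sum_empty, sub_zero,
      norm_zero]
    positivity
  smul_mem' := by
    intro c a ha
    have := isNorm_smul π c ha
    simpa only [Set.mem_ofPred_eq, map_smul, inner_smul_right] using this

variable {τ π}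

theorem mem_Nt {κ : τ.GNS} : κ ∈ Nt τ π ↔ IsNorm π fun y => ⟪xt τ, τ.gnsStarAlgHom y κ⟫_ℂ := Iff.rfl

theorem rho_norm (y : A) (κ : τ.GNS) : ‖τ.gnsStarAlgHom y κ‖ ≤ ‖y‖ * ‖κ‖ :=
  ((τ.gnsStarAlgHom y).le_opNorm κ).trans
    (mul_le_mul_of_nonneg_right (NonUnitalStarAlgHom.norm_apply_le τ.gnsStarAlgHom y)
      (norm_nonneg _))

theorem Nt_closed : IsClosed (Nt τ π : Set τ.GNS) := by
  rw [← closure_subset_iff_isClosed]
  intro κ hκ ε hε
  have hpos : 0 < ε / (2 * (‖xt τ‖ + 1)) := by positivity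
  obtain ⟨κ', hκ', hd⟩ := Metric.mem_closure_iff.1 hκ _ hpos
  obtain ⟨n, a, b, h⟩ := (mem_Nt.1 hκ') (ε / 2) (by positivity)
  refine ⟨n, a, b, fun x => ?_⟩
  have e : ⟪xt τ, τ.gnsStarAlgHom x κ⟫_ℂ - ∑ k, ⟪a k, π x (b k)⟫_ℂ =
      ⟪xt τ, τ.gnsStarAlgHom x (κ - κ')⟫_ℂ +
        (⟪xt τ, τ.gnsStarAlgHom x κ'⟫_ℂ - ∑ k, ⟪a k, π x (b k)⟫_ℂ) := by
    rw [map_sub, inner_sub_right]; ring
  rw [e]
  refine (norm_add_le _ _).trans ?_
  have h1 : ‖⟪xt τ, τ.gnsStarAlgHom x (κ - κ')⟫_ℂ‖ ≤ ε / 2 * ‖x‖ := by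
    refine (norm_inner_le_norm _ _).trans ?_
    have h2 := rho_norm (τ := τ) x (κ - κ')
    have h3 : ‖κ - κ'‖ ≤ ε / (2 * (‖xt τ‖ + 1)) := by
      rw [← dist_eq_norm]; exact hd.le
    calc ‖xt τ‖ * ‖τ.gnsStarAlgHom x (κ - κ')‖
        ≤ (‖xt τ‖ + 1) * (‖x‖ * (ε / (2 * (‖xt τ‖ + 1)))) := by
          refine mul_le_mul (by linarith) (h2.trans ?_) (norm_nonneg _) (by positivity)
          exact mul_le_mul_of_nonneg_left h3 (norm_nonneg _)
      _ = ε / 2 * ‖x‖ := by field_simp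
  have := h x
  linarith

theorem Nt_V (hτ : ∀ x y, τ (x * y) = τ (y * x)) (w : unitary A) {κ : τ.GNS} (hκ : κ ∈ Nt τ π) :
    V hτ w κ ∈ Nt τ π := by
  intro ε hε
  obtain ⟨n, a, b, h⟩ := (mem_Nt.1 hκ) ε hε
  refine ⟨n, fun k => π (w : A) (a k), fun k => π (w : A) (b k), fun y => ?_⟩
  have h0 : (w : A) * star (w : A) = 1 := Unitary.mul_star_self_of_mem w.2
  have e1 : ⟪xt τ, τ.gnsStarAlgHom y (V hτ w κ)⟫_ℂ =
      ⟪xt τ, τ.gnsStarAlgHom (star (w : A) * y * (w : A)) κ⟫_ℂ := by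
    rw [← V_inner hτ w (xt τ) (τ.gnsStarAlgHom (star (w : A) * y * (w : A)) κ), V_xt, V_rho]
    rw [show (w : A) * (star (w : A) * y * (w : A)) * star (w : A) =
      ((w : A) * star (w : A)) * y * ((w : A) * star (w : A)) by simp only [mul_assoc], h0, one_mul,
      mul_one]
  have e2 : ∀ k, ⟪π (w : A) (a k), π y (π (w : A) (b k))⟫_ℂ =
      ⟪a k, π (star (w : A) * y * (w : A)) (b k)⟫_ℂ := by
    intro k
    rw [map_mul, map_mul, map_star, mul_apply_eq_comp, mul_apply_eq_comp,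
      ContinuousLinearMap.star_eq_adjoint, ContinuousLinearMap.adjoint_inner_right]
  simp only [e1, e2]
  refine (h _).trans (mul_le_mul_of_nonneg_left ?_ hε.le)
  calc ‖star (w : A) * y * (w : A)‖ ≤ ‖star (w : A) * y‖ * ‖(w : A)‖ := norm_mul_le _ _
    _ ≤ (‖star (w : A)‖ * ‖y‖) * ‖(w : A)‖ :=
        mul_le_mul_of_nonneg_right (norm_mul_le _ _) (norm_nonneg _)
    _ ≤ (1 * ‖y‖) * 1 := by
        have h1 : ‖(w : A)‖ ≤ 1 := by
          rcases subsingleton_or_nontrivial A with hA | hA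
          · rw [Subsingleton.elim (w : A) 0, norm_zero]; exact zero_le_one
          · exact (CStarRing.norm_coe_unitary w).le
        have h2 : ‖star (w : A)‖ ≤ 1 := by rw [norm_star]; exact h1
        gcongr
    _ = ‖y‖ := by ring

/-- density of `ρ(x) ξ_τ` -/
theorem exists_near (κ : τ.GNS) {ε : ℝ} (hε : 0 < ε) : ∃ x : A, ‖κ - τ.gnsStarAlgHom x (xt τ)‖ < ε := by
  obtain ⟨y, hy⟩ := Metric.denseRange_iff.1 (Completion.denseRange_coe (α := τ.PreGNS)) κ ε hε
  refine ⟨τ.ofPreGNS y, ?_⟩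
  rw [rho_xt, ← dist_eq_norm]
  exact hy

/-- the positive functional of a vector of the GNS space -/
theorem exists_vec (κ : τ.GNS) : ∃ ψ : A →ₚ[ℂ] ℂ, ∀ x, ψ x = ⟪κ, τ.gnsStarAlgHom x κ⟫_ℂ := by
  refine ⟨PositiveLinearMap.mk₀
    { toFun := fun x => ⟪κ, τ.gnsStarAlgHom x κ⟫_ℂ
      map_add' := fun x y => by
        rw [map_add, add_apply, inner_add_right]
      map_smul' := fun c x => by
        rw [map_smul, smul_apply, inner_smul_right, RingHom.id_apply, smul_eq_mul] }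
    fun x hx => ?_, fun x => rfl⟩
  obtain ⟨y, rfl⟩ := CStarAlgebra.nonneg_iff_eq_star_mul_self.1 hx
  show 0 ≤ ⟪κ, τ.gnsStarAlgHom (star y * y) κ⟫_ℂ
  rw [map_mul, map_star, mul_apply_eq_comp, ContinuousLinearMap.star_eq_adjoint,
    ContinuousLinearMap.adjoint_inner_right, inner_self_eq_norm_sq_to_K]
  norm_cast
  positivity

theorem exists_ntrace (hτ : ∀ x y, τ (x * y) = τ (y * x)) {κ : τ.GNS} (hκ : κ ∈ Nt τ π)
    (h0 : ⟪xt τ, κ⟫_ℂ ≠ 0) :
    ∃ ψ : A →ₚ[ℂ] ℂ, (∀ x y, ψ (x * y) = ψ (y * x)) ∧ IsNorm π ψ ∧ ψ 1 ≠ 0 ∧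
      ∀ c, (∀ y, τ (c * y) = 0) → ψ c = 0 := by
  have : CompleteSpace (Nt τ π) := (Nt_closed (τ := τ) (π := π)).completeSpace_coe
  set κ0 := (Nt τ π).starProjection (xt τ) with hκ0
  have hmem : κ0 ∈ Nt τ π := Submodule.starProjection_apply_mem _ _
  have hV : ∀ w : unitary A, V hτ w κ0 = κ0 := by
    intro w
    have := Submodule.eq_starProjection_of_mem_of_inner_eq_zero (K := Nt τ π) (u := xt τ)
      (v := V hτ w κ0) (Nt_V hτ w hmem) ?_
    · exact this.symm
    · intro n hn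
      have h1 : xt τ - V hτ w κ0 = V hτ w (xt τ - κ0) := by rw [map_sub, V_xt]
      have h2 : n = V hτ w (V hτ (star w) n) := (V_star hτ w n).symm
      rw [h1, h2, V_inner]
      exact Submodule.starProjection_inner_eq_zero _ _ (Nt_V hτ (star w) hn)
  obtain ⟨ψ, hψ⟩ := exists_vec κ0
  have hconj : ∀ (w : unitary A) (y : A), ψ ((w : A) * y * star (w : A)) = ψ y := by
    intro w y
    rw [hψ, hψ]
    conv_lhs => rw [← hV w]
    rw [← V_rho, V_inner]
  have huy : ∀ (w : unitary A) (y : A), ψ ((w : A) * y) = ψ (y * (w : A)) := by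
    intro w y
    rw [← hconj w (y * (w : A))]
    congr 1
    have h0 : (w : A) * star (w : A) = 1 := Unitary.mul_star_self_of_mem w.2
    rw [mul_assoc, mul_assoc, h0, mul_one]
  refine ⟨ψ, ?_, ?_, ?_, ?_⟩
  · intro x y
    have hx : x ∈ Submodule.span ℂ (unitary A : Set A) := by
      rw [CStarAlgebra.span_unitary]; trivial
    induction hx using Submodule.span_induction with
    | mem u hu => exact huy ⟨u, hu⟩ y
    | zero => simp
    | add a b _ _ ha hb => rw [add_mul, mul_add, map_add, map_add, ha, hb]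
    | smul c a _ ha => rw [smul_mul_assoc, mul_smul_comm, map_smul, map_smul, ha]
  · intro ε hε
    obtain ⟨x, hx⟩ := exists_near κ0 (ε := ε / (2 * (‖κ0‖ + 1))) (by positivity)
    obtain ⟨n, a, b, h⟩ := (mem_Nt.1 hmem) (ε / (2 * (‖x‖ + 1))) (by positivity)
    refine ⟨n, fun k => π x (a k), b, fun y => ?_⟩
    have e1 : ∀ k, ⟪π x (a k), π y (b k)⟫_ℂ = ⟪a k, π (star x * y) (b k)⟫_ℂ := by
      intro k
      rw [map_mul, map_star, mul_apply_eq_comp, ContinuousLinearMap.star_eq_adjoint,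
        ContinuousLinearMap.adjoint_inner_right]
    have e2 : ψ y = ⟪κ0 - τ.gnsStarAlgHom x (xt τ), τ.gnsStarAlgHom y κ0⟫_ℂ +
        ⟪xt τ, τ.gnsStarAlgHom (star x * y) κ0⟫_ℂ := by
      rw [hψ, inner_sub_left, map_mul, map_star, mul_apply_eq_comp,
        ContinuousLinearMap.star_eq_adjoint, ContinuousLinearMap.adjoint_inner_right]
      ring
    simp only [e1]
    rw [e2, add_sub_assoc]
    refine (norm_add_le _ _).trans ?_
    have h1 : ‖⟪κ0 - τ.gnsStarAlgHom x (xt τ), τ.gnsStarAlgHom y κ0⟫_ℂ‖ ≤ ε / 2 * ‖y‖ := by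
      refine (norm_inner_le_norm _ _).trans ?_
      calc ‖κ0 - τ.gnsStarAlgHom x (xt τ)‖ * ‖τ.gnsStarAlgHom y κ0‖
          ≤ (ε / (2 * (‖κ0‖ + 1))) * (‖y‖ * (‖κ0‖ + 1)) := by
            refine mul_le_mul hx.le ((rho_norm y κ0).trans ?_) (norm_nonneg _) (by positivity)
            exact mul_le_mul_of_nonneg_left (by linarith) (norm_nonneg _)
        _ = ε / 2 * ‖y‖ := by field_simp
    have h2 := h (star x * y)
    have h3 : ‖star x * y‖ ≤ (‖x‖ + 1) * ‖y‖ := by
      refine (norm_mul_le _ _).trans ?_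
      rw [norm_star]
      exact mul_le_mul_of_nonneg_right (by linarith) (norm_nonneg _)
    have h4 : ε / (2 * (‖x‖ + 1)) * ‖star x * y‖ ≤ ε / 2 * ‖y‖ := by
      refine (mul_le_mul_of_nonneg_left h3 (by positivity)).trans (le_of_eq ?_)
      field_simp
    have h5 := h2.trans h4
    linarith
  · rw [hψ, map_one, one_apply_eq_self, inner_self_ne_zero]
    intro h
    apply h0
    have h1 := Submodule.starProjection_inner_eq_zero (K := Nt τ π) (xt τ) κ hκ
    rw [← hκ0, h, sub_zero] at h1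
    exact h1
  · intro c hc
    have h1 : ∀ κ' : τ.GNS, τ.gnsStarAlgHom c κ' = 0 := by
      intro κ'
      induction κ' using Completion.induction_on with
      | hp => apply isClosed_eq <;> fun_prop
      | ih z =>
        have hz : z = τ.toPreGNS (τ.ofPreGNS z) := rfl
        rw [← inner_self_eq_zero (𝕜 := ℂ), hz, rho_coe, inner_coe, hτ]
        simp only [PositiveLinearMap.ofPreGNS_toPreGNS, mul_assoc]
        exact hc _
    rw [hψ, h1, inner_zero_right]

/-- **the dichotomy for one trace** -/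
theorem single (hτ : ∀ x y, τ (x * y) = τ (y * x)) (ξ : H) :
    (∃ ψ : A →ₚ[ℂ] ℂ, (∀ x y, ψ (x * y) = ψ (y * x)) ∧ IsNorm π ψ ∧ ψ 1 ≠ 0 ∧
      ∀ c, (∀ y, τ (c * y) = 0) → ψ c = 0) ∨
    ∀ ε : ℝ, 0 < ε → ∃ x : A, ‖ξ - π x ξ‖ ^ 2 + (τ (star x * x)).re < ε := by
  let L : A →ₗ[ℂ] WithLp 2 (H × τ.GNS) :=
    { toFun := fun x => WithLp.toLp 2 (π x ξ, τ.gnsStarAlgHom x (xt τ))
      map_add' := fun x y => by
        rw [map_add, map_add]; rfl
      map_smul' := fun c x => by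
        rw [map_smul, map_smul]; rfl }
  set S : Submodule ℂ (WithLp 2 (H × τ.GNS)) := (LinearMap.range L).topologicalClosure with hS
  have : CompleteSpace S := (Submodule.isClosed_topologicalClosure _).completeSpace_coe
  set v : WithLp 2 (H × τ.GNS) := WithLp.toLp 2 (ξ, 0) with hv
  by_cases hvS : v ∈ S
  · right
    intro ε hε
    have h1 : v ∈ closure (LinearMap.range L : Set (WithLp 2 (H × τ.GNS))) := hvS
    obtain ⟨_, ⟨x, rfl⟩, hx⟩ := Metric.mem_closure_iff.1 h1 (√ε) (Real.sqrt_pos.2 hε)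
    refine ⟨x, ?_⟩
    rw [dist_eq_norm] at hx
    have h2 : ‖v - L x‖ ^ 2 < ε := by
      have := pow_lt_pow_left₀ hx (norm_nonneg _) two_ne_zero
      rwa [Real.sq_sqrt hε.le] at this
    rw [WithLp.prod_norm_sq_eq_of_L2] at h2
    have h3 : (v - L x).fst = ξ - π x ξ := rfl
    have h4 : (v - L x).snd = 0 - τ.gnsStarAlgHom x (xt τ) := rfl
    rw [h3, h4, zero_sub, norm_neg, rho_xt, Completion.norm_coe] at h2
    have h5 : ‖τ.toPreGNS x‖ ^ 2 = (τ (star x * x)).re := by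
      have := τ.preGNS_norm_sq (τ.toPreGNS x)
      rw [PositiveLinearMap.ofPreGNS_toPreGNS] at this
      rw [← this]
      norm_cast
    rwa [h5] at h2
  · left
    set p := S.starProjection v with hp
    have hpS : p ∈ S := Submodule.starProjection_apply_mem _ _
    have horth : ∀ s ∈ S, ⟪v - p, s⟫_ℂ = 0 := fun s hs =>
      Submodule.starProjection_inner_eq_zero _ _ hs
    have hkey : ∀ x : A, ⟪ξ - p.fst, π x ξ⟫_ℂ = ⟪p.snd, τ.gnsStarAlgHom x (xt τ)⟫_ℂ := by
      intro x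
      have h1 := horth (L x) (Submodule.le_topologicalClosure _ ⟨x, rfl⟩)
      rw [WithLp.prod_inner_apply] at h1
      have h2 : (v - p).fst = ξ - p.fst := rfl
      have h3 : (v - p).snd = 0 - p.snd := rfl
      have h4 : (L x).fst = π x ξ := rfl
      have h5 : (L x).snd = τ.gnsStarAlgHom x (xt τ) := rfl
      have h6 : ⟪(v - p).fst, (L x).fst⟫_ℂ + ⟪(v - p).snd, (L x).snd⟫_ℂ = 0 := h1
      rw [h2, h3, h4, h5, zero_sub, inner_neg_left] at h6
      linear_combination h6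
    have hk2 : ∀ y : A, ⟪xt τ, τ.gnsStarAlgHom y p.snd⟫_ℂ = ⟪ξ, π y (ξ - p.fst)⟫_ℂ := by
      intro y
      have h1 := hkey (star y)
      rw [map_star, map_star, ContinuousLinearMap.star_eq_adjoint,
        ContinuousLinearMap.star_eq_adjoint, ContinuousLinearMap.adjoint_inner_right,
        ContinuousLinearMap.adjoint_inner_right] at h1
      rw [← inner_conj_symm, ← h1, inner_conj_symm]
    have hmem : p.snd ∈ Nt τ π := by
      intro ε hε
      refine ⟨1, fun _ => ξ, fun _ => ξ - p.fst, fun x => ?_⟩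
      simp only [Finset.univ_unique, Finset.sum_singleton, hk2, sub_self, norm_zero]
      positivity
    refine exists_ntrace hτ hmem ?_
    have h1 := hk2 1
    rw [map_one, map_one, one_apply_eq_self, one_apply_eq_self] at h1
    rw [h1]
    have h2 : ⟪v, v - p⟫_ℂ = ⟪ξ, ξ - p.fst⟫_ℂ := by
      rw [WithLp.prod_inner_apply]
      have h2 : (v - p).fst = ξ - p.fst := rfl
      have h3 : (v - p).snd = 0 - p.snd := rfl
      show ⟪v.fst, (v - p).fst⟫_ℂ + ⟪v.snd, (v - p).snd⟫_ℂ = _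
      have h4 : v.fst = ξ := rfl
      have h5 : v.snd = 0 := rfl
      rw [h2, h4, h5, inner_zero_left, add_zero]
    rw [← h2]
    have h3 : ⟪p, v - p⟫_ℂ = 0 := by
      rw [← inner_conj_symm, horth p hpS, map_zero]
    have h4 : ⟪v, v - p⟫_ℂ = ⟪v - p, v - p⟫_ℂ := by
      conv_rhs => rw [inner_sub_left]
      rw [h3, sub_zero]
    rw [h4, inner_self_ne_zero, sub_ne_zero]
    intro h5
    apply hvS
    rw [h5]
    exact hpS

end Nt

end Crest.Agent.R121.Q
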