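import Crest.Agent.R121.Q1
import Crest.Agent.R124.TA

/-!
# Row 121, module Q (helper15), part 2: all traces at once (minimax)

`exists_small`: if every `IsNorm` tracial positive functional vanishes at the central projection `f`, then for
every vector `ξ = f ξ` there is `0 ≤ e ≤ f` with `⟨(1-e)ξ, ξ⟩ ≤ ε` and `τ(e) ≤ ε` for every tracial state `τ`.
-/

set_option autoImplicit false

namespace Crest.Agent.R121.Q

open scoped InnerProductSpace ComplexOrder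
open UniformSpace

universe u v

variable {A : Type u} [CStarAlgebra A] [PartialOrder A] [StarOrderedRing A]
variable {H : Type v} [NormedAddCommGroup H] [InnerProductSpace ℂ H] [CompleteSpace H]

theorem norm_apply_le (τ : A →ₚ[ℂ] ℂ) (h1 : (τ 1).re ≤ 1) (x : A) : ‖τ x‖ ≤ ‖x‖ := by
  have e1 : τ x = ⟪xt τ, τ.gnsStarAlgHom x (xt τ)⟫_ℂ := by
    rw [rho_xt, xt, inner_coe, star_one, one_mul]
  have e2 : ‖xt τ‖ ^ 2 ≤ 1 := by
    have h2 : ((‖xt τ‖ ^ 2 : ℝ) : ℂ) = τ 1 := by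
      have := inner_self_eq_norm_sq_to_K (𝕜 := ℂ) (xt τ)
      rw [xt, inner_coe, star_one, one_mul] at this
      rw [this]
      norm_cast
    have h3 := congrArg Complex.re h2
    rw [Complex.ofReal_re] at h3
    rw [h3]
    exact h1
  rw [e1]
  refine (norm_inner_le_norm _ _).trans ?_
  calc ‖xt τ‖ * ‖τ.gnsStarAlgHom x (xt τ)‖ ≤ ‖xt τ‖ * (‖x‖ * ‖xt τ‖) :=
        mul_le_mul_of_nonneg_left (rho_norm x _) (norm_nonneg _)
    _ = ‖xt τ‖ ^ 2 * ‖x‖ := by ring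
    _ ≤ 1 * ‖x‖ := mul_le_mul_of_nonneg_right e2 (norm_nonneg _)
    _ = ‖x‖ := one_mul _

/-- the pointwise step -/
theorem step (τ : A →ₚ[ℂ] ℂ) (hτ : ∀ x y, τ (x * y) = τ (y * x)) (π : A →⋆ₐ[ℂ] (H →L[ℂ] H))
    (ξ : H) (h : ∀ ε : ℝ, 0 < ε → ∃ x : A, ‖ξ - π x ξ‖ ^ 2 + (τ (star x * x)).re < ε)
    {ε : ℝ} (hε : 0 < ε) :
    ∃ e : A, 0 ≤ e ∧ e ≤ 1 ∧ (‖ξ‖ ^ 2 - (⟪ξ, π e ξ⟫_ℂ).re) + (τ e).re < ε := by
  have hd : 0 < ε / (8 * (‖ξ‖ ^ 2 + 1)) := by positivity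
  set d := ε / (8 * (‖ξ‖ ^ 2 + 1)) with hdd
  obtain ⟨x, hx⟩ := h (min (ε / 8) (d * (ε / 4))) (lt_min (by positivity) (by positivity))
  have hB : 0 ≤ x * star x := mul_star_self_nonneg x
  obtain ⟨s, hs, hsB⟩ := R124.T.exists_res hB hd
  set e := s * (x * star x) * s with he
  have hss : 0 ≤ s * s := by
    have := star_mul_self_nonneg s
    rwa [hs] at this
  have he0 : 0 ≤ e := by
    have := star_left_conjugate_nonneg hB s
    rwa [hs] at this
  have h1e : 1 - e = d • (s * s) := by rw [← hsB]; abel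
  have he1 : e ≤ 1 := by
    rw [← sub_nonneg, h1e]
    exact smul_nonneg hd.le hss
  have hτx : 0 ≤ (τ (star x * x)).re := (RCLike.nonneg_iff.1 (τ.map_nonneg (star_mul_self_nonneg x))).1
  have hx1 : ‖ξ - π x ξ‖ ^ 2 < ε / 8 := by
    have := hx.trans_le (min_le_left _ _)
    linarith
  have hx2 : (τ (star x * x)).re < d * (ε / 4) := by
    have := hx.trans_le (min_le_right _ _)
    have := sq_nonneg ‖ξ - π x ξ‖
    linarith
  -- the trace
  have h2 : (τ e).re ≤ ε / 4 := by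
    have h3 : τ e = τ (star x * (s * s) * x) := by
      have h4 : e = (s * x) * (star x * s) := by rw [he]; simp only [mul_assoc]
      have h5 : star x * (s * s) * x = (star x * s) * (s * x) := by simp only [mul_assoc]
      rw [h4, hτ, h5]
    have h4 : star x * (d • (s * s)) * x ≤ star x * x := by
      have h5 : d • (s * s) ≤ 1 := by
        rw [← h1e]; exact sub_le_self _ he0
      have := star_left_conjugate_le_conjugate h5 x
      simpa using this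
    have h5 : d * (τ (star x * (s * s) * x)).re ≤ (τ (star x * x)).re := by
      have h6 := OrderHomClass.mono τ h4
      have h7 : star x * (d • (s * s)) * x = ((d : ℝ) : ℂ) • (star x * (s * s) * x) := by
        rw [mul_smul_comm, smul_mul_assoc, Complex.coe_smul]
      rw [h7, map_smul] at h6
      have h8 := (Complex.le_def.1 h6).1
      rw [smul_eq_mul, Complex.re_ofReal_mul] at h8
      exact h8
    rw [h3]
    have h6 : d * (τ (star x * (s * s) * x)).re < d * (ε / 4) := h5.trans_lt hx2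
    exact (lt_of_mul_lt_mul_left h6 hd.le).le
  -- the vector
  have hsx : ‖s * x‖ ^ 2 ≤ 1 := by
    have h3 : ‖s * x‖ * ‖s * x‖ = ‖e‖ := by
      rw [← CStarRing.norm_self_mul_star (x := s * x), star_mul, hs, he]
      simp only [mul_assoc]
    have h4 : ‖e‖ ≤ 1 := by
      have := CStarAlgebra.norm_le_norm_of_nonneg_of_le he0 he1
      refine this.trans ?_
      rcases subsingleton_or_nontrivial A with hA | hA
      · rw [Subsingleton.elim (1 : A) 0, norm_zero]; exact zero_le_one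
      · exact CStarRing.norm_one.le
    rw [pow_two, h3]; exact h4
  have hs2 : d * ‖s‖ ^ 2 ≤ 1 := by
    have h3 : ‖s‖ * ‖s‖ = ‖s * s‖ := by
      conv_rhs => rw [show s * s = star s * s by rw [hs]]
      rw [CStarRing.norm_star_mul_self]
    have h4 : ‖d • (s * s)‖ ≤ 1 := by
      have h5 : d • (s * s) ≤ 1 := by
        rw [← h1e]; exact sub_le_self _ he0
      have := CStarAlgebra.norm_le_norm_of_nonneg_of_le (smul_nonneg hd.le hss) h5
      refine this.trans ?_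
      rcases subsingleton_or_nontrivial A with hA | hA
      · rw [Subsingleton.elim (1 : A) 0, norm_zero]; exact zero_le_one
      · exact CStarRing.norm_one.le
    rw [norm_smul, ← h3, Real.norm_of_nonneg hd.le] at h4
    rw [pow_two]; exact h4
  have hsξ : ‖π s ξ‖ ≤ ‖ξ‖ + ‖s‖ * ‖ξ - π x ξ‖ := by
    have h3 : π s ξ = π (s * x) ξ + π s (ξ - π x ξ) := by
      rw [map_mul, mul_apply_eq_comp, map_sub]; abel
    rw [h3]
    refine (norm_add_le _ _).trans (add_le_add ?_ ?_)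
    · refine ((π (s * x)).le_opNorm ξ).trans ?_
      have h4 : ‖π (s * x)‖ ≤ 1 := by
        refine (NonUnitalStarAlgHom.norm_apply_le π (s * x)).trans ?_
        have := hsx
        nlinarith [norm_nonneg (s * x)]
      calc ‖π (s * x)‖ * ‖ξ‖ ≤ 1 * ‖ξ‖ := mul_le_mul_of_nonneg_right h4 (norm_nonneg _)
        _ = ‖ξ‖ := one_mul _
    · refine ((π s).le_opNorm _).trans ?_
      exact mul_le_mul_of_nonneg_right (NonUnitalStarAlgHom.norm_apply_le π s) (norm_nonneg _)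
  have h3 : ‖ξ‖ ^ 2 - (⟪ξ, π e ξ⟫_ℂ).re = d * ‖π s ξ‖ ^ 2 := by
    have h4 : ⟪ξ, π (1 - e) ξ⟫_ℂ = ((d * ‖π s ξ‖ ^ 2 : ℝ) : ℂ) := by
      have h6 : π (d • (s * s)) ξ = (d : ℂ) • (ContinuousLinearMap.adjoint (π s) (π s ξ)) := by
        rw [← ContinuousLinearMap.star_eq_adjoint, ← map_star, hs, ← Complex.coe_smul, map_smul,
          smul_apply, map_mul, mul_apply_eq_comp]
      rw [h1e, h6, inner_smul_right, ContinuousLinearMap.adjoint_inner_right,
        inner_self_eq_norm_sq_to_K]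
      push_cast
      rfl
    rw [map_sub, map_one, sub_apply, one_apply_eq_self, inner_sub_right,
      inner_self_eq_norm_sq_to_K] at h4
    have h5 := congrArg Complex.re h4
    rw [Complex.sub_re, Complex.ofReal_re] at h5
    rw [← h5]
    congr 1
    norm_cast
  refine ⟨e, he0, he1, ?_⟩
  rw [h3]
  have h4 : d * ‖π s ξ‖ ^ 2 ≤ 2 * (d * ‖ξ‖ ^ 2) + 2 * ((d * ‖s‖ ^ 2) * ‖ξ - π x ξ‖ ^ 2) := by
    have h5 : ‖π s ξ‖ ^ 2 ≤ 2 * ‖ξ‖ ^ 2 + 2 * (‖s‖ * ‖ξ - π x ξ‖) ^ 2 := by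
      have := pow_le_pow_left₀ (norm_nonneg _) hsξ 2
      nlinarith [sq_nonneg (‖ξ‖ - ‖s‖ * ‖ξ - π x ξ‖)]
    nlinarith
  have h5 : d * ‖ξ‖ ^ 2 ≤ ε / 8 := by
    rw [hdd, div_mul_eq_mul_div, div_le_div_iff₀ (by positivity) (by norm_num)]
    nlinarith [sq_nonneg ‖ξ‖]
  have h6 : (d * ‖s‖ ^ 2) * ‖ξ - π x ξ‖ ^ 2 ≤ 1 * (ε / 8) :=
    mul_le_mul hs2 hx1.le (sq_nonneg _) zero_le_one
  have h7 : (d * ‖s‖ ^ 2) * ‖ξ - π x ξ‖ ^ 2 < ε / 8 := by
    calc (d * ‖s‖ ^ 2) * ‖ξ - π x ξ‖ ^ 2 ≤ 1 * ‖ξ - π x ξ‖ ^ 2 :=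
          mul_le_mul_of_nonneg_right hs2 (sq_nonneg _)
      _ < ε / 8 := by rw [one_mul]; exact hx1
  linarith

/-- the compact convex set of tracial positive functionals living on `f` -/
def TT (f : A) : Set (A → ℂ) :=
  {φ | (∀ x y, φ (x + y) = φ x + φ y) ∧ (∀ (c : ℂ) x, φ (c • x) = c * φ x) ∧
    (∀ x, 0 ≤ x → 0 ≤ φ x) ∧ (∀ x y, φ (x * y) = φ (y * x)) ∧ (∀ x, φ (f * x) = φ x) ∧
    ∀ x, ‖φ x‖ ≤ ‖x‖}

omit [StarOrderedRing A] in
theorem TT_compact (f : A) : IsCompact (TT f) := by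
  have h1 : IsCompact (Set.pi Set.univ fun x : A => Metric.closedBall (0 : ℂ) ‖x‖) :=
    isCompact_univ_pi fun x => isCompact_closedBall _ _
  refine h1.of_isClosed_subset ?_ ?_
  · have e : TT f = (⋂ x, ⋂ y, {φ : A → ℂ | φ (x + y) = φ x + φ y}) ∩
        (⋂ c : ℂ, ⋂ x, {φ : A → ℂ | φ (c • x) = c * φ x}) ∩
        (⋂ x : A, ⋂ _ : 0 ≤ x, {φ : A → ℂ | 0 ≤ φ x}) ∩
        (⋂ x, ⋂ y, {φ : A → ℂ | φ (x * y) = φ (y * x)}) ∩
        (⋂ x, {φ : A → ℂ | φ (f * x) = φ x}) ∩ (⋂ x, {φ : A → ℂ | ‖φ x‖ ≤ ‖x‖}) := by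
      ext φ
      simp only [TT, Set.mem_ofPred_eq, Set.mem_inter_iff, Set.mem_iInter, and_assoc]
    rw [e]
    refine ((((IsClosed.inter ?_ ?_).inter ?_).inter ?_).inter ?_).inter ?_
    · exact isClosed_iInter fun x => isClosed_iInter fun y => isClosed_eq (by fun_prop) (by fun_prop)
    · exact isClosed_iInter fun x => isClosed_iInter fun y => isClosed_eq (by fun_prop) (by fun_prop)
    · exact isClosed_iInter fun x => isClosed_iInter fun _ => isClosed_le (by fun_prop) (by fun_prop)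
    · exact isClosed_iInter fun x => isClosed_iInter fun y => isClosed_eq (by fun_prop) (by fun_prop)
    · exact isClosed_iInter fun x => isClosed_eq (by fun_prop) (by fun_prop)
    · exact isClosed_iInter fun x => isClosed_le (by fun_prop) (by fun_prop)
  · intro φ hφ x _
    rw [mem_closedBall_zero_iff]
    exact hφ.2.2.2.2.2 x

omit [StarOrderedRing A] in
theorem TT_convex (f : A) : Convex ℝ (TT f) := by
  intro φ hφ ψ hψ a b ha hb hab
  obtain ⟨p1, p2, p3, p4, p5, p6⟩ := hφ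
  obtain ⟨q1, q2, q3, q4, q5, q6⟩ := hψ
  have ha' : (0 : ℂ) ≤ a := by exact_mod_cast ha
  have hb' : (0 : ℂ) ≤ b := by exact_mod_cast hb
  have hap : ∀ x, (a • φ + b • ψ) x = (a : ℂ) * φ x + (b : ℂ) * ψ x := fun x => by
    simp [Pi.add_apply, Pi.smul_apply, Complex.real_smul]
  refine ⟨?_, ?_, ?_, ?_, ?_, ?_⟩
  · intro x y; rw [hap, hap, hap, p1, q1]; ring
  · intro c x; rw [hap, hap, p2, q2]; ring
  · intro x hx
    rw [hap]
    exact add_nonneg (mul_nonneg ha' (p3 x hx)) (mul_nonneg hb' (q3 x hx))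
  · intro x y; rw [hap, hap, p4, q4]
  · intro x; rw [hap, hap, p5, q5]
  · intro x
    rw [hap]
    refine (norm_add_le _ _).trans ?_
    rw [norm_mul, norm_mul, Complex.norm_of_nonneg ha, Complex.norm_of_nonneg hb]
    calc a * ‖φ x‖ + b * ‖ψ x‖ ≤ a * ‖x‖ + b * ‖x‖ :=
          add_le_add (mul_le_mul_of_nonneg_left (p6 x) ha) (mul_le_mul_of_nonneg_left (q6 x) hb)
      _ = ‖x‖ := by rw [← add_mul, hab, one_mul]

/-- an element of `TT f` as a positive linear map -/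
theorem exists_of_TT {f : A} {φ : A → ℂ} (hφ : φ ∈ TT f) : ∃ τ : A →ₚ[ℂ] ℂ, ∀ x, τ x = φ x :=
  ⟨PositiveLinearMap.mk₀
    { toFun := φ
      map_add' := hφ.1
      map_smul' := fun c x => by rw [hφ.2.1 c x]; rfl } hφ.2.2.1, fun _ => rfl⟩

/-- **Theorem Q** -/
theorem exists_small (π : A →⋆ₐ[ℂ] (H →L[ℂ] H)) {f : A} (hf : IsStarProjection f)
    (hfc : ∀ x, f * x = x * f)
    (hno : ∀ ψ : A →ₚ[ℂ] ℂ, (∀ x y, ψ (x * y) = ψ (y * x)) → IsNorm π ψ → ψ f = 0)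
    {ξ : H} (hξ : π f ξ = ξ) {ε : ℝ} (hε : 0 < ε) :
    ∃ e : A, 0 ≤ e ∧ e ≤ f ∧ ‖ξ‖ ^ 2 - (⟪ξ, π e ξ⟫_ℂ).re ≤ ε ∧
      ∀ τ : A →ₚ[ℂ] ℂ, (∀ x y, τ (x * y) = τ (y * x)) → (τ 1).re ≤ 1 → (τ e).re ≤ ε := by
  classical
  have hff : f * f = f := hf.isIdempotentElem
  have hfs : star f = f := hf.isSelfAdjoint
  set K : Set A := Set.Icc 0 1 with hK
  let F : (A → ℂ) → A → ℝ := fun φ e => -((‖ξ‖ ^ 2 - (⟪ξ, π e ξ⟫_ℂ).re) + (φ e).re)
  have h0T : (fun _ => 0 : A → ℂ) ∈ TT f := by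
    refine ⟨?_, ?_, ?_, ?_, ?_, ?_⟩ <;> intros <;> simp
  have cK : Convex ℝ K := convex_Icc _ _
  have hpt : ∀ φ ∈ TT f, ∃ e ∈ K, -ε < F φ e := by
    intro φ hφ
    obtain ⟨τ, hτ⟩ := exists_of_TT hφ
    have htr : ∀ x y, τ (x * y) = τ (y * x) := fun x y => by rw [hτ, hτ]; exact hφ.2.2.2.1 x y
    rcases single (τ := τ) (π := π) htr ξ with ⟨ψ, h1, h2, h3, h4⟩ | h
    · exfalso
      apply h3
      have h5 : ψ (1 - f) = 0 := by
        apply h4
        intro y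
        rw [sub_mul, one_mul, map_sub, hτ, hτ, hφ.2.2.2.2.1, sub_self]
      rw [map_sub, hno ψ h1 h2, sub_zero] at h5
      exact h5
    · obtain ⟨e, he0, he1, he⟩ := step τ htr π ξ h hε
      refine ⟨e, ⟨he0, he1⟩, ?_⟩
      show -ε < -((‖ξ‖ ^ 2 - (⟪ξ, π e ξ⟫_ℂ).re) + (φ e).re)
      rw [← hτ]
      linarith
  -- continuity and convexity
  have hF1 : ∀ e, Continuous fun φ : A → ℂ => F φ e := fun e => by
    have : Continuous fun φ : A → ℂ => (φ e).re := Complex.continuous_re.comp (continuous_apply e)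
    exact (continuous_const.add this).neg
  have hcomp : ∃ s : Finset A, ↑s ⊆ K ∧ ∀ φ ∈ TT f, ∃ e ∈ s, -ε < F φ e := by
    have h1 : TT f ⊆ ⋃ e : K, {φ | -ε < F φ e} := by
      intro φ hφ
      obtain ⟨e, he, h⟩ := hpt φ hφ
      exact Set.mem_iUnion.2 ⟨⟨e, he⟩, h⟩
    obtain ⟨t, ht⟩ := (TT_compact f).elim_finite_subcover _
      (fun e : K => isOpen_lt continuous_const (hF1 e)) h1
    refine ⟨t.image Subtype.val, ?_, ?_⟩
    · intro e he
      rw [Finset.coe_image] at he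
      obtain ⟨e', _, rfl⟩ := he
      exact e'.2
    · intro φ hφ
      obtain ⟨e, he⟩ := Set.mem_iUnion.1 (ht hφ)
      obtain ⟨het, he⟩ := Set.mem_iUnion.1 he
      exact ⟨e, Finset.mem_image_of_mem _ het, he⟩
  obtain ⟨s, hsK, hs⟩ := hcomp
  have hlin2 : ∀ e e' : A, ∀ a b : ℝ, a + b = 1 → ∀ φ ∈ TT f, F φ (a • e + b • e') =
      a * F φ e + b * F φ e' := by
    intro e e' a b hab φ hφ
    have h1 : φ (a • e + b • e') = (a : ℂ) * φ e + (b : ℂ) * φ e' := by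
      rw [hφ.1, ← Complex.coe_smul, ← Complex.coe_smul, hφ.2.1, hφ.2.1]
    have h2 : ⟪ξ, π (a • e + b • e') ξ⟫_ℂ = (a : ℂ) * ⟪ξ, π e ξ⟫_ℂ + (b : ℂ) * ⟪ξ, π e' ξ⟫_ℂ := by
      rw [map_add, ← Complex.coe_smul, ← Complex.coe_smul, map_smul, map_smul, add_apply, smul_apply,
        smul_apply, inner_add_right, inner_smul_right, inner_smul_right]
    show -((‖ξ‖ ^ 2 - (⟪ξ, π (a • e + b • e') ξ⟫_ℂ).re) + (φ (a • e + b • e')).re) = _
    rw [h1, h2, Complex.add_re, Complex.add_re, Complex.re_ofReal_mul, Complex.re_ofReal_mul,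
      Complex.re_ofReal_mul, Complex.re_ofReal_mul]
    show _ = a * (-((‖ξ‖ ^ 2 - (⟪ξ, π e ξ⟫_ℂ).re) + (φ e).re)) +
      b * (-((‖ξ‖ ^ 2 - (⟪ξ, π e' ξ⟫_ℂ).re) + (φ e').re))
    linear_combination (‖ξ‖ ^ 2) * hab
  have hlin1 : ∀ φ φ' : A → ℂ, ∀ a b : ℝ, a + b = 1 → ∀ e : A, F (a • φ + b • φ') e =
      a * F φ e + b * F φ' e := by
    intro φ φ' a b hab e
    have h1 : (a • φ + b • φ') e = (a : ℂ) * φ e + (b : ℂ) * φ' e := by
      simp [Pi.add_apply, Pi.smul_apply, Complex.real_smul]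
    show -((‖ξ‖ ^ 2 - (⟪ξ, π e ξ⟫_ℂ).re) + ((a • φ + b • φ') e).re) = _
    rw [h1, Complex.add_re, Complex.re_ofReal_mul, Complex.re_ofReal_mul]
    show _ = a * (-((‖ξ‖ ^ 2 - (⟪ξ, π e ξ⟫_ℂ).re) + (φ e).re)) +
      b * (-((‖ξ‖ ^ 2 - (⟪ξ, π e ξ⟫_ℂ).re) + (φ' e).re))
    linear_combination (‖ξ‖ ^ 2 - (⟪ξ, π e ξ⟫_ℂ).re) * hab
  have hF2 : ∀ φ ∈ TT f, Continuous (F φ) := by
    intro φ hφ
    obtain ⟨τ, hτ⟩ := exists_of_TT hφ
    have h1 : Continuous fun e : A => φ e := by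
      have h2 : LipschitzWith 1 (fun e : A => φ e) := LipschitzWith.of_dist_le_mul fun x y => by
        rw [dist_eq_norm, dist_eq_norm, NNReal.coe_one, one_mul]
        have h3 : φ x - φ y = φ (x - y) := by rw [← hτ, ← hτ, ← hτ, map_sub]
        rw [h3]
        exact hφ.2.2.2.2.2 _
      exact h2.continuous
    have h3 : Continuous fun e : A => π e := by
      have h4 : LipschitzWith 1 (fun e : A => π e) := LipschitzWith.of_dist_le_mul fun x y => by
        rw [dist_eq_norm, dist_eq_norm, NNReal.coe_one, one_mul, ← map_sub]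
        exact NonUnitalStarAlgHom.norm_apply_le π _
      exact h4.continuous
    have h5 : Continuous fun e : A => (⟪ξ, π e ξ⟫_ℂ).re := by fun_prop
    have h6 : Continuous fun e : A => (φ e).re := Complex.continuous_re.comp h1
    exact ((continuous_const.sub h5).add h6).neg
  have hq1 : ∀ e ∈ K, QuasiconvexOn ℝ (TT f) fun φ => F φ e := by
    intro e he
    refine ConvexOn.quasiconvexOn ⟨TT_convex f, ?_⟩
    intro φ _ φ' _ a b _ _ hab
    exact (hlin1 φ φ' a b hab e).le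
  have hq2 : ∀ φ ∈ TT f, QuasiconcaveOn ℝ K fun e => F φ e := by
    intro φ hφ
    refine ConcaveOn.quasiconcaveOn ⟨cK, ?_⟩
    intro e _ e' _ a b _ _ hab
    exact (hlin2 e e' a b hab φ hφ).ge
  obtain ⟨e0, he0, h⟩ := Sion.exists_lt_iInf_of_lt_iInf_of_finite (X := TT f) (Y := K) (f := F)
    ⟨_, h0T⟩ (TT_compact f) (fun e _ => (hF1 e).lowerSemicontinuous.lowerSemicontinuousOn _) hq1 cK
    (fun φ hφ => (hF2 φ hφ).upperSemicontinuous.upperSemicontinuousOn _) hq2 (TT_convex f)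
    s.finite_toSet hsK (t := -ε) (fun φ hφ => hs φ hφ)
  have hfe : f * e0 = f * e0 * f := by rw [mul_assoc, ← hfc e0, ← mul_assoc, hff]
  have hfe0 : 0 ≤ f * e0 := by
    rw [hfe]
    have := star_left_conjugate_nonneg he0.1 f
    rwa [hfs] at this
  have hfe1 : f * e0 ≤ f := by
    rw [hfe]
    have := star_left_conjugate_le_conjugate he0.2 f
    rwa [hfs, mul_one, hff] at this
  have hinner : ⟪ξ, π (f * e0) ξ⟫_ℂ = ⟪ξ, π e0 ξ⟫_ℂ := by
    rw [hfc, map_mul, mul_apply_eq_comp, hξ]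
  have hre : ∀ x : A, 0 ≤ x → x ≤ 1 → (⟪ξ, π x ξ⟫_ℂ).re ≤ ‖ξ‖ ^ 2 := by
    intro x hx0 hx1
    refine (Complex.re_le_norm _).trans ((norm_inner_le_norm _ _).trans ?_)
    have h1 : ‖π x ξ‖ ≤ ‖ξ‖ := by
      refine ((π x).le_opNorm ξ).trans ?_
      have h2 : ‖π x‖ ≤ 1 := by
        refine (NonUnitalStarAlgHom.norm_apply_le π x).trans ?_
        refine (CStarAlgebra.norm_le_norm_of_nonneg_of_le hx0 hx1).trans ?_
        rcases subsingleton_or_nontrivial A with hA | hA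
        · rw [Subsingleton.elim (1 : A) 0, norm_zero]; exact zero_le_one
        · exact CStarRing.norm_one.le
      calc ‖π x‖ * ‖ξ‖ ≤ 1 * ‖ξ‖ := mul_le_mul_of_nonneg_right h2 (norm_nonneg _)
        _ = ‖ξ‖ := one_mul _
    calc ‖ξ‖ * ‖π x ξ‖ ≤ ‖ξ‖ * ‖ξ‖ := mul_le_mul_of_nonneg_left h1 (norm_nonneg _)
      _ = ‖ξ‖ ^ 2 := by ring
  refine ⟨f * e0, hfe0, hfe1, ?_, ?_⟩
  · rw [hinner]
    have h1 : -ε < -((‖ξ‖ ^ 2 - (⟪ξ, π e0 ξ⟫_ℂ).re) + ((0 : ℂ)).re) := h _ h0T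
    rw [Complex.zero_re, add_zero] at h1
    linarith
  · intro τ hτ hτ1
    have hmem : (fun x => τ (f * x)) ∈ TT f := by
      refine ⟨?_, ?_, ?_, ?_, ?_, ?_⟩
      · intro x y; simp only [mul_add, map_add]
      · intro c x; simp only [mul_smul_comm, map_smul, smul_eq_mul]
      · intro x hx
        have h1 : f * x = f * x * f := by rw [mul_assoc, ← hfc x, ← mul_assoc, hff]
        have h2 := star_left_conjugate_nonneg hx f
        rw [hfs, ← h1] at h2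
        exact τ.map_nonneg h2
      · intro x y
        show τ (f * (x * y)) = τ (f * (y * x))
        rw [← mul_assoc, hτ, ← mul_assoc, ← hfc, mul_assoc]
      · intro x
        show τ (f * (f * x)) = τ (f * x)
        rw [← mul_assoc, hff]
      · intro x
        refine (norm_apply_le τ hτ1 _).trans ((norm_mul_le _ _).trans ?_)
        have h1 : ‖f‖ ≤ 1 := hf.norm_le
        calc ‖f‖ * ‖x‖ ≤ 1 * ‖x‖ := mul_le_mul_of_nonneg_right h1 (norm_nonneg _)
          _ = ‖x‖ := one_mul _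
    have h1 : -ε < -((‖ξ‖ ^ 2 - (⟪ξ, π e0 ξ⟫_ℂ).re) + (τ (f * e0)).re) := h _ hmem
    have h2 := hre e0 he0.1 he0.2
    linarith

end Crest.Agent.R121.Q
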