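import Crest.Agent.R121.Ty0
import Crest.Agent.R121.FDefs
import Crest.Agent.R124.TA
import Crest.Agent.R124.P2
import Crest.Agent.R95.SpecB

/-! Row 121, module T (helper80, ideas 549): definitions. -/

set_option autoImplicit false

namespace Crest.Agent.R121.Ty

open scoped InnerProductSpace ComplexOrder
open Crest.Agent.R121

variable {H : Type*} [NormedAddCommGroup H] [InnerProductSpace ℂ H] [CompleteSpace H]

/-- a positive tracial functional -/
structure Trc (M : VonNeumannAlgebra H) (τ : M.toStarSubalgebra →L[ℂ] ℂ) : Prop where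
  tr : ∀ a b, τ (a * b) = τ (b * a)
  nonneg : ∀ a, 0 ≤ τ (star a * a)

/-- normality: a norm limit of finite sums of vector functionals -/
def Nrm (M : VonNeumannAlgebra H) (τ : M.toStarSubalgebra →L[ℂ] ℂ) : Prop :=
  ∀ ε : ℝ, 0 < ε → ∃ (n : ℕ) (ξ η : Fin n → H), ∀ x : M.toStarSubalgebra,
    ‖τ x - ∑ k, ⟪η k, (x : H →L[ℂ] H) (ξ k)⟫_ℂ‖ ≤ ε * ‖x‖

/-- a projection `e` of `M` whose corner is commutative -/
structure Ab (M : VonNeumannAlgebra H) (e : H →L[ℂ] H) : Prop where
  proj : IsStarProjection e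
  mem : e ∈ M
  comm : ∀ x ∈ M, ∀ y ∈ M, e * x * e * (e * y * e) = e * y * e * (e * x * e)

end Crest.Agent.R121.Ty
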