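import Crest.Agent.R121.Q2
import Crest.Agent.R121.TyDefs
import Crest.Agent.R121.C4
import Crest.Agent.R95.SpecA
import Crest.Agent.R95.VNa

/-!
# Row 121, module Q (helper15), part 3: theorem Q for a von Neumann algebra, projection form
-/

set_option autoImplicit false

namespace Crest.Agent.R121.Q

open scoped InnerProductSpace ComplexOrder
open Crest.Agent.R121 Crest.Agent.R121.Ty

variable {H : Type*} [NormedAddCommGroup H] [InnerProductSpace ℂ H] [CompleteSpace H]

/-- positive operators in `M` are squares in `M` -/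
theorem exists_root (M : VonNeumannAlgebra H) {y : H →L[ℂ] H} (hy : y ∈ M) (h0 : 0 ≤ y) :
    ∃ c ∈ M, star c * c = y := by
  have hsa : IsSelfAdjoint y := .of_nonneg h0
  refine ⟨cfc Real.sqrt y, R95.vn_cfc_mem M hy hsa _ Real.continuous_sqrt, ?_⟩
  have h1 : IsSelfAdjoint (cfc Real.sqrt y) := cfc_predicate (R := ℝ) (p := IsSelfAdjoint) _ y
  rw [h1.star_eq, ← cfc_mul Real.sqrt Real.sqrt y (by fun_prop) (by fun_prop)]
  conv_rhs => rw [← cfc_id' ℝ y]
  refine cfc_congr fun x hx => ?_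
  exact Real.mul_self_sqrt (spectrum_nonneg_of_nonneg h0 hx)

theorem exists_sq_of_le {A : Type*} [CStarAlgebra A] [PartialOrder A] [StarOrderedRing A] {a b : A}
    (h : a ≤ b) : ∃ y, b - a = star y * y :=
  CStarAlgebra.nonneg_iff_eq_star_mul_self.1 (sub_nonneg.2 h)

theorem exists_small_proj (M : VonNeumannAlgebra H) {f : H →L[ℂ] H} (hf : CProj M f)
    (hno : ∀ τ : M.toStarSubalgebra →L[ℂ] ℂ, Trc M τ → Nrm M τ → τ ⟨f, hf.mem⟩ = 0) {ξ : H}
    (hξ : f ξ = ξ) {ε : ℝ} (hε : 0 < ε) :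
    ∃ (q : H →L[ℂ] H) (hq : q ∈ M), IsStarProjection q ∧ f * q = q ∧ ‖(f - q) ξ‖ ^ 2 ≤ ε ∧
      ∀ τ : M.toStarSubalgebra →L[ℂ] ℂ, Trc M τ → (τ ⟨q, hq⟩).re ≤ ε * (τ 1).re := by
  classical
  let _ : CStarAlgebra M.toStarSubalgebra :=
    StarSubalgebra.cstarAlgebra M.toStarSubalgebra (h_closed := isClosed_vNA M)
  let _ : PartialOrder M.toStarSubalgebra := CStarAlgebra.spectralOrder M.toStarSubalgebra
  have _ : StarOrderedRing M.toStarSubalgebra := CStarAlgebra.spectralOrderedRing M.toStarSubalgebra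
  let π : M.toStarSubalgebra →⋆ₐ[ℂ] (H →L[ℂ] H) := M.toStarSubalgebra.subtype
  set fA : M.toStarSubalgebra := ⟨f, hf.mem⟩ with hfA
  have hfp : IsStarProjection fA :=
    ⟨Subtype.ext hf.proj.isIdempotentElem, Subtype.ext hf.proj.isSelfAdjoint⟩
  have hfc : ∀ x : M.toStarSubalgebra, fA * x = x * fA := by
    intro x
    apply Subtype.ext
    have h1 := hf.comm
    rw [VonNeumannAlgebra.mem_commutant_iff] at h1
    exact (h1 _ x.2).symm
  -- positive linear maps and continuous functionals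
  have hbd : ∀ ψ : M.toStarSubalgebra →ₚ[ℂ] ℂ, ∃ τ : M.toStarSubalgebra →L[ℂ] ℂ, ∀ x, τ x = ψ x := by
    intro ψ
    refine ⟨⟨ψ.toLinearMap, ?_⟩, fun x => rfl⟩
    exact map_continuous ψ
  have hex := exists_small (A := M.toStarSubalgebra) π hfp hfc (ξ := ξ) ?_ hξ
    (show 0 < ε / 4 by positivity)
  · obtain ⟨e, he0, hef, heξ, hτe⟩ := hex
    set a : H →L[ℂ] H := (e : H →L[ℂ] H) with ha
    have haM : a ∈ M := e.2
    -- order facts as operators
    have hsq : ∀ (y : H →L[ℂ] H) (v : H), ⟪v, (star y * y) v⟫_ℂ = ((‖y v‖ ^ 2 : ℝ) : ℂ) := by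
      intro y v
      rw [mul_apply_eq_comp, ContinuousLinearMap.star_eq_adjoint,
        ContinuousLinearMap.adjoint_inner_right, inner_self_eq_norm_sq_to_K]
      push_cast
      rfl
    have ha0 : ∀ v, 0 ≤ (⟪v, a v⟫_ℂ).re := by
      intro v
      obtain ⟨y, hy⟩ := CStarAlgebra.nonneg_iff_eq_star_mul_self.1 he0
      have h1 : a = star (y : H →L[ℂ] H) * (y : H →L[ℂ] H) := congrArg Subtype.val hy
      rw [h1, hsq, Complex.ofReal_re]
      positivity
    have haf : ∀ v, (⟪v, a v⟫_ℂ).re ≤ (⟪v, f v⟫_ℂ).re := by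
      intro v
      obtain ⟨y, hy⟩ := exists_sq_of_le hef
      have h1 : f - a = star (y : H →L[ℂ] H) * (y : H →L[ℂ] H) := congrArg Subtype.val hy
      have h2 := hsq (y : H →L[ℂ] H) v
      rw [← h1, sub_apply, inner_sub_right] at h2
      have h3 := congrArg Complex.re h2
      rw [Complex.sub_re, Complex.ofReal_re] at h3
      nlinarith [sq_nonneg ‖(y : H →L[ℂ] H) v‖]
    have hfn : ∀ v, (⟪v, f v⟫_ℂ).re ≤ ‖v‖ ^ 2 := by
      intro v
      refine (Complex.re_le_norm _).trans ((norm_inner_le_norm _ _).trans ?_)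
      have h1 : ‖f v‖ ≤ ‖v‖ := by
        refine (f.le_opNorm v).trans ?_
        calc ‖f‖ * ‖v‖ ≤ 1 * ‖v‖ := mul_le_mul_of_nonneg_right hf.proj.norm_le (norm_nonneg _)
          _ = ‖v‖ := one_mul _
      calc ‖v‖ * ‖f v‖ ≤ ‖v‖ * ‖v‖ := mul_le_mul_of_nonneg_left h1 (norm_nonneg _)
        _ = ‖v‖ ^ 2 := by ring
    have has : IsSelfAdjoint a := by
      have h1 : IsSelfAdjoint e := .of_nonneg he0
      exact congrArg Subtype.val h1
    obtain ⟨q, ⟨hqM, hqp⟩, hqa, -, hq1, hq2⟩ := R95.spec_cut M haM has (1 / 2)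
    have hqq : q * q = q := hqp.isIdempotentElem
    have hqs : star q = q := hqp.isSelfAdjoint
    have hfq : f * q = q * f := by
      have h1 := hf.comm
      rw [VonNeumannAlgebra.mem_commutant_iff] at h1
      exact (h1 q hqM).symm
    have hff : f * f = f := hf.proj.isIdempotentElem
    -- orthogonality
    have horth : ∀ v w : H, ⟪q v, (1 - q) w⟫_ℂ = 0 := by
      intro v w
      have h1 : ⟪q v, (1 - q) w⟫_ℂ = ⟪v, q ((1 - q) w)⟫_ℂ := by
        conv_lhs => rw [← hqs, ContinuousLinearMap.star_eq_adjoint]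
        rw [ContinuousLinearMap.adjoint_inner_left]
        congr 2
        rw [← ContinuousLinearMap.star_eq_adjoint, hqs]
      have h2 : q ((1 - q) w) = 0 := by
        have h3 : q * (1 - q) = 0 := by rw [mul_sub, mul_one, hqq, sub_self]
        have := congrArg (fun T : H →L[ℂ] H => T w) h3
        simpa using this
      rw [h1, h2, inner_zero_right]
    have hsplit : ∀ v : H, v = q v + (1 - q) v := fun v => by
      simp
    have hn2 : ∀ v : H, ‖v‖ ^ 2 = ‖q v‖ ^ 2 + ‖(1 - q) v‖ ^ 2 := by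
      intro v
      have h1 := norm_add_sq (𝕜 := ℂ) (q v) ((1 - q) v)
      rw [← hsplit, horth] at h1
      simpa using h1
    have haq : ∀ v : H, a (q v) = q (a v) := fun v => by
      have := congrArg (fun T : H →L[ℂ] H => T v) hqa
      simpa using this.symm
    have haq' : ∀ v : H, a ((1 - q) v) = (1 - q) (a v) := fun v => by
      simp [haq]
    have hform : ∀ v : H, (⟪v, a v⟫_ℂ).re = (⟪q v, a (q v)⟫_ℂ).re + (⟪(1 - q) v, a ((1 - q) v)⟫_ℂ).re := by
      intro v
      have h1 : ⟪v, a v⟫_ℂ = ⟪q v + (1 - q) v, a (q v + (1 - q) v)⟫_ℂ := by rw [← hsplit]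
      rw [h1, map_add, inner_add_left, inner_add_right, inner_add_right]
      have h2 : ⟪q v, a ((1 - q) v)⟫_ℂ = 0 := by rw [haq', horth]
      have h3 : ⟪(1 - q) v, a (q v)⟫_ℂ = 0 := by
        rw [haq, ← inner_conj_symm, horth, map_zero]
      rw [h2, h3, add_zero, zero_add, Complex.add_re]
    -- `f q = q`
    have hfqq : f * q = q := by
      ext v
      have hw : ∃ w, w = q v - f (q v) := ⟨_, rfl⟩
      obtain ⟨w, hw⟩ := hw
      have h1 : q w = w := by
        have h2 : q * (q - f * q) = q - f * q := by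
          rw [mul_sub, hqq, ← mul_assoc, ← hfq, mul_assoc, hqq]
        have := congrArg (fun T : H →L[ℂ] H => T v) h2
        rw [hw]
        simpa using this
      have h3 : f w = 0 := by
        have h2 : f * (q - f * q) = 0 := by rw [mul_sub, ← mul_assoc, hff, sub_self]
        have := congrArg (fun T : H →L[ℂ] H => T v) h2
        rw [hw]
        simpa using this
      have h4 := hq1 w
      rw [h1] at h4
      have h5 := haf w
      rw [h3, inner_zero_right, Complex.zero_re] at h5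
      have h6 : ‖w‖ ^ 2 ≤ 0 := by linarith
      have h7 : w = 0 := by
        have : ‖w‖ = 0 := by nlinarith [norm_nonneg w]
        exact norm_eq_zero.1 this
      rw [h7] at hw
      rw [mul_apply_eq_comp]
      exact (sub_eq_zero.1 hw.symm).symm
    refine ⟨q, hqM, hqp, hfqq, ?_, ?_⟩
    · have h1 : (f - q) ξ = (1 - q) ξ := by simp [hξ]
      rw [h1]
      have h2 : ‖ξ‖ ^ 2 - (⟪ξ, a ξ⟫_ℂ).re ≤ ε / 4 := heξ
      rw [hform ξ, hn2 ξ] at h2
      have h3 := hq2 ξ
      have h4 : (⟪q ξ, a (q ξ)⟫_ℂ).re ≤ ‖q ξ‖ ^ 2 := (haf _).trans (hfn _)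
      linarith
    · intro τ hτ
      have hnn : ∀ y : M.toStarSubalgebra, 0 ≤ (τ (star y * y)).re := fun y =>
        (Complex.le_def.1 (hτ.nonneg y)).1
      -- `q ≤ 2 e`
      have h1 : (τ ⟨q, hqM⟩).re ≤ 2 * (τ e).re := by
        have h2 : (0 : H →L[ℂ] H) ≤ (2 : ℂ) • a - q := by
          rw [ContinuousLinearMap.nonneg_iff_isPositive]
          have hsa : IsSelfAdjoint ((2 : ℂ) • a - q) := by
            refine IsSelfAdjoint.sub ?_ hqp.isSelfAdjoint
            rw [show ((2 : ℂ) • a : H →L[ℂ] H) = a + a by rw [two_smul]]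
            exact has.add has
          refine (ContinuousLinearMap.isPositive_iff_complex _).2 fun v => ?_
          have hself : ⟪((2 : ℂ) • a - q) v, v⟫_ℂ = ⟪v, ((2 : ℂ) • a - q) v⟫_ℂ := by
            rw [← ContinuousLinearMap.adjoint_inner_right, ← ContinuousLinearMap.star_eq_adjoint,
              hsa.star_eq]
          have him : (⟪((2 : ℂ) • a - q) v, v⟫_ℂ).im = 0 := by
            have h3 := inner_conj_symm (𝕜 := ℂ) v (((2 : ℂ) • a - q) v)
            rw [← hself] at h3
            have h4 := congrArg Complex.im h3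
            simp only [Complex.conj_im] at h4
            linarith
          have hre : 0 ≤ (⟪((2 : ℂ) • a - q) v, v⟫_ℂ).re := by
            rw [hself, sub_apply, smul_apply, inner_sub_right, inner_smul_right, Complex.sub_re]
            have h3 : ((2 : ℂ) * ⟪v, a v⟫_ℂ).re = 2 * (⟪v, a v⟫_ℂ).re := by simp
            have h4 : (⟪v, q v⟫_ℂ).re = ‖q v‖ ^ 2 := by
              have h5 := hsq q v
              rw [hqs, hqq] at h5
              rw [h5, Complex.ofReal_re]
            rw [h3, h4, hform v]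
            have h5 := hq1 v
            have h6 := ha0 ((1 - q) v)
            linarith
          refine ⟨?_, hre⟩
          apply Complex.ext
          · simp
          · rw [him]; exact Complex.ofReal_im _
        obtain ⟨c, hcM, hc⟩ := exists_root M (y := (2 : ℂ) • a - q)
          (sub_mem (M.toStarSubalgebra.smul_mem haM 2) hqM) h2
        have h3 := hnn ⟨c, hcM⟩
        have h4 : star (⟨c, hcM⟩ : M.toStarSubalgebra) * ⟨c, hcM⟩ = (2 : ℂ) • e - ⟨q, hqM⟩ :=
          Subtype.ext hc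
        rw [h4, map_sub, map_smul, smul_eq_mul, Complex.sub_re] at h3
        have h5 : ((2 : ℂ) * τ e).re = 2 * (τ e).re := by simp
        rw [h5] at h3
        linarith
      have hone : (0 : ℝ) ≤ (τ 1).re := by
        have := hnn 1
        simpa using this
      rcases hone.lt_or_eq with h2 | h2
      · -- normalise
        have hr : ∃ ψ : M.toStarSubalgebra →ₚ[ℂ] ℂ, ∀ x, ψ x = (((τ 1).re⁻¹ : ℝ) : ℂ) * τ x := by
          refine ⟨PositiveLinearMap.mk₀ ((((τ 1).re⁻¹ : ℝ) : ℂ) • τ.toLinearMap) fun x hx => ?_,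
            fun x => rfl⟩
          obtain ⟨y, hy⟩ := CStarAlgebra.nonneg_iff_eq_star_mul_self.1 hx
          rw [hy]
          show 0 ≤ (((τ 1).re⁻¹ : ℝ) : ℂ) * τ (star y * y)
          refine mul_nonneg ?_ (hτ.nonneg y)
          exact_mod_cast inv_nonneg.2 hone
        obtain ⟨ψ, hψ⟩ := hr
        have h3 := hτe ψ (fun x y => by rw [hψ, hψ, hτ.tr]) (by
          rw [hψ, Complex.re_ofReal_mul, inv_mul_cancel₀ h2.ne'])
        rw [hψ, Complex.re_ofReal_mul, inv_mul_le_iff₀ h2] at h3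
        nlinarith
      · have h3 : (τ ⟨q, hqM⟩).re ≤ (τ 1).re := by
          have h4 := hnn ⟨1 - q, sub_mem (one_mem M.toStarSubalgebra) hqM⟩
          have h5 : star (⟨1 - q, sub_mem (one_mem M.toStarSubalgebra) hqM⟩ : M.toStarSubalgebra) *
              ⟨1 - q, sub_mem (one_mem M.toStarSubalgebra) hqM⟩ = 1 - ⟨q, hqM⟩ := by
            apply Subtype.ext
            show star (1 - q) * (1 - q) = 1 - q
            rw [star_sub, star_one, hqs, mul_sub, sub_mul, sub_mul, hqq]
            simp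
          rw [h5, map_sub, Complex.sub_re] at h4
          linarith
        rw [← h2] at h3 ⊢
        rw [mul_zero]
        exact h3
  · intro ψ h1 h2
    obtain ⟨τ, hτ⟩ := hbd ψ
    rw [← hτ]
    refine hno τ ⟨fun a b => ?_, fun a => ?_⟩ ?_
    · rw [hτ, hτ, h1]
    · rw [hτ]; exact ψ.map_nonneg (star_mul_self_nonneg a)
    · intro δ hδ
      obtain ⟨n, a, b, h⟩ := h2 δ hδ
      exact ⟨n, b, a, fun x => by rw [hτ]; exact h x⟩

end Crest.Agent.R121.Q
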