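import Crest.Agent.R121.FDefs

/-! Row 121, module Q (helper15): normal functionals = norm limits of finite sums of vector functionals -/

set_option autoImplicit false

namespace Crest.Agent.R121

open scoped InnerProductSpace ComplexOrder
open Crest.OpAlg

variable {H : Type*} [NormedAddCommGroup H] [InnerProductSpace ℂ H] [CompleteSpace H]

/-- norm limits of finite sums of vector functionals -/
def NormalF (M : VonNeumannAlgebra H) (τ : M.toStarSubalgebra →L[ℂ] ℂ) : Prop :=
  ∀ ε : ℝ, 0 < ε → ∃ (m : ℕ) (ξ η : Fin m → H), ∀ x : M.toStarSubalgebra,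
    ‖τ x - ∑ k, ⟪η k, (x : H →L[ℂ] H) (ξ k)⟫_ℂ‖ ≤ ε * ‖x‖

end Crest.Agent.R121
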