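import Crest.Agent.R124.Cmp2

/-!
# Row 121, module T (helper7): central splitting `N = finite ⊕ properly infinite`

`PI2 N a b` : `a, b ∈ N`, `a⋆a = b⋆b = h` projection, `a⋆b = 0`, `h a = a`, `h b = b` (so `h` is properly
infinite).  Take a maximal pair; then `1 - h` is finite, and the comparison theorem splits.
-/

set_option autoImplicit false
set_option linter.unusedSectionVars false
set_option linter.deprecated false

open Crest.Agent.R95.VN Crest.Agent.R124.Cmp

namespace Crest.Agent.R121.TD

variable {H : Type*} [NormedAddCommGroup H] [InnerProductSpace ℂ H] [CompleteSpace H]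
variable {N : VonNeumannAlgebra H}

/-- two orthogonal copies of `h = a⋆a` inside `h` -/
structure PI2 (N : VonNeumannAlgebra H) (a b : H →L[ℂ] H) : Prop where
  ma : a ∈ N
  mb : b ∈ N
  pa : a * star a * a = a
  pb : b * star b * b = b
  ini : star a * a = star b * b
  orth : star a * b = 0
  ra : star a * a * a = a
  rb : star a * a * b = b

theorem star_eq_zero_of {x : H →L[ℂ] H} (h : star x = 0) : x = 0 := by
  have := congrArg star h
  simpa using this

/-- suprema of directed families of pairs -/
theorem sup_pair {ι : Type*} [Nonempty ι] (a b : ι → H →L[ℂ] H) (ha : ∀ i, a i ∈ N)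
    (hb : ∀ i, b i ∈ N) (pa : ∀ i, a i * star (a i) * a i = a i)
    (pb : ∀ i, b i * star (b i) * b i = b i)
    (ini : ∀ i, star (a i) * a i = star (b i) * b i)
    (orth : ∀ i, star (a i) * b i = 0)
    (ra : ∀ i, ∃ k, star (a k) * a k * a i = a i)
    (rb : ∀ i, ∃ k, star (a k) * a k * b i = b i)
    (hd : ∀ i j, ∃ k, (Ext (a i) (a k) ∧ Ext (a j) (a k)) ∧ (Ext (b i) (b k) ∧ Ext (b j) (b k))) :
    ∃ v w, PI2 N v w ∧ (∀ i, Ext (a i) v) ∧ (∀ i, Ext (b i) w) ∧
      (∀ q : H →L[ℂ] H, (∀ i, q * a i = a i) → q * v = v) ∧
      (∀ q : H →L[ℂ] H, (∀ i, a i * q = a i) → v * q = v) ∧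
      (∀ q : H →L[ℂ] H, (∀ i, q * b i = b i) → q * w = w) ∧
      (∀ q : H →L[ℂ] H, (∀ i, b i * q = b i) → w * q = w) := by
  obtain ⟨v, hvN, hv, hve, hvl, hvr⟩ := exists_sup (N := N) a ha pa
    (fun i j => by obtain ⟨k, hk, -⟩ := hd i j; exact ⟨k, hk⟩)
  obtain ⟨w, hwN, hw, hwe, hwl, hwr⟩ := exists_sup (N := N) b hb pb
    (fun i j => by obtain ⟨k, -, hk⟩ := hd i j; exact ⟨k, hk⟩)
  -- `E1 = v⋆v`, `E2 = w⋆w`
  have hE1 : ∀ i, star v * v * (star (a i) * a i) = star (a i) * a i := fun i => by
    have h1 : v * (star (a i) * a i) = a i := hve i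
    rw [mul_assoc, h1]; exact Ext.left (pa i) hv (hve i)
  have hE2 : ∀ i, star w * w * (star (b i) * b i) = star (b i) * b i := fun i => by
    have h1 : w * (star (b i) * b i) = b i := hwe i
    rw [mul_assoc, h1]; exact Ext.left (pb i) hw (hwe i)
  have hE1' : ∀ i, star (a i) * a i * (star v * v) = star (a i) * a i := fun i => by
    have := congrArg star (hE1 i)
    simpa [mul_assoc] using this
  have hE2' : ∀ i, star (b i) * b i * (star w * w) = star (b i) * b i := fun i => by
    have := congrArg star (hE2 i)
    simpa [mul_assoc] using this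
  have pa' : ∀ i, a i * (star (a i) * a i) = a i := fun i => by rw [← mul_assoc]; exact pa i
  have pb' : ∀ i, b i * (star (b i) * b i) = b i := fun i => by rw [← mul_assoc]; exact pb i
  have k1 : v * (star w * w) = v := hvr _ fun i => by
    calc a i * (star w * w) = a i * (star (a i) * a i) * (star w * w) := by rw [pa' i]
      _ = a i * (star (b i) * b i * (star w * w)) := by rw [ini i, mul_assoc]
      _ = a i := by rw [hE2' i, ← ini i, pa' i]
  have k2 : w * (star v * v) = w := hwr _ fun i => by
    calc b i * (star v * v) = b i * (star (b i) * b i) * (star v * v) := by rw [pb' i]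
      _ = b i * (star (a i) * a i * (star v * v)) := by rw [← ini i, mul_assoc]
      _ = b i := by rw [hE1' i, ini i, pb' i]
  have hEE : star v * v = star w * w := by
    have e1 : star v * v * (star w * w) = star v * v := by rw [mul_assoc, k1]
    have e2 : star w * w * (star v * v) = star w * w := by rw [mul_assoc, k2]
    have e3 : star w * w * (star v * v) = star v * v := by
      have := congrArg star e1
      simpa [mul_assoc] using this
    rw [← e3, e2]
  have horth : ∀ i j, star (b j) * a i = 0 := by
    intro i j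
    obtain ⟨k, ⟨h1, -⟩, ⟨-, h2⟩⟩ := hd i j
    have h1' : a k * (star (a i) * a i) = a i := h1
    have h2' : b k * (star (b j) * b j) = b j := h2
    have h3 : star (b k) * a k = 0 := by
      apply star_eq_zero_of; rw [star_mul, star_star]; exact orth k
    calc star (b j) * a i = star (b k * (star (b j) * b j)) * (a k * (star (a i) * a i)) := by
          rw [h1', h2']
      _ = star (star (b j) * b j) * (star (b k) * a k) * (star (a i) * a i) := by
          rw [star_mul]; simp only [mul_assoc]
      _ = 0 := by rw [h3, mul_zero, zero_mul]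
  have hbv : ∀ j, star (b j) * v = 0 := by
    intro j
    have h1 : (1 - b j * star (b j)) * v = v := hvl _ fun i => by
      rw [sub_mul, one_mul, mul_assoc, horth i j, mul_zero, sub_zero]
    have h2 : b j * star (b j) * v = 0 := by
      rw [sub_mul, one_mul] at h1
      simpa using h1
    have h3 : star (b j) * b j * star (b j) = star (b j) := by
      have := congrArg star (pb j)
      simpa [mul_assoc] using this
    calc star (b j) * v = star (b j) * b j * star (b j) * v := by rw [h3]
      _ = star (b j) * (b j * star (b j) * v) := by simp only [mul_assoc]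
      _ = 0 := by rw [h2, mul_zero]
  have hvw : star v * w = 0 := by
    have h1 : (1 - v * star v) * w = w := hwl _ fun j => by
      have : star v * b j = 0 := by
        apply star_eq_zero_of; rw [star_mul, star_star]; exact hbv j
      rw [sub_mul, one_mul, mul_assoc, this, mul_zero, sub_zero]
    have h2 : v * star v * w = 0 := by
      rw [sub_mul, one_mul] at h1
      simpa using h1
    have h3 : star v * v * star v = star v := by
      have := congrArg star hv
      simpa [mul_assoc] using this
    calc star v * w = star v * v * star v * w := by rw [h3]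
      _ = star v * (v * star v * w) := by simp only [mul_assoc]
      _ = 0 := by rw [h2, mul_zero]
  have hra : star v * v * v = v := hvl _ fun i => by
    obtain ⟨k, hk⟩ := ra i
    calc star v * v * a i = star v * v * (star (a k) * a k) * a i := by
          rw [mul_assoc _ (star (a k) * a k), hk]
      _ = a i := by rw [hE1 k, hk]
  have hrb : star v * v * w = w := hwl _ fun i => by
    obtain ⟨k, hk⟩ := rb i
    calc star v * v * b i = star v * v * (star (a k) * a k) * b i := by
          rw [mul_assoc _ (star (a k) * a k), hk]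
      _ = b i := by rw [hE1 k, hk]
  exact ⟨v, w, ⟨hvN, hwN, hv, hw, hEE, hvw, hra, hrb⟩, hve, hwe, hvl, hvr, hwl, hwr⟩

/-- a maximal pair -/
theorem exists_max (N : VonNeumannAlgebra H) :
    ∃ a b, PI2 N a b ∧ ∀ a' b', PI2 N a' b' → Ext a a' → Ext b b' → Ext a' a := by
  let X : Type _ := {p : (H →L[ℂ] H) × (H →L[ℂ] H) // PI2 N p.1 p.2}
  have hz : PI2 N (0 : H →L[ℂ] H) 0 := by
    refine ⟨zero_mem _, zero_mem _, ?_, ?_, rfl, ?_, ?_, ?_⟩ <;> simp
  obtain ⟨m, hm⟩ := exists_maximal_of_chains_bounded (α := X)
    (r := fun x y => Ext x.1.1 y.1.1 ∧ Ext x.1.2 y.1.2)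
    (by
      intro c hc
      rcases c.eq_empty_or_nonempty with rfl | hne
      · exact ⟨⟨(0, 0), hz⟩, fun a ha => absurd ha (Set.notMem_empty a)⟩
      · have _ : Nonempty c := hne.to_subtype
        obtain ⟨v, w, hvw, h1, h2, -, -, -, -⟩ := sup_pair (N := N) (fun i : c => i.1.1.1)
          (fun i : c => i.1.1.2) (fun i => i.1.2.ma) (fun i => i.1.2.mb) (fun i => i.1.2.pa)
          (fun i => i.1.2.pb) (fun i => i.1.2.ini) (fun i => i.1.2.orth)
          (fun i => ⟨i, i.1.2.ra⟩) (fun i => ⟨i, i.1.2.rb⟩) (by
            intro i j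
            rcases eq_or_ne i.1 j.1 with h | h
            · refine ⟨i, ⟨Ext.refl i.1.2.pa, ?_⟩, ⟨Ext.refl i.1.2.pb, ?_⟩⟩
              · rw [← h]; exact Ext.refl i.1.2.pa
              · rw [← h]; exact Ext.refl i.1.2.pb
            · rcases hc i.2 j.2 h with h' | h'
              · exact ⟨j, ⟨h'.1, Ext.refl j.1.2.pa⟩, ⟨h'.2, Ext.refl j.1.2.pb⟩⟩
              · exact ⟨i, ⟨Ext.refl i.1.2.pa, h'.1⟩, ⟨Ext.refl i.1.2.pb, h'.2⟩⟩)
        exact ⟨⟨(v, w), hvw⟩, fun x hx => ⟨h1 ⟨x, hx⟩, h2 ⟨x, hx⟩⟩⟩)
    (fun {x y z} h1 h2 => ⟨Ext.trans x.2.pa y.2.pa h1.1 h2.1, Ext.trans x.2.pb y.2.pb h1.2 h2.2⟩)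
  exact ⟨m.1.1, m.1.2, m.2, fun a' b' h h1 h2 => (hm ⟨(a', b'), h⟩ ⟨h1, h2⟩).1⟩

/-! ### The complement of a maximal pair is finite -/

section Shift
variable (c : ℕ → ℕ → H →L[ℂ] H)

/-- `∑_{m < n} c (2m + r) m` -/
noncomputable def sh (r n : ℕ) : H →L[ℂ] H := ∑ m ∈ Finset.range n, c (2 * m + r) m

theorem sh_eqn (r n : ℕ) : sh c r n = ∑ m ∈ Finset.range n, c (2 * m + r) m := by rw [sh]

/-- `∑_{m < n} c m m` -/
noncomputable def dg (n : ℕ) : H →L[ℂ] H := ∑ m ∈ Finset.range n, c m m

theorem dg_eqn (n : ℕ) : dg c n = ∑ m ∈ Finset.range n, c m m := by rw [dg]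

variable {c} (hc : ∀ i j k l, c i j * c k l = if j = k then c i l else 0)
  (hs : ∀ i j, star (c i j) = c j i)
include hc hs

theorem star_sh (r n : ℕ) : star (sh c r n) = ∑ m ∈ Finset.range n, c m (2 * m + r) := by
  rw [sh_eqn, star_sum]
  exact Finset.sum_congr rfl fun m _ => hs _ _

theorem sh_self (r n : ℕ) : star (sh c r n) * sh c r n = dg c n := by
  rw [star_sh hc hs, sh_eqn, dg_eqn, Finset.sum_mul_sum]
  refine Finset.sum_congr rfl fun m hm => ?_
  rw [Finset.sum_eq_single m]
  · rw [hc, if_pos rfl]
  · intro l _ hl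
    rw [hc, if_neg (by omega)]
  · intro h; exact absurd hm h

theorem sh_orth (n k : ℕ) : star (sh c 0 n) * sh c 1 k = 0 := by
  rw [star_sh hc hs, sh_eqn, Finset.sum_mul_sum]
  refine Finset.sum_eq_zero fun m _ => Finset.sum_eq_zero fun l _ => ?_
  rw [hc, if_neg (by omega)]

theorem sh_dg (r n k : ℕ) (h : k ≤ n) : sh c r n * dg c k = sh c r k := by
  rw [sh_eqn, sh_eqn, dg_eqn, Finset.sum_mul_sum, Finset.sum_comm]
  refine Finset.sum_congr rfl fun m hm => ?_
  rw [Finset.sum_eq_single m]
  · rw [hc, if_pos rfl]
  · intro l _ hl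
    rw [hc, if_neg hl]
  · intro h'
    exact absurd (Finset.mem_range.2 (lt_of_lt_of_le (Finset.mem_range.1 hm) h)) h'

theorem dg_sh (r n k : ℕ) (hr : r ≤ 1) (h : 2 * n ≤ k) : dg c k * sh c r n = sh c r n := by
  rw [sh_eqn, dg_eqn, Finset.sum_mul_sum, Finset.sum_comm]
  refine Finset.sum_congr rfl fun m hm => ?_
  rw [Finset.sum_eq_single (2 * m + r)]
  · rw [hc, if_pos rfl]
  · intro l _ hl
    rw [hc, if_neg hl]
  · intro h'
    have := Finset.mem_range.1 hm
    exact absurd (Finset.mem_range.2 (by omega)) h'

/-- a shift system gives a pair -/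
theorem exists_pair (hN : ∀ i j, c i j ∈ N) :
    ∃ v u, PI2 N v u ∧ v * c 0 0 = c 0 0 ∧
      (∀ q : H →L[ℂ] H, (∀ i j, q * c i j = c i j) → q * v = v ∧ q * u = u) ∧
      (∀ q : H →L[ℂ] H, (∀ i j, c i j * q = c i j) → v * q = v ∧ u * q = u) := by
  have hpi : ∀ r n, sh c r n * star (sh c r n) * sh c r n = sh c r n := fun r n => by
    rw [mul_assoc, sh_self hc hs, sh_dg hc hs r n n le_rfl]
  have hext : ∀ r n k, n ≤ k → Ext (sh c r n) (sh c r k) := fun r n k h => by
    show sh c r k * (star (sh c r n) * sh c r n) = sh c r n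
    rw [sh_self hc hs, sh_dg hc hs r k n h]
  have hmem : ∀ r n, sh c r n ∈ N := fun r n => by
    rw [sh_eqn]; exact sum_mem fun m _ => hN _ _
  obtain ⟨v, u, hvu, e1, e2, q1, q2, q3, q4⟩ := sup_pair (N := N) (fun n => sh c 0 n)
    (fun n => sh c 1 n) (fun n => hmem 0 n) (fun n => hmem 1 n) (fun n => hpi 0 n)
    (fun n => hpi 1 n) (fun n => by rw [sh_self hc hs, sh_self hc hs])
    (fun n => sh_orth hc hs n n)
    (fun n => ⟨2 * n, by rw [sh_self hc hs, dg_sh hc hs 0 n _ (by omega) le_rfl]⟩)
    (fun n => ⟨2 * n, by rw [sh_self hc hs, dg_sh hc hs 1 n _ (by omega) le_rfl]⟩)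
    (fun i j => ⟨max i j, ⟨hext _ _ _ (le_max_left _ _), hext _ _ _ (le_max_right _ _)⟩,
      ⟨hext _ _ _ (le_max_left _ _), hext _ _ _ (le_max_right _ _)⟩⟩)
  refine ⟨v, u, hvu, ?_, fun q hq => ⟨q1 q fun n => ?_, q3 q fun n => ?_⟩,
    fun q hq => ⟨q2 q fun n => ?_, q4 q fun n => ?_⟩⟩
  · have h1 : v * (star (sh c 0 1) * sh c 0 1) = sh c 0 1 := e1 1
    rw [sh_self hc hs, dg_eqn, sh_eqn] at h1
    simpa using h1
  · rw [sh_eqn, Finset.mul_sum]; exact Finset.sum_congr rfl fun m _ => hq _ _
  · rw [sh_eqn, Finset.mul_sum]; exact Finset.sum_congr rfl fun m _ => hq _ _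
  · rw [sh_eqn, Finset.sum_mul]; exact Finset.sum_congr rfl fun m _ => hq _ _
  · rw [sh_eqn, Finset.sum_mul]; exact Finset.sum_congr rfl fun m _ => hq _ _

end Shift

/-- the shift system of a non-unitary isometry of the corner `k` -/
theorem shift_system {k w : H →L[ℂ] H} (hk : star k = k) (hkk : k * k = k) (hwk : w * k = w)
    (hkw : k * w = w) (hw : star w * w = k) :
    ∃ c : ℕ → ℕ → H →L[ℂ] H, (∀ i j k l, c i j * c k l = if j = k then c i l else 0) ∧
      (∀ i j, star (c i j) = c j i) ∧ (∀ i j, k * c i j = c i j) ∧ (∀ i j, c i j * k = c i j) ∧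
      c 0 0 = k - w * star w ∧ ∀ N : VonNeumannAlgebra H, k ∈ N → w ∈ N → ∀ i j, c i j ∈ N := by
  set p := k - w * star w with hp
  have hws : k * star w = star w := by
    have := congrArg star hwk
    simpa [hk] using this
  have hsw : star w * k = star w := by
    have := congrArg star hkw
    simpa [hk] using this
  have hps : star p = p := by rw [hp, star_sub, hk, star_mul, star_star]
  have hkp : k * p = p := by rw [hp, mul_sub, hkk, ← mul_assoc, hkw]
  have hpk : p * k = p := by rw [hp, sub_mul, hkk, mul_assoc, hsw]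
  have hpw : p * w = 0 := by rw [hp, sub_mul, hkw, mul_assoc, hw, hwk, sub_self]
  have hwp : star w * p = 0 := by
    have := congrArg star hpw
    simpa [hps] using this
  have hpp : p * p = p := by
    have : p * (w * star w) = 0 := by rw [← mul_assoc, hpw, zero_mul]
    calc p * p = p * k - p * (w * star w) := by rw [← mul_sub]
      _ = p := by rw [hpk, this, sub_zero]
  -- products
  have key : ∀ j l, p * star (w ^ j) * (w ^ l * p) = if j = l then p else 0 := by
    intro j
    induction j with
    | zero =>
      intro l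
      rcases Nat.eq_zero_or_pos l with rfl | hl
      · simp [hpp]
      · obtain ⟨m, rfl⟩ : ∃ m, l = m + 1 := ⟨l - 1, by omega⟩
        rw [if_neg (by omega), pow_zero, star_one, mul_one, pow_succ', ← mul_assoc, ← mul_assoc, hpw,
          zero_mul, zero_mul]
    | succ j ih =>
      intro l
      rcases Nat.eq_zero_or_pos l with rfl | hl
      · rw [if_neg (by omega), pow_zero, one_mul, pow_succ, star_mul, mul_assoc p]
        have : star (w ^ j) * star w = star w * star (w ^ j) := by
          rw [← star_mul, ← star_mul, ← pow_succ, ← pow_succ']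
        rw [← this, mul_assoc (star (w ^ j)), hwp, mul_zero, mul_zero]
      · obtain ⟨m, rfl⟩ : ∃ m, l = m + 1 := ⟨l - 1, by omega⟩
        have e1 : star (w ^ (j + 1)) = star (w ^ j) * star w := by rw [pow_succ', star_mul]
        have e2 : w ^ (m + 1) = w * w ^ m := pow_succ' w m
        have e3 : k * (w ^ m * p) = w ^ m * p := by
          rcases Nat.eq_zero_or_pos m with rfl | hm
          · rw [pow_zero, one_mul, hkp]
          · obtain ⟨m', rfl⟩ : ∃ m', m = m' + 1 := ⟨m - 1, by omega⟩
            rw [pow_succ', ← mul_assoc, ← mul_assoc, hkw]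
        calc p * star (w ^ (j + 1)) * (w ^ (m + 1) * p)
            = p * star (w ^ j) * ((star w * w) * (w ^ m * p)) := by
              rw [e1, e2]; simp only [mul_assoc]
          _ = p * star (w ^ j) * (w ^ m * p) := by rw [hw, e3]
          _ = if j = m then p else 0 := ih m
          _ = if j + 1 = m + 1 then p else 0 := by simp
  refine ⟨fun i j => w ^ i * p * star (w ^ j), ?_, ?_, ?_, ?_, ?_, ?_⟩
  · intro i j l m
    calc w ^ i * p * star (w ^ j) * (w ^ l * p * star (w ^ m))
        = w ^ i * (p * star (w ^ j) * (w ^ l * p)) * star (w ^ m) := by simp only [mul_assoc]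
      _ = _ := by
        rw [key]
        by_cases h : j = l
        · rw [if_pos h, if_pos h]
        · rw [if_neg h, if_neg h, mul_zero, zero_mul]
  · intro i j
    beta_reduce
    rw [star_mul, star_mul, star_star, hps, mul_assoc]
  · intro i j
    beta_reduce
    rcases Nat.eq_zero_or_pos i with rfl | hi
    · rw [pow_zero, one_mul, ← mul_assoc, hkp]
    · obtain ⟨m, rfl⟩ : ∃ m, i = m + 1 := ⟨i - 1, by omega⟩
      rw [pow_succ']; simp only [← mul_assoc]; rw [hkw]
  · intro i j
    beta_reduce
    rcases Nat.eq_zero_or_pos j with rfl | hj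
    · rw [pow_zero, star_one, mul_one, mul_assoc, hpk]
    · obtain ⟨m, rfl⟩ : ∃ m, j = m + 1 := ⟨j - 1, by omega⟩
      rw [pow_succ', star_mul]; simp only [mul_assoc]; rw [hsw]
  · simp
  · intro N hkN hwN i j
    beta_reduce
    have hpN : p ∈ N := sub_mem hkN (mul_mem hwN (star_mem hwN))
    exact mul_mem (mul_mem (pow_mem hwN i) hpN) (star_mem (pow_mem hwN j))

/-- the complement of a maximal pair is finite -/
theorem fin_of_max {a b : H →L[ℂ] H} (h : PI2 N a b)
    (hmax : ∀ a' b', PI2 N a' b' → Ext a a' → Ext b b' → Ext a' a) {w : H →L[ℂ] H} (hwN : w ∈ N)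
    (hwk : w * (1 - star a * a) = w) (hkw : (1 - star a * a) * w = w)
    (hw : star w * w = 1 - star a * a) : w * star w = 1 - star a * a := by
  have hh : IsStarProjection (star a * a) := pi_left h.pa
  set e := star a * a with he
  have hes : star e = e := proj_star hh
  have hee : e * e = e := proj_mul hh
  set k := 1 - e with hk
  have hks : star k = k := by rw [hk, star_sub, star_one, hes]
  have hkk : k * k = k := by rw [hk, sub_mul, one_mul, mul_sub, mul_one, hee, sub_self, sub_zero]
  have hek : e * k = 0 := by rw [hk, mul_sub, mul_one, hee, sub_self]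
  have hke : k * e = 0 := by rw [hk, sub_mul, one_mul, hee, sub_self]
  have hkN : k ∈ N := sub_mem (one_mem _) (mul_mem (star_mem h.ma) h.ma)
  obtain ⟨c, hc, hcs, hkc, hck, hc0, hcN⟩ := shift_system hks hkk hwk hkw hw
  obtain ⟨v, u, hvu, hvc, hl, hr⟩ := exists_pair (N := N) hc hcs (hcN N hkN hwN)
  obtain ⟨kv, ku⟩ := hl k hkc
  obtain ⟨vk, uk⟩ := hr k hck
  -- `a = e a e`, `v = k v k`
  have ae : a * e = a := by rw [he, ← mul_assoc]; exact h.pa
  have be : b * e = b := by rw [he, h.ini, ← mul_assoc]; exact h.pb
  have ea : e * a = a := h.ra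
  have eb : e * b = b := h.rb
  have sa : star a * e = star a := by
    have := congrArg star ea
    simpa [hes] using this
  have sb : star b * e = star b := by
    have := congrArg star eb
    simpa [hes] using this
  have es : e * star a = star a := by
    have := congrArg star ae
    simpa [hes] using this
  have es' : e * star b = star b := by
    have := congrArg star be
    simpa [hes] using this
  have ksv : k * star v = star v := by
    have := congrArg star vk
    simpa [hks] using this
  have ksu : k * star u = star u := by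
    have := congrArg star uk
    simpa [hks] using this
  have svk : star v * k = star v := by
    have := congrArg star kv
    simpa [hks] using this
  have suk : star u * k = star u := by
    have := congrArg star ku
    simpa [hks] using this
  have z1 : ∀ x y : H →L[ℂ] H, x * e = x → k * y = y → x * y = 0 := fun x y h1 h2 => by
    rw [← h1, ← h2, mul_assoc, ← mul_assoc e, hek, zero_mul, mul_zero]
  have z2 : ∀ x y : H →L[ℂ] H, x * k = x → e * y = y → x * y = 0 := fun x y h1 h2 => by
    rw [← h1, ← h2, mul_assoc, ← mul_assoc k, hke, zero_mul, mul_zero]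
  have hab : PI2 N (a + v) (b + u) := by
    refine ⟨add_mem h.ma hvu.ma, add_mem h.mb hvu.mb, pi_add h.pa hvu.pa (z1 _ _ sa kv) (z1 _ _ ae ksv),
      pi_add h.pb hvu.pb (z1 _ _ sb ku) (z1 _ _ be ksu), ?_, ?_, ?_, ?_⟩
    · rw [star_add, star_add, add_mul, mul_add, mul_add, add_mul, mul_add, mul_add,
        z1 _ _ sa kv, z2 _ _ svk ea, z1 _ _ sb ku, z2 _ _ suk eb, h.ini, hvu.ini]
    · rw [star_add, add_mul, mul_add, mul_add, h.orth, z1 _ _ sa ku, z2 _ _ svk eb, hvu.orth]
      simp
    · have e1 : star (a + v) * (a + v) = e + star v * v := by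
        rw [star_add, add_mul, mul_add, mul_add, z1 _ _ sa kv, z2 _ _ svk ea, ← he]; simp
      have e2 : star v * v * a = 0 := by rw [mul_assoc, z2 _ _ vk ea, mul_zero]
      rw [e1, add_mul, mul_add, mul_add, ea, z1 _ _ hee kv, hvu.ra, e2]; simp
    · have e1 : star (a + v) * (a + v) = e + star v * v := by
        rw [star_add, add_mul, mul_add, mul_add, z1 _ _ sa kv, z2 _ _ svk ea, ← he]; simp
      have e2 : star v * v * b = 0 := by rw [mul_assoc, z2 _ _ vk eb, mul_zero]
      rw [e1, add_mul, mul_add, mul_add, eb, z1 _ _ hee ku, hvu.rb, e2]; simp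
  have hx := hmax _ _ hab (by
      show (a + v) * (star a * a) = a
      rw [← he, add_mul, ae, z2 _ _ vk hee, add_zero])
    (by
      show (b + u) * (star b * b) = b
      rw [← h.ini, ← he, add_mul, be, z2 _ _ uk hee, add_zero])
  have e1 : star (a + v) * (a + v) = e + star v * v := by
    rw [star_add, add_mul, mul_add, mul_add, z1 _ _ sa kv, z2 _ _ svk ea, ← he]; simp
  have hx' : a * (e + star v * v) = a + v := by rw [← e1]; exact hx
  have hv0 : v = 0 := by
    rw [mul_add, ae, ← mul_assoc, z1 _ _ ae ksv, zero_mul, add_zero] at hx'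
    simpa using hx'.symm
  rw [hv0, zero_mul, hc0] at hvc
  exact (sub_eq_zero.1 hvc.symm).symm

/-- finiteness of the corner of a central projection -/
def Fin' (N : VonNeumannAlgebra H) (f : H →L[ℂ] H) : Prop :=
  ∀ v ∈ N, v * f = v → f * v = v → star v * v = f → v * star v = f

/-- `n` orthogonal copies of `z` for all `n` -/
def PInf (N : VonNeumannAlgebra H) (z : H →L[ℂ] H) : Prop :=
  ∀ n : ℕ, ∃ s : Fin n → H →L[ℂ] H, (∀ i, s i ∈ N ∧ z * s i = s i ∧ s i * z = s i) ∧
    ∀ i j, star (s i) * s j = if i = j then z else 0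

/-- two isometries give `n` isometries -/
theorem pinf_of_two {z a b : H →L[ℂ] H} (ha : a ∈ N) (hb : b ∈ N)
    (hza : z * a = a) (haz : a * z = a) (hzb : z * b = b)
    (haa : star a * a = z) (hbb : star b * b = z) (hab : star a * b = 0) : PInf N z := by
  have h1 : ∀ m, z * (b ^ m * a) = b ^ m * a := by
    intro m
    rcases Nat.eq_zero_or_pos m with rfl | hm
    · rw [pow_zero, one_mul, hza]
    · obtain ⟨m', rfl⟩ : ∃ m', m = m' + 1 := ⟨m - 1, by omega⟩
      rw [pow_succ', mul_assoc, ← mul_assoc z, hzb]
  have key : ∀ j l, star (b ^ j * a) * (b ^ l * a) = if j = l then z else 0 := by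
    intro j
    induction j with
    | zero =>
      intro l
      rcases Nat.eq_zero_or_pos l with rfl | hl
      · simp [haa]
      · obtain ⟨m, rfl⟩ : ∃ m, l = m + 1 := ⟨l - 1, by omega⟩
        rw [if_neg (by omega), pow_zero, one_mul, pow_succ', mul_assoc, ← mul_assoc (star a), hab,
          zero_mul]
    | succ j ih =>
      intro l
      rcases Nat.eq_zero_or_pos l with rfl | hl
      · have : star b * a = 0 := by
          have := congrArg star hab
          simpa using this
        rw [if_neg (by omega), pow_zero, one_mul, pow_succ', mul_assoc, star_mul, mul_assoc, this,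
          mul_zero]
      · obtain ⟨m, rfl⟩ : ∃ m, l = m + 1 := ⟨l - 1, by omega⟩
        calc star (b ^ (j + 1) * a) * (b ^ (m + 1) * a)
            = star (b ^ j * a) * ((star b * b) * (b ^ m * a)) := by
              rw [pow_succ', pow_succ', mul_assoc b, star_mul b]; simp only [mul_assoc]
          _ = star (b ^ j * a) * (b ^ m * a) := by rw [hbb, h1]
          _ = if j = m then z else 0 := ih m
          _ = if j + 1 = m + 1 then z else 0 := by simp
  intro n
  refine ⟨fun i => b ^ (i : ℕ) * a, fun i => ⟨mul_mem (pow_mem hb _) ha, h1 _, ?_⟩, fun i j => ?_⟩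
  · rw [mul_assoc, haz]
  · rw [key]
    by_cases h : i = j
    · rw [if_pos h, if_pos (by rw [h])]
    · rw [if_neg h, if_neg (fun h' => h (Fin.ext h'))]

/-- **central splitting** into a finite and a properly infinite part -/
theorem exists_fin_pinf (N : VonNeumannAlgebra H) :
    ∃ z, z ∈ N ∧ z ∈ N.commutant ∧ IsStarProjection z ∧ Fin' N (1 - z) ∧ PInf N z := by
  obtain ⟨a, b, h, hmax⟩ := exists_max N
  have hh : IsStarProjection (star a * a) := pi_left h.pa
  have hfin : ∀ w ∈ N, w * (1 - star a * a) = w → (1 - star a * a) * w = w →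
      star w * w = 1 - star a * a → w * star w = 1 - star a * a :=
    fun w hw h1 h2 h3 => fin_of_max h hmax hw h1 h2 h3
  obtain ⟨ha, hb, hpa, hpb, hini, horth, hra, hrb⟩ := h
  have hbb : star b * b = star a * a := hini.symm
  clear hini hmax
  generalize he : star a * a = e at *
  have hes : star e = e := proj_star hh
  have hee : e * e = e := proj_mul hh
  have heN : e ∈ N := by rw [← he]; exact mul_mem (star_mem ha) ha
  have hk : IsStarProjection (1 - e) := hh.one_sub
  have ae : a * e = a := by rw [← he, ← mul_assoc]; exact hpa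
  have be : b * e = b := by rw [← hbb, ← mul_assoc]; exact hpb
  have sa : star a * e = star a := by
    have := congrArg star hra
    simpa [hes] using this
  have sb : star b * e = star b := by
    have := congrArg star hrb
    simpa [hes] using this
  obtain ⟨v, z, hvN, hzN, hzc, hz, hv, hvq, hpv, hz1, hz2⟩ :=
    comparison N hh hk heN (sub_mem (one_mem _) heN)
  have hzs : star z = z := proj_star hz
  have hzz : z * z = z := proj_mul hz
  have hcomm : ∀ x ∈ N, z * x = x * z := fun x hx => comm_of_mem hx hzc
  -- `f = 1 - z`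
  set f := 1 - z with hf
  have hfs : star f = f := by rw [hf, star_sub, star_one, hzs]
  have hff : f * f = f := by rw [hf, sub_mul, one_mul, mul_sub, mul_one, hzz, sub_self, sub_zero]
  have hfz : f * z = 0 := by rw [hf, sub_mul, one_mul, hzz, sub_self]
  have hzf : z * f = 0 := by rw [hf, mul_sub, mul_one, hzz, sub_self]
  have hfN : f ∈ N := sub_mem (one_mem _) hzN
  have hfc : ∀ x ∈ N, f * x = x * f := fun x hx => by
    rw [hf, sub_mul, mul_sub, one_mul, mul_one, hcomm x hx]
  set k := 1 - e with hkd
  have hks : star k = k := proj_star hk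
  have hkk : k * k = k := proj_mul hk
  have hke : k * e = 0 := by rw [hkd, sub_mul, one_mul, hee, sub_self]
  have hek : e * k = 0 := by rw [hkd, mul_sub, mul_one, hee, sub_self]
  have hkN : k ∈ N := sub_mem (one_mem _) heN
  clear_value k f
  have hkv : k * star v = star v := by
    have := congrArg star hvq
    simpa [hks] using this
  have sve : star v * e = star v := by
    have := congrArg star hpv
    simpa [hes] using this
  -- the finite part: `f e = 0`
  have hfe : f * e = 0 := by
    set v' := f * v with hv'
    have hv'N : v' ∈ N := mul_mem hfN hvN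
    have fv' : f * v' = v' := by rw [hv', ← mul_assoc, hff]
    have ev' : e * v' = v' := by
      rw [hv', ← mul_assoc, ← hfc e heN, mul_assoc, hpv]
    have v'k : v' * k = v' := by rw [hv', mul_assoc, hvq]
    have hv's : star v' = star v * f := by rw [hv', star_mul, hfs]
    have ksv' : k * star v' = star v' := by rw [hv's, ← mul_assoc, hkv]
    have sv'e : star v' * e = star v' := by
      have := congrArg star ev'
      simpa [hes] using this
    have sv'f : star v' * f = star v' := by rw [hv's, mul_assoc, hff]
    have r1 : v' * star v' = f * e := by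
      rw [hz2, hv', star_mul, hfs]
      calc f * v * (star v * f) = f * (v * star v * f) := by simp only [mul_assoc]
        _ = f * (f * (v * star v)) := by rw [← hfc _ (mul_mem hvN (star_mem hvN))]
        _ = f * (v * star v) := by rw [← mul_assoc, hff]
    have pv' : v' * star v' * v' = v' := by rw [r1, mul_assoc, ev', fv']
    clear_value v'
    obtain ⟨g, hg⟩ : ∃ g, g = star v' * v' := ⟨_, rfl⟩
    have gsv : g * star v' = star v' := by
      have := congrArg star pv'
      rw [star_mul, star_mul, star_star] at this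
      rw [hg, mul_assoc, this]
    have v'g : v' * g = v' := by rw [hg, ← mul_assoc, pv']
    have hgs : star g = g := by rw [hg, star_mul, star_star]
    have hgg : g * g = g := by
      have : star v' * v' * (star v' * v') = star v' * (v' * star v' * v') := by
        simp only [mul_assoc]
      rw [hg, this, pv']
    have hkg : k * g = g := by rw [hg, ← mul_assoc, ksv']
    have hgk : g * k = g := by rw [hg, mul_assoc, v'k]
    -- copies of `g` inside `g`
    have cop : ∀ t ∈ N, star t * t = e → e * t = t →
        star (star v' * t * v') * (star v' * t * v') = g := fun t htN h1 h2 => by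
      have e1 : v' * star v' * t = f * t := by rw [r1, mul_assoc, h2]
      calc star (star v' * t * v') * (star v' * t * v')
          = star v' * (star t * (v' * star v' * t)) * v' := by
            rw [star_mul, star_mul, star_star]; simp only [mul_assoc]
        _ = star v' * (star t * (f * t)) * v' := by rw [e1]
        _ = star v' * (star t * (t * f)) * v' := by rw [hfc t htN]
        _ = star v' * (star t * t) * (f * v') := by simp only [mul_assoc]
        _ = g := by rw [h1, sv'e, fv', hg]
    obtain ⟨u0, hu0⟩ : ∃ u0, u0 = star v' * a * v' := ⟨_, rfl⟩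
    obtain ⟨u1, hu1⟩ : ∃ u1, u1 = star v' * b * v' := ⟨_, rfl⟩
    have c0 : star u0 * u0 = g := by rw [hu0]; exact cop a ha he hra
    have c1 : star u1 * u1 = g := by rw [hu1]; exact cop b hb hbb hrb
    have c01 : star u0 * u1 = 0 := by
      have e1 : v' * star v' * b = f * b := by rw [r1, mul_assoc, hrb]
      calc star u0 * u1 = star v' * (star a * (v' * star v' * b)) * v' := by
            rw [hu0, hu1, star_mul, star_mul, star_star]; simp only [mul_assoc]
        _ = star v' * (star a * (b * f)) * v' := by rw [e1, hfc b hb]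
        _ = star v' * (star a * b) * (f * v') := by simp only [mul_assoc]
        _ = 0 := by rw [horth, mul_zero, zero_mul]
    have gu0 : g * u0 = u0 := by rw [hu0, ← mul_assoc, ← mul_assoc, gsv]
    have gu1 : g * u1 = u1 := by rw [hu1, ← mul_assoc, ← mul_assoc, gsv]
    have u0g : u0 * g = u0 := by rw [hu0, mul_assoc, v'g]
    have ku0 : k * u0 = u0 := by rw [← gu0, ← mul_assoc, hkg]
    have u0k : u0 * k = u0 := by rw [hu0, mul_assoc, v'k]
    have su0g : star u0 * g = star u0 := by
      have := congrArg star gu0
      simpa [hgs] using this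
    have gsu0 : g * star u0 = star u0 := by
      have := congrArg star u0g
      simpa [hgs] using this
    have ksu0 : k * star u0 = star u0 := by
      have := congrArg star u0k
      simpa [hks] using this
    have su0k : star u0 * k = star u0 := by
      have := congrArg star ku0
      simpa [hks] using this
    have hkgs : star (k - g) = k - g := by rw [star_sub, hks, hgs]
    have hkg2 : (k - g) * (k - g) = k - g := by
      rw [sub_mul, mul_sub, mul_sub, hkk, hkg, hgk, hgg, sub_self, sub_zero]
    have x1 : (k - g) * u0 = 0 := by rw [sub_mul, ku0, gu0, sub_self]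
    have x2 : star u0 * (k - g) = 0 := by rw [mul_sub, su0k, su0g, sub_self]
    have x3 : (k - g) * star u0 = 0 := by rw [sub_mul, ksu0, gsu0, sub_self]
    have x4 : u0 * (k - g) = 0 := by rw [mul_sub, u0k, u0g, sub_self]
    have u0N : u0 ∈ N := by rw [hu0]; exact mul_mem (mul_mem (star_mem hv'N) ha) hv'N
    have gN : g ∈ N := by rw [hg]; exact mul_mem (star_mem hv'N) hv'N
    have hW := hfin ((k - g) + u0) (add_mem (sub_mem hkN gN) u0N)
      (by rw [add_mul, sub_mul, hkk, hgk, u0k])
      (by
        have e1 : k * (k - g) = k - g := by rw [mul_sub k k g, hkk, hkg]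
        rw [mul_add, e1, ku0])
      (by rw [star_add, hkgs, add_mul, mul_add, mul_add, hkg2, x1, x2, c0]; simp)
    rw [star_add, hkgs, add_mul, mul_add, mul_add, hkg2, x3, x4, add_zero, zero_add] at hW
    have hug : u0 * star u0 = g := by
      have : k - g + u0 * star u0 = k - g + g := by rw [hW]; abel
      exact add_left_cancel this
    have hu10 : u1 = 0 := by rw [← gu1, ← hug, mul_assoc, c01, mul_zero]
    have hg0 : g = 0 := by rw [← c1, hu10, mul_zero]
    rw [← r1, ← v'g, hg0, mul_zero, zero_mul]
  have hfk : f * k = f := by rw [hkd, mul_sub, mul_one, hfe, sub_zero]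
  have hkf : k * f = f := by rw [← hfc k hkN]; exact hfk
  have hzek : z * k = k - f := by
    have : k = z * k + f * k := by rw [hf, sub_mul, one_mul]; abel
    rw [hfk] at this
    exact eq_sub_of_add_eq this.symm
  refine ⟨z, hzN, hzc, hz, ?_, ?_⟩
  · intro y hyN hyf hfy hy
    rw [← hf] at *
    have hsy : f * star y = star y := by
      have := congrArg star hyf
      simpa [hfs] using this
    have hsy' : star y * f = star y := by
      have := congrArg star hfy
      simpa [hfs] using this
    have hq : (k - f) * (k - f) = k - f := by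
      rw [sub_mul, mul_sub, mul_sub, hkk, hkf, hfk, hff, sub_self, sub_zero]
    have hqs : star (k - f) = k - f := by rw [star_sub, hks, hfs]
    have ky : k * y = y := by rw [← hfy, ← mul_assoc, hkf]
    have yk : y * k = y := by rw [← hyf, mul_assoc, hfk]
    have ksy : k * star y = star y := by rw [← hsy, ← mul_assoc, hkf]
    have syk : star y * k = star y := by rw [← hsy', mul_assoc, hfk]
    have x1 : (k - f) * y = 0 := by rw [sub_mul, ky, hfy, sub_self]
    have x2 : star y * (k - f) = 0 := by rw [mul_sub, syk, hsy', sub_self]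
    have x3 : (k - f) * star y = 0 := by rw [sub_mul, ksy, hsy, sub_self]
    have x4 : y * (k - f) = 0 := by rw [mul_sub, yk, hyf, sub_self]
    have hW := hfin ((k - f) + y) (add_mem (sub_mem hkN hfN) hyN)
      (by rw [add_mul, sub_mul, hkk, hfk, yk])
      (by
        have e1 : k * (k - f) = k - f := by rw [mul_sub k k f, hkk, hkf]
        rw [mul_add, e1, ky])
      (by rw [star_add, hqs, add_mul, mul_add, mul_add, hq, x1, x2, hy]; simp)
    rw [star_add, hqs, add_mul, mul_add, mul_add, hq, x3, x4, add_zero, zero_add] at hW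
    have : k - f + y * star y = k - f + f := by rw [hW]; abel
    exact add_left_cancel this
  · have hzv : z * (star v * v) = z * k := hz1.symm
    have sab : star b * a = 0 := by
      have := congrArg star horth
      simpa using this
    have hN1 : ∀ t ∈ N, t * a + t * (b * v) ∈ N := fun t ht =>
      add_mem (mul_mem ht ha) (mul_mem ht (mul_mem hb hvN))
    -- the inner products
    have q1 : star (a + b * v) * (a + b * v) = e + star v * v := by
      rw [star_add, star_mul, add_mul, mul_add, mul_add, he]
      have e1 : star a * (b * v) = 0 := by rw [← mul_assoc, horth, zero_mul]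
      have e2 : star v * star b * a = 0 := by rw [mul_assoc, sab, mul_zero]
      have e3 : star v * star b * (b * v) = star v * v := by
        calc star v * star b * (b * v) = star v * (star b * b) * v := by simp only [mul_assoc]
          _ = _ := by rw [hbb, sve]
      rw [e1, e2, e3]; simp
    have eab : e * (a + b * v) = a + b * v := by rw [mul_add, hra, ← mul_assoc, hrb]
    have q2 : ∀ t ∈ N, star t * t = e →
        star (z * (t * (a + b * v))) * (z * (t * (a + b * v))) = z := fun t htN ht => by
      have hm : a + b * v ∈ N := add_mem ha (mul_mem hb hvN)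
      calc star (z * (t * (a + b * v))) * (z * (t * (a + b * v)))
          = star (a + b * v) * (star t * ((z * z) * t)) * (a + b * v) := by
            rw [star_mul, star_mul, hzs]; simp only [mul_assoc]
        _ = star (a + b * v) * (star t * (z * t)) * (a + b * v) := by rw [hzz]
        _ = star (a + b * v) * (star t * (t * z)) * (a + b * v) := by rw [hcomm t htN]
        _ = star (a + b * v) * (star t * t) * (z * (a + b * v)) := by simp only [mul_assoc]
        _ = star (a + b * v) * (e * (a + b * v)) * z := by
            rw [ht, hcomm _ hm]; simp only [mul_assoc]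
        _ = (e + star v * v) * z := by rw [eab, q1]
        _ = z * (e + star v * v) := by
            rw [hcomm _ (add_mem heN (mul_mem (star_mem hvN) hvN))]
        _ = z := by rw [mul_add, hzv, ← mul_add, hkd]; simp
    have q3 : star (z * (a * (a + b * v))) * (z * (b * (a + b * v))) = 0 := by
      have hm : a + b * v ∈ N := add_mem ha (mul_mem hb hvN)
      calc star (z * (a * (a + b * v))) * (z * (b * (a + b * v)))
          = star (a + b * v) * (star a * ((z * z) * b)) * (a + b * v) := by
            rw [star_mul, star_mul, hzs]; simp only [mul_assoc]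
        _ = star (a + b * v) * (star a * (z * b)) * (a + b * v) := by rw [hzz]
        _ = star (a + b * v) * (star a * (b * z)) * (a + b * v) := by rw [hcomm b hb]
        _ = star (a + b * v) * (star a * b) * (z * (a + b * v)) := by simp only [mul_assoc]
        _ = 0 := by rw [horth, mul_zero, zero_mul]
    have hm1 : z * (a * (a + b * v)) ∈ N :=
      mul_mem hzN (mul_mem ha (add_mem ha (mul_mem hb hvN)))
    have hm2 : z * (b * (a + b * v)) ∈ N :=
      mul_mem hzN (mul_mem hb (add_mem ha (mul_mem hb hvN)))
    have l1 : z * (z * (a * (a + b * v))) = z * (a * (a + b * v)) := by rw [← mul_assoc, hzz]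
    have l2 : z * (z * (b * (a + b * v))) = z * (b * (a + b * v)) := by rw [← mul_assoc, hzz]
    exact pinf_of_two hm1 hm2 l1 (by rw [← hcomm _ hm1, l1]) l2
      (q2 a ha he) (q2 b hb hbb) q3

end Crest.Agent.R121.TD
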