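import Crest.Agent.R121.TEDefs

/-! Row 121, module T', file TE0.

`exists_ray`: `f ≠ 0`, take a unit vector `ξ` with `f ξ = ξ`; `K` = closure of the submodule `{m ξ : m ∈ M'}`,
`e = K.starProjection`.  `K` is invariant under `M'`, so `e ∈ M` (`R95.VN.vn_proj_mem M` or as in
`Crest/Agent/R124/Cmp2.lean`, `exists_central`).  `f e = e` since `f m ξ = m f ξ = m ξ` (`m` commutes with `f ∈ M`).

`fin_sub`: `V = v + (f - e)`.  `V⋆V = v⋆v + (f - e) = f` (`(f - e) v = 0` as `v = e v`, `f e = e`), so `VV⋆ = f`; and
`VV⋆ = vv⋆ + (f - e)` since `v (f - e) = 0` (`v e = v` from `v⋆v = e`, `v f = f v = v`). -/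

set_option autoImplicit false
set_option linter.unusedSectionVars false

namespace Crest.Agent.R121.TE

open Crest.Agent.R121

variable {H : Type*} [NormedAddCommGroup H] [InnerProductSpace ℂ H] [CompleteSpace H]

/-- TE0a -/
theorem exists_ray (M : VonNeumannAlgebra H) {f : H →L[ℂ] H} (hf : CProj M f) (hf0 : f ≠ 0) :
    ∃ (ξ : H) (e : H →L[ℂ] H), ‖ξ‖ = 1 ∧ Ray M ξ e ∧ f * e = e := by
  have hex : ∃ v : H, f v ≠ 0 := by
    by_contra hno
    push Not at hno
    exact hf0 (ContinuousLinearMap.ext fun v => by simpa using hno v)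
  obtain ⟨v, hv⟩ := hex
  have hff : ∀ u : H, f (f u) = f u := fun u => by
    have h := congrArg (fun T : H →L[ℂ] H => T u) hf.proj.isIdempotentElem.eq
    exact h
  have hn : ‖f v‖ ≠ 0 := norm_ne_zero_iff.2 hv
  obtain ⟨ξ, hξ1, hξf⟩ : ∃ ξ : H, ‖ξ‖ = 1 ∧ f ξ = ξ := by
    refine ⟨((‖f v‖ : ℂ)⁻¹) • f v, ?_, ?_⟩
    · rw [norm_smul, norm_inv, Complex.norm_real, norm_norm, inv_mul_cancel₀ hn]
    · rw [map_smul, hff]
  let S : Submodule ℂ H :=
    { carrier := {y | ∃ m ∈ M.commutant, m ξ = y}
      zero_mem' := ⟨0, zero_mem _, rfl⟩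
      add_mem' := by
        rintro a b ⟨m, hm, rfl⟩ ⟨n, hn, rfl⟩
        exact ⟨m + n, add_mem hm hn, rfl⟩
      smul_mem' := by
        rintro c x ⟨m, hm, rfl⟩
        refine ⟨c • m, ?_, rfl⟩
        rw [VonNeumannAlgebra.mem_commutant_iff] at hm ⊢
        intro g hg
        rw [mul_smul_comm, hm g hg, smul_mul_assoc] }
  have hSm : ∀ m ∈ M.commutant, m ξ ∈ S := fun m hm => ⟨m, hm, rfl⟩
  set K : Submodule ℂ H := S.topologicalClosure with hK
  have hξK : ξ ∈ K := Submodule.le_topologicalClosure _ (hSm 1 (one_mem _))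
  have hinv : ∀ y ∈ M.commutant, ∀ v ∈ K, y v ∈ K := by
    intro y hy
    have h0 : S ≤ S.comap y.toLinearMap := by
      rintro _ ⟨m, hm, rfl⟩
      exact hSm (y * m) (mul_mem hy hm)
    have h1 : K ≤ K.comap y.toLinearMap := by
      rw [hK]
      apply Submodule.topologicalClosure_minimal
      · intro v hv
        exact Submodule.le_topologicalClosure _ (h0 hv)
      · exact (Submodule.isClosed_topologicalClosure _).preimage y.continuous
    intro v hv
    exact h1 hv
  have heM : K.starProjection ∈ M := Crest.Agent.R95.VN.starProjection_mem K hinv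
  refine ⟨ξ, K.starProjection, hξ1, ⟨isStarProjection_starProjection, heM, ?_, ?_⟩, ?_⟩
  · exact Submodule.starProjection_eq_self_iff.2 hξK
  · intro η hη ε hε
    have hηK : η ∈ K := Submodule.starProjection_eq_self_iff.1 hη
    have h2 : η ∈ closure (S : Set H) := hηK
    rw [Metric.mem_closure_iff] at h2
    obtain ⟨y, ⟨m, hm, rfl⟩, hd⟩ := h2 ε hε
    exact ⟨m, hm, by rw [← dist_eq_norm]; exact hd.le⟩
  · have h1 : K ≤ LinearMap.ker (f - 1 : H →L[ℂ] H).toLinearMap := by
      rw [hK]
      apply Submodule.topologicalClosure_minimal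
      · rintro _ ⟨m, hm, rfl⟩
        have h3 : f * m = m * f := (VonNeumannAlgebra.mem_commutant_iff.1 hm) f hf.mem
        have h4 : f (m ξ) = m (f ξ) := congrArg (fun T : H →L[ℂ] H => T ξ) h3
        show f (m ξ) - m ξ = 0
        rw [h4, hξf, sub_self]
      · exact (f - 1 : H →L[ℂ] H).isClosed_ker
    ext v
    have h5 : f (K.starProjection v) - K.starProjection v = 0 :=
      h1 (Submodule.starProjection_apply_mem _ v)
    exact sub_eq_zero.1 h5

/-- TE0b -/
theorem fin_sub {M : VonNeumannAlgebra H} {f : H →L[ℂ] H} (hf : CProj M f)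
    (hfin : ∀ v ∈ M, star v * v = f → v * star v = f) {e : H →L[ℂ] H} (he : IsStarProjection e)
    (heM : e ∈ M) (hfe : f * e = e) : FinP M e := by
  intro v hv hev hvv
  have hfp : IsStarProjection f := hf.1
  have hff : f * f = f := hfp.isIdempotentElem
  have hfs : star f = f := hfp.isSelfAdjoint
  have hee : e * e = e := he.isIdempotentElem
  have hes : star e = e := he.isSelfAdjoint
  have hef : e * f = e := by
    have h := congrArg star hfe
    rwa [star_mul, hes, hfs] at h
  have hve : v * e = v := by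
    have h0 : star (v - v * e) * (v - v * e) = 0 := by
      have h1 : star (v - v * e) * (v - v * e)
          = star v * v - star v * v * e - e * (star v * v) + e * (star v * v) * e := by
        rw [star_sub, star_mul, hes]; noncomm_ring
      rw [h1, hvv, hee, hee]; abel
    have h2 := CStarRing.star_mul_self_eq_zero_iff _ |>.1 h0
    exact (sub_eq_zero.1 h2).symm
  have hfv : f * v = v := by
    calc f * v = f * (e * v) := by rw [hev]
      _ = (f * e) * v := by rw [mul_assoc]
      _ = v := by rw [hfe, hev]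
  have hvf : v * f = v := by
    have := hf.comm v (Or.inl hv)
    rw [this, hfv]
  have h1 : (f - e) * v = 0 := by rw [sub_mul, hfv, hev, sub_self]
  have h2 : v * (f - e) = 0 := by rw [mul_sub, hvf, hve, sub_self]
  have h1s : star v * (f - e) = 0 := by
    have h := congrArg star h1
    rwa [star_mul, star_sub, hfs, hes, star_zero] at h
  have h2s : (f - e) * star v = 0 := by
    have h := congrArg star h2
    rwa [star_mul, star_sub, hfs, hes, star_zero] at h
  have hsq : (f - e) * (f - e) = f - e := by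
    rw [sub_mul, mul_sub, mul_sub, hff, hfe, hef, hee]; abel
  have hVM : v + (f - e) ∈ M := add_mem hv (sub_mem hf.mem heM)
  have hV : star (v + (f - e)) * (v + (f - e)) = f := by
    have : star (v + (f - e)) * (v + (f - e))
        = star v * v + star v * (f - e) + (f - e) * v + (f - e) * (f - e) := by
      rw [star_add, star_sub, hfs, hes]; noncomm_ring
    rw [this, hvv, h1s, h1, hsq]; abel
  have hV2 := hfin _ hVM hV
  have h3 : (v + (f - e)) * star (v + (f - e))
      = v * star v + v * (f - e) + (f - e) * star v + (f - e) * (f - e) := by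
    rw [star_add, star_sub, hfs, hes]; noncomm_ring
  rw [h3, h2, h2s, hsq] at hV2
  have h4 : v * star v + (f - e) = f := by simpa using hV2
  have h5 : v * star v = f - (f - e) := eq_sub_of_add_eq h4
  rw [h5, sub_sub_cancel]

end Crest.Agent.R121.TE
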