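import Crest.Agent.R121.TEDefs
import Crest.Agent.R124.Cmp2

/-! Row 121, module T', file TE1.

`compl_equiv`: `e` finite, `w` a partial isometry of `e M e`; then `e - w⋆w` and `e - ww⋆` are equivalent.
Apply `R124.Cmp.comparison M` to the projections `p = e - ww⋆`, `q = e - w⋆w`: `v`, central projection `z` with
`v q = v`, `p v = v`, `z q = z v⋆v`, `(1 - z) p = (1 - z) vv⋆`.  `V = w + v` is a partial isometry of `e M e`
(`w⋆v = w⋆ww⋆v.. = 0` as `p v = v`, `v w⋆ = 0` as `v q = v`), `V⋆V = w⋆w + v⋆v`, `VV⋆ = ww⋆ + vv⋆`.
`V1 = z V + (1 - z) e`: `V1⋆V1 = z (w⋆w + q) + (1 - z) e = e`, `e V1 = V1`, so `V1V1⋆ = e`, i.e. `z (ww⋆ + vv⋆) = z e`,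
`z vv⋆ = z p`.  `V2 = (1 - z) V⋆ + z e`: `V2⋆V2 = (1 - z)(ww⋆ + p) + z e = e`, so `V2V2⋆ = e`, `(1 - z) v⋆v = (1 - z) q`.
Hence `v⋆v = q`, `vv⋆ = p`: `u = v`. -/

set_option autoImplicit false
set_option linter.unusedSectionVars false

namespace Crest.Agent.R121.TE

open Crest.Agent.R121

section alg

variable {A : Type*} [Ring A] [StarRing A]

private theorem glue {z X Y : A} (hzz : z * z = z) (hzs : star z = z) (hX : z * star X = star X * z)
    (hY : z * star Y = star Y * z) :
    star (z * X + (1 - z) * Y) * (z * X + (1 - z) * Y)
      = z * (star X * X) + (1 - z) * (star Y * Y) := by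
  have e1 : star (z * X + (1 - z) * Y) = z * star X + (1 - z) * star Y := by
    rw [star_add, star_mul, star_mul, star_sub, star_one, hzs, sub_mul, one_mul, mul_sub, mul_one,
      ← hX, ← hY]
  have a1 : z * star X * (z * X) = z * (star X * X) := by
    rw [hX, ← mul_assoc, mul_assoc (star X) z z, hzz, ← hX, mul_assoc]
  have a2 : z * star X * ((1 - z) * Y) = 0 := by
    rw [hX, mul_assoc, ← mul_assoc z, mul_sub, mul_one, hzz, sub_self, zero_mul, mul_zero]
  have a3 : (1 - z) * star Y * (z * X) = 0 := by
    have : (1 - z) * star Y = star Y * (1 - z) := by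
      rw [sub_mul, mul_sub, one_mul, mul_one, hY]
    rw [this, mul_assoc, ← mul_assoc (1 - z), sub_mul, one_mul, hzz, sub_self, zero_mul, mul_zero]
  have a4 : (1 - z) * star Y * ((1 - z) * Y) = (1 - z) * (star Y * Y) := by
    have h1 : (1 - z) * star Y = star Y * (1 - z) := by
      rw [sub_mul, mul_sub, one_mul, mul_one, hY]
    have h2 : (1 - z) * (1 - z) = 1 - z := by
      rw [sub_mul, one_mul, mul_sub, mul_one, hzz, sub_self, sub_zero]
    calc (1 - z) * star Y * ((1 - z) * Y) = star Y * ((1 - z) * (1 - z)) * Y := by
          rw [h1]; simp only [mul_assoc]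
      _ = (1 - z) * (star Y * Y) := by rw [h2, ← h1, mul_assoc]
  rw [e1, mul_add, add_mul, add_mul, a1, a2, a3, a4]
  simp

end alg

variable {H : Type*} [NormedAddCommGroup H] [InnerProductSpace ℂ H] [CompleteSpace H]

/-- TE1 -/
theorem compl_equiv {M : VonNeumannAlgebra H} {e : H →L[ℂ] H} (he : IsStarProjection e) (heM : e ∈ M)
    (hfin : FinP M e) {w : H →L[ℂ] H} (hwM : w ∈ M) (hw : w * star w * w = w) (hew : e * w = w)
    (hwe : w * e = w) :
    ∃ u ∈ M, star u * u = e - star w * w ∧ u * star u = e - w * star w := by
  have hes : star e = e := he.isSelfAdjoint.star_eq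
  have hee : e * e = e := he.isIdempotentElem.eq
  have hwsM : star w ∈ M := star_mem hwM
  have hews : e * star w = star w := by
    have := congrArg star hwe
    simpa [hes] using this
  have hwse : star w * e = star w := by
    have := congrArg star hew
    simpa [hes] using this
  have hw' : star w * w * star w = star w := by
    have := congrArg star hw
    simpa [mul_assoc] using this
  have hpM : e - w * star w ∈ M := sub_mem heM (mul_mem hwM hwsM)
  have hqM : e - star w * w ∈ M := sub_mem heM (mul_mem hwsM hwM)
  have hp : IsStarProjection (e - w * star w) := by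
    refine ⟨?_, ?_⟩
    · show (e - w * star w) * (e - w * star w) = e - w * star w
      have h1 : e * (w * star w) = w * star w := by rw [← mul_assoc, hew]
      have h2 : w * star w * e = w * star w := by rw [mul_assoc, hwse]
      have h3 : w * star w * (w * star w) = w * star w := by rw [← mul_assoc, hw]
      rw [sub_mul, mul_sub, mul_sub, hee, h1, h2, h3]; simp
    · show star (e - w * star w) = e - w * star w
      rw [star_sub, star_mul, star_star, hes]
  have hq : IsStarProjection (e - star w * w) := by
    refine ⟨?_, ?_⟩
    · show (e - star w * w) * (e - star w * w) = e - star w * w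
      have h1 : e * (star w * w) = star w * w := by rw [← mul_assoc, hews]
      have h2 : star w * w * e = star w * w := by rw [mul_assoc, hwe]
      have h3 : star w * w * (star w * w) = star w * w := by rw [← mul_assoc, hw']
      rw [sub_mul, mul_sub, mul_sub, hee, h1, h2, h3]; simp
    · show star (e - star w * w) = e - star w * w
      rw [star_sub, star_mul, star_star, hes]
  obtain ⟨v, z, hvM, hzM, hzc, hz, hv, hvq, hpv, hzq, hzp⟩ :=
    R124.Cmp.comparison M hp hq hpM hqM
  have hvsM : star v ∈ M := star_mem hvM
  have hzs : star z = z := hz.isSelfAdjoint.star_eq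
  have hzz : z * z = z := hz.isIdempotentElem.eq
  have hcom : ∀ a ∈ M, z * a = a * z := fun a ha => R95.VN.comm_of_mem ha hzc
  have hev : e * v = v := by
    rw [← hpv, ← mul_assoc, mul_sub, hee, ← mul_assoc, hew]
  have hve : v * e = v := by
    rw [← hvq, mul_assoc, sub_mul, hee, mul_assoc, hwe]
  have hevs : e * star v = star v := by
    have := congrArg star hve
    simpa [hes] using this
  have c1 : star w * v = 0 := by
    rw [← hpv, ← mul_assoc, mul_sub, hwse, ← mul_assoc, hw', sub_self, zero_mul]
  have c1' : star v * w = 0 := by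
    have := congrArg star c1
    simpa using this
  have c2 : v * star w = 0 := by
    rw [← hvq, mul_assoc, sub_mul, hews, mul_assoc, ← mul_assoc (star w), hw', sub_self, mul_zero]
  have c2' : w * star v = 0 := by
    have := congrArg star c2
    simpa using this
  have hVV : star (w + v) * (w + v) = star w * w + star v * v := by
    rw [star_add, mul_add, add_mul, add_mul, c1, c1']; simp
  have hVV' : (w + v) * star (w + v) = w * star w + v * star v := by
    rw [star_add, mul_add, add_mul, add_mul, c2, c2']; simp
  have hVM : w + v ∈ M := add_mem hwM hvM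
  have h1z : (1 : H →L[ℂ] H) - z ∈ M := sub_mem (one_mem _) hzM
  -- V1
  have key1 : v * star v = e - w * star w := by
    have h1 : star (z * (w + v) + (1 - z) * e) * (z * (w + v) + (1 - z) * e) = e := by
      rw [glue hzz hzs (hcom _ (star_mem hVM)) (hcom _ (star_mem heM)), hVV, hes, hee, mul_add,
        ← hzq, ← mul_add]
      have : star w * w + (e - star w * w) = e := by abel
      rw [this, sub_mul, one_mul]; abel
    have h2 := hfin (z * (w + v) + (1 - z) * e)
      (add_mem (mul_mem hzM hVM) (mul_mem h1z heM))
      (by
        rw [mul_add, ← mul_assoc, ← mul_assoc, ← hcom e heM, mul_assoc z, mul_add, hew, hev]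
        have : e * (1 - z) = (1 - z) * e := by
          rw [mul_sub, sub_mul, one_mul, mul_one, hcom e heM]
        rw [this, mul_assoc, hee]) h1
    have h3 : (z * (w + v) + (1 - z) * e) * star (z * (w + v) + (1 - z) * e)
        = z * ((w + v) * star (w + v)) + (1 - z) * (e * star e) := by
      have e1 : z * (w + v) + (1 - z) * e = star (z * star (w + v) + (1 - z) * star e) := by
        rw [star_add, star_mul, star_mul, star_star, star_star, star_sub, star_one, hzs,
          ← hcom _ hVM, mul_sub, mul_one, ← hcom _ heM, sub_mul, one_mul]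
      have e2 : star (z * (w + v) + (1 - z) * e) = z * star (w + v) + (1 - z) * star e := by
        rw [e1, star_star]
      rw [e2, e1, glue hzz hzs (by rw [star_star]; exact hcom _ hVM)
        (by rw [star_star]; exact hcom _ heM), star_star, star_star]
    rw [h3, hVV', hes, hee] at h2
    have h4 : z * (v * star v) = z * (e - w * star w) := by
      have : z * (w * star w + v * star v) + (1 - z) * e
          = z * (v * star v) + z * (w * star w) + e - z * e := by
        rw [mul_add, sub_mul, one_mul]; abel
      rw [this] at h2
      rw [mul_sub]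
      have h5 : z * (v * star v) = (z * (v * star v) + z * (w * star w) + e - z * e) - e
        + z * e - z * (w * star w) := by abel
      rw [h5, h2]; abel
    calc v * star v = z * (v * star v) + (1 - z) * (v * star v) := by rw [sub_mul, one_mul]; abel
      _ = z * (e - w * star w) + (1 - z) * (e - w * star w) := by rw [h4, hzp]
      _ = e - w * star w := by rw [sub_mul, one_mul]; abel
  have key2 : star v * v = e - star w * w := by
    have hzs' : star (1 - z) = 1 - z := by rw [star_sub, star_one, hzs]
    have hzz' : (1 - z) * (1 - z) = 1 - z := by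
      rw [sub_mul, one_mul, mul_sub, mul_one, hzz, sub_self, sub_zero]
    have hcom' : ∀ a ∈ M, (1 - z) * a = a * (1 - z) := fun a ha => by
      rw [sub_mul, mul_sub, one_mul, mul_one, hcom a ha]
    have hVs : star (w + v) ∈ M := star_mem hVM
    have h11 : (1 : H →L[ℂ] H) - (1 - z) = z := by abel
    have h1 : star ((1 - z) * star (w + v) + (1 - (1 - z)) * e)
        * ((1 - z) * star (w + v) + (1 - (1 - z)) * e) = e := by
      rw [glue hzz' hzs' (by rw [star_star]; exact hcom' _ hVM) (hcom' _ (star_mem heM)),
        star_star, hVV', hes, hee, mul_add, ← hzp, ← mul_add, h11]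
      have : w * star w + (e - w * star w) = e := by abel
      rw [this, sub_mul, one_mul]; abel
    have h2 := hfin ((1 - z) * star (w + v) + (1 - (1 - z)) * e)
      (add_mem (mul_mem h1z hVs) (by rw [h11]; exact mul_mem hzM heM))
      (by
        rw [h11, mul_add, ← mul_assoc, ← mul_assoc, ← hcom e heM, mul_assoc z, hee,
          ← hcom' e heM, mul_assoc, star_add, mul_add, hews, hevs]) h1
    have h3 : ((1 - z) * star (w + v) + (1 - (1 - z)) * e)
        * star ((1 - z) * star (w + v) + (1 - (1 - z)) * e)
        = (1 - z) * (star (w + v) * (w + v)) + (1 - (1 - z)) * (e * star e) := by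
      have e1 : (1 - z) * star (w + v) + (1 - (1 - z)) * e
          = star ((1 - z) * (w + v) + (1 - (1 - z)) * star e) := by
        rw [star_add ((1 - z) * (w + v)), star_mul, star_mul, star_star, hzs', h11, hzs,
          hcom' _ hVs, hcom _ heM]
      have e2 : star ((1 - z) * star (w + v) + (1 - (1 - z)) * e)
          = (1 - z) * (w + v) + (1 - (1 - z)) * star e := by
        rw [e1, star_star]
      rw [e2, e1, glue hzz' hzs' (hcom' _ hVs)
        (by rw [star_star]; exact hcom' _ heM), star_star]
    rw [h3, hVV, hes, hee, h11] at h2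
    have h4 : (1 - z) * (star v * v) = (1 - z) * (e - star w * w) := by
      have h5 : (1 - z) * (star v * v) = ((1 - z) * (star w * w + star v * v) + z * e) - z * e
          - (1 - z) * (star w * w) := by rw [mul_add]; abel
      rw [h5, h2, mul_sub, sub_mul 1 z e, one_mul]
    calc star v * v = z * (star v * v) + (1 - z) * (star v * v) := by rw [sub_mul, one_mul]; abel
      _ = z * (e - star w * w) + (1 - z) * (e - star w * w) := by rw [h4, hzq]
      _ = e - star w * w := by rw [sub_mul, one_mul]; abel
  exact ⟨v, hvM, key2, key1⟩

end Crest.Agent.R121.TE
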