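import Crest.Agent.R121.TEDefs

/-! Row 121, module T', file TE2a: `R124.Cmp.exists_sup` (Crest/Agent/R124/Cmp1.lean) with its convergence exposed.
The proof there has `w i ζ → v ζ` along the directed set; the adjoints: `v⋆ (w i) = (w i)⋆(w i)` (`Ext`), so
`(w i)⋆ ζ = (w i)⋆(w i) v⋆ ζ = v⋆ (w i (v⋆ ζ)) → v⋆ v v⋆ ζ = v⋆ ζ`. -/

set_option autoImplicit false
set_option linter.unusedSectionVars false
set_option linter.deprecated false

open Filter Topology Crest.Agent.R95.VN
open scoped InnerProductSpace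

namespace Crest.Agent.R121.TE

open Crest.Agent.R121 Crest.Agent.R124.Cmp

variable {H : Type*} [NormedAddCommGroup H] [InnerProductSpace ℂ H] [CompleteSpace H]

/-- TE2a -/
theorem exists_sup_lim {N : VonNeumannAlgebra H} {ι : Type*} [Nonempty ι] (w : ι → H →L[ℂ] H)
    (hN : ∀ i, w i ∈ N) (hw : ∀ i, w i * star (w i) * w i = w i)
    (hd : ∀ i j, ∃ k, Ext (w i) (w k) ∧ Ext (w j) (w k)) :
    ∃ v ∈ N, v * star v * v = v ∧ (∀ i, Ext (w i) v) ∧
      (∀ q : H →L[ℂ] H, (∀ i, q * w i = w i) → q * v = v) ∧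
      (∀ q : H →L[ℂ] H, (∀ i, w i * q = w i) → v * q = v) ∧
      ∀ (ζ : H) (ε : ℝ), 0 < ε → ∃ i, ‖w i ζ - v ζ‖ ≤ ε ∧ ‖star (w i) ζ - star v ζ‖ ≤ ε := by
  let _ : Preorder ι :=
    { le := fun i j => Ext (w i) (w j)
      le_refl := fun i => Ext.refl (hw i)
      le_trans := fun i j k h1 h2 => Ext.trans (hw i) (hw j) h1 h2 }
  have _ : IsDirected ι (· ≤ ·) := ⟨fun i j => hd i j⟩
  have hlim : ∀ ξ : H, ∃ y, Tendsto (fun i => w i ξ) atTop (𝓝 y) := by
    intro ξ
    have hbdd : BddAbove (Set.range fun i => ‖w i ξ‖ ^ 2) :=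
      ⟨‖ξ‖ ^ 2, by
        rintro _ ⟨i, rfl⟩
        exact pow_le_pow_left₀ (norm_nonneg _) (pi_norm_le (hw i) ξ) 2⟩
    have hC : Cauchy (map (fun i => w i ξ) atTop) := by
      rw [Metric.cauchy_iff]
      refine ⟨inferInstance, fun ε hε => ?_⟩
      have hlt : sSup (Set.range fun i => ‖w i ξ‖ ^ 2) - (ε / 2) ^ 2 <
          sSup (Set.range fun i => ‖w i ξ‖ ^ 2) := by
        have : 0 < (ε / 2) ^ 2 := by positivity
        linarith
      obtain ⟨_, ⟨i0, rfl⟩, hi0⟩ := exists_lt_of_lt_csSup (Set.range_nonempty _) hlt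
      refine ⟨(fun i => w i ξ) '' {i | i0 ≤ i}, image_mem_map (mem_atTop i0), ?_⟩
      have key : ∀ i, i0 ≤ i → ‖w i ξ - w i0 ξ‖ < ε / 2 := by
        intro i hi
        have h1 := Ext.normsq (hw i0) (hw i) hi ξ
        have h2 : ‖w i ξ‖ ^ 2 ≤ sSup (Set.range fun i => ‖w i ξ‖ ^ 2) :=
          le_csSup hbdd ⟨i, rfl⟩
        have h3 : ‖w i ξ - w i0 ξ‖ ^ 2 < (ε / 2) ^ 2 := by
          rw [h1]; simp only at hi0; linarith
        exact lt_of_pow_lt_pow_left₀ 2 (by positivity) h3
      rintro _ ⟨i, hi, rfl⟩ _ ⟨j, hj, rfl⟩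
      have h1 := key i hi
      have h2 := key j hj
      rw [dist_eq_norm]
      calc ‖w i ξ - w j ξ‖ = ‖(w i ξ - w i0 ξ) - (w j ξ - w i0 ξ)‖ := by congr 1; abel
        _ ≤ ‖w i ξ - w i0 ξ‖ + ‖w j ξ - w i0 ξ‖ := norm_sub_le _ _
        _ < ε := by linarith
    obtain ⟨y, hy⟩ := CompleteSpace.complete hC
    exact ⟨y, hy⟩
  choose f hf using hlim
  have hf_add : ∀ a b, f (a + b) = f a + f b := by
    intro a b
    refine tendsto_nhds_unique (hf (a + b)) ?_
    simpa using (hf a).add (hf b)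
  have hf_smul : ∀ (c : ℂ) a, f (c • a) = c • f a := by
    intro c a
    refine tendsto_nhds_unique (hf (c • a)) ?_
    simpa using (hf a).const_smul c
  have hf_norm : ∀ a, ‖f a‖ ≤ 1 * ‖a‖ := by
    intro a
    rw [one_mul]
    exact le_of_tendsto (hf a).norm (Eventually.of_forall fun i => pi_norm_le (hw i) a)
  let v : H →L[ℂ] H :=
    LinearMap.mkContinuous { toFun := f, map_add' := hf_add, map_smul' := hf_smul } 1 hf_norm
  have hv : ∀ ξ, Tendsto (fun i => w i ξ) atTop (𝓝 (v ξ)) := fun ξ => hf ξ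
  have hext : ∀ i, Ext (w i) v := by
    intro i
    show v * (star (w i) * w i) = w i
    ext ξ
    have h1 := hv ((star (w i) * w i) ξ)
    have h2 : Tendsto (fun j => w j ((star (w i) * w i) ξ)) atTop (𝓝 (w i ξ)) := by
      refine tendsto_const_nhds.congr' ?_
      filter_upwards [mem_atTop i] with j hj
      have h3 : Ext (w i) (w j) := hj
      exact (congrArg (fun T : H →L[ℂ] H => T ξ) h3).symm
    exact tendsto_nhds_unique h1 h2
  have hstar : ∀ i, star v * w i = star (w i) * w i := by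
    intro i
    ext ξ
    refine ext_inner_right ℂ fun η => ?_
    have e1 : ⟪(star v * w i) ξ, η⟫_ℂ = ⟪w i ξ, v η⟫_ℂ := by
      rw [ContinuousLinearMap.star_eq_adjoint, ContinuousLinearMap.mul_apply,
        ContinuousLinearMap.adjoint_inner_left]
    have h1 : Tendsto (fun j => ⟪w i ξ, w j η⟫_ℂ) atTop (𝓝 ⟪w i ξ, v η⟫_ℂ) :=
      Tendsto.inner tendsto_const_nhds (hv η)
    have h2 : Tendsto (fun j => ⟪w i ξ, w j η⟫_ℂ) atTop (𝓝 ⟪(star (w i) * w i) ξ, η⟫_ℂ) := by
      refine tendsto_const_nhds.congr' ?_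
      filter_upwards [mem_atTop i] with j hj
      have h3 : star (w j) * w i = star (w i) * w i := Ext.left (hw i) (hw j) hj
      rw [← h3, ContinuousLinearMap.star_eq_adjoint, ContinuousLinearMap.mul_apply,
        ContinuousLinearMap.adjoint_inner_left]
    rw [e1]
    exact tendsto_nhds_unique h1 h2
  have hvv : v * star v * v = v := by
    ext ξ
    have h1 : Tendsto (fun i => v (star v (w i ξ))) atTop (𝓝 (v (star v (v ξ)))) :=
      ((v.continuous.comp (star v).continuous).tendsto _).comp (hv ξ)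
    have h2 : ∀ i, v (star v (w i ξ)) = w i ξ := by
      intro i
      have h3 : star v (w i ξ) = (star (w i) * w i) ξ :=
        congrArg (fun T : H →L[ℂ] H => T ξ) (hstar i)
      rw [h3]
      exact congrArg (fun T : H →L[ℂ] H => T ξ) (hext i)
    simp only [h2] at h1
    exact tendsto_nhds_unique h1 (hv ξ)
  refine ⟨v, ?_, hvv, hext, ?_, ?_, ?_⟩
  · apply mem_of_comm
    intro z hz
    ext ξ
    have h1 : Tendsto (fun i => z (w i ξ)) atTop (𝓝 (z (v ξ))) :=
      (z.continuous.tendsto _).comp (hv ξ)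
    have h2 : Tendsto (fun i => w i (z ξ)) atTop (𝓝 (v (z ξ))) := hv (z ξ)
    have h3 : ∀ i, z (w i ξ) = w i (z ξ) := fun i => by
      have := comm_of_mem (hN i) hz
      exact congrArg (fun T : H →L[ℂ] H => T ξ) this
    simp only [h3] at h1
    exact tendsto_nhds_unique h1 h2
  · intro q hq
    ext ξ
    have h1 : Tendsto (fun i => q (w i ξ)) atTop (𝓝 (q (v ξ))) :=
      (q.continuous.tendsto _).comp (hv ξ)
    have h2 : ∀ i, q (w i ξ) = w i ξ := fun i =>
      congrArg (fun T : H →L[ℂ] H => T ξ) (hq i)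
    simp only [h2] at h1
    exact tendsto_nhds_unique h1 (hv ξ)
  · intro q hq
    ext ξ
    have h1 := hv (q ξ)
    have h2 : ∀ i, w i (q ξ) = w i ξ := fun i =>
      congrArg (fun T : H →L[ℂ] H => T ξ) (hq i)
    simp only [h2] at h1
    exact tendsto_nhds_unique h1 (hv ξ)
  · intro ζ ε hε
    have hvv' : star v * v * star v = star v := by
      have := congrArg star hvv
      rw [star_mul, star_mul, star_star] at this
      rw [mul_assoc]; exact this
    have hadj : ∀ i, star (w i) = star v * w i * star v := by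
      intro i
      have h1 : star (w i) * w i * star v = star (w i) := by
        have := congrArg star (hext i : v * (star (w i) * w i) = w i)
        rw [star_mul, star_mul, star_star] at this
        exact this
      rw [hstar i]; exact h1.symm
    have ha : Tendsto (fun i => star (w i) ζ) atTop (𝓝 (star v ζ)) := by
      have h1 : Tendsto (fun i => star v (w i (star v ζ))) atTop (𝓝 (star v (v (star v ζ)))) :=
        ((star v).continuous.tendsto _).comp (hv (star v ζ))
      have h2 : star v (v (star v ζ)) = star v ζ :=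
        congrArg (fun T : H →L[ℂ] H => T ζ) hvv'
      have h3 : ∀ i, star v (w i (star v ζ)) = star (w i) ζ := fun i =>
        (congrArg (fun T : H →L[ℂ] H => T ζ) (hadj i)).symm
      rw [h2] at h1
      simp only [h3] at h1
      exact h1
    have e1 : ∀ᶠ i in atTop, ‖w i ζ - v ζ‖ ≤ ε := by
      have := Metric.tendsto_nhds.1 (hv ζ) ε hε
      filter_upwards [this] with i hi
      rw [dist_eq_norm] at hi
      exact hi.le
    have e2 : ∀ᶠ i in atTop, ‖star (w i) ζ - star v ζ‖ ≤ ε := by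
      have := Metric.tendsto_nhds.1 ha ε hε
      filter_upwards [this] with i hi
      rw [dist_eq_norm] at hi
      exact hi.le
    exact (e1.and e2).exists

end Crest.Agent.R121.TE
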