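import Crest.Agent.R121.TE2a

/-! Row 121, module T', file TE2: a maximal partial isometry `w` of `e M e` with `2 ‖w⋆ξ‖² ≤ ‖w ξ‖²`
(Zorn, as `R124.Cmp.exists_maximal` in Crest/Agent/R124/Cmp1.lean, with `exists_sup_lim` for the chains; the inequality
passes to the limit).  For a partial isometry `v` with `(e - ww⋆) v = v`, `v (e - w⋆w) = v` and `2 ‖v⋆ξ‖² ≤ ‖v ξ‖²`, `w + v`
is a partial isometry (`R124.Cmp.pi_add`), `Ext w (w + v)`, the ranges of `w`, `v` are orthogonal and the ranges of `w⋆`, `v⋆`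
too, so `w + v` has the property; by maximality `v = 0`. -/

set_option autoImplicit false
set_option linter.unusedSectionVars false
set_option linter.deprecated false

namespace Crest.Agent.R121.TE

open Crest.Agent.R121 Crest.Agent.R124.Cmp
open scoped InnerProductSpace

variable {H : Type*} [NormedAddCommGroup H] [InnerProductSpace ℂ H] [CompleteSpace H]

private theorem normsq_add_of_star {a b : H →L[ℂ] H} (h : star a * b = 0) (ξ : H) :
    ‖(a + b) ξ‖ ^ 2 = ‖a ξ‖ ^ 2 + ‖b ξ‖ ^ 2 := by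
  have h1 : ⟪a ξ, b ξ⟫_ℂ = 0 := by
    have e1 : ⟪a ξ, b ξ⟫_ℂ = ⟪ξ, (star a * b) ξ⟫_ℂ := by
      rw [ContinuousLinearMap.star_eq_adjoint, ContinuousLinearMap.mul_apply,
        ContinuousLinearMap.adjoint_inner_right]
    rw [e1, h]
    simp
  have h2 := norm_add_sq_eq_norm_sq_add_norm_sq_of_inner_eq_zero (a ξ) (b ξ) (𝕜 := ℂ) h1
  rw [ContinuousLinearMap.add_apply]
  nlinarith [h2]

private theorem lim_ineq {a b : ℝ} (ha : 0 ≤ a) (hb : 0 ≤ b)
    (h : ∀ ε : ℝ, 0 < ε → √2 * a ≤ b + ε) : 2 * a ^ 2 ≤ b ^ 2 := by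
  have h1 : √2 * a ≤ b := le_of_forall_pos_le_add h
  have h2 : (√2 * a) ^ 2 ≤ b ^ 2 := pow_le_pow_left₀ (by positivity) h1 2
  rw [mul_pow, Real.sq_sqrt (by norm_num)] at h2
  exact h2

/-- TE2b -/
theorem exists_max_pi (M : VonNeumannAlgebra H) {e : H →L[ℂ] H} (he : IsStarProjection e) (heM : e ∈ M)
    (ξ : H) :
    ∃ w ∈ M, w * star w * w = w ∧ e * w = w ∧ w * e = w ∧ 2 * ‖star w ξ‖ ^ 2 ≤ ‖w ξ‖ ^ 2 ∧
      ∀ v ∈ M, v * star v * v = v → (e - w * star w) * v = v → v * (e - star w * w) = v →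
        ‖v ξ‖ ^ 2 ≤ 2 * ‖star v ξ‖ ^ 2 := by
  let X : Type _ := {w : H →L[ℂ] H // w ∈ M ∧ w * star w * w = w ∧ e * w = w ∧ w * e = w ∧
    2 * ‖star w ξ‖ ^ 2 ≤ ‖w ξ‖ ^ 2}
  have hz : (0 : H →L[ℂ] H) ∈ M ∧ (0 : H →L[ℂ] H) * star 0 * 0 = 0 ∧
      e * (0 : H →L[ℂ] H) = 0 ∧ (0 : H →L[ℂ] H) * e = 0 ∧
      2 * ‖star (0 : H →L[ℂ] H) ξ‖ ^ 2 ≤ ‖(0 : H →L[ℂ] H) ξ‖ ^ 2 := by
    refine ⟨zero_mem _, ?_, ?_, ?_, ?_⟩ <;> simp
  obtain ⟨m, hm⟩ := exists_maximal_of_chains_bounded (α := X) (r := fun a b => Ext a.1 b.1)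
    (by
      intro c hc
      rcases c.eq_empty_or_nonempty with rfl | hne
      · exact ⟨⟨0, hz⟩, fun a ha => absurd ha (Set.notMem_empty a)⟩
      · have _ : Nonempty c := hne.to_subtype
        obtain ⟨v, hvN, hv1, hv2, hv3, hv4, hv5⟩ := exists_sup_lim (N := M) (fun i : c => i.1.1)
          (fun i => i.1.2.1) (fun i => i.1.2.2.1) (by
            intro i j
            rcases eq_or_ne i.1 j.1 with h | h
            · refine ⟨i, Ext.refl i.1.2.2.1, ?_⟩
              rw [← h]; exact Ext.refl i.1.2.2.1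
            · rcases hc i.2 j.2 h with h' | h'
              · exact ⟨j, h', Ext.refl j.1.2.2.1⟩
              · exact ⟨i, Ext.refl i.1.2.2.1, h'⟩)
        refine ⟨⟨v, hvN, hv1, hv3 e fun i => i.1.2.2.2.1, hv4 e fun i => i.1.2.2.2.2.1, ?_⟩,
          fun a ha => hv2 ⟨a, ha⟩⟩
        refine lim_ineq (norm_nonneg _) (norm_nonneg _) fun ε hε => ?_
        obtain ⟨i, hi1, hi2⟩ := hv5 ξ (ε / 3) (by positivity)
        have h1 : 2 * ‖star i.1.1 ξ‖ ^ 2 ≤ ‖i.1.1 ξ‖ ^ 2 := i.1.2.2.2.2.2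
        have h2 : √2 * ‖star i.1.1 ξ‖ ≤ ‖i.1.1 ξ‖ := by
          refine abs_le_of_sq_le_sq' ?_ (norm_nonneg _) |>.2
          rw [mul_pow, Real.sq_sqrt (by norm_num)]
          exact h1
        have h3 : ‖star v ξ‖ ≤ ‖star i.1.1 ξ‖ + ε / 3 := by
          have := norm_sub_norm_le (star v ξ) (star i.1.1 ξ)
          rw [norm_sub_rev] at this
          linarith
        have h4 : ‖i.1.1 ξ‖ ≤ ‖v ξ‖ + ε / 3 := by
          have := norm_sub_norm_le (i.1.1 ξ) (v ξ)
          linarith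
        have h5 : √2 ≤ 2 := by
          rw [Real.sqrt_le_left (by norm_num)]
          norm_num
        have h6 : 0 ≤ √2 := Real.sqrt_nonneg 2
        have h7 : √2 * ‖star v ξ‖ ≤ √2 * (‖star i.1.1 ξ‖ + ε / 3) :=
          mul_le_mul_of_nonneg_left h3 h6
        have h8 : √2 * (ε / 3) ≤ 2 * (ε / 3) := mul_le_mul_of_nonneg_right h5 (by positivity)
        linarith)
    (fun {a b c} h1 h2 => Ext.trans a.2.2.1 b.2.2.1 h1 h2)
  obtain ⟨w, hwM, hw, hew, hwe, hwξ⟩ := m
  refine ⟨w, hwM, hw, hew, hwe, hwξ, fun v hvM hv hv1 hv2 => ?_⟩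
  by_contra hcon
  rw [not_le] at hcon
  have hes : star e = e := he.isSelfAdjoint.star_eq
  have hwes : star w * e = star w := by
    have := congrArg star hew
    rwa [star_mul, hes] at this
  have hews : e * star w = star w := by
    have := congrArg star hwe
    rwa [star_mul, hes] at this
  have hww : star w * w * star w = star w := by
    have := congrArg star hw
    simpa only [star_mul, star_star, mul_assoc] using this
  have hwv : star w * v = 0 := by
    rw [← hv1, ← mul_assoc, mul_sub, hwes, ← mul_assoc, hww, sub_self, zero_mul]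
  have hvw : v * star w = 0 := by
    rw [← hv2, mul_assoc, sub_mul, hews, hww, sub_self, mul_zero]
  have hvw' : star v * w = 0 := by
    have := congrArg star hwv
    simpa using this
  have hwv' : w * star v = 0 := by
    have := congrArg star hvw
    simpa using this
  have hev : e * v = v := by
    have : e * v - w * (star w * v) = v := by
      rw [← mul_assoc, ← sub_mul]; exact hv1
    rwa [hwv, mul_zero, sub_zero] at this
  have hve : v * e = v := by
    have : v * e - v * star w * w = v := by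
      rw [mul_assoc, ← mul_sub]; exact hv2
    rwa [hvw, zero_mul, sub_zero] at this
  have hadd : (w + v) * star (w + v) * (w + v) = w + v :=
    pi_add hw hv hwv hwv'
  have hn1 : ‖(w + v) ξ‖ ^ 2 = ‖w ξ‖ ^ 2 + ‖v ξ‖ ^ 2 := normsq_add_of_star hwv ξ
  have hn2 : ‖star (w + v) ξ‖ ^ 2 = ‖star w ξ‖ ^ 2 + ‖star v ξ‖ ^ 2 := by
    rw [star_add]
    refine normsq_add_of_star ?_ ξ
    rw [star_star]
    exact hwv'
  have hX : (w + v) ∈ M ∧ (w + v) * star (w + v) * (w + v) = w + v ∧ e * (w + v) = w + v ∧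
      (w + v) * e = w + v ∧ 2 * ‖star (w + v) ξ‖ ^ 2 ≤ ‖(w + v) ξ‖ ^ 2 := by
    refine ⟨add_mem hwM hvM, hadd, by rw [mul_add, hew, hev], by rw [add_mul, hwe, hve], ?_⟩
    rw [hn1, hn2]
    linarith
  have hext : Ext w (w + v) := by
    show (w + v) * (star w * w) = w
    rw [add_mul, ← mul_assoc, hw, ← mul_assoc, hvw, zero_mul, add_zero]
  have hext' : Ext (w + v) w := hm ⟨w + v, hX⟩ hext
  have hv0 : v = 0 := by
    have h1 : w * (star (w + v) * (w + v)) = w + v := hext'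
    have h2 : w * (star (w + v) * (w + v)) = w := by
      have h3 : star (w + v) * (w + v) = star w * w + star v * v := by
        simp only [star_add, add_mul, mul_add, hwv, hvw', add_zero, zero_add]
      rw [h3, mul_add, ← mul_assoc, hw, ← mul_assoc, hwv', zero_mul, add_zero]
    rw [h2] at h1
    simpa using h1.symm
  rw [hv0] at hcon
  simp at hcon

end Crest.Agent.R121.TE
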