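import Crest.Agent.R95.VPIso

/-! Row 121, module T', piece E3 (helper37): from partial isometries to all elements.

If `‖v ξ‖² ≤ K ‖v* ξ‖²` for all partial isometries `v` of `e M e`, then `‖x ξ‖² ≤ K ‖x* ξ‖²` for all `x` in
`e M e`: slices `r = E a - E b` of `h = x* x` (`E c` the spectral projection of `h` for `(c, ∞)`),
`w = x h^{-1/2} r`. -/

set_option autoImplicit false
set_option linter.unusedSectionVars false

open Filter Topology Crest.Agent.R95.VN
open scoped InnerProductSpace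

namespace Crest.Agent.R121.TE3v

variable {H : Type*} [NormedAddCommGroup H] [InnerProductSpace ℂ H] [CompleteSpace H]
variable {M : VonNeumannAlgebra H}

/-- `(h - c)⁺` -/
noncomputable def kk (h : H →L[ℂ] H) (c : ℝ) : H →L[ℂ] H := cfc (fun t : ℝ => max (t - c) 0) h

/-- spectral projection of `h` for `(c, ∞)` -/
noncomputable def E (h : H →L[ℂ] H) (c : ℝ) : H →L[ℂ] H := rp (kk h c)

theorem kc (c : ℝ) : Continuous (fun t : ℝ => max (t - c) 0) :=
  (continuous_id.sub continuous_const).max continuous_const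

theorem kk_star (h : H →L[ℂ] H) (c : ℝ) : star (kk h c) = kk h c :=
  (cfc_predicate (fun t : ℝ => max (t - c) 0) h : IsSelfAdjoint _)

theorem E_proj (h : H →L[ℂ] H) (c : ℝ) : IsStarProjection (E h c) := rp_proj _

theorem E_mem {h : H →L[ℂ] H} (hh : h ∈ M) (c : ℝ) : E h c ∈ M := rp_mem (cfc_mem hh _)

theorem cfc_comm (h : H →L[ℂ] H) (f g : ℝ → ℝ) : cfc f h * cfc g h = cfc g h * cfc f h :=
  (cfc_commute_cfc f g h).eq

theorem E_comm_cfc (h : H →L[ℂ] H) (c : ℝ) (g : ℝ → ℝ) : cfc g h * E h c = E h c * cfc g h := by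
  have hs : star (cfc g h) = cfc g h := (cfc_predicate g h : IsSelfAdjoint _)
  apply rp_comm
  · exact cfc_comm h _ _
  · rw [hs]; exact cfc_comm h _ _

theorem E_comm {h : H →L[ℂ] H} (hh : IsSelfAdjoint h) (c : ℝ) : h * E h c = E h c * h := by
  have := E_comm_cfc h c (fun t => t)
  rwa [cfc_id' ℝ h] at this

/-- `E c' ≤ E c` for `c < c'` -/
theorem E_anti (h : H →L[ℂ] H) {c c' : ℝ} (hc : c < c') :
    E h c * E h c' = E h c' := by
  apply rp_le
  set φ : ℝ → ℝ := fun t => max (t - c') 0 / max (t - c) (c' - c) with hφ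
  have hd : 0 < c' - c := by linarith
  have hpos : ∀ t : ℝ, 0 < max (t - c) (c' - c) := fun t => lt_max_of_lt_right hd
  have hφc : Continuous φ := (kc c').div ((continuous_id.sub continuous_const).max continuous_const)
    fun t => (hpos t).ne'
  have h1 : kk h c' = kk h c * cfc φ h := by
    unfold kk
    rw [← cfc_mul _ _ h (kc c).continuousOn hφc.continuousOn]
    congr 1
    funext t
    simp only [hφ]
    rcases le_total t c' with ht | ht
    · rw [max_eq_right (by linarith : t - c' ≤ 0)]; simp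
    · rw [max_eq_left (by linarith : 0 ≤ t - c'), max_eq_left (by linarith : 0 ≤ t - c),
        max_eq_left (by linarith : c' - c ≤ t - c)]
      have : t - c ≠ 0 := by linarith
      field_simp
  rw [h1, ← mul_assoc]
  unfold E
  rw [rp_mul]

theorem E_anti' (h : H →L[ℂ] H) {c c' : ℝ} (hc : c < c') :
    E h c' * E h c = E h c' :=
  proj_flip (E_proj _ _) (E_proj _ _) (E_anti h hc)

/-- `(1 - E c) h ≤ c` in the form of vectors: `‖x (ζ - E c ζ)‖² ≤ c ‖ζ - E c ζ‖²` for `h = x* x`, `c ≥ 0` -/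
theorem rest_le {x : H →L[ℂ] H} {c : ℝ} (ζ : H) (hζ : E (star x * x) c ζ = 0) :
    ‖x ζ‖ ^ 2 ≤ c * ‖ζ‖ ^ 2 := by
  set h : H →L[ℂ] H := star x * x with hh
  have hsa : IsSelfAdjoint h := IsSelfAdjoint.star_mul_self x
  -- `k(h) ζ = 0`
  have h1 : kk h c ζ = 0 := by
    have h2 : kk h c * E h c = kk h c := mul_rp (kk_star h c)
    rw [← h2, ContinuousLinearMap.mul_apply, hζ, map_zero]
  -- `h ≤ c + k(h)`
  have h3 : h ≤ algebraMap ℝ (H →L[ℂ] H) c + kk h c := by
    have e1 : h = cfc (fun t : ℝ => t) h := (cfc_id' ℝ h).symm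
    have e2 : algebraMap ℝ (H →L[ℂ] H) c + kk h c = cfc (fun t : ℝ => c + max (t - c) 0) h := by
      rw [cfc_const_add c _ h (kc c).continuousOn]; rfl
    rw [e2]
    nth_rewrite 1 [e1]
    apply cfc_mono
    · intro t _
      have := le_max_left (t - c) 0
      show t ≤ c + max (t - c) 0
      linarith
    · exact continuous_id.continuousOn
    · exact (continuous_const.add (kc c)).continuousOn
  have h4 := (ContinuousLinearMap.le_def _ _).1 h3
  have h5 := h4.re_inner_nonneg_left ζ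
  have h6 : ((algebraMap ℝ (H →L[ℂ] H) c + kk h c) - h) ζ = (c : ℂ) • ζ - h ζ := by
    rw [ContinuousLinearMap.sub_apply, ContinuousLinearMap.add_apply, h1, add_zero,
      Algebra.algebraMap_eq_smul_one]
    simp
  rw [h6, inner_sub_left, map_sub, sub_nonneg, inner_smul_left] at h5
  have h7 : RCLike.re ⟪h ζ, ζ⟫_ℂ = ‖x ζ‖ ^ 2 := by
    rw [hh, ContinuousLinearMap.mul_apply, ContinuousLinearMap.star_eq_adjoint,
      ContinuousLinearMap.adjoint_inner_left]
    exact inner_self_eq_norm_sq (𝕜 := ℂ) (x ζ)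
  have h8 : RCLike.re ((starRingEnd ℂ) (c : ℂ) * ⟪ζ, ζ⟫_ℂ) = c * ‖ζ‖ ^ 2 := by
    have : RCLike.re ⟪ζ, ζ⟫_ℂ = ‖ζ‖ ^ 2 := inner_self_eq_norm_sq (𝕜 := ℂ) ζ
    rw [Complex.conj_ofReal]
    rw [← this]
    simp
  rw [h7, h8] at h5
  exact h5

theorem pyth {u v : H} (h : ⟪u, v⟫_ℂ = 0) : ‖u + v‖ ^ 2 = ‖u‖ ^ 2 + ‖v‖ ^ 2 := by
  have := norm_add_sq_eq_norm_sq_add_norm_sq_of_inner_eq_zero u v h
  nlinarith

theorem inner_star (y : H →L[ℂ] H) (u v : H) : ⟪y u, v⟫_ℂ = ⟪u, star y v⟫_ℂ := by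
  rw [ContinuousLinearMap.star_eq_adjoint, ContinuousLinearMap.adjoint_inner_right]

theorem app_mul (y z : H →L[ℂ] H) (v : H) : y (z v) = (y * z) v := rfl

/-- one slice -/
theorem slice {q e : H →L[ℂ] H} (he : IsStarProjection e) {ξ : H} {K : ℝ} (hK : 0 ≤ K)
    (hpi : ∀ v ∈ M, v * star v * v = v → q * v = v → v * e = v →
      ‖v ξ‖ ^ 2 ≤ K * ‖star v ξ‖ ^ 2)
    {x : H →L[ℂ] H} (hx : x ∈ M) (hex : q * x = x) (hxe : x * e = x) {a b : ℝ} (ha : 0 < a)
    (hab : a < b) :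
    ‖x ((E (star x * x) a - E (star x * x) b) ξ)‖ ^ 2 ≤
      b / a * K * ‖(E (star x * x) a - E (star x * x) b) (star x ξ)‖ ^ 2 := by
  set h : H →L[ℂ] H := star x * x with hh
  have hN : h ∈ M := mul_mem (star_mem hx) hx
  have hsa : IsSelfAdjoint h := IsSelfAdjoint.star_mul_self x
  set r : H →L[ℂ] H := E h a - E h b with hr
  have hrp : IsStarProjection r := proj_sub (E_proj h b) (E_proj h a) (E_anti h hab)
  have hEr : E h a * r = r := by
    rw [hr, mul_sub, proj_mul (E_proj _ _), E_anti h hab]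
  have hbr : E h b * r = 0 := by
    rw [hr, mul_sub, proj_mul (E_proj _ _), E_anti' h hab, sub_self]
  have h1 : ‖x (r ξ)‖ ^ 2 ≤ b * ‖r ξ‖ ^ 2 := by
    apply rest_le
    rw [app_mul, ← hh, hbr]; rfl
  have hmax : ∀ t : ℝ, 0 < max t a := fun t => lt_max_of_lt_right ha
  set g : ℝ → ℝ := fun t => 1 / Real.sqrt (max t a) with hg
  set m : ℝ → ℝ := fun t => t / max t a with hm
  set k' : ℝ → ℝ := fun t => max (t - a) 0 / max t a with hk'
  have hgc : Continuous g := by
    refine continuous_const.div (Real.continuous_sqrt.comp (continuous_id.max continuous_const)) ?_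
    intro t
    exact (Real.sqrt_pos.2 (hmax t)).ne'
  have hmc : Continuous m :=
    continuous_id.div (continuous_id.max continuous_const) fun t => (hmax t).ne'
  have hk'c : Continuous k' :=
    (kc a).div (continuous_id.max continuous_const) fun t => (hmax t).ne'
  set G : H →L[ℂ] H := cfc g h with hG
  have hGs : star G = G := (cfc_predicate g h : IsSelfAdjoint (cfc g h))
  have hGhG : G * h * G = cfc m h := by
    have h1 : h = cfc (fun t : ℝ => t) h := (cfc_id' ℝ h).symm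
    have h2 : G * h = cfc (fun t => g t * t) h := by
      rw [cfc_mul g (fun t : ℝ => t) h hgc.continuousOn continuous_id.continuousOn, ← h1]
    rw [h2, hG, ← cfc_mul (fun t => g t * t) g h (hgc.mul continuous_id).continuousOn
      hgc.continuousOn]
    congr 1
    funext t
    have h3 : Real.sqrt (max t a) * Real.sqrt (max t a) = max t a :=
      Real.mul_self_sqrt (hmax t).le
    simp only [hg, hm]
    rw [div_mul_eq_mul_div, div_mul_div_comm, h3]
    ring
  have hMK : cfc m h * kk h a = kk h a := by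
    unfold kk
    rw [← cfc_mul m _ h hmc.continuousOn (kc a).continuousOn]
    congr 1
    funext t
    simp only [hm]
    rcases le_total t a with ht | ht
    · rw [max_eq_right (by linarith : t - a ≤ 0)]; simp
    · rw [max_eq_left ht, div_self (by linarith : t ≠ 0), one_mul]
  have hKh : kk h a = h * cfc k' h := by
    have h1 : h = cfc (fun t : ℝ => t) h := (cfc_id' ℝ h).symm
    have h2 : h * cfc k' h = cfc (fun t => t * k' t) h := by
      rw [cfc_mul (fun t : ℝ => t) k' h continuous_id.continuousOn hk'c.continuousOn, ← h1]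
    rw [h2]
    unfold kk
    congr 1
    funext t
    simp only [hk']
    rcases le_total t a with ht | ht
    · rw [max_eq_right (by linarith : t - a ≤ 0)]; simp
    · rw [max_eq_left ht]
      have : t ≠ 0 := by linarith
      field_simp
  have hMe : cfc m h * E h a = E h a := by
    have := mul_rp_eq_of (x := kk h a) (y := cfc m h) (z := 1) (by rw [hMK, one_mul])
    rwa [one_mul] at this
  have hMr : cfc m h * r = r := by
    rw [← hEr, ← mul_assoc, hMe]
  have heE : e * E h a = E h a := by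
    apply rp_le
    have h1 : h * e = h := by rw [hh, mul_assoc, hxe]
    have h2 : e * h = h := by
      have := congrArg star h1
      rwa [star_mul, proj_star he, hsa.star_eq] at this
    rw [hKh, ← mul_assoc, h2]
  have her : r * e = r := by
    apply proj_flip hrp he
    rw [← hEr, ← mul_assoc, heE]
  set w : H →L[ℂ] H := x * G * r with hw
  have hww : star w * w = r := by
    have h1 : star w * w = r * ((G * h * G) * r) := by
      simp only [hw, star_mul, hGs, proj_star hrp, hh, mul_assoc]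
    rw [h1, hGhG, hMr, proj_mul hrp]
  have hrM : r ∈ M := sub_mem (E_mem hN a) (E_mem hN b)
  have hwM : w ∈ M := mul_mem (mul_mem hx (cfc_mem hN g)) hrM
  have h2 := hpi w hwM (pi_of_left (by rw [hww, proj_mul hrp]))
    (by rw [hw, ← mul_assoc, ← mul_assoc, hex]) (by rw [hw, mul_assoc, her])
  have h3 : ‖w ξ‖ ^ 2 = ‖r ξ‖ ^ 2 := by
    have e1 : ‖w ξ‖ ^ 2 = RCLike.re ⟪w ξ, w ξ⟫_ℂ := (inner_self_eq_norm_sq (𝕜 := ℂ) _).symm
    have e2 : ‖r ξ‖ ^ 2 = RCLike.re ⟪r ξ, r ξ⟫_ℂ := (inner_self_eq_norm_sq (𝕜 := ℂ) _).symm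
    rw [e1, e2, inner_star w, app_mul, hww, inner_star r, app_mul, proj_star hrp, proj_mul hrp]
  have h4 : ‖star w ξ‖ ^ 2 ≤ a⁻¹ * ‖r (star x ξ)‖ ^ 2 := by
    have hGr : G * r = r * G := by
      rw [hr, mul_sub, sub_mul, hG, E_comm_cfc, E_comm_cfc]
    have e1 : star w ξ = G (r (star x ξ)) := by
      rw [app_mul, app_mul, hGr, hw, star_mul, star_mul, hGs, proj_star hrp, mul_assoc]
    have e2 : ‖G‖ ≤ 1 / Real.sqrt a := by
      apply norm_cfc_le (by positivity)
      intro t _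
      rw [hg, Real.norm_of_nonneg (by positivity)]
      exact one_div_le_one_div_of_le (Real.sqrt_pos.2 ha) (Real.sqrt_le_sqrt (le_max_right _ _))
    rw [e1]
    have e3 : ‖G (r (star x ξ))‖ ≤ 1 / Real.sqrt a * ‖r (star x ξ)‖ :=
      (G.le_opNorm _).trans (mul_le_mul_of_nonneg_right e2 (norm_nonneg _))
    calc ‖G (r (star x ξ))‖ ^ 2 ≤ (1 / Real.sqrt a * ‖r (star x ξ)‖) ^ 2 :=
          pow_le_pow_left₀ (norm_nonneg _) e3 2
      _ = a⁻¹ * ‖r (star x ξ)‖ ^ 2 := by
        rw [mul_pow, div_pow, Real.sq_sqrt ha.le]; simp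
  have hb : 0 < b := ha.trans hab
  calc ‖x (r ξ)‖ ^ 2 ≤ b * ‖r ξ‖ ^ 2 := h1
    _ = b * ‖w ξ‖ ^ 2 := by rw [h3]
    _ ≤ b * (K * ‖star w ξ‖ ^ 2) := mul_le_mul_of_nonneg_left h2 hb.le
    _ ≤ b * (K * (a⁻¹ * ‖r (star x ξ)‖ ^ 2)) :=
      mul_le_mul_of_nonneg_left (mul_le_mul_of_nonneg_left h4 hK) hb.le
    _ = b / a * K * ‖r (star x ξ)‖ ^ 2 := by ring

/-- induction over the slices -/
theorem slices {q e : H →L[ℂ] H} (he : IsStarProjection e) {ξ : H} {K : ℝ} (hK : 0 ≤ K)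
    (hpi : ∀ v ∈ M, v * star v * v = v → q * v = v → v * e = v →
      ‖v ξ‖ ^ 2 ≤ K * ‖star v ξ‖ ^ 2)
    {x : H →L[ℂ] H} (hx : x ∈ M) (hex : q * x = x) (hxe : x * e = x) {B lam : ℝ} (hB : 0 < B)
    (hl : 0 < lam) (hl1 : lam < 1) (hE0 : E (star x * x) B = 0) (n : ℕ) :
    ‖x (E (star x * x) (B * lam ^ n) ξ)‖ ^ 2 ≤
      K / lam * ‖E (star x * x) (B * lam ^ n) (star x ξ)‖ ^ 2 := by
  induction n with
  | zero =>
    rw [pow_zero, mul_one, hE0]; simp
  | succ n ih =>
    set h : H →L[ℂ] H := star x * x with hh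
    have hsa : IsSelfAdjoint h := IsSelfAdjoint.star_mul_self x
    set a := B * lam ^ (n + 1) with ha
    set b := B * lam ^ n with hb
    have ha0 : 0 < a := by positivity
    have hb0 : 0 < b := by positivity
    have hab : a < b := by
      rw [ha, pow_succ, ← mul_assoc, ← hb]
      nlinarith
    have hba : b / a = lam⁻¹ := by
      rw [ha, pow_succ, ← mul_assoc, ← hb]
      field_simp
    have h1 := slice he hK hpi hx hex hxe ha0 hab
    rw [← hh] at h1
    set r : H →L[ℂ] H := E h a - E h b with hr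
    have hrp : IsStarProjection r := proj_sub (E_proj h b) (E_proj h a) (E_anti h hab)
    have hEa : E h a = E h b + r := by rw [hr]; abel
    have hbr : E h b * r = 0 := by
      rw [hr, mul_sub, proj_mul (E_proj _ _), E_anti' h hab, sub_self]
    have e1 : ‖x (E h a ξ)‖ ^ 2 = ‖x (E h b ξ)‖ ^ 2 + ‖x (r ξ)‖ ^ 2 := by
      rw [hEa, ContinuousLinearMap.add_apply, map_add]
      apply pyth
      rw [inner_star x, app_mul (star x), ← hh, inner_star (E h b), app_mul, app_mul,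
        proj_star (E_proj _ _), ← E_comm hsa b, mul_assoc, hbr]
      simp
    have e2 : ‖E h a (star x ξ)‖ ^ 2 = ‖E h b (star x ξ)‖ ^ 2 + ‖r (star x ξ)‖ ^ 2 := by
      rw [hEa, ContinuousLinearMap.add_apply]
      apply pyth
      rw [inner_star (E h b), app_mul, proj_star (E_proj _ _), hbr]
      simp
    rw [e1, e2, mul_add]
    refine add_le_add ih (h1.trans (le_of_eq ?_))
    rw [hba]; ring

/-- **(E3)**, two projections -/
theorem vec_le_of_pi2 {q e : H →L[ℂ] H} (he : IsStarProjection e) {ξ : H} {K : ℝ}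
    (hK : 0 ≤ K)
    (hpi : ∀ v ∈ M, v * star v * v = v → q * v = v → v * e = v →
      ‖v ξ‖ ^ 2 ≤ K * ‖star v ξ‖ ^ 2) :
    ∀ x ∈ M, q * x = x → x * e = x → ‖x ξ‖ ^ 2 ≤ K * ‖star x ξ‖ ^ 2 := by
  intro x hx hex hxe
  set h : H →L[ℂ] H := star x * x with hh
  have hsa : IsSelfAdjoint h := IsSelfAdjoint.star_mul_self x
  set B : ℝ := ‖h‖ + 1 with hB
  have hB0 : 0 < B := by positivity
  have hE0 : E h B = 0 := by
    have hk : kk h B = 0 := by
      rw [← norm_le_zero_iff]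
      apply norm_cfc_le le_rfl
      intro t ht
      have h1 : |t| ≤ ‖h‖ := by
        have h2 := spectrum.norm_le_norm_mul_of_mem ht
        have h3 : ‖(1 : H →L[ℂ] H)‖ ≤ 1 := ContinuousLinearMap.norm_id_le
        have h4 : ‖h‖ * ‖(1 : H →L[ℂ] H)‖ ≤ ‖h‖ * 1 := mul_le_mul_of_nonneg_left h3 (norm_nonneg _)
        rw [mul_one] at h4
        exact h2.trans h4
      have h2 : t - B ≤ 0 := by
        have := le_abs_self t
        linarith
      rw [max_eq_right h2]; simp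
    unfold E
    rw [hk]
    ext v
    have := congrArg (fun T : H →L[ℂ] H => T v) (mul_rp_eq_zero (x := (0 : H →L[ℂ] H)) (y := 1)
      (by simp))
    simpa using this
  -- for every `0 < lam < 1`
  have key : ∀ lam : ℝ, 0 < lam → lam < 1 → lam * ‖x ξ‖ ^ 2 ≤ K * ‖star x ξ‖ ^ 2 := by
    intro lam hl hl1
    have hn : ∀ n : ℕ, ‖x ξ‖ ^ 2 ≤ K / lam * ‖star x ξ‖ ^ 2 + B * lam ^ n * ‖ξ‖ ^ 2 := by
      intro n
      have h1 := slices he hK hpi hx hex hxe hB0 hl hl1 hE0 n
      rw [← hh] at h1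
      set P : H →L[ℂ] H := E h (B * lam ^ n) with hP
      have hPp : IsStarProjection P := E_proj _ _
      have h2 : ‖P (star x ξ)‖ ^ 2 ≤ ‖star x ξ‖ ^ 2 := by
        apply pow_le_pow_left₀ (norm_nonneg _)
        have := P.le_opNorm (star x ξ)
        have hP1 : ‖P‖ ≤ 1 := hPp.norm_le
        nlinarith [norm_nonneg (star x ξ)]
      have h3 : ‖x (ξ - P ξ)‖ ^ 2 ≤ B * lam ^ n * ‖ξ - P ξ‖ ^ 2 := by
        apply rest_le
        rw [← hh, ← hP, map_sub, app_mul, proj_mul hPp, sub_self]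
      have h4 : ‖ξ - P ξ‖ ^ 2 ≤ ‖ξ‖ ^ 2 := by
        apply pow_le_pow_left₀ (norm_nonneg _)
        have hq : IsStarProjection (1 - P) := hPp.one_sub
        have e1 : ξ - P ξ = (1 - P) ξ := by
          rw [ContinuousLinearMap.sub_apply]; rfl
        rw [e1]
        have := (1 - P).le_opNorm ξ
        have hP1 : ‖1 - P‖ ≤ 1 := hq.norm_le
        nlinarith [norm_nonneg ξ]
      have h5 : ‖x ξ‖ ^ 2 = ‖x (P ξ)‖ ^ 2 + ‖x (ξ - P ξ)‖ ^ 2 := by
        have e1 : x ξ = x (P ξ) + x (ξ - P ξ) := by rw [← map_add]; congr 1; abel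
        rw [e1]
        apply pyth
        have e2 : ξ - P ξ = (1 - P) ξ := by
          rw [ContinuousLinearMap.sub_apply]; rfl
        have e3 : P * (h * (1 - P)) = 0 := by
          rw [← mul_assoc, ← E_comm hsa, mul_assoc, mul_sub, mul_one, proj_mul hPp, sub_self,
            mul_zero]
        rw [inner_star x, app_mul (star x), ← hh, inner_star P, proj_star hPp, e2, app_mul, app_mul,
          mul_assoc, e3]
        simp
      have h6 : 0 ≤ B * lam ^ n := by positivity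
      have h7 : 0 ≤ K / lam := by positivity
      calc ‖x ξ‖ ^ 2 = ‖x (P ξ)‖ ^ 2 + ‖x (ξ - P ξ)‖ ^ 2 := h5
        _ ≤ K / lam * ‖P (star x ξ)‖ ^ 2 + B * lam ^ n * ‖ξ - P ξ‖ ^ 2 := add_le_add h1 h3
        _ ≤ K / lam * ‖star x ξ‖ ^ 2 + B * lam ^ n * ‖ξ‖ ^ 2 :=
          add_le_add (mul_le_mul_of_nonneg_left h2 h7) (mul_le_mul_of_nonneg_left h4 h6)
    have hlim : Tendsto (fun n : ℕ => K / lam * ‖star x ξ‖ ^ 2 + B * lam ^ n * ‖ξ‖ ^ 2) atTop
        (𝓝 (K / lam * ‖star x ξ‖ ^ 2 + B * 0 * ‖ξ‖ ^ 2)) :=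
      (((tendsto_pow_atTop_nhds_zero_of_lt_one hl.le hl1).const_mul B).mul_const _).const_add _
    have h8 := ge_of_tendsto' hlim hn
    rw [mul_zero, zero_mul, add_zero] at h8
    calc lam * ‖x ξ‖ ^ 2 ≤ lam * (K / lam * ‖star x ξ‖ ^ 2) := mul_le_mul_of_nonneg_left h8 hl.le
      _ = K * ‖star x ξ‖ ^ 2 := by field_simp
  have hlim : Tendsto (fun lam : ℝ => lam * ‖x ξ‖ ^ 2) (𝓝[<] 1) (𝓝 (1 * ‖x ξ‖ ^ 2)) :=
    (tendsto_id.mul_const _).mono_left nhdsWithin_le_nhds
  rw [one_mul] at hlim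
  apply le_of_tendsto hlim
  have h9 : ∀ᶠ lam : ℝ in 𝓝[<] 1, 0 < lam :=
    nhdsWithin_le_nhds (lt_mem_nhds one_pos)
  filter_upwards [h9, self_mem_nhdsWithin] with lam h1 h2
  exact key lam h1 h2

/-- **(E3)** for `q M p`, general constant (argument order of `TE.ineq_of_pi`) -/
theorem ineq_of_pi {p q : H →L[ℂ] H} (hp : IsStarProjection p) (_hpM : p ∈ M)
    (_hq : IsStarProjection q) (_hqM : q ∈ M) {ξ : H} {K : ℝ} (hK : 0 ≤ K)
    (h : ∀ v ∈ M, v * star v * v = v → q * v = v → v * p = v → ‖v ξ‖ ^ 2 ≤ K * ‖star v ξ‖ ^ 2) :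
    ∀ y ∈ M, q * y = y → y * p = y → ‖y ξ‖ ^ 2 ≤ K * ‖star y ξ‖ ^ 2 :=
  vec_le_of_pi2 hp hK h

/-- **(E3)** for `e M e` -/
theorem vec_le_of_pi {e : H →L[ℂ] H} (he : IsStarProjection e) (_heM : e ∈ M) {ξ : H} {K : ℝ}
    (hK : 0 ≤ K)
    (hpi : ∀ v ∈ M, e * v = v → v * e = v → v * star v * v = v →
      ‖v ξ‖ ^ 2 ≤ K * ‖star v ξ‖ ^ 2) :
    ∀ x ∈ M, e * x = x → x * e = x → ‖x ξ‖ ^ 2 ≤ K * ‖star x ξ‖ ^ 2 :=
  vec_le_of_pi2 he hK fun v hv h1 h2 h3 => hpi v hv h2 h3 h1

end Crest.Agent.R121.TE3v
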