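import Crest.Agent.R121.TEDefs
import Crest.Agent.R121.TE3v

/-! Row 121, module T', file TE3: from partial isometries to all elements (`TE3v`, helper37). -/

set_option autoImplicit false
set_option linter.unusedSectionVars false

namespace Crest.Agent.R121.TE

open Crest.Agent.R121

variable {H : Type*} [NormedAddCommGroup H] [InnerProductSpace ℂ H] [CompleteSpace H]

/-- TE3c -/
theorem ineq_of_pi {M : VonNeumannAlgebra H} {p q : H →L[ℂ] H} (hp : IsStarProjection p) (hpM : p ∈ M)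
    (hq : IsStarProjection q) (hqM : q ∈ M) {ξ : H}
    (h : ∀ v ∈ M, v * star v * v = v → q * v = v → v * p = v → ‖v ξ‖ ^ 2 ≤ 2 * ‖star v ξ‖ ^ 2) :
    ∀ y ∈ M, q * y = y → y * p = y → ‖y ξ‖ ^ 2 ≤ 2 * ‖star y ξ‖ ^ 2 :=
  TE3v.ineq_of_pi hp hpM hq hqM (K := 2) (by norm_num) h

end Crest.Agent.R121.TE
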