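import Crest.Agent.R121.TEDefs
import Crest.Agent.R95.VPIso

/-! Row 121, module T', file TE3a: polar decomposition of `y` cut at the height `t` (copy and adapt
`R95.VN.pi_of_ne_zero`, Crest/Agent/R95/VPIso.lean, with `ε := t`).  `h = y⋆y`, `E = rp ((h - s)_+)` with `s = t²`,
`w = y g(h) E`, `g r = 1 / √(max r s)`, `w⋆w = E`, `k = √h E`: `w k = y g(h) √h E = y E` (`g √h = 1` on `r ≥ s`:
`g(h) √h (h - s)_+ = (h - s)_+`, `mul_rp_eq_of`); `‖y - y E‖² = ‖(1 - E) h (1 - E)‖ ≤ s` since
`(1 - E) (h - s)_+ = 0` and `h ≤ s + (h - s)_+`. -/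

set_option autoImplicit false
set_option linter.unusedSectionVars false

namespace Crest.Agent.R121.TE

open Crest.Agent.R121

variable {H : Type*} [NormedAddCommGroup H] [InnerProductSpace ℂ H] [CompleteSpace H]

/-- TE3a -/
theorem exists_cut_pi {M : VonNeumannAlgebra H} {y : H →L[ℂ] H} (hy : y ∈ M) {t : ℝ} (ht : 0 < t) :
    ∃ w ∈ M, ∃ k ∈ M, w * star w * w = w ∧ star k = k ∧ star w * w * k = k ∧
      w * k = y * (star w * w) ∧ ‖y - y * (star w * w)‖ ≤ t ∧
      (∀ q : H →L[ℂ] H, q * y = y → q * w = w) ∧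
      (∀ p : H →L[ℂ] H, IsStarProjection p → y * p = y → w * p = w) := by
  set h : H →L[ℂ] H := star y * y with hh
  have hN : h ∈ M := mul_mem (star_mem hy) hy
  have hsa : IsSelfAdjoint h := IsSelfAdjoint.star_mul_self y
  set ε : ℝ := t ^ 2 with hε
  have hε0 : 0 < ε := by positivity
  have hmax : ∀ t : ℝ, 0 < max t ε := fun t => lt_max_of_lt_right hε0
  set g : ℝ → ℝ := fun t => 1 / Real.sqrt (max t ε) with hg
  set k : ℝ → ℝ := fun t => max (t - ε) 0 with hk
  set m : ℝ → ℝ := fun t => t / max t ε with hm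
  set k' : ℝ → ℝ := fun t => max (t - ε) 0 / max t ε with hk'
  set r : ℝ → ℝ := fun t => Real.sqrt t with hr
  have hgc : Continuous g := by
    refine continuous_const.div (Real.continuous_sqrt.comp (continuous_id.max continuous_const)) ?_
    intro t
    exact (Real.sqrt_pos.2 (hmax t)).ne'
  have hkc : Continuous k := (continuous_id.sub continuous_const).max continuous_const
  have hmc : Continuous m :=
    continuous_id.div (continuous_id.max continuous_const) fun t => (hmax t).ne'
  have hk'c : Continuous k' :=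
    hkc.div (continuous_id.max continuous_const) fun t => (hmax t).ne'
  have hrc : Continuous r := Real.continuous_sqrt
  set G : H →L[ℂ] H := cfc g h with hG
  set Kk : H →L[ℂ] H := cfc k h with hKk
  set Mm : H →L[ℂ] H := cfc m h with hM
  set Rr : H →L[ℂ] H := cfc r h with hR
  have hGs : star G = G := (cfc_predicate g h : IsSelfAdjoint (cfc g h))
  have hKs : star Kk = Kk := (cfc_predicate k h : IsSelfAdjoint (cfc k h))
  have hRs : star Rr = Rr := (cfc_predicate r h : IsSelfAdjoint (cfc r h))
  -- `G h G = M`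
  have hGhG : G * h * G = Mm := by
    have h1 : h = cfc (fun t : ℝ => t) h := (cfc_id' ℝ h).symm
    have h2 : G * h = cfc (fun t => g t * t) h := by
      rw [cfc_mul g (fun t : ℝ => t) h hgc.continuousOn continuous_id.continuousOn, ← h1]
    rw [h2, hG, ← cfc_mul (fun t => g t * t) g h (hgc.mul continuous_id).continuousOn
      hgc.continuousOn, hM]
    congr 1
    funext t
    have h3 : Real.sqrt (max t ε) * Real.sqrt (max t ε) = max t ε :=
      Real.mul_self_sqrt (hmax t).le
    have h4 : Real.sqrt (max t ε) ≠ 0 := (Real.sqrt_pos.2 (hmax t)).ne'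
    simp only [hg, hm]
    rw [div_mul_eq_mul_div, div_mul_div_comm, h3]
    ring
  have hMK : Mm * Kk = Kk := by
    rw [hM, hKk, ← cfc_mul m k h hmc.continuousOn hkc.continuousOn]
    congr 1
    funext t
    simp only [hm, hk]
    rcases le_total t ε with ht | ht
    · rw [max_eq_right (by linarith : t - ε ≤ 0)]; simp
    · rw [max_eq_left ht, div_self (by linarith : t ≠ 0), one_mul]
  -- `G R K = K`
  have hGRK : G * Rr * Kk = Kk := by
    have h2 : G * Rr = cfc (fun t => g t * r t) h := by
      rw [cfc_mul g r h hgc.continuousOn hrc.continuousOn]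
    rw [h2, hKk, ← cfc_mul (fun t => g t * r t) k h (hgc.mul hrc).continuousOn hkc.continuousOn]
    congr 1
    funext t
    simp only [hg, hk, hr]
    rcases le_total t ε with ht | ht
    · rw [max_eq_right (by linarith : t - ε ≤ 0)]; simp
    · have h5 : Real.sqrt t ≠ 0 := (Real.sqrt_pos.2 (by linarith)).ne'
      rw [max_eq_left ht, one_div, inv_mul_cancel₀ h5, one_mul]
  have hRK : Rr * Kk = Kk * Rr := by
    rw [hR, hKk, ← cfc_mul r k h hrc.continuousOn hkc.continuousOn,
      ← cfc_mul k r h hkc.continuousOn hrc.continuousOn]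
    congr 1
    funext t
    ring
  have hKh : Kk = h * cfc k' h := by
    have h1 : h = cfc (fun t : ℝ => t) h := (cfc_id' ℝ h).symm
    have h2 : h * cfc k' h = cfc (fun t => t * k' t) h := by
      rw [cfc_mul (fun t : ℝ => t) k' h continuous_id.continuousOn hk'c.continuousOn, ← h1]
    rw [h2, hKk]
    congr 1
    funext t
    simp only [hk, hk']
    rcases le_total t ε with ht | ht
    · rw [max_eq_right (by linarith : t - ε ≤ 0)]; simp
    · rw [max_eq_left ht]
      have : t ≠ 0 := by linarith
      field_simp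
  set e : H →L[ℂ] H := R95.VN.rp Kk with he
  have hep : IsStarProjection e := R95.VN.rp_proj Kk
  have hMe : Mm * e = e := by
    have := R95.VN.mul_rp_eq_of (x := Kk) (y := Mm) (z := 1) (by rw [hMK, one_mul])
    rwa [one_mul] at this
  have hGRe : G * Rr * e = e := by
    have := R95.VN.mul_rp_eq_of (x := Kk) (y := G * Rr) (z := 1) (by rw [hGRK, one_mul])
    rwa [one_mul] at this
  have hRe : Rr * e = e * Rr := R95.VN.rp_comm hRK (by rw [hRs]; exact hRK)
  have hww : star (y * G * e) * (y * G * e) = e := by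
    have h1 : star (y * G * e) * (y * G * e) = e * ((G * h * G) * e) := by
      simp only [star_mul, hGs, R95.VN.proj_star hep, hh, mul_assoc]
    rw [h1, hGhG, hMe, R95.VN.proj_mul hep]
  have hee : e * e = e := R95.VN.proj_mul hep
  have hes : star e = e := R95.VN.proj_star hep
  have heM : e ∈ M := R95.VN.rp_mem (R95.VN.cfc_mem hN k)
  refine ⟨y * G * e, mul_mem (mul_mem hy (R95.VN.cfc_mem hN g)) heM, Rr * e,
    mul_mem (R95.VN.cfc_mem hN r) heM, ?_, ?_, ?_, ?_, ?_, ?_, ?_⟩
  · apply R95.VN.pi_of_left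
    rw [hww, hee]
  · rw [star_mul, hes, hRs, hRe]
  · rw [hww, ← mul_assoc, ← hRe, mul_assoc, hee]
  · rw [hww]
    calc y * G * e * (Rr * e) = y * (G * (e * Rr) * e) := by simp only [mul_assoc]
      _ = y * (G * Rr * (e * e)) := by rw [← hRe]; simp only [mul_assoc]
      _ = y * e := by rw [hee, hGRe]
  · rw [hww]
    -- norm estimate
    have hnn : (0 : H →L[ℂ] H) ≤ h := star_mul_self_nonneg y
    have hKe : Kk * e = Kk := R95.VN.mul_rp hKs
    have hd : h - Kk = cfc (fun t => t - k t) h := by
      have h1 : h = cfc (fun t : ℝ => t) h := (cfc_id' ℝ h).symm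
      rw [cfc_sub (fun t : ℝ => t) k h continuous_id.continuousOn hkc.continuousOn, ← h1]
    have hdn : ‖h - Kk‖ ≤ ε := by
      rw [hd]
      refine norm_cfc_le hε0.le fun x hx => ?_
      have hx0 : 0 ≤ x := spectrum_nonneg_of_nonneg hnn hx
      simp only [hk]
      rw [Real.norm_eq_abs, abs_le]
      rcases le_total x ε with hx1 | hx1
      · rw [max_eq_right (by linarith : x - ε ≤ 0)]
        constructor <;> linarith
      · rw [max_eq_left (by linarith : (0 : ℝ) ≤ x - ε)]
        constructor <;> linarith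
    have h1e : ‖(1 : H →L[ℂ] H) - e‖ ≤ 1 := by
      have hp : IsStarProjection ((1 : H →L[ℂ] H) - e) := by
        refine ⟨?_, ?_⟩
        · show (1 - e) * (1 - e) = 1 - e
          rw [mul_sub, mul_one, sub_mul, one_mul, hee, sub_self, sub_zero]
        · show star (1 - e) = 1 - e
          rw [star_sub, star_one, hes]
      have h2 : ‖(1 : H →L[ℂ] H) - e‖ * ‖(1 : H →L[ℂ] H) - e‖ = ‖(1 : H →L[ℂ] H) - e‖ := by
        rw [← CStarRing.norm_star_mul_self, R95.VN.proj_star hp, R95.VN.proj_mul hp]
      nlinarith [norm_nonneg ((1 : H →L[ℂ] H) - e), mul_self_nonneg (‖(1 : H →L[ℂ] H) - e‖ - 1)]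
    have hsq : star (y - y * e) * (y - y * e) = (1 - e) * (h - Kk) * (1 - e) := by
      have h2 : y - y * e = y * (1 - e) := by rw [mul_sub, mul_one]
      have h3 : Kk * (1 - e) = 0 := by rw [mul_sub, mul_one, hKe, sub_self]
      rw [h2, star_mul, star_sub, star_one, hes]
      calc (1 - e) * star y * (y * (1 - e)) = (1 - e) * (h * (1 - e)) := by
            rw [hh]; simp only [mul_assoc]
        _ = (1 - e) * ((h - Kk) * (1 - e)) := by rw [sub_mul h Kk, h3, sub_zero]
        _ = _ := by rw [mul_assoc]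
    have hn : ‖y - y * e‖ * ‖y - y * e‖ ≤ ε := by
      rw [← CStarRing.norm_star_mul_self, hsq]
      calc ‖(1 - e) * (h - Kk) * (1 - e)‖ ≤ ‖(1 - e)‖ * ‖h - Kk‖ * ‖(1 - e)‖ :=
            (norm_mul_le _ _).trans (mul_le_mul_of_nonneg_right (norm_mul_le _ _) (norm_nonneg _))
        _ ≤ 1 * ε * 1 := by
            refine mul_le_mul (mul_le_mul h1e hdn (norm_nonneg _) zero_le_one) h1e
              (norm_nonneg _) (by positivity)
        _ = ε := by ring
    refine abs_le_of_sq_le_sq' ?_ ht.le |>.2
    rw [sq]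
    exact hn
  · intro q hq
    rw [← mul_assoc, ← mul_assoc, hq]
  · intro p hp hyp
    have h1 : h * p = h := by rw [hh, mul_assoc, hyp]
    have h2 : p * h = h := by
      have := congrArg star h1
      rwa [star_mul, R95.VN.proj_star hp, hsa.star_eq] at this
    have h3 : p * Kk = Kk := by rw [hKh, ← mul_assoc, h2]
    have h4 : p * e = e := R95.VN.rp_le h3
    have h5 : e * p = e := R95.VN.proj_flip hep hp h4
    rw [mul_assoc, h5]

end Crest.Agent.R121.TE
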