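import Crest.Agent.R121.TEDefs
import Crest.Agent.R95.SpecB

/-! Row 121, module T', file TE3b: from projections to positive elements.  `k = 0` is clear; otherwise apply
`R95.layer_cake` (Crest/Agent/R95/SpecB.lean) to `a = ‖k²‖⁻¹ k²` for every `n`: the spectral projections `r_j` lie below `e`
(`e a = a`; by the third clause, `‖r v‖²/n ≤ ⟪r v, a r v⟫`: for `v` with `e v = 0` and `T = e` (commutes with `a`, so `e r = r e`),
`r v` satisfies `e r v = 0`, `a r v = a e r v = 0`, so `r v = 0`).  `|‖k ξ‖² / ‖k²‖ - (1/n) ∑ ‖r_j ξ‖²| ≤ ‖ξ‖² / n`. -/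

set_option autoImplicit false
set_option linter.unusedSectionVars false

namespace Crest.Agent.R121.TE

open Crest.Agent.R121
open scoped InnerProductSpace

variable {H : Type*} [NormedAddCommGroup H] [InnerProductSpace ℂ H] [CompleteSpace H]

/-- TE3b -/
theorem ineq_of_proj {M : VonNeumannAlgebra H} {e : H →L[ℂ] H} (he : IsStarProjection e) (heM : e ∈ M)
    {ξ ζ : H} (h : ∀ r ∈ M, IsStarProjection r → e * r = r → ‖r ξ‖ ^ 2 ≤ 2 * ‖r ζ‖ ^ 2) :
    ∀ k ∈ M, star k = k → e * k = k → ‖k ξ‖ ^ 2 ≤ 2 * ‖k ζ‖ ^ 2 := by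
  intro k hk hks hek
  by_cases hk0 : k = 0
  · simp [hk0]
  have hke : k * e = k := by
    have h1 := congrArg star hek
    rw [star_mul, hks, he.isSelfAdjoint.star_eq] at h1
    exact h1
  have hnk : 0 < ‖k‖ := norm_pos_iff.2 hk0
  set c : ℝ := ‖k‖ ^ 2 with hc
  have hc0 : 0 < c := by positivity
  have hci : 0 < c⁻¹ := inv_pos.2 hc0
  set a : H →L[ℂ] H := ((c⁻¹ : ℝ) : ℂ) • (k * k) with ha
  have haM : a ∈ M := M.toStarSubalgebra.smul_mem (M.mul_mem' hk hk) _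
  have hform : ∀ v : H, (⟪v, a v⟫_ℂ).re = c⁻¹ * ‖k v‖ ^ 2 := by
    intro v
    have h1 : ⟪v, (k * k) v⟫_ℂ = ⟪k v, k v⟫_ℂ := by
      rw [mul_apply_eq_comp]
      conv_lhs => rw [← hks]
      rw [ContinuousLinearMap.star_eq_adjoint, ContinuousLinearMap.adjoint_inner_right,
        ← ContinuousLinearMap.star_eq_adjoint, hks]
    have h2 : a v = ((c⁻¹ : ℝ) : ℂ) • (k * k) v := rfl
    rw [h2, inner_smul_right, h1, inner_self_eq_norm_sq_to_K]
    rw [Complex.re_ofReal_mul]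
    norm_cast
  have has : IsSelfAdjoint a := by
    rw [isSelfAdjoint_iff, ha, star_smul, star_mul, hks]
    simp
  have h0 : ∀ v : H, 0 ≤ (⟪v, a v⟫_ℂ).re := fun v => by rw [hform]; positivity
  have h1 : ∀ v : H, (⟪v, a v⟫_ℂ).re ≤ ‖v‖ ^ 2 := by
    intro v
    rw [hform]
    have h2 : ‖k v‖ ^ 2 ≤ c * ‖v‖ ^ 2 := by
      rw [hc, ← mul_pow]
      exact pow_le_pow_left₀ (norm_nonneg _) (k.le_opNorm v) 2
    calc c⁻¹ * ‖k v‖ ^ 2 ≤ c⁻¹ * (c * ‖v‖ ^ 2) := mul_le_mul_of_nonneg_left h2 hci.le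
      _ = ‖v‖ ^ 2 := by field_simp
  have hea : e * a = a := by
    rw [ha, mul_smul_comm, ← mul_assoc, hek]
  have hae : a * e = a := by
    rw [ha, smul_mul_assoc, mul_assoc, hke]
  have key : ∀ n : ℕ, 1 ≤ n → c⁻¹ * ‖k ξ‖ ^ 2 ≤ 2 * (c⁻¹ * ‖k ζ‖ ^ 2) +
      (2 * ‖ζ‖ ^ 2 + ‖ξ‖ ^ 2) / n := by
    intro n hn
    have hn0 : (0 : ℝ) < n := by exact_mod_cast hn
    obtain ⟨f, hf1, hf2, hf3, hf4⟩ := Crest.Agent.R95.layer_cake M haM has h0 h1 n hn
    have hef : ∀ j, e * f j = f j := by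
      intro j
      have hcm : e * f j = f j * e := hf2 j e (by rw [hea, hae])
      have h5 : f j * (1 - e) = 0 := by
        ext v
        set v' : H := (1 - e) v with hv'
        have hev : e v' = 0 := by
          rw [hv', ← mul_apply_eq_comp, mul_sub, mul_one, he.isIdempotentElem.eq,
            sub_self]
          rfl
        have h6 : e (f j v') = 0 := by
          rw [← mul_apply_eq_comp, hcm, mul_apply_eq_comp, hev, map_zero]
        have h7 : a (f j v') = 0 := by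
          rw [← hae, mul_apply_eq_comp, h6, map_zero]
        have h8 := hf3 j v'
        rw [h7, inner_zero_right, Complex.zero_re] at h8
        have h9 : ‖f j v'‖ ^ 2 ≤ 0 := by
          have h10 : (0 : ℝ) < 1 / n := by positivity
          by_contra hcon
          push Not at hcon
          nlinarith [mul_pos h10 hcon]
        have h11 : f j v' = 0 := by
          have := le_antisymm h9 (sq_nonneg _)
          simpa using this
        exact h11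
      rw [hcm]
      have h12 : f j - f j * e = 0 := by
        rw [← h5, mul_sub, mul_one]
      exact (sub_eq_zero.1 h12).symm
    have hr : ∀ j, ‖f j ξ‖ ^ 2 ≤ 2 * ‖f j ζ‖ ^ 2 := fun j => h (f j) (hf1 j).1 (hf1 j).2 (hef j)
    have happ : ∀ v : H, |c⁻¹ * ‖k v‖ ^ 2 - (1 / n) * ∑ j, ‖f j v‖ ^ 2| ≤ ‖v‖ ^ 2 / n := by
      intro v
      have h5 : c⁻¹ * ‖k v‖ ^ 2 - (1 / n) * ∑ j, ‖f j v‖ ^ 2 =
          (⟪v, (a - (1 / n : ℂ) • ∑ k, f k) v⟫_ℂ).re := by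
        rw [sub_apply, inner_sub_right, Complex.sub_re, hform]
        congr 1
        have h6 : ((1 / n : ℂ) • ∑ k, f k) v = (1 / n : ℂ) • ∑ k, f k v := by
          rw [smul_apply, sum_apply]
        rw [h6, inner_smul_right, inner_sum]
        have h7 : ∀ j, ⟪v, f j v⟫_ℂ = ((‖f j v‖ ^ 2 : ℝ) : ℂ) := by
          intro j
          have h8 : f j v = f j (f j v) := by
            rw [← mul_apply_eq_comp, (hf1 j).2.isIdempotentElem.eq]
          conv_lhs => rw [h8]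
          have h9 : ⟪v, f j (f j v)⟫_ℂ = ⟪f j v, f j v⟫_ℂ := by
            conv_lhs => rw [← (hf1 j).2.isSelfAdjoint.star_eq]
            rw [ContinuousLinearMap.star_eq_adjoint, ContinuousLinearMap.adjoint_inner_right]
            rw [← ContinuousLinearMap.star_eq_adjoint, (hf1 j).2.isSelfAdjoint.star_eq]
          rw [h9, inner_self_eq_norm_sq_to_K]
          norm_cast
        simp only [h7]
        rw [← Complex.ofReal_sum]
        have h10 : (1 / (n : ℂ)) = ((1 / n : ℝ) : ℂ) := by push_cast; rfl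
        rw [h10, Complex.re_ofReal_mul, Complex.ofReal_re]
      rw [h5]
      calc |(⟪v, (a - (1 / n : ℂ) • ∑ k, f k) v⟫_ℂ).re|
          ≤ ‖⟪v, (a - (1 / n : ℂ) • ∑ k, f k) v⟫_ℂ‖ := Complex.abs_re_le_norm _
        _ ≤ ‖v‖ * ‖(a - (1 / n : ℂ) • ∑ k, f k) v‖ := norm_inner_le_norm _ _
        _ ≤ ‖v‖ * (1 / n * ‖v‖) := by
            refine mul_le_mul_of_nonneg_left ?_ (norm_nonneg _)
            exact ((a - (1 / n : ℂ) • ∑ k, f k).le_opNorm v).trans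
              (mul_le_mul_of_nonneg_right hf4 (norm_nonneg _))
        _ = ‖v‖ ^ 2 / n := by ring
    have h5 := (abs_le.1 (happ ξ)).2
    have h6 := (abs_le.1 (happ ζ)).1
    have h7 : (1 / n : ℝ) * ∑ j, ‖f j ξ‖ ^ 2 ≤ 2 * ((1 / n) * ∑ j, ‖f j ζ‖ ^ 2) := by
      have h8 : ∑ j, ‖f j ξ‖ ^ 2 ≤ 2 * ∑ j, ‖f j ζ‖ ^ 2 := by
        rw [Finset.mul_sum]
        exact Finset.sum_le_sum fun j _ => hr j
      have h9 : (0 : ℝ) ≤ 1 / n := by positivity
      nlinarith [mul_le_mul_of_nonneg_left h8 h9]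
    have h8 : (2 * ‖ζ‖ ^ 2 + ‖ξ‖ ^ 2) / n = 2 * (‖ζ‖ ^ 2 / n) + ‖ξ‖ ^ 2 / n := by ring
    rw [h8]
    linarith
  by_contra hcon
  push Not at hcon
  set δ : ℝ := c⁻¹ * (‖k ξ‖ ^ 2 - 2 * ‖k ζ‖ ^ 2) with hδ
  have hδ0 : 0 < δ := mul_pos hci (by linarith)
  obtain ⟨n, hn⟩ := exists_nat_gt ((2 * ‖ζ‖ ^ 2 + ‖ξ‖ ^ 2) / δ)
  have hn1 : (0 : ℝ) ≤ (2 * ‖ζ‖ ^ 2 + ‖ξ‖ ^ 2) / δ := by positivity
  have hn0 : (0 : ℝ) < n := lt_of_le_of_lt hn1 hn
  have hn2 : 1 ≤ n := by exact_mod_cast hn0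
  have h2 := key n hn2
  rw [div_lt_iff₀ hδ0] at hn
  have h3 : (2 * ‖ζ‖ ^ 2 + ‖ξ‖ ^ 2) / n < δ := by
    rw [div_lt_iff₀ hn0]; linarith
  have h4 : δ = c⁻¹ * ‖k ξ‖ ^ 2 - 2 * (c⁻¹ * ‖k ζ‖ ^ 2) := by rw [hδ]; ring
  linarith

end Crest.Agent.R121.TE
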