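import Crest.Agent.R121.TE0
import Crest.Agent.R121.TE1
import Crest.Agent.R121.TE2
import Crest.Agent.R121.TE3

/-! Row 121, module T', file TE4: the local inequality.  `ξ`, `e₀` from `exists_ray`, `w` from `exists_max_pi` for `e₀`, `ξ`;
`u` from `compl_equiv`, `e = e₀ - w⋆w = u⋆u`, `ξ' = u⋆ξ`.  `e ≠ 0`: otherwise `ww⋆ = e₀` too (finiteness, `fin_sub`), so
`2 ‖ξ‖² ≤ ‖ξ‖²`.  For `x = e x e`: `y = u x` satisfies `(e₀ - ww⋆) y = y`, `y e = y`, `‖y ξ‖ = ‖x ξ‖`, `y⋆ξ = x⋆u⋆ξ`:
`ineq_of_pi`. -/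

set_option autoImplicit false
set_option linter.unusedSectionVars false

namespace Crest.Agent.R121.TE

open Crest.Agent.R121

variable {H : Type*} [NormedAddCommGroup H] [InnerProductSpace ℂ H] [CompleteSpace H]

private theorem norm_sq_of_star {A B : H →L[ℂ] H} (h : star A * A = star B * B) (ξ : H) :
    ‖A ξ‖ ^ 2 = ‖B ξ‖ ^ 2 := by
  have key : ∀ C : H →L[ℂ] H, ((‖C ξ‖ ^ 2 : ℝ) : ℂ) = inner ℂ ((star C * C) ξ) ξ := by
    intro C
    have : (star C * C) ξ = (star C) (C ξ) := rfl
    rw [this, ContinuousLinearMap.star_eq_adjoint, ContinuousLinearMap.adjoint_inner_left,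
      inner_self_eq_norm_sq_to_K]
    push_cast
    rfl
  have := key A
  rw [h, ← key B] at this
  exact_mod_cast this

private theorem proj_sub_pi {e v : H →L[ℂ] H} (he : IsStarProjection e) (hv : v * star v * v = v)
    (h1 : e * v = v) : IsStarProjection (e - v * star v) := by
  have hsa : star e = e := he.isSelfAdjoint
  have h2 : star v * e = star v := by
    have := congrArg star h1
    rwa [star_mul, hsa] at this
  have hee : e * e = e := he.isIdempotentElem
  constructor
  · show (e - v * star v) * (e - v * star v) = e - v * star v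
    rw [sub_mul, mul_sub, mul_sub, hee, ← mul_assoc, h1, mul_assoc v (star v) e, h2,
      ← mul_assoc, hv]
    abel
  · show star (e - v * star v) = e - v * star v
    rw [star_sub, star_mul, star_star, hsa]

/-- TE4 -/
theorem exists_local {M : VonNeumannAlgebra H} {f : H →L[ℂ] H} (hf : CProj M f) (hf0 : f ≠ 0)
    (hfin : ∀ v ∈ M, star v * v = f → v * star v = f) :
    ∃ (ξ ξ' : H) (e : H →L[ℂ] H), IsStarProjection e ∧ e ∈ M ∧ f * e = e ∧ e ≠ 0 ∧
      (∀ η : H, e η = η → ∀ ε : ℝ, 0 < ε → ∃ m ∈ M.commutant, ‖η - m ξ‖ ≤ ε) ∧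
      ∀ x ∈ M, e * x = x → x * e = x → ‖x ξ‖ ^ 2 ≤ 2 * ‖star x ξ'‖ ^ 2 := by
  obtain ⟨ξ, e₀, hξ1, ray, hfe⟩ := exists_ray M hf hf0
  have hF : FinP M e₀ := fin_sub hf hfin ray.proj ray.mem hfe
  obtain ⟨w, hwM, hw, hew, hwe, hwin, hmax⟩ := exists_max_pi M ray.proj ray.mem ξ
  obtain ⟨u, huM, hu1, hu2⟩ := compl_equiv ray.proj ray.mem hF hwM hw hew hwe
  have hsa : star e₀ = e₀ := ray.proj.isSelfAdjoint
  have hsw : star w ∈ M := star_mem hwM
  have hws : star w * star (star w) * star w = star w := by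
    have := congrArg star hw
    rw [star_mul, star_mul, star_star] at this
    rw [star_star, mul_assoc]
    exact this
  have hews : e₀ * star w = star w := by
    have := congrArg star hwe
    rwa [star_mul, hsa] at this
  have hp : IsStarProjection (e₀ - star w * w) := by
    have := proj_sub_pi ray.proj hws hews
    rwa [star_star] at this
  have hq : IsStarProjection (e₀ - w * star w) := proj_sub_pi ray.proj hw hew
  have hpM : e₀ - star w * w ∈ M := sub_mem ray.mem (mul_mem hsw hwM)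
  have hqM : e₀ - w * star w ∈ M := sub_mem ray.mem (mul_mem hwM hsw)
  have hee : e₀ * e₀ = e₀ := ray.proj.isIdempotentElem
  have h0e : e₀ * (e₀ - star w * w) = e₀ - star w * w := by
    rw [mul_sub, hee, ← mul_assoc, hews]
  refine ⟨ξ, star u ξ, e₀ - star w * w, hp, hpM, ?_, ?_, ?_, ?_⟩
  · rw [mul_sub, hfe]
    congr 1
    rw [← hews, ← mul_assoc, ← mul_assoc, hfe]
  · intro h0
    have h1 : star w * w = e₀ := (sub_eq_zero.1 h0).symm
    have h2 : w * star w = e₀ := hF w hwM hew h1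
    have hself : star e₀ * e₀ = e₀ := by rw [hsa, hee]
    have h3 : ‖w ξ‖ ^ 2 = ‖e₀ ξ‖ ^ 2 := norm_sq_of_star (by rw [h1, hself]) ξ
    have h4 : ‖star w ξ‖ ^ 2 = ‖e₀ ξ‖ ^ 2 := norm_sq_of_star (by rw [star_star, h2, hself]) ξ
    rw [h3, h4, ray.fix, hξ1] at hwin
    norm_num at hwin
  · intro η hη ε hε
    refine ray.dense η ?_ ε hε
    have h1 : (e₀ * (e₀ - star w * w)) η = (e₀ - star w * w) η := by rw [h0e]
    have h2 : (e₀ * (e₀ - star w * w)) η = e₀ ((e₀ - star w * w) η) := rfl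
    rw [h2, hη] at h1
    exact h1
  · intro x hxM hx1 hx2
    have hpp : (e₀ - star w * w) * (e₀ - star w * w) = e₀ - star w * w := hp.isIdempotentElem
    have huu : u * star u * u = u := by
      apply Crest.Agent.R95.VN.pi_of_left
      rw [hu1, hpp]
    have h1 : (e₀ - w * star w) * (u * x) = u * x := by
      rw [← hu2, ← mul_assoc, huu]
    have h2 : (u * x) * (e₀ - star w * w) = u * x := by
      rw [mul_assoc, hx2]
    have h3 := ineq_of_pi hp hpM hq hqM hmax (u * x) (mul_mem huM hxM) h1 h2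
    have h4 : ‖(u * x) ξ‖ ^ 2 = ‖x ξ‖ ^ 2 := by
      apply norm_sq_of_star
      rw [star_mul, mul_assoc, ← mul_assoc (star u), hu1, hx1]
    have h5 : star (u * x) ξ = star x (star u ξ) := by
      rw [star_mul]
      rfl
    rw [h4, h5] at h3
    exact h3

end Crest.Agent.R121.TE
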