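import Crest.Agent.R121.RED1
import Crest.Agent.R124.I3
import Crest.Agent.R95.VNa

/-! Row 121, module T' (helper32's proof), part E4 + the density part of E6 (helper63):
the trace of the corner `e M e` from the quasi-trace inequality `‖x ξ‖² ≤ K ‖x⋆ ξ‖²`. -/

set_option autoImplicit false
set_option linter.unusedSectionVars false
set_option linter.deprecated false

namespace Crest.Agent.R121

open scoped InnerProductSpace ComplexOrder
open Filter Topology Crest.Agent.R95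

universe u
variable {H : Type u} [NormedAddCommGroup H] [InnerProductSpace ℂ H] [CompleteSpace H]

/-- a linear functional bounded by `C ‖L x‖` is `⟪ζ, L x⟫` -/
theorem exists_riesz {E : Type*} [AddCommGroup E] [Module ℂ E] (f : E →ₗ[ℂ] ℂ) (L : E →ₗ[ℂ] H)
    {C : ℝ} (h : ∀ x, ‖f x‖ ≤ C * ‖L x‖) : ∃ ζ : H, ∀ x, f x = ⟪ζ, L x⟫_ℂ := by
  obtain ⟨g', hg', -⟩ := exists_extension_norm_eq (LinearMap.range L) (f.compLeftInverse L)
  refine ⟨(InnerProductSpace.toDual ℂ H).symm g', fun x => ?_⟩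
  rw [InnerProductSpace.toDual_symm_apply]
  have h1 := hg' ⟨L x, ⟨x, rfl⟩⟩
  rw [LinearMap.compLeftInverse_apply_of_bdd f L ⟨C, h⟩ x (L x) rfl] at h1
  exact h1.symm

/-- the corner `e M e` as a star subalgebra of `B(e H)` -/
noncomputable def cornerS (M : VonNeumannAlgebra H) {e : H →L[ℂ] H} (he : IsStarProjection e)
    (heM : e ∈ M) : StarSubalgebra ℂ (RK e →L[ℂ] RK e) where
  carrier := {T | upL e T ∈ M}
  mul_mem' {S T} hS hT := by
    simp only [Set.mem_setOf_eq] at *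
    rw [upL_mul]
    exact mul_mem hS hT
  one_mem' := by
    simp only [Set.mem_setOf_eq]
    rw [upL_one he]
    exact heM
  add_mem' {S T} hS hT := by
    simp only [Set.mem_setOf_eq] at *
    rw [upL_add]
    exact add_mem hS hT
  zero_mem' := by
    simp only [Set.mem_setOf_eq]
    have : upL e 0 = 0 := by
      ext1 x
      simp [upL_apply]
    rw [this]
    exact zero_mem M
  algebraMap_mem' r := by
    simp only [Set.mem_setOf_eq]
    rw [Algebra.algebraMap_eq_smul_one, upL_smul, upL_one he]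
    exact M.toStarSubalgebra.smul_mem heM r
  star_mem' {T} hT := by
    simp only [Set.mem_setOf_eq] at *
    rw [upL_star]
    exact star_mem hT

theorem cornerS_closed (M : VonNeumannAlgebra H) {e : H →L[ℂ] H} (he : IsStarProjection e)
    (heM : e ∈ M) : IsClosed ((cornerS M he heM : StarSubalgebra ℂ (RK e →L[ℂ] RK e)) :
      Set (RK e →L[ℂ] RK e)) := by
  have hc : Continuous (upL e) := by
    show Continuous fun T : RK e →L[ℂ] RK e => inc e ∘L T ∘L pr e
    exact continuous_const.clm_comp (continuous_id.clm_comp continuous_const)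
  exact (vn_isClosed M).preimage hc

/-- the corner as a C⋆-algebra -/
def EA (M : VonNeumannAlgebra H) {e : H →L[ℂ] H} (he : IsStarProjection e) (heM : e ∈ M) :
    Type u := cornerS M he heM

noncomputable instance (M : VonNeumannAlgebra H) {e : H →L[ℂ] H} (he : IsStarProjection e)
    (heM : e ∈ M) : CStarAlgebra (EA M he heM) :=
  haveI := cornerS_closed M he heM
  inferInstanceAs (CStarAlgebra (cornerS M he heM))

noncomputable instance (M : VonNeumannAlgebra H) {e : H →L[ℂ] H} (he : IsStarProjection e)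
    (heM : e ∈ M) : PartialOrder (EA M he heM) :=
  CStarAlgebra.spectralOrder _

instance (M : VonNeumannAlgebra H) {e : H →L[ℂ] H} (he : IsStarProjection e)
    (heM : e ∈ M) : StarOrderedRing (EA M he heM) :=
  CStarAlgebra.spectralOrderedRing _

section
variable {M : VonNeumannAlgebra H} {e : H →L[ℂ] H} {he : IsStarProjection e} {heM : e ∈ M}

/-- the inclusion -/
noncomputable def EA.val : EA M he heM →⋆ₐ[ℂ] (RK e →L[ℂ] RK e) := (cornerS M he heM).subtype

theorem EA.up_mem (x : EA M he heM) : upL e (EA.val x) ∈ M := x.2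

theorem EA.val_inj {a b : EA M he heM} (h : EA.val a = EA.val b) : a = b := Subtype.ext h

theorem dnL_mem_corner (he : IsStarProjection e) (heM : e ∈ M) {x : H →L[ℂ] H} (hx : x ∈ M) :
    upL e (dnL e x) ∈ M := by
  rw [upL_dnL he]
  exact mul_mem (mul_mem heM hx) heM

/-- compression of an element of `M` -/
noncomputable def EA.mk (he : IsStarProjection e) (heM : e ∈ M) (x : H →L[ℂ] H) (hx : x ∈ M) :
    EA M he heM := ⟨dnL e x, dnL_mem_corner he heM hx⟩

theorem EA.val_mk (x : H →L[ℂ] H) (hx : x ∈ M) : EA.val (EA.mk he heM x hx) = dnL e x := rfl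

theorem EA.mk_nonneg (a : H →L[ℂ] H) (h : star a * a ∈ M) :
    0 ≤ EA.mk he heM (star a * a) h := by
  have hsa : IsSelfAdjoint (EA.mk he heM (star a * a) h) := by
    apply EA.val_inj
    rw [map_star, EA.val_mk, ← dnL_star]
    congr 1
    simp
  have hpos : (0 : RK e →L[ℂ] RK e) ≤ dnL e (star a * a) := by
    rw [ContinuousLinearMap.nonneg_iff_isPositive, ContinuousLinearMap.isPositive_iff_complex]
    intro x
    have h1 : ⟪dnL e (star a * a) x, x⟫_ℂ = ((‖a (inc e x)‖ ^ 2 : ℝ) : ℂ) := by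
      rw [dnL_apply, pr, ContinuousLinearMap.adjoint_inner_left, ContinuousLinearMap.mul_apply,
        ContinuousLinearMap.star_eq_adjoint, ContinuousLinearMap.adjoint_inner_left]
      rw [inner_self_eq_norm_sq_to_K]
      norm_cast
    rw [h1]
    constructor
    · exact congrArg _ (Complex.ofReal_re _)
    · exact (Complex.ofReal_re (‖a (inc e x)‖ ^ 2)).symm ▸ sq_nonneg _
  rw [StarOrderedRing.nonneg_iff_spectrum_nonneg (R := ℝ) _ hsa]
  intro r hr
  have hcl := cornerS_closed M he heM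
  have h2 : (r : ℂ) ∈ spectrum ℂ (EA.mk he heM (star a * a) h) := by
    rw [← spectrum.preimage_algebraMap ℂ] at hr
    exact hr
  have h3 : (r : ℂ) ∈ spectrum ℂ (dnL e (star a * a)) := by
    have h4 := @StarSubalgebra.spectrum_eq (RK e →L[ℂ] RK e) _ (cornerS M he heM) hcl
      (EA.mk he heM (star a * a) h)
    exact h4 ▸ h2
  have h5 : r ∈ spectrum ℝ (dnL e (star a * a)) := by
    rw [← spectrum.preimage_algebraMap ℂ]
    exact h3
  exact spectrum_nonneg_of_nonneg hpos h5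

/-- the vector functional of `ξ` -/
noncomputable def EA.psi (ξ₀ : RK e) : EA M he heM →ₚ[ℂ] ℂ :=
  PositiveLinearMap.mk₀
    { toFun := fun a => ⟪ξ₀, EA.val a ξ₀⟫_ℂ
      map_add' := fun a b => by
        rw [map_add, ContinuousLinearMap.add_apply, inner_add_right]
      map_smul' := fun c a => by
        rw [map_smul, ContinuousLinearMap.smul_apply, inner_smul_right, RingHom.id_apply,
          smul_eq_mul] }
    (by
      intro a ha
      obtain ⟨b, rfl⟩ := CStarAlgebra.nonneg_iff_eq_star_mul_self.1 ha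
      change 0 ≤ ⟪ξ₀, EA.val (star b * b) ξ₀⟫_ℂ
      rw [map_mul, map_star, ContinuousLinearMap.mul_apply, ContinuousLinearMap.star_eq_adjoint,
        ContinuousLinearMap.adjoint_inner_right, inner_self_eq_norm_sq_to_K]
      have h := Complex.zero_le_real.2 (sq_nonneg ‖EA.val b ξ₀‖)
      rwa [Complex.ofReal_pow] at h)

theorem EA.psi_sq (ξ₀ : RK e) (b : EA M he heM) :
    EA.psi ξ₀ (star b * b) = ((‖EA.val b ξ₀‖ ^ 2 : ℝ) : ℂ) := by
  change ⟪ξ₀, EA.val (star b * b) ξ₀⟫_ℂ = _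
  rw [map_mul, map_star, ContinuousLinearMap.mul_apply, ContinuousLinearMap.star_eq_adjoint,
    ContinuousLinearMap.adjoint_inner_right, inner_self_eq_norm_sq_to_K]
  norm_cast

end

theorem pos_cs' {A : Type u} [CStarAlgebra A] [PartialOrder A] [StarOrderedRing A]
    (g : A →ₚ[ℂ] ℂ) (a : A) :
    ‖g a‖ ^ 2 ≤ (g 1).re * (g (star a * a)).re := by
  have h1 := norm_inner_le_norm (𝕜 := ℂ) (g.toPreGNS (1 : A)) (g.toPreGNS a)
  rw [PositiveLinearMap.preGNS_inner_def, PositiveLinearMap.ofPreGNS_toPreGNS,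
    PositiveLinearMap.ofPreGNS_toPreGNS, star_one, one_mul] at h1
  have h2 : ‖g.toPreGNS (1 : A)‖ ^ 2 = (g 1).re := by
    have := PositiveLinearMap.preGNS_norm_sq g (g.toPreGNS (1 : A))
    rw [PositiveLinearMap.ofPreGNS_toPreGNS, star_one, one_mul] at this
    rw [← this, ← Complex.ofReal_pow, Complex.ofReal_re]
  have h3 : ‖g.toPreGNS a‖ ^ 2 = (g (star a * a)).re := by
    have := PositiveLinearMap.preGNS_norm_sq g (g.toPreGNS a)
    rw [PositiveLinearMap.ofPreGNS_toPreGNS] at this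
    rw [← this, ← Complex.ofReal_pow, Complex.ofReal_re]
  calc ‖g a‖ ^ 2 ≤ (‖g.toPreGNS (1 : A)‖ * ‖g.toPreGNS a‖) ^ 2 :=
        pow_le_pow_left₀ (norm_nonneg _) h1 2
    _ = (g 1).re * (g (star a * a)).re := by rw [mul_pow, h2, h3]

set_option maxHeartbeats 1600000 in
/-- **E4**: the trace on the corner -/
theorem exists_corner_trace {M : VonNeumannAlgebra H} {e : H →L[ℂ] H} (he : IsStarProjection e)
    (heM : e ∈ M) {ξ : H} (heξ : e ξ = ξ) {K : ℝ} (hK : 0 < K)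
    (hden : ∀ (ζ : H) (ε : ℝ), 0 < ε → ∃ m ∈ M.commutant, ‖e ζ - m ξ‖ < ε)
    (hvec : ∀ x ∈ M, e * x = x → x * e = x → ‖x ξ‖ ^ 2 ≤ K * ‖star x ξ‖ ^ 2) :
    ∃ t : M.toStarSubalgebra →L[ℂ] ℂ,
      (∀ a b : M.toStarSubalgebra, (b : H →L[ℂ] H) = e * (a : H →L[ℂ] H) * e → t b = t a) ∧
      (∀ a b : M.toStarSubalgebra, e * (a : H →L[ℂ] H) * e = a → e * (b : H →L[ℂ] H) * e = b →
        t (a * b) = t (b * a)) ∧
      (∀ a : M.toStarSubalgebra, 0 ≤ t (star a * a)) ∧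
      (∀ (ζ : H) (ε : ℝ), 0 < ε → ∃ δ : ℝ, 0 < δ ∧ ∀ a : M.toStarSubalgebra, ‖a‖ ≤ 1 →
        (t (star a * a)).re ≤ δ → ‖(a : H →L[ℂ] H) (e ζ)‖ ≤ ε) ∧
      (∃ ζ₀ : H, ∀ a : M.toStarSubalgebra, t a = ⟪ζ₀, (a : H →L[ℂ] H) ξ⟫_ℂ) := by
  classical
  set ξ₀ : RK e := pr e ξ with hξ₀
  have hinc : inc e ξ₀ = ξ := by rw [hξ₀, inc_pr_apply he, heξ]
  -- norms
  have hup : ∀ x : EA M he heM, ‖upL e (EA.val x) ξ‖ = ‖EA.val x ξ₀‖ := by
    intro x
    rw [upL_apply]
    rfl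
  have hv : ∀ x : EA M he heM, ‖EA.val x ξ₀‖ ^ 2 ≤ K * ‖EA.val (star x) ξ₀‖ ^ 2 := by
    intro x
    have h1 := hvec (upL e (EA.val x)) (EA.up_mem x) ?_ ?_
    · rw [hup] at h1
      have h2 : star (upL e (EA.val x)) = upL e (EA.val (star x)) := by
        rw [map_star, upL_star]
      rwa [h2, hup] at h1
    · have h3 : upL e 1 * upL e (EA.val x) = upL e (EA.val x) := by rw [← upL_mul, one_mul]
      rwa [upL_one he] at h3
    · have h3 : upL e (EA.val x) * upL e 1 = upL e (EA.val x) := by rw [← upL_mul, mul_one]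
      rwa [upL_one he] at h3
  obtain ⟨k, b, τ, hb, htr, hlim⟩ := R124.I.exists_min_trace (EA.psi (he := he) (heM := heM) ξ₀)
  -- the column sums
  have hcol : ∀ n (x : EA M he heM), ∑ l, ‖EA.val (b n l * x) ξ₀‖ ^ 2 = ‖EA.val x ξ₀‖ ^ 2 := by
    intro n x
    have h1 : ∑ l, star (b n l) * b n l = 1 := hb n
    have h2 : ∀ l, ((‖EA.val (b n l * x) ξ₀‖ ^ 2 : ℝ) : ℂ)
        = ⟪EA.val x ξ₀, EA.val (star (b n l) * b n l) (EA.val x ξ₀)⟫_ℂ := by
      intro l
      rw [map_mul, map_mul, map_star, ContinuousLinearMap.mul_apply,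
        ContinuousLinearMap.mul_apply, ContinuousLinearMap.star_eq_adjoint,
        ContinuousLinearMap.adjoint_inner_right, inner_self_eq_norm_sq_to_K]
      norm_cast
    have h3 : ((∑ l, ‖EA.val (b n l * x) ξ₀‖ ^ 2 : ℝ) : ℂ) = ((‖EA.val x ξ₀‖ ^ 2 : ℝ) : ℂ) := by
      rw [Complex.ofReal_sum, Finset.sum_congr rfl fun l _ => h2 l, ← inner_sum,
        ← ContinuousLinearMap.sum_apply, ← map_sum, h1, map_one, ContinuousLinearMap.one_apply,
        inner_self_eq_norm_sq_to_K]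
      norm_cast
    exact_mod_cast h3
  have hpsiB : ∀ n (x : EA M he heM), (R124.I.psiB (EA.psi ξ₀) (b n) (star x * x)).re
      = ∑ l, ‖EA.val (x * star (b n l)) ξ₀‖ ^ 2 := by
    intro n x
    rw [R124.I.psiB_apply, Complex.re_sum]
    refine Finset.sum_congr rfl fun l _ => ?_
    have : b n l * (star x * x) * star (b n l) = star (x * star (b n l)) * (x * star (b n l)) := by
      rw [star_mul, star_star]; simp only [mul_assoc]
    rw [this, EA.psi_sq, Complex.ofReal_re]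
  have hstar : ∀ n l (x : EA M he heM), star (x * star (b n l)) = b n l * star x := by
    intro n l x
    rw [star_mul, star_star]
  have hup1 : ∀ n (x : EA M he heM), (R124.I.psiB (EA.psi ξ₀) (b n) (star x * x)).re
      ≤ K ^ 2 * ‖EA.val x ξ₀‖ ^ 2 := by
    intro n x
    rw [hpsiB]
    calc ∑ l, ‖EA.val (x * star (b n l)) ξ₀‖ ^ 2
        ≤ ∑ l, K * ‖EA.val (b n l * star x) ξ₀‖ ^ 2 := by
          refine Finset.sum_le_sum fun l _ => ?_
          have := hv (x * star (b n l))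
          rwa [hstar] at this
      _ = K * ‖EA.val (star x) ξ₀‖ ^ 2 := by rw [← Finset.mul_sum, hcol]
      _ ≤ K * (K * ‖EA.val x ξ₀‖ ^ 2) := by
          have := hv (star x)
          rw [star_star] at this
          exact mul_le_mul_of_nonneg_left this hK.le
      _ = K ^ 2 * ‖EA.val x ξ₀‖ ^ 2 := by ring
  have hlow1 : ∀ n (x : EA M he heM), ‖EA.val x ξ₀‖ ^ 2
      ≤ K ^ 2 * (R124.I.psiB (EA.psi ξ₀) (b n) (star x * x)).re := by
    intro n x
    rw [hpsiB]
    calc ‖EA.val x ξ₀‖ ^ 2 ≤ K * ‖EA.val (star x) ξ₀‖ ^ 2 := hv x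
      _ = K * ∑ l, ‖EA.val (b n l * star x) ξ₀‖ ^ 2 := by rw [hcol]
      _ ≤ K * ∑ l, K * ‖EA.val (x * star (b n l)) ξ₀‖ ^ 2 := by
          refine mul_le_mul_of_nonneg_left (Finset.sum_le_sum fun l _ => ?_) hK.le
          have := hv (b n l * star x)
          rwa [← hstar n l x, star_star, hstar] at this
      _ = K ^ 2 * ∑ l, ‖EA.val (x * star (b n l)) ξ₀‖ ^ 2 := by rw [← Finset.mul_sum]; ring
  have hlimre : ∀ x : EA M he heM, Tendsto
      (fun n => (R124.I.psiB (EA.psi ξ₀) (b n) (star x * x)).re) (hyperfilter ℕ)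
      (𝓝 (τ (star x * x)).re) := fun x =>
    (Complex.continuous_re.tendsto _).comp (hlim (star x * x))
  have hup2 : ∀ x : EA M he heM, (τ (star x * x)).re ≤ K ^ 2 * ‖EA.val x ξ₀‖ ^ 2 := fun x =>
    le_of_tendsto' (hlimre x) fun n => hup1 n x
  have hlow2 : ∀ x : EA M he heM, ‖EA.val x ξ₀‖ ^ 2 ≤ K ^ 2 * (τ (star x * x)).re := fun x =>
    ge_of_tendsto' ((hlimre x).const_mul (K ^ 2)) fun n => hlow1 n x
  -- the linear maps
  let D : M.toStarSubalgebra →ₗ[ℂ] EA M he heM :=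
    { toFun := fun a => EA.mk he heM (a : H →L[ℂ] H) a.2
      map_add' := fun a b => EA.val_inj (by
        rw [map_add, EA.val_mk, EA.val_mk, EA.val_mk]
        exact dnL_add e _ _)
      map_smul' := fun c a => EA.val_inj (by
        rw [map_smul, EA.val_mk, EA.val_mk]
        exact dnL_smul e _ _) }
  have hDval : ∀ a : M.toStarSubalgebra, EA.val (D a) = dnL e (a : H →L[ℂ] H) := fun a => rfl
  have hD1 : D 1 = 1 := EA.val_inj (by rw [hDval, map_one]; exact dnL_one e)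
  let f : M.toStarSubalgebra →ₗ[ℂ] ℂ := τ.toLinearMap ∘ₗ D
  let L : M.toStarSubalgebra →ₗ[ℂ] H :=
    { toFun := fun a => (a : H →L[ℂ] H) ξ
      map_add' := fun a b => rfl
      map_smul' := fun c a => rfl }
  have hDle : ∀ a : M.toStarSubalgebra, ‖EA.val (D a) ξ₀‖ ≤ ‖(a : H →L[ℂ] H) ξ‖ := by
    intro a
    rw [hDval, dnL_apply, hinc]
    calc ‖pr e ((a : H →L[ℂ] H) ξ)‖ ≤ ‖pr e‖ * ‖(a : H →L[ℂ] H) ξ‖ :=
          ContinuousLinearMap.le_opNorm _ _
      _ ≤ 1 * ‖(a : H →L[ℂ] H) ξ‖ := by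
          exact mul_le_mul_of_nonneg_right (norm_pr_le e) (norm_nonneg _)
      _ = _ := one_mul _
  have hτ1 : 0 ≤ (τ 1).re := R124.pos_re_nonneg τ zero_le_one
  have hbd : ∀ a : M.toStarSubalgebra, ‖f a‖ ≤ (Real.sqrt (τ 1).re * K) * ‖L a‖ := by
    intro a
    have h1 := pos_cs' τ (D a)
    have h2 := hup2 (D a)
    have h3 := hDle a
    have h4 : ‖f a‖ ^ 2 ≤ ((Real.sqrt (τ 1).re * K) * ‖L a‖) ^ 2 := by
      calc ‖f a‖ ^ 2 ≤ (τ 1).re * (τ (star (D a) * D a)).re := h1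
        _ ≤ (τ 1).re * (K ^ 2 * ‖EA.val (D a) ξ₀‖ ^ 2) := mul_le_mul_of_nonneg_left h2 hτ1
        _ ≤ (τ 1).re * (K ^ 2 * ‖L a‖ ^ 2) := by
            have h5 : ‖EA.val (D a) ξ₀‖ ^ 2 ≤ ‖L a‖ ^ 2 :=
              pow_le_pow_left₀ (norm_nonneg _) h3 2
            gcongr
        _ = ((Real.sqrt (τ 1).re * K) * ‖L a‖) ^ 2 := by
            rw [mul_pow, mul_pow, Real.sq_sqrt hτ1]; ring
    exact le_of_sq_le_sq h4 (by positivity)
  obtain ⟨ζ₀, hζ₀⟩ := exists_riesz f L hbd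
  let t : M.toStarSubalgebra →L[ℂ] ℂ := LinearMap.mkContinuous f
    ((Real.sqrt (τ 1).re * K) * ‖ξ‖) (fun a => by
      calc ‖f a‖ ≤ (Real.sqrt (τ 1).re * K) * ‖L a‖ := hbd a
        _ ≤ (Real.sqrt (τ 1).re * K) * (‖a‖ * ‖ξ‖) := by
            refine mul_le_mul_of_nonneg_left ?_ (by positivity)
            exact ContinuousLinearMap.le_opNorm (a : H →L[ℂ] H) ξ
        _ = _ := by ring)
  have ht : ∀ a, t a = τ (D a) := fun a => rfl
  -- positivity of `D (a⋆ a)`
  have hpos : ∀ a : M.toStarSubalgebra, 0 ≤ D (star a * a) := fun a =>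
    EA.mk_nonneg (a : H →L[ℂ] H) (star a * a : M.toStarSubalgebra).2
  have hDcor : ∀ a b : M.toStarSubalgebra, (b : H →L[ℂ] H) = e * (a : H →L[ℂ] H) * e →
      D b = D a := by
    intro a b hab
    apply EA.val_inj
    rw [hDval, hDval, hab, ← upL_dnL he, dnL_upL]
  have hDmul : ∀ a b : M.toStarSubalgebra, e * (a : H →L[ℂ] H) * e = a →
      e * (b : H →L[ℂ] H) * e = b → D (a * b) = D a * D b := by
    intro a b ha hb'
    apply EA.val_inj
    have h1 : EA.val (D a * D b) = dnL e (a : H →L[ℂ] H) * dnL e (b : H →L[ℂ] H) :=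
      map_mul EA.val (D a) (D b)
    rw [h1]
    show dnL e ((a : H →L[ℂ] H) * (b : H →L[ℂ] H)) = _
    have h2 : upL e (dnL e (a : H →L[ℂ] H)) = a := by rw [upL_dnL he, ha]
    have h3 : upL e (dnL e (b : H →L[ℂ] H)) = b := by rw [upL_dnL he, hb']
    calc dnL e ((a : H →L[ℂ] H) * (b : H →L[ℂ] H))
        = dnL e (upL e (dnL e (a : H →L[ℂ] H)) * upL e (dnL e (b : H →L[ℂ] H))) := by
          rw [h2, h3]
      _ = dnL e (a : H →L[ℂ] H) * dnL e (b : H →L[ℂ] H) := by rw [← upL_mul, dnL_upL]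
  refine ⟨t, ?_, ?_, ?_, ?_, ζ₀, fun a => ?_⟩
  · intro a b hab
    rw [ht, ht, hDcor a b hab]
  · intro a b ha hb'
    rw [ht, ht, hDmul a b ha hb', hDmul b a hb' ha, htr.mul_comm]
  · intro a
    rw [ht]
    exact τ.map_nonneg (hpos a)
  · intro ζ ε hε
    obtain ⟨m, hm, hmε⟩ := hden ζ (ε / 2) (by positivity)
    refine ⟨(ε / (2 * (‖m‖ + 1) * K)) ^ 2, by positivity, fun a ha hδ => ?_⟩
    obtain ⟨x, hx⟩ := CStarAlgebra.nonneg_iff_eq_star_mul_self.1 (hpos a)
    have h1 : ‖(a : H →L[ℂ] H) ξ‖ ^ 2 = ‖EA.val x ξ₀‖ ^ 2 := by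
      have h2 : EA.psi ξ₀ (D (star a * a)) = EA.psi ξ₀ (star x * x) := by rw [hx]
      rw [EA.psi_sq] at h2
      have h3 : EA.psi ξ₀ (D (star a * a)) = ((‖(a : H →L[ℂ] H) ξ‖ ^ 2 : ℝ) : ℂ) := by
        change ⟪ξ₀, EA.val (D (star a * a)) ξ₀⟫_ℂ = _
        rw [hDval, dnL_apply, pr, ContinuousLinearMap.adjoint_inner_right, hinc]
        show ⟪ξ, (star (a : H →L[ℂ] H) * (a : H →L[ℂ] H)) ξ⟫_ℂ = _
        rw [ContinuousLinearMap.mul_apply, ContinuousLinearMap.star_eq_adjoint,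
          ContinuousLinearMap.adjoint_inner_right, inner_self_eq_norm_sq_to_K]
        norm_cast
      rw [h3] at h2
      exact_mod_cast h2
    have h4 : ‖(a : H →L[ℂ] H) ξ‖ ≤ ε / (2 * (‖m‖ + 1)) := by
      have h5 : ‖(a : H →L[ℂ] H) ξ‖ ^ 2 ≤ (ε / (2 * (‖m‖ + 1))) ^ 2 := by
        calc ‖(a : H →L[ℂ] H) ξ‖ ^ 2 = ‖EA.val x ξ₀‖ ^ 2 := h1
          _ ≤ K ^ 2 * (τ (star x * x)).re := hlow2 x
          _ = K ^ 2 * (t (star a * a)).re := by rw [ht, hx]
          _ ≤ K ^ 2 * (ε / (2 * (‖m‖ + 1) * K)) ^ 2 := by gcongr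
          _ = (ε / (2 * (‖m‖ + 1))) ^ 2 := by
              field_simp
      exact le_of_sq_le_sq h5 (by positivity)
    have h6 : (a : H →L[ℂ] H) (m ξ) = m ((a : H →L[ℂ] H) ξ) := by
      have h7 : m * (a : H →L[ℂ] H) = (a : H →L[ℂ] H) * m :=
        (VonNeumannAlgebra.mem_commutant_iff.1 hm _ a.2).symm
      exact (congrArg (fun T : H →L[ℂ] H => T ξ) h7).symm
    calc ‖(a : H →L[ℂ] H) (e ζ)‖ = ‖(a : H →L[ℂ] H) (e ζ - m ξ) + m ((a : H →L[ℂ] H) ξ)‖ := by
          rw [map_sub, h6]; simp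
      _ ≤ ‖(a : H →L[ℂ] H) (e ζ - m ξ)‖ + ‖m ((a : H →L[ℂ] H) ξ)‖ := norm_add_le _ _
      _ ≤ ‖a‖ * ‖e ζ - m ξ‖ + ‖m‖ * ‖(a : H →L[ℂ] H) ξ‖ :=
          add_le_add (ContinuousLinearMap.le_opNorm (a : H →L[ℂ] H) _)
            (ContinuousLinearMap.le_opNorm _ _)
      _ ≤ 1 * (ε / 2) + (‖m‖ + 1) * (ε / (2 * (‖m‖ + 1))) := by
          have := norm_nonneg m
          gcongr
          linarith
      _ = ε := by field_simp; ring
  · rw [ht]
    exact hζ₀ a

end Crest.Agent.R121
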