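import Crest.Agent.R121.Ty0
import Crest.Agent.R121.FDefs

/-! Row 121, module T', part E5 (helper80, after helper32): spreading a trace of a corner.

`t` is a positive functional of `M` living on the corner `e M e` of a projection `e` of the finite central corner `d`,
tracial on `e M e` and dominating the vector functionals of `e H`.  By `Ty.exists_cover` there are a central projection
`z ≤ d`, `z e ≠ 0`, and finitely many partial isometries `b_i ∈ M`, `e b_i = b_i`, `∑ b_i⋆ b_i = z`.  Then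
`τ x = ∑ t (b_i x b_i⋆)` is a trace on `z M`. -/

set_option autoImplicit false

namespace Crest.Agent.R121

open scoped InnerProductSpace ComplexOrder
open Crest.OpAlg Crest.Agent.R121.Ty

variable {H : Type*} [NormedAddCommGroup H] [InnerProductSpace ℂ H] [CompleteSpace H]
variable {M : VonNeumannAlgebra H}

/-- TE5 -/
theorem trOn_of_corner {d e : H →L[ℂ] H} (hd : CProj M d)
    (hfin : ∀ v ∈ M, star v * v = d → v * star v = d) (he : IsStarProjection e) (heM : e ∈ M)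
    (hde : d * e = e) (he0 : e ≠ 0) (t : M.toStarSubalgebra →L[ℂ] ℂ)
    (_hcor : ∀ a b : M.toStarSubalgebra, (b : H →L[ℂ] H) = e * (a : H →L[ℂ] H) * e → t b = t a)
    (htr : ∀ a b : M.toStarSubalgebra, e * (a : H →L[ℂ] H) * e = a → e * (b : H →L[ℂ] H) * e = b →
      t (a * b) = t (b * a))
    (hpos : ∀ a, 0 ≤ t (star a * a))
    (hac : ∀ (ξ : H) (ε : ℝ), 0 < ε → ∃ δ : ℝ, 0 < δ ∧ ∀ a : M.toStarSubalgebra, ‖a‖ ≤ 1 →
      (t (star a * a)).re ≤ δ → ‖(a : H →L[ℂ] H) (e ξ)‖ ≤ ε)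
    (hnr : ∀ ε : ℝ, 0 < ε → ∃ (m : ℕ) (ξ η : Fin m → H), ∀ x : M.toStarSubalgebra,
      ‖t x - ∑ k, ⟪η k, (x : H →L[ℂ] H) (ξ k)⟫_ℂ‖ ≤ ε * ‖x‖) :
    ∃ z, CProj M z ∧ z ≠ 0 ∧ z * d = z ∧ ∃ τ, TrOn M z τ := by
  obtain ⟨n, b, c, hcM, hcc, hc, hdc, hce, hbM, heb, hcb, hbp, hbs, -⟩ :=
    exists_cover hd.proj hd.mem hd.comm hfin he heM hde he0
  have hc0 : c ≠ 0 := by rintro rfl; exact hce (zero_mul _)
  have hcz : CProj M c := ⟨hc, hcM, hcc⟩
  have hbc : ∀ i, b i * c = b i := fun i => by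
    rw [← R95.VN.comm_of_mem (hbM i) hcc, hcb]
  have hsb : ∀ i, c * star (b i) = star (b i) := fun i => by
    have := congrArg star (hbc i)
    rwa [star_mul, hc.isSelfAdjoint.star_eq] at this
  have hsbe : ∀ i, star (b i) * e = star (b i) := fun i => by
    have := congrArg star (heb i)
    rwa [star_mul, he.isSelfAdjoint.star_eq] at this
  have hcen : ∀ x ∈ M, c * x = x * c := fun x hx => R95.VN.comm_of_mem hx hcc
  -- the elements of the algebra
  obtain ⟨B, hB⟩ : ∃ B : Fin n → M.toStarSubalgebra, ∀ i, (B i : H →L[ℂ] H) = b i :=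
    ⟨fun i => ⟨b i, hbM i⟩, fun i => rfl⟩
  have hBn : ∀ i, ‖B i‖ ≤ 1 := by
    intro i
    show ‖((B i : M.toStarSubalgebra) : H →L[ℂ] H)‖ ≤ 1
    rw [hB]
    refine ContinuousLinearMap.opNorm_le_bound _ zero_le_one fun v => ?_
    rw [one_mul]
    exact R124.Cmp.pi_norm_le (hbp i) v
  -- the functional
  obtain ⟨τ₀, hτ₀⟩ : ∃ τ₀ : M.toStarSubalgebra →L[ℂ] ℂ, ∀ x, τ₀ x = ∑ i, t (B i * (x * star (B i))) := by
    refine ⟨∑ i, t.comp ((ContinuousLinearMap.mul ℂ M.toStarSubalgebra (B i)).comp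
      ((ContinuousLinearMap.mul ℂ M.toStarSubalgebra).flip (star (B i)))), fun x => ?_⟩
    simp only [_root_.sum_apply, ContinuousLinearMap.comp_apply,
      ContinuousLinearMap.mul_apply', ContinuousLinearMap.flip_apply]
  -- the products in the corner
  have hmid : ∀ x y : M.toStarSubalgebra, ∀ i, B i * (x * y * star (B i)) =
      ∑ j, (B i * x * star (B j)) * (B j * y * star (B i)) := by
    intro x y i
    apply Subtype.ext
    rw [AddSubmonoidClass.coe_finsetSum]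
    show (B i : H →L[ℂ] H) * ((x : H →L[ℂ] H) * y * star (B i : H →L[ℂ] H)) =
      ∑ j, ((B i : H →L[ℂ] H) * x * star (B j : H →L[ℂ] H)) * ((B j : H →L[ℂ] H) * y * star (B i : H →L[ℂ] H))
    simp only [hB]
    have h1 : ∀ j, b i * (x : H →L[ℂ] H) * star (b j) * (b j * (y : H →L[ℂ] H) * star (b i)) =
        b i * x * (star (b j) * b j) * (y * star (b i)) := fun j => by simp only [mul_assoc]
    rw [Finset.sum_congr rfl fun j _ => h1 j, ← Finset.sum_mul, ← Finset.mul_sum, hbs]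
    have h2 : c * ((y : H →L[ℂ] H) * star (b i)) = y * star (b i) := by
      rw [← mul_assoc, hcen _ y.2, mul_assoc, hsb]
    rw [mul_assoc (b i * (x : H →L[ℂ] H)), h2]
    simp only [mul_assoc]
  have htr₀ : ∀ x y, τ₀ (x * y) = τ₀ (y * x) := by
    intro x y
    rw [hτ₀, hτ₀]
    simp only [hmid, map_sum]
    rw [Finset.sum_comm]
    refine Finset.sum_congr rfl fun j _ => Finset.sum_congr rfl fun i _ => ?_
    have hcorner : ∀ (i j : Fin n) (w : M.toStarSubalgebra),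
        e * ((B i * w * star (B j) : M.toStarSubalgebra) : H →L[ℂ] H) * e =
          ((B i * w * star (B j) : M.toStarSubalgebra) : H →L[ℂ] H) := by
      intro i j w
      show e * ((B i : H →L[ℂ] H) * w * star (B j : H →L[ℂ] H)) * e = (B i : H →L[ℂ] H) * w * star (B j : H →L[ℂ] H)
      rw [hB, hB, mul_assoc (b i), ← mul_assoc e, heb, mul_assoc (b i), mul_assoc (w : H →L[ℂ] H), hsbe]
    exact htr _ _ (hcorner i j x) (hcorner j i y)
  have hsq : ∀ a i, B i * (star a * a * star (B i)) = star (a * star (B i)) * (a * star (B i)) := by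
    intro a i
    rw [star_mul, star_star]
    simp only [mul_assoc]
  have hpos₀ : ∀ a, 0 ≤ τ₀ (star a * a) := by
    intro a
    rw [hτ₀]
    refine Finset.sum_nonneg fun i _ => ?_
    rw [hsq]
    exact hpos _
  have hcut : ∀ a b' : M.toStarSubalgebra, (b' : H →L[ℂ] H) = c * (a : H →L[ℂ] H) → τ₀ b' = τ₀ a := by
    intro a b' h
    rw [hτ₀, hτ₀]
    refine Finset.sum_congr rfl fun i _ => ?_
    congr 1
    apply Subtype.ext
    show (B i : H →L[ℂ] H) * ((b' : H →L[ℂ] H) * star (B i : H →L[ℂ] H)) =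
      (B i : H →L[ℂ] H) * ((a : H →L[ℂ] H) * star (B i : H →L[ℂ] H))
    rw [h, hB, mul_assoc c, ← mul_assoc, hbc]
  -- absolute continuity of `τ₀`
  have hac₀ : ∀ (ξ : H) (ε : ℝ), 0 < ε → ∃ δ : ℝ, 0 < δ ∧ ∀ a : M.toStarSubalgebra, ‖a‖ ≤ 1 →
      (τ₀ (star a * a)).re ≤ δ → ‖c ((a : H →L[ℂ] H) ξ)‖ ≤ ε := by
    intro ξ ε hε
    have hn : (0 : ℝ) < n + 1 := by positivity
    choose δ hδ0 hδ using fun i => hac (b i ξ) (ε / (n + 1)) (by positivity)
    refine ⟨(1 + ∑ i, (δ i)⁻¹)⁻¹, ?_, ?_⟩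
    · have : 0 ≤ ∑ i, (δ i)⁻¹ := Finset.sum_nonneg fun i _ => (inv_pos.2 (hδ0 i)).le
      positivity
    · intro a ha hta
      have h1 : ∀ i, ‖(a : H →L[ℂ] H) (star (b i) (b i ξ))‖ ≤ ε / (n + 1) := by
        intro i
        have h2 := hδ i (a * star (B i)) (by
          calc ‖a * star (B i)‖ ≤ ‖a‖ * ‖star (B i)‖ := norm_mul_le _ _
            _ ≤ 1 * 1 := mul_le_mul ha (by rw [norm_star]; exact hBn i) (norm_nonneg _) zero_le_one
            _ = 1 := one_mul 1) (by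
          have h3 : (t (star (a * star (B i)) * (a * star (B i)))).re ≤ (τ₀ (star a * a)).re := by
            rw [hτ₀, Complex.re_sum]
            simp only [hsq]
            exact Finset.single_le_sum (f := fun i => (t (star (a * star (B i)) * (a * star (B i)))).re)
              (fun j _ => (Complex.nonneg_iff.1 (hpos _)).1) (Finset.mem_univ i)
          refine h3.trans (hta.trans ?_)
          have h4 : (δ i)⁻¹ ≤ 1 + ∑ j, (δ j)⁻¹ := by
            have := Finset.single_le_sum (f := fun j => (δ j)⁻¹)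
              (fun j _ => (inv_pos.2 (hδ0 j)).le) (Finset.mem_univ i)
            linarith
          have h5 := inv_anti₀ (inv_pos.2 (hδ0 i)) h4
          rwa [inv_inv] at h5)
        have h6 : ((a * star (B i) : M.toStarSubalgebra) : H →L[ℂ] H) (e (b i ξ)) =
            (a : H →L[ℂ] H) (star (b i) (b i ξ)) := by
          have h7 : e (b i ξ) = b i ξ := congrArg (fun T : H →L[ℂ] H => T ξ) (heb i)
          rw [h7]
          show ((a : H →L[ℂ] H) * star (B i : H →L[ℂ] H)) (b i ξ) = _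
          rw [hB]
          rfl
        rwa [h6] at h2
      have h8 : c ((a : H →L[ℂ] H) ξ) = ∑ i, (a : H →L[ℂ] H) (star (b i) (b i ξ)) := by
        have h9 : c ((a : H →L[ℂ] H) ξ) = (a : H →L[ℂ] H) (c ξ) :=
          congrArg (fun T : H →L[ℂ] H => T ξ) (hcen _ a.2)
        rw [h9, ← hbs, _root_.sum_apply, map_sum]
        rfl
      rw [h8]
      calc ‖∑ i, (a : H →L[ℂ] H) (star (b i) (b i ξ))‖
          ≤ ∑ i : Fin n, ε / (n + 1) := norm_sum_le_of_le _ fun i _ => h1 i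
        _ = n * (ε / (n + 1)) := by simp
        _ ≤ ε := by
            rw [mul_div_assoc', div_le_iff₀ hn]
            nlinarith
  -- `τ₀ 1 ≠ 0`
  have h1pos : 0 ≤ τ₀ 1 := by
    have := hpos₀ 1
    rwa [star_one, one_mul] at this
  have h1im := (Complex.nonneg_iff.1 h1pos).2
  have h1re : 0 < (τ₀ 1).re := by
    refine lt_of_le_of_ne (Complex.nonneg_iff.1 h1pos).1 fun h0 => hc0 ?_
    ext ξ
    by_contra hne
    have hne' : 0 < ‖c ξ‖ := norm_pos_iff.2 hne
    obtain ⟨δ, hδ0, hδ⟩ := hac₀ ξ (‖c ξ‖ / 2) (by positivity)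
    have h2 := hδ 1 (by
      show ‖((1 : M.toStarSubalgebra) : H →L[ℂ] H)‖ ≤ 1
      exact ContinuousLinearMap.norm_id_le) (by
      rw [star_one, one_mul, ← h0]; exact hδ0.le)
    have h3 : c (((1 : M.toStarSubalgebra) : H →L[ℂ] H) ξ) = c ξ := rfl
    rw [h3] at h2
    linarith
  have h1eq : τ₀ 1 = ((τ₀ 1).re : ℂ) := by
    apply Complex.ext
    · simp
    · simpa using h1im.symm
  refine ⟨c, hcz, hc0, ?_, ((((τ₀ 1).re)⁻¹ : ℝ) : ℂ) • τ₀, ?_⟩
  · rw [hcen d hd.mem]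
    exact hdc
  · have happ : ∀ x, (((((τ₀ 1).re)⁻¹ : ℝ) : ℂ) • τ₀) x = ((((τ₀ 1).re)⁻¹ : ℝ) : ℂ) * τ₀ x := fun x => rfl
    have hinv : 0 < ((τ₀ 1).re)⁻¹ := inv_pos.2 h1re
    refine ⟨fun a b' => ?_, fun a => ?_, ?_, fun a b' h => ?_, fun ξ ε hε => ?_, fun ε hε => ?_⟩
    · rw [happ, happ, htr₀]
    · rw [happ]
      exact mul_nonneg (by exact_mod_cast hinv.le) (hpos₀ a)
    · rw [happ, h1eq, Complex.ofReal_re, ← Complex.ofReal_mul, inv_mul_cancel₀ h1re.ne']
      norm_num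
    · rw [happ, happ, hcut a b' h]
    · obtain ⟨δ, hδ0, hδ⟩ := hac₀ ξ ε hε
      refine ⟨((τ₀ 1).re)⁻¹ * δ, by positivity, fun a ha hta => hδ a ha ?_⟩
      rw [happ, Complex.re_ofReal_mul] at hta
      exact le_of_mul_le_mul_left hta hinv
    · have hn : (0 : ℝ) < n + 1 := by positivity
      obtain ⟨m, ξ, η, hξη⟩ := hnr (ε * (τ₀ 1).re / (n + 1)) (by positivity)
      refine ⟨n * m, fun q => star (b (finProdFinEquiv.symm q).1) (ξ (finProdFinEquiv.symm q).2),
        fun q => ((((τ₀ 1).re)⁻¹ : ℝ) : ℂ) • star (b (finProdFinEquiv.symm q).1) (η (finProdFinEquiv.symm q).2),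
        fun x => ?_⟩
      rw [happ, hτ₀ x]
      beta_reduce
      have h2 : ∑ q : Fin (n * m), ⟪((((τ₀ 1).re)⁻¹ : ℝ) : ℂ) •
          star (b (finProdFinEquiv.symm q).1) (η (finProdFinEquiv.symm q).2),
          (x : H →L[ℂ] H) (star (b (finProdFinEquiv.symm q).1) (ξ (finProdFinEquiv.symm q).2))⟫_ℂ =
          ((((τ₀ 1).re)⁻¹ : ℝ) : ℂ) * ∑ i, ∑ k, ⟪η k,
            ((B i * (x * star (B i)) : M.toStarSubalgebra) : H →L[ℂ] H) (ξ k)⟫_ℂ := by
        rw [finProdFinEquiv.symm.sum_comp (fun q : Fin n × Fin m => ⟪((((τ₀ 1).re)⁻¹ : ℝ) : ℂ) •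
          star (b q.1) (η q.2), (x : H →L[ℂ] H) (star (b q.1) (ξ q.2))⟫_ℂ), Fintype.sum_prod_type,
          Finset.mul_sum]
        refine Finset.sum_congr rfl fun i _ => ?_
        rw [Finset.mul_sum]
        refine Finset.sum_congr rfl fun k _ => ?_
        rw [inner_smul_left, Complex.conj_ofReal]
        congr 1
        show ⟪star (b i) (η k), (x : H →L[ℂ] H) (star (b i) (ξ k))⟫_ℂ =
          ⟪η k, (B i : H →L[ℂ] H) ((x : H →L[ℂ] H) (star (B i : H →L[ℂ] H) (ξ k)))⟫_ℂ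
        rw [hB, ContinuousLinearMap.star_eq_adjoint, ContinuousLinearMap.adjoint_inner_left]
      rw [h2, ← mul_sub, ← Finset.sum_sub_distrib, norm_mul, Complex.norm_real, Real.norm_eq_abs,
        abs_of_pos hinv]
      have h3 : ∀ i, ‖t (B i * (x * star (B i))) - ∑ k, ⟪η k,
          ((B i * (x * star (B i)) : M.toStarSubalgebra) : H →L[ℂ] H) (ξ k)⟫_ℂ‖ ≤
          ε * (τ₀ 1).re / (n + 1) * ‖x‖ := by
        intro i
        refine (hξη _).trans (mul_le_mul_of_nonneg_left ?_ (by positivity))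
        calc ‖B i * (x * star (B i))‖ ≤ ‖B i‖ * ‖x * star (B i)‖ := norm_mul_le _ _
          _ ≤ 1 * ‖x * star (B i)‖ := mul_le_mul_of_nonneg_right (hBn i) (norm_nonneg _)
          _ = ‖x * star (B i)‖ := one_mul _
          _ ≤ ‖x‖ * ‖star (B i)‖ := norm_mul_le _ _
          _ ≤ ‖x‖ * 1 := mul_le_mul_of_nonneg_left (by rw [norm_star]; exact hBn i) (norm_nonneg _)
          _ = ‖x‖ := mul_one _
      have h4 : ‖∑ i, (t (B i * (x * star (B i))) - ∑ k, ⟪η k,
          ((B i * (x * star (B i)) : M.toStarSubalgebra) : H →L[ℂ] H) (ξ k)⟫_ℂ)‖ ≤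
          n * (ε * (τ₀ 1).re / (n + 1) * ‖x‖) := by
        refine (norm_sum_le_of_le _ fun i _ => h3 i).trans ?_
        simp
      have h5 : (n : ℝ) * (ε * (τ₀ 1).re / (n + 1) * ‖x‖) ≤ (τ₀ 1).re * (ε * ‖x‖) := by
        have h6 : (n : ℝ) * (ε * (τ₀ 1).re / (n + 1) * ‖x‖) = n / (n + 1) * ((τ₀ 1).re * (ε * ‖x‖)) := by
          field_simp
        rw [h6]
        have h7 : (n : ℝ) / (n + 1) ≤ 1 := by rw [div_le_one hn]; linarith
        have h8 : 0 ≤ (τ₀ 1).re * (ε * ‖x‖) := by positivity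
        calc (n : ℝ) / (n + 1) * ((τ₀ 1).re * (ε * ‖x‖)) ≤ 1 * ((τ₀ 1).re * (ε * ‖x‖)) :=
              mul_le_mul_of_nonneg_right h7 h8
          _ = _ := one_mul _
      rw [inv_mul_le_iff₀ h1re]
      exact h4.trans h5

end Crest.Agent.R121
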