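import Crest.Agent.R121.TEDefs

/-! Row 121, module T', file TE5s: spreading.  `x b_i⋆ = c x b_i⋆ = ∑_j b_j⋆ b_j x b_i⋆`, so
`‖x b_i⋆ξ‖² = ∑_j ‖b_j x b_i⋆ξ‖² ≤ 2 ∑_j ‖b_i x⋆ b_j⋆ξ'‖²` (`b_j x b_i⋆` is in `e M e`), and
`∑_i ‖b_i η‖² = ‖c η‖² ≤ ‖η‖²`.  The sum over `i` gives the claim. -/

set_option autoImplicit false
set_option linter.unusedSectionVars false

namespace Crest.Agent.R121.TE

open Crest.Agent.R121

variable {H : Type*} [NormedAddCommGroup H] [InnerProductSpace ℂ H] [CompleteSpace H]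

/-- `∑ ‖b_i η‖² = ‖c η‖²` -/
theorem sum_sq_cover {c : H →L[ℂ] H} (hc : IsStarProjection c) {n : ℕ} (b : Fin n → H →L[ℂ] H)
    (hs : ∑ i, star (b i) * b i = c) (η : H) : ∑ i, ‖b i η‖ ^ 2 = ‖c η‖ ^ 2 := by
  have h1 : ∀ T : H →L[ℂ] H, ‖T η‖ ^ 2 = RCLike.re (inner ℂ η ((star T * T) η)) := by
    intro T
    rw [← inner_self_eq_norm_sq (𝕜 := ℂ), ContinuousLinearMap.mul_apply,
      ContinuousLinearMap.star_eq_adjoint, ContinuousLinearMap.adjoint_inner_right]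
  rw [h1 c, Finset.sum_congr rfl fun i _ => h1 (b i), ← map_sum, ← inner_sum]
  congr 2
  have h2 : ∑ i, (star (b i) * b i) η = (∑ i, star (b i) * b i) η := by
    rw [_root_.sum_apply]
  rw [h2, hs, hc.isSelfAdjoint.star_eq, hc.isIdempotentElem.eq]

/-- TE5 -/
theorem spread_ineq {M : VonNeumannAlgebra H} {e c : H →L[ℂ] H} (he : IsStarProjection e) (hc : CProj M c)
    {ξ ξ' : H} {K : ℝ} (hK : 0 ≤ K)
    (h : ∀ x ∈ M, e * x = x → x * e = x → ‖x ξ‖ ^ 2 ≤ K * ‖star x ξ'‖ ^ 2)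
    {n : ℕ} (b : Fin n → H →L[ℂ] H) (hb : ∀ i, b i ∈ M) (heb : ∀ i, e * b i = b i)
    (hcb : ∀ i, c * b i = b i) (hs : ∑ i, star (b i) * b i = c) :
    ∀ x ∈ M, ∑ i, ‖x (star (b i) ξ)‖ ^ 2 ≤ K * ∑ i, ‖star x (star (b i) ξ')‖ ^ 2 := by
  intro x hx
  have hsb : ∀ i, c * star (b i) = star (b i) := fun i => by
    have h1 : b i * c = b i := by
      rw [← R95.VN.comm_of_mem (hb i) hc.comm, hcb]
    have := congrArg star h1
    rwa [star_mul, hc.proj.isSelfAdjoint.star_eq] at this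
  have hsbe : ∀ i, star (b i) * e = star (b i) := fun i => by
    have := congrArg star (heb i)
    rwa [star_mul, he.isSelfAdjoint.star_eq] at this
  have hcx : ∀ y ∈ M, ∀ i (ζ : H), c (y (star (b i) ζ)) = y (star (b i) ζ) := by
    intro y hy i ζ
    have h1 : c * (y * star (b i)) = y * star (b i) := by
      rw [← mul_assoc, R95.VN.comm_of_mem hy hc.comm, mul_assoc, hsb]
    exact congrArg (fun T : H →L[ℂ] H => T ζ) h1
  have h1 : ∀ y ∈ M, ∀ i (ζ : H), ‖y (star (b i) ζ)‖ ^ 2 =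
      ∑ j, ‖b j (y (star (b i) ζ))‖ ^ 2 := by
    intro y hy i ζ
    rw [sum_sq_cover hc.proj b hs, hcx y hy i ζ]
  have hxs : star x ∈ M := star_mem hx
  have h2 : ∀ i j, ‖b j (x (star (b i) ξ))‖ ^ 2 ≤ K * ‖b i (star x (star (b j) ξ'))‖ ^ 2 := by
    intro i j
    have h3 := h (b j * (x * star (b i))) (mul_mem (hb j) (mul_mem hx (star_mem (hb i))))
      (by rw [← mul_assoc, heb]) (by rw [mul_assoc, mul_assoc, hsbe])
    have h4 : star (b j * (x * star (b i))) = b i * (star x * star (b j)) := by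
      rw [star_mul, star_mul, star_star, mul_assoc]
    rw [h4] at h3
    exact h3
  calc ∑ i, ‖x (star (b i) ξ)‖ ^ 2 = ∑ i, ∑ j, ‖b j (x (star (b i) ξ))‖ ^ 2 :=
        Finset.sum_congr rfl fun i _ => h1 x hx i ξ
    _ ≤ ∑ i, ∑ j, K * ‖b i (star x (star (b j) ξ'))‖ ^ 2 :=
        Finset.sum_le_sum fun i _ => Finset.sum_le_sum fun j _ => h2 i j
    _ = K * ∑ j, ∑ i, ‖b i (star x (star (b j) ξ'))‖ ^ 2 := by
        rw [Finset.sum_comm, Finset.mul_sum]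
        exact Finset.sum_congr rfl fun j _ => by rw [Finset.mul_sum]
    _ = K * ∑ j, ‖star x (star (b j) ξ')‖ ^ 2 := by
        congr 1
        exact Finset.sum_congr rfl fun j _ => (h1 (star x) hxs j ξ').symm

/-- TE5' (absolute continuity) -/
theorem spread_ac {M : VonNeumannAlgebra H} {e c : H →L[ℂ] H} (he : IsStarProjection e) (hc : CProj M c)
    {ξ : H} (hd : ∀ η : H, e η = η → ∀ ε : ℝ, 0 < ε → ∃ m ∈ M.commutant, ‖η - m ξ‖ ≤ ε)
    {n : ℕ} (b : Fin n → H →L[ℂ] H) (hb : ∀ i, b i ∈ M) (heb : ∀ i, e * b i = b i)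
    (hcb : ∀ i, c * b i = b i) (hs : ∑ i, star (b i) * b i = c) (η : H) (ε : ℝ) (hε : 0 < ε) :
    ∃ δ : ℝ, 0 < δ ∧ ∀ x ∈ M, ‖x‖ ≤ 1 → ∑ i, ‖x (star (b i) ξ)‖ ^ 2 ≤ δ → ‖c (x η)‖ ≤ ε := by
  have hn : (0 : ℝ) < n + 1 := by positivity
  have hbn : ∀ i, ‖star (b i)‖ ≤ 1 := by
    intro i
    rw [norm_star]
    refine ContinuousLinearMap.opNorm_le_bound _ zero_le_one fun v => ?_
    rw [one_mul]
    have h1 := sum_sq_cover hc.proj b hs v
    have h2 : ‖b i v‖ ^ 2 ≤ ∑ i, ‖b i v‖ ^ 2 :=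
      Finset.single_le_sum (f := fun i => ‖b i v‖ ^ 2) (fun j _ => sq_nonneg _)
        (Finset.mem_univ i)
    have h3 : ‖c v‖ ≤ ‖v‖ := by
      have h4 : ‖c‖ ≤ 1 := hc.proj.norm_le
      calc ‖c v‖ ≤ ‖c‖ * ‖v‖ := c.le_opNorm v
        _ ≤ 1 * ‖v‖ := mul_le_mul_of_nonneg_right h4 (norm_nonneg _)
        _ = ‖v‖ := one_mul _
    have h5 : ‖b i v‖ ^ 2 ≤ ‖v‖ ^ 2 := by
      rw [h1] at h2
      exact h2.trans (pow_le_pow_left₀ (norm_nonneg _) h3 2)
    exact (pow_le_pow_iff_left₀ (norm_nonneg _) (norm_nonneg _) two_ne_zero).1 h5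
  have heη : ∀ i, e (b i η) = b i η := fun i =>
    congrArg (fun T : H →L[ℂ] H => T η) (heb i)
  choose m hmM hm using fun i => hd (b i η) (heη i) (ε / (2 * (n + 1))) (by positivity)
  set R : ℝ := 1 + ∑ i, ‖m i‖ with hR
  have hRpos : 0 < R := by
    have : 0 ≤ ∑ i, ‖m i‖ := Finset.sum_nonneg fun i _ => norm_nonneg _
    linarith
  refine ⟨(ε / (2 * R)) ^ 2, by positivity, fun x hx hx1 hsum => ?_⟩
  have h1 : ∀ i, ‖x (star (b i) ξ)‖ ≤ ε / (2 * R) := by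
    intro i
    have h2 : ‖x (star (b i) ξ)‖ ^ 2 ≤ (ε / (2 * R)) ^ 2 :=
      (Finset.single_le_sum (f := fun i => ‖x (star (b i) ξ)‖ ^ 2) (fun j _ => sq_nonneg _)
        (Finset.mem_univ i)).trans hsum
    exact (pow_le_pow_iff_left₀ (norm_nonneg _) (by positivity) two_ne_zero).1 h2
  have h2 : c (x η) = ∑ i, x (star (b i) (b i η)) := by
    have h3 : c (x η) = x (c η) :=
      congrArg (fun T : H →L[ℂ] H => T η) (R95.VN.comm_of_mem hx hc.comm)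
    rw [h3, ← hs, _root_.sum_apply, map_sum]
    rfl
  have h3 : ∀ i, ‖x (star (b i) (b i η))‖ ≤ ε / (2 * (n + 1)) + ‖m i‖ * (ε / (2 * R)) := by
    intro i
    have h4 : x (star (b i) (b i η)) =
        x (star (b i) (b i η - m i ξ)) + m i (x (star (b i) ξ)) := by
      have h5 : x (star (b i) (m i ξ)) = m i (x (star (b i) ξ)) := by
        have h6 : (x * star (b i)) * m i = m i * (x * star (b i)) :=
          (R95.VN.comm_of_mem (mul_mem hx (star_mem (hb i))) (hmM i)).symm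
        exact congrArg (fun T : H →L[ℂ] H => T ξ) h6
      rw [← h5, ← map_add, ← map_add, sub_add_cancel]
    rw [h4]
    refine (norm_add_le _ _).trans (add_le_add ?_ ?_)
    · calc ‖x (star (b i) (b i η - m i ξ))‖ ≤ ‖x‖ * ‖star (b i) (b i η - m i ξ)‖ := x.le_opNorm _
        _ ≤ 1 * ‖star (b i) (b i η - m i ξ)‖ := mul_le_mul_of_nonneg_right hx1 (norm_nonneg _)
        _ = ‖star (b i) (b i η - m i ξ)‖ := one_mul _
        _ ≤ ‖star (b i)‖ * ‖b i η - m i ξ‖ := (star (b i)).le_opNorm _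
        _ ≤ 1 * ‖b i η - m i ξ‖ := mul_le_mul_of_nonneg_right (hbn i) (norm_nonneg _)
        _ = ‖b i η - m i ξ‖ := one_mul _
        _ ≤ _ := hm i
    · exact ((m i).le_opNorm _).trans (mul_le_mul_of_nonneg_left (h1 i) (norm_nonneg _))
  rw [h2]
  refine (norm_sum_le_of_le _ fun i _ => h3 i).trans ?_
  rw [Finset.sum_add_distrib, ← Finset.sum_mul, Finset.sum_const, Finset.card_univ,
    Fintype.card_fin, nsmul_eq_mul]
  have h5 : (n : ℝ) * (ε / (2 * (n + 1))) ≤ ε / 2 := by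
    rw [mul_div_assoc', div_le_div_iff₀ (by positivity) two_pos]
    nlinarith
  have h6 : (∑ i, ‖m i‖) * (ε / (2 * R)) ≤ ε / 2 := by
    have h7 : ∑ i, ‖m i‖ ≤ R := by rw [hR]; linarith
    rw [mul_div_assoc', div_le_div_iff₀ (by positivity) two_pos]
    nlinarith
  linarith

end Crest.Agent.R121.TE
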