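import Crest.Agent.R124.I3

/-! Row 121, module T', file TE6: the trace by minimising over columns.  `R124.I.exists_min_trace ψ`: columns `b n`
(`∑ b_l⋆ b_l = 1`) and a tracial `τ = lim ψ_{b n}`, `ψ_b(y) = ∑ ψ(b_l y b_l⋆)`.
(1) `ψ_b(x⋆x) = ∑ ψ((x b_l⋆)⋆(x b_l⋆)) ≥ ½ ∑ φ((x b_l⋆)(x b_l⋆)⋆) = ½ φ(∑ x b_l⋆b_l x⋆) = ½ φ(x x⋆)` (hypothesis for
`(x b_l⋆)⋆`), and `τ(x⋆x) = τ(xx⋆)`, so the limit for `x⋆` gives `φ(x⋆x) ≤ 2 τ(x⋆x)`.
(2) `ψ_b(c y) = ∑ ψ(c b_l y b_l⋆) = ψ_b(y)`.
(3) tracial on products: polarisation of `IsTr` (see `R124`: `IsTr` gives `τ(ab) = τ(ba)`, search for it). -/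

set_option autoImplicit false
set_option linter.unusedSectionVars false

namespace Crest.Agent.R121.TE

open scoped ComplexOrder
open Crest.Agent.R124 Crest.Agent.R124.I
open Filter Topology

/-- TE6 -/
theorem exists_trace_ge {A : Type*} [CStarAlgebra A] [PartialOrder A] [StarOrderedRing A] (φ ψ : A →ₚ[ℂ] ℂ)
    (h : ∀ x, (φ (star x * x)).re ≤ 2 * (ψ (x * star x)).re) (c : A) (hc : ∀ x, c * x = x * c)
    (hψ : ∀ x, ψ (c * x) = ψ x) :
    ∃ τ : A →ₚ[ℂ] ℂ, (∀ a b, τ (a * b) = τ (b * a)) ∧ (∀ x, (φ (star x * x)).re ≤ 2 * (τ (star x * x)).re) ∧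
      ∀ x, τ (c * x) = τ x := by
  obtain ⟨k, b, τ, hb, hτ, hlim⟩ := exists_min_trace ψ
  refine ⟨τ, fun x y => hτ.mul_comm x y, fun x => ?_, fun x => ?_⟩
  · have key : ∀ n, (φ (star x * x)).re ≤ 2 * (psiB ψ (b n) (x * star x)).re := by
      intro n
      have hb' : ∑ l, star (b n l) * b n l = 1 := hb n
      have h1 : star x * x = ∑ l, star (b n l * x) * (b n l * x) := by
        have h2 : ∀ l, star (b n l * x) * (b n l * x) = star x * ((star (b n l) * b n l) * x) := by
          intro l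
          rw [star_mul]
          simp only [mul_assoc]
        rw [Finset.sum_congr rfl fun l _ => h2 l, ← Finset.mul_sum, ← Finset.sum_mul, hb', one_mul]
      rw [h1, map_sum, Complex.re_sum, psiB_apply, Complex.re_sum, Finset.mul_sum]
      refine Finset.sum_le_sum fun l _ => ?_
      refine (h (b n l * x)).trans (le_of_eq ?_)
      rw [star_mul]
      simp only [mul_assoc]
    rw [hτ x]
    exact ge_of_tendsto' (((Complex.continuous_re.tendsto _).comp (hlim (x * star x))).const_mul 2) key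
  · refine tendsto_nhds_unique (hlim (c * x)) ((hlim x).congr fun n => ?_)
    rw [psiB_apply, psiB_apply]
    refine Finset.sum_congr rfl fun l _ => ?_
    rw [← hψ (b n l * x * star (b n l)), ← mul_assoc, ← mul_assoc, ← mul_assoc, hc (b n l)]

/-- TE6, two-sided version -/
theorem exists_trace_two {A : Type*} [CStarAlgebra A] [PartialOrder A] [StarOrderedRing A] (ψ : A →ₚ[ℂ] ℂ)
    {K : ℝ} (hK : 0 ≤ K) (h : ∀ x, (ψ (star x * x)).re ≤ K * (ψ (x * star x)).re) (c : A)
    (hc : ∀ x, c * x = x * c) (hψ : ∀ x, ψ (c * x) = ψ x) :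
    ∃ τ : A →ₚ[ℂ] ℂ, (∀ a b, τ (a * b) = τ (b * a)) ∧
      (∀ x, (ψ (star x * x)).re ≤ K * (τ (star x * x)).re) ∧
      (∀ x, (τ (star x * x)).re ≤ K * (ψ (star x * x)).re) ∧ ∀ x, τ (c * x) = τ x := by
  obtain ⟨k, b, τ, hb, hτ, hlim⟩ := exists_min_trace ψ
  have e1 : ∀ n (x : A), (psiB ψ (b n) (star x * x)).re =
      ∑ l, (ψ (star (x * star (b n l)) * (x * star (b n l)))).re := by
    intro n x
    rw [psiB_apply, Complex.re_sum]
    refine Finset.sum_congr rfl fun l _ => ?_
    rw [star_mul, star_star]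
    simp only [mul_assoc]
  have e2 : ∀ n (x : A), ∑ l, (ψ ((x * star (b n l)) * star (x * star (b n l)))).re =
      (ψ (x * star x)).re := by
    intro n x
    have hb' : ∑ l, star (b n l) * b n l = 1 := hb n
    rw [← Complex.re_sum, ← map_sum]
    congr 2
    have h2 : ∀ l, (x * star (b n l)) * star (x * star (b n l)) = x * ((star (b n l) * b n l) * star x) := by
      intro l
      rw [star_mul, star_star]
      simp only [mul_assoc]
    rw [Finset.sum_congr rfl fun l _ => h2 l, ← Finset.mul_sum, ← Finset.sum_mul, hb', one_mul]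
  have hl : ∀ y : A, Tendsto (fun n => (psiB ψ (b n) y).re) (hyperfilter ℕ : Filter ℕ) (𝓝 (τ y).re) := fun y =>
    (Complex.continuous_re.tendsto _).comp (hlim y)
  refine ⟨τ, fun x y => hτ.mul_comm x y, fun x => ?_, fun x => ?_, fun x => ?_⟩
  · have key : ∀ n, (ψ (star x * x)).re ≤ K * (psiB ψ (b n) (star (star x) * star x)).re := by
      intro n
      have h1 := e2 n (star x)
      rw [star_star] at h1
      rw [e1, ← h1, Finset.mul_sum]
      refine Finset.sum_le_sum fun l _ => ?_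
      have h2 := h (star (star x * star (b n l)))
      rwa [star_star] at h2
    have h3 := ge_of_tendsto' ((hl (star (star x) * star x)).const_mul K) key
    rwa [star_star, ← hτ x] at h3
  · have key : ∀ n, (psiB ψ (b n) (star (star x) * star x)).re ≤ K * (ψ (star x * x)).re := by
      intro n
      have h1 := e2 n (star x)
      rw [star_star] at h1
      rw [e1, ← h1, Finset.mul_sum]
      exact Finset.sum_le_sum fun l _ => h (star x * star (b n l))
    have h3 := le_of_tendsto' (hl (star (star x) * star x)) key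
    rwa [star_star, ← hτ x] at h3
  · refine tendsto_nhds_unique (hlim (c * x)) ((hlim x).congr fun n => ?_)
    rw [psiB_apply, psiB_apply]
    refine Finset.sum_congr rfl fun l _ => ?_
    rw [← hψ (b n l * x * star (b n l)), ← mul_assoc, ← mul_assoc, ← mul_assoc, hc (b n l)]

end Crest.Agent.R121.TE
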