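import Crest.Agent.R121.Ty0
import Crest.Agent.R121.FDefs

/-! Row 121, module T' (helper32, idea 568): a trace with (AC) from finiteness.  Definitions.

`Ray M ξ e`: `e` is the projection onto the closure of `M' ξ` (what is used of it).
`FinP M e`: the projection `e` of `M` is finite.

Files: TE0 (ray, finite sub-projections), TE1 (complements of a partial isometry are equivalent), TE2a, TE2 (a maximal
partial isometry), TE3a, TE3b, TE3 (from partial isometries to all elements), TE4 (local inequality), TE5 (spreading),
TE6 (abstract trace by minimising over columns), TE7 (assembly: `exists_trOn_of_finite`). -/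

set_option autoImplicit false
set_option linter.unusedSectionVars false

namespace Crest.Agent.R121.TE

open Crest.Agent.R121

variable {H : Type*} [NormedAddCommGroup H] [InnerProductSpace ℂ H] [CompleteSpace H]

/-- `e` is a projection of `M`, `e ξ = ξ` and `M' ξ` is dense in `e H` -/
structure Ray (M : VonNeumannAlgebra H) (ξ : H) (e : H →L[ℂ] H) : Prop where
  proj : IsStarProjection e
  mem : e ∈ M
  fix : e ξ = ξ
  dense : ∀ η : H, e η = η → ∀ ε : ℝ, 0 < ε → ∃ m ∈ M.commutant, ‖η - m ξ‖ ≤ ε

/-- `e` is finite -/
def FinP (M : VonNeumannAlgebra H) (e : H →L[ℂ] H) : Prop :=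
  ∀ v ∈ M, e * v = v → star v * v = e → v * star v = e

end Crest.Agent.R121.TE
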