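import Crest.Agent.R121.TE6
import Crest.Agent.R121.TEDefs
import Crest.Agent.R124.AsmB

/-! Row 121, module T', file TE7: `exists_vec_trace`.

On `A = M.toStarSubalgebra` (instance `R124.instVN`, order `CStarAlgebra.spectralOrder`) with
`ψ y = ∑ ⟪ζ_i, y ζ_i⟫`, apply `exists_trace_two` with the central projection `c` (`c ζ_i = ζ_i`). -/

set_option autoImplicit false
set_option linter.unusedSectionVars false

namespace Crest.Agent.R121.TE

open Crest.Agent.R121
open scoped InnerProductSpace ComplexOrder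

variable {H : Type*} [NormedAddCommGroup H] [InnerProductSpace ℂ H] [CompleteSpace H]

/-- the vector functional of a finite family, as a linear map -/
noncomputable def vfun (M : VonNeumannAlgebra H) {n : ℕ} (ζ : Fin n → H) : M.toStarSubalgebra →ₗ[ℂ] ℂ where
  toFun a := ∑ i, ⟪ζ i, (a : H →L[ℂ] H) (ζ i)⟫_ℂ
  map_add' a b := by
    rw [← Finset.sum_add_distrib]
    exact Finset.sum_congr rfl fun i _ => by
      show ⟪ζ i, ((a : H →L[ℂ] H) + (b : H →L[ℂ] H)) (ζ i)⟫_ℂ = _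
      rw [_root_.add_apply, inner_add_right]
  map_smul' r a := by
    rw [RingHom.id_apply, smul_eq_mul, Finset.mul_sum]
    exact Finset.sum_congr rfl fun i _ => by
      show ⟪ζ i, (r • (a : H →L[ℂ] H)) (ζ i)⟫_ℂ = _
      rw [_root_.smul_apply, inner_smul_right]

theorem vfun_apply (M : VonNeumannAlgebra H) {n : ℕ} (ζ : Fin n → H) (a : M.toStarSubalgebra) :
    vfun M ζ a = ∑ i, ⟪ζ i, (a : H →L[ℂ] H) (ζ i)⟫_ℂ := rfl

theorem vfun_star_mul (M : VonNeumannAlgebra H) {n : ℕ} (ζ : Fin n → H) (a : M.toStarSubalgebra) :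
    vfun M ζ (star a * a) = ((∑ i, ‖(a : H →L[ℂ] H) (ζ i)‖ ^ 2 : ℝ) : ℂ) := by
  rw [vfun_apply]
  push_cast
  refine Finset.sum_congr rfl fun i _ => ?_
  show ⟪ζ i, (star (a : H →L[ℂ] H)) ((a : H →L[ℂ] H) (ζ i))⟫_ℂ = _
  rw [ContinuousLinearMap.star_eq_adjoint, ContinuousLinearMap.adjoint_inner_right,
    inner_self_eq_norm_sq_to_K]
  rfl

/-- TE7a -/
theorem exists_vec_trace {M : VonNeumannAlgebra H} {c : H →L[ℂ] H} (hc : CProj M c) {n : ℕ}
    (ζ : Fin n → H) (hcζ : ∀ i, c (ζ i) = ζ i) {K : ℝ} (hK : 0 ≤ K)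
    (h : ∀ x ∈ M, ∑ i, ‖x (ζ i)‖ ^ 2 ≤ K * ∑ i, ‖star x (ζ i)‖ ^ 2) :
    ∃ τ : M.toStarSubalgebra →L[ℂ] ℂ, (∀ a b, τ (a * b) = τ (b * a)) ∧ (∀ a, 0 ≤ τ (star a * a)) ∧
      (∀ a b : M.toStarSubalgebra, (b : H →L[ℂ] H) = c * (a : H →L[ℂ] H) → τ b = τ a) ∧
      (∀ a : M.toStarSubalgebra, ∑ i, ‖(a : H →L[ℂ] H) (ζ i)‖ ^ 2 ≤ K * (τ (star a * a)).re) ∧
      (∀ a : M.toStarSubalgebra, (τ (star a * a)).re ≤ K * ∑ i, ‖(a : H →L[ℂ] H) (ζ i)‖ ^ 2) := by
  let _ : PartialOrder M.toStarSubalgebra := CStarAlgebra.spectralOrder M.toStarSubalgebra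
  have _ : StarOrderedRing M.toStarSubalgebra := CStarAlgebra.spectralOrderedRing M.toStarSubalgebra
  have pos : ∀ (η : Fin n → H) (a : M.toStarSubalgebra),
      @LE.le _ (CStarAlgebra.spectralOrder M.toStarSubalgebra).toLE 0 a → 0 ≤ vfun M η a := by
    intro η a ha
    obtain ⟨b, rfl⟩ := CStarAlgebra.nonneg_iff_eq_star_mul_self.1 ha
    rw [vfun_star_mul]
    exact Complex.zero_le_real.2 (Finset.sum_nonneg fun i _ => by positivity)
  let ψ : M.toStarSubalgebra →ₚ[ℂ] ℂ := PositiveLinearMap.mk₀ (vfun M ζ) (pos ζ)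
  have hψ : ∀ a, ψ a = vfun M ζ a := fun a => rfl
  let c' : M.toStarSubalgebra := ⟨c, hc.mem⟩
  have hcs : star c = c := hc.proj.isSelfAdjoint
  obtain ⟨τ, h1, h2, h3, h4⟩ := exists_trace_two ψ hK (fun x => by
      rw [hψ, hψ, vfun_star_mul]
      have e : vfun M ζ (x * star x) = ((∑ i, ‖star (x : H →L[ℂ] H) (ζ i)‖ ^ 2 : ℝ) : ℂ) := by
        have := vfun_star_mul M ζ (star x)
        rw [star_star] at this
        exact this
      rw [e, Complex.ofReal_re, Complex.ofReal_re]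
      exact h _ x.2) c' (fun x => by
      apply Subtype.ext
      show c * (x : H →L[ℂ] H) = (x : H →L[ℂ] H) * c
      exact (VonNeumannAlgebra.mem_commutant_iff.1 hc.comm _ x.2).symm) (fun x => by
      rw [hψ, hψ, vfun_apply, vfun_apply]
      refine Finset.sum_congr rfl fun i _ => ?_
      have e : ((c' * x : M.toStarSubalgebra) : H →L[ℂ] H) (ζ i) = c ((x : H →L[ℂ] H) (ζ i)) := rfl
      rw [e]
      calc ⟪ζ i, c ((x : H →L[ℂ] H) (ζ i))⟫_ℂ = ⟪star c (ζ i), (x : H →L[ℂ] H) (ζ i)⟫_ℂ := by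
            rw [ContinuousLinearMap.star_eq_adjoint, ContinuousLinearMap.adjoint_inner_left]
        _ = _ := by rw [hcs, hcζ i])
  refine ⟨⟨τ.toLinearMap, map_continuous τ⟩, h1, fun a => ?_, fun a b hb => ?_, fun a => ?_, fun a => ?_⟩
  · have hp : @LE.le _ (CStarAlgebra.spectralOrder M.toStarSubalgebra).toLE 0 (star a * a) :=
      star_mul_self_nonneg a
    have hm : τ 0 ≤ τ (star a * a) := τ.monotone' hp
    rw [map_zero] at hm
    exact hm
  · have e : b = c' * a := Subtype.ext hb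
    show τ b = τ a
    rw [e]
    exact h4 a
  · have := h2 a
    rw [hψ, vfun_star_mul, Complex.ofReal_re] at this
    exact this
  · have := h3 a
    rw [hψ, vfun_star_mul, Complex.ofReal_re] at this
    exact this

end Crest.Agent.R121.TE
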