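import Crest.Agent.R121.TEDefs
import Mathlib.Analysis.InnerProductSpace.PiL2

/-! Row 121, module T', file TE8: normality by Riesz.  `|τ x|² = |τ (1⋆ x)|² ≤ τ(1) τ(x⋆x) ≤ τ(1) K ∑ ‖x ζ_i‖²`
(Cauchy–Schwarz for the positive functional `τ`), so `(x ζ_i)_i ↦ τ x` is a bounded functional on a subspace of
`H^n` (`PiLp 2`); extend by Hahn–Banach and represent by Riesz. -/

set_option autoImplicit false
set_option linter.unusedSectionVars false

namespace Crest.Agent.R121.TE

open Crest.Agent.R121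
open scoped InnerProductSpace ComplexOrder

variable {H : Type*} [NormedAddCommGroup H] [InnerProductSpace ℂ H] [CompleteSpace H]

/-- Cauchy–Schwarz for a positive functional, against the unit -/
theorem cs_one {A : Type*} [Ring A] [StarRing A] [Algebra ℂ A] [StarModule ℂ A] (τ : A →ₗ[ℂ] ℂ)
    (hτ : ∀ a, 0 ≤ τ (star a * a)) (x : A) :
    ‖τ x‖ ^ 2 ≤ (τ 1).re * (τ (star x * x)).re := by
  have key : ∀ s : ℂ, 0 ≤ τ (star x * x) + star s * τ x + s * τ (star x) + (star s * s) * τ 1 := by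
    intro s
    have := hτ (x + s • (1 : A))
    have he : star (x + s • (1 : A)) * (x + s • (1 : A)) =
        star x * x + star s • x + s • star x + (star s * s) • (1 : A) := by
      simp only [star_add, star_smul, star_one, add_mul, mul_add, mul_smul_comm, mul_one,
        smul_mul_assoc, one_mul, smul_add, smul_smul, mul_comm s (star s)]
      abel
    rw [he] at this
    simpa only [map_add, map_smul, smul_eq_mul] using this
  have h1 : 0 ≤ τ (1 : A) := by simpa using hτ 1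
  have hxx := hτ x
  have hr1 : (τ (1 : A)).im = 0 := ((Complex.le_def.1 h1).2).symm
  have hrx : (τ (star x * x)).im = 0 := ((Complex.le_def.1 hxx).2).symm
  have k1 := ((Complex.le_def.1 (key 1)).2).symm
  have k2 := ((Complex.le_def.1 (key Complex.I)).2).symm
  simp [hrx, hr1] at k1 k2
  have hconj : τ (star x) = star (τ x) := by
    apply Complex.ext
    · simp; linarith
    · simp; linarith
  by_cases hc : τ x = 0
  · rw [hc]; simp
    exact mul_nonneg (Complex.le_def.1 h1).1 (Complex.le_def.1 hxx).1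
  have hc0 : ‖τ x‖ ≠ 0 := norm_ne_zero_iff.2 hc
  set u : ℂ := τ x / ‖τ x‖ with hu
  have hu1 : star u * τ x = (‖τ x‖ : ℂ) := by
    rw [hu, star_div₀, div_mul_eq_mul_div]
    have : star (τ x) * τ x = ((‖τ x‖ ^ 2 : ℝ) : ℂ) := by
      rw [← Complex.normSq_eq_norm_sq, Complex.normSq_eq_conj_mul_self]; rfl
    rw [this]
    have h3 : star ((‖τ x‖ : ℂ)) = (‖τ x‖ : ℂ) := Complex.conj_ofReal _
    rw [h3]
    push_cast
    field_simp
  have hu2 : star u * u = 1 := by
    have h4 : ‖u‖ = 1 := by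
      rw [hu, norm_div, Complex.norm_real, norm_norm, div_self hc0]
    have : star u * u = ((‖u‖ ^ 2 : ℝ) : ℂ) := by
      rw [← Complex.normSq_eq_norm_sq, Complex.normSq_eq_conj_mul_self]; rfl
    rw [this, h4]; simp
  have hu3 : u * τ (star x) = (‖τ x‖ : ℂ) := by
    rw [hconj]
    have := congrArg star hu1
    rw [star_mul, star_star] at this
    rw [mul_comm, this]
    exact Complex.conj_ofReal _
  have hquad : ∀ t : ℝ, 0 ≤ (τ (1 : A)).re * (t * t) + (2 * ‖τ x‖) * t + (τ (star x * x)).re := by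
    intro t
    have h5 := (Complex.le_def.1 (key ((t : ℂ) * u))).1
    have e1 : star ((t : ℂ) * u) * τ x = ((t * ‖τ x‖ : ℝ) : ℂ) := by
      rw [star_mul, mul_comm (star u), mul_assoc, hu1]
      have : star (t : ℂ) = (t : ℂ) := Complex.conj_ofReal _
      rw [this]; push_cast; ring
    have e2 : (t : ℂ) * u * τ (star x) = ((t * ‖τ x‖ : ℝ) : ℂ) := by
      rw [mul_assoc, hu3]; push_cast; ring
    have e3 : star ((t : ℂ) * u) * ((t : ℂ) * u) = ((t * t : ℝ) : ℂ) := by
      rw [star_mul]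
      have : star (t : ℂ) = (t : ℂ) := Complex.conj_ofReal _
      rw [this]
      calc star u * (t : ℂ) * ((t : ℂ) * u) = (t : ℂ) * t * (star u * u) := by ring
        _ = _ := by rw [hu2]; push_cast; ring
    rw [e1, e2, e3] at h5
    simp only [Complex.add_re, Complex.ofReal_re, Complex.zero_re, Complex.re_ofReal_mul] at h5
    linarith
  have := discrim_le_zero hquad
  rw [discrim] at this
  nlinarith

/-- TE8 -/
theorem exists_vec_rep {M : VonNeumannAlgebra H} {n : ℕ} (ζ : Fin n → H) (τ : M.toStarSubalgebra →L[ℂ] ℂ)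
    (hτ : ∀ a, 0 ≤ τ (star a * a)) {K : ℝ}
    (h : ∀ a : M.toStarSubalgebra, (τ (star a * a)).re ≤ K * ∑ i, ‖(a : H →L[ℂ] H) (ζ i)‖ ^ 2) :
    ∃ η : Fin n → H, ∀ a : M.toStarSubalgebra, τ a = ∑ i, ⟪η i, (a : H →L[ℂ] H) (ζ i)⟫_ℂ := by
  let Φ : M.toStarSubalgebra →ₗ[ℂ] PiLp 2 (fun _ : Fin n => H) :=
    { toFun := fun a => WithLp.toLp 2 (fun i => (a : H →L[ℂ] H) (ζ i))
      map_add' := fun a b => by
        ext i; simp
      map_smul' := fun c a => by
        ext i; simp }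
  have hΦ : ∀ a, ‖Φ a‖ ^ 2 = ∑ i, ‖(a : H →L[ℂ] H) (ζ i)‖ ^ 2 := fun a => by
    rw [PiLp.norm_sq_eq_of_L2]
    rfl
  set C : ℝ := √((τ 1).re * |K|) with hC
  have h1 : 0 ≤ (τ 1).re := by
    have := hτ 1
    rw [star_one, one_mul] at this
    exact (Complex.le_def.1 this).1
  have hb : ∀ a, ‖τ a‖ ≤ C * ‖Φ a‖ := by
    intro a
    have h2 := cs_one τ.toLinearMap hτ a
    have h3 : ‖τ a‖ ^ 2 ≤ (τ 1).re * |K| * ‖Φ a‖ ^ 2 := by
      rw [hΦ]
      refine h2.trans ?_
      rw [mul_assoc]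
      refine mul_le_mul_of_nonneg_left ((h a).trans ?_) h1
      exact mul_le_mul_of_nonneg_right (le_abs_self K) (Finset.sum_nonneg fun i _ => by positivity)
    have h4 : ‖τ a‖ ≤ √((τ 1).re * |K| * ‖Φ a‖ ^ 2) := Real.le_sqrt_of_sq_le h3
    rwa [Real.sqrt_mul (mul_nonneg h1 (abs_nonneg K)), Real.sqrt_sq (norm_nonneg _)] at h4
  have hker : Φ.ker ≤ τ.toLinearMap.ker := by
    intro a ha
    rw [LinearMap.mem_ker] at ha ⊢
    have := hb a
    rw [ha, norm_zero, mul_zero] at this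
    exact norm_le_zero_iff.1 this
  let f₀ : Φ.range →ₗ[ℂ] ℂ := (Φ.ker.liftQ τ.toLinearMap hker).comp Φ.quotKerEquivRange.symm.toLinearMap
  have hf₀ : ∀ a, f₀ ⟨Φ a, a, rfl⟩ = τ a := by
    intro a
    have : Φ.quotKerEquivRange.symm ⟨Φ a, a, rfl⟩ = Φ.ker.mkQ a := by
      rw [LinearEquiv.symm_apply_eq]
      rfl
    show (Φ.ker.liftQ τ.toLinearMap hker) (Φ.quotKerEquivRange.symm ⟨Φ a, a, rfl⟩) = τ a
    rw [this]
    rfl
  let f : Φ.range →L[ℂ] ℂ := f₀.mkContinuous C (by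
    rintro ⟨_, a, rfl⟩
    rw [hf₀]
    exact hb a)
  obtain ⟨g, hg, -⟩ := exists_extension_norm_eq Φ.range f
  refine ⟨fun i => (InnerProductSpace.toDual ℂ (PiLp 2 (fun _ : Fin n => H))).symm g i, fun a => ?_⟩
  have h5 : g (Φ a) = τ a := by
    rw [← hf₀]
    exact hg ⟨Φ a, a, rfl⟩
  rw [← h5, ← InnerProductSpace.toDual_symm_apply (x := Φ a) (y := g), PiLp.inner_apply]
  rfl

end Crest.Agent.R121.TE
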