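import Crest.Agent.R121.TEq
import Crest.Agent.R121.TE3v
import Crest.Agent.R121.TE4c
import Crest.Agent.R121.TE5

/-! Row 121, module T' (helper63): finite central projection => piece with a normal faithful trace. -/

set_option autoImplicit false

namespace Crest.Agent.R121

open scoped InnerProductSpace ComplexOrder

universe u
variable {H : Type u} [NormedAddCommGroup H] [InnerProductSpace ℂ H] [CompleteSpace H]

theorem exists_trOn_of_finite' {M : VonNeumannAlgebra H} {d : H →L[ℂ] H} (hd : CProj M d)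
    (hd0 : d ≠ 0) (hfin : ∀ v ∈ M, star v * v = d → v * star v = d) :
    ∃ z, CProj M z ∧ z ≠ 0 ∧ z * d = z ∧ ∃ τ, TrOn M z τ := by
  obtain ⟨e, ξ, K, he, heM, hde, he0, hK, heξ, hden, hpi⟩ := TEq.exists_quasi_trace hd hd0 hfin
  have hvec : ∀ x ∈ M, e * x = x → x * e = x → ‖x ξ‖ ^ 2 ≤ K * ‖star x ξ‖ ^ 2 :=
    TE3v.vec_le_of_pi he heM hK.le (fun v hvM h1 h2 h3 => hpi v hvM h3 h1 h2)
  obtain ⟨t, h1, h2, h3, h4, ζ₀, h5⟩ := exists_corner_trace he heM heξ hK hden hvec
  refine trOn_of_corner hd hfin he heM hde he0 t h1 h2 h3 h4 fun ε hε => ?_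
  refine ⟨1, fun _ => ξ, fun _ => ζ₀, fun x => ?_⟩
  rw [h5 x]
  simp only [Finset.univ_unique, Finset.sum_const, Finset.card_singleton, one_smul, sub_self,
    norm_zero]
  positivity

end Crest.Agent.R121
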