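import Crest.Agent.R121.TYP

/-! Row 121, module T' (trace on a finite corner), parts E0, E1, E2 (helper7; mathematics: helper32).

`exists_quasi_trace`: `d ≠ 0` a finite central projection of `M`.  There are a projection `e ≠ 0` below
`d`, a vector `ξ = e ξ` with `M' ξ` dense in `e H` and a constant `K` with `‖v ξ‖² ≤ K ‖v⋆ ξ‖²` for every
partial isometry `v` of `e M e`. -/

set_option autoImplicit false
set_option linter.unusedSectionVars false
set_option linter.deprecated false

open Filter Topology Crest.Agent.R95.VN Crest.Agent.R124.Cmp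
open scoped InnerProductSpace

namespace Crest.Agent.R121.TEq

variable {H : Type*} [NormedAddCommGroup H] [InnerProductSpace ℂ H] [CompleteSpace H]
variable {M : VonNeumannAlgebra H}

theorem inner_star_left (v : H →L[ℂ] H) (x y : H) : ⟪star v x, y⟫_ℂ = ⟪x, v y⟫_ℂ := by
  rw [ContinuousLinearMap.star_eq_adjoint, ContinuousLinearMap.adjoint_inner_left]

theorem inner_star_right (v : H →L[ℂ] H) (x y : H) : ⟪x, star v y⟫_ℂ = ⟪v x, y⟫_ℂ := by
  rw [ContinuousLinearMap.star_eq_adjoint, ContinuousLinearMap.adjoint_inner_right]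

theorem star_pi {v : H →L[ℂ] H} (hv : v * star v * v = v) : star v * v * star v = star v := by
  have := congrArg star hv
  simpa [mul_assoc] using this

theorem star_pi' {v : H →L[ℂ] H} (hv : v * star v * v = v) :
    star v * star (star v) * star v = star v := by
  rw [star_star]; exact star_pi hv

/-- the adjoint of a supremum of partial isometries: lower semicontinuity -/
theorem sup_star_le {ι : Type*} [Nonempty ι] (a : ι → H →L[ℂ] H)
    (pa : ∀ i, a i * star (a i) * a i = a i)
    (hd : ∀ i j, ∃ k, Ext (a i) (a k) ∧ Ext (a j) (a k)) {v : H →L[ℂ] H}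
    (hv : v * star v * v = v) (hvl : ∀ q : H →L[ℂ] H, (∀ i, q * a i = a i) → q * v = v) {ξ : H} {C : ℝ} (hC0 : 0 ≤ C)
    (hC : ∀ i, ‖star (a i) ξ‖ ≤ C) : ‖star v ξ‖ ≤ C := by
  set U : Submodule ℂ H := ⨆ i, (a i).toLinearMap.range with hU
  have hdir : Directed (· ≤ ·) fun i => (a i).toLinearMap.range := by
    intro i j
    obtain ⟨k, h1, h2⟩ := hd i j
    have h1' : a k * (star (a i) * a i) = a i := h1
    have h2' : a k * (star (a j) * a j) = a j := h2
    refine ⟨k, ?_, ?_⟩
    · rintro _ ⟨x, rfl⟩
      exact ⟨(star (a i) * a i) x, congrArg (fun T : H →L[ℂ] H => T x) h1'⟩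
    · rintro _ ⟨x, rfl⟩
      exact ⟨(star (a j) * a j) x, congrArg (fun T : H →L[ℂ] H => T x) h2'⟩
  set K : Submodule ℂ H := U.topologicalClosure with hK
  have hq : K.starProjection * v = v := hvl _ fun i => by
    ext x
    show K.starProjection (a i x) = a i x
    apply Submodule.starProjection_eq_self_iff.2
    apply Submodule.le_topologicalClosure
    exact Submodule.mem_iSup_of_mem i ⟨x, rfl⟩
  have hUb : ∀ y ∈ U, ‖⟪ξ, y⟫_ℂ‖ ≤ C * ‖y‖ := by
    intro y hy
    obtain ⟨i, x, rfl⟩ := (Submodule.mem_iSup_of_directed _ hdir).1 hy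
    have h1 : a i x = a i ((star (a i) * a i) x) := by
      have := congrArg (fun T : H →L[ℂ] H => T x) (pa i)
      simpa [mul_assoc] using this.symm
    have h2 : ⟪ξ, a i x⟫_ℂ = ⟪star (a i) ξ, (star (a i) * a i) x⟫_ℂ := by
      rw [inner_star_left, ← h1]
    have h3 : ‖(star (a i) * a i) x‖ ≤ ‖a i x‖ := pi_norm_le (star_pi' (pa i)) (a i x)
    show ‖⟪ξ, a i x⟫_ℂ‖ ≤ C * ‖a i x‖
    rw [h2]
    calc ‖⟪star (a i) ξ, (star (a i) * a i) x⟫_ℂ‖
        ≤ ‖star (a i) ξ‖ * ‖(star (a i) * a i) x‖ := norm_inner_le_norm _ _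
      _ ≤ C * ‖a i x‖ := mul_le_mul (hC i) h3 (norm_nonneg _) hC0
  have hKb : ∀ y ∈ K, ‖⟪ξ, y⟫_ℂ‖ ≤ C * ‖y‖ := by
    have hcl : IsClosed {y : H | ‖⟪ξ, y⟫_ℂ‖ ≤ C * ‖y‖} :=
      isClosed_le (by fun_prop) (by fun_prop)
    intro y hy
    exact closure_minimal (s := (U : Set H)) (fun y hy => hUb y hy) hcl hy
  have hvK : ∀ x, v x ∈ K := fun x => by
    have h1 : K.starProjection (v x) = v x := congrArg (fun T : H →L[ℂ] H => T x) hq
    rw [← h1]
    exact Submodule.starProjection_apply_mem _ _
  have h1 : ‖star v ξ‖ ^ 2 ≤ C * ‖v (star v ξ)‖ := by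
    have h2 : ⟪ξ, v (star v ξ)⟫_ℂ = ((‖star v ξ‖ ^ 2 : ℝ) : ℂ) := by
      rw [← inner_star_left, inner_self_eq_norm_sq_to_K]
      norm_cast
    have h3 := hKb _ (hvK (star v ξ))
    rw [h2, Complex.norm_real, Real.norm_eq_abs, abs_of_nonneg (by positivity)] at h3
    exact h3
  by_cases h0 : ‖star v ξ‖ = 0
  · rw [h0]; exact hC0
  · have hpos : 0 < ‖star v ξ‖ := lt_of_le_of_ne (norm_nonneg _) (Ne.symm h0)
    have h4 : ‖v (star v ξ)‖ ≤ ‖star v ξ‖ := pi_norm_le hv _
    have h5 : ‖star v ξ‖ * ‖star v ξ‖ ≤ C * ‖star v ξ‖ := by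
      calc ‖star v ξ‖ * ‖star v ξ‖ = ‖star v ξ‖ ^ 2 := by ring
        _ ≤ C * ‖v (star v ξ)‖ := h1
        _ ≤ C * ‖star v ξ‖ := mul_le_mul_of_nonneg_left h4 hC0
    exact le_of_mul_le_mul_right h5 hpos

/-- the properties of the partial isometries in the Zorn argument -/
structure Adm (M : VonNeumannAlgebra H) (p : H →L[ℂ] H) (sa : Prop) (k : ℝ) (ξ η : H)
    (v : H →L[ℂ] H) : Prop where
  mem : v ∈ M
  pi : v * star v * v = v
  right : v * p = v
  left : p * v = v
  sa : sa → star v * v = v
  ineq : k * ‖star v ξ‖ ^ 2 ≤ ‖v η‖ ^ 2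

theorem exists_max_adm (M : VonNeumannAlgebra H) (p : H →L[ℂ] H) (sa : Prop) {k : ℝ} (hk : 0 < k)
    (ξ η : H) :
    ∃ v, Adm M p sa k ξ η v ∧ ∀ v', Adm M p sa k ξ η v' → Ext v v' → Ext v' v := by
  let X : Type _ := {w : H →L[ℂ] H // Adm M p sa k ξ η w}
  have hz : Adm M p sa k ξ η 0 := by
    refine ⟨zero_mem _, ?_, ?_, ?_, ?_, ?_⟩ <;> simp
  obtain ⟨m, hm⟩ := exists_maximal_of_chains_bounded (α := X) (r := fun a b => Ext a.1 b.1)
    (by
      intro c hc
      rcases c.eq_empty_or_nonempty with rfl | hne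
      · exact ⟨⟨0, hz⟩, fun a ha => absurd ha (Set.notMem_empty a)⟩
      · have _ : Nonempty c := hne.to_subtype
        have hdir : ∀ i j : c, ∃ l : c, Ext i.1.1 l.1.1 ∧ Ext j.1.1 l.1.1 := by
          intro i j
          rcases eq_or_ne i.1 j.1 with h | h
          · refine ⟨i, Ext.refl i.1.2.pi, ?_⟩
            rw [← h]; exact Ext.refl i.1.2.pi
          · rcases hc i.2 j.2 h with h' | h'
            · exact ⟨j, h', Ext.refl j.1.2.pi⟩
            · exact ⟨i, Ext.refl i.1.2.pi, h'⟩
        obtain ⟨v, hvN, hv1, hv2, hv3, hv4⟩ := exists_sup (N := M) (fun i : c => i.1.1)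
          (fun i => i.1.2.mem) (fun i => i.1.2.pi) hdir
        have hadm : Adm M p sa k ξ η v := by
          refine ⟨hvN, hv1, hv4 p fun i => i.1.2.right, hv3 p fun i => i.1.2.left, ?_, ?_⟩
          · intro hsa
            have h1 : v * star v = v := hv4 (star v) fun i => by
              have h2 : v * (star i.1.1 * i.1.1) = i.1.1 := hv2 i
              rw [i.1.2.sa hsa] at h2
              have h3 : star i.1.1 = i.1.1 := by
                have := congrArg star (i.1.2.sa hsa)
                rw [star_mul, star_star, i.1.2.sa hsa] at this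
                exact this.symm
              have h4 := congrArg star h2
              rwa [star_mul, h3] at h4
            have h2 : star v = v := by
              have := congrArg star h1
              rw [star_mul, star_star, h1] at this
              exact this.symm
            rw [h2] at h1 ⊢
            exact h1
          · have hCC : ‖star v ξ‖ ≤ Real.sqrt (‖v η‖ ^ 2 / k) := by
              refine sup_star_le (fun i : c => i.1.1) (fun i => i.1.2.pi) hdir hv1 hv3
                (Real.sqrt_nonneg _) fun i => ?_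
              apply Real.le_sqrt_of_sq_le
              rw [le_div_iff₀ hk]
              have h1 := i.1.2.ineq
              have h2 := Ext.normsq i.1.2.pi hv1 (hv2 i) η
              have h3 : 0 ≤ ‖v η - i.1.1 η‖ ^ 2 := by positivity
              linarith
            have h1 : ‖star v ξ‖ ^ 2 ≤ ‖v η‖ ^ 2 / k := by
              calc ‖star v ξ‖ ^ 2 ≤ Real.sqrt (‖v η‖ ^ 2 / k) ^ 2 :=
                    pow_le_pow_left₀ (norm_nonneg _) hCC 2
                _ = ‖v η‖ ^ 2 / k := Real.sq_sqrt (by positivity)
            rw [le_div_iff₀ hk] at h1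
            linarith
        exact ⟨⟨v, hadm⟩, fun a ha => hv2 ⟨a, ha⟩⟩)
    (fun {a b c} h1 h2 => Ext.trans a.2.pi b.2.pi h1 h2)
  exact ⟨m.1, m.2, fun v' h1 h2 => hm ⟨v', h1⟩ h2⟩

theorem norm_add_sq_of_inner {x y : H} (h : ⟪x, y⟫_ℂ = 0) :
    ‖x + y‖ ^ 2 = ‖x‖ ^ 2 + ‖y‖ ^ 2 := by
  have := norm_add_sq_eq_norm_sq_add_norm_sq_of_inner_eq_zero x y h
  nlinarith [this]

/-- a maximal element leaves nothing orthogonal to it -/
theorem Adm.max_zero {p : H →L[ℂ] H} {sa : Prop} {k : ℝ} {ξ η : H} {v w : H →L[ℂ] H}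
    (hv : Adm M p sa k ξ η v) (hmax : ∀ v', Adm M p sa k ξ η v' → Ext v v' → Ext v' v)
    (hw : Adm M p sa k ξ η w) (h1 : star v * w = 0) (h2 : v * star w = 0) : w = 0 := by
  have h1' : star w * v = 0 := by
    have := congrArg star h1
    simpa using this
  have h2' : w * star v = 0 := by
    have := congrArg star h2
    simpa using this
  have hadm : Adm M p sa k ξ η (v + w) := by
    refine ⟨add_mem hv.mem hw.mem, pi_add hv.pi hw.pi h1 h2, by rw [add_mul, hv.right, hw.right],
      by rw [mul_add, hv.left, hw.left], fun hsa => ?_, ?_⟩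
    · rw [star_add, add_mul, mul_add, mul_add, h1, h1', hv.sa hsa, hw.sa hsa, zero_add, add_zero]
    · have i1 : ⟪star v ξ, star w ξ⟫_ℂ = 0 := by
        rw [inner_star_left]
        have : v (star w ξ) = 0 := congrArg (fun T : H →L[ℂ] H => T ξ) h2
        rw [this, inner_zero_right]
      have i2 : ⟪v η, w η⟫_ℂ = 0 := by
        rw [← inner_star_right]
        have : star v (w η) = 0 := congrArg (fun T : H →L[ℂ] H => T η) h1
        rw [this, inner_zero_right]
      have e1 : star (v + w) ξ = star v ξ + star w ξ := by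
        rw [star_add, ContinuousLinearMap.add_apply]
      rw [e1, ContinuousLinearMap.add_apply, norm_add_sq_of_inner i1, norm_add_sq_of_inner i2]
      have a1 := hv.ineq
      have a2 := hw.ineq
      linarith
  have hext : Ext v (v + w) := by
    show (v + w) * (star v * v) = v
    rw [add_mul, ← mul_assoc, hv.pi, ← mul_assoc, h2', zero_mul, add_zero]
  have h3 : v * (star (v + w) * (v + w)) = v + w := hmax _ hadm hext
  have h4 : v * (star (v + w) * (v + w)) = v := by
    have : star (v + w) * (v + w) = star v * v + star w * w := by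
      rw [star_add, add_mul, mul_add, mul_add, h1, h1', zero_add, add_zero]
    rw [this, mul_add, ← mul_assoc, hv.pi, ← mul_assoc, h2, zero_mul, add_zero]
  rw [h4] at h3
  have : v + w = v + 0 := by rw [add_zero]; exact h3.symm
  exact add_left_cancel this

/-- finiteness for projections below `d` -/
theorem fin_sub {d p w : H →L[ℂ] H} (hd : CProj M d)
    (hfin : ∀ v ∈ M, star v * v = d → v * star v = d) (hp : IsStarProjection p) (hpM : p ∈ M)
    (hdp : d * p = p) (hw : w ∈ M) (hww : star w * w = p) (hpw : p * w = w) : w * star w = p := by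
  have dd : d * d = d := proj_mul hd.proj
  have pp : p * p = p := proj_mul hp
  have ds : star d = d := proj_star hd.proj
  have ps : star p = p := proj_star hp
  have pd : p * d = p := proj_flip hp hd.proj hdp
  have dw : d * w = w := by rw [← hpw, ← mul_assoc, hdp]
  have hdc : ∀ x ∈ M, d * x = x * d := fun x hx => TYP.CProj.comm_of_mem hd hx
  have wd : w * d = w := by rw [← hdc w hw, dw]
  have wp : w * p = w := by
    have h1 : star (w * (1 - p)) * (w * (1 - p)) = 0 := by
      rw [star_mul, star_sub, star_one, ps]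
      calc (1 - p) * star w * (w * (1 - p)) = (1 - p) * (star w * w) * (1 - p) := by
            simp only [mul_assoc]
        _ = 0 := by rw [hww, sub_mul, one_mul, pp, sub_self, zero_mul]
    have h2 := (CStarRing.star_mul_self_eq_zero_iff _).1 h1
    rw [mul_sub, mul_one, sub_eq_zero] at h2
    exact h2.symm
  have e1 : (d - p) * w = 0 := by rw [sub_mul, dw, hpw, sub_self]
  have e2 : star w * (d - p) = 0 := by
    have := congrArg star e1
    simpa [ds, ps] using this
  have e3 : w * (d - p) = 0 := by rw [mul_sub, wd, wp, sub_self]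
  have e4 : (d - p) * star w = 0 := by
    have := congrArg star e3
    simpa [ds, ps] using this
  have e5 : (d - p) * (d - p) = d - p := by
    rw [sub_mul, mul_sub, mul_sub, dd, hdp, pd, pp, sub_self, sub_zero]
  have e6 : star (d - p) = d - p := by rw [star_sub, ds, ps]
  have h := hfin ((d - p) + w) (add_mem (sub_mem hd.mem hpM) hw)
    (by rw [star_add, e6, add_mul, mul_add, mul_add, e5, e1, e2, hww]; abel)
  rw [star_add, e6, add_mul, mul_add, mul_add, e5, e4, e3, add_zero, zero_add] at h
  have : d - p + w * star w = d - p + p := by rw [h]; abel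
  exact add_left_cancel this

/-- complements of equivalent projections below `p ≤ d` are equivalent -/
theorem exists_compl {d p w : H →L[ℂ] H} (hd : CProj M d)
    (hfin : ∀ v ∈ M, star v * v = d → v * star v = d) (hp : IsStarProjection p) (hpM : p ∈ M)
    (hdp : d * p = p) (hw : w ∈ M) (hpi : w * star w * w = w) (hpw : p * w = w) (hwp : w * p = w) :
    ∃ u ∈ M, star u * u = p - star w * w ∧ u * star u = p - w * star w := by
  have ps : star p = p := proj_star hp
  have pp : p * p = p := proj_mul hp
  have spi : star w * w * star w = star w := star_pi hpi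
  have psw : p * star w = star w := by
    have := congrArg star hwp
    rwa [star_mul, ps] at this
  have swp : star w * p = star w := by
    have := congrArg star hpw
    rwa [star_mul, ps] at this
  have hf : IsStarProjection (star w * w) := pi_left hpi
  have hg : IsStarProjection (w * star w) := pi_right hpi
  have hpf : p * (star w * w) = star w * w := by rw [← mul_assoc, psw]
  have hpg : p * (w * star w) = w * star w := by rw [← mul_assoc, hpw]
  obtain ⟨v, z, hvM, hzM, hzc, hz, hv, hvq, hpv, hzq, hzp⟩ :=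
    comparison M (proj_sub hg hp hpg) (proj_sub hf hp hpf)
      (sub_mem hpM (mul_mem hw (star_mem hw))) (sub_mem hpM (mul_mem (star_mem hw) hw))
  have zs : star z = z := proj_star hz
  have zz : z * z = z := proj_mul hz
  have hzcm : ∀ x ∈ M, z * x = x * z := fun x hx => comm_of_mem hx hzc
  have fs : star (star w * w) = star w * w := by rw [star_mul, star_star]
  -- orthogonality
  have o1 : star w * v = 0 := by
    rw [← hpv, ← mul_assoc, mul_sub, swp, ← mul_assoc, spi, sub_self, zero_mul]
  have o1' : star v * w = 0 := by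
    have := congrArg star o1
    simpa using this
  have o2 : v * star w = 0 := by
    rw [← hvq, mul_assoc, sub_mul, psw, spi, sub_self, mul_zero]
  have o2' : w * star v = 0 := by
    have := congrArg star o2
    simpa using this
  have pv : p * v = v := by
    have h1 : p * (p - w * star w) = p - w * star w := by rw [mul_sub, pp, hpg]
    rw [← hpv, ← mul_assoc, h1]
  have vp : v * p = v := by
    have h1 : (p - star w * w) * p = p - star w * w := by
      rw [sub_mul, pp, mul_assoc, hwp]
    rw [← hvq, mul_assoc, h1]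
  have W1 : star (w + v) * (w + v) = star w * w + star v * v := by
    rw [star_add, add_mul, mul_add, mul_add, o1, o1', add_zero, zero_add]
  have W2 : (w + v) * star (w + v) = w * star w + v * star v := by
    rw [star_add, add_mul, mul_add, mul_add, o2, o2', add_zero, zero_add]
  have hWM : w + v ∈ M := add_mem hw hvM
  have hsWM : star (w + v) ∈ M := star_mem hWM
  have pW : p * (w + v) = w + v := by rw [mul_add, hpw, pv]
  have Wp : (w + v) * p = w + v := by rw [add_mul, hwp, vp]
  have psW : p * star (w + v) = star (w + v) := by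
    have := congrArg star Wp
    rwa [star_mul, ps] at this
  -- the part under `z`
  have cut : ∀ t : H →L[ℂ] H, t ∈ M → t ∈ M.commutant → IsStarProjection t → ∀ W ∈ M, p * W = W →
      t * (star W * W) = t * p → t * (W * star W) = t * p := by
    intro t htM htc ht W hWM pW hW
    have htcm : ∀ x ∈ M, t * x = x * t := fun x hx => comm_of_mem hx htc
    have ts : star t = t := proj_star ht
    have tt : t * t = t := proj_mul ht
    have htp : IsStarProjection (t * p) := by
      refine ⟨?_, ?_⟩
      · show t * p * (t * p) = t * p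
        calc t * p * (t * p) = t * (p * t) * p := by simp only [mul_assoc]
          _ = t * (t * p) * p := by rw [htcm p hpM]
          _ = (t * t) * (p * p) := by simp only [mul_assoc]
          _ = t * p := by rw [tt, pp]
      · show star (t * p) = t * p
        rw [star_mul, ts, ps, htcm p hpM]
    have hdt : d * (t * p) = t * p := by
      rw [← mul_assoc, ← htcm d hd.mem, mul_assoc, hdp]
    have k1 : star (t * W) * (t * W) = t * p := by
      calc star (t * W) * (t * W) = star W * ((t * t) * W) := by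
            rw [star_mul, ts]; simp only [mul_assoc]
        _ = (star W * t) * W := by rw [tt, mul_assoc]
        _ = t * (star W * W) := by rw [← htcm _ (star_mem hWM), mul_assoc]
        _ = t * p := hW
    have k2 : t * p * (t * W) = t * W := by
      calc t * p * (t * W) = t * (p * t) * W := by simp only [mul_assoc]
        _ = t * (t * p) * W := by rw [htcm p hpM]
        _ = (t * t) * (p * W) := by simp only [mul_assoc]
        _ = t * W := by rw [tt, pW]
    have k3 := fin_sub hd hfin htp (mul_mem htM hpM) hdt (mul_mem htM hWM) k1 k2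
    calc t * (W * star W) = (t * t) * (W * star W) := by rw [tt]
      _ = t * (t * W) * star W := by simp only [mul_assoc]
      _ = t * (W * t) * star W := by rw [htcm W hWM]
      _ = (t * W) * star (t * W) := by
          rw [star_mul, ts, ← htcm _ (star_mem hWM)]; simp only [mul_assoc]
      _ = t * p := k3
  have c1 : z * ((w + v) * star (w + v)) = z * p := by
    refine cut z hzM hzc hz (w + v) hWM pW ?_
    rw [W1, mul_add, ← hzq, ← mul_add]
    congr 1
    abel
  have hz1M : 1 - z ∈ M := sub_mem (one_mem _) hzM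
  have c2 : (1 - z) * (star (w + v) * star (star (w + v))) = (1 - z) * p := by
    refine cut (1 - z) hz1M (sub_mem (one_mem _) hzc) hz.one_sub (star (w + v)) hsWM psW ?_
    rw [star_star, W2, mul_add, ← hzp, ← mul_add]
    congr 1
    abel
  rw [star_star, W1] at c2
  rw [W2] at c1
  refine ⟨v, hvM, ?_, ?_⟩
  · calc star v * v = z * (star v * v) + (1 - z) * (star v * v) := by
          rw [← add_mul, add_sub_cancel, one_mul]
      _ = z * (p - star w * w) + (1 - z) * (p - star w * w) := by
          rw [hzq]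
          congr 1
          rw [mul_add] at c2
          rw [mul_sub, ← c2]
          abel
      _ = p - star w * w := by rw [← add_mul, add_sub_cancel, one_mul]
  · calc v * star v = z * (v * star v) + (1 - z) * (v * star v) := by
          rw [← add_mul, add_sub_cancel, one_mul]
      _ = z * (p - w * star w) + (1 - z) * (p - w * star w) := by
          rw [hzp]
          congr 1
          rw [mul_add] at c1
          rw [mul_sub, ← c1]
          abel
      _ = p - w * star w := by rw [← add_mul, add_sub_cancel, one_mul]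

/-- **E0 + E1 + E2** -/
theorem exists_quasi_trace {d : H →L[ℂ] H} (hd : CProj M d) (hd0 : d ≠ 0)
    (hfin : ∀ v ∈ M, star v * v = d → v * star v = d) :
    ∃ (e : H →L[ℂ] H) (ξ : H) (K : ℝ), IsStarProjection e ∧ e ∈ M ∧ d * e = e ∧ e ≠ 0 ∧ 0 < K ∧
      e ξ = ξ ∧ (∀ (ζ : H) (ε : ℝ), 0 < ε → ∃ m ∈ M.commutant, ‖e ζ - m ξ‖ < ε) ∧
      ∀ v ∈ M, v * star v * v = v → e * v = v → v * e = v → ‖v ξ‖ ^ 2 ≤ K * ‖star v ξ‖ ^ 2 := by
  have dd : d * d = d := proj_mul hd.proj
  obtain ⟨x, hx⟩ : ∃ x, d x ≠ 0 := by
    by_contra hcon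
    push Not at hcon
    exact hd0 (ContinuousLinearMap.ext hcon)
  obtain ⟨ξ, hξ⟩ : ∃ ξ, ξ = d x := ⟨_, rfl⟩
  have hξ0 : ξ ≠ 0 := by rw [hξ]; exact hx
  have hdξ : d ξ = ξ := by
    rw [hξ]; exact congrArg (fun T : H →L[ℂ] H => T x) dd
  -- the projection onto the closure of `M' ξ`
  set U : Submodule ℂ H := Submodule.span ℂ {y | ∃ m ∈ M.commutant, y = m ξ} with hU
  have hUmem : ∀ y ∈ U, ∃ m ∈ M.commutant, y = m ξ := by
    intro y hy
    induction hy using Submodule.span_induction with
    | mem y hy => exact hy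
    | zero => exact ⟨0, zero_mem _, by simp⟩
    | add y1 y2 _ _ h1 h2 =>
      obtain ⟨m1, hm1, rfl⟩ := h1
      obtain ⟨m2, hm2, rfl⟩ := h2
      exact ⟨m1 + m2, add_mem hm1 hm2, by simp⟩
    | smul c y _ h =>
      obtain ⟨m, hm, rfl⟩ := h
      exact ⟨c • m, smul_mem c hm, by simp⟩
  set K0 : Submodule ℂ H := U.topologicalClosure with hK0
  have hinv : ∀ y ∈ M.commutant, ∀ v ∈ K0, y v ∈ K0 := by
    intro y hy
    have h0 : U ≤ U.comap y.toLinearMap := by
      rw [hU, Submodule.span_le]
      rintro _ ⟨m, hm, rfl⟩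
      exact Submodule.subset_span ⟨y * m, mul_mem hy hm, rfl⟩
    have h1 : K0 ≤ K0.comap y.toLinearMap := by
      rw [hK0]
      apply Submodule.topologicalClosure_minimal
      · intro v hv
        exact Submodule.le_topologicalClosure _ (h0 hv)
      · exact (Submodule.isClosed_topologicalClosure _).preimage y.continuous
    intro v hv
    exact h1 hv
  obtain ⟨p, hpdef⟩ : ∃ p, p = K0.starProjection := ⟨_, rfl⟩
  have hp : IsStarProjection p := by rw [hpdef]; exact isStarProjection_starProjection
  have hpM : p ∈ M := by rw [hpdef]; exact starProjection_mem K0 hinv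
  have hξU : ξ ∈ U := Submodule.subset_span ⟨1, one_mem _, rfl⟩
  have hpξ : p ξ = ξ := by
    rw [hpdef]
    exact Submodule.starProjection_eq_self_iff.2 (Submodule.le_topologicalClosure _ hξU)
  have hker : ∀ t : H →L[ℂ] H, (∀ m ∈ M.commutant, t (m ξ) = 0) → t * p = 0 := by
    intro t ht
    have h1 : K0 ≤ LinearMap.ker t.toLinearMap := by
      rw [hK0]
      apply Submodule.topologicalClosure_minimal
      · intro y hy
        obtain ⟨m, hm, rfl⟩ := hUmem y hy
        exact ht m hm
      · exact t.isClosed_ker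
    ext v
    show t (p v) = 0
    rw [hpdef]
    exact h1 (Submodule.starProjection_apply_mem _ v)
  have hdp : d * p = p := by
    have h1 : (1 - d) * p = 0 := hker _ fun m hm => by
      have h2 : d (m ξ) = m (d ξ) :=
        (congrArg (fun T : H →L[ℂ] H => T ξ) (comm_of_mem hd.mem hm)).symm
      rw [ContinuousLinearMap.sub_apply, ContinuousLinearMap.one_apply, h2, hdξ, sub_self]
    rw [sub_mul, one_mul, sub_eq_zero] at h1
    exact h1.symm
  have hfaith : ∀ t ∈ M, t ξ = 0 → t * p = 0 := by
    intro t ht htξ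
    refine hker t fun m hm => ?_
    have h2 : t (m ξ) = m (t ξ) :=
      (congrArg (fun T : H →L[ℂ] H => T ξ) (comm_of_mem ht hm)).symm
    rw [h2, htξ, map_zero]
  have pp : p * p = p := proj_mul hp
  have ps : star p = p := proj_star hp
  have hppp : p * star p * p = p := by rw [ps, pp, pp]
  have hnξ : 0 < ‖ξ‖ := norm_pos_iff.2 hξ0
  -- E1
  obtain ⟨w, hw, hwmax⟩ := exists_max_adm M p False (k := 2) two_pos ξ ξ
  have hsf : star w * w ≠ p := by
    intro hf
    have hg : w * star w = p := fin_sub hd hfin hp hpM hdp hw.mem hf hw.left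
    have h1 : ‖w ξ‖ ^ 2 = ‖ξ‖ ^ 2 := by
      have h2 : ⟪w ξ, w ξ⟫_ℂ = ⟪ξ, ξ⟫_ℂ := by
        rw [← inner_star_right]
        have : star w (w ξ) = ξ := by
          have := congrArg (fun T : H →L[ℂ] H => T ξ) hf
          simpa [hpξ] using this
        rw [this]
      rw [inner_self_eq_norm_sq_to_K, inner_self_eq_norm_sq_to_K] at h2
      exact_mod_cast h2
    have h3 : ‖star w ξ‖ ^ 2 = ‖ξ‖ ^ 2 := by
      have h2 : ⟪star w ξ, star w ξ⟫_ℂ = ⟪ξ, ξ⟫_ℂ := by
        rw [inner_star_left]
        have : w (star w ξ) = ξ := by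
          have := congrArg (fun T : H →L[ℂ] H => T ξ) hg
          simpa [hpξ] using this
        rw [this]
      rw [inner_self_eq_norm_sq_to_K, inner_self_eq_norm_sq_to_K] at h2
      exact_mod_cast h2
    have h4 := hw.ineq
    rw [h1, h3] at h4
    nlinarith
  have hwsp : IsStarProjection (star w * w) := pi_left hw.pi
  have hpw' : p * star w = star w := by
    have := congrArg star hw.right
    rwa [star_mul, ps] at this
  have hswp : star w * p = star w := by
    have := congrArg star hw.left
    rwa [star_mul, ps] at this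
  obtain ⟨e', he'def⟩ : ∃ e', e' = p - star w * w := ⟨_, rfl⟩
  have he' : IsStarProjection e' := by
    rw [he'def]; exact proj_sub hwsp hp (by rw [← mul_assoc, hpw'])
  have he's : star e' = e' := proj_star he'
  have he'e : e' * e' = e' := proj_mul he'
  have he'M : e' ∈ M := by
    rw [he'def]; exact sub_mem hpM (mul_mem (star_mem hw.mem) hw.mem)
  have he'0 : e' ≠ 0 := by
    rw [he'def]
    intro h0
    exact hsf (sub_eq_zero.1 h0).symm
  have hpe' : p * e' = e' := by rw [he'def, mul_sub, pp, ← mul_assoc, hpw']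
  have he'p : e' * p = e' := proj_flip he' hp hpe'
  have hwe' : w * e' = 0 := by
    rw [he'def, mul_sub, hw.right, ← mul_assoc, hw.pi, sub_self]
  obtain ⟨u, huM, huu, huu'⟩ := exists_compl hd hfin hp hpM hdp hw.mem hw.pi hw.left hw.right
  rw [← he'def] at huu
  have hupi : u * star u * u = u := pi_of_left (by rw [huu, he'e])
  have hue' : u * e' = u := by rw [← huu, ← mul_assoc, hupi]
  have hswu : star w * u = 0 := by
    have h1 : star w * (u * star u) = 0 := by
      rw [huu', mul_sub, hswp, ← mul_assoc, star_pi hw.pi, sub_self]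
    calc star w * u = star w * (u * star u * u) := by rw [hupi]
      _ = star w * (u * star u) * u := by simp only [mul_assoc]
      _ = 0 := by rw [h1, zero_mul]
  have hpu : p * u = u := by
    have h1 : p * (u * star u) = u * star u := by
      rw [huu', mul_sub, pp, ← mul_assoc, hw.left]
    calc p * u = p * (u * star u * u) := by rw [hupi]
      _ = p * (u * star u) * u := by simp only [mul_assoc]
      _ = u := by rw [h1, hupi]
  obtain ⟨η, hη⟩ : ∃ η, η = star u ξ := ⟨_, rfl⟩
  have claimA : ∀ v ∈ M, v * star v * v = v → e' * v = v → v * e' = v →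
      ‖v ξ‖ ^ 2 ≤ 2 * ‖star v η‖ ^ 2 := by
    intro v hvM hv hev hve
    by_contra hcon
    push Not at hcon
    have hsuuv : star u * (u * v) = v := by rw [← mul_assoc, huu, hev]
    have hadm : Adm M p False 2 ξ ξ (u * v) := by
      refine ⟨mul_mem huM hvM, ?_, ?_, ?_, fun h => h.elim, ?_⟩
      · calc u * v * star (u * v) * (u * v) = u * (v * (star v * (star u * (u * v)))) := by
              rw [star_mul]; simp only [mul_assoc]
          _ = u * (v * star v * v) := by rw [hsuuv]; simp only [mul_assoc]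
          _ = u * v := by rw [hv]
      · have : v * p = v := by rw [← hve, mul_assoc, he'p]
        rw [mul_assoc, this]
      · rw [← mul_assoc, hpu]
      · have h1 : star (u * v) ξ = star v η := by
          rw [star_mul, hη]; rfl
        have h2 : ‖(u * v) ξ‖ ^ 2 = ‖v ξ‖ ^ 2 := by
          have h3 : ⟪(u * v) ξ, (u * v) ξ⟫_ℂ = ⟪v ξ, v ξ⟫_ℂ := by
            show ⟪u (v ξ), (u * v) ξ⟫_ℂ = _
            rw [← inner_star_right]
            have : star u ((u * v) ξ) = v ξ := congrArg (fun T : H →L[ℂ] H => T ξ) hsuuv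
            rw [this]
          rw [inner_self_eq_norm_sq_to_K, inner_self_eq_norm_sq_to_K] at h3
          exact_mod_cast h3
        rw [h1, h2]
        exact hcon.le
    have h0 : u * v = 0 := by
      refine hw.max_zero hwmax hadm ?_ ?_
      · rw [← mul_assoc, hswu, zero_mul]
      · rw [star_mul, ← mul_assoc]
        have : w * star v = 0 := by
          have h1 : e' * star v = star v := by
            have := congrArg star hve
            rwa [star_mul, he's] at this
          rw [← h1, ← mul_assoc, hwe', zero_mul]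
        rw [this, zero_mul]
    have hv0 : v = 0 := by rw [← hsuuv, h0, mul_zero]
    rw [hv0] at hcon
    simp at hcon
  -- E2
  have he'ξ : 0 < ‖e' ξ‖ ^ 2 := by
    have : e' ξ ≠ 0 := by
      intro h0
      apply he'0
      rw [← he'p]
      exact hfaith e' he'M h0
    have := norm_pos_iff.2 this
    positivity
  obtain ⟨K, hK⟩ : ∃ K : ℝ, K = ‖η‖ ^ 2 / ‖e' ξ‖ ^ 2 + 1 := ⟨_, rfl⟩
  have hKpos : 0 < K := by rw [hK]; positivity
  obtain ⟨h, hh, hhmax⟩ := exists_max_adm M e' True (k := K) hKpos ξ η
  have hhh : star h * h = h := hh.sa trivial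
  have hhs : star h = h := by
    have := congrArg star hhh
    rw [star_mul, star_star, hhh] at this
    exact this.symm
  have hh2 : h * h = h := by rw [hhs] at hhh; exact hhh
  have hhp : IsStarProjection h := ⟨hh2, hhs⟩
  have hhe : h ≠ e' := by
    intro h0
    have h1 := hh.ineq
    rw [h0, he's] at h1
    have h2 : ‖e' η‖ ^ 2 ≤ ‖η‖ ^ 2 := by
      have h3 : ‖e' η‖ ≤ ‖η‖ := pi_norm_le (w := e') (by rw [he's, he'e, he'e]) η
      exact pow_le_pow_left₀ (norm_nonneg _) h3 2
    have h3 : K * ‖e' ξ‖ ^ 2 = ‖η‖ ^ 2 + ‖e' ξ‖ ^ 2 := by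
      rw [hK, add_mul, div_mul_cancel₀ _ he'ξ.ne', one_mul]
    linarith
  obtain ⟨e, hedef⟩ : ∃ e, e = e' - h := ⟨_, rfl⟩
  have he : IsStarProjection e := by rw [hedef]; exact proj_sub hhp he' hh.left
  have hes : star e = e := proj_star he
  have hee : e * e = e := proj_mul he
  have heM : e ∈ M := by rw [hedef]; exact sub_mem he'M hh.mem
  have he0 : e ≠ 0 := by
    rw [hedef]
    intro h0
    exact hhe (sub_eq_zero.1 h0).symm
  have he'e2 : e' * e = e := by rw [hedef, mul_sub, he'e, hh.left]
  have hee' : e * e' = e := proj_flip he he' he'e2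
  have hhe0 : h * e = 0 := by rw [hedef, mul_sub, hh.right, hh2, sub_self]
  have hpe : p * e = e := by rw [← he'e2, ← mul_assoc, hpe']
  have hep : e * p = e := proj_flip he hp hpe
  have claimB : ∀ q ∈ M, IsStarProjection q → e * q = q → ‖q η‖ ^ 2 ≤ K * ‖q ξ‖ ^ 2 := by
    intro q hqM hq heq
    by_contra hcon
    push Not at hcon
    have qs : star q = q := proj_star hq
    have qq : q * q = q := proj_mul hq
    have hqe : q * e = q := proj_flip hq he heq
    have hadm : Adm M e' True K ξ η q := by
      refine ⟨hqM, by rw [qs, qq, qq], ?_, ?_, fun _ => by rw [qs, qq], ?_⟩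
      · rw [← hqe, mul_assoc, hee']
      · rw [← heq, ← mul_assoc, he'e2]
      · rw [qs]; exact hcon.le
    have h0 : q = 0 := by
      refine hh.max_zero hhmax hadm ?_ ?_
      · rw [hhs, ← heq, ← mul_assoc, hhe0, zero_mul]
      · rw [qs, ← heq, ← mul_assoc, hhe0, zero_mul]
    rw [h0] at hcon
    simp at hcon
  -- the vector `e ξ`
  have hexi : ∀ v : H →L[ℂ] H, v * e = v → v (e ξ) = v ξ := fun v hv =>
    congrArg (fun T : H →L[ℂ] H => T ξ) hv
  refine ⟨e, e ξ, 2 * K, he, heM, ?_, he0, by positivity, hexi e hee, ?_, ?_⟩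
  · rw [← hpe, ← mul_assoc, hdp]
  · intro ζ ε hε
    have h1 : e ζ ∈ K0 := by
      have h2 : p (e ζ) = e ζ := congrArg (fun T : H →L[ℂ] H => T ζ) hpe
      rw [← h2, hpdef]
      exact Submodule.starProjection_apply_mem _ _
    have h2 : e ζ ∈ closure (U : Set H) := h1
    obtain ⟨y, hyU, hy⟩ := Metric.mem_closure_iff.1 h2 ε hε
    obtain ⟨m, hm, rfl⟩ := hUmem y hyU
    refine ⟨m, hm, ?_⟩
    rw [dist_eq_norm] at hy
    have h3 : e ζ - m (e ξ) = e (e ζ - m ξ) := by
      rw [map_sub]
      have h4 : e (e ζ) = e ζ := congrArg (fun T : H →L[ℂ] H => T ζ) hee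
      have h5 : m (e ξ) = e (m ξ) :=
        congrArg (fun T : H →L[ℂ] H => T ξ) (comm_of_mem heM hm)
      rw [h4, h5]
    rw [h3]
    exact lt_of_le_of_lt (pi_norm_le (w := e) (by rw [hes, hee, hee]) _) hy
  · intro v hvM hv hev hve
    have hsve : star v * e = star v := by
      have := congrArg star hev
      rwa [star_mul, hes] at this
    rw [hexi v hve, hexi (star v) hsve]
    have e'v : e' * v = v := by rw [← hev, ← mul_assoc, he'e2]
    have ve' : v * e' = v := by rw [← hve, mul_assoc, hee']
    have h1 := claimA v hvM hv e'v ve'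
    have hq : IsStarProjection (v * star v) := pi_right hv
    have h2 := claimB (v * star v) (mul_mem hvM (star_mem hvM)) hq (by rw [← mul_assoc, hev])
    have h3 : ‖(v * star v) ξ‖ ≤ ‖star v ξ‖ := pi_norm_le hv (star v ξ)
    have h4 : ‖star v η‖ ≤ ‖(v * star v) η‖ := by
      have h5 : star v η = star v ((v * star v) η) := by
        have := congrArg (fun T : H →L[ℂ] H => T η) (star_pi hv)
        simpa [mul_assoc] using this.symm
      calc ‖star v η‖ = ‖star v ((v * star v) η)‖ := by rw [← h5]
        _ ≤ ‖(v * star v) η‖ := pi_norm_le (star_pi' hv) _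
    have h5 : ‖star v η‖ ^ 2 ≤ ‖(v * star v) η‖ ^ 2 := pow_le_pow_left₀ (norm_nonneg _) h4 2
    have h6 : ‖(v * star v) ξ‖ ^ 2 ≤ ‖star v ξ‖ ^ 2 := pow_le_pow_left₀ (norm_nonneg _) h3 2
    have h7 : K * ‖(v * star v) ξ‖ ^ 2 ≤ K * ‖star v ξ‖ ^ 2 :=
      mul_le_mul_of_nonneg_left h6 hKpos.le
    calc ‖v ξ‖ ^ 2 ≤ 2 * ‖star v η‖ ^ 2 := h1
      _ ≤ 2 * ‖(v * star v) η‖ ^ 2 := by linarith
      _ ≤ 2 * (K * ‖(v * star v) ξ‖ ^ 2) := by linarith
      _ ≤ 2 * (K * ‖star v ξ‖ ^ 2) := by linarith
      _ = 2 * K * ‖star v ξ‖ ^ 2 := by ring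

end Crest.Agent.R121.TEq
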