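import Crest.Agent.R121.TI
import Crest.Agent.R121.TH

/-! Row 121, module TI (helper63): `exists_typeI` with the form `Abel` of `TH.lean`. -/

set_option autoImplicit false

namespace Crest.Agent.R121

open Crest.Agent.R95.VN

variable {H : Type*} [NormedAddCommGroup H] [InnerProductSpace ℂ H] [CompleteSpace H]

theorem exists_typeI_abel (M : VonNeumannAlgebra H) {c e : H →L[ℂ] H} (hc : CProj M c)
    {τ : M.toStarSubalgebra →L[ℂ] ℂ} (hτ : TrOn M c τ) (he : IsStarProjection e) (heM : e ∈ M)
    (hce : c * e = e) (he0 : e ≠ 0) (hab : Abel M e) :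
    ∃ c', CProj M c' ∧ c' ≠ 0 ∧ c' * c = c' ∧ TypeI M c' := by
  refine exists_typeI M hc hτ he heM hce he0 fun a ha b hb => ?_
  have h1 := hab a ha b hb
  have e1 : ∀ x y : H →L[ℂ] H, (e * x * e) * (e * y * e) = e * x * e * y * e := by
    intro x y
    rw [show (e * x * e) * (e * y * e) = e * x * (e * e) * y * e by simp only [mul_assoc],
      proj_mul he]
  rw [e1, e1, h1]

end Crest.Agent.R121
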