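import Crest.Agent.R121.QDefs
import Crest.Agent.R124.JVnDefs

/-!
# Row 121, module TN (helper36): a normal trace gives a central projection with a faithful normal trace

`J = {x | ∀ y, τ (y x) = 0} = {x | τ (x⋆ x) = 0}` is a weakly closed ideal; its unit `p` is a central projection and
`c = 1 - p`.
-/

set_option autoImplicit false

namespace Crest.Agent.R121

open scoped InnerProductSpace ComplexOrder
open Crest.OpAlg Filter Topology

universe u

/-- a closed ideal has a bounded left approximate unit -/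
theorem exists_approx_unit {A : Type u} [CStarAlgebra A] (J : NonUnitalStarSubalgebra ℂ A)
    [hJ : IsClosed (J : Set A)] :
    ∃ l : Filter A, l.NeBot ∧ (∀ᶠ x in l, x ∈ J ∧ ‖x‖ ≤ 1) ∧
      ∀ a ∈ J, Tendsto (fun x => x * a) l (𝓝 a) := by
  letI : PartialOrder J := CStarAlgebra.spectralOrder J
  letI : StarOrderedRing J := CStarAlgebra.spectralOrderedRing J
  have h := CStarAlgebra.increasingApproximateUnit J
  haveI := h.neBot
  refine ⟨(CStarAlgebra.approximateUnit J).map (fun x : J => (x : A)), inferInstance, ?_, ?_⟩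
  · rw [eventually_map]
    filter_upwards [h.eventually_norm] with x hx
    exact ⟨x.2, hx⟩
  · intro a ha
    rw [tendsto_map'_iff]
    have h1 := h.tendsto_mul_right ⟨a, ha⟩
    exact (continuous_subtype_val.tendsto _).comp h1

variable {H : Type*} [NormedAddCommGroup H] [InnerProductSpace ℂ H] [CompleteSpace H]
variable {M : VonNeumannAlgebra H}

/-- normal functionals are weakly continuous on bounded sets -/
theorem NormalF.tendsto {τ : M.toStarSubalgebra →L[ℂ] ℂ} (hτ : NormalF M τ) {ι : Type*}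
    {l : Filter ι} {T : ι → M.toStarSubalgebra} {S : M.toStarSubalgebra} {R : ℝ}
    (hT : ∀ i, ‖T i‖ ≤ R)
    (hS : ∀ ξ η : H, Tendsto (fun i => ⟪(T i : H →L[ℂ] H) ξ, η⟫_ℂ) l
      (𝓝 ⟪(S : H →L[ℂ] H) ξ, η⟫_ℂ)) : Tendsto (fun i => τ (T i)) l (𝓝 (τ S)) := by
  rcases l.eq_or_neBot with hl | hl
  · rw [hl]; exact tendsto_bot
  have hR : 0 ≤ R := by
    obtain ⟨i, -⟩ := hl.nonempty_of_mem Filter.univ_mem
    exact (norm_nonneg _).trans (hT i)
  rw [Metric.tendsto_nhds]
  intro ε hε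
  obtain ⟨m, ξ, η, h1⟩ := hτ (ε / (3 * (R + ‖S‖ + 1))) (by positivity)
  have hS' : ∀ ξ η : H, Tendsto (fun i => ⟪η, (T i : H →L[ℂ] H) ξ⟫_ℂ) l
      (𝓝 ⟪η, (S : H →L[ℂ] H) ξ⟫_ℂ) := by
    intro ξ η
    have := (Complex.continuous_conj.tendsto _).comp (hS ξ η)
    simpa [Function.comp_def, inner_conj_symm] using this
  have h2 : Tendsto (fun i => ∑ k, ⟪η k, (T i : H →L[ℂ] H) (ξ k)⟫_ℂ) l
      (𝓝 (∑ k, ⟪η k, (S : H →L[ℂ] H) (ξ k)⟫_ℂ)) := tendsto_finsetSum _ fun k _ => hS' _ _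
  rw [Metric.tendsto_nhds] at h2
  filter_upwards [h2 (ε / 3) (by positivity)] with i hi
  have a1 := h1 (T i)
  have a2 := h1 S
  have a3 : ε / (3 * (R + ‖S‖ + 1)) * ‖T i‖ + ε / (3 * (R + ‖S‖ + 1)) * ‖S‖ ≤ ε / 3 := by
    have : ε / (3 * (R + ‖S‖ + 1)) * ‖T i‖ + ε / (3 * (R + ‖S‖ + 1)) * ‖S‖ ≤
        ε / (3 * (R + ‖S‖ + 1)) * (R + ‖S‖ + 1) := by
      rw [← mul_add]
      exact mul_le_mul_of_nonneg_left (by linarith [hT i]) (by positivity)
    refine this.trans (le_of_eq ?_)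
    have : R + ‖S‖ + 1 ≠ 0 := by positivity
    field_simp
  rw [dist_eq_norm] at hi ⊢
  have e : τ (T i) - τ S = (τ (T i) - ∑ k, ⟪η k, (T i : H →L[ℂ] H) (ξ k)⟫_ℂ) +
      (∑ k, ⟪η k, (T i : H →L[ℂ] H) (ξ k)⟫_ℂ - ∑ k, ⟪η k, (S : H →L[ℂ] H) (ξ k)⟫_ℂ) -
      (τ S - ∑ k, ⟪η k, (S : H →L[ℂ] H) (ξ k)⟫_ℂ) := by ring
  rw [e]
  refine (norm_sub_le _ _).trans_lt ?_
  have := norm_add_le (τ (T i) - ∑ k, ⟪η k, (T i : H →L[ℂ] H) (ξ k)⟫_ℂ)
    (∑ k, ⟪η k, (T i : H →L[ℂ] H) (ξ k)⟫_ℂ - ∑ k, ⟪η k, (S : H →L[ℂ] H) (ξ k)⟫_ℂ)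
  linarith

theorem eq_zero_of_affine {c r : ℝ} (h : ∀ t : ℝ, 0 ≤ c + t * r) : r = 0 := by
  by_contra hr
  have h1 := h (-(c + 1) / r)
  rw [div_mul_cancel₀ _ hr] at h1
  linarith

section ideal
variable {τ : M.toStarSubalgebra →L[ℂ] ℂ} (htr : ∀ a b, τ (a * b) = τ (b * a))
  (hnn : ∀ a, 0 ≤ τ (star a * a))
include hnn

theorem tn_cs {x : M.toStarSubalgebra} (hx : τ (star x * x) = 0) (y : M.toStarSubalgebra) :
    τ (y * x) = 0 := by
  set w : M.toStarSubalgebra := star y with hw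
  have hyw : y = star w := by rw [hw, star_star]
  rw [hyw]
  have key : ∀ z : ℂ, 0 ≤ τ (star w * w) + (z * τ (star w * x) + star z * τ (star x * w)) := by
    intro z
    have h1 := hnn (w + z • x)
    have h2 : star (w + z • x) * (w + z • x) = star w * w + (z • (star w * x) +
        star z • (star x * w)) + (star z * z) • (star x * x) := by
      rw [star_add, star_smul, add_mul, mul_add, mul_add, mul_smul_comm, smul_mul_assoc,
        smul_mul_smul_comm]
      abel
    rw [h2, map_add, map_add, map_add, map_smul, map_smul, map_smul, hx] at h1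
    simpa using h1
  set a : ℂ := τ (star w * x)
  set b : ℂ := τ (star x * w)
  set c : ℂ := τ (star w * w)
  have hc := hnn w
  have k1 : ∀ t : ℝ, 0 ≤ c + (t : ℂ) * (a + b) := by
    intro t
    have := key (t : ℂ)
    have e : star (t : ℂ) = (t : ℂ) := by simp
    rw [e] at this
    convert this using 1
    ring
  have k2 : ∀ t : ℝ, 0 ≤ c + (t : ℂ) * (Complex.I * (a - b)) := by
    intro t
    have := key ((t : ℂ) * Complex.I)
    have e : star ((t : ℂ) * Complex.I) = -((t : ℂ) * Complex.I) := by simp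
    rw [e] at this
    convert this using 1
    ring
  have lem : ∀ s : ℂ, (∀ t : ℝ, 0 ≤ c + (t : ℂ) * s) → s = 0 := by
    intro s hs
    have hre : s.re = 0 := by
      apply eq_zero_of_affine (c := c.re)
      intro t
      have := (Complex.nonneg_iff.1 (hs t)).1
      simpa using this
    have him : s.im = 0 := by
      have h1 := (Complex.nonneg_iff.1 (hs 1)).2
      have h0 := (Complex.nonneg_iff.1 (hs 0)).2
      simp at h1 h0
      rw [← h0] at h1
      simpa using h1.symm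
    exact Complex.ext hre him
  have e1 := lem _ (fun t => k1 t)
  have e2 := lem _ (fun t => k2 t)
  have e3 : a - b = 0 := by
    rcases mul_eq_zero.1 e2 with h | h
    · exact absurd h Complex.I_ne_zero
    · exact h
  have : a = ((a + b) + (a - b)) / 2 := by ring
  rw [this, e1, e3]; simp

end ideal

/-- the null ideal of a positive trace -/
noncomputable def nullIdeal (M : VonNeumannAlgebra H) (τ : M.toStarSubalgebra →L[ℂ] ℂ)
    (htr : ∀ a b, τ (a * b) = τ (b * a)) (hnn : ∀ a, 0 ≤ τ (star a * a)) :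
    NonUnitalStarSubalgebra ℂ M.toStarSubalgebra where
  carrier := {x | ∀ y, τ (y * x) = 0}
  add_mem' := by
    intro a b ha hb y
    rw [mul_add, map_add, ha y, hb y, add_zero]
  zero_mem' := by intro y; rw [mul_zero, map_zero]
  mul_mem' := by
    intro a b ha hb y
    rw [← mul_assoc]
    exact hb _
  smul_mem' := by
    intro c x hx y
    rw [mul_smul_comm, map_smul, hx y, smul_zero]
  star_mem' := by
    intro x hx y
    apply tn_cs hnn
    rw [star_star, htr]
    exact hx _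

theorem mem_nullIdeal {τ : M.toStarSubalgebra →L[ℂ] ℂ} {htr : ∀ a b, τ (a * b) = τ (b * a)}
    {hnn : ∀ a, 0 ≤ τ (star a * a)} {x : M.toStarSubalgebra} :
    x ∈ nullIdeal M τ htr hnn ↔ ∀ y, τ (y * x) = 0 := Iff.rfl

/-- the unit of the null ideal -/
theorem exists_null_unit {τ : M.toStarSubalgebra →L[ℂ] ℂ} (htr : ∀ a b, τ (a * b) = τ (b * a))
    (hnn : ∀ a, 0 ≤ τ (star a * a)) (hN : NormalF M τ) :
    ∃ p : M.toStarSubalgebra, star p = p ∧ p * p = p ∧ (∀ x, p * x = x * p) ∧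
      (∀ x, τ (x * p) = 0) ∧ ∀ x, (∀ y, τ (y * x) = 0) → p * x = x := by
  haveI hcl : IsClosed ((M.toStarSubalgebra : StarSubalgebra ℂ (H →L[ℂ] H)) :
    Set (H →L[ℂ] H)) := Crest.Agent.R95.vn_isClosed M
  set J := nullIdeal M τ htr hnn with hJ
  haveI hJc : IsClosed (J : Set M.toStarSubalgebra) := by
    have : (J : Set M.toStarSubalgebra) = ⋂ y, {x | τ (y * x) = 0} := by
      ext x; simp [hJ, mem_nullIdeal]
    rw [this]
    refine isClosed_iInter fun y => ?_
    exact isClosed_eq (τ.continuous.comp (continuous_const.mul continuous_id)) continuous_const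
  obtain ⟨l, hl, hl1, hl2⟩ := exists_approx_unit J
  classical
  let U : Ultrafilter M.toStarSubalgebra := Ultrafilter.of l
  have hU : (U : Filter M.toStarSubalgebra) ≤ l := Ultrafilter.of_le l
  let T : M.toStarSubalgebra → M.toStarSubalgebra := fun x => if x ∈ J ∧ ‖x‖ ≤ 1 then x else 0
  have hT1 : ∀ x, ‖T x‖ ≤ 1 := by
    intro x
    by_cases h : x ∈ J ∧ ‖x‖ ≤ 1
    · simp only [T, if_pos h]; exact h.2
    · simp only [T, if_neg h, norm_zero]; exact zero_le_one
  have hTJ : ∀ x, T x ∈ J := by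
    intro x
    by_cases h : x ∈ J ∧ ‖x‖ ≤ 1
    · simp only [T, if_pos h]; exact h.1
    · simp only [T, if_neg h]; exact J.zero_mem
  obtain ⟨p, hp1, hp2⟩ := exists_alg_lim M U T hT1
  have hpJ : p ∈ J := by
    intro y
    have h1 : Tendsto (fun x => τ (y * T x)) U (𝓝 (τ (y * p))) := by
      refine hN.tendsto (R := ‖y‖ * 1) (fun x => (norm_mul_le _ _).trans ?_) ?_
      · gcongr; exact hT1 x
      · intro ξ η
        have h2 := hp2 ξ ((ContinuousLinearMap.adjoint ((y : M.toStarSubalgebra) : H →L[ℂ] H)) η)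
        have e : ∀ q : M.toStarSubalgebra, ⟪((y * q : M.toStarSubalgebra) : H →L[ℂ] H) ξ, η⟫_ℂ =
            ⟪(q : H →L[ℂ] H) ξ, (ContinuousLinearMap.adjoint (y : H →L[ℂ] H)) η⟫_ℂ := by
          intro q
          rw [ContinuousLinearMap.adjoint_inner_right]
          rfl
        simp only [e]
        exact h2
    have h3 : ∀ x, τ (y * T x) = 0 := fun x => hTJ x y
    simp only [h3] at h1
    exact tendsto_nhds_unique h1 tendsto_const_nhds
  have hpa : ∀ a ∈ J, p * a = a := by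
    intro a ha
    refine alg_ext fun ξ η => ?_
    have h1 := hp2 ((a : H →L[ℂ] H) ξ) η
    have h2 : Tendsto (fun x => ⟪((x * a : M.toStarSubalgebra) : H →L[ℂ] H) ξ, η⟫_ℂ) U
        (𝓝 ⟪(a : H →L[ℂ] H) ξ, η⟫_ℂ) := by
      have h3 : Tendsto (fun x => x * a) U (𝓝 a) := (hl2 a ha).mono_left hU
      have hc : Continuous (fun q : M.toStarSubalgebra => ⟪(q : H →L[ℂ] H) ξ, η⟫_ℂ) := by
        have : Continuous (fun q : M.toStarSubalgebra => (q : H →L[ℂ] H) ξ) :=
          (ContinuousLinearMap.apply ℂ H ξ).continuous.comp continuous_subtype_val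
        exact this.inner continuous_const
      exact (hc.tendsto _).comp h3
    have h4 : (fun x => ⟪((T x : M.toStarSubalgebra) : H →L[ℂ] H) ((a : H →L[ℂ] H) ξ), η⟫_ℂ) =ᶠ[U]
        fun x => ⟪((x * a : M.toStarSubalgebra) : H →L[ℂ] H) ξ, η⟫_ℂ := by
      filter_upwards [hU hl1] with x hx
      simp only [T, if_pos hx]
      rfl
    exact tendsto_nhds_unique (h1.congr' h4) h2 |>.trans rfl |>.symm ▸ rfl
  have hap : ∀ a ∈ J, a * star p = a := by
    intro a ha
    have h1 := congrArg star (hpa (star a) (J.star_mem' ha))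
    rwa [star_mul, star_star] at h1
  have hps : star p = p := by
    have h1 := hap p hpJ
    have h2 : star (p * star p) = star p := congrArg star h1
    rw [star_mul, star_star, h1] at h2
    exact h2.symm
  have hpp : p * p = p := hpa p hpJ
  have hap' : ∀ a ∈ J, a * p = a := by
    intro a ha
    have := hap a ha
    rwa [hps] at this
  refine ⟨p, hps, hpp, ?_, fun x => hpJ x, fun x hx => hpa x hx⟩
  intro x
  have h1 : p * x ∈ J := by
    intro y
    rw [← mul_assoc, htr, ← mul_assoc]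
    exact hpJ _
  have h2 : x * p ∈ J := by
    intro y
    rw [← mul_assoc]
    exact hpJ _
  have h3 := hap' _ h1
  have h4 := hpa _ h2
  rw [← h3, mul_assoc, h4]

/-- positive operators of `M` are of the form `b⋆ b` with `b ∈ M` -/
theorem exists_star_mul {y : M.toStarSubalgebra}
    (hy : ∀ ξ : H, 0 ≤ ⟪(y : H →L[ℂ] H) ξ, ξ⟫_ℂ) : ∃ b : M.toStarSubalgebra, y = star b * b := by
  have hy0 : (0 : H →L[ℂ] H) ≤ (y : H →L[ℂ] H) := by
    rw [ContinuousLinearMap.nonneg_iff_isPositive, ContinuousLinearMap.isPositive_iff_complex]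
    intro x
    have h := Complex.nonneg_iff.1 (hy x)
    refine ⟨?_, h.1⟩
    apply Complex.ext
    · simp
    · simpa using h.2
  set s : H →L[ℂ] H := CFC.sqrt (y : H →L[ℂ] H) with hs
  have hss : s * s = (y : H →L[ℂ] H) := CFC.sqrt_mul_sqrt_self _ hy0
  have hs0 : 0 ≤ s := CFC.sqrt_nonneg _
  have hsa : star s = s := (IsSelfAdjoint.of_nonneg hs0).star_eq
  have hsM : s ∈ M := by
    have h1 : s ∈ Set.centralizer (Set.centralizer (M : Set (H →L[ℂ] H))) := by
      rw [Set.mem_centralizer_iff]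
      intro z hz
      rw [Set.mem_centralizer_iff] at hz
      have h2 : Commute (y : H →L[ℂ] H) z := hz _ y.2
      exact (h2.cfcₙ_nnreal NNReal.sqrt).symm
    rw [M.centralizer_centralizer] at h1
    exact h1
  refine ⟨⟨s, hsM⟩, Subtype.ext ?_⟩
  show (y : H →L[ℂ] H) = star s * s
  rw [hsa, hss]

/-- **module TN** -/
theorem exists_trOn {τ : M.toStarSubalgebra →L[ℂ] ℂ} (htr : ∀ a b, τ (a * b) = τ (b * a))
    (hnn : ∀ a, 0 ≤ τ (star a * a)) (h1 : τ 1 ≠ 0) (hN : NormalF M τ) {d : H →L[ℂ] H}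
    (hd : CProj M d)
    (hdτ : ∀ a b : M.toStarSubalgebra, (b : H →L[ℂ] H) = d * (a : H →L[ℂ] H) → τ b = τ a) :
    ∃ c : H →L[ℂ] H, CProj M c ∧ c ≠ 0 ∧ c * d = c ∧
      ∃ τ' : M.toStarSubalgebra →L[ℂ] ℂ, TrOn M c τ' := by
  obtain ⟨p, hps, hpp, hpc, hp0, hpJ⟩ := exists_null_unit htr hnn hN
  have hp0' : ∀ x, τ (p * x) = 0 := fun x => by rw [hpc, hp0]
  have hpp' : (p : H →L[ℂ] H) * (p : H →L[ℂ] H) = p := congrArg Subtype.val hpp
  have hps' : star (p : H →L[ℂ] H) = p := congrArg Subtype.val hps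
  have hpM : (p : H →L[ℂ] H) ∈ M := p.2
  set c : H →L[ℂ] H := 1 - (p : H →L[ℂ] H) with hc
  have hcM : c ∈ M := sub_mem (one_mem _) hpM
  have hcproj : IsStarProjection c := by
    refine ⟨?_, ?_⟩
    · show c * c = c
      rw [hc, mul_sub, sub_mul, sub_mul, one_mul, mul_one, one_mul, hpp']; simp
    · show star c = c
      rw [hc, star_sub, star_one, hps']
  have hcp : c * (p : H →L[ℂ] H) = 0 := by rw [hc, sub_mul, one_mul, hpp', sub_self]
  have hcomm : ∀ x : M.toStarSubalgebra, c * (x : H →L[ℂ] H) = (x : H →L[ℂ] H) * c := by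
    intro x
    have : (p : H →L[ℂ] H) * (x : H →L[ℂ] H) = x * p := congrArg Subtype.val (hpc x)
    rw [hc, sub_mul, mul_sub, one_mul, mul_one, this]
  have hCP : CProj M c := by
    refine ⟨hcproj, hcM, ?_⟩
    rw [VonNeumannAlgebra.mem_commutant_iff]
    intro x hx
    exact (hcomm ⟨x, hx⟩).symm
  have hcne : c ≠ 0 := by
    intro h0
    have hp1 : p = 1 := by
      apply Subtype.ext
      have : (1 : H →L[ℂ] H) - (p : H →L[ℂ] H) = 0 := h0
      exact (sub_eq_zero.1 this).symm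
    have := hp0 1
    rw [hp1, one_mul] at this
    exact h1 this
  have hcd : c * d = c := by
    let d' : M.toStarSubalgebra := ⟨d, hd.mem⟩
    have hd1 : star d' = d' := Subtype.ext hd.proj.isSelfAdjoint
    have hd2 : d' * d' = d' := Subtype.ext hd.proj.isIdempotentElem
    have h2 : τ d' = τ 1 := hdτ 1 d' (by show d = d * (1 : H →L[ℂ] H); rw [mul_one])
    have h3 : τ (star (1 - d') * (1 - d')) = 0 := by
      have : star (1 - d') * (1 - d') = 1 - d' := by
        rw [star_sub, star_one, hd1, mul_sub, sub_mul, sub_mul, one_mul, mul_one, one_mul, hd2]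
        simp
      rw [this, map_sub, h2, sub_self]
    have h4 := hpJ (1 - d') (fun y => tn_cs hnn h3 y)
    have h5 : (p : H →L[ℂ] H) * (1 - d) = 1 - d := congrArg Subtype.val h4
    have h6 : c * (1 - d) = 0 := by
      rw [← h5, ← mul_assoc, hcp, zero_mul]
    rw [mul_sub, mul_one, sub_eq_zero] at h6
    exact h6.symm
  have hτ1 : 0 < τ 1 := by
    have := hnn 1
    rw [star_one, one_mul] at this
    exact lt_of_le_of_ne this (Ne.symm h1)
  refine ⟨c, hCP, hcne, hcd, (τ 1)⁻¹ • τ, ?_⟩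
  have hval : ∀ a, ((τ 1)⁻¹ • τ) a = (τ 1)⁻¹ * τ a := fun a => rfl
  have hnorm : NormalF M ((τ 1)⁻¹ • τ) := by
    intro ε hε
    have h0 : 0 < ‖τ 1‖ := norm_pos_iff.2 h1
    obtain ⟨m, ξ, η, h⟩ := hN (ε * ‖τ 1‖) (by positivity)
    refine ⟨m, fun k => (τ 1)⁻¹ • ξ k, η, fun x => ?_⟩
    have e : ((τ 1)⁻¹ • τ) x - ∑ k, ⟪η k, (x : H →L[ℂ] H) ((τ 1)⁻¹ • ξ k)⟫_ℂ =
        (τ 1)⁻¹ * (τ x - ∑ k, ⟪η k, (x : H →L[ℂ] H) (ξ k)⟫_ℂ) := by
      rw [hval, mul_sub, Finset.mul_sum]
      congr 1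
      refine Finset.sum_congr rfl fun k _ => ?_
      rw [map_smul, inner_smul_right]
    rw [e, norm_mul, norm_inv]
    calc ‖τ 1‖⁻¹ * ‖τ x - ∑ k, ⟪η k, (x : H →L[ℂ] H) (ξ k)⟫_ℂ‖
        ≤ ‖τ 1‖⁻¹ * (ε * ‖τ 1‖ * ‖x‖) := by gcongr; exact h x
      _ = ε * ‖x‖ := by field_simp
  refine ⟨?_, ?_, ?_, ?_, ?_, hnorm⟩
  · intro a b
    rw [hval, hval, htr]
  · intro a
    rw [hval]
    exact mul_nonneg (inv_nonneg.2 hτ1.le) (hnn a)
  · rw [hval, inv_mul_cancel₀ h1]
  · intro a b hab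
    rw [hval, hval]
    congr 1
    have h2 : b = a - p * a := by
      apply Subtype.ext
      rw [hab, hc]
      show (1 - (p : H →L[ℂ] H)) * (a : H →L[ℂ] H) = (a : H →L[ℂ] H) - (p : H →L[ℂ] H) * a
      rw [sub_mul, one_mul]
    rw [h2, map_sub, hp0', sub_zero]
  · intro ξ ε hε
    by_contra hcon
    push Not at hcon
    have hcon' : ∀ n : ℕ, ∃ a : M.toStarSubalgebra, ‖a‖ ≤ 1 ∧
        (((τ 1)⁻¹ • τ) (star a * a)).re ≤ 1 / ((n : ℝ) + 1) ∧ ε < ‖c ((a : H →L[ℂ] H) ξ)‖ :=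
      fun n => hcon (1 / ((n : ℝ) + 1)) (by positivity)
    choose a ha1 ha2 ha3 using hcon'
    let U : Ultrafilter ℕ := Ultrafilter.of atTop
    have hU : (U : Filter ℕ) ≤ atTop := Ultrafilter.of_le _
    obtain ⟨y, hy1, hy2⟩ := exists_alg_lim M U (fun n => star (a n) * a n) (R := 1) (fun n => by
      refine (norm_mul_le _ _).trans ?_
      rw [norm_star]
      nlinarith [ha1 n, norm_nonneg (a n)])
    have hin : ∀ n (v : H), ⟪((star (a n) * a n : M.toStarSubalgebra) : H →L[ℂ] H) v, v⟫_ℂ =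
        ((‖(a n : H →L[ℂ] H) v‖ ^ 2 : ℝ) : ℂ) := by
      intro n v
      have : ((star (a n) * a n : M.toStarSubalgebra) : H →L[ℂ] H) v =
          (ContinuousLinearMap.adjoint (a n : H →L[ℂ] H)) ((a n : H →L[ℂ] H) v) := rfl
      rw [this, ContinuousLinearMap.adjoint_inner_left, Complex.ofReal_pow]
      exact inner_self_eq_norm_sq_to_K (𝕜 := ℂ) _
    have hypos : ∀ v : H, 0 ≤ ⟪(y : H →L[ℂ] H) v, v⟫_ℂ := by
      intro v
      refine ge_of_tendsto' (hy2 v v) fun n => ?_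
      rw [hin]
      exact Complex.zero_le_real.2 (sq_nonneg _)
    obtain ⟨b, hb⟩ := exists_star_mul hypos
    have hτy : τ y = 0 := by
      have h2 := hN.tendsto (R := 1) (fun n => by
        refine (norm_mul_le _ _).trans ?_
        rw [norm_star]
        nlinarith [ha1 n, norm_nonneg (a n)]) hy2
      have h3 : Tendsto (fun n => τ (star (a n) * a n)) atTop (𝓝 0) := by
        have h4 : Tendsto (fun n => (((τ 1)⁻¹ • τ) (star (a n) * a n)).re) atTop (𝓝 0) := by
          refine squeeze_zero (fun n => ?_) (fun n => ha2 n) ?_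
          · rw [hval]
            exact (Complex.nonneg_iff.1 (mul_nonneg (inv_nonneg.2 hτ1.le) (hnn (a n)))).1
          · exact tendsto_one_div_add_atTop_nhds_zero_nat
        have h5 : ∀ n, τ (star (a n) * a n) =
            τ 1 * (((((τ 1)⁻¹ • τ) (star (a n) * a n)).re : ℝ) : ℂ) := by
          intro n
          have h6 : (((((τ 1)⁻¹ • τ) (star (a n) * a n)).re : ℝ) : ℂ) =
              ((τ 1)⁻¹ • τ) (star (a n) * a n) := by
            have h7 := Complex.nonneg_iff.1 (mul_nonneg (inv_nonneg.2 hτ1.le) (hnn (a n)))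
            apply Complex.ext
            · simp
            · rw [hval]; simpa using h7.2
          rw [h6, hval, ← mul_assoc, mul_inv_cancel₀ h1, one_mul]
        have h8 := ((Complex.continuous_ofReal.tendsto _).comp h4).const_mul (τ 1)
        simp only [Complex.ofReal_zero, mul_zero] at h8
        exact h8.congr fun n => (h5 n).symm
      exact tendsto_nhds_unique h2 (h3.mono_left hU)
    have hbJ : ∀ x, τ (x * b) = 0 := fun x => tn_cs hnn (by rw [← hb]; exact hτy) x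
    have hyJ : ∀ x, τ (x * y) = 0 := fun x => by rw [hb, ← mul_assoc]; exact hbJ _
    have hpy := hpJ y hyJ
    have hcy : c * (y : H →L[ℂ] H) = 0 := by
      have h2 : (p : H →L[ℂ] H) * (y : H →L[ℂ] H) = y := congrArg Subtype.val hpy
      rw [← h2, ← mul_assoc, hcp, zero_mul]
    have hyc : (y : H →L[ℂ] H) (c ξ) = 0 := by
      have h2 : (y : H →L[ℂ] H) * c = 0 := by rw [← hcomm, hcy]
      exact congrArg (fun T : H →L[ℂ] H => T ξ) h2
    have h2 := hy2 (c ξ) (c ξ)
    rw [hyc, inner_zero_left] at h2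
    have h3 : ∀ n, ⟪((star (a n) * a n : M.toStarSubalgebra) : H →L[ℂ] H) (c ξ), c ξ⟫_ℂ =
        ((‖c ((a n : H →L[ℂ] H) ξ)‖ ^ 2 : ℝ) : ℂ) := by
      intro n
      rw [hin]
      have : (a n : H →L[ℂ] H) (c ξ) = c ((a n : H →L[ℂ] H) ξ) :=
        congrArg (fun T : H →L[ℂ] H => T ξ) (hcomm (a n)).symm
      rw [this]
    have h4 : Tendsto (fun n => ‖c ((a n : H →L[ℂ] H) ξ)‖ ^ 2) U (𝓝 0) := by
      have h5 := (Complex.continuous_re.tendsto _).comp h2
      simp only [Complex.zero_re] at h5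
      refine h5.congr fun n => ?_
      show (⟪((star (a n) * a n : M.toStarSubalgebra) : H →L[ℂ] H) (c ξ), c ξ⟫_ℂ).re = _
      rw [h3, Complex.ofReal_re]
    have h5 : ε ^ 2 ≤ 0 := ge_of_tendsto' h4 fun n => by
      have := ha3 n
      gcongr
    nlinarith

end Crest.Agent.R121
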