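import Crest.Agent.R124.Cmp2

/-! Row 121, module T (types and traces), part 0 (helper80, ideas 549): finiteness of a central corner.

`M` von Neumann algebra, `f` a central projection of `M`; `FinAt M f`: `v* v = f → v v* = f` in `M`.
`not_infinite_seq`: no infinite sequence of orthogonal copies of a nonzero projection below `f`.
`exists_cover`: for a projection `R ≠ 0` below `f` there are a finite family `b` in `M` and a central projection
`c`, `c R ≠ 0`, with `∑ b_i* b_i = c` and `b_i b_i* ≤ c R`; and `R` does not have `N` orthogonal copies for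
every `N`. -/

set_option autoImplicit false
set_option linter.unusedSectionVars false

open Filter Topology Crest.Agent.R95.VN Crest.Agent.R124.Cmp
open scoped InnerProductSpace

namespace Crest.Agent.R121.Ty

variable {H : Type*} [NormedAddCommGroup H] [InnerProductSpace ℂ H] [CompleteSpace H]
variable {M : VonNeumannAlgebra H}

/-- the corner of the central projection `f` is finite -/
def FinAt (M : VonNeumannAlgebra H) (f : H →L[ℂ] H) : Prop :=
  ∀ v ∈ M, star v * v = f → v * star v = f

/-- `w i` are copies of `R` with orthogonal ranges -/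
def Copies (M : VonNeumannAlgebra H) (R : H →L[ℂ] H) {ι : Type*} (w : ι → H →L[ℂ] H) : Prop :=
  (∀ i, w i ∈ M) ∧ (∀ i, star (w i) * w i = R) ∧ ∀ i j, i ≠ j → star (w i) * w j = 0

theorem Copies.pi {R : H →L[ℂ] H} (hR : IsStarProjection R) {ι : Type*} {w : ι → H →L[ℂ] H}
    (hw : Copies M R w) (i : ι) : w i * star (w i) * w i = w i := by
  apply pi_of_left
  rw [hw.2.1 i, proj_mul hR]

theorem Copies.mul_right {R : H →L[ℂ] H} (hR : IsStarProjection R) {ι : Type*} {w : ι → H →L[ℂ] H}
    (hw : Copies M R w) (i : ι) : w i * R = w i := by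
  rw [← hw.2.1 i, ← mul_assoc, hw.pi hR i]

/-- a central projection `f` with `R ≤ f` fixes the copies of `R` -/
theorem Copies.mul_left {R f : H →L[ℂ] H} (hR : IsStarProjection R) {ι : Type*} {w : ι → H →L[ℂ] H}
    (hw : Copies M R w) (hfc : f ∈ M.commutant) (hRf : f * R = R) (i : ι) : f * w i = w i := by
  have h1 : f * w i = w i * f := comm_of_mem (hw.1 i) hfc
  rw [← hw.mul_right hR i, ← mul_assoc, h1, mul_assoc, hRf]

/-- partial sums of the shift -/
noncomputable def sh (w : ℕ → H →L[ℂ] H) (n : ℕ) : H →L[ℂ] H :=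
  ∑ i ∈ Finset.range n, w (i + 1) * star (w i)

theorem sh_star_mul {R : H →L[ℂ] H} (hR : IsStarProjection R) {w : ℕ → H →L[ℂ] H}
    (hw : Copies M R w) (n : ℕ) : star (sh w n) * sh w n = ∑ i ∈ Finset.range n, w i * star (w i) := by
  unfold sh
  rw [star_sum, Finset.sum_mul]
  refine Finset.sum_congr rfl fun i hi => ?_
  rw [Finset.mul_sum, Finset.sum_eq_single_of_mem i hi]
  · rw [star_mul, star_star, mul_assoc, ← mul_assoc (star (w (i + 1))), hw.2.1, ← mul_assoc,
      hw.mul_right hR]
  · intro j _ hj
    rw [star_mul, star_star, mul_assoc, ← mul_assoc (star (w (i + 1))),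
      hw.2.2 (i + 1) (j + 1) (by omega), zero_mul, mul_zero]

theorem sh_mul_proj {R : H →L[ℂ] H} (hR : IsStarProjection R) {w : ℕ → H →L[ℂ] H}
    (hw : Copies M R w) {n m : ℕ} (h : n ≤ m) :
    sh w m * (∑ i ∈ Finset.range n, w i * star (w i)) = sh w n := by
  unfold sh
  rw [Finset.mul_sum]
  refine Finset.sum_congr rfl fun i hi => ?_
  rw [Finset.sum_mul, Finset.sum_eq_single_of_mem i
    (Finset.mem_range.2 ((Finset.mem_range.1 hi).trans_le h))]
  · rw [mul_assoc, ← mul_assoc (star (w i)) (w i), hw.2.1]
    have := congrArg star (hw.mul_right hR i)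
    rw [star_mul, proj_star hR] at this
    rw [this]
  · intro j _ hj
    rw [mul_assoc, ← mul_assoc (star (w j)), hw.2.2 j i hj, zero_mul, mul_zero]

theorem sh_pi {R : H →L[ℂ] H} (hR : IsStarProjection R) {w : ℕ → H →L[ℂ] H}
    (hw : Copies M R w) (n : ℕ) : sh w n * star (sh w n) * sh w n = sh w n := by
  rw [mul_assoc, sh_star_mul hR hw, sh_mul_proj hR hw le_rfl]

theorem sh_ext {R : H →L[ℂ] H} (hR : IsStarProjection R) {w : ℕ → H →L[ℂ] H}
    (hw : Copies M R w) {n m : ℕ} (h : n ≤ m) : Ext (sh w n) (sh w m) := by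
  show sh w m * (star (sh w n) * sh w n) = sh w n
  rw [sh_star_mul hR hw, sh_mul_proj hR hw h]

/-- no infinite sequence of orthogonal copies of a nonzero projection in a finite corner -/
theorem not_infinite_seq {f : H →L[ℂ] H} (hf : IsStarProjection f) (hfM : f ∈ M)
    (hfc : f ∈ M.commutant) (hfin : FinAt M f) {R : H →L[ℂ] H} (hR : IsStarProjection R)
    (hRf : f * R = R) {w : ℕ → H →L[ℂ] H} (hw : Copies M R w) : R = 0 := by
  obtain ⟨v, hvM, hv, hvext, hvl, hvr⟩ := exists_sup (N := M) (sh w)
    (fun n => sum_mem fun i _ => mul_mem (hw.1 _) (star_mem (hw.1 _)))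
    (sh_pi hR hw) (fun i j => ⟨max i j, sh_ext hR hw (le_max_left _ _), sh_ext hR hw (le_max_right _ _)⟩)
  have hP := pi_left hv
  set P := star v * v with hPdef
  have hPu : ∀ n, P * (∑ i ∈ Finset.range n, w i * star (w i)) = ∑ i ∈ Finset.range n, w i * star (w i) := by
    intro n
    rw [← sh_star_mul hR hw, hPdef, mul_assoc, hvext n]
    exact (hvext n).left (sh_pi hR hw n) hv
  have hPw : ∀ n, P * w n = w n := by
    intro n
    have h1 := hPu (n + 1)
    have h2 := congrArg (fun T => T * w n) h1
    simp only [mul_assoc, Finset.sum_mul] at h2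
    rw [Finset.sum_eq_single_of_mem n (Finset.self_mem_range_succ n)] at h2
    · rwa [hw.2.1, hw.mul_right hR] at h2
    · intro j _ hj
      rw [hw.2.2 j n hj, mul_zero]
  have hPv : P * v = v := by
    apply hvl
    intro n
    unfold sh
    rw [Finset.mul_sum]
    refine Finset.sum_congr rfl fun i _ => ?_
    rw [← mul_assoc, hPw]
  have hfv : f * v = v := by
    apply hvl
    intro n
    unfold sh
    rw [Finset.mul_sum]
    refine Finset.sum_congr rfl fun i _ => ?_
    rw [← mul_assoc, hw.mul_left hR hfc hRf]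
  have h0v : star (w 0) * v = 0 := by
    have h1 : (1 - w 0 * star (w 0)) * v = v := by
      apply hvl
      intro n
      unfold sh
      rw [Finset.mul_sum]
      refine Finset.sum_congr rfl fun i _ => ?_
      rw [sub_mul, one_mul, mul_assoc, ← mul_assoc (star (w 0)), hw.2.2 0 (i + 1) (by omega), zero_mul,
        mul_zero, sub_zero]
    have h2 : w 0 * star (w 0) * v = 0 := by
      rw [sub_mul, one_mul] at h1
      exact sub_eq_self.1 h1
    have h3 : star (w 0) * (w 0 * star (w 0) * v) = 0 := by rw [h2, mul_zero]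
    rw [← mul_assoc, ← mul_assoc, hw.2.1] at h3
    have h4 := congrArg star (hw.mul_right hR 0)
    rw [star_mul, proj_star hR] at h4
    rwa [h4] at h3
  have hfvc : f * v = v * f := comm_of_mem hvM hfc
  have hvf : v * f = v := by rw [← hfvc, hfv]
  have hPf : P * f = P := by rw [hPdef, mul_assoc, hvf]
  have hfP : f * P = P := by
    have := congrArg star hPf
    rwa [star_mul, proj_star hf, proj_star hP] at this
  have hvP : v * P = v := by rw [hPdef, ← mul_assoc, hv]
  have hsvP : star v * P = star v := by
    have := congrArg star hPv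
    rwa [star_mul, proj_star hP] at this
  have hsvf : star v * f = star v := by
    have := congrArg star hfv
    rwa [star_mul, proj_star hf] at this
  have hU : star (v + (f - P)) * (v + (f - P)) = f := by
    rw [star_add, star_sub, proj_star hf, proj_star hP, add_mul, mul_add, mul_add, mul_sub (star v), hsvf, hsvP,
      sub_self, add_zero, sub_mul, hfv, hPv, sub_self, zero_add, sub_mul, mul_sub, mul_sub, proj_mul hf, hfP,
      hPf, proj_mul hP, ← hPdef]
    abel
  have hPM : P ∈ M := mul_mem (star_mem hvM) hvM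
  have h1 := hfin (v + (f - P)) (add_mem hvM (sub_mem hfM hPM)) hU
  have h2 : star (w 0) * ((v + (f - P)) * star (v + (f - P))) = star (w 0) := by
    rw [h1]
    have := congrArg star (hw.mul_left hR hfc hRf 0)
    rwa [star_mul, proj_star hf] at this
  have h3 : star (w 0) * (v + (f - P)) = 0 := by
    have h4 := congrArg star (hPw 0)
    rw [star_mul, proj_star hP] at h4
    have h5 := congrArg star (hw.mul_left hR hfc hRf 0)
    rw [star_mul, proj_star hf] at h5
    rw [mul_add, h0v, mul_sub, h5, h4, sub_self, add_zero]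
  rw [← mul_assoc, h3, zero_mul] at h2
  rw [← hw.2.1 0, ← h2, zero_mul]

/-- a maximal finite family of orthogonal copies of `R ≠ 0` in a finite corner -/
theorem exists_max_copies {f : H →L[ℂ] H} (hf : IsStarProjection f) (hfM : f ∈ M)
    (hfc : f ∈ M.commutant) (hfin : FinAt M f) {R : H →L[ℂ] H} (hR : IsStarProjection R)
    (hRf : f * R = R) (hR0 : R ≠ 0) :
    ∃ (m : ℕ) (w : Fin m → H →L[ℂ] H), Copies M R w ∧
      ∀ y ∈ M, star y * y = R → (∀ i, star (w i) * y = 0) → False := by
  obtain ⟨S, hS⟩ := zorn_subset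
    {S : Set (H →L[ℂ] H) | (∀ x ∈ S, x ∈ M ∧ star x * x = R) ∧ S.Pairwise fun x y => star x * y = 0} (by
      intro c hc hch
      refine ⟨⋃₀ c, ⟨?_, ?_⟩, fun s hs => Set.subset_sUnion_of_mem hs⟩
      · rintro x ⟨s, hs, hx⟩
        exact (hc hs).1 x hx
      · rw [Set.pairwise_sUnion hch.directedOn]
        exact fun a ha => (hc ha).2)
  rcases S.finite_or_infinite with hfi | hinf
  · have := hfi.to_subtype
    obtain ⟨m, ⟨e⟩⟩ := Finite.exists_equiv_fin S
    refine ⟨m, fun i => (e.symm i : H →L[ℂ] H), ⟨fun i => (hS.prop.1 _ (e.symm i).2).1,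
      fun i => (hS.prop.1 _ (e.symm i).2).2, fun i j hij => hS.prop.2 (e.symm i).2 (e.symm j).2 ?_⟩, ?_⟩
    · intro h
      exact hij (e.symm.injective (Subtype.ext h))
    · intro y hyM hyR hy
      have hyS : ∀ x ∈ S, star x * y = 0 := by
        intro x hx
        have := hy (e ⟨x, hx⟩)
        simpa using this
      have h1 : insert y S ∈ {S : Set (H →L[ℂ] H) | (∀ x ∈ S, x ∈ M ∧ star x * x = R) ∧
          S.Pairwise fun x y => star x * y = 0} := by
        refine ⟨?_, ?_⟩
        · intro x hx
          rcases Set.mem_insert_iff.1 hx with rfl | hx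
          · exact ⟨hyM, hyR⟩
          · exact hS.prop.1 x hx
        · rw [Set.pairwise_insert]
          refine ⟨hS.prop.2, fun x hx _ => ⟨?_, hyS x hx⟩⟩
          have := congrArg star (hyS x hx)
          simpa using this
      have h2 := hS.eq_of_subset h1 (Set.subset_insert y S)
      have h3 : y ∈ S := by rw [h2]; exact Set.mem_insert y S
      exact hR0 (by rw [← hyR]; exact hyS y h3)
  · exfalso
    let e := hinf.natEmbedding
    refine hR0 (not_infinite_seq hf hfM hfc hfin hR hRf (w := fun n => (e n : H →L[ℂ] H))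
      ⟨fun i => (hS.prop.1 _ (e i).2).1, fun i => (hS.prop.1 _ (e i).2).2,
        fun i j hij => hS.prop.2 (e i).2 (e j).2 ?_⟩)
    intro h
    exact hij (e.injective (Subtype.ext h))

/-- **finite cover**: for `R ≠ 0` in a finite corner there is a central projection `c`, `c R ≠ 0`, which is
subequivalent to finitely many copies of `R`, and `R` has not arbitrarily many orthogonal copies. -/
theorem exists_cover {f : H →L[ℂ] H} (hf : IsStarProjection f) (hfM : f ∈ M)
    (hfc : f ∈ M.commutant) (hfin : FinAt M f) {R : H →L[ℂ] H} (hR : IsStarProjection R)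
    (hRM : R ∈ M) (hRf : f * R = R) (hR0 : R ≠ 0) :
    ∃ (n : ℕ) (b : Fin n → H →L[ℂ] H) (c : H →L[ℂ] H), c ∈ M ∧ c ∈ M.commutant ∧ IsStarProjection c ∧
      f * c = c ∧ c * R ≠ 0 ∧ (∀ i, b i ∈ M) ∧ (∀ i, R * b i = b i) ∧ (∀ i, c * b i = b i) ∧
      (∀ i, b i * star (b i) * b i = b i) ∧ ∑ i, star (b i) * b i = c ∧
      ∀ w : Fin (n + 1) → H →L[ℂ] H, ¬ Copies M R w := by
  obtain ⟨m, w, hw, hmax⟩ := exists_max_copies hf hfM hfc hfin hR hRf hR0
  have hwp : ∀ i, w i * star (w i) * w i = w i := hw.pi hR
  -- the rest projection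
  set P := ∑ i, w i * star (w i) with hPdef
  have hPs : star P = P := by
    rw [hPdef, star_sum]
    exact Finset.sum_congr rfl fun i _ => by rw [star_mul, star_star]
  have hPM : P ∈ M := sum_mem fun i _ => mul_mem (hw.1 _) (star_mem (hw.1 _))
  have hPw : ∀ i, P * w i = w i := by
    intro i
    rw [hPdef, Finset.sum_mul, Finset.sum_eq_single_of_mem i (Finset.mem_univ _)]
    · exact hwp i
    · intro j _ hj
      rw [mul_assoc, hw.2.2 j i hj, mul_zero]
  have hPP : P * P = P := by
    conv_lhs => rw [hPdef]
    rw [← hPdef, hPdef, Finset.mul_sum]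
    refine Finset.sum_congr rfl fun i _ => ?_
    rw [← hPdef, ← mul_assoc, hPw]
  have hP : IsStarProjection P := ⟨hPP, hPs⟩
  have hfP : f * P = P := by
    rw [hPdef, Finset.mul_sum]
    refine Finset.sum_congr rfl fun i _ => ?_
    rw [← mul_assoc, hw.mul_left hR hfc hRf]
  have hr0 : IsStarProjection (f - P) := proj_sub hP hf hfP
  have hr0M : f - P ∈ M := sub_mem hfM hPM
  obtain ⟨v, z, hvM, hzM, hzc, hz, hv, hvq, hpv, hzq, hzp⟩ := comparison M hR hr0 hRM hr0M
  have hvf : v * f = v := by
    have h1 : (f - P) * f = f - P := by rw [sub_mul, proj_mul hf, proj_flip hP hf hfP]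
    rw [← hvq, mul_assoc, h1]
  have hzf : z * f = f * z := comm_of_mem hfM hzc
  -- the central projection
  obtain ⟨c, hcdef⟩ : ∃ c, c = z * f := ⟨_, rfl⟩
  have hcM : c ∈ M := by rw [hcdef]; exact mul_mem hzM hfM
  have hcc : c ∈ M.commutant := by rw [hcdef]; exact mul_mem hzc hfc
  have hcs : star c = c := by rw [hcdef, star_mul, proj_star hf, proj_star hz, hzf]
  have hccc : c * c = c := by
    rw [hcdef, mul_assoc, ← mul_assoc f z f, ← hzf, mul_assoc z f f, proj_mul hf, ← mul_assoc, proj_mul hz]
  have hc : IsStarProjection c := ⟨hccc, hcs⟩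
  have hfc' : f * c = c := by rw [hcdef, hzf, ← mul_assoc, proj_mul hf]
  have hcf : c * f = c := by rw [hcdef, mul_assoc, proj_mul hf]
  have hcR : ∀ x ∈ M, c * x = x * c := fun x hx => comm_of_mem hx hcc
  have hRv : star v * R = star v := by
    have := congrArg star hpv
    rwa [star_mul, proj_star hR] at this
  have hcR0 : c * R ≠ 0 := by
    intro h0
    have hzR : z * R = 0 := by rw [← hRf, ← mul_assoc, ← hcdef]; exact h0
    have h1 : (1 - z) * R = R := by rw [sub_mul, one_mul, hzR, sub_zero]
    have hzv : z * v = v * z := comm_of_mem hvM hzc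
    have h2 : z * v = 0 := by rw [← hpv, ← mul_assoc, hzR, zero_mul]
    have h3 : v * star v = R := by
      rw [h1, sub_mul, one_mul, ← mul_assoc, h2, zero_mul, sub_zero] at hzp
      exact hzp.symm
    refine hmax (star v) (star_mem hvM) (by rw [star_star]; exact h3) fun i => ?_
    have h4 : star v = (f - P) * star v := by
      have := congrArg star hvq
      rw [star_mul, proj_star hr0] at this
      exact this.symm
    have h5 : star (w i) * (f - P) = 0 := by
      have h6 := congrArg star (hPw i)
      rw [star_mul, hPs] at h6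
      have h7 := congrArg star (hw.mul_left hR hfc hRf i)
      rw [star_mul, proj_star hf] at h7
      rw [mul_sub, h7, h6, sub_self]
    rw [h4, ← mul_assoc, h5, zero_mul]
  have hcv : c * v = v * c := hcR v hvM
  have hcq : star v * v * c = c * (f - P) := by
    have h1 : star v * v * c = c * (star v * v) := (hcR _ (mul_mem (star_mem hvM) hvM)).symm
    rw [h1, hcdef, mul_assoc, mul_assoc]
    have h2 : f * (star v * v) = star v * v := by
      have h3 := congrArg star hvf
      rw [star_mul, proj_star hf] at h3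
      rw [← mul_assoc, h3]
    have h4 : f * (f - P) = f - P := by rw [mul_sub, proj_mul hf, hfP]
    rw [h2, h4, hzq]
  refine ⟨m + 1, Fin.cons (v * c) fun i => star (w i) * c, c, hcM, hcc, hc, hfc', hcR0, ?_, ?_, ?_, ?_, ?_, ?_⟩
  · intro i
    refine Fin.cases ?_ (fun j => ?_) i
    · exact mul_mem hvM hcM
    · exact mul_mem (star_mem (hw.1 j)) hcM
  · intro i
    refine Fin.cases ?_ (fun j => ?_) i
    · show R * (v * c) = v * c
      rw [← mul_assoc, hpv]
    · show R * (star (w j) * c) = star (w j) * c
      have := congrArg star (hw.mul_right hR j)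
      rw [star_mul, proj_star hR] at this
      rw [← mul_assoc, this]
  · intro i
    refine Fin.cases ?_ (fun j => ?_) i
    · show c * (v * c) = v * c
      rw [← mul_assoc, hcv, mul_assoc, hccc]
    · show c * (star (w j) * c) = star (w j) * c
      rw [← mul_assoc, hcR _ (star_mem (hw.1 j)), mul_assoc, hccc]
  · intro i
    refine Fin.cases ?_ (fun j => ?_) i
    · show v * c * star (v * c) * (v * c) = v * c
      rw [← hcv, star_mul, hcs, mul_assoc (c * v), mul_assoc (star v), ← mul_assoc c c v, hccc, hcv,
        ← mul_assoc (star v), mul_assoc v, hcq, ← mul_assoc c c, hccc, ← hcq, ← mul_assoc, ← mul_assoc, hv]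
    · show star (w j) * c * star (star (w j) * c) * (star (w j) * c) = star (w j) * c
      have h1 : c * w j = w j * c := hcR _ (hw.1 j)
      have h2 : c * star (w j) = star (w j) * c := hcR _ (star_mem (hw.1 j))
      have h3 := congrArg star (hwp j)
      rw [star_mul, star_mul, star_star] at h3
      rw [star_mul, star_star, hcs, ← h2, mul_assoc (c * star (w j)), mul_assoc c (w j),
        ← mul_assoc (w j) c, ← h1, mul_assoc c (w j), ← mul_assoc c c, hccc, ← mul_assoc (c * star (w j)) c,
        mul_assoc c (star (w j)) c, ← h2, ← mul_assoc c c, hccc, mul_assoc, h3]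
  · rw [Fin.sum_univ_succ]
    simp only [Fin.cons_zero, Fin.cons_succ]
    have h1 : star (v * c) * (v * c) = c * (f - P) := by
      rw [star_mul, hcs, mul_assoc, ← mul_assoc (star v), hcq, ← mul_assoc, hccc]
    have h2 : ∀ j, star (star (w j) * c) * (star (w j) * c) = c * (w j * star (w j)) := by
      intro j
      have h3 : c * (w j * star (w j)) = (w j * star (w j)) * c := hcR _ (mul_mem (hw.1 j) (star_mem (hw.1 j)))
      rw [star_mul, star_star, hcs, mul_assoc, ← mul_assoc (w j), ← h3, ← mul_assoc, hccc]
    rw [h1, Finset.sum_congr rfl fun j _ => h2 j, ← Finset.mul_sum, ← hPdef, ← mul_add, sub_add_cancel, hcf]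
  · intro u hu
    -- the isometry of the corner `f` : `∑ u_i w_i* c + u_a (v c) + (f - c)`, indices `0..m-1`, `a = m`, `b = m+1`
    have hcu : ∀ i, c * u i = u i * c := fun i => hcR _ (hu.1 i)
    have hsu : ∀ i, c * star (u i) = star (u i) * c := fun i => hcR _ (star_mem (hu.1 i))
    have hsw : ∀ i, c * star (w i) = star (w i) * c := fun i => hcR _ (star_mem (hw.1 i))
    have hsv : c * star v = star v * c := hcR _ (star_mem hvM)
    obtain ⟨a, ha⟩ : ∃ a : Fin (m + 2), a = Fin.castSucc (Fin.last m) := ⟨_, rfl⟩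
    obtain ⟨b, hb⟩ : ∃ b : Fin (m + 2), b = Fin.last (m + 1) := ⟨_, rfl⟩
    obtain ⟨e, he⟩ : ∃ e : Fin m → Fin (m + 2), e = fun i => Fin.castSucc (Fin.castSucc i) := ⟨_, rfl⟩
    have hea : ∀ i, e i ≠ a := by
      intro i h
      rw [he, ha] at h
      have := congrArg Fin.val h
      simp at this
      omega
    have heb : ∀ i, e i ≠ b := by
      intro i h
      rw [he, hb] at h
      have := congrArg Fin.val h
      simp at this
      omega
    have hab : a ≠ b := by
      intro h
      rw [ha, hb] at h
      have := congrArg Fin.val h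
      simp at this
    have hee : ∀ i j, i ≠ j → e i ≠ e j := by
      intro i j hij h
      rw [he] at h
      have := congrArg Fin.val h
      simp at this
      omega
    obtain ⟨U, hU⟩ : ∃ U, U = ∑ i, u (e i) * star (w i) := ⟨_, rfl⟩
    have hUM : U ∈ M := by
      rw [hU]
      exact sum_mem fun i _ => mul_mem (hu.1 _) (star_mem (hw.1 _))
    have hRw : ∀ i, R * star (w i) = star (w i) := by
      intro i
      have := congrArg star (hw.mul_right hR i)
      rwa [star_mul, proj_star hR] at this
    have hUU : star U * U = P := by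
      rw [hU, star_sum, Finset.sum_mul, hPdef]
      refine Finset.sum_congr rfl fun i _ => ?_
      rw [Finset.mul_sum, Finset.sum_eq_single_of_mem i (Finset.mem_univ _)]
      · rw [star_mul, star_star, mul_assoc, ← mul_assoc (star (u (e i))), hu.2.1, hRw]
      · intro j _ hj
        rw [star_mul, star_star, mul_assoc, ← mul_assoc (star (u (e i))), hu.2.2 _ _ (hee _ _ hj.symm), zero_mul,
          mul_zero]
    have hUa : star U * (u a * v) = 0 := by
      rw [hU, star_sum, Finset.sum_mul]
      refine Finset.sum_eq_zero fun i _ => ?_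
      rw [star_mul, star_star, mul_assoc, ← mul_assoc (star (u (e i))), hu.2.2 _ _ (hea i), zero_mul, mul_zero]
    have haa : star (u a * v) * (u a * v) = star v * v := by
      rw [star_mul, mul_assoc, ← mul_assoc (star (u a)), hu.2.1, hpv]
    have haU : star (u a * v) * U = 0 := by
      have := congrArg star hUa
      rwa [star_mul, star_star, star_zero] at this
    -- `W = U + u_a v`
    obtain ⟨W, hW⟩ : ∃ W, W = U + u a * v := ⟨_, rfl⟩
    have hWM : W ∈ M := by rw [hW]; exact add_mem hUM (mul_mem (hu.1 _) hvM)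
    have hWW : star W * W = P + star v * v := by
      rw [hW, star_add, add_mul, mul_add, mul_add, hUU, hUa, haU, haa]
      abel
    have hcW : c * W = W * c := hcR W hWM
    have hV : star (W * c + (f - c)) * (W * c + (f - c)) = f := by
      have h1 : star (W * c) * (f - c) = 0 := by
        rw [star_mul, hcs, hcR _ (star_mem hWM), mul_assoc, mul_sub, hcf, hccc, sub_self, mul_zero]
      have h2 : (f - c) * (W * c) = 0 := by
        rw [← hcW, ← mul_assoc, sub_mul, hfc', hccc, sub_self, zero_mul]
      have h3 : star (W * c) * (W * c) = c := by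
        rw [star_mul, hcs, mul_assoc, ← mul_assoc (star W), hWW, add_mul, hcq, ← hcR P hPM, ← mul_add,
          add_sub_cancel, hcf, hccc]
      rw [star_add, star_sub, proj_star hf, hcs, add_mul, mul_add, mul_add, h1, h2, h3, mul_sub, sub_mul, sub_mul,
        proj_mul hf, hcf, hfc', hccc]
      abel
    have h1 := hfin _ (add_mem (mul_mem hWM hcM) (sub_mem hfM hcM)) hV
    -- multiply by `star (u b) c` from the left
    have h2 : star (u b) * c * (W * c + (f - c)) = 0 := by
      have h3 : star (u b) * W = 0 := by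
        rw [hW, hU, mul_add, Finset.mul_sum, ← mul_assoc, hu.2.2 _ _ (Ne.symm hab), zero_mul, add_zero]
        refine Finset.sum_eq_zero fun i _ => ?_
        rw [← mul_assoc, hu.2.2 _ _ (Ne.symm (heb i)), zero_mul]
      rw [mul_add, mul_sub, mul_assoc (star (u b)) c f, hcf, mul_assoc (star (u b)) c c, hccc, sub_self, add_zero,
        mul_assoc, ← mul_assoc c, hcW, ← mul_assoc, ← mul_assoc, h3, zero_mul, zero_mul]
    have h4 : star (u b) * c * f = 0 := by rw [← h1, ← mul_assoc, h2, zero_mul]
    rw [mul_assoc, hcf] at h4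
    apply hcR0
    rw [← hu.2.1 b, ← mul_assoc, hsu, h4, zero_mul]

end Crest.Agent.R121.Ty
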