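import Crest.Agent.R121.TyDefs
import Crest.Agent.R121.C4

/-! Row 121, module T, part A (helper80): small columns from the absence of traces.

`exists_trace_of_cone` (TyA1).  Define `g a = m(a⁺) - m(a⁻)` on selfadjoint `a`; additivity from
`(a+b)⁺ + a⁻ + b⁻ = (a+b)⁻ + a⁺ + b⁺` (all positive), homogeneity for `r ≥ 0` from `(r a)⁺ = r a⁺`, and for `-1`.
`τ x = g (Re x) + i g (Im x)` is complex linear; bound: `|g a| ≤ m(‖a‖ 1) = ‖a‖ m 1` for selfadjoint `a`, so
`‖τ x‖ ≤ 2 m(1) ‖x‖`.  Tracial: `τ(x⋆x) = τ(xx⋆)` for all `x` and polarisation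
(`4 y⋆x = ∑_k i^k (x + i^k y)⋆(x + i^k y)`).

`exists_small_col` (TyA2).  `S = {∑ b_i b_i⋆ : ∑ b_i⋆ b_i = q} + {positive elements}` is convex (for columns `b`, `b'`
and weights `s + t = 1` take the column `(√s b, √t b')`).  If all `‖∑ b_i b_i⋆‖ > 2 ε`, then `S` is disjoint from the
open ball of radius `2 ε` (`0 ≤ a ≤ c → ‖a‖ ≤ ‖c‖`).  `geometric_hahn_banach_open` (over ℝ) gives a real functional `G`
and `u` with `G < u` on the ball and `u ≤ G` on `S`.  So `0 < u`, `2 ε ‖G‖ ≤ u`, `G ≥ 0` on positive elements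
(`G(K + t y) ≥ u` for all `t ≥ 0`), `u ≤ m G q` (`R124.T.le_m`), `m G 1 ≤ G 1 ≤ ‖G‖ ≤ u / (2 ε)`.  `m G` extends to a
trace `τ` (TyA1 with `m_nonneg`, `m_add`, `m_smul`, `m_trace`): `τ q ≥ u > 0`, `τ 1 ≤ u / (2ε)`, so
`u ≤ τ q ≤ ε τ 1 ≤ u / 2`, contradiction.

`exists_small_col_vn` (TyA3).  Apply TyA2 to `A = M.toStarSubalgebra`
(`StarSubalgebra.cstarAlgebra M.toStarSubalgebra (h_closed := isClosed_vNA M)` as in `C4.lean`, order
`CStarAlgebra.spectralOrder`). -/

set_option autoImplicit false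

namespace Crest.Agent.R121.Ty

open scoped InnerProductSpace ComplexOrder
open Crest.Agent.R121

section abstract

variable {A : Type*} [CStarAlgebra A] [PartialOrder A] [StarOrderedRing A]

/-- TyA1 -/
theorem exists_trace_of_cone (m : A → ℝ) (h0 : ∀ b, 0 ≤ b → 0 ≤ m b)
    (hadd : ∀ b c, 0 ≤ b → 0 ≤ c → m (b + c) = m b + m c)
    (hsm : ∀ (r : ℝ) (b : A), 0 ≤ r → 0 ≤ b → m (r • b) = r * m b)
    (htr : ∀ x : A, m (star x * x) = m (x * star x)) :
    ∃ τ : A →L[ℂ] ℂ, (∀ a b, τ (a * b) = τ (b * a)) ∧ ∀ b, 0 ≤ b → τ b = (m b : ℂ) := by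
  -- real part
  let r : A → A := fun x => (2 : ℝ)⁻¹ • (x + star x)
  have hrsa : ∀ x, IsSelfAdjoint (r x) := by
    intro x
    change star ((2 : ℝ)⁻¹ • (x + star x)) = _
    rw [star_smul, star_add, star_star, star_trivial, add_comm]
  have hradd : ∀ x y, r (x + y) = r x + r y := by
    intro x y
    change (2 : ℝ)⁻¹ • (x + y + star (x + y)) = (2 : ℝ)⁻¹ • (x + star x) + (2 : ℝ)⁻¹ • (y + star y)
    rw [star_add, ← smul_add]
    congr 1
    abel
  have hrsm : ∀ (c : ℝ) x, r (c • x) = c • r x := by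
    intro c x
    change (2 : ℝ)⁻¹ • (c • x + star (c • x)) = c • ((2 : ℝ)⁻¹ • (x + star x))
    rw [star_smul, star_trivial, ← smul_add, smul_comm]
  have hrn : ∀ x, ‖r x‖ ≤ ‖x‖ := by
    intro x
    change ‖(2 : ℝ)⁻¹ • (x + star x)‖ ≤ ‖x‖
    rw [norm_smul]
    have h1 := norm_add_le x (star x)
    rw [norm_star] at h1
    have h2 : ‖(2 : ℝ)⁻¹‖ = 2⁻¹ := by norm_num
    rw [h2]
    linarith
  have hrs : ∀ x, IsSelfAdjoint x → r x = x := by
    intro x hx
    change (2 : ℝ)⁻¹ • (x + star x) = x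
    rw [hx.star_eq, ← two_smul ℝ x, smul_smul]
    norm_num
  -- the positive element `s x = r x + ‖r x‖`
  let s : A → A := fun x => r x + ‖r x‖ • (1 : A)
  have hs0 : ∀ x, 0 ≤ s x := by
    intro x
    have := (hrsa x).neg_algebraMap_norm_le_self
    rw [Algebra.algebraMap_eq_smul_one] at this
    have h1 := neg_le_iff_add_nonneg.1 this
    exact h1
  have h10 : (0 : A) ≤ 1 := zero_le_one
  have hc0 : ∀ x, 0 ≤ ‖r x‖ • (1 : A) := fun x => smul_nonneg (norm_nonneg _) h10
  have hm0 : m 0 = 0 := by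
    have := hadd 0 0 le_rfl le_rfl
    rw [add_zero] at this
    linarith
  have well : ∀ b c b' c' : A, 0 ≤ b → 0 ≤ c → 0 ≤ b' → 0 ≤ c' → b - c = b' - c' →
      m b - m c = m b' - m c' := by
    intro b c b' c' hb hc hb' hc' h
    have h1 : b + c' = b' + c := by
      have := sub_eq_sub_iff_add_eq_add.1 h
      exact this
    have h2 := congrArg m h1
    rw [hadd b c' hb hc', hadd b' c hb' hc] at h2
    linarith
  let g : A → ℝ := fun x => m (s x) - m (‖r x‖ • (1 : A))
  have hg : ∀ x b c : A, 0 ≤ b → 0 ≤ c → r x = b - c → g x = m b - m c := by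
    intro x b c hb hc h
    refine well _ _ _ _ (hs0 x) (hc0 x) hb hc ?_
    rw [← h]
    simp [s]
  have hrd : ∀ x, r x = s x - ‖r x‖ • (1 : A) := fun x => by simp [s]
  have hgadd : ∀ x y, g (x + y) = g x + g y := by
    intro x y
    rw [hg (x + y) (s x + s y) (‖r x‖ • (1 : A) + ‖r y‖ • (1 : A)) (add_nonneg (hs0 x) (hs0 y))
      (add_nonneg (hc0 x) (hc0 y)), hadd _ _ (hs0 x) (hs0 y), hadd _ _ (hc0 x) (hc0 y)]
    · simp only [g]; ring
    · rw [hradd, hrd x, hrd y]
      have e1 := hrd x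
      have e2 := hrd y
      rw [← e1, ← e2]
      simp only [s]
      abel
  have hgsm : ∀ (c : ℝ) x, g (c • x) = c • g x := by
    intro c x
    rcases le_total 0 c with hc | hc
    · rw [hg (c • x) (c • s x) (c • (‖r x‖ • (1 : A))) (smul_nonneg hc (hs0 x))
        (smul_nonneg hc (hc0 x)), hsm c _ hc (hs0 x), hsm c _ hc (hc0 x), smul_eq_mul]
      · simp only [g]; ring
      · rw [hrsm, ← smul_sub, ← hrd x]
    · have hc' : 0 ≤ -c := by linarith
      rw [hg (c • x) ((-c) • (‖r x‖ • (1 : A))) ((-c) • s x) (smul_nonneg hc' (hc0 x))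
        (smul_nonneg hc' (hs0 x)), hsm (-c) _ hc' (hs0 x), hsm (-c) _ hc' (hc0 x), smul_eq_mul]
      · simp only [g]; ring
      · rw [hrsm, ← smul_sub, ← neg_sub (s x), ← hrd x, smul_neg, neg_smul, neg_neg]
  have hm1 : 0 ≤ m 1 := h0 1 h10
  have hmono : ∀ b c : A, 0 ≤ b → b ≤ c → m b ≤ m c := by
    intro b c hb hbc
    have h1 := hadd b (c - b) hb (sub_nonneg.2 hbc)
    rw [add_sub_cancel] at h1
    have h2 := h0 (c - b) (sub_nonneg.2 hbc)
    linarith
  have hgn : ∀ x, ‖g x‖ ≤ m 1 * ‖x‖ := by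
    intro x
    have h1 : m (‖r x‖ • (1 : A)) = ‖r x‖ * m 1 := hsm _ _ (norm_nonneg _) h10
    have h2 : s x ≤ (2 * ‖r x‖) • (1 : A) := by
      have := (hrsa x).le_algebraMap_norm_self
      rw [Algebra.algebraMap_eq_smul_one] at this
      calc s x = r x + ‖r x‖ • (1 : A) := rfl
        _ ≤ ‖r x‖ • (1 : A) + ‖r x‖ • (1 : A) := by gcongr
        _ = (2 * ‖r x‖) • (1 : A) := by rw [← add_smul, two_mul]
    have h3 := hmono _ _ (hs0 x) h2
    rw [hsm _ _ (by positivity) h10] at h3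
    have h4 := h0 _ (hs0 x)
    have h5 := mul_le_mul_of_nonneg_right (hrn x) hm1
    rw [Real.norm_eq_abs, abs_le]
    simp only [g]
    rw [h1]
    constructor <;> nlinarith
  let G : A →ₗ[ℝ] ℝ := { toFun := g, map_add' := hgadd, map_smul' := hgsm }
  let Gc : StrongDual ℝ A := G.mkContinuous (m 1) hgn
  have hGc : ∀ x, Gc x = g x := fun x => rfl
  let τ : A →L[ℂ] ℂ := StrongDual.extendRCLike Gc
  have hpos : ∀ b, 0 ≤ b → τ b = (m b : ℂ) := by
    intro b hb
    have hbs : IsSelfAdjoint b := hb.isSelfAdjoint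
    have h1 : g b = m b := by
      rw [hg b b 0 hb le_rfl (by rw [hrs b hbs, sub_zero]), hm0, sub_zero]
    have h2 : g (Complex.I • b) = 0 := by
      rw [hg (Complex.I • b) 0 0 le_rfl le_rfl, sub_self]
      change (2 : ℝ)⁻¹ • (Complex.I • b + star (Complex.I • b)) = _
      rw [star_smul, hbs.star_eq]
      simp
    change StrongDual.extendRCLike Gc b = _
    rw [StrongDual.extendRCLike_apply, hGc, hGc]
    simp [h1, h2]
  have hH : ∀ x, τ (star x * x) = τ (x * star x) := by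
    intro x
    rw [hpos _ (star_mul_self_nonneg x), hpos _ (mul_star_self_nonneg x), htr]
  have hD : ∀ x y, τ (star y * x) = τ (x * star y) := by
    intro x y
    have h1 := hH (x + y)
    have h2 := hH (x + Complex.I • y)
    have hx := hH x
    have hy := hH y
    have e1 : star (x + y) * (x + y) = star x * x + star x * y + star y * x + star y * y := by
      rw [star_add]; noncomm_ring
    have e2 : (x + y) * star (x + y) = x * star x + x * star y + y * star x + y * star y := by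
      rw [star_add]; noncomm_ring
    have hI : star (Complex.I • y) = -(Complex.I • star y) := by
      rw [star_smul]
      simp
    have e3 : star (x + Complex.I • y) * (x + Complex.I • y) =
        star x * x + Complex.I • (star x * y) - Complex.I • (star y * x) + star y * y := by
      rw [star_add, hI, add_mul, mul_add, mul_add, neg_mul, neg_mul, mul_smul_comm, smul_mul_assoc,
        smul_mul_assoc, mul_smul_comm, smul_smul, Complex.I_mul_I, neg_smul, one_smul]
      abel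
    have e4 : (x + Complex.I • y) * star (x + Complex.I • y) =
        x * star x - Complex.I • (x * star y) + Complex.I • (y * star x) + y * star y := by
      rw [star_add, hI, add_mul, mul_add, mul_add, mul_neg, mul_neg, mul_smul_comm, smul_mul_assoc,
        smul_mul_assoc, mul_smul_comm, smul_smul, Complex.I_mul_I, neg_smul, one_smul]
      abel
    rw [e1, e2] at h1
    rw [e3, e4] at h2
    simp only [map_add, map_sub, map_smul, smul_eq_mul] at h1 h2
    have h3 : Complex.I * (τ (star x * y) - τ (star y * x)) =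
        Complex.I * (τ (y * star x) - τ (x * star y)) := by
      linear_combination h2 - hx - hy
    have h4 := mul_left_cancel₀ Complex.I_ne_zero h3
    linear_combination (1 / 2 : ℂ) * (h1 - hx - hy) - (1 / 2 : ℂ) * h4
  refine ⟨τ, fun a b => ?_, hpos⟩
  have := hD b (star a)
  rw [star_star] at this
  exact this

/-- TyA2 -/
theorem exists_small_col {q : A} (hq : 0 ≤ q) {ε : ℝ} (hε : 0 < ε)
    (h : ∀ τ : A →L[ℂ] ℂ, (∀ a b, τ (a * b) = τ (b * a)) → (∀ a, 0 ≤ τ (star a * a)) →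
      (τ q).re ≤ ε * (τ 1).re) :
    ∃ (n : ℕ) (b : Fin n → A), ∑ i, star (b i) * b i = q ∧ ‖∑ i, b i * star (b i)‖ ≤ 2 * ε := by
  by_contra hcon
  push Not at hcon
  let S : Set A := {y | ∃ (n : ℕ) (b : Fin n → A), ∑ i, star (b i) * b i = q ∧
    ∑ i, b i * star (b i) ≤ y}
  have hSmem : ∀ (n : ℕ) (b : Fin n → A), ∑ i, star (b i) * b i = q →
      ∑ i, b i * star (b i) ∈ S := fun n b hb => ⟨n, b, hb, le_rfl⟩
  have hSc : Convex ℝ S := by
    rintro y1 ⟨n1, b1, h1, hy1⟩ y2 ⟨n2, b2, h2, hy2⟩ s t hs ht hst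
    refine ⟨n1 + n2, Fin.append (fun i => (√s : ℝ) • b1 i) (fun i => (√t : ℝ) • b2 i), ?_, ?_⟩
    · rw [Fin.sum_univ_add]
      simp only [Fin.append_left, Fin.append_right, star_smul, star_trivial, smul_mul_smul_comm,
        Real.mul_self_sqrt hs, Real.mul_self_sqrt ht, ← Finset.smul_sum, h1, h2]
      rw [← add_smul, hst, one_smul]
    · rw [Fin.sum_univ_add]
      simp only [Fin.append_left, Fin.append_right, star_smul, star_trivial, smul_mul_smul_comm,
        Real.mul_self_sqrt hs, Real.mul_self_sqrt ht, ← Finset.smul_sum]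
      exact add_le_add (smul_le_smul_of_nonneg_left hy1 hs) (smul_le_smul_of_nonneg_left hy2 ht)
  have hdisj : Disjoint (Metric.ball (0 : A) (2 * ε)) S := by
    rw [Set.disjoint_left]
    rintro y hy ⟨n, b, hb, hby⟩
    have h1 := hcon n b hb
    have h2 : ‖∑ i, b i * star (b i)‖ ≤ ‖y‖ :=
      CStarAlgebra.norm_le_norm_of_nonneg_of_le
        (Finset.sum_nonneg fun i _ => mul_star_self_nonneg _) hby
    rw [mem_ball_zero_iff] at hy
    linarith
  obtain ⟨G, u, hGb, hGS⟩ := geometric_hahn_banach_open (convex_ball (0 : A) (2 * ε))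
    Metric.isOpen_ball hSc hdisj
  have hu : 0 < u := by
    have := hGb 0 (by simpa using hε)
    simpa using this
  have hqS : q ∈ S := by
    refine ⟨1, fun _ => CFC.sqrt q, ?_, ?_⟩
    · simp [(CFC.sqrt_nonneg q).isSelfAdjoint.star_eq, CFC.sqrt_mul_sqrt_self q hq]
    · simp [(CFC.sqrt_nonneg q).isSelfAdjoint.star_eq, CFC.sqrt_mul_sqrt_self q hq]
  have hSup : ∀ y ∈ S, ∀ z, y ≤ z → z ∈ S := by
    rintro y ⟨n, b, hb, hby⟩ z hyz
    exact ⟨n, b, hb, hby.trans hyz⟩
  have hG0 : ∀ x : A, 0 ≤ x → 0 ≤ G x := by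
    intro x hx
    by_contra hneg
    push Not at hneg
    have key : ∀ t : ℝ, 0 ≤ t → u ≤ G q + t * G x := by
      intro t ht
      have := hGS (q + t • x) (hSup q hqS _ (le_add_of_nonneg_right (smul_nonneg ht hx)))
      simpa using this
    have h1 := key ((|G q| + 1) / (-G x)) (div_nonneg (by positivity) (by linarith))
    have h2 : (|G q| + 1) / (-G x) * G x = -(|G q| + 1) := by
      rw [div_neg, neg_mul, div_mul_cancel₀ _ hneg.ne]
    rw [h2] at h1
    have := le_abs_self (G q)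
    linarith
  have hG1 : 2 * ε * G 1 ≤ u := by
    have key : ∀ r : ℝ, 0 ≤ r → r < 2 * ε → r * G 1 ≤ u := by
      intro r hr hr2
      have h1 : r • (1 : A) ∈ Metric.ball (0 : A) (2 * ε) := by
        rw [mem_ball_zero_iff, norm_smul, Real.norm_of_nonneg hr]
        have : ‖(1 : A)‖ ≤ 1 := by
          rcases subsingleton_or_nontrivial A with hA | hA
          · rw [Subsingleton.elim (1 : A) 0, norm_zero]; exact zero_le_one
          · exact (CStarRing.norm_one (E := A)).le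
        calc r * ‖(1 : A)‖ ≤ r * 1 := by gcongr
          _ < 2 * ε := by linarith
      have := hGb _ h1
      rw [map_smul, smul_eq_mul] at this
      exact this.le
    have hG1n : 0 ≤ G 1 := hG0 1 zero_le_one
    by_contra hlt
    push Not at hlt
    have hG1p : 0 < G 1 := by
      rcases hG1n.lt_or_eq with h | h
      · exact h
      · rw [← h] at hlt; linarith
    obtain ⟨r, hr1, hr2⟩ := exists_between (show u / G 1 < 2 * ε by rw [div_lt_iff₀ hG1p]; exact hlt)
    have h3 : 0 ≤ r := le_trans (by positivity) hr1.le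
    have h4 := key r h3 hr2
    rw [div_lt_iff₀ hG1p] at hr1
    linarith
  let G' : A →ₗ[ℝ] ℝ := G.toLinearMap
  have hG' : ∀ x, 0 ≤ x → 0 ≤ G' x := hG0
  obtain ⟨τ, hτ1, hτ2⟩ := exists_trace_of_cone (A := A) (R124.T.m G')
    (fun b hb => R124.T.m_nonneg hG' hb)
    (fun b c hb hc => R124.T.m_add hG' hb hc)
    (fun r b hr hb => R124.T.m_smul hG' hb hr)
    (fun x => R124.T.m_trace hG' x)
  have h1 := h τ hτ1 (fun a => by
    rw [hτ2 _ (star_mul_self_nonneg a)]
    exact_mod_cast R124.T.m_nonneg hG' (star_mul_self_nonneg a))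
  rw [hτ2 q hq, hτ2 1 zero_le_one, Complex.ofReal_re, Complex.ofReal_re] at h1
  have h2 : u ≤ R124.T.m G' q := R124.T.le_m hq fun N a ha => hGS _ (hSmem N a ha)
  have h3 : R124.T.m G' 1 ≤ G 1 := R124.T.m_le_self hG' zero_le_one
  nlinarith

/-- TyA2 without an order on `A` -/
theorem exists_small_col_abs {A : Type*} [CStarAlgebra A] {q : A} (hq1 : star q = q)
    (hq2 : q * q = q) {ε : ℝ} (hε : 0 < ε)
    (h : ∀ τ : A →L[ℂ] ℂ, (∀ a b, τ (a * b) = τ (b * a)) → (∀ a, 0 ≤ τ (star a * a)) →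
      (τ q).re ≤ ε * (τ 1).re) :
    ∃ (n : ℕ) (b : Fin n → A), ∑ i, star (b i) * b i = q ∧ ‖∑ i, b i * star (b i)‖ ≤ 2 * ε := by
  let _ : PartialOrder A := CStarAlgebra.spectralOrder A
  have _ : StarOrderedRing A := CStarAlgebra.spectralOrderedRing A
  have hq0 : 0 ≤ q := by
    have h1 : q = star q * q := by rw [hq1, hq2]
    rw [h1]
    exact star_mul_self_nonneg _
  exact exists_small_col hq0 hε h

end abstract

variable {H : Type*} [NormedAddCommGroup H] [InnerProductSpace ℂ H] [CompleteSpace H]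

/-- TyA3 -/
theorem exists_small_col_vn (M : VonNeumannAlgebra H) {q : H →L[ℂ] H} (hq : IsStarProjection q)
    (hqM : q ∈ M) {ε : ℝ} (hε : 0 < ε)
    (h : ∀ τ : M.toStarSubalgebra →L[ℂ] ℂ, Trc M τ → (τ ⟨q, hqM⟩).re ≤ ε * (τ 1).re) :
    ∃ (n : ℕ) (b : Fin n → H →L[ℂ] H), (∀ i, b i ∈ M) ∧ ∑ i, star (b i) * b i = q ∧
      ‖∑ i, b i * star (b i)‖ ≤ 2 * ε := by
  let _ : CStarAlgebra M.toStarSubalgebra :=
    StarSubalgebra.cstarAlgebra M.toStarSubalgebra (h_closed := isClosed_vNA M)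
  have hq1 : star (⟨q, hqM⟩ : M.toStarSubalgebra) = ⟨q, hqM⟩ :=
    Subtype.ext hq.isSelfAdjoint.star_eq
  have hq2 : (⟨q, hqM⟩ : M.toStarSubalgebra) * ⟨q, hqM⟩ = ⟨q, hqM⟩ :=
    Subtype.ext hq.isIdempotentElem.eq
  obtain ⟨n, b, hb1, hb2⟩ := exists_small_col_abs hq1 hq2 hε (fun τ h1 h2 => h τ ⟨h1, h2⟩)
  refine ⟨n, fun i => (b i : H →L[ℂ] H), fun i => (b i).2, ?_, ?_⟩
  · have := congrArg (fun x : M.toStarSubalgebra => (x : H →L[ℂ] H)) hb1
    simpa using this
  · have h3 : ∑ i, (b i : H →L[ℂ] H) * star (b i : H →L[ℂ] H) =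
        ((∑ i, b i * star (b i) : M.toStarSubalgebra) : H →L[ℂ] H) := by
      simp
    rw [h3]
    exact hb2

end Crest.Agent.R121.Ty
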