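import Crest.Agent.R121.TyDefs

/-! Row 121, module T, part B (helper80): random cube roots of unity give near isometries (T2).

`s_k = ∑_i ω_{k,i} b_i`, index type `ι = Fin N × Fin n` of `R124.P.ph`, `sum_four`:
`s_k⋆ s_l - δ_kl q = ∑_{i,j, (k,i) ≠ (l,j)} conj ω_{k,i} ω_{l,j} b_i⋆ b_j` (for `k = l` the diagonal is `∑ b_i⋆b_i = q`),
so by `sum_four` `∑_ω ‖(s_k⋆ s_l - δ_kl q) ξ‖² = card * ∑_{(k,i) ≠ (l,j)} ‖b_i⋆ b_j ξ‖² ≤ card * ε * ∑_j ‖b_j ξ‖²`
(`∑_i ‖b_i⋆ v‖² = ⟪v, K v⟫ ≤ ε ‖v‖²`, `K = ∑ b_i b_i⋆`) `≤ card * ε * ‖ξ‖²`; sum over `k, l` and choose the best `ω`. -/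

set_option autoImplicit false

namespace Crest.Agent.R121.Ty

open scoped InnerProductSpace ComplexOrder ComplexConjugate
open Crest.Agent.R121
open Crest.Agent.R124.P (ph sum_four conj_mul_ph)

variable {H : Type*} [NormedAddCommGroup H] [InnerProductSpace ℂ H] [CompleteSpace H]

/-- `∑ ‖b_i v‖² = ⟪v, (∑ b_i⋆ b_i) v⟫` -/
theorem tyb_sum_sq {n : ℕ} (b : Fin n → H →L[ℂ] H) (v : H) :
    ((∑ i, ‖b i v‖ ^ 2 : ℝ) : ℂ) = ⟪v, (∑ i, star (b i) * b i) v⟫_ℂ := by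
  rw [sum_apply, inner_sum]
  push_cast
  refine Finset.sum_congr rfl fun i _ => ?_
  show _ = ⟪v, (ContinuousLinearMap.adjoint (b i)) (b i v)⟫_ℂ
  rw [ContinuousLinearMap.adjoint_inner_right, inner_self_eq_norm_sq_to_K]
  rfl

theorem tyb_sum_sq_le {n : ℕ} (b : Fin n → H →L[ℂ] H) {ε : ℝ}
    (hK : ‖∑ i, star (b i) * b i‖ ≤ ε) (v : H) : ∑ i, ‖b i v‖ ^ 2 ≤ ε * ‖v‖ ^ 2 := by
  have h1 := tyb_sum_sq b v
  have h2 : ∑ i, ‖b i v‖ ^ 2 = ‖⟪v, (∑ i, star (b i) * b i) v⟫_ℂ‖ := by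
    rw [← h1, Complex.norm_real, Real.norm_of_nonneg (Finset.sum_nonneg fun i _ => sq_nonneg _)]
  rw [h2]
  calc ‖⟪v, (∑ i, star (b i) * b i) v⟫_ℂ‖ ≤ ‖v‖ * ‖(∑ i, star (b i) * b i) v‖ :=
        norm_inner_le_norm _ _
    _ ≤ ‖v‖ * (ε * ‖v‖) := mul_le_mul_of_nonneg_left
        (((∑ i, star (b i) * b i).le_opNorm v).trans
          (mul_le_mul_of_nonneg_right hK (norm_nonneg v))) (norm_nonneg v)
    _ = ε * ‖v‖ ^ 2 := by ring

omit [CompleteSpace H] in
/-- second moment of a random vector with orthogonal coefficients -/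
theorem tyb_moment {Ω P : Type*} [Fintype Ω] [Fintype P] [DecidableEq P] (c : Ω → P → ℂ)
    (v : P → H) (C : ℝ) (d : P → ℝ) (hd1 : ∀ p, d p ≤ C)
    (hc : ∀ p p', ∑ ω, conj (c ω p) * c ω p' = if p = p' then ((d p : ℝ) : ℂ) else 0) :
    ∑ ω, ‖∑ p, c ω p • v p‖ ^ 2 ≤ C * ∑ p, ‖v p‖ ^ 2 := by
  have h1 : ((∑ ω, ‖∑ p, c ω p • v p‖ ^ 2 : ℝ) : ℂ) = ((∑ p, d p * ‖v p‖ ^ 2 : ℝ) : ℂ) := by
    have h2 : ∀ ω, ((‖∑ p, c ω p • v p‖ ^ 2 : ℝ) : ℂ) =
        ∑ p, ∑ p', conj (c ω p) * c ω p' * ⟪v p, v p'⟫_ℂ := by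
      intro ω
      have h3 : ((‖∑ p, c ω p • v p‖ ^ 2 : ℝ) : ℂ) =
          ⟪∑ p, c ω p • v p, ∑ p, c ω p • v p⟫_ℂ := by
        rw [inner_self_eq_norm_sq_to_K]
        push_cast
        rfl
      rw [h3, sum_inner]
      refine Finset.sum_congr rfl fun p _ => ?_
      rw [inner_sum]
      refine Finset.sum_congr rfl fun p' _ => ?_
      rw [inner_smul_left, inner_smul_right, mul_assoc]
    rw [Complex.ofReal_sum, Finset.sum_congr rfl fun ω _ => h2 ω, Finset.sum_comm]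
    rw [Complex.ofReal_sum]
    refine Finset.sum_congr rfl fun p _ => ?_
    rw [Finset.sum_comm]
    have h4 : ∀ p', ∑ ω, conj (c ω p) * c ω p' * ⟪v p, v p'⟫_ℂ =
        if p = p' then ((d p : ℝ) : ℂ) * ⟪v p, v p'⟫_ℂ else 0 := by
      intro p'
      rw [← Finset.sum_mul, hc]
      split_ifs <;> simp
    rw [Finset.sum_congr rfl fun p' _ => h4 p', Finset.sum_ite_eq, if_pos (Finset.mem_univ _),
      inner_self_eq_norm_sq_to_K]
    push_cast
    rfl
  have h5 : ∑ ω, ‖∑ p, c ω p • v p‖ ^ 2 = ∑ p, d p * ‖v p‖ ^ 2 := by exact_mod_cast h1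
  rw [h5, Finset.mul_sum]
  exact Finset.sum_le_sum fun p _ => mul_le_mul_of_nonneg_right (hd1 p) (sq_nonneg _)

/-- the random coefficients -/
noncomputable def tybC {N n : ℕ} (k l : Fin N) (ω : Fin N × Fin n → ZMod 3)
    (p : Fin n × Fin n) : ℂ :=
  if ((k, p.1) : Fin N × Fin n) = (l, p.2) then 0 else conj (ph (ω (k, p.1))) * ph (ω (l, p.2))

theorem tyb_orth {N n : ℕ} (k l : Fin N) (p p' : Fin n × Fin n) :
    ∑ ω : Fin N × Fin n → ZMod 3, conj (tybC k l ω p) * tybC k l ω p' =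
      if p = p' then (((if ((k, p.1) : Fin N × Fin n) = (l, p.2) then 0 else
        (Fintype.card (Fin N × Fin n → ZMod 3) : ℝ)) : ℝ) : ℂ) else 0 := by
  unfold tybC
  by_cases h1 : ((k, p.1) : Fin N × Fin n) = (l, p.2)
  · simp only [if_pos h1, map_zero, zero_mul, Finset.sum_const_zero, Complex.ofReal_zero,
      ite_self]
  · by_cases h2 : ((k, p'.1) : Fin N × Fin n) = (l, p'.2)
    · have h3 : p ≠ p' := fun h => h1 (h ▸ h2)
      simp only [if_pos h2, mul_zero, Finset.sum_const_zero, if_neg h3]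
    · simp only [if_neg h1, if_neg h2, map_mul, Complex.conj_conj]
      have h4 := sum_four (ι := Fin N × Fin n) (α := (l, p.2)) (β := (k, p.1))
        (γ := (k, p'.1)) (δ := (l, p'.2)) (Ne.symm h1) h2
      have h5 : ∀ ω : Fin N × Fin n → ZMod 3,
          ph (ω (k, p.1)) * conj (ph (ω (l, p.2))) *
            (conj (ph (ω (k, p'.1))) * ph (ω (l, p'.2))) =
          conj (ph (ω (l, p.2))) * ph (ω (k, p.1)) *
            (conj (ph (ω (k, p'.1))) * ph (ω (l, p'.2))) := by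
        intro ω; ring
      rw [Finset.sum_congr rfl fun ω _ => h5 ω, h4]
      by_cases h6 : p = p'
      · subst h6
        rw [if_pos ⟨rfl, rfl⟩, if_pos rfl]
        simp
      · rw [if_neg h6, if_neg]
        rintro ⟨h7, h8⟩
        exact h6 (Prod.ext (Prod.ext_iff.1 h8).2 (Prod.ext_iff.1 h7).2)

/-- the random operators -/
noncomputable def tybS {N n : ℕ} (b : Fin n → H →L[ℂ] H) (ω : Fin N × Fin n → ZMod 3)
    (k : Fin N) : H →L[ℂ] H := ∑ i, ph (ω (k, i)) • b i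

theorem tyb_exp {q : H →L[ℂ] H} {N n : ℕ}
    (b : Fin n → H →L[ℂ] H) (hb : ∑ i, star (b i) * b i = q) (ξ : H)
    (ω : Fin N × Fin n → ZMod 3) (k l : Fin N) :
    (star (tybS b ω k) * tybS b ω l - if k = l then q else 0) ξ =
      ∑ p : Fin n × Fin n, tybC k l ω p • (star (b p.1) (b p.2 ξ)) := by
  have h1 : (star (tybS b ω k) * tybS b ω l) ξ = ∑ p : Fin n × Fin n,
      (conj (ph (ω (k, p.1))) * ph (ω (l, p.2))) • (star (b p.1) (b p.2 ξ)) := by
    rw [Fintype.sum_prod_type]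
    unfold tybS
    rw [star_sum, Finset.sum_mul, sum_apply]
    refine Finset.sum_congr rfl fun i _ => ?_
    rw [star_smul, Finset.mul_sum, sum_apply]
    refine Finset.sum_congr rfl fun j _ => ?_
    rw [smul_mul_smul_comm]
    rfl
  have h2 : (if k = l then q else 0) ξ = ∑ p : Fin n × Fin n,
      (if ((k, p.1) : Fin N × Fin n) = (l, p.2) then
        (conj (ph (ω (k, p.1))) * ph (ω (l, p.2))) else 0) • (star (b p.1) (b p.2 ξ)) := by
    rw [Fintype.sum_prod_type]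
    by_cases hkl : k = l
    · subst hkl
      rw [if_pos rfl, ← hb, sum_apply]
      refine Finset.sum_congr rfl fun i _ => ?_
      have h3 : ∀ j, (if ((k, i) : Fin N × Fin n) = (k, j) then
        (conj (ph (ω (k, i))) * ph (ω (k, j))) else 0) • (star (b i) (b j ξ)) =
          if i = j then (conj (ph (ω (k, i))) * ph (ω (k, j))) • (star (b i) (b j ξ)) else 0 := by
        intro j
        by_cases hij : i = j
        · subst hij
          simp
        · rw [if_neg hij, if_neg (fun h => hij (Prod.ext_iff.1 h).2), zero_smul]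
      rw [Finset.sum_congr rfl fun j _ => h3 j, Finset.sum_ite_eq, if_pos (Finset.mem_univ _),
        conj_mul_ph, one_smul]
      rfl
    · rw [if_neg hkl]
      symm
      have h0 : (0 : H →L[ℂ] H) ξ = 0 := rfl
      rw [h0]
      refine Finset.sum_eq_zero fun i _ => Finset.sum_eq_zero fun j _ => ?_
      rw [if_neg (fun h => hkl (Prod.ext_iff.1 h).1), zero_smul]
  rw [sub_apply, h1, h2, ← Finset.sum_sub_distrib]
  refine Finset.sum_congr rfl fun p _ => ?_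
  rw [← sub_smul]
  congr 1
  unfold tybC
  split_ifs <;> ring

theorem tyb_mom {q : H →L[ℂ] H} (hq : IsStarProjection q) {N n : ℕ}
    (b : Fin n → H →L[ℂ] H) (hb : ∑ i, star (b i) * b i = q) {ε : ℝ}
    (hK : ‖∑ i, b i * star (b i)‖ ≤ ε) (ξ : H) (k l : Fin N) :
    ∑ ω : Fin N × Fin n → ZMod 3,
      ‖(star (tybS b ω k) * tybS b ω l - if k = l then q else 0) ξ‖ ^ 2 ≤
      (Fintype.card (Fin N × Fin n → ZMod 3) : ℝ) * (ε * ‖ξ‖ ^ 2) := by
  have hε : 0 ≤ ε := (norm_nonneg _).trans hK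
  have h0 : ∀ ω : Fin N × Fin n → ZMod 3,
      ‖(star (tybS b ω k) * tybS b ω l - if k = l then q else 0) ξ‖ ^ 2 =
      ‖∑ p : Fin n × Fin n, tybC k l ω p • (star (b p.1) (b p.2 ξ))‖ ^ 2 := by
    intro ω
    rw [tyb_exp b hb]
  rw [Finset.sum_congr rfl fun ω _ => h0 ω]
  have hm := tyb_moment (fun ω p => tybC (n := n) k l ω p)
    (fun p : Fin n × Fin n => star (b p.1) (b p.2 ξ))
    (Fintype.card (Fin N × Fin n → ZMod 3) : ℝ)
    (fun p => if ((k, p.1) : Fin N × Fin n) = (l, p.2) then 0 else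
      (Fintype.card (Fin N × Fin n → ZMod 3) : ℝ))
    (fun p => by
      split_ifs
      · exact Nat.cast_nonneg _
      · exact le_rfl)
    (fun p p' => tyb_orth k l p p')
  refine hm.trans ?_
  refine mul_le_mul_of_nonneg_left ?_ (Nat.cast_nonneg _)
  rw [Fintype.sum_prod_type, Finset.sum_comm]
  have h7 : ∀ j, ∑ i, ‖star (b i) (b j ξ)‖ ^ 2 ≤ ε * ‖b j ξ‖ ^ 2 := by
    intro j
    refine tyb_sum_sq_le (fun i => star (b i)) ?_ (b j ξ)
    simpa only [star_star] using hK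
  refine (Finset.sum_le_sum fun j _ => h7 j).trans ?_
  rw [← Finset.mul_sum]
  refine mul_le_mul_of_nonneg_left ?_ hε
  have h8 := tyb_sum_sq_le b (ε := 1) (by rw [hb]; exact hq.norm_le) ξ
  rwa [one_mul] at h8

/-- TyB -/
theorem exists_phases (M : VonNeumannAlgebra H) {q : H →L[ℂ] H} (hq : IsStarProjection q) {n : ℕ}
    (b : Fin n → H →L[ℂ] H) (hbM : ∀ i, b i ∈ M) (hb : ∑ i, star (b i) * b i = q) {ε : ℝ}
    (hK : ‖∑ i, b i * star (b i)‖ ≤ ε) (N : ℕ) (ξ : H) :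
    ∃ s : Fin N → H →L[ℂ] H, (∀ k, s k ∈ M) ∧ (∀ k, s k * q = s k) ∧
      ∑ k, ∑ l, ‖(star (s k) * s l - if k = l then q else 0) ξ‖ ^ 2 ≤ (N : ℝ) ^ 2 * ε * ‖ξ‖ ^ 2 := by
  classical
  have hqi : q * q = q := hq.isIdempotentElem
  -- `b_i q = b_i`
  have hbq : ∀ i, b i * q = b i := by
    intro i
    ext x
    have h1 := tyb_sum_sq b (x - q x)
    rw [hb] at h1
    have h2 : q (x - q x) = 0 := by
      rw [map_sub]
      have : q (q x) = q x := congrArg (fun f : H →L[ℂ] H => f x) hqi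
      rw [this, sub_self]
    rw [h2, inner_zero_right] at h1
    have h3 : ∑ i, ‖b i (x - q x)‖ ^ 2 = 0 := by exact_mod_cast h1
    have h4 := (Finset.sum_eq_zero_iff_of_nonneg (fun i _ => sq_nonneg _)).1 h3 i
      (Finset.mem_univ i)
    have h5 : b i (x - q x) = 0 := by simpa using h4
    rw [map_sub, sub_eq_zero] at h5
    exact h5.symm
  -- choose `ω`
  obtain ⟨ω, -, hω⟩ := Finset.exists_le_of_sum_le (s := (Finset.univ :
      Finset (Fin N × Fin n → ZMod 3))) Finset.univ_nonempty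
      (f := fun ω => ∑ k, ∑ l, ‖(star (tybS b ω k) * tybS b ω l - if k = l then q else 0) ξ‖ ^ 2)
      (g := fun _ => (N : ℝ) ^ 2 * ε * ‖ξ‖ ^ 2) (by
    rw [Finset.sum_comm]
    have h1 : ∀ k : Fin N, ∑ ω : Fin N × Fin n → ZMod 3,
        ∑ l, ‖(star (tybS b ω k) * tybS b ω l - if k = l then q else 0) ξ‖ ^ 2 ≤
        (N : ℝ) * ((Fintype.card (Fin N × Fin n → ZMod 3) : ℝ) * (ε * ‖ξ‖ ^ 2)) := by
      intro k
      rw [Finset.sum_comm]
      refine (Finset.sum_le_sum fun l _ => tyb_mom hq b hb hK ξ k l).trans ?_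
      rw [Finset.sum_const, Finset.card_univ, Fintype.card_fin, nsmul_eq_mul]
    refine (Finset.sum_le_sum fun k _ => h1 k).trans ?_
    rw [Finset.sum_const, Finset.card_univ, Fintype.card_fin, nsmul_eq_mul, Finset.sum_const,
      Finset.card_univ, nsmul_eq_mul]
    apply le_of_eq
    ring)
  refine ⟨tybS b ω, ?_, ?_, hω⟩
  · intro k
    unfold tybS
    exact sum_mem fun i _ => M.toStarSubalgebra.smul_mem (hbM i) _
  · intro k
    unfold tybS
    rw [Finset.sum_mul]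
    refine Finset.sum_congr rfl fun i _ => ?_
    rw [smul_mul_assoc, hbq]

end Crest.Agent.R121.Ty
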