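import Crest.Agent.R121.TyDefs

/-! Row 121, module T, part C (helper80): Gram-Schmidt: a lower bound gives orthogonal copies.

`A_l = ∑_{i<l} S_i S_i⋆`, `P_l = rp A_l ∈ M` (`R95.VN.rp`): `P_l S_i = S_i` for `i < l` (since `(1-P_l) A_l (1-P_l) = 0`
and it is a sum of squares), `P_k ≤ P_l` for `k ≤ l`.  `T_l = (1 - P_l) S_l`.  For `r x = x`: `P_l S_l x` is in the
closure of the range of `A_l`, `A_l y = ∑_{i<l} S_i (r S_i⋆ y)` (`S_i r = S_i`), and by the lower bound
`c ‖x‖² ≤ ‖S_l x - A_l y‖²`, so `c ‖x‖² ≤ ‖T_l x‖²`.  `B_l = T_l⋆ T_l + (1 - r) ∈ M` is `≥ min c 1`, commutes with `r`,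
`v_l = T_l g(B_l)`, `g(t) = (max t c')^{-1/2}`, `c' = min c 1`, satisfies `v_l⋆ v_l = r` (`g(B) B g(B) = 1`,
`g(B)(1-r) = 1-r`).  `P_l v_k = v_k` for `k < l` and `P_l v_l = 0`: orthogonal ranges. -/

set_option autoImplicit false

namespace Crest.Agent.R121.Ty

open scoped InnerProductSpace ComplexOrder
open Crest.Agent.R121 Crest.Agent.R95.VN Crest.Agent.R124.Cmp

variable {H : Type*} [NormedAddCommGroup H] [InnerProductSpace ℂ H] [CompleteSpace H]

/-- TyC1: polar part of an operator which is bounded below on `r` -/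
theorem exists_polar_lower (M : VonNeumannAlgebra H) {r : H →L[ℂ] H} (hr : IsStarProjection r)
    (hrM : r ∈ M) {T : H →L[ℂ] H} (hTM : T ∈ M) (hTr : T * r = T) {c : ℝ} (hc : 0 < c)
    (hlow : ∀ x, r x = x → c * ‖x‖ ^ 2 ≤ ‖T x‖ ^ 2) :
    ∃ g ∈ M, star (T * g) * (T * g) = r := by
  set c' : ℝ := min c 1 with hc'def
  have hc' : 0 < c' := lt_min hc one_pos
  have hrs : star r = r := hr.isSelfAdjoint
  have hrr : r * r = r := hr.isIdempotentElem
  have hrT : r * star T = star T := by
    have := congrArg star hTr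
    rwa [star_mul, hrs] at this
  set B : H →L[ℂ] H := star T * T + (1 - r) with hB
  have hBM : B ∈ M := add_mem (mul_mem (star_mem hTM) hTM) (sub_mem (one_mem M) hrM)
  have hBsa : IsSelfAdjoint B := by
    rw [IsSelfAdjoint, hB, star_add, star_mul, star_star, star_sub, star_one, hrs]
  have hrB : r * B = star T * T := by
    rw [hB, mul_add, ← mul_assoc, hrT, mul_sub, mul_one, hrr, sub_self, add_zero]
  have hBr : B * r = star T * T := by
    rw [hB, add_mul, mul_assoc, hTr, sub_mul, one_mul, hrr, sub_self, add_zero]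
  have hcomm : Commute B r := by rw [Commute, SemiconjBy, hBr, hrB]
  have hBlow : algebraMap ℝ (H →L[ℂ] H) c' ≤ B := by
    rw [ContinuousLinearMap.le_def]
    have hsa : IsSelfAdjoint (B - algebraMap ℝ (H →L[ℂ] H) c') :=
      hBsa.sub (IsSelfAdjoint.algebraMap _ (IsSelfAdjoint.all c'))
    rw [ContinuousLinearMap.isPositive_def']
    refine ⟨hsa, fun x => ?_⟩
    have h1 : (B - algebraMap ℝ (H →L[ℂ] H) c').reApplyInnerSelf x =
        ‖T x‖ ^ 2 + ‖(1 - r) x‖ ^ 2 - c' * ‖x‖ ^ 2 := by
      rw [ContinuousLinearMap.reApplyInnerSelf_apply]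
      have e1 : (B - algebraMap ℝ (H →L[ℂ] H) c') x = star T (T x) + (1 - r) x - (c' : ℂ) • x := by
        rw [Algebra.algebraMap_eq_smul_one, hB]
        simp
      rw [e1, inner_sub_left, inner_add_left, map_sub, map_add, inner_smul_left,
        ContinuousLinearMap.star_eq_adjoint, ContinuousLinearMap.adjoint_inner_left]
      have e2 : ⟪(1 - r) x, x⟫_ℂ = ⟪(1 - r) x, (1 - r) x⟫_ℂ := by
        have : star (1 - r) * (1 - r) = 1 - r := by
          rw [star_sub, star_one, hrs, sub_mul, one_mul, mul_sub, mul_one, hrr, sub_self, sub_zero]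
        have h2 : ⟪(1 - r) x, (1 - r) x⟫_ℂ = ⟪(star (1 - r) * (1 - r)) x, x⟫_ℂ := by
          rw [ContinuousLinearMap.mul_apply, ContinuousLinearMap.star_eq_adjoint,
            ContinuousLinearMap.adjoint_inner_left]
        rw [h2, this]
      rw [e2, inner_self_eq_norm_sq, inner_self_eq_norm_sq]
      congr 1
      rw [Complex.conj_ofReal]
      have : RCLike.re ((c' : ℂ) * ⟪x, x⟫_ℂ) = c' * RCLike.re ⟪x, x⟫_ℂ := by
        simp
      rw [this, inner_self_eq_norm_sq]
    rw [h1]
    have h2 : T x = T (r x) := by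
      conv_lhs => rw [← hTr]
      rfl
    have h3 : r (r x) = r x := by
      have := congrArg (fun S : H →L[ℂ] H => S x) hrr
      exact this
    have h4 := hlow (r x) h3
    have h5 : ‖x‖ ^ 2 = ‖r x‖ ^ 2 + ‖(1 - r) x‖ ^ 2 := by
      have e3 : x = r x + (1 - r) x := by simp
      have e4 : ⟪r x, (1 - r) x⟫_ℂ = 0 := by
        have : ⟪r x, (1 - r) x⟫_ℂ = ⟪x, (star r * (1 - r)) x⟫_ℂ := by
          rw [ContinuousLinearMap.mul_apply, ContinuousLinearMap.star_eq_adjoint,
            ContinuousLinearMap.adjoint_inner_right]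
        rw [this, hrs, mul_sub, mul_one, hrr, sub_self]
        simp
      conv_lhs => rw [e3]
      have := norm_add_sq_eq_norm_sq_add_norm_sq_of_inner_eq_zero (𝕜 := ℂ) (r x) ((1 - r) x) e4
      rw [pow_two, this, pow_two, pow_two]
    rw [← h2] at h4
    have h6 : c' ≤ c := min_le_left _ _
    have h7 : c' ≤ 1 := min_le_right _ _
    nlinarith [sq_nonneg ‖r x‖, sq_nonneg ‖(1 - r) x‖, mul_le_mul_of_nonneg_right h6 (sq_nonneg ‖r x‖),
      mul_le_mul_of_nonneg_right h7 (sq_nonneg ‖(1 - r) x‖)]
  have hspec : ∀ t ∈ spectrum ℝ B, c' ≤ t := (algebraMap_le_iff_le_spectrum hBsa).1 hBlow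
  set f : ℝ → ℝ := fun t => (Real.sqrt (max t c'))⁻¹ with hf
  have hfc : Continuous f := by
    refine Continuous.inv₀ (by fun_prop) fun t => ?_
    exact (Real.sqrt_pos.2 (lt_max_of_lt_right hc')).ne'
  set g₀ : H →L[ℂ] H := cfc f B with hg₀
  have hg₀M : g₀ ∈ M := cfc_mem hBM f
  have hg₀sa : star g₀ = g₀ := (cfc_predicate f B : IsSelfAdjoint _)
  have hg₀r : Commute g₀ r := hcomm.cfc_real f
  have hgBg : g₀ * B * g₀ = 1 := by
    have e1 : B = cfc (id : ℝ → ℝ) B := (cfc_id ℝ B hBsa).symm
    have e2 : g₀ * B * g₀ = cfc (fun t => f t * t * f t) B := by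
      conv_lhs => rw [e1]
      rw [hg₀, ← cfc_mul f id B hfc.continuousOn continuous_id.continuousOn,
        ← cfc_mul (fun x => f x * id x) f B (hfc.mul continuous_id).continuousOn hfc.continuousOn]
      rfl
    rw [e2]
    have e3 : cfc (fun t => f t * t * f t) B = cfc (fun _ : ℝ => (1 : ℝ)) B := by
      refine cfc_congr fun t ht => ?_
      have h1 := hspec t ht
      have h2 : 0 < t := lt_of_lt_of_le hc' h1
      show (Real.sqrt (max t c'))⁻¹ * t * (Real.sqrt (max t c'))⁻¹ = 1
      rw [max_eq_left h1]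
      have h3 : 0 < Real.sqrt t := Real.sqrt_pos.2 h2
      have h4 : t = Real.sqrt t * Real.sqrt t := (Real.mul_self_sqrt h2.le).symm
      field_simp
      rw [pow_two, ← h4]
    rw [e3, cfc_const_one ℝ B]
  refine ⟨g₀ * r, mul_mem hg₀M hrM, ?_⟩
  calc star (T * (g₀ * r)) * (T * (g₀ * r)) = r * g₀ * (star T * T) * g₀ * r := by
        rw [star_mul, star_mul, hrs, hg₀sa]
        simp only [mul_assoc]
    _ = r * (g₀ * B * g₀) * r := by
        rw [← hBr]
        have := hg₀r.eq
        calc r * g₀ * (B * r) * g₀ * r = r * g₀ * B * (r * g₀) * r := by simp only [mul_assoc]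
          _ = r * g₀ * B * (g₀ * r) * r := by rw [this]
          _ = r * (g₀ * B * g₀) * (r * r) := by simp only [mul_assoc]
          _ = r * (g₀ * B * g₀) * r := by rw [hrr]
    _ = r := by rw [hgBg, mul_one, hrr]

/-- `q A = A`, `A = ∑ S_i S_i⋆` implies `q S_i = S_i` -/
theorem fix_of_fix_sum {ι : Type*} (s : Finset ι) (S : ι → H →L[ℂ] H) {q : H →L[ℂ] H}
    (h : q * ∑ i ∈ s, S i * star (S i) = ∑ i ∈ s, S i * star (S i)) {i : ι} (hi : i ∈ s) :
    q * S i = S i := by
  have h1 : ∑ i ∈ s, ((1 - q) * S i) * star ((1 - q) * S i) = 0 := by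
    have h2 : (1 - q) * (∑ i ∈ s, S i * star (S i)) * star (1 - q) = 0 := by
      rw [sub_mul, one_mul, h, sub_self, zero_mul]
    rw [Finset.mul_sum, Finset.sum_mul] at h2
    rw [← h2]
    refine Finset.sum_congr rfl fun j _ => ?_
    rw [star_mul]
    simp only [mul_assoc]
  have h3 : ∀ v : H, star ((1 - q) * S i) v = 0 := by
    intro v
    have h4 : ∑ j ∈ s, ‖star ((1 - q) * S j) v‖ ^ 2 = 0 := by
      have h5 := congrArg (fun T : H →L[ℂ] H => RCLike.re ⟪v, T v⟫_ℂ) h1
      simp only [sum_apply, inner_sum, map_sum, zero_apply,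
        inner_zero_right, map_zero] at h5
      rw [← h5]
      refine Finset.sum_congr rfl fun j _ => ?_
      have h6 : ⟪v, (((1 - q) * S j) * star ((1 - q) * S j)) v⟫_ℂ =
          ⟪star ((1 - q) * S j) v, star ((1 - q) * S j) v⟫_ℂ := by
        rw [ContinuousLinearMap.star_eq_adjoint, ContinuousLinearMap.adjoint_inner_left]
        rfl
      rw [h6, inner_self_eq_norm_sq]
    have h7 := (Finset.sum_eq_zero_iff_of_nonneg fun j _ => by positivity).1 h4 i hi
    simpa using h7
  have h8 : star ((1 - q) * S i) = 0 := by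
    ext v
    exact h3 v
  have h9 := congrArg star h8
  rw [star_star, star_zero, sub_mul, one_mul, sub_eq_zero] at h9
  exact h9.symm

/-- TyC2 -/
theorem exists_copies_of_lower (M : VonNeumannAlgebra H) {r : H →L[ℂ] H} (hr : IsStarProjection r)
    (hrM : r ∈ M) {N : ℕ} (S : Fin N → H →L[ℂ] H) (hSM : ∀ i, S i ∈ M) (hSr : ∀ i, S i * r = S i)
    {c : ℝ} (hc : 0 < c)
    (hlow : ∀ x : Fin N → H, (∀ i, r (x i) = x i) → c * ∑ i, ‖x i‖ ^ 2 ≤ ‖∑ i, S i (x i)‖ ^ 2) :
    ∃ v : Fin N → H →L[ℂ] H, Copies M r v := by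
  classical
  set A : Fin N → H →L[ℂ] H := fun l => ∑ i ∈ Finset.univ.filter (fun i => i < l), S i * star (S i)
    with hA
  have hAM : ∀ l, A l ∈ M := fun l =>
    sum_mem fun i _ => mul_mem (hSM i) (star_mem (hSM i))
  set P : Fin N → H →L[ℂ] H := fun l => rp (A l) with hP
  have hPM : ∀ l, P l ∈ M := fun l => rp_mem (hAM l)
  have hPp : ∀ l, IsStarProjection (P l) := fun l => rp_proj _
  have hPS : ∀ l i, i < l → P l * S i = S i := by
    intro l i hi
    exact fix_of_fix_sum _ S (rp_mul (A l)) (by simp [hi])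
  have hPP : ∀ l k, k < l → P l * P k = P k := by
    intro l k hk
    refine rp_le ?_
    rw [hA]
    simp only
    rw [Finset.mul_sum]
    refine Finset.sum_congr rfl fun i hi => ?_
    rw [← mul_assoc, hPS l i (lt_trans (by simpa using hi) hk)]
  set T : Fin N → H →L[ℂ] H := fun l => (1 - P l) * S l with hT
  have hTM : ∀ l, T l ∈ M := fun l => mul_mem (sub_mem (one_mem M) (hPM l)) (hSM l)
  have hTr : ∀ l, T l * r = T l := fun l => by
    simp only [hT]
    rw [mul_assoc, hSr]
  have hTlow : ∀ l, ∀ x, r x = x → c * ‖x‖ ^ 2 ≤ ‖T l x‖ ^ 2 := by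
    intro l x hx
    have h1 : closure (LinearMap.range (A l).toLinearMap : Set H) ⊆
        {u : H | c * ‖x‖ ^ 2 ≤ ‖S l x - u‖ ^ 2} := by
      refine closure_minimal ?_ (isClosed_le continuous_const (by fun_prop))
      rintro _ ⟨y, rfl⟩
      show c * ‖x‖ ^ 2 ≤ ‖S l x - A l y‖ ^ 2
      set X : Fin N → H := fun i => if i < l then - (star (S i) y) else if i = l then x else 0
        with hX
      have hrX : ∀ i, r (X i) = X i := by
        intro i
        simp only [hX]
        split_ifs with h h'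
        · rw [map_neg]
          congr 1
          have := congrArg star (hSr i)
          rw [star_mul, proj_star hr] at this
          exact congrArg (fun T : H →L[ℂ] H => T y) this
        · exact hx
        · exact map_zero r
      have h2 := hlow X hrX
      have h3 : ∑ i, S i (X i) = S l x - A l y := by
        have h4 : ∀ i, S i (X i) = (if i < l then - (S i (star (S i) y)) else 0) +
            (if i = l then S l x else 0) := by
          intro i
          simp only [hX]
          split_ifs with h h' h'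
          · exact absurd h' (ne_of_lt h)
          · rw [map_neg, add_zero]
          · rw [h', zero_add]
          · simp
        rw [Finset.sum_congr rfl fun i _ => h4 i, Finset.sum_add_distrib,
          Finset.sum_ite_eq' Finset.univ l, if_pos (Finset.mem_univ _), ← Finset.sum_filter,
          Finset.sum_neg_distrib]
        simp only [hA, sum_apply]
        rw [neg_add_eq_sub]
        rfl
      rw [h3] at h2
      refine le_trans ?_ h2
      refine mul_le_mul_of_nonneg_left ?_ hc.le
      have h5 := Finset.single_le_sum (f := fun i => ‖X i‖ ^ 2) (fun i _ => by positivity)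
        (Finset.mem_univ l)
      simpa [hX] using h5
    have h6 : P l (S l x) ∈ closure (LinearMap.range (A l).toLinearMap : Set H) :=
      Submodule.starProjection_apply_mem (LinearMap.range (A l).toLinearMap).topologicalClosure
        (S l x)
    have h7 := h1 h6
    simp only [Set.mem_ofPred_eq] at h7
    exact h7
  have hg : ∀ l, ∃ g ∈ M, star (T l * g) * (T l * g) = r := fun l =>
    exists_polar_lower M hr hrM (hTM l) (hTr l) hc (hTlow l)
  choose g hgM hg using hg
  have hPT : ∀ l, P l * (T l * g l) = 0 := by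
    intro l
    simp only [hT]
    rw [← mul_assoc, ← mul_assoc, mul_sub, mul_one, proj_mul (hPp l), sub_self, zero_mul, zero_mul]
  have hPT' : ∀ l k, k < l → P l * (T k * g k) = T k * g k := by
    intro l k hk
    simp only [hT]
    rw [← mul_assoc, ← mul_assoc, mul_sub, mul_one, hPP l k hk, sub_mul, hPS l k hk]
    congr 1
  have horth : ∀ l k, k < l → star (T k * g k) * (T l * g l) = 0 := by
    intro l k hk
    rw [← hPT' l k hk, star_mul, proj_star (hPp l), mul_assoc, hPT, mul_zero]
  refine ⟨fun l => T l * g l, fun l => mul_mem (hTM l) (hgM l), hg, fun i j hij => ?_⟩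
  rcases lt_or_gt_of_ne hij with h | h
  · exact horth j i h
  · have := congrArg star (horth i j h)
    rwa [star_mul, star_star, star_zero] at this

end Crest.Agent.R121.Ty
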