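import Crest.Agent.R121.TyC
import Crest.Agent.R95.VCutA

/-! Row 121, module T, part D (helper80): spectral cut (T3).

`D_kl = s_k⋆ s_l - δ_kl q`, `Q = ∑_{k,l} D_kl⋆ D_kl ≥ 0`, `Q = q Q q`, `⟪Q ξ, ξ⟫ ≤ η`.  `r = q - cut Q q (1/(4N))`
(`R95.VN.cut`): `Q r ≤ (1/(4N)) r` and `(1/(4N)) (q - r) ≤ Q (q-r)`, so `‖(q-r)ξ‖² ≤ 4 N η`.  For `r x_l = x_l`:
`‖∑ s_l x_l‖² = ∑ ‖x_k‖² + ∑_{k,l} ⟪D_kl x_l, x_k⟫`, and
`|∑_{kl} ⟪D_kl x_l, x_k⟫| ≤ (∑_{kl} ‖D_kl x_l‖²)^{1/2} (∑_{kl} ‖x_k‖²)^{1/2} ≤ (∑_l ⟪Q x_l, x_l⟫)^{1/2} (N ∑ ‖x_k‖²)^{1/2}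
≤ (1/2) ∑ ‖x_k‖²`.  So the lower bound holds with `c = 1/2` for `S_k = s_k r`, and TyC2 applies. -/

set_option autoImplicit false

namespace Crest.Agent.R121.Ty

open scoped InnerProductSpace ComplexOrder
open Crest.Agent.R121

variable {H : Type*} [NormedAddCommGroup H] [InnerProductSpace ℂ H] [CompleteSpace H]

private theorem tyd_mono {a b : H →L[ℂ] H} (h : a ≤ b) (x : H) :
    RCLike.re ⟪x, a x⟫_ℂ ≤ RCLike.re ⟪x, b x⟫_ℂ := by
  have hp := (ContinuousLinearMap.nonneg_iff_isPositive _).1 (sub_nonneg.2 h)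
  have := hp.re_inner_nonneg_right x
  simp only [sub_apply, inner_sub_right, map_sub] at this
  linarith

private theorem tyd_sq (a : H →L[ℂ] H) (x : H) :
    RCLike.re ⟪x, (star a * a) x⟫_ℂ = ‖a x‖ ^ 2 := by
  rw [mul_apply_eq_comp, ContinuousLinearMap.star_eq_adjoint,
    ContinuousLinearMap.adjoint_inner_right, inner_self_eq_norm_sq]

private theorem tyd_re (c : ℝ) (w : ℂ) : RCLike.re ((c : ℂ) * w) = c * RCLike.re w := by
  simp [RCLike.re_eq_complex_re]

/-- TyD -/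
theorem exists_copies_cut (M : VonNeumannAlgebra H) {q : H →L[ℂ] H} (hq : IsStarProjection q)
    (hqM : q ∈ M) {N : ℕ} (hN : 0 < N) (s : Fin N → H →L[ℂ] H) (hsM : ∀ k, s k ∈ M)
    (hsq : ∀ k, s k * q = s k) (ξ : H) {η : ℝ}
    (hη : ∑ k, ∑ l, ‖(star (s k) * s l - if k = l then q else 0) ξ‖ ^ 2 ≤ η) :
    ∃ r : H →L[ℂ] H, IsStarProjection r ∧ r ∈ M ∧ q * r = r ∧ ‖(q - r) ξ‖ ^ 2 ≤ 4 * N * η ∧
      ∃ v : Fin N → H →L[ℂ] H, Copies M r v := by
  classical
  have hNR : (0 : ℝ) < N := by exact_mod_cast hN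
  have hqs : star q = q := hq.isSelfAdjoint
  have hqq : q * q = q := hq.isIdempotentElem
  set D : Fin N → Fin N → H →L[ℂ] H := fun k l => star (s k) * s l - if k = l then q else 0
    with hD
  have hDM : ∀ k l, D k l ∈ M := by
    intro k l
    simp only [hD]
    refine sub_mem (mul_mem (star_mem (hsM k)) (hsM l)) ?_
    split_ifs
    · exact hqM
    · exact zero_mem _
  have hDq : ∀ k l, D k l * q = D k l := by
    intro k l
    simp only [hD]
    rw [sub_mul, mul_assoc, hsq l]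
    congr 1
    split_ifs
    · exact hqq
    · exact zero_mul _
  have hDs : ∀ k l, star (D k l) = D l k := by
    intro k l
    simp only [hD]
    rw [star_sub, star_mul, star_star]
    congr 1
    by_cases h : k = l
    · rw [if_pos h, if_pos h.symm, hqs]
    · rw [if_neg h, if_neg (Ne.symm h), star_zero]
  have hqD : ∀ k l, q * D k l = D k l := by
    intro k l
    rw [← hDs l k]
    nth_rewrite 1 [← hqs]
    rw [← star_mul, hDq]
  set Q : H →L[ℂ] H := ∑ k, ∑ l, star (D k l) * D k l with hQ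
  have hQM : Q ∈ M := sum_mem fun k _ => sum_mem fun l _ => mul_mem (star_mem (hDM k l)) (hDM k l)
  have hQs : star Q = Q := by
    simp only [hQ, star_sum, star_mul, star_star]
  have hQq : Q * q = Q := by
    simp only [hQ, Finset.sum_mul, mul_assoc, hDq]
  have hqQ : q * Q = Q := by
    have := congrArg star hQq
    rwa [star_mul, hqs, hQs] at this
  have hcomm : Q * q = q * Q := by rw [hQq, hqQ]
  have hquad : ∀ x : H, RCLike.re ⟪x, Q x⟫_ℂ = ∑ k, ∑ l, ‖D k l x‖ ^ 2 := by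
    intro x
    simp only [hQ, sum_apply, inner_sum, map_sum, tyd_sq]
  set c : ℝ := 1 / (4 * N) with hc
  have hcpos : 0 < c := by positivity
  set e : H →L[ℂ] H := Crest.Agent.R95.VN.cut Q q c with he
  have hep : IsStarProjection e := Crest.Agent.R95.VN.cut_proj _ _ _
  have hes : star e = e := hep.isSelfAdjoint
  have hee : e * e = e := hep.isIdempotentElem
  have heM : e ∈ M := Crest.Agent.R95.VN.cut_mem hQM hqM c
  have hqe : q * e = e := Crest.Agent.R95.VN.cut_le hQs hq hcomm c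
  have heq : e * q = e := by
    have := congrArg star hqe
    rwa [star_mul, hqs, hes] at this
  have heQ : Q * e = e * Q := Crest.Agent.R95.VN.cut_comm hQs hq hcomm c rfl hcomm
  set r : H →L[ℂ] H := q - e with hr
  have hrs : star r = r := by rw [hr, star_sub, hqs, hes]
  have hrr : r * r = r := by
    rw [hr, sub_mul, mul_sub, mul_sub, hqq, hqe, heq, hee]
    abel
  have hrp : IsStarProjection r := ⟨hrr, hrs⟩
  have hrM : r ∈ M := sub_mem hqM heM
  have hqr : q * r = r := by rw [hr, mul_sub, hqq, hqe]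
  refine ⟨r, hrp, hrM, hqr, ?_, ?_⟩
  · have h1 : q - r = e := by rw [hr]; abel
    rw [h1]
    -- c ‖e ξ‖² ≤ re ⟪ξ, Q e ξ⟫ ≤ re ⟪ξ, Q ξ⟫ ≤ η
    have h2 := tyd_mono (Crest.Agent.R95.VN.cut_ge hQs hq hcomm c) ξ
    have h3 : RCLike.re ⟪ξ, (c • e) ξ⟫_ℂ = c * ‖e ξ‖ ^ 2 := by
      have h4 : (c • e : H →L[ℂ] H) ξ = (c : ℂ) • ((star e * e) ξ) := by
        rw [hes, hee]
        rfl
      rw [h4, inner_smul_right, tyd_re, tyd_sq]
    have h5 : RCLike.re ⟪ξ, (Q * e) ξ⟫_ℂ ≤ RCLike.re ⟪ξ, Q ξ⟫_ℂ := by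
      apply tyd_mono
      rw [← sub_nonneg]
      have h6 : Q - Q * e = ∑ k, ∑ l, star (D k l * (1 - e)) * (D k l * (1 - e)) := by
        have h7 : ∑ k, ∑ l, star (D k l * (1 - e)) * (D k l * (1 - e)) = (1 - e) * Q * (1 - e) := by
          simp only [hQ, star_mul, star_sub, star_one, hes, Finset.mul_sum, Finset.sum_mul, mul_assoc]
        rw [h7, sub_mul, one_mul, ← heQ, mul_sub, mul_one, sub_mul, mul_assoc Q e e, hee]
        abel
      rw [h6]
      exact Finset.sum_nonneg fun k _ => Finset.sum_nonneg fun l _ => star_mul_self_nonneg _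
    have h8 : RCLike.re ⟪ξ, Q ξ⟫_ℂ ≤ η := by rw [hquad]; exact hη
    have h9 : c * ‖e ξ‖ ^ 2 ≤ η := by
      rw [h3] at h2
      exact h2.trans (h5.trans h8)
    have h10 : ‖e ξ‖ ^ 2 = 4 * N * (c * ‖e ξ‖ ^ 2) := by
      rw [hc]; field_simp
    rw [h10]
    exact mul_le_mul_of_nonneg_left h9 (by positivity)
  · apply exists_copies_of_lower M hrp hrM (fun i => s i * r) (fun i => mul_mem (hsM i) hrM)
      (fun i => by rw [mul_assoc, hrr]) (c := 1 / 2) (by norm_num)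
    intro x hx
    have hqx : ∀ i, q (x i) = x i := by
      intro i
      have : (q * r) (x i) = r (x i) := by rw [hqr]
      rw [mul_apply_eq_comp, hx i] at this
      exact this
    have h1 : ∑ i, (s i * r) (x i) = ∑ i, s i (x i) := by
      refine Finset.sum_congr rfl fun i _ => ?_
      rw [mul_apply_eq_comp, hx i]
    rw [h1]
    have hsl : ∀ k l, star (s k) * s l = D k l + if k = l then q else 0 := by
      intro k l
      simp only [hD, sub_add_cancel]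
    have h2 : ‖∑ i, s i (x i)‖ ^ 2 = ∑ i, ‖x i‖ ^ 2 + ∑ k, ∑ l, RCLike.re ⟪x k, D k l (x l)⟫_ℂ := by
      rw [← inner_self_eq_norm_sq (𝕜 := ℂ), sum_inner, map_sum]
      have h3 : ∀ k, RCLike.re ⟪s k (x k), ∑ i, s i (x i)⟫_ℂ =
          ‖x k‖ ^ 2 + ∑ l, RCLike.re ⟪x k, D k l (x l)⟫_ℂ := by
        intro k
        rw [inner_sum, map_sum]
        have h4 : ∀ l, RCLike.re ⟪s k (x k), s l (x l)⟫_ℂ =
            RCLike.re ⟪x k, D k l (x l)⟫_ℂ + if k = l then ‖x k‖ ^ 2 else 0 := by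
          intro l
          rw [← ContinuousLinearMap.adjoint_inner_right, ← ContinuousLinearMap.star_eq_adjoint,
            ← mul_apply_eq_comp, hsl, add_apply, inner_add_right, map_add]
          congr 1
          by_cases h : k = l
          · subst h
            rw [if_pos rfl, if_pos rfl, hqx, inner_self_eq_norm_sq]
          · rw [if_neg h, if_neg h]
            simp
        rw [Finset.sum_congr rfl fun l _ => h4 l, Finset.sum_add_distrib]
        simp only [Finset.sum_ite_eq, Finset.mem_univ, if_true]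
        ring
      rw [Finset.sum_congr rfl fun k _ => h3 k, Finset.sum_add_distrib]
    rw [h2]
    have h5 : ∀ k l, -(c * ‖x k‖ ^ 2 + N * ‖D k l (x l)‖ ^ 2) ≤ RCLike.re ⟪x k, D k l (x l)⟫_ℂ := by
      intro k l
      have h6 : |RCLike.re ⟪x k, D k l (x l)⟫_ℂ| ≤ ‖x k‖ * ‖D k l (x l)‖ :=
        (RCLike.abs_re_le_norm _).trans (norm_inner_le_norm _ _)
      have h7 : ‖x k‖ * ‖D k l (x l)‖ ≤ c * ‖x k‖ ^ 2 + N * ‖D k l (x l)‖ ^ 2 := by
        have h8 : 0 ≤ c * (‖x k‖ - 2 * N * ‖D k l (x l)‖) ^ 2 := by positivity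
        have h9 : c * (‖x k‖ - 2 * N * ‖D k l (x l)‖) ^ 2 =
            c * ‖x k‖ ^ 2 - ‖x k‖ * ‖D k l (x l)‖ + N * ‖D k l (x l)‖ ^ 2 := by
          rw [hc]; field_simp; ring
        linarith
      have := (abs_le.1 h6).1
      linarith
    have h10 : ∑ k, ∑ l, -(c * ‖x k‖ ^ 2 + N * ‖D k l (x l)‖ ^ 2) ≤
        ∑ k, ∑ l, RCLike.re ⟪x k, D k l (x l)⟫_ℂ :=
      Finset.sum_le_sum fun k _ => Finset.sum_le_sum fun l _ => h5 k l
    have h11 : ∀ l, ∑ k, ‖D k l (x l)‖ ^ 2 ≤ c * ‖x l‖ ^ 2 := by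
      intro l
      have h12 := tyd_mono (Crest.Agent.R95.VN.cut_rest hQs hq hcomm c) (x l)
      rw [← he, ← hr] at h12
      have h13 : (Q * r) (x l) = Q (x l) := by rw [mul_apply_eq_comp, hx l]
      have h14 : (c • r : H →L[ℂ] H) (x l) = (c : ℂ) • x l := by
        have : (c • r : H →L[ℂ] H) (x l) = c • (r (x l)) := rfl
        rw [this, hx l]
        exact (RCLike.real_smul_eq_coe_smul (K := ℂ) c (x l))
      rw [h13, h14, hquad, inner_smul_right, tyd_re, inner_self_eq_norm_sq] at h12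
      refine le_trans ?_ h12
      refine Finset.sum_le_sum fun k _ => ?_
      exact Finset.single_le_sum (f := fun l' => ‖D k l' (x l)‖ ^ 2) (fun _ _ => sq_nonneg _)
        (Finset.mem_univ l)
    have h15 : ∑ k, ∑ l, -(c * ‖x k‖ ^ 2 + N * ‖D k l (x l)‖ ^ 2) =
        -(N * (c * ∑ k, ‖x k‖ ^ 2)) - N * ∑ l, ∑ k, ‖D k l (x l)‖ ^ 2 := by
      simp only [neg_add, Finset.sum_add_distrib, Finset.sum_neg_distrib, Finset.sum_const,
        Finset.card_univ, Fintype.card_fin, nsmul_eq_mul, ← Finset.mul_sum]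
      rw [Finset.sum_comm]
      ring
    have h16 : ∑ l, ∑ k, ‖D k l (x l)‖ ^ 2 ≤ c * ∑ l, ‖x l‖ ^ 2 := by
      rw [Finset.mul_sum]
      exact Finset.sum_le_sum fun l _ => h11 l
    have h17 : (N : ℝ) * (c * ∑ k, ‖x k‖ ^ 2) = 1 / 4 * ∑ k, ‖x k‖ ^ 2 := by
      rw [hc]; field_simp
    have h18 : (N : ℝ) * ∑ l, ∑ k, ‖D k l (x l)‖ ^ 2 ≤ 1 / 4 * ∑ k, ‖x k‖ ^ 2 := by
      rw [← h17]
      exact mul_le_mul_of_nonneg_left h16 hNR.le
    rw [h15] at h10
    linarith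

end Crest.Agent.R121.Ty
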