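import Crest.Agent.R121.TyDefs

/-! Row 121, module T, part E (helper80): the limit projection (T4).

`A_k = ∑_{m<k} 4^(m+1) (f - r_m) ≥ 0`, `y_k = (1 + A_k)⁻¹` (or `cfc (fun t => (1+t)⁻¹) A_k`), `0 ≤ y_k ≤ 1`, `y_k ∈ M`,
commutes with `f`.  `‖(f - r_m) y_k v‖² = ⟪y_k (f-r_m) y_k v, v⟫ ≤ 4^{-(m+1)} ⟪y_k A_k y_k v, v⟫ ≤ 4^{-(m+1)} ‖v‖²` for
`m < k`, and `⟪(1 - y_k) ξ, ξ⟫ ≤ ⟪A_k ξ, ξ⟫ ≤ ∑ 4^(m+1) 8^(-(m+3)) ‖ξ‖² ≤ ‖ξ‖² / 4`.  Let `y ∈ M` be a weak operator limit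
of `y_k` along an ultrafilter (`W.exists_wot_lim`, `mem_of_wot_lim`): `0 ≤ y ≤ 1`, `‖(f - r_m) y v‖² ≤ 4^{-(m+1)} ‖v‖²`
(norm is weakly lower semicontinuous), `⟪y ξ, ξ⟫ ≥ (3/4) ‖ξ‖²`, `y f = f y`.  `R = cut y f (2/3)` (`R95.VN.cut`,
spectral projection of `y` for `(2/3, 1]` below `f`): `R ≠ 0` (else `y f ≤ (2/3) f`, contradiction at `ξ`), and for
`R x = x`: `x = y z` with `z = w x`, `w = (y + (1 - R))⁻¹ R`-like, `‖z‖ ≤ (3/2) ‖x‖` (`y ≥ 2/3` on `R`, `R` commutes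
with `y`, so `y` is invertible on `R H`), so `‖(f - r_m) x‖ ≤ 2^{-(m+1)} (3/2) ‖x‖ ≤ (3/4) ‖x‖`.  Finally
`‖r_m x‖² = ‖x‖² - ‖(f - r_m) x‖² ≥ (7/16) ‖x‖²`. -/

set_option autoImplicit false

namespace Crest.Agent.R121.Ty

open scoped InnerProductSpace ComplexOrder Topology
open Crest.Agent.R121 Filter

variable {H : Type*} [NormedAddCommGroup H] [InnerProductSpace ℂ H] [CompleteSpace H]

/-- the resolvent `(1 + A)⁻¹` of a positive operator -/
theorem resolvent (M : VonNeumannAlgebra H) {A : H →L[ℂ] H} (hA : 0 ≤ A) (hAM : A ∈ M) :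
    ∃ Y ∈ M, star Y = Y ∧ (1 + A) * Y = 1 ∧ Y * (1 + A) = 1 := by
  have h1 : (1 : H →L[ℂ] H) ≤ 1 + A := le_add_of_nonneg_right hA
  have hunit : IsUnit (1 + A) := CStarAlgebra.isUnit_of_le 1 h1 isStrictlyPositive_one
  obtain ⟨U, hU⟩ := hunit
  have hsa : star (1 + A) = 1 + A := by
    rw [star_add, star_one, hA.isSelfAdjoint.star_eq]
  refine ⟨↑U⁻¹, ?_, ?_, by rw [← hU, Units.mul_inv], by rw [← hU, Units.inv_mul]⟩
  · rw [← M.commutant_commutant, VonNeumannAlgebra.mem_commutant_iff]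
    intro c hc
    rw [VonNeumannAlgebra.mem_commutant_iff] at hc
    have h2 : A * c = c * A := hc A hAM
    have h3 : (↑U : H →L[ℂ] H) * c = c * ↑U := by
      rw [hU, add_mul, mul_add, h2, one_mul, mul_one]
    exact (Units.mul_inv_eq_iff_eq_mul (a := c) (b := U)).2 (by
      rw [mul_assoc, ← h3, ← mul_assoc, Units.inv_mul, one_mul])
  · have h4 : star (↑U : H →L[ℂ] H) = ↑U := by rw [hU, hsa]
    have h5 : star (↑U⁻¹ : H →L[ℂ] H) * ↑U = 1 := by
      have := congrArg star (Units.mul_inv U)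
      rwa [star_mul, star_one, h4] at this
    calc star (↑U⁻¹ : H →L[ℂ] H) = star (↑U⁻¹ : H →L[ℂ] H) * (↑U * ↑U⁻¹) := by
          rw [Units.mul_inv, mul_one]
      _ = ↑U⁻¹ := by rw [← mul_assoc, h5, one_mul]

theorem sa_inner {T : H →L[ℂ] H} (h : star T = T) (x y : H) : ⟪T x, y⟫_ℂ = ⟪x, T y⟫_ℂ := by
  rw [← ContinuousLinearMap.adjoint_inner_right, ← ContinuousLinearMap.star_eq_adjoint, h]

/-- TyE1: the limit operator -/
theorem exists_limit_op (M : VonNeumannAlgebra H) {f : H →L[ℂ] H} (hf : IsStarProjection f)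
    (hfM : f ∈ M) {ξ : H} (hξ : f ξ = ξ) (r : ℕ → H →L[ℂ] H)
    (hr : ∀ m, IsStarProjection (r m)) (hrM : ∀ m, r m ∈ M) (hrf : ∀ m, f * r m = r m)
    (hsmall : ∀ m, ‖(f - r m) ξ‖ ^ 2 ≤ (1 / 8 : ℝ) ^ (m + 3) * ‖ξ‖ ^ 2) :
    ∃ y ∈ M, 0 ≤ y ∧ y ≤ 1 ∧ y * f = f * y ∧
      (∀ m v, ‖(f - r m) (y v)‖ ^ 2 ≤ (1 / 4 : ℝ) ^ (m + 1) * ‖v‖ ^ 2) ∧
      3 / 4 * ‖ξ‖ ^ 2 ≤ (⟪ξ, y ξ⟫_ℂ).re := by
  have hfsa : star f = f := hf.isSelfAdjoint
  have hff : f * f = f := hf.isIdempotentElem.eq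
  set p : ℕ → H →L[ℂ] H := fun m => f - r m with hp
  have hrf' : ∀ m, r m * f = r m := by
    intro m
    have := congrArg star (hrf m)
    rwa [star_mul, hfsa, (hr m).isSelfAdjoint.star_eq] at this
  have hpM : ∀ m, p m ∈ M := fun m => sub_mem hfM (hrM m)
  have hpsa : ∀ m, star (p m) = p m := by
    intro m; rw [hp]; simp only [star_sub, hfsa, (hr m).isSelfAdjoint.star_eq]
  have hpp : ∀ m, p m * p m = p m := by
    intro m
    simp only [hp, sub_mul, mul_sub, hff, hrf, hrf', (hr m).isIdempotentElem.eq]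
    abel
  have hfp : ∀ m, f * p m = p m := by
    intro m; simp only [hp, mul_sub, hff, hrf]
  have hpf : ∀ m, p m * f = p m := by
    intro m; simp only [hp, sub_mul, hff, hrf']
  have hpin : ∀ m v, (⟪v, p m v⟫_ℂ).re = ‖p m v‖ ^ 2 := by
    intro m v
    have h1 : p m v = p m (p m v) := by
      have : p m (p m v) = (p m * p m) v := rfl
      rw [this, hpp]
    rw [h1, ← sa_inner (hpsa m), ← h1, ← RCLike.re_to_complex, inner_self_eq_norm_sq]
  -- the sums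
  set A : ℕ → H →L[ℂ] H := fun k => ∑ m ∈ Finset.range k, ((4 : ℝ) ^ (m + 1)) • p m with hAdef
  have hAv : ∀ k v, (⟪v, A k v⟫_ℂ).re = ∑ m ∈ Finset.range k, (4 : ℝ) ^ (m + 1) * ‖p m v‖ ^ 2 := by
    intro k v
    simp only [hAdef, sum_apply, smul_apply, inner_sum]
    rw [Complex.re_sum]
    refine Finset.sum_congr rfl fun m _ => ?_
    rw [← Complex.coe_smul, inner_smul_right, Complex.re_ofReal_mul, hpin]
  have hAM : ∀ k, A k ∈ M := by
    intro k
    refine sum_mem fun m _ => ?_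
    have : ((4 : ℝ) ^ (m + 1)) • p m = (((4 : ℝ) ^ (m + 1) : ℝ) : ℂ) • p m := by
      rw [Complex.coe_smul]
    rw [this]
    exact M.toStarSubalgebra.smul_mem (hpM m) _
  have hAsa : ∀ k, star (A k) = A k := by
    intro k
    simp only [hAdef, star_sum, star_smul, hpsa, star_trivial]
  have hA0 : ∀ k, 0 ≤ A k := by
    intro k
    rw [ContinuousLinearMap.nonneg_iff_isPositive]
    refine ⟨(show IsSelfAdjoint (A k) from hAsa k).isSymmetric, fun v => ?_⟩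
    rw [ContinuousLinearMap.reApplyInnerSelf_apply, sa_inner (hAsa k), RCLike.re_to_complex, hAv]
    exact Finset.sum_nonneg fun m _ => by positivity
  have hAf : ∀ k, A k * f = f * A k := by
    intro k
    simp only [hAdef, Finset.sum_mul, Finset.mul_sum, smul_mul_assoc, mul_smul_comm, hpf, hfp]
  choose Y hYM hYsa hY1 hY2 using fun k => resolvent M (hA0 k) (hAM k)
  have hdec : ∀ k v, v = Y k v + A k (Y k v) := by
    intro k v
    have h1 : ((1 + A k) * Y k) v = v := by rw [hY1]; rfl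
    exact h1.symm
  have hYf : ∀ k, Y k * f = f * Y k := by
    intro k
    have h3 : (1 + A k) * f = f * (1 + A k) := by
      rw [add_mul, mul_add, hAf, one_mul, mul_one]
    calc Y k * f = Y k * (f * ((1 + A k) * Y k)) := by rw [hY1, mul_one]
      _ = Y k * ((f * (1 + A k)) * Y k) := by rw [mul_assoc]
      _ = (Y k * (1 + A k)) * (f * Y k) := by rw [← h3]; simp only [mul_assoc]
      _ = f * Y k := by rw [hY2, one_mul]
  have hq0 : ∀ k v, 0 ≤ (⟪v, A k v⟫_ℂ).re := by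
    intro k v; rw [hAv]; exact Finset.sum_nonneg fun m _ => by positivity
  have hself : ∀ v : H, (⟪v, v⟫_ℂ).re = ‖v‖ ^ 2 := by
    intro v; rw [← RCLike.re_to_complex, inner_self_eq_norm_sq]
  -- the main identity
  have hid : ∀ k v, (⟪v, Y k v⟫_ℂ).re = ‖Y k v‖ ^ 2 + (⟪Y k v, A k (Y k v)⟫_ℂ).re := by
    intro k v
    have h1 : ⟪v, Y k v⟫_ℂ = ⟪Y k v + A k (Y k v), Y k v⟫_ℂ := by rw [← hdec k v]
    rw [h1, inner_add_left, Complex.add_re, hself, sa_inner (hAsa k)]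
  have hYn : ∀ k v, ‖Y k v‖ ≤ ‖v‖ := by
    intro k v
    have h1 := hid k v
    have h2 := hq0 k (Y k v)
    have h3 : (⟪v, Y k v⟫_ℂ).re ≤ ‖v‖ * ‖Y k v‖ :=
      (Complex.re_le_norm _).trans (norm_inner_le_norm _ _)
    by_contra h
    push Not at h
    have := norm_nonneg v
    nlinarith
  have hYop : ∀ k, ‖Y k‖ ≤ 1 := fun k =>
    ContinuousLinearMap.opNorm_le_bound _ zero_le_one fun v => by rw [one_mul]; exact hYn k v
  have hpY : ∀ k m v, m < k → ‖p m (Y k v)‖ ^ 2 ≤ (1 / 4 : ℝ) ^ (m + 1) * ‖v‖ ^ 2 := by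
    intro k m v hm
    have h1 := hid k v
    have h3 : (⟪v, Y k v⟫_ℂ).re ≤ ‖v‖ * ‖Y k v‖ :=
      (Complex.re_le_norm _).trans (norm_inner_le_norm _ _)
    have h4 : (⟪v, Y k v⟫_ℂ).re ≤ ‖v‖ ^ 2 := by
      have := hYn k v
      have := norm_nonneg v
      nlinarith
    have h5 : (4 : ℝ) ^ (m + 1) * ‖p m (Y k v)‖ ^ 2 ≤ (⟪Y k v, A k (Y k v)⟫_ℂ).re := by
      rw [hAv]
      exact Finset.single_le_sum (f := fun m => (4 : ℝ) ^ (m + 1) * ‖p m (Y k v)‖ ^ 2)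
        (fun i _ => by positivity) (Finset.mem_range.2 hm)
    have h6 : (4 : ℝ) ^ (m + 1) * ‖p m (Y k v)‖ ^ 2 ≤ ‖v‖ ^ 2 := by nlinarith [sq_nonneg ‖Y k v‖]
    have h7 : (1 / 4 : ℝ) ^ (m + 1) * (4 : ℝ) ^ (m + 1) = 1 := by
      rw [← mul_pow]; norm_num
    calc ‖p m (Y k v)‖ ^ 2 = (1 / 4 : ℝ) ^ (m + 1) * ((4 : ℝ) ^ (m + 1) * ‖p m (Y k v)‖ ^ 2) := by
          rw [← mul_assoc, h7, one_mul]
      _ ≤ _ := by gcongr
  have hYξ : ∀ k, 3 / 4 * ‖ξ‖ ^ 2 ≤ (⟪ξ, Y k ξ⟫_ℂ).re := by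
    intro k
    set w := Y k ξ with hw
    have hd := hdec k ξ
    rw [← hw] at hd
    -- t = re <ξ, A w>
    have ht1 : (⟪ξ, w⟫_ℂ).re = ‖ξ‖ ^ 2 - (⟪ξ, A k w⟫_ℂ).re := by
      have h1 : ⟪ξ, ξ⟫_ℂ = ⟪ξ, w⟫_ℂ + ⟪ξ, A k w⟫_ℂ := by
        rw [← inner_add_right, ← hd]
      have h2 := congrArg Complex.re h1
      rw [hself, Complex.add_re] at h2
      linarith
    have ht2 : (⟪w, A k w⟫_ℂ).re ≤ (⟪ξ, A k w⟫_ℂ).re := by
      have h1 : ⟪ξ, A k w⟫_ℂ = ⟪w, A k w⟫_ℂ + ⟪A k w, A k w⟫_ℂ := by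
        rw [← inner_add_left, ← hd]
      rw [h1, Complex.add_re, hself]
      nlinarith [sq_nonneg ‖A k w‖]
    have ht3 : 0 ≤ (⟪ξ, A k ξ⟫_ℂ).re - 2 * (⟪ξ, A k w⟫_ℂ).re + (⟪w, A k w⟫_ℂ).re := by
      have h1 := hq0 k (ξ - w)
      rw [map_sub, inner_sub_left, inner_sub_right, inner_sub_right] at h1
      have h2 : (⟪w, A k ξ⟫_ℂ).re = (⟪ξ, A k w⟫_ℂ).re := by
        rw [← sa_inner (hAsa k), ← inner_conj_symm, Complex.conj_re]
      simp only [Complex.sub_re] at h1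
      rw [h2] at h1
      linarith
    have ht4 : (⟪ξ, A k ξ⟫_ℂ).re ≤ 1 / 4 * ‖ξ‖ ^ 2 := by
      rw [hAv]
      have h1 : ∀ m ∈ Finset.range k, (4 : ℝ) ^ (m + 1) * ‖p m ξ‖ ^ 2 ≤
          (1 / 2 : ℝ) ^ m * (1 / 8 * ‖ξ‖ ^ 2) := by
        intro m _
        have h2 := hsmall m
        have h3 : (4 : ℝ) ^ (m + 1) * (1 / 8 : ℝ) ^ (m + 3) = (1 / 2 : ℝ) ^ m * (4 / 512) := by
          have e : (1 / 2 : ℝ) ^ m = (4 : ℝ) ^ m * (1 / 8 : ℝ) ^ m := by
            rw [← mul_pow]; norm_num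
          rw [e]; ring
        calc (4 : ℝ) ^ (m + 1) * ‖p m ξ‖ ^ 2 ≤
              (4 : ℝ) ^ (m + 1) * ((1 / 8 : ℝ) ^ (m + 3) * ‖ξ‖ ^ 2) := by gcongr
          _ = (1 / 2 : ℝ) ^ m * (4 / 512) * ‖ξ‖ ^ 2 := by rw [← mul_assoc, h3]
          _ ≤ _ := by
            have : 0 ≤ (1 / 2 : ℝ) ^ m * ‖ξ‖ ^ 2 := by positivity
            nlinarith
      refine (Finset.sum_le_sum h1).trans ?_
      rw [← Finset.sum_mul]
      have h4 : ∑ m ∈ Finset.range k, (1 / 2 : ℝ) ^ m ≤ 2 := by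
        have h5 := (summable_geometric_two).sum_le_tsum (Finset.range k)
          (fun i _ => by positivity)
        rwa [tsum_geometric_two] at h5
      have : 0 ≤ 1 / 8 * ‖ξ‖ ^ 2 := by positivity
      nlinarith
    linarith
  -- the limit
  let U : Ultrafilter ℕ := Ultrafilter.of atTop
  have hU : (U : Filter ℕ) ≤ atTop := Ultrafilter.of_le _
  obtain ⟨y, hyn, hyl⟩ := exists_wot_lim U Y hYop
  have hyM : y ∈ M := mem_of_wot_lim M hYM hyl
  have hyl' : ∀ x z, Tendsto (fun i => ⟪x, Y i z⟫_ℂ) U (𝓝 ⟪x, y z⟫_ℂ) := by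
    intro x z
    have h1 := (Complex.continuous_conj.tendsto _).comp (hyl z x)
    simpa only [Function.comp_def, inner_conj_symm] using h1
  have hysa : star y = y := by
    ext x
    refine ext_inner_right ℂ fun z => ?_
    rw [ContinuousLinearMap.star_eq_adjoint, ContinuousLinearMap.adjoint_inner_left]
    refine tendsto_nhds_unique (hyl' x z) ?_
    have h1 : (fun i => ⟪x, Y i z⟫_ℂ) = fun i => ⟪Y i x, z⟫_ℂ := by
      funext i; rw [sa_inner (hYsa i)]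
    rw [h1]
    exact hyl x z
  have hre : ∀ v, Tendsto (fun i => (⟪v, Y i v⟫_ℂ).re) U (𝓝 (⟪v, y v⟫_ℂ).re) := fun v =>
    (Complex.continuous_re.tendsto _).comp (hyl' v v)
  refine ⟨y, hyM, ?_, ?_, ?_, ?_, ?_⟩
  · rw [ContinuousLinearMap.nonneg_iff_isPositive]
    refine ⟨(show IsSelfAdjoint y from hysa).isSymmetric, fun v => ?_⟩
    rw [ContinuousLinearMap.reApplyInnerSelf_apply, sa_inner hysa, RCLike.re_to_complex]
    refine ge_of_tendsto' (hre v) fun i => ?_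
    rw [hid]
    have := hq0 i (Y i v)
    positivity
  · rw [ContinuousLinearMap.le_def]
    have hsa1 : star (1 - y) = 1 - y := by rw [star_sub, star_one, hysa]
    refine ⟨(show IsSelfAdjoint (1 - y) from hsa1).isSymmetric, fun v => ?_⟩
    rw [ContinuousLinearMap.reApplyInnerSelf_apply, sa_inner hsa1, RCLike.re_to_complex]
    have h1 : ⟪v, (1 - y) v⟫_ℂ = ⟪v, v⟫_ℂ - ⟪v, y v⟫_ℂ := by
      rw [← inner_sub_right]; rfl
    rw [h1, Complex.sub_re, hself, sub_nonneg]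
    refine le_of_tendsto' (hre v) fun i => ?_
    have h3 : (⟪v, Y i v⟫_ℂ).re ≤ ‖v‖ * ‖Y i v‖ :=
      (Complex.re_le_norm _).trans (norm_inner_le_norm _ _)
    have := hYn i v
    have := norm_nonneg v
    nlinarith
  · ext x
    refine ext_inner_right ℂ fun z => ?_
    refine tendsto_nhds_unique (hyl (f x) z) ?_
    have h1 : (fun i => ⟪Y i (f x), z⟫_ℂ) = fun i => ⟪Y i x, f z⟫_ℂ := by
      funext i
      have e1 : Y i (f x) = f (Y i x) := by
        have : (Y i * f) x = (f * Y i) x := by rw [hYf]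
        exact this
      rw [e1, sa_inner hfsa]
    rw [h1]
    have h2 : ⟪(f * y) x, z⟫_ℂ = ⟪y x, f z⟫_ℂ := by
      have : (f * y) x = f (y x) := rfl
      rw [this, sa_inner hfsa]
    rw [h2]
    exact hyl x (f z)
  · intro m v
    set z := p m (y v) with hz
    have hs : 0 ≤ (1 / 2 : ℝ) ^ (m + 1) := by positivity
    have hsq : ((1 / 2 : ℝ) ^ (m + 1)) ^ 2 = (1 / 4 : ℝ) ^ (m + 1) := by
      rw [← pow_mul, mul_comm, pow_mul]; norm_num
    have h1 : ‖z‖ ^ 2 ≤ (1 / 2 : ℝ) ^ (m + 1) * ‖v‖ * ‖z‖ := by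
      have h2 : (⟪p m z, y v⟫_ℂ).re = ‖z‖ ^ 2 := by
        rw [sa_inner (hpsa m), ← hz, hself]
      rw [← h2]
      refine le_of_tendsto ((Complex.continuous_re.tendsto _).comp (hyl' (p m z) v)) ?_
      filter_upwards [hU (eventually_gt_atTop m)] with i hi
      have h3 := hpY i m v hi
      have h4 : ‖p m (Y i v)‖ ≤ (1 / 2 : ℝ) ^ (m + 1) * ‖v‖ := by
        refine abs_le_of_sq_le_sq' ?_ (by positivity) |>.2
        rw [mul_pow, hsq]; exact h3
      have h5 : (⟪p m z, Y i v⟫_ℂ).re ≤ ‖z‖ * ‖p m (Y i v)‖ := by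
        rw [sa_inner (hpsa m)]
        exact (Complex.re_le_norm _).trans (norm_inner_le_norm _ _)
      have := norm_nonneg z
      show (⟪p m z, Y i v⟫_ℂ).re ≤ _
      nlinarith
    have h2 : ‖z‖ ≤ (1 / 2 : ℝ) ^ (m + 1) * ‖v‖ := by
      by_contra h
      push Not at h
      have h3 : 0 ≤ (1 / 2 : ℝ) ^ (m + 1) * ‖v‖ := by positivity
      nlinarith
    show ‖z‖ ^ 2 ≤ _
    calc ‖z‖ ^ 2 ≤ ((1 / 2 : ℝ) ^ (m + 1) * ‖v‖) ^ 2 := by gcongr
      _ = _ := by rw [mul_pow, hsq]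
  · exact ge_of_tendsto' (hre ξ) hYξ

/-- TyE2 -/
theorem exists_limit_proj (M : VonNeumannAlgebra H) {f : H →L[ℂ] H} (hf : IsStarProjection f)
    (hfM : f ∈ M) {ξ : H} (hξ : f ξ = ξ) (hξ0 : ξ ≠ 0) (r : ℕ → H →L[ℂ] H)
    (hr : ∀ m, IsStarProjection (r m)) (hrM : ∀ m, r m ∈ M) (hrf : ∀ m, f * r m = r m)
    (hsmall : ∀ m, ‖(f - r m) ξ‖ ^ 2 ≤ (1 / 8 : ℝ) ^ (m + 3) * ‖ξ‖ ^ 2) :
    ∃ R : H →L[ℂ] H, IsStarProjection R ∧ R ∈ M ∧ R ≠ 0 ∧ f * R = R ∧
      ∀ m x, R x = x → 7 / 16 * ‖x‖ ^ 2 ≤ ‖r m x‖ ^ 2 := by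
  obtain ⟨y, hyM, hy0, hy1, hyf, hyr, hyξ⟩ := exists_limit_op M hf hfM hξ r hr hrM hrf hsmall
  have hysa : IsSelfAdjoint y := hy0.isSelfAdjoint
  obtain ⟨e, ⟨heM, he⟩, hey, hecomm, hege, hele⟩ :=
    Crest.Agent.R95.spec_cut M hyM hysa (2 / 3 : ℝ)
  have hfe : f * e = e * f := hecomm f hyf.symm
  have hee : e * e = e := he.isIdempotentElem.eq
  have hff : f * f = f := hf.isIdempotentElem.eq
  have hesa : star e = e := he.isSelfAdjoint
  have hfsa : star f = f := hf.isSelfAdjoint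
  have hsw : ∀ {R : H →L[ℂ] H}, star R = R → ∀ v w : H, ⟪v, R w⟫_ℂ = ⟪R v, w⟫_ℂ := by
    intro R hR v w
    rw [← ContinuousLinearMap.adjoint_inner_right, ← ContinuousLinearMap.star_eq_adjoint, hR]
  have hR : IsStarProjection (f * e) := by
    refine ⟨?_, ?_⟩
    · show f * e * (f * e) = f * e
      calc f * e * (f * e) = f * (e * f) * e := by simp only [mul_assoc]
        _ = f * (f * e) * e := by rw [hfe]
        _ = (f * f) * (e * e) := by simp only [mul_assoc]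
        _ = f * e := by rw [hff, hee]
    · show star (f * e) = f * e
      rw [star_mul, hesa, hfsa, hfe]
  refine ⟨f * e, hR, mul_mem hfM heM, ?_, by rw [← mul_assoc, hff], ?_⟩
  · intro h0
    have h1 : e ξ = 0 := by
      have h2 : (f * e) ξ = 0 := by rw [h0]; rfl
      rw [hfe] at h2
      have h3 : (e * f) ξ = e (f ξ) := rfl
      rwa [h3, hξ] at h2
    have h4 := hele ξ
    have h5 : ((1 : H →L[ℂ] H) - e) ξ = ξ := by
      rw [ContinuousLinearMap.sub_apply, h1, sub_zero]; rfl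
    rw [h5] at h4
    have h6 : 0 < ‖ξ‖ ^ 2 := by positivity
    linarith
  · intro m x hx
    have hfx : f x = x := by
      have h1 : f ((f * e) x) = (f * (f * e)) x := rfl
      rw [hx] at h1
      rw [h1, ← mul_assoc, hff, hx]
    have hex : e x = x := by
      have h1 : e ((f * e) x) = (e * (f * e)) x := rfl
      rw [hx] at h1
      rw [h1, hfe, ← mul_assoc, hee, ← hfe, hx]
    set q : H →L[ℂ] H := 1 - e with hq
    have hqsa : star q = q := by rw [hq, star_sub, star_one, hesa]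
    have hqq : q * q = q := he.isIdempotentElem.one_sub.eq
    have heq0 : e * q = 0 := by rw [hq, mul_sub, mul_one, hee, sub_self]
    have hqapp : ∀ v, q v = v - e v := fun v => rfl
    -- the invertible operator
    set B : H →L[ℂ] H := y * e + (2 / 3 : ℝ) • q with hB
    have hBapp : ∀ v, B v = y (e v) + (2 / 3 : ℝ) • (q v) := fun v => rfl
    have hsplit : ∀ v : H, ‖v‖ ^ 2 = ‖e v‖ ^ 2 + ‖q v‖ ^ 2 := by
      intro v
      have h1 : v = e v + q v := by rw [hqapp]; abel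
      have h2 : ⟪e v, q v⟫_ℂ = 0 := by
        rw [← hsw hesa]
        have h5 : e (q v) = (e * q) v := rfl
        rw [h5, heq0]
        simp
      have h3 := norm_add_sq_eq_norm_sq_add_norm_sq_of_inner_eq_zero _ _ h2
      rw [← h1] at h3
      rw [sq, sq, sq]
      exact h3
    have hye : ∀ v, e (y (e v)) = y (e v) := by
      intro v
      have h1 : e (y (e v)) = (e * y * e) v := rfl
      rw [h1, hey, mul_assoc, hee]
      rfl
    have hBe : ∀ v, e (B v) = B (e v) := by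
      intro v
      rw [hBapp, hBapp, map_add, hye, ContinuousLinearMap.map_smul_of_tower]
      have h1 : e (q v) = (e * q) v := rfl
      have h2 : q (e v) = 0 := by
        rw [hqapp]
        have : e (e v) = (e * e) v := rfl
        rw [this, hee, sub_self]
      have h3 : e (e v) = e v := by
        have : e (e v) = (e * e) v := rfl
        rw [this, hee]
      rw [h1, heq0, h2, h3]
      simp
    have hvw : ∀ v w : H, ⟪v, B w⟫_ℂ = ⟪e v, y (e w)⟫_ℂ + ((2 / 3 : ℝ) : ℂ) * ⟪q v, q w⟫_ℂ := by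
      intro v w
      rw [hBapp, inner_add_right]
      congr 1
      · rw [← hsw hesa, hye]
      · rw [← hsw hqsa]
        have h1 : q (q w) = (q * q) w := rfl
        rw [h1, hqq]
        rw [← Complex.coe_smul, inner_smul_right]
    have hform : ∀ v : H, 2 / 3 * ‖v‖ ^ 2 ≤ (⟪v, B v⟫_ℂ).re := by
      intro v
      have h3 := hege v
      have h4 := hsplit v
      have h5 : (⟪q v, q v⟫_ℂ).re = ‖q v‖ ^ 2 := by
        rw [← RCLike.re_to_complex, inner_self_eq_norm_sq]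
      rw [hvw, Complex.add_re, Complex.re_ofReal_mul, h5, h4]
      linarith
    have hBsa : star B = B := by
      rw [hB, star_add, star_mul, hesa, hysa.star_eq, star_smul, hqsa, hey]
      simp
    have hle : (2 / 3 : ℝ) • (1 : H →L[ℂ] H) ≤ B := by
      rw [ContinuousLinearMap.le_def]
      have hsc : IsSelfAdjoint (B - (2 / 3 : ℝ) • (1 : H →L[ℂ] H)) := by
        rw [IsSelfAdjoint, star_sub, hBsa, star_smul, star_one]
        simp
      refine ⟨hsc.isSymmetric, fun v => ?_⟩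
      rw [ContinuousLinearMap.reApplyInnerSelf_apply, sub_apply, inner_sub_left]
      have h1 := hform v
      rw [hsw hBsa] at h1
      have h2 : (((2 / 3 : ℝ) • (1 : H →L[ℂ] H)) v) = ((2 / 3 : ℝ) : ℂ) • v := by
        rw [ContinuousLinearMap.smul_apply, ContinuousLinearMap.one_apply, ← Complex.coe_smul]
      rw [h2, inner_smul_left, Complex.conj_ofReal, map_sub, RCLike.re_to_complex,
        RCLike.re_to_complex, Complex.re_ofReal_mul]
      have e1 : (⟪v, v⟫_ℂ).re = ‖v‖ ^ 2 := by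
        rw [← RCLike.re_to_complex, inner_self_eq_norm_sq]
      rw [e1]
      linarith
    have hunit : IsUnit B := by
      refine CStarAlgebra.isUnit_of_le ((2 / 3 : ℝ) • (1 : H →L[ℂ] H)) hle ?_
      refine ⟨smul_nonneg (by norm_num) zero_le_one, ?_⟩
      rw [← Algebra.algebraMap_eq_smul_one]
      exact IsUnit.map (algebraMap ℝ (H →L[ℂ] H)) (IsUnit.mk0 (2 / 3 : ℝ) (by norm_num))
    obtain ⟨U, hU⟩ := hunit
    set z : H := (↑U⁻¹ : H →L[ℂ] H) x with hz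
    have hBz : B z = x := by
      rw [hz, ← hU]
      have : (↑U : H →L[ℂ] H) ((↑U⁻¹ : H →L[ℂ] H) x) = ((↑U : H →L[ℂ] H) * ↑U⁻¹) x := rfl
      rw [this, Units.mul_inv]; rfl
    have hinj : ∀ v w, B v = B w → v = w := by
      intro v w h
      have h1 : ∀ v, (↑U⁻¹ : H →L[ℂ] H) (B v) = v := by
        intro v
        rw [← hU]
        have : (↑U⁻¹ : H →L[ℂ] H) ((↑U : H →L[ℂ] H) v) = ((↑U⁻¹ : H →L[ℂ] H) * ↑U) v := rfl
        rw [this, Units.inv_mul]; rfl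
      rw [← h1 v, ← h1 w, h]
    have hez : e z = z := hinj _ _ (by rw [← hBe, hBz, hex])
    have hyz : y z = x := by
      have h1 := hBapp z
      rw [hBz, hez, hqapp, hez, sub_self, smul_zero, add_zero] at h1
      exact h1.symm
    have hzn : 2 / 3 * ‖z‖ ^ 2 ≤ ‖z‖ * ‖x‖ := by
      refine (hform z).trans ?_
      rw [hBz]
      exact (Complex.re_le_norm _).trans (norm_inner_le_norm _ _)
    have hzn2 : ‖z‖ ≤ 3 / 2 * ‖x‖ := by
      rcases eq_or_lt_of_le (norm_nonneg z) with h | h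
      · rw [← h]; positivity
      · nlinarith
    have h1 := hyr m z
    rw [hyz] at h1
    have h2 : (1 / 4 : ℝ) ^ (m + 1) ≤ 1 / 4 := by
      calc (1 / 4 : ℝ) ^ (m + 1) ≤ (1 / 4 : ℝ) ^ 1 :=
            pow_le_pow_of_le_one (by norm_num) (by norm_num) (by omega)
        _ = 1 / 4 := pow_one _
    have h3 : ‖z‖ ^ 2 ≤ 9 / 4 * ‖x‖ ^ 2 := by
      have := pow_le_pow_left₀ (norm_nonneg z) hzn2 2
      calc ‖z‖ ^ 2 ≤ (3 / 2 * ‖x‖) ^ 2 := this
        _ = 9 / 4 * ‖x‖ ^ 2 := by ring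
    have h4 : ‖(f - r m) x‖ ^ 2 ≤ 9 / 16 * ‖x‖ ^ 2 := by
      refine h1.trans ?_
      have := sq_nonneg ‖z‖
      nlinarith
    -- Pythagoras
    have h5 : ⟪r m x, (f - r m) x⟫_ℂ = 0 := by
      rw [← hsw (hr m).isSelfAdjoint]
      have e1 : r m ((f - r m) x) = (r m * (f - r m)) x := rfl
      have e2 : r m * f = r m := by
        have := congrArg star (hrf m)
        rwa [star_mul, hfsa, (hr m).isSelfAdjoint.star_eq] at this
      rw [e1, mul_sub, e2, (hr m).isIdempotentElem.eq, sub_self]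
      simp
    have h6 := norm_add_sq_eq_norm_sq_add_norm_sq_of_inner_eq_zero _ _ h5
    have h7 : r m x + (f - r m) x = x := by
      rw [ContinuousLinearMap.sub_apply, hfx]; abel
    rw [h7] at h6
    nlinarith

end Crest.Agent.R121.Ty
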