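import Crest.Agent.R121.TyDefs

/-! Row 121, module T, part H (helper80): halving, without abelian projections.

`exists_nilp` (TyH1): `r` a projection of `M`, not `Ab`.  There is a projection `g ∈ M`, `g ≤ r` and `x ∈ M` with
`g x (r - g) ≠ 0`: otherwise every projection `g ≤ r` of `M` commutes with all `r x r` (`g x (r-g) = 0` and its
adjoint), and by `R95.layer_cake` (positive contractions are norm limits of multiples of sums of projections; apply it
to `a = r y r` scaled, `0 ≤ a ≤ 1`; the projections commute with `1 - r` because `a` does: take `g = r f_k`) all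
selfadjoint, hence all elements of `r M r` commute.  Then `R95.VN.pi_of_ne_zero` for `y = g x (r - g)`: `w ≠ 0`,
`g w = w`, `w (r - g) = w`, so `w w = 0`, `r w = w`, `w r = w`.

`halve` (TyH2): Zorn for the partial isometries `v ∈ M` with `v v = 0`, `p v = v`, `v p = v`, ordered by
`R124.Cmp.Ext`; chains have suprema (`Cmp.exists_sup`; `w_i w_j = 0` along a chain: `w_j w_j = 0` and `w_i = w_j (w_i⋆w_i)`,
..; for the supremum `v` use the `q`-clauses with `q = 1 - v⋆v` etc.).  For the maximal `v` the rest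
`r = p - v⋆v - v v⋆` is a projection; if `r ≠ 0` it is not `Ab` (hypothesis), TyH1 gives `w`, and `v + w` is a proper
extension (`Cmp.pi_add`).

`exists_copies_pow` (TyH3): induction on `m`, `m = 0`: `e = d`, `u 0 = d`.  Step: `e = v⋆v + v v⋆`, new projection `v⋆ v`,
copies `u_i (v⋆ v)` and `u_i v` (`Fin (2^(m+1)) ≃ Fin (2^m) × Fin 2`). -/

set_option autoImplicit false

namespace Crest.Agent.R121.Ty

open scoped InnerProductSpace ComplexOrder
open Crest.Agent.R121

variable {H : Type*} [NormedAddCommGroup H] [InnerProductSpace ℂ H] [CompleteSpace H]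
variable {M : VonNeumannAlgebra H}

open Crest.Agent.R95.VN Crest.Agent.R124.Cmp

/-! ### TyH1 -/

/-- `a` commutes with the corner `r M r` -/
def TyhC (M : VonNeumannAlgebra H) (r a : H →L[ℂ] H) : Prop :=
  ∀ x ∈ M, a * (r * x * r) = (r * x * r) * a

theorem tyh_add {r a b : H →L[ℂ] H} (ha : TyhC M r a) (hb : TyhC M r b) : TyhC M r (a + b) := by
  intro x hx
  rw [add_mul, mul_add, ha x hx, hb x hx]

theorem tyh_smul {r a : H →L[ℂ] H} (ha : TyhC M r a) (c : ℂ) : TyhC M r (c • a) := by
  intro x hx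
  rw [smul_mul_assoc, mul_smul_comm, ha x hx]

theorem tyh_self {r : H →L[ℂ] H} (hr : IsStarProjection r) : TyhC M r r := by
  intro x _
  have e1 : r * (r * x * r) = r * x * r := by
    rw [← mul_assoc, ← mul_assoc, proj_mul hr]
  have e2 : r * x * r * r = r * x * r := by rw [mul_assoc, proj_mul hr]
  rw [e1, e2]

/-- positive contractions of the corner -/
theorem tyh_pos {r : H →L[ℂ] H} (hr : IsStarProjection r)
    (hg : ∀ g, IsStarProjection g → g ∈ M → r * g = g → TyhC M r g)
    (hrM : r ∈ M) {a : H →L[ℂ] H} (ha : a ∈ M) (hs : IsSelfAdjoint a)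
    (h0 : ∀ v : H, 0 ≤ (⟪v, a v⟫_ℂ).re) (h1 : ∀ v : H, (⟪v, a v⟫_ℂ).re ≤ ‖v‖ ^ 2)
    (hra : r * a = a) : TyhC M r a := by
  intro x hx
  set X := r * x * r with hX
  have har : a * r = a := by
    have := congrArg star hra
    rwa [star_mul, hs.star_eq, proj_star hr] at this
  have key : ∀ n : ℕ, 1 ≤ n → ‖a * X - X * a‖ ≤ (1 / n : ℝ) * (2 * ‖X‖) := by
    intro n hn
    obtain ⟨f, hf1, hf2, _, hf4⟩ := R95.layer_cake M ha hs h0 h1 n hn
    have hfr : ∀ k, r * f k = f k * r := fun k => hf2 k r (by rw [hra, har])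
    have hgk : ∀ k, TyhC M r (r * f k) := by
      intro k
      have hp := (hf1 k).2
      apply hg
      · refine ⟨?_, ?_⟩
        · show r * f k * (r * f k) = r * f k
          rw [mul_assoc, ← mul_assoc (f k), ← hfr k, mul_assoc, proj_mul hp, ← mul_assoc,
            proj_mul hr]
        · show star (r * f k) = r * f k
          rw [star_mul, proj_star hp, proj_star hr, hfr k]
      · exact mul_mem hrM (hf1 k).1
      · rw [← mul_assoc, proj_mul hr]
    set S : H →L[ℂ] H := (1 / n : ℂ) • ∑ k, f k with hS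
    have hrS : TyhC M r (r * S) := by
      intro y hy
      rw [hS, mul_smul_comm, Finset.mul_sum, smul_mul_assoc, mul_smul_comm, Finset.sum_mul,
        Finset.mul_sum]
      congr 1
      exact Finset.sum_congr rfl fun k _ => hgk k y hy
    have e1 : a * X - X * a = (r * (a - S)) * X - X * (r * (a - S)) := by
      have := hrS x hx
      rw [← hX] at this
      rw [mul_sub, hra, sub_mul, mul_sub, this]
      abel
    have hr1 : ‖r‖ ≤ 1 := by
      have h2 : ‖star r * r‖ = ‖r‖ * ‖r‖ := CStarRing.norm_star_mul_self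
      rw [proj_star hr, proj_mul hr] at h2
      nlinarith [norm_nonneg r]
    have e2 : ‖r * (a - S)‖ ≤ 1 / n :=
      (norm_mul_le _ _).trans ((mul_le_mul hr1 hf4 (norm_nonneg _) zero_le_one).trans
        (by rw [one_mul]))
    rw [e1]
    calc ‖(r * (a - S)) * X - X * (r * (a - S))‖
        ≤ ‖(r * (a - S)) * X‖ + ‖X * (r * (a - S))‖ := norm_sub_le _ _
      _ ≤ ‖r * (a - S)‖ * ‖X‖ + ‖X‖ * ‖r * (a - S)‖ :=
          add_le_add (norm_mul_le _ _) (norm_mul_le _ _)
      _ = ‖r * (a - S)‖ * (2 * ‖X‖) := by ring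
      _ ≤ (1 / n : ℝ) * (2 * ‖X‖) := by
          apply mul_le_mul_of_nonneg_right e2
          positivity
  have hlim : Filter.Tendsto (fun n : ℕ => (1 / n : ℝ) * (2 * ‖X‖)) Filter.atTop (nhds (0 * (2 * ‖X‖))) :=
    (tendsto_one_div_atTop_nhds_zero_nat).mul_const _
  rw [zero_mul] at hlim
  have h2 : ‖a * X - X * a‖ ≤ 0 := by
    refine ge_of_tendsto hlim ?_
    filter_upwards [Filter.eventually_ge_atTop 1] with n hn
    exact key n hn
  exact sub_eq_zero.1 (norm_le_zero_iff.1 h2)

theorem tyh_sa {r : H →L[ℂ] H} (hr : IsStarProjection r)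
    (hg : ∀ g, IsStarProjection g → g ∈ M → r * g = g → TyhC M r g)
    (hrM : r ∈ M) {a : H →L[ℂ] H} (ha : a ∈ M) (hs : IsSelfAdjoint a)
    (hra : r * a = a) : TyhC M r a := by
  set K : ℝ := ‖a‖ + 1 with hK
  have hK0 : 0 < K := by positivity
  have har : a * r = a := by
    have := congrArg star hra
    rwa [star_mul, hs.star_eq, proj_star hr] at this
  set b : H →L[ℂ] H := ((1 / (2 * K) : ℝ) : ℂ) • (a + (K : ℂ) • r) with hb
  have hquad : ∀ v : H, (⟪v, b v⟫_ℂ).re = 1 / (2 * K) * ((⟪v, a v⟫_ℂ).re + K * ‖r v‖ ^ 2) := by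
    intro v
    have e1 : ⟪v, r v⟫_ℂ = ⟪r v, r v⟫_ℂ := by
      have : (r v) = star r (r v) := by
        rw [proj_star hr, ← ContinuousLinearMap.mul_apply, proj_mul hr]
      conv_lhs => rw [this]
      rw [ContinuousLinearMap.star_eq_adjoint, ContinuousLinearMap.adjoint_inner_right]
    have e2 : (⟪v, r v⟫_ℂ).re = ‖r v‖ ^ 2 := by
      rw [e1, ← RCLike.re_to_complex, inner_self_eq_norm_sq]
    rw [hb]
    simp only [ContinuousLinearMap.smul_apply, ContinuousLinearMap.add_apply, inner_smul_right,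
      inner_add_right]
    rw [Complex.re_ofReal_mul, Complex.add_re, Complex.re_ofReal_mul, e2]
  have hform : ∀ v : H, |(⟪v, a v⟫_ℂ).re| ≤ ‖a‖ * ‖r v‖ ^ 2 := by
    intro v
    have e1 : ⟪v, a v⟫_ℂ = ⟪r v, a (r v)⟫_ℂ := by
      have h3 : a v = star r (a (r v)) := by
        rw [proj_star hr, ← ContinuousLinearMap.mul_apply, ← ContinuousLinearMap.mul_apply,
          mul_assoc, har, hra]
      conv_lhs => rw [h3]
      rw [ContinuousLinearMap.star_eq_adjoint, ContinuousLinearMap.adjoint_inner_right]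
    rw [e1]
    calc |(⟪r v, a (r v)⟫_ℂ).re| ≤ ‖⟪r v, a (r v)⟫_ℂ‖ := Complex.abs_re_le_norm _
      _ ≤ ‖r v‖ * ‖a (r v)‖ := norm_inner_le_norm _ _
      _ ≤ ‖r v‖ * (‖a‖ * ‖r v‖) := by gcongr; exact a.le_opNorm _
      _ = ‖a‖ * ‖r v‖ ^ 2 := by ring
  have hrv : ∀ v : H, ‖r v‖ ≤ ‖v‖ := by
    intro v
    have hr1 : ‖r‖ ≤ 1 := by
      have h2 : ‖star r * r‖ = ‖r‖ * ‖r‖ := CStarRing.norm_star_mul_self
      rw [proj_star hr, proj_mul hr] at h2
      nlinarith [norm_nonneg r]
    calc ‖r v‖ ≤ ‖r‖ * ‖v‖ := r.le_opNorm v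
      _ ≤ 1 * ‖v‖ := by gcongr
      _ = ‖v‖ := one_mul _
  have hbC : TyhC M r b := by
    apply tyh_pos hr hg hrM
    · exact smul_mem _ (add_mem ha (smul_mem _ hrM))
    · rw [hb, IsSelfAdjoint, star_smul, star_add, star_smul, hs.star_eq, proj_star hr]
      simp
    · intro v
      rw [hquad v]
      have := abs_le.1 (hform v)
      have h5 : 0 ≤ ‖r v‖ ^ 2 := by positivity
      have : 0 ≤ (⟪v, a v⟫_ℂ).re + K * ‖r v‖ ^ 2 := by
        rw [hK]; nlinarith [this.1]
      positivity
    · intro v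
      rw [hquad v]
      have h6 := (abs_le.1 (hform v)).2
      have h5 : 0 ≤ ‖r v‖ ^ 2 := by positivity
      have h7 : ‖r v‖ ^ 2 ≤ ‖v‖ ^ 2 := pow_le_pow_left₀ (norm_nonneg _) (hrv v) 2
      have h8 : (⟪v, a v⟫_ℂ).re + K * ‖r v‖ ^ 2 ≤ 2 * K * ‖v‖ ^ 2 := by
        rw [hK]; nlinarith [norm_nonneg a, mul_nonneg (norm_nonneg a) (sub_nonneg.2 h7)]
      rw [div_mul_eq_mul_div, one_mul, div_le_iff₀ (by positivity)]
      linarith
    · rw [hb, mul_smul_comm (_ : ℂ) r (a + _), mul_add r a, hra, mul_smul_comm (K : ℂ) r r,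
        proj_mul hr]
  have e : a = ((2 * K : ℝ) : ℂ) • b + (-(K : ℂ)) • r := by
    rw [hb, smul_smul]
    have : ((2 * K : ℝ) : ℂ) * ((1 / (2 * K) : ℝ) : ℂ) = 1 := by
      rw [← Complex.ofReal_mul]
      have : (2 * K) * (1 / (2 * K)) = 1 := by field_simp
      rw [this, Complex.ofReal_one]
    rw [this, one_smul, neg_smul]
    abel
  rw [e]
  exact tyh_add (tyh_smul hbC _) (tyh_smul (tyh_self hr) _)

theorem tyh_all {r : H →L[ℂ] H} (hr : IsStarProjection r)
    (hg : ∀ g, IsStarProjection g → g ∈ M → r * g = g → TyhC M r g)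
    (hrM : r ∈ M) {y : H →L[ℂ] H} (hy : y ∈ M) : TyhC M r (r * y * r) := by
  set z := r * y * r with hz
  have hzM : z ∈ M := mul_mem (mul_mem hrM hy) hrM
  have hrz : r * z = z := by rw [hz, ← mul_assoc, ← mul_assoc, proj_mul hr]
  have hzr : z * r = z := by rw [hz, mul_assoc, proj_mul hr]
  have hrz' : r * star z = star z := by
    have := congrArg star hzr
    rwa [star_mul, proj_star hr] at this
  have hI : star Complex.I = -Complex.I := by simp
  have h1 : TyhC M r (z + star z) := by
    apply tyh_sa hr hg hrM (add_mem hzM (star_mem hzM))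
    · rw [IsSelfAdjoint, star_add, star_star, add_comm]
    · rw [mul_add, hrz, hrz']
  have h2 : TyhC M r (Complex.I • (star z - z)) := by
    apply tyh_sa hr hg hrM (smul_mem _ (sub_mem (star_mem hzM) hzM))
    · rw [IsSelfAdjoint, star_smul, star_sub, star_star, hI, neg_smul, ← smul_neg, neg_sub]
    · rw [mul_smul_comm, mul_sub, hrz, hrz']
  have e : z = (1 / 2 : ℂ) • (z + star z) + (Complex.I / 2) • (Complex.I • (star z - z)) := by
    rw [smul_smul]
    have : Complex.I / 2 * Complex.I = -(1 / 2 : ℂ) := by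
      rw [div_mul_eq_mul_div, Complex.I_mul_I]; ring
    rw [this, neg_smul, smul_add, smul_sub]
    have h3 : (1 / 2 : ℂ) • z + (1 / 2 : ℂ) • z = z := by
      rw [← add_smul]; norm_num
    rw [neg_sub]
    conv_lhs => rw [← h3]
    abel
  rw [e]
  exact tyh_add (tyh_smul h1 _) (tyh_smul h2 _)

/-- TyH1 -/
theorem exists_nilp {r : H →L[ℂ] H} (hr : IsStarProjection r) (hrM : r ∈ M) (hnot : ¬ Ab M r) :
    ∃ w ∈ M, w ≠ 0 ∧ w * star w * w = w ∧ w * w = 0 ∧ r * w = w ∧ w * r = w := by
  by_contra hcon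
  apply hnot
  have hg0 : ∀ g, IsStarProjection g → g ∈ M → r * g = g → ∀ x ∈ M, g * x * (r - g) = 0 := by
    intro g hg hgM hrg x hx
    by_contra hne
    apply hcon
    have hs : IsStarProjection (r - g) := proj_sub hg hr hrg
    have hgr : g * r = g := proj_flip hg hr hrg
    have hyM : g * x * (r - g) ∈ M := mul_mem (mul_mem hgM hx) (sub_mem hrM hgM)
    obtain ⟨w, hwM, hw0, hw, hwl, hwr⟩ := pi_of_ne_zero hyM hne
    have h1 : g * w = w := hwl g (by rw [← mul_assoc, ← mul_assoc, proj_mul hg])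
    have h2 : w * (r - g) = w := hwr (r - g) hs (by rw [mul_assoc, proj_mul hs])
    refine ⟨w, hwM, hw0, hw, ?_, ?_, ?_⟩
    · have h3 : (r - g) * g = 0 := by rw [sub_mul, hrg, proj_mul hg, sub_self]
      calc w * w = (w * (r - g)) * (g * w) := by rw [h1, h2]
        _ = w * ((r - g) * g) * w := by simp only [mul_assoc]
        _ = 0 := by rw [h3, mul_zero, zero_mul]
    · calc r * w = r * (g * w) := by rw [h1]
        _ = g * w := by rw [← mul_assoc, hrg]
        _ = w := h1
    · calc w * r = (w * (r - g)) * r := by rw [h2]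
        _ = w * (r - g) := by rw [mul_assoc, sub_mul, proj_mul hr, hgr]
        _ = w := h2
  have hg : ∀ g, IsStarProjection g → g ∈ M → r * g = g → TyhC M r g := by
    intro g hg hgM hrg x hx
    have hgr : g * r = g := proj_flip hg hr hrg
    have h1 := hg0 g hg hgM hrg x hx
    have h2 := congrArg star (hg0 g hg hgM hrg (star x) (star_mem hx))
    simp only [star_mul, star_star, star_sub, proj_star hr, proj_star hg, star_zero] at h2
    rw [mul_sub, sub_eq_zero] at h1
    rw [sub_mul, sub_eq_zero] at h2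
    calc g * (r * x * r) = g * x * r := by rw [← mul_assoc, ← mul_assoc, hgr]
      _ = g * x * g := h1
      _ = g * (x * g) := mul_assoc _ _ _
      _ = r * (x * g) := h2.symm
      _ = r * x * r * g := by rw [mul_assoc (r * x), hrg, mul_assoc]
  exact ⟨hr, hrM, fun x hx y hy => tyh_all hr hg hrM hx y hy⟩

/-! ### TyH2 -/

theorem tyh_max (p : H →L[ℂ] H) :
    ∃ v ∈ M, v * star v * v = v ∧ v * v = 0 ∧ v * p = v ∧ p * v = v ∧
      ∀ v' ∈ M, v' * star v' * v' = v' → v' * v' = 0 → v' * p = v' → p * v' = v' →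
        Ext v v' → Ext v' v := by
  let X : Type _ := {w : H →L[ℂ] H // w ∈ M ∧ w * star w * w = w ∧ w * w = 0 ∧ w * p = w ∧ p * w = w}
  have hz : (0 : H →L[ℂ] H) ∈ M ∧ (0 : H →L[ℂ] H) * star 0 * 0 = 0 ∧ (0 : H →L[ℂ] H) * 0 = 0 ∧
      (0 : H →L[ℂ] H) * p = 0 ∧ p * (0 : H →L[ℂ] H) = 0 := by
    refine ⟨zero_mem _, ?_, ?_, ?_, ?_⟩ <;> simp
  obtain ⟨m, hm⟩ := exists_maximal_of_chains_bounded (α := X) (r := fun a b => Ext a.1 b.1)
    (by
      intro c hc
      rcases c.eq_empty_or_nonempty with rfl | hne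
      · exact ⟨⟨0, hz⟩, fun a ha => absurd ha (Set.notMem_empty a)⟩
      · have _ : Nonempty c := hne.to_subtype
        have hdir : ∀ i j : c, ∃ k : c, Ext i.1.1 k.1.1 ∧ Ext j.1.1 k.1.1 := by
          intro i j
          rcases eq_or_ne i.1 j.1 with h | h
          · refine ⟨i, Ext.refl i.1.2.2.1, ?_⟩
            rw [← h]; exact Ext.refl i.1.2.2.1
          · rcases hc i.2 j.2 h with h' | h'
            · exact ⟨j, h', Ext.refl j.1.2.2.1⟩
            · exact ⟨i, Ext.refl i.1.2.2.1, h'⟩
        obtain ⟨v, hvN, hv1, hv2, hv3, hv4⟩ := exists_sup (N := M) (fun i : c => i.1.1)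
          (fun i => i.1.2.1) (fun i => i.1.2.2.1) hdir
        have hij : ∀ i j : c, i.1.1 * j.1.1 = 0 := by
          intro i j
          obtain ⟨k, h1, h2⟩ := hdir i j
          have e1 : k.1.1 * (star j.1.1 * j.1.1) = j.1.1 := h2
          have e2 : star k.1.1 * i.1.1 = star i.1.1 * i.1.1 := h1.left i.1.2.2.1 k.1.2.2.1
          have e3 : star i.1.1 * k.1.1 = star i.1.1 * i.1.1 := by
            have := congrArg star e2
            rwa [star_mul, star_star, star_mul, star_star] at this
          have e4 : i.1.1 * star i.1.1 * k.1.1 = i.1.1 := by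
            rw [mul_assoc, e3, ← mul_assoc, i.1.2.2.1]
          calc i.1.1 * j.1.1 = (i.1.1 * star i.1.1 * k.1.1) * (k.1.1 * (star j.1.1 * j.1.1)) := by
                rw [e4, e1]
            _ = i.1.1 * star i.1.1 * (k.1.1 * k.1.1) * (star j.1.1 * j.1.1) := by
                simp only [mul_assoc]
            _ = 0 := by rw [k.1.2.2.2.1, mul_zero, zero_mul]
        have hiv : ∀ i : c, i.1.1 * v = 0 := by
          intro i
          have := hv3 (1 - i.1.1) (fun j => by rw [sub_mul, one_mul, hij i j, sub_zero])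
          rw [sub_mul, one_mul] at this
          exact sub_eq_self.1 this
        have hvv : v * v = 0 := by
          have := hv4 (1 - v) (fun i => by rw [mul_sub, mul_one, hiv i, sub_zero])
          rw [mul_sub, mul_one] at this
          exact sub_eq_self.1 this
        exact ⟨⟨v, hvN, hv1, hvv, hv4 p fun i => i.1.2.2.2.2.1, hv3 p fun i => i.1.2.2.2.2.2⟩,
          fun a ha => hv2 ⟨a, ha⟩⟩)
    (fun {a b c} h1 h2 => Ext.trans a.2.2.1 b.2.2.1 h1 h2)
  exact ⟨m.1, m.2.1, m.2.2.1, m.2.2.2.1, m.2.2.2.2.1, m.2.2.2.2.2, fun v' h1 h2 h3 h4 h5 h6 =>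
    hm ⟨v', h1, h2, h3, h4, h5⟩ h6⟩

/-- TyH2 -/
theorem halve {p : H →L[ℂ] H} (hp : IsStarProjection p) (hpM : p ∈ M)
    (hno : ∀ e, Ab M e → p * e = e → e = 0) :
    ∃ v ∈ M, v * star v * v = v ∧ v * v = 0 ∧ star v * v + v * star v = p := by
  obtain ⟨v, hvM, hv, hvv, hvp, hpv, hmax⟩ := tyh_max (M := M) p
  refine ⟨v, hvM, hv, hvv, ?_⟩
  have hvs : star v * star v = 0 := by rw [← star_mul, hvv, star_zero]
  have hpvs : p * star v = star v := by
    have := congrArg star hvp
    rwa [star_mul, proj_star hp] at this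
  have hsum : IsStarProjection (star v * v + v * star v) := by
    apply proj_add (pi_right hv) (pi_left hv)
    rw [mul_assoc, ← mul_assoc v v, hvv, zero_mul, mul_zero]
  have hps : p * (star v * v + v * star v) = star v * v + v * star v := by
    rw [mul_add, ← mul_assoc, ← mul_assoc, hpvs, hpv]
  set r := p - (star v * v + v * star v) with hr
  have hrp : IsStarProjection r := proj_sub hsum hp hps
  have hrM : r ∈ M := sub_mem hpM (add_mem (mul_mem (star_mem hvM) hvM) (mul_mem hvM (star_mem hvM)))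
  have hpr : p * r = r := by rw [hr, mul_sub, proj_mul hp, hps]
  by_contra hne
  have hr0 : r ≠ 0 := fun h => hne (sub_eq_zero.1 h).symm
  have hnab : ¬ Ab M r := fun h => hr0 (hno r h hpr)
  obtain ⟨w, hwM, hw0, hw, hww, hrw, hwr⟩ := exists_nilp hrp hrM hnab
  have hvsv : star v * v * star v = star v := pi_star hv
  have hvr : v * r = 0 := by
    rw [hr, mul_sub, hvp, mul_add, ← mul_assoc, hv, ← mul_assoc, hvv, zero_mul, add_zero, sub_self]
  have hrv : r * v = 0 := by
    rw [hr, sub_mul, hpv, add_mul, mul_assoc (star v), hvv, mul_zero, zero_add, hv, sub_self]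
  have hvsr : star v * r = 0 := by
    have := congrArg star hrv
    rwa [star_mul, proj_star hrp, star_zero] at this
  have hrvs : r * star v = 0 := by
    have := congrArg star hvr
    rwa [star_mul, proj_star hrp, star_zero] at this
  have hrws : r * star w = star w := by
    have := congrArg star hwr
    rwa [star_mul, proj_star hrp] at this
  have h1 : star v * w = 0 := by rw [← hrw, ← mul_assoc, hvsr, zero_mul]
  have h2 : v * star w = 0 := by rw [← hrws, ← mul_assoc, hvr, zero_mul]
  have h3 : v * w = 0 := by rw [← hrw, ← mul_assoc, hvr, zero_mul]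
  have h4 : w * v = 0 := by rw [← hwr, mul_assoc, hrv, mul_zero]
  have h5 : w * star v = 0 := by rw [← hwr, mul_assoc, hrvs, mul_zero]
  have h6 : star w * v = 0 := by
    have := congrArg star h1
    rwa [star_mul, star_star, star_zero] at this
  have hE : Ext v (v + w) := by
    show (v + w) * (star v * v) = v
    rw [add_mul, ← mul_assoc, hv, ← mul_assoc, h5, zero_mul, add_zero]
  have hE' := hmax (v + w) (add_mem hvM hwM) (pi_add hv hw h1 h2)
    (by rw [add_mul, mul_add, mul_add, hvv, h3, h4, hww]; simp)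
    (by
      have : w * p = w := by
        rw [← hwr, mul_assoc]
        have : r * p = r := proj_flip hrp hp hpr
        rw [this]
      rw [add_mul, hvp, this])
    (by
      have : p * w = w := by rw [← hrw, ← mul_assoc, hpr]
      rw [mul_add, hpv, this]) hE
  have h7 : v * (star (v + w) * (v + w)) = v + w := hE'
  have h8 : star (v + w) * (v + w) = star v * v + star w * w := by
    rw [star_add, add_mul, mul_add, mul_add, h1, h6, add_zero, zero_add]
  rw [h8, mul_add, ← mul_assoc, hv, ← mul_assoc, h2, zero_mul, add_zero] at h7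
  exact hw0 (left_eq_add.1 h7)

/-! ### TyH3 -/

theorem tyh_double {d e : H →L[ℂ] H} (he : IsStarProjection e) {ι : Type*} [Fintype ι]
    {u : ι → H →L[ℂ] H} (hu : Copies M e u)
    (hs : ∑ i, u i * star (u i) = d) {v : H →L[ℂ] H} (hvM : v ∈ M) (hv : v * star v * v = v)
    (hvv : v * v = 0) (hve : star v * v + v * star v = e) :
    Copies M (star v * v) (fun k : ι × Fin 2 => if k.2 = 0 then u k.1 * (star v * v) else u k.1 * v) ∧
      ∑ k : ι × Fin 2, (if k.2 = 0 then u k.1 * (star v * v) else u k.1 * v) *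
        star (if k.2 = 0 then u k.1 * (star v * v) else u k.1 * v) = d := by
  have hev : e * v = v := by
    rw [← hve, add_mul, mul_assoc (star v), hvv, mul_zero, zero_add, hv]
  have hve' : v * e = v := by
    rw [← hve, mul_add, ← mul_assoc, hv, ← mul_assoc, hvv, zero_mul, add_zero]
  have hevs : e * star v = star v := by
    have := congrArg star hve'
    rwa [star_mul, proj_star he] at this
  have hP := pi_left hv
  have hvs : star v * star v = 0 := by rw [← star_mul, hvv, star_zero]
  have key : ∀ (a b : H →L[ℂ] H) (i j : ι), star (u i * a) * (u j * b) = star a * (star (u i) * u j) * b := by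
    intro a b i j
    rw [star_mul]; simp only [mul_assoc]
  refine ⟨⟨?_, ?_, ?_⟩, ?_⟩
  · rintro ⟨i, k⟩
    dsimp only
    split_ifs
    · exact mul_mem (hu.1 i) (mul_mem (star_mem hvM) hvM)
    · exact mul_mem (hu.1 i) hvM
  · rintro ⟨i, k⟩
    dsimp only
    split_ifs
    · rw [key, hu.2.1, proj_star hP, mul_assoc, ← mul_assoc e, hevs, proj_mul hP]
    · rw [key, hu.2.1, mul_assoc, hev]
  · rintro ⟨i, k⟩ ⟨j, l⟩ hne
    dsimp only
    rcases eq_or_ne i j with rfl | hij
    · have hkl : k ≠ l := fun h => hne (by rw [h])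
      split_ifs with h1 h2 h2
      · exact absurd (h1.trans h2.symm) hkl
      · rw [key, hu.2.1, proj_star hP, mul_assoc, hev, mul_assoc, hvv, mul_zero]
      · rw [key, hu.2.1, mul_assoc, ← mul_assoc e, hevs, ← mul_assoc, hvs, zero_mul]
      · exfalso; apply hkl; omega
    · split_ifs <;> rw [key, hu.2.2 i j hij, mul_zero, zero_mul]
  · rw [Fintype.sum_prod_type]
    simp only [Fin.sum_univ_two, if_true, one_ne_zero, if_false]
    rw [← hs]
    refine Finset.sum_congr rfl fun i _ => ?_
    rw [star_mul, proj_star hP, star_mul]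
    have e1 : u i * (star v * v) * (star v * v * star (u i)) = u i * (star v * v) * star (u i) := by
      rw [mul_assoc, ← mul_assoc (star v * v) (star v * v), proj_mul hP, ← mul_assoc]
    have e2 : u i * v * (star v * star (u i)) = u i * (v * star v) * star (u i) := by
      simp only [mul_assoc]
    rw [e1, e2, ← add_mul, ← mul_add, hve, hu.mul_right he i]

/-- TyH3 -/
theorem exists_copies_pow {d : H →L[ℂ] H} (hd : CProj M d) (hno : ∀ e, Ab M e → d * e = e → e = 0) (m : ℕ) :
    ∃ (e : H →L[ℂ] H) (u : Fin (2 ^ m) → H →L[ℂ] H), IsStarProjection e ∧ e ∈ M ∧ d * e = e ∧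
      Copies M e u ∧ ∑ i, u i * star (u i) = d := by
  induction m with
  | zero =>
    refine ⟨d, fun _ => d, hd.proj, hd.mem, proj_mul hd.proj, ⟨fun _ => hd.mem, fun _ => ?_, ?_⟩, ?_⟩
    · rw [proj_star hd.proj, proj_mul hd.proj]
    · intro i j hij
      exact absurd (Subsingleton.elim (α := Fin 1) i j) hij
    · show ∑ _i : Fin 1, d * star d = d
      rw [Fin.sum_univ_one, proj_star hd.proj, proj_mul hd.proj]
  | succ m ih =>
    obtain ⟨e, u, he, heM, hde, hu, hs⟩ := ih
    obtain ⟨v, hvM, hv, hvv, hve⟩ := halve he heM (fun e' h1 h2 => hno e' h1 (by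
      rw [← h2, ← mul_assoc, hde]))
    obtain ⟨h1, h2⟩ := tyh_double he hu hs hvM hv hvv hve
    let φ : Fin (2 ^ (m + 1)) ≃ Fin (2 ^ m) × Fin 2 :=
      (finCongr (pow_succ 2 m)).trans finProdFinEquiv.symm
    have hev : e * (star v * v) = star v * v := by
      have hve' : v * e = v := by
        rw [← hve, mul_add, ← mul_assoc, hv, ← mul_assoc, hvv, zero_mul, add_zero]
      have hevs : e * star v = star v := by
        have := congrArg star hve'
        rwa [star_mul, proj_star he] at this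
      rw [← mul_assoc, hevs]
    refine ⟨star v * v, fun i => (if (φ i).2 = 0 then u (φ i).1 * (star v * v) else u (φ i).1 * v),
      pi_left hv, mul_mem (star_mem hvM) hvM, ?_, ⟨fun i => h1.1 (φ i), fun i => h1.2.1 (φ i),
        fun i j hij => h1.2.2 (φ i) (φ j) (fun h => hij (φ.injective h))⟩, ?_⟩
    · rw [← hev, ← mul_assoc, hde]
    · rw [← h2]
      exact Equiv.sum_comp φ (fun k : Fin (2 ^ m) × Fin 2 =>
        (if k.2 = 0 then u k.1 * (star v * v) else u k.1 * v) *
        star (if k.2 = 0 then u k.1 * (star v * v) else u k.1 * v))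

end Crest.Agent.R121.Ty
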