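import Crest.Agent.R121.TyDefs

/-! Row 121, module T, part I (helper80): abelian projections give pieces of type I.

`ab_sub` (TyI1): `e` abelian, `p ≤ e`: the central carrier `y` of `p` (`R124.Cmp.exists_central`) satisfies `y p = p` and
`(e - p) x p = (e-p) (e x e) p = (e-p) p (e x e) = 0` for all `x ∈ M` (`p = e p e` and `e x e` commute), so
`(e - p) y = 0`, `e y = p`.

`mu_of_copies` (TyI2): `E i j = u i * star (u j)`.  `Ab` part: `x` commutes with all `E i j`, `c x = x`:
`a = u_i⋆ x u_i` does not depend on `i` and `u_i⋆ x u_j = 0` for `i ≠ j`, so `x = ∑ u_i a u_i⋆`, and for `y ∈ M`: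
`x y = ∑_{ij} u_i a b_ij u_j⋆ = ∑ u_i b_ij a u_j⋆ = y x` with `b_ij = u_i⋆ y u_j`, `a`, `b_ij` in the commutative corner.

`exists_typeI` (TyI3): `exists_max_copies` (`f = d`, `R = e`): `w : Fin m`, `r0 = d - ∑ w_i w_i⋆`.  `Cmp.comparison` for
`p = e`, `q = r0`: `v v⋆ ≤ e`, `v⋆ v ≤ r0`, `z r0 = z v⋆v`, `(1-z) e = (1-z) v v⋆`; replace `z` by `z d`.  `z e ≠ 0` by
maximality (as in the proof of `exists_cover` in `Ty0.lean`).  `p = z v v⋆ ≤ z e`, `p = y e` with `y` central (TyI1), replace
`y` by `z y`.  Case `(z - y) e ≠ 0`: `c = z - y`, `c v v⋆ = c p = 0` so `c r0 = 0`, `c = ∑ c w_i w_i⋆`, copies `u_i = c w_i` of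
`c e`.  Case `(z - y) e = 0`: `z e = y e = p`, `c = z`, copies `c w_i` and `v⋆ z` of `c e` (`m + 1` of them), sum of the
ranges `= z (∑ w_i w_i⋆ + r0) = z`.  `c e` is abelian.  Then TyI2. -/

set_option autoImplicit false

namespace Crest.Agent.R121.Ty

open scoped InnerProductSpace ComplexOrder
open Crest.Agent.R121 Crest.Agent.R95.VN Crest.Agent.R124.Cmp

variable {H : Type*} [NormedAddCommGroup H] [InnerProductSpace ℂ H] [CompleteSpace H]
variable {M : VonNeumannAlgebra H}

/-- TyI1 -/
theorem ab_sub {e p : H →L[ℂ] H} (he : Ab M e) (hp : IsStarProjection p) (hpM : p ∈ M) (hpe : e * p = p) :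
    ∃ y, CProj M y ∧ y * e = p := by
  obtain ⟨z, hzM, hzc, hz, hzp, hze⟩ := exists_central M hpM
  have hpe' : p * e = p := proj_flip hp he.proj hpe
  have h1 : (e - p) * z = 0 := by
    apply hze
    intro x hx
    have h2 := he.comm x hx p hpM
    have h3 : e * p * e = p := by rw [hpe, hpe']
    rw [h3] at h2
    have h4 : e * x * p = e * x * e * p := by rw [mul_assoc (e * x) e p, hpe]
    have h5 : p * (e * x * p) = e * x * p := by
      rw [h4, h2, ← mul_assoc, proj_mul hp]
    have h6 : p * x * p = e * x * p := by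
      rw [← h5]
      rw [← mul_assoc, ← mul_assoc, hpe']
    rw [sub_mul, sub_mul, h6, sub_self]
  have h2 : z * e = e * z := comm_of_mem he.mem hzc
  have h3 : z * p = p * z := comm_of_mem hpM hzc
  refine ⟨z, ⟨hz, hzM, hzc⟩, ?_⟩
  rw [sub_mul, sub_eq_zero] at h1
  rw [h2, h1, ← h3, hzp]

/-- TyI2a -/
theorem mu_of_copies {e c : H →L[ℂ] H} (he : IsStarProjection e) {n : ℕ} {u : Fin n → H →L[ℂ] H}
    (hu : Copies M e u) (hc : ∑ i, u i * star (u i) = c) :
    MUc M c n fun i j => u i * star (u j) := by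
  refine ⟨fun i j => mul_mem (hu.1 i) (star_mem (hu.1 j)), fun i j k l => ?_, fun i j => ?_, hc⟩
  · by_cases h : j = k
    · subst h
      rw [if_pos rfl, mul_assoc, ← mul_assoc (star (u j)), hu.2.1, ← mul_assoc, hu.mul_right he]
    · rw [if_neg h, mul_assoc, ← mul_assoc (star (u j)), hu.2.2 j k h, zero_mul, mul_zero]
  · rw [star_mul, star_star]

/-- TyI2b -/
theorem comm_of_copies {e c : H →L[ℂ] H} (he : Ab M e) (hcM : CProj M c) {n : ℕ} (hn : 0 < n)
    {u : Fin n → H →L[ℂ] H} (hu : Copies M e u) (hc : ∑ i, u i * star (u i) = c) {x : H →L[ℂ] H}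
    (hx : x ∈ M) (hcx : c * x = x) (hxu : ∀ i j, u i * star (u j) * x = x * (u i * star (u j))) :
    x ∈ M.commutant := by
  have hue : ∀ i, u i * e = u i := hu.mul_right he.proj
  have heu : ∀ i, e * star (u i) = star (u i) := by
    intro i
    have := congrArg star (hue i)
    rwa [star_mul, proj_star he.proj] at this
  obtain ⟨i0⟩ : Nonempty (Fin n) := ⟨⟨0, hn⟩⟩
  obtain ⟨a, ha⟩ : ∃ a, a = star (u i0) * x * u i0 := ⟨_, rfl⟩
  have haM : a ∈ M := by rw [ha]; exact mul_mem (mul_mem (star_mem (hu.1 _)) hx) (hu.1 _)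
  have hea : e * a * e = a := by
    rw [ha, ← mul_assoc, ← mul_assoc, heu, mul_assoc _ (u i0) e, hue]
  have h1 : ∀ i, star (u i) * x = a * star (u i) := by
    intro i
    calc star (u i) * x = star (u i0) * u i0 * star (u i) * x := by rw [hu.2.1, heu]
      _ = star (u i0) * (u i0 * star (u i) * x) := by simp only [mul_assoc]
      _ = star (u i0) * (x * (u i0 * star (u i))) := by rw [hxu]
      _ = a * star (u i) := by rw [ha]; simp only [mul_assoc]
  have h2 : ∀ j, x * u j = u j * a := by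
    intro j
    calc x * u j = x * (u j * (star (u i0) * u i0)) := by rw [hu.2.1, hue]
      _ = x * (u j * star (u i0)) * u i0 := by simp only [mul_assoc]
      _ = u j * star (u i0) * x * u i0 := by rw [hxu]
      _ = u j * a := by rw [ha]; simp only [mul_assoc]
  have hcc : ∀ y ∈ M, c * y = y * c := fun y hy => comm_of_mem hy hcM.comm
  have hexp : ∀ y : H →L[ℂ] H, c * y * c = ∑ i, ∑ j, u i * (star (u i) * y * u j) * star (u j) := by
    intro y
    rw [← hc, Finset.sum_mul, Finset.sum_mul]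
    refine Finset.sum_congr rfl fun i _ => ?_
    rw [Finset.mul_sum]
    refine Finset.sum_congr rfl fun j _ => ?_
    simp only [mul_assoc]
  rw [VonNeumannAlgebra.mem_commutant_iff]
  intro y hy
  have e1 : c * (x * y) * c = x * y := by
    rw [← mul_assoc, hcx, mul_assoc, ← hcc y hy, ← mul_assoc, ← hcc x hx, hcx]
  have e2 : c * (y * x) * c = y * x := by
    rw [← mul_assoc, hcc y hy, mul_assoc y c x, hcx, mul_assoc, ← hcc x hx, hcx]
  rw [← e1, ← e2, hexp, hexp]
  refine Finset.sum_congr rfl fun i _ => Finset.sum_congr rfl fun j _ => ?_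
  have hb : star (u i) * y * u j ∈ M := mul_mem (mul_mem (star_mem (hu.1 _)) hy) (hu.1 _)
  have heb : e * (star (u i) * y * u j) * e = star (u i) * y * u j := by
    rw [← mul_assoc, ← mul_assoc, heu, mul_assoc _ (u j) e, hue]
  have h3 := he.comm a haM _ hb
  rw [hea, heb] at h3
  have e3 : star (u i) * (x * y) * u j = a * (star (u i) * y * u j) := by
    rw [← mul_assoc, h1]; simp only [mul_assoc]
  have e4 : star (u i) * (y * x) * u j = star (u i) * y * u j * a := by
    rw [← mul_assoc, mul_assoc _ x (u j), h2]; simp only [mul_assoc]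
  rw [e3, e4, h3]

theorem ab_cut {e c : H →L[ℂ] H} (he : Ab M e) (hc : CProj M c) : Ab M (c * e) := by
  have hcc : ∀ y ∈ M, c * y = y * c := fun y hy => comm_of_mem hy hc.comm
  have h1 : c * e = e * c := hcc e he.mem
  have h2 : c * c = c := proj_mul hc.proj
  refine ⟨⟨?_, ?_⟩, mul_mem hc.mem he.mem, ?_⟩
  · show c * e * (c * e) = c * e
    rw [mul_assoc, ← mul_assoc e c e, ← h1, mul_assoc c e e, proj_mul he.proj, ← mul_assoc, h2]
  · show star (c * e) = c * e
    rw [star_mul, proj_star hc.proj, proj_star he.proj, h1]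
  · intro x hx y hy
    have h3 : ∀ x ∈ M, c * e * x * (c * e) = c * (e * x * e) := by
      intro x hx
      rw [mul_assoc (c * e) x (c * e), ← mul_assoc x c e, ← hcc x hx, mul_assoc c x e, mul_assoc c e,
        ← mul_assoc e c (x * e), ← h1, mul_assoc c e (x * e), ← mul_assoc c c, h2, mul_assoc e x e]
    have h4 : e * x * e ∈ M := mul_mem (mul_mem he.mem hx) he.mem
    have h5 : e * y * e ∈ M := mul_mem (mul_mem he.mem hy) he.mem
    rw [h3 x hx, h3 y hy, mul_assoc c, mul_assoc c, ← mul_assoc _ c, ← mul_assoc _ c, ← hcc _ h4, ← hcc _ h5,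
      mul_assoc c, mul_assoc c, he.comm x hx y hy]

/-- TyI2 assembled -/
theorem typeI_of_copies {e c : H →L[ℂ] H} (he : Ab M e) (hcM : CProj M c) {n : ℕ} (hn : 0 < n)
    {u : Fin n → H →L[ℂ] H} (hu : Copies M e u) (hc : ∑ i, u i * star (u i) = c) : TypeI M c :=
  ⟨n, hn, fun i j => u i * star (u j), mu_of_copies he.proj hu hc, fun _ hx hcx hxu =>
    comm_of_copies he hcM hn hu hc hx hcx hxu⟩

theorem cproj_mul {c q : H →L[ℂ] H} (hc : CProj M c) (hq : IsStarProjection q) (hqM : q ∈ M) :
    IsStarProjection (c * q) := by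
  have hcc : c * q = q * c := comm_of_mem hqM hc.comm
  refine ⟨?_, ?_⟩
  · show c * q * (c * q) = c * q
    rw [mul_assoc, ← mul_assoc q c q, ← hcc, mul_assoc c q q, proj_mul hq, ← mul_assoc, proj_mul hc.proj]
  · show star (c * q) = c * q
    rw [star_mul, proj_star hc.proj, proj_star hq, hcc]

theorem cproj_cmul {a b : H →L[ℂ] H} (ha : CProj M a) (hb : CProj M b) : CProj M (a * b) :=
  ⟨cproj_mul ha hb.proj hb.mem, mul_mem ha.mem hb.mem, mul_mem ha.comm hb.comm⟩

theorem copies_cut {e c : H →L[ℂ] H} (hc : CProj M c) {ι : Type*} {w : ι → H →L[ℂ] H}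
    (hw : Copies M e w) : Copies M (c * e) (fun i => c * w i) := by
  have h0 : ∀ i j, star (c * w i) * (c * w j) = c * (star (w i) * w j) := by
    intro i j
    have h1 : c * star (w i) = star (w i) * c := comm_of_mem (star_mem (hw.1 i)) hc.comm
    rw [star_mul, proj_star hc.proj, mul_assoc, ← mul_assoc c c, proj_mul hc.proj, ← mul_assoc, ← h1, mul_assoc]
  refine ⟨fun i => mul_mem hc.mem (hw.1 i), fun i => ?_, fun i j hij => ?_⟩
  · rw [h0, hw.2.1]
  · rw [h0, hw.2.2 i j hij, mul_zero]

theorem copies_cut_sum {c : H →L[ℂ] H} (hc : CProj M c) {m : ℕ} {w : Fin m → H →L[ℂ] H}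
    (hw : ∀ i, w i ∈ M) : ∑ i, (c * w i) * star (c * w i) = c * ∑ i, w i * star (w i) := by
  rw [Finset.mul_sum]
  refine Finset.sum_congr rfl fun i _ => ?_
  have h1 : c * star (w i) = star (w i) * c := comm_of_mem (star_mem (hw i)) hc.comm
  have h2 : c * w i = w i * c := comm_of_mem (hw i) hc.comm
  rw [star_mul, proj_star hc.proj, ← h1, mul_assoc, ← mul_assoc (w i) c, ← h2, mul_assoc c, ← mul_assoc c c,
    proj_mul hc.proj]

/-- TyI3 -/
theorem exists_typeI {d e : H →L[ℂ] H} (hd : CProj M d) (hfin : FinAt M d) (he : Ab M e) (he0 : e ≠ 0)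
    (hde : d * e = e) : ∃ c, CProj M c ∧ c ≠ 0 ∧ c * d = c ∧ TypeI M c := by
  have hf := hd.proj
  have hfM := hd.mem
  have hfc := hd.comm
  have hR := he.proj
  obtain ⟨m, w, hw, hmax⟩ := exists_max_copies hf hfM hfc hfin hR hde he0
  have hwp : ∀ i, w i * star (w i) * w i = w i := hw.pi hR
  set P := ∑ i, w i * star (w i) with hPdef
  have hPs : star P = P := by
    rw [hPdef, star_sum]
    exact Finset.sum_congr rfl fun i _ => by rw [star_mul, star_star]
  have hPM : P ∈ M := sum_mem fun i _ => mul_mem (hw.1 _) (star_mem (hw.1 _))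
  have hPw : ∀ i, P * w i = w i := by
    intro i
    rw [hPdef, Finset.sum_mul, Finset.sum_eq_single_of_mem i (Finset.mem_univ _)]
    · exact hwp i
    · intro j _ hj
      rw [mul_assoc, hw.2.2 j i hj, mul_zero]
  have hPP : P * P = P := by
    conv_lhs => rw [hPdef]
    rw [← hPdef, hPdef, Finset.mul_sum]
    refine Finset.sum_congr rfl fun i _ => ?_
    rw [← hPdef, ← mul_assoc, hPw]
  have hP : IsStarProjection P := ⟨hPP, hPs⟩
  have hdw : ∀ i, d * w i = w i := hw.mul_left hR hfc hde
  have hfP : d * P = P := by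
    rw [hPdef, Finset.mul_sum]
    refine Finset.sum_congr rfl fun i _ => ?_
    rw [← mul_assoc, hdw]
  have hr0 : IsStarProjection (d - P) := proj_sub hP hf hfP
  have hr0M : d - P ∈ M := sub_mem hfM hPM
  obtain ⟨v, z, hvM, hzM, hzc, hz, hv, hvq, hpv, hzq, hzp⟩ := comparison M hR hr0 he.mem hr0M
  have hsvp : star v * e = star v := by
    have := congrArg star hpv
    rwa [star_mul, proj_star hR] at this
  have hqv : (d - P) * star v = star v := by
    have := congrArg star hvq
    rwa [star_mul, proj_star hr0] at this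
  have hvw : ∀ i, v * w i = 0 := by
    intro i
    rw [← hvq, mul_assoc, sub_mul, hdw, hPw, sub_self, mul_zero]
  have hze0 : z * e ≠ 0 := by
    intro h0
    have hzv : z * v = 0 := by rw [← hpv, ← mul_assoc, h0, zero_mul]
    have h3 : v * star v = e := by
      rw [sub_mul, one_mul, h0, sub_zero, sub_mul, one_mul, ← mul_assoc, hzv, zero_mul, sub_zero] at hzp
      exact hzp.symm
    refine hmax (star v) (star_mem hvM) (by rw [star_star]; exact h3) fun i => ?_
    have := congrArg star (hvw i)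
    rwa [star_mul, star_zero] at this
  have hzC : CProj M z := ⟨hz, hzM, hzc⟩
  have hdv : d * v = v := by rw [← hpv, ← mul_assoc, hde]
  have hvvM : v * star v ∈ M := mul_mem hvM (star_mem hvM)
  obtain ⟨Z, hZdef⟩ : ∃ Z, Z = z * d := ⟨_, rfl⟩
  have hZ : CProj M Z := by rw [hZdef]; exact cproj_cmul hzC hd
  have hZc : ∀ x ∈ M, Z * x = x * Z := fun x hx => comm_of_mem hx hZ.comm
  have hZZ : Z * Z = Z := proj_mul hZ.proj
  have hZd : Z * d = Z := by rw [hZdef, mul_assoc, proj_mul hf]
  have hZe0 : Z * e ≠ 0 := by rw [hZdef, mul_assoc, hde]; exact hze0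
  have hZq : Z * (d - P) = Z * (star v * v) := by
    have h1 : Z = d * z := by rw [hZdef]; exact (comm_of_mem hfM hzc)
    rw [h1, mul_assoc, mul_assoc, hzq]
  obtain ⟨p, hpdef⟩ : ∃ p, p = Z * (v * star v) := ⟨_, rfl⟩
  have hpP : IsStarProjection p := by rw [hpdef]; exact cproj_mul hZ (pi_right hv) hvvM
  have hpM : p ∈ M := by rw [hpdef]; exact mul_mem hZ.mem hvvM
  have hep : e * p = p := by
    rw [hpdef, ← mul_assoc, ← hZc e he.mem, mul_assoc, ← mul_assoc e v, hpv]
  have hZp : Z * p = p := by rw [hpdef, ← mul_assoc, hZZ]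
  obtain ⟨y, hy, hye⟩ := ab_sub he hpP hpM hep
  obtain ⟨Y, hYdef⟩ : ∃ Y, Y = Z * y := ⟨_, rfl⟩
  have hY : CProj M Y := by rw [hYdef]; exact cproj_cmul hZ hy
  have hYe : Y * e = p := by rw [hYdef, mul_assoc, hye, hZp]
  have hZY : Z * Y = Y := by rw [hYdef, ← mul_assoc, hZZ]
  have hYY : Y * Y = Y := proj_mul hY.proj
  by_cases hcase : (Z - Y) * e = 0
  · -- `Z e = p`
    have hZe : Z * e = p := by
      rw [sub_mul, sub_eq_zero] at hcase
      rw [hcase, hYe]
    have hpc : Z * (v * star v) = Z * e := by rw [hZe, hpdef]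
    refine ⟨Z, hZ, fun h => hZe0 (by rw [h, zero_mul]), hZd, ?_⟩
    have hcop := copies_cut hZ hw
    have hsvZ : Z * star v = star v * Z := hZc _ (star_mem hvM)
    have hvZ : Z * v = v * Z := hZc _ hvM
    refine typeI_of_copies (n := m + 1) (u := Fin.cons (star v * Z) fun i => Z * w i) (ab_cut he hZ) hZ
      (Nat.succ_pos m) ⟨?_, ?_, ?_⟩ ?_
    · intro i
      refine Fin.cases ?_ (fun j => ?_) i
      · exact mul_mem (star_mem hvM) hZ.mem
      · exact hcop.1 j
    · intro i
      refine Fin.cases ?_ (fun j => ?_) i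
      · show star (star v * Z) * (star v * Z) = Z * e
        rw [star_mul, star_star, proj_star hZ.proj, mul_assoc, ← mul_assoc v, ← hZc _ hvvM, ← mul_assoc, hZZ, hpc]
      · exact hcop.2.1 j
    · have hoff : ∀ j, star (star v * Z) * (Z * w j) = 0 := by
        intro j
        rw [star_mul, star_star, proj_star hZ.proj, mul_assoc, ← mul_assoc v, ← hvZ, mul_assoc, hvw, mul_zero,
          mul_zero]
      intro i
      refine Fin.cases ?_ (fun i' => ?_) i
      · intro j
        refine Fin.cases ?_ (fun j' => ?_) j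
        · intro h; exact absurd rfl h
        · intro _; exact hoff j'
      · intro j
        refine Fin.cases ?_ (fun j' => ?_) j
        · intro _
          have := congrArg star (hoff i')
          rw [star_mul, star_star, star_zero] at this
          exact this
        · intro h
          exact hcop.2.2 i' j' fun h' => h (by rw [h'])
    · rw [Fin.sum_univ_succ]
      simp only [Fin.cons_zero, Fin.cons_succ]
      rw [copies_cut_sum hZ hw.1, ← hPdef]
      have h1 : star v * Z * star (star v * Z) = Z * (d - P) := by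
        rw [star_mul, star_star, proj_star hZ.proj, mul_assoc, ← mul_assoc Z Z, hZZ, hvZ, ← mul_assoc, hZq,
          hZc _ (mul_mem (star_mem hvM) hvM)]
      rw [h1, ← mul_add, sub_add_cancel, hZd]
  · obtain ⟨c, hcdef⟩ : ∃ c, c = Z - Y := ⟨_, rfl⟩
    have hc : CProj M c := by
      rw [hcdef]
      exact ⟨proj_sub hY.proj hZ.proj hZY, sub_mem hZ.mem hY.mem, sub_mem hZ.comm hY.comm⟩
    have hcc : ∀ x ∈ M, c * x = x * c := fun x hx => comm_of_mem hx hc.comm
    rw [← hcdef] at hcase
    have hYZ : Y * Z = Y := by rw [← hZc Y hY.mem, hZY]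
    have hcZ : c * Z = c := by rw [hcdef, sub_mul, hZZ, hYZ]
    have hcY : c * Y = 0 := by rw [hcdef, sub_mul, hZY, hYY, sub_self]
    have hcd : c * d = c := by rw [← hcZ, mul_assoc, hZd]
    have hcvv : c * (v * star v) = 0 := by
      rw [← hcZ, mul_assoc, ← hpdef, ← hYe, ← mul_assoc, hcY, zero_mul]
    have hcv : c * v = 0 := by
      rw [← hv, ← mul_assoc, hcvv, zero_mul]
    have hcq : c * (d - P) = 0 := by
      rw [← hcZ, mul_assoc, hZq, ← mul_assoc, hcZ, ← mul_assoc, hcc _ (star_mem hvM), mul_assoc, hcv, mul_zero]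
    have hcP : c * P = c := by
      rw [mul_sub, hcd, sub_eq_zero] at hcq
      exact hcq.symm
    have hc0 : c ≠ 0 := fun h => hcase (by rw [h, zero_mul])
    have hm : 0 < m := by
      rcases Nat.eq_zero_or_pos m with h | h
      · exfalso
        apply hc0
        subst h
        rw [← hcP, hPdef]
        simp
      · exact h
    refine ⟨c, hc, hc0, hcd, ?_⟩
    refine typeI_of_copies (ab_cut he hc) hc hm (copies_cut hc hw) ?_
    rw [copies_cut_sum hc hw.1, ← hPdef, hcP]

end Crest.Agent.R121.Ty
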