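import Crest.Agent.R121.TyDefs

/-! Row 121, module T, part S (helper80): support of a normal trace and absolute continuity.

`nrm_lim` (TyS1): `τ` is continuous along bounded weakly convergent families: for `ε` choose the finitely many vectors
of `Nrm` with error `ε / (3 (R+1))`, the finite sum converges.

`exists_null` (TyS2): `K = {x ∈ M : τ(x⋆x) = 0}` is a two sided ideal (`τ(x⋆y⋆y x) ≤ ‖y‖² τ(x⋆x)`,
`τ(y⋆x⋆x y) = τ(x y y⋆ x⋆) ≤ ‖y‖² τ(x x⋆)`, Cauchy-Schwarz for sums) and selfadjoint.  `L` = closure of the span of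
`{x v : x ∈ K, v}`; it is invariant under `M` and `M'`, so its projection `P` is central
(`R95.VN.starProjection_mem`, as in `R124.Cmp.exists_central`).  `τ P = 0`: for finitely many vectors of `H` and `δ > 0`
there is `a ∈ K`, `0 ≤ a ≤ 1` (so `τ a = 0`) with `‖(P - a) v_i‖ ≤ δ`: `P v_i` is near a finite sum `∑_j x_j w_j`,
`y = ∑ x_j x_j⋆ ∈ K`, `a = y (t + y)⁻¹` (cfc), `‖(1-a) x_j‖² ≤ ‖(1-a) y (1-a)‖ ≤ t`.  With the vectors `ξ_k` of `Nrm` this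
gives `|τ P| = |τ (P - a)| ≤ ε ‖P - a‖ + small`, so `τ P = 0`.  Alternatively use an ultrafilter over
`(Finset H) × ℕ` and `nrm_lim`.  The last claim: `a v ∈ L`.

`exists_trOn` (TyS3): `c = d (1 - P)`, `τ c = τ d ≠ 0` (`0 ≤ τ(dP) ≤ τ P = 0`), `τ' x = τ(c x) / τ c`.  (AC): otherwise there
are `a_n` with `‖a_n‖ ≤ 1`, `τ'(a_n⋆ a_n) ≤ 1/(n+1)`, `‖c a_n ξ‖ > ε`.  `b_n = a_n⋆ c a_n`, weak limit `S ∈ M` along
`hyperfilter ℕ` (`W.exists_wot_lim`, `exists_alg_lim`), `S ≥ 0`, `c S = S`, `τ S = lim τ b_n = 0` (`nrm_lim`),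
`⟪S ξ, ξ⟫ ≥ ε²`.  `S = s⋆ s` with `s = sqrt S ∈ M`, `P s = s`, `c s = s`, `c P = 0`: `s = 0`, contradiction. -/

set_option autoImplicit false

namespace Crest.Agent.R121.Ty

open scoped InnerProductSpace ComplexOrder
open Crest.Agent.R121 Filter Topology

variable {H : Type*} [NormedAddCommGroup H] [InnerProductSpace ℂ H] [CompleteSpace H]
variable {M : VonNeumannAlgebra H} {τ : M.toStarSubalgebra →L[ℂ] ℂ}

/-- TyS1 -/
theorem nrm_lim (hn : Nrm M τ) {ι : Type*} {l : Filter ι} (x : ι → M.toStarSubalgebra) {R : ℝ}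
    (hx : ∀ i, ‖x i‖ ≤ R) (S : M.toStarSubalgebra)
    (hS : ∀ ξ η : H, Tendsto (fun i => ⟪η, (x i : H →L[ℂ] H) ξ⟫_ℂ) l (𝓝 ⟪η, (S : H →L[ℂ] H) ξ⟫_ℂ)) :
    Tendsto (fun i => τ (x i)) l (𝓝 (τ S)) := by
  sorry

/-- TyS2 -/
theorem exists_null (h : Trc M τ) (hn : Nrm M τ) :
    ∃ (P : H →L[ℂ] H) (hP : CProj M P), τ ⟨P, hP.mem⟩ = 0 ∧
      ∀ a : M.toStarSubalgebra, τ (star a * a) = 0 → P * (a : H →L[ℂ] H) = a := by
  sorry

/-- TyS3 -/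
theorem exists_trOn (h : Trc M τ) (hn : Nrm M τ) {d : H →L[ℂ] H} (hd : CProj M d)
    (h0 : τ ⟨d, hd.mem⟩ ≠ 0) :
    ∃ (c : H →L[ℂ] H) (τ' : M.toStarSubalgebra →L[ℂ] ℂ), CProj M c ∧ c ≠ 0 ∧ c * d = c ∧
      TrOn M c τ' := by
  sorry

end Crest.Agent.R121.Ty
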